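import Crest.Agent.Lib.Bc.TvBounds
/-!
# Row 163, module B7: from the pair certificates to non-reconstruction

`Cert q` packages the pointwise inequalities CERT I, CERT II of `BLUEPRINT.md` (a class function `g`, multipliers
`α, β ≥ 0`, deficits `κ₂, κ₃ ≥ 0`).  From it:

* `Cert.class_prod`, `Cert.class_pow`: the class `{L | 0 ≤ Φ_L g}` is closed under products.
* `Cert.sub`: `s(L★L') ≤ s + s' - κ₂ s s' - κ₃ (s² s' + s s'²)` in the class.
* `Cert.pow_le`, `Cert.pow_two_le`: `s(L^c) ≤ c t`, and `s(L^c) ≤ c t - κ₂ t² - 2 κ₃ t³` for `c ≥ 2`.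
* `Cert.regular_tendsto`, `Cert.poisson_tendsto`: for a sequence of laws following the regular or the Poisson
  recursion with `b λ² ≤ 1`, `d λ² ≤ 1`, `Φ tvU → 0`.
-/
open scoped BigOperators
namespace Crest.Agent.Lib.Bc
open Crest.ProbabilityR.Broadcast
variable {q : ℕ}

lemma Esig_neg (g : (Fin q → ℝ) → ℝ) (x x' : Fin q → ℝ) :
    Esig q (fun y => - g y) x x' = - Esig q g x x' := by
  unfold Esig
  simp only [mul_neg, Finset.sum_neg_distrib, neg_div]

namespace SLaw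

lemma Φ_neg {L : SLaw q} (hq : 0 < q) {f : (Fin q → ℝ) → ℝ} (hf : BddS f) :
    L.Φ (fun x => - f x) = - L.Φ f := by
  have := L.Φ_const_mul hq (-1) hf
  simpa using this

lemma BddS.neg {f : (Fin q → ℝ) → ℝ} (hf : BddS f) : BddS (fun x => - f x) := by
  have := BddS.const_mul (-1) hf
  simpa using this

/-- the trivial observation is neutral for the product -/
lemma Φ_triv_prod (L : SLaw q) (f : (Fin q → ℝ) → ℝ) : ((triv q).prod L).Φ f = L.Φ f := by
  have e : ((triv q).prod L).Φ f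
      = ∑' p : Unit × L.O, ((triv q).prod L).mass p * f (((triv q).prod L).post p) := rfl
  rw [e, ← (Equiv.punitProd L.O).symm.tsum_eq]
  refine tsum_congr fun o => ?_
  have hw : ∀ i, ((triv q).prod L).w ((), o) i = L.w o i := fun i => by
    show (1 : ℝ) * L.w o i = L.w o i
    ring
  have h1 : ((triv q).prod L).mass ((), o) = L.mass o := by
    unfold mass; simp only [hw]
  have h2 : ((triv q).prod L).post ((), o) = L.post o := by
    funext i; unfold post; simp only [hw]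
  show ((triv q).prod L).mass ((), o) * f (((triv q).prod L).post ((), o)) = _
  rw [h1, h2]

lemma Φ_pow_one (L : SLaw q) (f : (Fin q → ℝ) → ℝ) : (L.pow 1).Φ f = L.Φ f :=
  Φ_triv_prod L f

end SLaw

/-- the pointwise certificates of the class method -/
structure Cert (q : ℕ) where
  g : (Fin q → ℝ) → ℝ
  α : (Fin q → ℝ) → ℝ
  β : (Fin q → ℝ) → ℝ
  κ₂ : ℝ
  κ₃ : ℝ
  hg : SLaw.BddS g
  hα : SLaw.BddS α
  hβ : SLaw.BddS β
  α_nonneg : ∀ x ∈ Simp q, 0 ≤ α x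
  β_nonneg : ∀ x ∈ Simp q, 0 ≤ β x
  κ₂_nonneg : 0 ≤ κ₂
  κ₃_nonneg : 0 ≤ κ₃
  /-- CERT I -/
  I : ∀ x ∈ Simp q, ∀ x' ∈ Simp q, α x' * g x + α x * g x' ≤ Esig q g x x'
  /-- CERT II -/
  II : ∀ x ∈ Simp q, ∀ x' ∈ Simp q,
    β x' * g x + β x * g x' + κ₂ * (aFn q x * aFn q x')
        + κ₃ * (aFn q x ^ 2 * aFn q x' + aFn q x * aFn q x' ^ 2)
      ≤ aFn q x + aFn q x' - Esig q (aFn q) x x'

namespace Cert

variable (C : Cert q)

lemma Φ_nonneg_of (hq : 0 < q) (L : SLaw q) {f : (Fin q → ℝ) → ℝ} (hf : SLaw.BddS f)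
    (h : ∀ x ∈ Simp q, 0 ≤ f x) : 0 ≤ L.Φ f := by
  have := L.Φ_mono hq (SLaw.BddS.const 0) hf h
  rwa [L.Φ_const hq] at this

/-- the class is closed under products -/
theorem class_prod (hq : 0 < q) {L L' : SLaw q} (h : 0 ≤ L.Φ C.g) (h' : 0 ≤ L'.Φ C.g) :
    0 ≤ (L.prod L').Φ C.g := by
  have key := SLaw.pair_le L L' hq (ι := Fin 2)
    (f := fun y => - C.g y)
    ![C.g, C.α] ![fun x => - C.α x, fun x => - C.g x]
    (SLaw.BddS.neg C.hg)
    (fun k => by fin_cases k <;> simp [C.hg, C.hα])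
    (fun k => by fin_cases k <;> simp [SLaw.BddS.neg C.hg, SLaw.BddS.neg C.hα])
    (fun x hx x' hx' => by
      rw [Esig_neg]
      have := C.I x hx x' hx'
      simp only [Fin.sum_univ_two, Matrix.cons_val_zero, Matrix.cons_val_one]
      nlinarith)
  simp only [Fin.sum_univ_two, Matrix.cons_val_zero, Matrix.cons_val_one] at key
  rw [SLaw.Φ_neg hq C.hg, SLaw.Φ_neg hq C.hα, SLaw.Φ_neg hq C.hg] at key
  have h1 : 0 ≤ L.Φ C.α := Φ_nonneg_of hq L C.hα C.α_nonneg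
  have h2 : 0 ≤ L'.Φ C.α := Φ_nonneg_of hq L' C.hα C.α_nonneg
  nlinarith [mul_nonneg h h2, mul_nonneg h1 h']

/-- the trivial observation, when the class function is nonnegative at the centre -/
theorem class_triv (hq : 0 < q) (hU : 0 ≤ C.g (fun _ => (1 : ℝ) / q)) (L : SLaw q) :
    0 ≤ (L.pow 0).Φ C.g := by
  rw [SLaw.Φ_pow_zero L hq]; exact hU

theorem class_pow (hq : 0 < q) (hU : 0 ≤ C.g (fun _ => (1 : ℝ) / q)) {L : SLaw q}
    (h : 0 ≤ L.Φ C.g) (c : ℕ) : 0 ≤ (L.pow c).Φ C.g := by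
  induction c with
  | zero => exact C.class_triv hq hU L
  | succ c ih => exact C.class_prod hq ih h

/-- the channel keeps the class when `γ g ≤ g ∘ T` on the simplex, `γ ≥ 0` -/
theorem class_tilt (hq : 0 < q) {lam γ : ℝ} (hch : ∀ i j : Fin q, 0 ≤ channel q lam i j)
    (hγ : 0 ≤ γ) (hT : ∀ x ∈ Simp q, γ * C.g x ≤ C.g (Tl q lam x)) {L : SLaw q}
    (h : 0 ≤ L.Φ C.g) : 0 ≤ (L.tilt lam hch).Φ C.g := by
  rw [L.Φ_tilt hq lam hch C.hg (fun x hx => SLaw.Tl_mem hq lam hch hx)]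
  have hb : SLaw.BddS (C.g ∘ Tl q lam) := by
    obtain ⟨D, hD⟩ := C.hg
    exact ⟨D, fun x hx => hD _ (SLaw.Tl_mem hq lam hch hx)⟩
  have := L.Φ_mono hq (SLaw.BddS.const_mul γ C.hg) hb hT
  rw [L.Φ_const_mul hq _ C.hg] at this
  exact (mul_nonneg hγ h).trans this

/-- the master subadditivity -/
theorem sub (hq : 2 ≤ q) {L L' : SLaw q} (h : 0 ≤ L.Φ C.g) (h' : 0 ≤ L'.Φ C.g) :
    (L.prod L').Φ (aFn q) ≤ L.Φ (aFn q) + L'.Φ (aFn q) - C.κ₂ * (L.Φ (aFn q) * L'.Φ (aFn q))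
      - C.κ₃ * ((L.Φ (aFn q)) ^ 2 * L'.Φ (aFn q) + L.Φ (aFn q) * (L'.Φ (aFn q)) ^ 2) := by
  have hq0 : 0 < q := by omega
  have ha : SLaw.BddS (aFn q) := BddS_aFn hq
  have ha2 : SLaw.BddS (fun x => aFn q x ^ 2) := SLaw.BddS.pow ha 2
  have hA : ∀ k : Fin 7, SLaw.BddS
      ((![aFn q, fun _ => 1, C.g, C.β, fun x => aFn q x, fun x => aFn q x ^ 2, fun x => aFn q x] :
        Fin 7 → (Fin q → ℝ) → ℝ) k) := by
    intro k; fin_cases k <;> simp [ha, ha2, C.hg, C.hβ, SLaw.BddS.const]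
  have hB : ∀ k : Fin 7, SLaw.BddS
      ((![fun _ => 1, aFn q, fun x => - C.β x, fun x => - C.g x, fun x => (- C.κ₂) * aFn q x,
        fun x => (- C.κ₃) * aFn q x, fun x => (- C.κ₃) * aFn q x ^ 2] :
        Fin 7 → (Fin q → ℝ) → ℝ) k) := by
    intro k; fin_cases k <;> simp
    all_goals first
      | exact SLaw.BddS.const _ | exact ha | exact SLaw.BddS.neg C.hg | exact SLaw.BddS.neg C.hβ
      | exact SLaw.BddS.const_mul _ ha | exact SLaw.BddS.const_mul _ ha2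
      | simpa using SLaw.BddS.const_mul (-C.κ₂) ha
      | simpa using SLaw.BddS.const_mul (-C.κ₃) ha
      | simpa using SLaw.BddS.const_mul (-C.κ₃) ha2
  have key := SLaw.pair_le L L' hq0 (ι := Fin 7) (f := aFn q) _ _ ha hA hB
    (fun x hx x' hx' => by
      have := C.II x hx x' hx'
      simp only [Fin.sum_univ_succ, Fin.sum_univ_zero, Matrix.cons_val_zero, Matrix.cons_val_succ]
      nlinarith)
  simp only [Fin.sum_univ_succ, Fin.sum_univ_zero, Matrix.cons_val_zero, Matrix.cons_val_succ] at key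
  rw [SLaw.Φ_neg hq0 C.hβ, SLaw.Φ_neg hq0 C.hg, L'.Φ_const hq0, L.Φ_const hq0,
    L'.Φ_const_mul hq0 _ ha, L'.Φ_const_mul hq0 _ ha, L'.Φ_const_mul hq0 _ ha2] at key
  have s0 : 0 ≤ L.Φ (aFn q) := L.Φ_aFn_nonneg hq
  have s0' : 0 ≤ L'.Φ (aFn q) := L'.Φ_aFn_nonneg hq
  have b1 : 0 ≤ L.Φ C.β := Φ_nonneg_of hq0 L C.hβ C.β_nonneg
  have b2 : 0 ≤ L'.Φ C.β := Φ_nonneg_of hq0 L' C.hβ C.β_nonneg
  have j1 : (L.Φ (aFn q)) ^ 2 ≤ L.Φ (fun x => aFn q x ^ 2) := L.sq_Φ_le hq0 ha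
  have j2 : (L'.Φ (aFn q)) ^ 2 ≤ L'.Φ (fun x => aFn q x ^ 2) := L'.sq_Φ_le hq0 ha
  have t1 := mul_nonneg h b2
  have t2 := mul_nonneg b1 h'
  have t3 : C.κ₃ * ((L.Φ (aFn q)) ^ 2 * L'.Φ (aFn q)) ≤ C.κ₃ * (L.Φ (fun x => aFn q x ^ 2) * L'.Φ (aFn q)) :=
    mul_le_mul_of_nonneg_left (mul_le_mul_of_nonneg_right j1 s0') C.κ₃_nonneg
  have t4 : C.κ₃ * (L.Φ (aFn q) * (L'.Φ (aFn q)) ^ 2) ≤ C.κ₃ * (L.Φ (aFn q) * L'.Φ (fun x => aFn q x ^ 2)) :=
    mul_le_mul_of_nonneg_left (mul_le_mul_of_nonneg_left j2 s0) C.κ₃_nonneg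
  nlinarith

/-- deficit of a square -/
noncomputable def D (t : ℝ) : ℝ := C.κ₂ * t ^ 2 + 2 * C.κ₃ * t ^ 3

lemma D_nonneg {t : ℝ} (ht : 0 ≤ t) : 0 ≤ C.D t := by
  have := C.κ₂_nonneg
  have := C.κ₃_nonneg
  unfold D
  positivity

/-- subadditivity of the powers -/
theorem pow_le (hq : 2 ≤ q) (hU : 0 ≤ C.g (fun _ => (1 : ℝ) / q)) {L : SLaw q}
    (h : 0 ≤ L.Φ C.g) (c : ℕ) : (L.pow c).Φ (aFn q) ≤ c * L.Φ (aFn q) := by
  have hq0 : 0 < q := by omega
  induction c with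
  | zero =>
    have : aFn q (fun _ => (1 : ℝ) / q) = 0 := by
      have hq1 : (2 : ℝ) ≤ q := by exact_mod_cast hq
      have hq' : (q : ℝ) ≠ 0 := by positivity
      unfold aFn
      simp [Finset.sum_const, Finset.card_univ]
      field_simp
      simp
    rw [SLaw.Φ_pow_zero L hq0, this]; simp
  | succ c ih =>
    have h1 := C.sub hq (C.class_pow hq0 hU h c) h
    have s0 : 0 ≤ L.Φ (aFn q) := L.Φ_aFn_nonneg hq
    have s1 : 0 ≤ (L.pow c).Φ (aFn q) := (L.pow c).Φ_aFn_nonneg hq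
    have a1 := mul_nonneg C.κ₂_nonneg (mul_nonneg s1 s0)
    have a2 := mul_nonneg C.κ₃_nonneg
      (add_nonneg (mul_nonneg (sq_nonneg ((L.pow c).Φ (aFn q))) s0) (mul_nonneg s1 (sq_nonneg (L.Φ (aFn q)))))
    have : (L.pow (c + 1)).Φ (aFn q) = ((L.pow c).prod L).Φ (aFn q) := rfl
    rw [this]
    push_cast
    linarith

/-- `s(L²) ≤ 2t - D t`: the deficit. -/
theorem pow_two_le (hq : 2 ≤ q) (hU : 0 ≤ C.g (fun _ => (1 : ℝ) / q)) {L : SLaw q}
    (h : 0 ≤ L.Φ C.g) : (L.pow 2).Φ (aFn q) ≤ 2 * L.Φ (aFn q) - C.D (L.Φ (aFn q)) := by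
  have hq0 : 0 < q := by omega
  have h1 := C.sub hq (C.class_pow hq0 hU h 1) h
  have e : ((L.pow 1)).Φ (aFn q) = L.Φ (aFn q) := SLaw.Φ_pow_one L _
  rw [e] at h1
  have : (L.pow 2).Φ (aFn q) = ((L.pow 1).prod L).Φ (aFn q) := rfl
  rw [this]
  refine h1.trans (le_of_eq ?_)
  unfold D
  ring

/-- `s(L^c) ≤ c t - D t` for `c ≥ 2` -/
theorem pow_ge_two_le (hq : 2 ≤ q) (hU : 0 ≤ C.g (fun _ => (1 : ℝ) / q)) {L : SLaw q}
    (h : 0 ≤ L.Φ C.g) {c : ℕ} (hc : 2 ≤ c) :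
    (L.pow c).Φ (aFn q) ≤ c * L.Φ (aFn q) - C.D (L.Φ (aFn q)) := by
  have hq0 : 0 < q := by omega
  induction c, hc using Nat.le_induction with
  | base => simpa using C.pow_two_le hq hU h
  | succ c _ ih =>
    have h1 := C.sub hq (C.class_pow hq0 hU h c) h
    have s0 : 0 ≤ L.Φ (aFn q) := L.Φ_aFn_nonneg hq
    have s1 : 0 ≤ (L.pow c).Φ (aFn q) := (L.pow c).Φ_aFn_nonneg hq
    have a1 := mul_nonneg C.κ₂_nonneg (mul_nonneg s1 s0)
    have a2 := mul_nonneg C.κ₃_nonneg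
      (add_nonneg (mul_nonneg (sq_nonneg ((L.pow c).Φ (aFn q))) s0) (mul_nonneg s1 (sq_nonneg (L.Φ (aFn q)))))
    have : (L.pow (c + 1)).Φ (aFn q) = ((L.pow c).prod L).Φ (aFn q) := rfl
    rw [this]
    push_cast
    linarith

end Cert

/-- a nonnegative sequence with `s_{n+1} ≤ s_n - P(s_n)`, `P` continuous, nonnegative, vanishing only at `0`
on `[0,∞)`, tends to `0` -/
theorem tendsto_zero_of_decrease {s : ℕ → ℝ} {P : ℝ → ℝ} (h0 : ∀ n, 0 ≤ s n)
    (hP : Continuous P) (hP0 : ∀ t, 0 ≤ t → 0 ≤ P t) (hP1 : ∀ t, 0 ≤ t → P t = 0 → t = 0)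
    (hs : ∀ n, s (n + 1) ≤ s n - P (s n)) : Filter.Tendsto s Filter.atTop (nhds 0) := by
  have hanti : Antitone s := antitone_nat_of_succ_le fun n => by
    linarith [hs n, hP0 _ (h0 n)]
  have hbdd : BddBelow (Set.range s) := ⟨0, by rintro _ ⟨n, rfl⟩; exact h0 n⟩
  have hlim := tendsto_atTop_ciInf hanti hbdd
  set l := ⨅ n, s n with hl
  have hl0 : 0 ≤ l := le_ciInf h0
  have h1 : Filter.Tendsto (fun n => s (n + 1)) Filter.atTop (nhds l) :=
    (Filter.tendsto_add_atTop_iff_nat 1).2 hlim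
  have h2 : Filter.Tendsto (fun n => s n - P (s n)) Filter.atTop (nhds (l - P l)) :=
    hlim.sub (hP.tendsto l |>.comp hlim)
  have h3 : l ≤ l - P l := le_of_tendsto_of_tendsto' h1 h2 hs
  have h4 : P l = 0 := le_antisymm (by linarith) (hP0 l hl0)
  have h5 := hP1 l hl0 h4
  rwa [h5] at hlim

namespace Cert
variable (C : Cert q)

/-- the generic descent: if `s_{n+1} ≤ s_n - m * D (lam² s_n)`, `m>0` then `s → 0` -/
theorem tendsto_of_descent (hκ : 0 < C.κ₂ + C.κ₃) {lam m : ℝ} (hm : 0 < m) {s : ℕ → ℝ}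
    (h0 : ∀ n, 0 ≤ s n) (hs : ∀ n, s (n + 1) ≤ s n - m * C.D (lam ^ 2 * s n))
    (hlam : lam = 0 → ∀ n, s (n + 1) ≤ 0) : Filter.Tendsto s Filter.atTop (nhds 0) := by
  by_cases hl : lam = 0
  · have hz : ∀ n, s (n + 1) = 0 := fun n => le_antisymm (hlam hl n) (h0 _)
    have : Filter.Tendsto (fun n => s (n + 1)) Filter.atTop (nhds 0) := by
      simp only [hz]; exact tendsto_const_nhds
    exact (Filter.tendsto_add_atTop_iff_nat 1).1 this
  · have hl2 : 0 < lam ^ 2 := by positivity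
    refine tendsto_zero_of_decrease (P := fun t => m * C.D (lam ^ 2 * t)) h0 ?_ ?_ ?_ hs
    · unfold D; fun_prop
    · intro t ht
      exact mul_nonneg hm.le (C.D_nonneg (mul_nonneg hl2.le ht))
    · intro t ht h
      by_contra hne
      have ht' : 0 < lam ^ 2 * t := mul_pos hl2 (lt_of_le_of_ne ht (Ne.symm hne))
      have h1 : C.D (lam ^ 2 * t) = 0 := by
        rcases mul_eq_zero.1 h with h | h
        · exact absurd h hm.ne'
        · exact h
      have hk2 := C.κ₂_nonneg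
      have hk3 := C.κ₃_nonneg
      unfold D at h1
      have p2 : 0 < (lam ^ 2 * t) ^ 2 := by positivity
      have p3 : 0 < (lam ^ 2 * t) ^ 3 := by positivity
      rcases lt_or_eq_of_le hk2 with h2 | h2
      · have := mul_pos h2 p2
        have := mul_nonneg hk3 p3.le
        nlinarith
      · have hk : 0 < C.κ₃ := by linarith
        have := mul_pos hk p3
        rw [← h2] at h1
        nlinarith

/-- **regular tree**: a sequence of laws following the `b`-ary recursion, starting in the class, with `b λ² ≤ 1`. -/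
theorem regular_tendsto (hq : 2 ≤ q) (hκ : 0 < C.κ₂ + C.κ₃) (hU : 0 ≤ C.g (fun _ => (1 : ℝ) / q))
    {lam γ : ℝ} (hch : ∀ i j : Fin q, 0 ≤ channel q lam i j) (hγ : 0 ≤ γ)
    (hT : ∀ x ∈ Simp q, γ * C.g x ≤ C.g (Tl q lam x)) {b : ℕ} (hb : 2 ≤ b)
    (hbl : (b : ℝ) * lam ^ 2 ≤ 1) (M : ℕ → SLaw q) (hM0 : 0 ≤ (M 0).Φ C.g)
    (hM : ∀ n (f : (Fin q → ℝ) → ℝ), SLaw.BddS f →
      (M (n + 1)).Φ f = (((M n).tilt lam hch).pow b).Φ f) :
    Filter.Tendsto (fun n => (M n).Φ (tvU q)) Filter.atTop (nhds 0) := by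
  have hq0 : 0 < q := by omega
  have hcl : ∀ n, 0 ≤ (M n).Φ C.g := by
    intro n
    induction n with
    | zero => exact hM0
    | succ n ih =>
      rw [hM n _ C.hg]
      exact C.class_pow hq0 hU (C.class_tilt hq0 hch hγ hT ih) b
  have hstep : ∀ n, (M (n + 1)).Φ (aFn q)
      ≤ b * (lam ^ 2 * (M n).Φ (aFn q)) - C.D (lam ^ 2 * (M n).Φ (aFn q)) := by
    intro n
    rw [hM n _ (BddS_aFn hq)]
    have := C.pow_ge_two_le hq hU (C.class_tilt hq0 hch hγ hT (hcl n)) hb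
    rwa [SLaw.Φ_aFn_tilt _ hq] at this
  refine tendsto_Φ_tvU_of_aFn hq M ?_
  refine C.tendsto_of_descent hκ (lam := lam) (m := 1) one_pos (fun n => (M n).Φ_aFn_nonneg hq) ?_ ?_
  · intro n
    have h1 := hstep n
    have s0 := (M n).Φ_aFn_nonneg hq
    have h2 : (b : ℝ) * (lam ^ 2 * (M n).Φ (aFn q)) ≤ (M n).Φ (aFn q) := by
      have := mul_le_mul_of_nonneg_right hbl s0
      linarith
    linarith
  · intro h0 n
    have h1 := hstep n
    simp only [h0] at h1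
    have hD : C.D 0 = 0 := by unfold D; simp
    simpa [hD] using h1

/-- the Poisson weights -/
noncomputable def pw (d : ℝ) (c : ℕ) : ℝ := Real.exp (-d) * d ^ c / Nat.factorial c

lemma pw_nonneg {d : ℝ} (hd : 0 ≤ d) (c : ℕ) : 0 ≤ pw d c := by
  unfold pw; positivity

lemma hasSum_pw (d : ℝ) : HasSum (pw d) 1 := by
  have h := (NormedSpace.expSeries_div_hasSum_exp d).mul_left (Real.exp (-d))
  rw [← Real.exp_eq_exp_ℝ] at h
  have e : Real.exp (-d) * Real.exp d = 1 := by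
    rw [← Real.exp_add]; simp
  rw [e] at h
  refine h.congr_fun ?_ |> fun h' => h'
  intro c
  unfold pw; ring

lemma hasSum_pw_mul (d : ℝ) : HasSum (fun c : ℕ => pw d c * c) d := by
  have h := (hasSum_pw d).mul_left d
  rw [mul_one] at h
  have h2 : HasSum (fun c : ℕ => pw d (c + 1) * ((c + 1 : ℕ) : ℝ)) d := by
    refine h.congr_fun ?_ |> fun h' => h'
    intro c
    unfold pw
    rw [Nat.factorial_succ]
    push_cast
    have h1 : ((c : ℝ) + 1) ≠ 0 := by positivity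
    have h2 : ((Nat.factorial c : ℕ) : ℝ) ≠ 0 := by positivity
    field_simp
    ring
  have h3 := (hasSum_nat_add_iff' (f := fun c : ℕ => pw d c * c) 1).1
    (by simpa using h2)
  simpa using h3

/-- **Poisson tree**. -/
theorem poisson_tendsto (hq : 2 ≤ q) (hκ : 0 < C.κ₂ + C.κ₃) (hU : 0 ≤ C.g (fun _ => (1 : ℝ) / q))
    {lam γ : ℝ} (hch : ∀ i j : Fin q, 0 ≤ channel q lam i j) (hγ : 0 ≤ γ)
    (hT : ∀ x ∈ Simp q, γ * C.g x ≤ C.g (Tl q lam x)) {d : ℝ} (hd : 0 < d)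
    (hdl : d * lam ^ 2 ≤ 1) (M : ℕ → SLaw q) (hM0 : 0 ≤ (M 0).Φ C.g)
    (hM : ∀ n (f : (Fin q → ℝ) → ℝ), SLaw.BddS f →
      (M (n + 1)).Φ f = ∑' c : ℕ, (Real.exp (-d) * d ^ c / Nat.factorial c) *
          (((M n).tilt lam hch).pow c).Φ f) :
    Filter.Tendsto (fun n => (M n).Φ (tvU q)) Filter.atTop (nhds 0) := by
  have hq0 : 0 < q := by omega
  have hsc : ∀ (L : SLaw q) (f : (Fin q → ℝ) → ℝ), (∀ c, (L.pow c).Φ f ≤ 1) → (∀ c, 0 ≤ (L.pow c).Φ f) →
      Summable (fun c : ℕ => pw d c * (L.pow c).Φ f) := by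
    intro L f h1 h2
    refine Summable.of_nonneg_of_le (fun c => mul_nonneg (pw_nonneg hd.le c) (h2 c)) (fun c => ?_)
      (hasSum_pw d).summable
    have := mul_le_mul_of_nonneg_left (h1 c) (pw_nonneg hd.le c)
    simpa using this
  have hcl : ∀ n, 0 ≤ (M n).Φ C.g := by
    intro n
    induction n with
    | zero => exact hM0
    | succ n ih =>
      rw [hM n _ C.hg]
      exact tsum_nonneg fun c => mul_nonneg (pw_nonneg hd.le c)
        (C.class_pow hq0 hU (C.class_tilt hq0 hch hγ hT ih) c)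
  have hstep : ∀ n, (M (n + 1)).Φ (aFn q)
      ≤ d * (lam ^ 2 * (M n).Φ (aFn q)) - pw d 2 * C.D (lam ^ 2 * (M n).Φ (aFn q)) := by
    intro n
    rw [hM n _ (BddS_aFn hq)]
    set L := (M n).tilt lam hch with hL
    have hLt : L.Φ (aFn q) = lam ^ 2 * (M n).Φ (aFn q) := SLaw.Φ_aFn_tilt _ hq lam hch
    rw [← hLt]
    set t := L.Φ (aFn q) with ht
    have hLc : 0 ≤ L.Φ C.g := C.class_tilt hq0 hch hγ hT (hcl n)
    have hs1 : Summable (fun c : ℕ => pw d c * (L.pow c).Φ (aFn q)) :=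
      hsc L _ (fun c => (L.pow c).Φ_aFn_le_one hq) (fun c => (L.pow c).Φ_aFn_nonneg hq)
    have hsum2 : HasSum (fun c : ℕ => pw d c * c * t - (if c = 2 then pw d 2 * C.D t else 0))
        (d * t - pw d 2 * C.D t) :=
      ((hasSum_pw_mul d).mul_right t).sub (hasSum_ite_eq 2 (pw d 2 * C.D t))
    have hle : ∀ c : ℕ, pw d c * (L.pow c).Φ (aFn q)
        ≤ pw d c * c * t - (if c = 2 then pw d 2 * C.D t else 0) := by
      intro c
      by_cases hc : c = 2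
      · subst hc
        have := mul_le_mul_of_nonneg_left (C.pow_two_le hq hU hLc) (pw_nonneg hd.le 2)
        simp only [if_true]
        push_cast
        nlinarith
      · simp only [if_neg hc, sub_zero]
        have := mul_le_mul_of_nonneg_left (C.pow_le hq hU hLc c) (pw_nonneg hd.le c)
        nlinarith
    have := hs1.tsum_le_tsum hle hsum2.summable
    rw [hsum2.tsum_eq] at this
    exact this
  refine tendsto_Φ_tvU_of_aFn hq M ?_
  have hp2 : 0 < pw d 2 := by unfold pw; positivity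
  refine C.tendsto_of_descent hκ (lam := lam) (m := pw d 2) hp2 (fun n => (M n).Φ_aFn_nonneg hq) ?_ ?_
  · intro n
    have h1 := hstep n
    have s0 := (M n).Φ_aFn_nonneg hq
    have h2 : d * (lam ^ 2 * (M n).Φ (aFn q)) ≤ (M n).Φ (aFn q) := by
      have := mul_le_mul_of_nonneg_right hdl s0
      linarith
    linarith
  · intro h0 n
    have h1 := hstep n
    simp only [h0] at h1
    have hD : C.D 0 = 0 := by unfold D; simp
    simpa [hD] using h1

end Cert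

end Crest.Agent.Lib.Bc
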