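import Crest.Agent.Lib.Bc.Core
/-!
# Row 163: the law API (module B1 of BLUEPRINT.md).
-/
open scoped BigOperators
namespace Crest.Agent.Lib.Bc
variable {q : ℕ}

lemma dotZ_nonneg {x x' : Fin q → ℝ} (hx : x ∈ Simp q) (hx' : x' ∈ Simp q) : 0 ≤ dotZ q x x' := by
  unfold dotZ
  exact mul_nonneg (Nat.cast_nonneg _) (Finset.sum_nonneg fun i _ => mul_nonneg (hx.1 i) (hx'.1 i))

lemma Simp.le_one {x : Fin q → ℝ} (hx : x ∈ Simp q) (i : Fin q) : x i ≤ 1 := by
  rw [← hx.2]
  exact Finset.single_le_sum (fun j _ => hx.1 j) (Finset.mem_univ i)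

lemma dotZ_le {x x' : Fin q → ℝ} (hx : x ∈ Simp q) (hx' : x' ∈ Simp q) : dotZ q x x' ≤ q := by
  unfold dotZ
  have : ∑ i, x i * x' i ≤ ∑ i, x i := Finset.sum_le_sum fun i _ => by
    have := Simp.le_one hx' i
    have := hx.1 i
    nlinarith
  rw [hx.2] at this
  have hq : (0 : ℝ) ≤ q := Nat.cast_nonneg _
  nlinarith

lemma comp_mem_Simp (σ : Equiv.Perm (Fin q)) {x : Fin q → ℝ} (hx : x ∈ Simp q) : x ∘ σ ∈ Simp q :=
  ⟨fun i => hx.1 _, by simpa using (Equiv.sum_comp σ x).trans hx.2⟩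

lemma unif_mem_Simp (hq : 0 < q) : (fun _ : Fin q => (1 : ℝ) / q) ∈ Simp q := by
  refine ⟨fun _ => by positivity, ?_⟩
  have : (q : ℝ) ≠ 0 := by positivity
  simp [this]

lemma star_mem (hq : 0 < q) {x x' : Fin q → ℝ} (hx : x ∈ Simp q) (hx' : x' ∈ Simp q) :
    star q x x' ∈ Simp q := by
  by_cases h : ∑ j, x j * x' j = 0
  · have : star q x x' = fun _ => (1 : ℝ) / q := by
      funext i; simp [star, h]
    rw [this]; exact unif_mem_Simp hq
  · have hpos : 0 ≤ ∑ j, x j * x' j := Finset.sum_nonneg fun i _ => mul_nonneg (hx.1 i) (hx'.1 i)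
    have : star q x x' = fun i => x i * x' i / ∑ j, x j * x' j := by
      funext i; simp [star, h]
    rw [this]
    refine ⟨fun i => div_nonneg (mul_nonneg (hx.1 i) (hx'.1 i)) hpos, ?_⟩
    rw [← Finset.sum_div, div_self h]

namespace SLaw
variable (L L' : SLaw q)

lemma sum_w_nonneg (o : L.O) : 0 ≤ ∑ i, L.w o i := Finset.sum_nonneg fun i _ => L.nonneg o i

lemma mass_nonneg (_hq : 0 < q) (o : L.O) : 0 ≤ L.mass o :=
  div_nonneg (L.sum_w_nonneg o) (Nat.cast_nonneg _)

lemma post_mem (hq : 0 < q) (o : L.O) : L.post o ∈ Simp q := by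
  by_cases h : ∑ j, L.w o j = 0
  · have : L.post o = fun _ => (1 : ℝ) / q := by
      funext i; simp [post, h]
    rw [this]; exact unif_mem_Simp hq
  · have : L.post o = fun i => L.w o i / ∑ j, L.w o j := by
      funext i; simp [post, h]
    rw [this]
    refine ⟨fun i => div_nonneg (L.nonneg o i) (L.sum_w_nonneg o), ?_⟩
    rw [← Finset.sum_div, div_self h]

lemma w_eq_zero_of_sum {o : L.O} (h : ∑ j, L.w o j = 0) (i : Fin q) : L.w o i = 0 :=
  (Finset.sum_eq_zero_iff_of_nonneg (fun j _ => L.nonneg o j)).1 h i (Finset.mem_univ i)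

/-- `w o i = q * mass o * post o i` -/
lemma w_eq (hq : 0 < q) (o : L.O) (i : Fin q) : L.w o i = q * L.mass o * L.post o i := by
  have hq' : (q : ℝ) ≠ 0 := by positivity
  unfold mass post
  by_cases h : ∑ j, L.w o j = 0
  · simp [h, L.w_eq_zero_of_sum h i]
  · simp only [h, if_false]
    field_simp

lemma hasSum_mass (hq : 0 < q) : HasSum L.mass 1 := by
  have hq' : (q : ℝ) ≠ 0 := by positivity
  have h1 := hasSum_sum (s := Finset.univ) (fun (i : Fin q) _ => L.sum_one i)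
  have h2 := h1.div_const (q : ℝ)
  have h3 : (∑ _i : Fin q, (1 : ℝ)) / q = 1 := by simp [hq']
  rw [h3] at h2
  exact h2

lemma summable_mass (hq : 0 < q) : Summable L.mass := (L.hasSum_mass hq).summable

/-- boundedness on the simplex, the standing hypothesis for all `Φ` lemmas -/
def BddS (f : (Fin q → ℝ) → ℝ) : Prop := ∃ C, ∀ x ∈ Simp q, |f x| ≤ C

lemma summable_Φ (hq : 0 < q) {f : (Fin q → ℝ) → ℝ} (hf : BddS f) :
    Summable (fun o => L.mass o * f (L.post o)) := by
  obtain ⟨C, hC⟩ := hf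
  refine Summable.of_norm_bounded (g := fun o => L.mass o * C) ((L.summable_mass hq).mul_right C) ?_
  intro o
  rw [Real.norm_eq_abs, abs_mul, abs_of_nonneg (L.mass_nonneg hq o)]
  exact mul_le_mul_of_nonneg_left (hC _ (L.post_mem hq o)) (L.mass_nonneg hq o)

lemma Φ_mono (hq : 0 < q) {f g : (Fin q → ℝ) → ℝ} (hf : BddS f) (hg : BddS g)
    (h : ∀ x ∈ Simp q, f x ≤ g x) : L.Φ f ≤ L.Φ g :=
  (L.summable_Φ hq hf).tsum_le_tsum
    (fun o => mul_le_mul_of_nonneg_left (h _ (L.post_mem hq o)) (L.mass_nonneg hq o))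
    (L.summable_Φ hq hg)

lemma BddS.add {f g : (Fin q → ℝ) → ℝ} (hf : BddS f) (hg : BddS g) : BddS (fun x => f x + g x) := by
  obtain ⟨C, hC⟩ := hf
  obtain ⟨D, hD⟩ := hg
  exact ⟨C + D, fun x hx => (abs_add_le _ _).trans (add_le_add (hC x hx) (hD x hx))⟩

lemma BddS.const_mul {f : (Fin q → ℝ) → ℝ} (c : ℝ) (hf : BddS f) : BddS (fun x => c * f x) := by
  obtain ⟨C, hC⟩ := hf
  refine ⟨|c| * C, fun x hx => ?_⟩
  rw [abs_mul]
  exact mul_le_mul_of_nonneg_left (hC x hx) (abs_nonneg c)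

lemma BddS.mul {f g : (Fin q → ℝ) → ℝ} (hf : BddS f) (hg : BddS g) : BddS (fun x => f x * g x) := by
  obtain ⟨C, hC⟩ := hf
  obtain ⟨D, hD⟩ := hg
  refine ⟨C * D, fun x hx => ?_⟩
  rw [abs_mul]
  exact mul_le_mul (hC x hx) (hD x hx) (abs_nonneg _) ((abs_nonneg _).trans (hC x hx))

lemma BddS.const (c : ℝ) : BddS (fun _ : Fin q → ℝ => c) := ⟨|c|, fun _ _ => le_rfl⟩

lemma BddS.pow {f : (Fin q → ℝ) → ℝ} (hf : BddS f) (n : ℕ) : BddS (fun x => f x ^ n) := by
  induction n with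
  | zero => simpa using BddS.const (1 : ℝ)
  | succ n ih => simpa [pow_succ] using BddS.mul ih hf

lemma BddS.sum {ι : Type*} (s : Finset ι) {f : ι → (Fin q → ℝ) → ℝ} (hf : ∀ k ∈ s, BddS (f k)) :
    BddS (fun x => ∑ k ∈ s, f k x) := by
  classical
  induction s using Finset.induction_on with
  | empty => simpa using BddS.const (0 : ℝ)
  | insert a s ha ih =>
    have h1 := hf a (Finset.mem_insert_self a s)
    have h2 := ih (fun k hk => hf k (Finset.mem_insert_of_mem hk))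
    simpa [Finset.sum_insert ha] using BddS.add h1 h2

lemma Φ_add (hq : 0 < q) {f g : (Fin q → ℝ) → ℝ} (hf : BddS f) (hg : BddS g) :
    L.Φ (fun x => f x + g x) = L.Φ f + L.Φ g := by
  unfold Φ
  rw [← (L.summable_Φ hq hf).tsum_add (L.summable_Φ hq hg)]
  exact tsum_congr fun o => by ring

lemma Φ_const_mul (_hq : 0 < q) {f : (Fin q → ℝ) → ℝ} (c : ℝ) (_hf : BddS f) :
    L.Φ (fun x => c * f x) = c * L.Φ f := by
  unfold Φ
  rw [← tsum_mul_left]
  exact tsum_congr fun o => by ring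

lemma Φ_const (hq : 0 < q) (c : ℝ) : L.Φ (fun _ => c) = c := by
  unfold Φ
  rw [tsum_mul_right, (L.hasSum_mass hq).tsum_eq, one_mul]

lemma Φ_sum (hq : 0 < q) {ι : Type*} (s : Finset ι) {f : ι → (Fin q → ℝ) → ℝ} (hf : ∀ k ∈ s, BddS (f k)) :
    L.Φ (fun x => ∑ k ∈ s, f k x) = ∑ k ∈ s, L.Φ (f k) := by
  classical
  induction s using Finset.induction_on with
  | empty => simpa using L.Φ_const hq 0
  | insert a s ha ih =>
    have h1 := hf a (Finset.mem_insert_self a s)
    have h2 := fun k hk => hf k (Finset.mem_insert_of_mem hk)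
    simp only [Finset.sum_insert ha]
    rw [L.Φ_add hq h1 (BddS.sum s h2), ih h2]

/-- Jensen / Cauchy-Schwarz -/
lemma sq_Φ_le (hq : 0 < q) {f : (Fin q → ℝ) → ℝ} (hf : BddS f) :
    (L.Φ f) ^ 2 ≤ L.Φ (fun x => f x ^ 2) := by
  set m := L.Φ f with hm
  have h0 : 0 ≤ L.Φ (fun x => (f x - m) ^ 2) := by
    have hb : BddS (fun x => (f x - m) ^ 2) := by
      have := BddS.pow (BddS.add hf (BddS.const (-m))) 2
      simpa [sub_eq_add_neg] using this
    have := L.Φ_mono hq (BddS.const 0) hb (fun x _ => sq_nonneg (f x - m))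
    rwa [L.Φ_const hq] at this
  have h1 : (fun x => (f x - m) ^ 2) = fun x => (f x ^ 2 + (-2 * m) * f x) + m ^ 2 := by
    funext x; ring
  rw [h1, L.Φ_add hq (BddS.add (BddS.pow hf 2) (BddS.const_mul _ hf)) (BddS.const _),
    L.Φ_add hq (BddS.pow hf 2) (BddS.const_mul _ hf), L.Φ_const_mul hq _ hf, L.Φ_const hq, ← hm] at h0
  nlinarith

lemma Tl_mem (hq : 0 < q) (lam : ℝ) (h : ∀ i j : Fin q, 0 ≤ Crest.ProbabilityR.Broadcast.channel q lam i j)
    {x : Fin q → ℝ} (hx : x ∈ Simp q) : Tl q lam x ∈ Simp q := by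
  have hq' : (q : ℝ) ≠ 0 := by positivity
  constructor
  · intro i
    have : Tl q lam x i = ∑ j, Crest.ProbabilityR.Broadcast.channel q lam i j * x j := by
      unfold Tl Crest.ProbabilityR.Broadcast.channel
      simp only [add_mul, Finset.sum_add_distrib, ite_mul, zero_mul, Finset.sum_ite_eq,
        Finset.mem_univ, if_true, ← Finset.mul_sum, hx.2, mul_one]
    rw [this]
    exact Finset.sum_nonneg fun j _ => mul_nonneg (h i j) (hx.1 j)
  · unfold Tl
    rw [Finset.sum_add_distrib, ← Finset.mul_sum, hx.2]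
    simp
    field_simp
    ring

lemma tilt_sum (lam : ℝ) (h : ∀ i j : Fin q, 0 ≤ Crest.ProbabilityR.Broadcast.channel q lam i j) (o : L.O) :
    ∑ i, (L.tilt lam h).w o i = ∑ j, L.w o j := by
  show ∑ i, ∑ j, Crest.ProbabilityR.Broadcast.channel q lam i j * L.w o j = _
  rw [Finset.sum_comm]
  refine Finset.sum_congr rfl fun j _ => ?_
  rw [← Finset.sum_mul]
  have hsymm : ∑ i, Crest.ProbabilityR.Broadcast.channel q lam i j = 1 := by
    rw [← channel_sum_eq_one j lam]
    refine Finset.sum_congr rfl fun i _ => ?_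
    unfold Crest.ProbabilityR.Broadcast.channel
    simp [eq_comm]
  rw [hsymm, one_mul]

lemma tilt_mass (lam : ℝ) (h : ∀ i j : Fin q, 0 ≤ Crest.ProbabilityR.Broadcast.channel q lam i j) (o : L.O) :
    (L.tilt lam h).mass o = L.mass o := by
  unfold mass; rw [L.tilt_sum lam h o]

lemma tilt_post (hq : 0 < q) (lam : ℝ) (h : ∀ i j : Fin q, 0 ≤ Crest.ProbabilityR.Broadcast.channel q lam i j) (o : L.O)
    (ho : ∑ j, L.w o j ≠ 0) : (L.tilt lam h).post o = Tl q lam (L.post o) := by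
  have hq' : (q : ℝ) ≠ 0 := by positivity
  funext i
  unfold post Tl
  rw [L.tilt_sum lam h o]
  simp only [ho, if_false]
  show (∑ j, Crest.ProbabilityR.Broadcast.channel q lam i j * L.w o j) / _ = _
  unfold Crest.ProbabilityR.Broadcast.channel
  simp only [add_mul, Finset.sum_add_distrib, ite_mul, zero_mul, Finset.sum_ite_eq,
        Finset.mem_univ, if_true, ← Finset.mul_sum]
  field_simp

/-- the channel acts on posteriors by `Tl`, masses unchanged -/
lemma Φ_tilt (hq : 0 < q) (lam : ℝ) (h : ∀ i j : Fin q, 0 ≤ Crest.ProbabilityR.Broadcast.channel q lam i j)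
    {f : (Fin q → ℝ) → ℝ} (_hf : BddS f) (_hT : ∀ x ∈ Simp q, Tl q lam x ∈ Simp q) :
    (L.tilt lam h).Φ f = L.Φ (f ∘ Tl q lam) := by
  unfold Φ
  refine tsum_congr (β := L.O) fun o => ?_
  rw [L.tilt_mass lam h o]
  by_cases ho : ∑ j, L.w o j = 0
  · have : L.mass o = 0 := by simp [mass, ho]
    simp [this]
  · rw [L.tilt_post hq lam h o ho]; rfl

/-- relabelling invariance, from `L.sym` -/
lemma Φ_sym (_hq : 0 < q) (σ : Equiv.Perm (Fin q)) {f : (Fin q → ℝ) → ℝ} (_hf : BddS f) :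
    L.Φ (fun x => f (x ∘ σ)) = L.Φ f := by
  obtain ⟨e, he⟩ := L.sym σ
  have hsum : ∀ o, ∑ j, L.w (e o) j = ∑ j, L.w o j := fun o => by
    rw [← Equiv.sum_comp σ (fun j => L.w (e o) j)]
    exact Finset.sum_congr rfl fun j _ => he o j
  have hmass : ∀ o, L.mass (e o) = L.mass o := fun o => by
    unfold mass; rw [hsum]
  have hpost : ∀ o, L.post (e o) ∘ σ = L.post o := fun o => by
    funext i
    simp only [Function.comp, post, hsum, he]
  unfold Φ
  rw [← e.tsum_eq (fun o => L.mass o * f (L.post o ∘ σ))]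
  exact tsum_congr fun o => by rw [hmass, hpost]

/-- mass of a pair of observations -/
lemma prod_mass (hq : 0 < q) (o : L.O) (o' : L'.O) :
    (L.prod L').mass (o, o') = L.mass o * L'.mass o' * dotZ q (L.post o) (L'.post o') := by
  have hq' : (q : ℝ) ≠ 0 := by positivity
  unfold mass dotZ
  show (∑ i, L.w o i * L'.w o' i) / q = _
  have : ∀ i, L.w o i * L'.w o' i = (q * L.mass o * (q * L'.mass o')) * (L.post o i * L'.post o' i) := fun i => by
    rw [L.w_eq hq o i, L'.w_eq hq o' i]; ring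
  simp only [this, ← Finset.mul_sum]
  unfold mass
  field_simp

/-- posterior of a pair of observations -/
lemma prod_post (hq : 0 < q) (o : L.O) (o' : L'.O) (hm : L.mass o ≠ 0) (hm' : L'.mass o' ≠ 0) :
    (L.prod L').post (o, o') = star q (L.post o) (L'.post o') := by
  have hq' : (q : ℝ) ≠ 0 := by positivity
  have hw : ∀ i, (L.prod L').w (o, o') i = (q * L.mass o * (q * L'.mass o')) * (L.post o i * L'.post o' i) := fun i => by
    show L.w o i * L'.w o' i = _
    rw [L.w_eq hq o i, L'.w_eq hq o' i]; ring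
  have hc : (q * L.mass o * (q * L'.mass o')) ≠ 0 := by positivity
  funext i
  set S := ∑ j, L.post o j * L'.post o' j with hS
  have hW : ∑ j, (L.prod L').w (o, o') j = (q * L.mass o * (q * L'.mass o')) * S := by
    simp only [hw, ← Finset.mul_sum, hS]
  have e1 : (L.prod L').post (o, o') i = if ∑ j, (L.prod L').w (o, o') j = 0 then (1 : ℝ) / q
      else (L.prod L').w (o, o') i / ∑ j, (L.prod L').w (o, o') j := rfl
  have e2 : star q (L.post o) (L'.post o') i = if S = 0 then (1 : ℝ) / q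
      else L.post o i * L'.post o' i / S := rfl
  rw [e1, e2, hW, hw]
  by_cases h0 : S = 0
  · simp [h0]
  · have h1 : (q * L.mass o * (q * L'.mass o')) * S ≠ 0 := mul_ne_zero hc h0
    simp only [h1, h0, if_false]
    rw [mul_div_mul_left _ _ hc]

/-- Esig is bounded for `x, x'` in the simplex -/
lemma abs_Esig_le (hq : 0 < q) {f : (Fin q → ℝ) → ℝ} {C : ℝ} (hC : ∀ x ∈ Simp q, |f x| ≤ C)
    {x x' : Fin q → ℝ} (hx : x ∈ Simp q) (hx' : x' ∈ Simp q) : |Esig q f x x'| ≤ q * C := by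
  have hC0 : 0 ≤ C := (abs_nonneg _).trans (hC _ (unif_mem_Simp hq))
  have hfact : (0 : ℝ) < (Nat.factorial q : ℝ) := by exact_mod_cast Nat.factorial_pos q
  unfold Esig
  rw [abs_div, abs_of_pos hfact, div_le_iff₀ hfact]
  refine (Finset.abs_sum_le_sum_abs _ _).trans ?_
  have : ∀ σ : Equiv.Perm (Fin q), |dotZ q x (x' ∘ σ) * f (star q x (x' ∘ σ))| ≤ q * C := fun σ => by
    have hs := comp_mem_Simp σ hx'
    rw [abs_mul, abs_of_nonneg (dotZ_nonneg hx hs)]
    exact mul_le_mul (dotZ_le hx hs) (hC _ (star_mem hq hx hs)) (abs_nonneg _) (Nat.cast_nonneg _)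
  refine (Finset.sum_le_sum fun σ _ => this σ).trans ?_
  simp [Fintype.card_perm]
  nlinarith

lemma BddS_Esig (hq : 0 < q) {f : (Fin q → ℝ) → ℝ} (hf : BddS f) {x : Fin q → ℝ} (hx : x ∈ Simp q) :
    BddS (fun x' => Esig q f x x') := by
  obtain ⟨C, hC⟩ := hf
  exact ⟨q * C, fun x' hx' => abs_Esig_le hq hC hx hx'⟩

/-- the kernel inside `Esig`, with no symmetrisation -/
noncomputable def kern (q : ℕ) (f : (Fin q → ℝ) → ℝ) (x x' : Fin q → ℝ) : ℝ :=
  dotZ q x x' * f (star q x x')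

lemma BddS_kern (hq : 0 < q) {f : (Fin q → ℝ) → ℝ} (hf : BddS f) {x : Fin q → ℝ} (hx : x ∈ Simp q) :
    BddS (kern q f x) := by
  obtain ⟨C, hC⟩ := hf
  refine ⟨q * C, fun x' hx' => ?_⟩
  unfold kern
  rw [abs_mul, abs_of_nonneg (dotZ_nonneg hx hx')]
  exact mul_le_mul (dotZ_le hx hx') (hC _ (star_mem hq hx hx')) (abs_nonneg _) (Nat.cast_nonneg _)

/-- symmetrisation does not change the `Φ` of the kernel -/
lemma Φ_Esig (hq : 0 < q) {f : (Fin q → ℝ) → ℝ} (hf : BddS f) {x : Fin q → ℝ} (hx : x ∈ Simp q) :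
    L'.Φ (fun x' => Esig q f x x') = L'.Φ (kern q f x) := by
  have hfact : ((Nat.factorial q : ℕ) : ℝ) ≠ 0 := by exact_mod_cast Nat.factorial_ne_zero q
  have h1 : (fun x' => Esig q f x x')
      = fun x' => ((Nat.factorial q : ℝ))⁻¹ * ∑ σ : Equiv.Perm (Fin q), kern q f x (x' ∘ σ) := by
    funext x'
    unfold Esig kern
    rw [div_eq_inv_mul]
  have hb : ∀ σ : Equiv.Perm (Fin q), BddS (fun x' => kern q f x (x' ∘ σ)) := fun σ => by
    obtain ⟨C, hC⟩ := BddS_kern (q := q) hq hf hx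
    exact ⟨C, fun y hy => hC _ (comp_mem_Simp σ hy)⟩
  rw [h1, L'.Φ_const_mul hq _ (BddS.sum _ fun σ _ => hb σ),
    L'.Φ_sum hq _ (fun σ _ => hb σ)]
  have h2 : ∀ σ : Equiv.Perm (Fin q), L'.Φ (fun x' => kern q f x (x' ∘ σ)) = L'.Φ (kern q f x) :=
    fun σ => L'.Φ_sym hq σ (BddS_kern hq hf hx)
  simp only [h2, Finset.sum_const, Finset.card_univ, Fintype.card_perm, Fintype.card_fin, nsmul_eq_mul]
  field_simp

lemma prod_term (hq : 0 < q) (f : (Fin q → ℝ) → ℝ) (o : L.O) (o' : L'.O) :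
    (L.prod L').mass (o, o') * f ((L.prod L').post (o, o'))
      = L.mass o * (L'.mass o' * kern q f (L.post o) (L'.post o')) := by
  rw [L.prod_mass L' hq o o']
  by_cases hm : L.mass o = 0
  · simp [hm]
  by_cases hm' : L'.mass o' = 0
  · simp [hm']
  rw [L.prod_post L' hq o o' hm hm']
  unfold kern
  ring

/-- product formula with the symmetrised kernel; `star`/`dotZ` as in `Core` -/
theorem Φ_prod (hq : 0 < q) {f : (Fin q → ℝ) → ℝ} (hf : BddS f) :
    (L.prod L').Φ f = ∑' o, L.mass o * L'.Φ (fun x' => Esig q f (L.post o) x') := by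
  have hs : Summable (fun p : L.O × L'.O => (L.prod L').mass p * f ((L.prod L').post p)) :=
    (L.prod L').summable_Φ hq hf
  have e : (L.prod L').Φ f = ∑' p : L.O × L'.O, (L.prod L').mass p * f ((L.prod L').post p) := rfl
  rw [e, hs.tsum_prod]
  refine tsum_congr fun o => ?_
  simp only [prod_term L L' hq f]
  rw [tsum_mul_left]
  congr 1
  exact (L'.Φ_Esig hq hf (L.post_mem hq o)).symm

/-- THE pair lemma: a pointwise S-procedure bound integrates to a bound on moments. -/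
theorem pair_le (hq : 0 < q) {ι : Type} [Fintype ι] {f : (Fin q → ℝ) → ℝ}
    (g h : ι → (Fin q → ℝ) → ℝ) (hf : BddS f) (hg : ∀ k, BddS (g k)) (hh : ∀ k, BddS (h k))
    (H : ∀ x ∈ Simp q, ∀ x' ∈ Simp q, Esig q f x x' ≤ ∑ k, g k x * h k x') :
    (L.prod L').Φ f ≤ ∑ k, L.Φ (g k) * L'.Φ (h k) := by
  have step : ∀ o, L'.Φ (fun x' => Esig q f (L.post o) x') ≤ ∑ k, g k (L.post o) * L'.Φ (h k) := by
    intro o
    have hx := L.post_mem hq o
    have hb : ∀ k ∈ (Finset.univ : Finset ι), BddS (fun x' => g k (L.post o) * h k x') :=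
      fun k _ => BddS.const_mul _ (hh k)
    have h1 := L'.Φ_mono hq (BddS_Esig hq hf hx) (BddS.sum _ hb) (fun x' hx' => H _ hx _ hx')
    rw [L'.Φ_sum hq _ hb] at h1
    simpa only [L'.Φ_const_mul hq _ (hh _)] using h1
  have hsum : ∀ k, Summable (fun o => L.mass o * g k (L.post o)) := fun k => L.summable_Φ hq (hg k)
  have e2 : ∑ k, L.Φ (g k) * L'.Φ (h k)
      = ∑' o, L.mass o * ∑ k, g k (L.post o) * L'.Φ (h k) := by
    have : ∀ o, L.mass o * ∑ k, g k (L.post o) * L'.Φ (h k)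
        = ∑ k, (L.mass o * g k (L.post o)) * L'.Φ (h k) := fun o => by
      rw [Finset.mul_sum]; exact Finset.sum_congr rfl fun k _ => by ring
    simp only [this]
    rw [(Summable.tsum_finsetSum (fun k _ => (hsum k).mul_right _))]
    refine Finset.sum_congr rfl fun k _ => ?_
    rw [tsum_mul_right]; rfl
  rw [L.Φ_prod L' hq hf, e2]
  have hB : ∀ o, |L'.Φ (fun x' => Esig q f (L.post o) x')| ≤ (q * (Classical.choose hf)) := by
    intro o
    have hC := Classical.choose_spec hf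
    have hC0 : 0 ≤ Classical.choose hf := (abs_nonneg _).trans (hC _ (unif_mem_Simp hq))
    have hb0 := BddS_Esig hq hf (L.post_mem hq o)
    have h1 : L'.Φ (fun x' => Esig q f (L.post o) x') ≤ L'.Φ (fun _ => q * Classical.choose hf) :=
      L'.Φ_mono hq hb0 (BddS.const _) (fun x' hx' => (le_abs_self _).trans (abs_Esig_le hq hC (L.post_mem hq o) hx'))
    have h2 : L'.Φ (fun _ => -(q * Classical.choose hf)) ≤ L'.Φ (fun x' => Esig q f (L.post o) x') :=
      L'.Φ_mono hq (BddS.const _) hb0 (fun x' hx' => (neg_le_of_abs_le (abs_Esig_le hq hC (L.post_mem hq o) hx')))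
    rw [L'.Φ_const hq] at h1 h2
    exact abs_le.2 ⟨h2, h1⟩
  have s1 : Summable (fun o => L.mass o * L'.Φ (fun x' => Esig q f (L.post o) x')) := by
    refine Summable.of_norm_bounded (g := fun o => L.mass o * (q * Classical.choose hf))
      ((L.summable_mass hq).mul_right _) ?_
    intro o
    rw [Real.norm_eq_abs, abs_mul, abs_of_nonneg (L.mass_nonneg hq o)]
    exact mul_le_mul_of_nonneg_left (hB o) (L.mass_nonneg hq o)
  have s2 : Summable (fun o => L.mass o * ∑ k, g k (L.post o) * L'.Φ (h k)) := by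
    have : ∀ o, L.mass o * ∑ k, g k (L.post o) * L'.Φ (h k)
        = ∑ k, (L.mass o * g k (L.post o)) * L'.Φ (h k) := fun o => by
      rw [Finset.mul_sum]; exact Finset.sum_congr rfl fun k _ => by ring
    simp only [this]
    exact summable_sum fun k _ => (hsum k).mul_right _
  exact s1.tsum_le_tsum (fun o => mul_le_mul_of_nonneg_left (step o) (L.mass_nonneg hq o)) s2

theorem Φ_pow_zero (hq : 0 < q) (f : (Fin q → ℝ) → ℝ) :
    (pow L 0).Φ f = f (fun _ => (1 : ℝ) / q) := by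
  have hq' : (q : ℝ) ≠ 0 := by positivity
  have e : (pow L 0) = triv q := rfl
  rw [e]
  have h1 : (triv q).Φ f = ∑' _o : Unit, (triv q).mass () * f ((triv q).post ()) := rfl
  rw [h1, tsum_fintype]
  have hw : ∀ j, (triv q).w () j = 1 := fun _ => rfl
  have hm : (triv q).mass () = 1 := by
    show (∑ i, (triv q).w () i) / q = 1
    simp [hw, hq']
  have hp : (triv q).post () = fun _ => (1 : ℝ) / q := by
    funext i
    show (if ∑ j, (triv q).w () j = 0 then (1 : ℝ) / q else (triv q).w () i / ∑ j, (triv q).w () j) = _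
    simp [hw, hq']
  simp [hm, hp]

end SLaw
end Crest.Agent.Lib.Bc
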