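import Mathlib
import Crest.Prelude.Def_TreeBroadcast

/-!
# Row 163, module B9: from the cubic-loss recursion to a flow (pure tree analysis, no laws).
See `BLUEPRINT.md` (capacity recursion, F1-F3).
-/

open scoped BigOperators
open Crest.ProbabilityR.TreeBroadcast

namespace Crest.Agent.Lib.Bc
namespace FlowFromS

/-- `F x = x / √(1 + x²)` -/
noncomputable def F (x : ℝ) : ℝ := x / Real.sqrt (1 + x ^ 2)

lemma sqrt_pos' (x : ℝ) : 0 < Real.sqrt (1 + x ^ 2) := Real.sqrt_pos.2 (by positivity)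

lemma one_le_sqrt' (x : ℝ) : 1 ≤ Real.sqrt (1 + x ^ 2) := by
  rw [Real.one_le_sqrt]; nlinarith [sq_nonneg x]

lemma sq_sqrt' (x : ℝ) : Real.sqrt (1 + x ^ 2) ^ 2 = 1 + x ^ 2 :=
  Real.sq_sqrt (by positivity)

lemma F_nonneg {x : ℝ} (hx : 0 ≤ x) : 0 ≤ F x := div_nonneg hx (sqrt_pos' x).le

lemma F_zero : F 0 = 0 := by simp [F]

lemma F_le_self {x : ℝ} (hx : 0 ≤ x) : F x ≤ x := by
  unfold F
  exact div_le_self hx (one_le_sqrt' x)

lemma F_sq (x : ℝ) : F x ^ 2 = x ^ 2 / (1 + x ^ 2) := by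
  unfold F; rw [div_pow, sq_sqrt']

lemma F_le_one {x : ℝ} : F x ≤ 1 := by
  unfold F
  rw [div_le_one (sqrt_pos' x)]
  refine le_trans (le_abs_self x) ?_
  rw [← Real.sqrt_sq_eq_abs]
  exact Real.sqrt_le_sqrt (by nlinarith)

lemma one_sub_F_sq (x : ℝ) : 1 - F x ^ 2 = 1 / (1 + x ^ 2) := by
  rw [F_sq]
  have : (1 + x ^ 2) ≠ 0 := by positivity
  field_simp
  ring

lemma sqrt_one_sub_F_sq (x : ℝ) : Real.sqrt (1 - F x ^ 2) = 1 / Real.sqrt (1 + x ^ 2) := by
  rw [one_sub_F_sq, Real.sqrt_div (by norm_num), Real.sqrt_one]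

lemma F_mono {x y : ℝ} (hx : 0 ≤ x) (hxy : x ≤ y) : F x ≤ F y := by
  unfold F
  have hy : 0 ≤ y := hx.trans hxy
  rw [div_le_div_iff₀ (sqrt_pos' x) (sqrt_pos' y)]
  have h1 : 0 ≤ x * Real.sqrt (1 + y ^ 2) := mul_nonneg hx (sqrt_pos' y).le
  have h2 : 0 ≤ y * Real.sqrt (1 + x ^ 2) := mul_nonneg hy (sqrt_pos' x).le
  rw [← pow_le_pow_iff_left₀ h1 h2 (two_ne_zero)]
  rw [mul_pow, mul_pow, sq_sqrt', sq_sqrt']
  nlinarith [mul_self_le_mul_self hx hxy]

lemma aux_inv_sub {A E : ℝ} (hA : 1 ≤ A) (hAE : A ≤ E) : 1 / A - 1 / E ≤ (E ^ 2 - A ^ 2) / 2 := by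
  have hA0 : 0 < A := by linarith
  have hE0 : 0 < E := by linarith
  have h1 : 1 / A - 1 / E = (E - A) / (A * E) := by
    field_simp
  rw [h1]
  have h2 : (E - A) / (A * E) ≤ E - A := by
    apply div_le_self (by linarith)
    nlinarith
  have h3 : E - A ≤ (E ^ 2 - A ^ 2) / 2 := by nlinarith
  linarith

/-- defect of subadditivity of `F` -/
lemma F_add_ge {p r : ℝ} (hp : 0 ≤ p) (hr : 0 ≤ r) :
    F p + F r - 3 / 2 * (p * r * (p + r)) ≤ F (p + r) := by
  set A := Real.sqrt (1 + p ^ 2) with hA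
  set C := Real.sqrt (1 + r ^ 2) with hC
  set E := Real.sqrt (1 + (p + r) ^ 2) with hE
  have hA1 : 1 ≤ A := one_le_sqrt' p
  have hC1 : 1 ≤ C := one_le_sqrt' r
  have hAE : A ≤ E := Real.sqrt_le_sqrt (by nlinarith [mul_nonneg hp hr, sq_nonneg r])
  have hCE : C ≤ E := Real.sqrt_le_sqrt (by nlinarith [mul_nonneg hp hr, sq_nonneg p])
  have hA2 : A ^ 2 = 1 + p ^ 2 := sq_sqrt' p
  have hC2 : C ^ 2 = 1 + r ^ 2 := sq_sqrt' r
  have hE2 : E ^ 2 = 1 + (p + r) ^ 2 := sq_sqrt' (p + r)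
  have h1 := aux_inv_sub hA1 hAE
  have h2 := aux_inv_sub hC1 hCE
  rw [hE2, hA2] at h1
  rw [hE2, hC2] at h2
  have e1 : F p = p * (1 / A) := by simp [F, hA, div_eq_mul_inv]
  have e2 : F r = r * (1 / C) := by simp [F, hC, div_eq_mul_inv]
  have e3 : F (p + r) = (p + r) * (1 / E) := by simp [F, hE, div_eq_mul_inv]
  rw [e1, e2, e3]
  have h1' := mul_le_mul_of_nonneg_left h1 hp
  have h2' := mul_le_mul_of_nonneg_left h2 hr
  nlinarith

variable {V : Type*} [DecidableEq V]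

/-- `Q C b = ∑_{x ≠ y} b x ^ 2 * b y` -/
noncomputable def Q (C : Finset V) (b : V → ℝ) : ℝ := ∑ x ∈ C, ∑ y ∈ C.erase x, b x ^ 2 * b y

lemma Q_eq (C : Finset V) (b : V → ℝ) :
    Q C b = (∑ x ∈ C, b x ^ 2) * (∑ y ∈ C, b y) - ∑ x ∈ C, b x ^ 3 := by
  unfold Q
  rw [Finset.sum_mul, ← Finset.sum_sub_distrib]
  refine Finset.sum_congr rfl fun x hx => ?_
  rw [← Finset.mul_sum, Finset.sum_erase_eq_sub hx]
  ring

lemma Q_nonneg (C : Finset V) {b : V → ℝ} (hb : ∀ x ∈ C, 0 ≤ b x) : 0 ≤ Q C b := by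
  unfold Q
  refine Finset.sum_nonneg fun x hx => Finset.sum_nonneg fun y hy => ?_
  exact mul_nonneg (sq_nonneg _) (hb y (Finset.mem_of_mem_erase hy))

/-- subadditivity defect of `F` over a finite set -/
lemma F_sum_ge (B : ℕ) (C : Finset V) (b : V → ℝ) (hb : ∀ x ∈ C, 0 ≤ b x) (hB : C.card ≤ B) :
    ∑ x ∈ C, F (b x) - 3 / 2 * B * Q C b ≤ F (∑ x ∈ C, b x) := by
  classical
  induction C using Finset.induction_on with
  | empty => simp [Q, F_zero]
  | insert d S hd ih =>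
    have hbS : ∀ x ∈ S, 0 ≤ b x := fun x hx => hb x (Finset.mem_insert_of_mem hx)
    have hbd : 0 ≤ b d := hb d (Finset.mem_insert_self _ _)
    have hcard : S.card + 1 ≤ B := by
      rw [Finset.card_insert_of_notMem hd] at hB; exact hB
    have ih' := ih hbS (by omega)
    set X := ∑ x ∈ S, b x with hX
    have hX0 : 0 ≤ X := Finset.sum_nonneg hbS
    have hadd := F_add_ge hbd hX0
    rw [Finset.sum_insert hd, Finset.sum_insert hd, ← hX]
    -- compare Q
    have hQ : Q (insert d S) b = Q S b + ((∑ x ∈ S, b x ^ 2) * b d + b d ^ 2 * X) := by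
      rw [Q_eq, Q_eq, Finset.sum_insert hd, Finset.sum_insert hd, Finset.sum_insert hd, ← hX]
      ring
    rw [hQ]
    have hCS : X ^ 2 ≤ (S.card : ℝ) * ∑ x ∈ S, b x ^ 2 := sq_sum_le_card_mul_sum_sq
    have hB1 : (1 : ℝ) ≤ B := by
      have : 1 ≤ B := by omega
      exact_mod_cast this
    have hBS : (S.card : ℝ) ≤ B := by
      have : S.card ≤ B := by omega
      exact_mod_cast this
    have hss : 0 ≤ ∑ x ∈ S, b x ^ 2 := Finset.sum_nonneg fun _ _ => sq_nonneg _
    have h1 : X ^ 2 ≤ B * ∑ x ∈ S, b x ^ 2 :=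
      hCS.trans (mul_le_mul_of_nonneg_right hBS hss)
    have h2 : X ^ 2 * b d ≤ (B * ∑ x ∈ S, b x ^ 2) * b d := mul_le_mul_of_nonneg_right h1 hbd
    have h3 : b d ^ 2 * X ≤ B * (b d ^ 2 * X) := by
      have : 0 ≤ b d ^ 2 * X := mul_nonneg (sq_nonneg _) hX0
      nlinarith
    have h4 : b d * X * (b d + X) ≤ B * ((∑ x ∈ S, b x ^ 2) * b d + b d ^ 2 * X) := by
      nlinarith
    have hF : F (b d) + F X - 3 / 2 * (b d * X * (b d + X)) ≤ F (b d + X) := hadd
    have hFX : ∑ x ∈ S, F (b x) - 3 / 2 * B * Q S b ≤ F X := ih'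
    nlinarith

/-- if `F b ≤ 1/2` then `b ≤ 2 F b` -/
lemma le_two_F {b : ℝ} (hb : 0 ≤ b) (h : F b ≤ 1 / 2) : b ≤ 2 * F b := by
  have hs := sqrt_pos' b
  have h1 : F b * Real.sqrt (1 + b ^ 2) = b := by
    unfold F; field_simp
  have h2 : F b ^ 2 ≤ 1 / 4 := by
    have := F_nonneg hb
    nlinarith
  rw [F_sq] at h2
  have hpos : (0 : ℝ) < 1 + b ^ 2 := by positivity
  rw [div_le_iff₀ hpos] at h2
  have hb2 : b ^ 2 ≤ 1 / 3 := by nlinarith
  have h3 : Real.sqrt (1 + b ^ 2) ≤ 2 := by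
    rw [show (2 : ℝ) = Real.sqrt 4 by
      rw [show (4 : ℝ) = 2 ^ 2 by norm_num]; simp]
    exact Real.sqrt_le_sqrt (by nlinarith)
  have := F_nonneg hb
  calc b = F b * Real.sqrt (1 + b ^ 2) := h1.symm
    _ ≤ F b * 2 := mul_le_mul_of_nonneg_left h3 this
    _ = 2 * F b := by ring

lemma Q_mono8 (C : Finset V) {b u : V → ℝ} (hb : ∀ x ∈ C, 0 ≤ b x) (hbu : ∀ x ∈ C, b x ≤ 2 * u x) :
    Q C b ≤ 8 * Q C u := by
  unfold Q
  rw [Finset.mul_sum]
  refine Finset.sum_le_sum fun x hx => ?_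
  rw [Finset.mul_sum]
  refine Finset.sum_le_sum fun y hy => ?_
  have hy' := Finset.mem_of_mem_erase hy
  have h1 : b x ^ 2 ≤ (2 * u x) ^ 2 := pow_le_pow_left₀ (hb x hx) (hbu x hx) 2
  have h2 := hbu y hy'
  have h3 := hb y hy'
  have h4 : 0 ≤ (2 * u x) ^ 2 := sq_nonneg _
  calc b x ^ 2 * b y ≤ (2 * u x) ^ 2 * (2 * u y) := mul_le_mul h1 h2 h3 h4
    _ = 8 * (u x ^ 2 * u y) := by ring

/-- monotonicity of `Σ - κ Q` on `[0,1]^C` for small `κ` -/
lemma P_mono (B : ℕ) (C : Finset V) (hB : C.card ≤ B) {h t : V → ℝ} {κ : ℝ} (hκ0 : 0 ≤ κ)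
    (hκ : κ * (3 * B) ≤ 1) (hh : ∀ x ∈ C, 0 ≤ h x) (hht : ∀ x ∈ C, h x ≤ t x)
    (ht : ∀ x ∈ C, t x ≤ 1) :
    ∑ x ∈ C, h x - κ * Q C h ≤ ∑ x ∈ C, t x - κ * Q C t := by
  set D := ∑ x ∈ C, (t x - h x) with hD
  have hd : ∀ x ∈ C, 0 ≤ t x - h x := fun x hx => by linarith [hht x hx]
  have hD0 : 0 ≤ D := Finset.sum_nonneg hd
  have hcB : (C.card : ℝ) ≤ B := by exact_mod_cast hB
  have key : Q C t - Q C h ≤ (3 * B) * D := by
    have h1 : ∀ x ∈ C, ∑ y ∈ C.erase x, (t x ^ 2 * t y - h x ^ 2 * h y)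
        ≤ B * (2 * (t x - h x)) + D := by
      intro x hx
      have e1 : ∀ y ∈ C.erase x, t x ^ 2 * t y - h x ^ 2 * h y ≤ 2 * (t x - h x) + (t y - h y) := by
        intro y hy
        have hy' := Finset.mem_of_mem_erase hy
        have h0x := hh x hx
        have h0y := hh y hy'
        have t1x := ht x hx
        have t1y := ht y hy'
        have hltx := hht x hx
        have hlty := hht y hy'
        have t0x : 0 ≤ t x := h0x.trans hltx
        have t0y : 0 ≤ t y := h0y.trans hlty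
        have a1 : (t x ^ 2 - h x ^ 2) * t y ≤ 2 * (t x - h x) := by
          have : t x ^ 2 - h x ^ 2 = (t x - h x) * (t x + h x) := by ring
          rw [this]
          have u1 : (t x + h x) * t y ≤ 2 := by nlinarith
          nlinarith
        have a2 : h x ^ 2 * (t y - h y) ≤ t y - h y := by
          have : h x ^ 2 ≤ 1 := by nlinarith
          nlinarith
        nlinarith
      calc ∑ y ∈ C.erase x, (t x ^ 2 * t y - h x ^ 2 * h y)
          ≤ ∑ y ∈ C.erase x, (2 * (t x - h x) + (t y - h y)) := Finset.sum_le_sum e1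
        _ = (C.erase x).card * (2 * (t x - h x)) + ∑ y ∈ C.erase x, (t y - h y) := by
            rw [Finset.sum_add_distrib, Finset.sum_const, nsmul_eq_mul]
        _ ≤ B * (2 * (t x - h x)) + D := by
            have c1 : ((C.erase x).card : ℝ) ≤ B := by
              have : (C.erase x).card ≤ C.card := Finset.card_le_card (Finset.erase_subset _ _)
              have : (C.erase x).card ≤ B := this.trans hB
              exact_mod_cast this
            have c2 : ∑ y ∈ C.erase x, (t y - h y) ≤ D :=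
              Finset.sum_le_sum_of_subset_of_nonneg (Finset.erase_subset _ _)
                (fun y hy _ => hd y hy)
            have c3 := hd x hx
            nlinarith
    have h2 : Q C t - Q C h = ∑ x ∈ C, ∑ y ∈ C.erase x, (t x ^ 2 * t y - h x ^ 2 * h y) := by
      unfold Q
      rw [← Finset.sum_sub_distrib]
      refine Finset.sum_congr rfl fun x _ => ?_
      rw [← Finset.sum_sub_distrib]
    rw [h2]
    calc ∑ x ∈ C, ∑ y ∈ C.erase x, (t x ^ 2 * t y - h x ^ 2 * h y)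
        ≤ ∑ x ∈ C, (B * (2 * (t x - h x)) + D) := Finset.sum_le_sum h1
      _ = B * (2 * D) + C.card * D := by
          rw [Finset.sum_add_distrib, Finset.sum_const, nsmul_eq_mul, ← Finset.mul_sum,
            ← Finset.mul_sum]
      _ ≤ (3 * B) * D := by nlinarith
  have hsum : ∑ x ∈ C, t x - ∑ x ∈ C, h x = D := by
    rw [hD, Finset.sum_sub_distrib]
  have h3 : κ * (Q C t - Q C h) ≤ D := by
    calc κ * (Q C t - Q C h) ≤ κ * ((3 * B) * D) := mul_le_mul_of_nonneg_left key hκ0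
      _ = (κ * (3 * B)) * D := by ring
      _ ≤ 1 * D := mul_le_mul_of_nonneg_right hκ hD0
      _ = D := one_mul _
  nlinarith

/-! ## The capacity recursion on the tree -/

variable (T : LocFinTree V) (lam : ℝ)

/-- `Psi k v`: capacity value of `v` truncated `k` levels below `v`. -/
noncomputable def Psi : ℕ → V → ℝ
  | 0, _ => 1
  | k + 1, v => F (lam ^ 2 * ∑ x ∈ T.children v, Psi k x)

lemma Psi_zero (v : V) : Psi T lam 0 v = 1 := by simp [Psi]

lemma Psi_succ (k : ℕ) (v : V) :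
    Psi T lam (k + 1) v = F (lam ^ 2 * ∑ x ∈ T.children v, Psi T lam k x) := by simp [Psi]

lemma Psi_nonneg (k : ℕ) (v : V) : 0 ≤ Psi T lam k v := by
  induction k generalizing v with
  | zero => simp [Psi]
  | succ k ih =>
    rw [Psi_succ]
    exact F_nonneg (mul_nonneg (sq_nonneg _) (Finset.sum_nonneg fun x _ => ih x))

lemma Psi_le_one (k : ℕ) (v : V) : Psi T lam k v ≤ 1 := by
  cases k with
  | zero => simp [Psi]
  | succ k => rw [Psi_succ]; exact F_le_one

/-- `G ψ = ψ / √(R² + lam⁴ ψ²)`, `R² = 1 - lam⁴` -/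
noncomputable def G (R lam ψ : ℝ) : ℝ := ψ / Real.sqrt (R ^ 2 + lam ^ 4 * ψ ^ 2)

lemma G_one {R lam : ℝ} (hR : R ^ 2 = 1 - lam ^ 4) : G R lam 1 = 1 := by
  simp [G, hR]

lemma F_div_eq {R x : ℝ} (hR : 0 < R) : F (x / R) = x / Real.sqrt (R ^ 2 + x ^ 2) := by
  unfold F
  have h1 : 1 + (x / R) ^ 2 = (R ^ 2 + x ^ 2) / R ^ 2 := by field_simp
  rw [h1, Real.sqrt_div (by positivity), Real.sqrt_sq hR.le]
  have hs : 0 < Real.sqrt (R ^ 2 + x ^ 2) := Real.sqrt_pos.2 (by positivity)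
  field_simp

/-- identity `lam² G(ψ) = F (lam² ψ / R)` -/
lemma lam_sq_G {R lam ψ : ℝ} (hR : 0 < R) :
    lam ^ 2 * G R lam ψ = F (lam ^ 2 * ψ / R) := by
  rw [F_div_eq hR]
  unfold G
  have : (lam ^ 2 * ψ) ^ 2 = lam ^ 4 * ψ ^ 2 := by ring
  rw [this]
  ring

/-- identity `G (F Λ) = F (Λ / R)` -/
lemma G_F {R lam : ℝ} (hR : 0 < R) (hR2 : R ^ 2 = 1 - lam ^ 4) (L : ℝ) :
    G R lam (F L) = F (L / R) := by
  rw [F_div_eq hR]
  unfold G
  rw [F_sq]
  have hs := sqrt_pos' L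
  have h1 : R ^ 2 + lam ^ 4 * (L ^ 2 / (1 + L ^ 2)) = (R ^ 2 + L ^ 2) / (1 + L ^ 2) := by
    have : (1 + L ^ 2) ≠ 0 := by positivity
    field_simp
    rw [hR2]; ring
  rw [h1, Real.sqrt_div (by positivity)]
  have hs2 : 0 < Real.sqrt (R ^ 2 + L ^ 2) := Real.sqrt_pos.2 (by positivity)
  unfold F
  field_simp

/-- The main comparison: `s ≤ K G(ψ)`. -/
theorem s_le_K_G (B : ℕ) (hB : ∀ v, (T.children v).card ≤ B) {R κ K : ℝ}
    (hR : 0 < R) (hR2 : R ^ 2 = 1 - lam ^ 4) (hκ0 : 0 ≤ κ) (hκ : κ * (3 * B) ≤ 1)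
    (hK2 : 2 ≤ K) (hK : (12 * B : ℝ) ≤ κ * K ^ 2)
    (n : ℕ) (s : V → ℝ) (hs0 : ∀ v, 0 ≤ s v) (hs1 : ∀ v, s v ≤ 1)
    (hrec : ∀ v, T.depth v < n →
      s v ≤ ∑ x ∈ T.children v, lam ^ 2 * s x
        - κ * Q (T.children v) (fun x => lam ^ 2 * s x)) :
    ∀ (k : ℕ) (v : V), T.depth v + k = n → s v ≤ K * G R lam (Psi T lam k v) := by
  intro k
  induction k with
  | zero =>
    intro v _
    rw [Psi_zero, G_one hR2]
    linarith [hs1 v]
  | succ k ih =>
    intro v hv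
    set C := T.children v with hC
    have hdepth : ∀ x ∈ C, T.depth x = T.depth v + 1 := by
      intro x hx
      have := (Finset.mem_filter.1 hx).1
      exact (T.mem_level_iff _ _).1 this
    have hih : ∀ x ∈ C, s x ≤ K * G R lam (Psi T lam k x) := by
      intro x hx
      exact ih x (by rw [hdepth x hx]; omega)
    -- abbreviations
    set b : V → ℝ := fun x => lam ^ 2 * Psi T lam k x / R with hbdef
    have hb0 : ∀ x ∈ C, 0 ≤ b x := fun x _ =>
      div_nonneg (mul_nonneg (sq_nonneg _) (Psi_nonneg T lam k x)) hR.le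
    have hsumb : ∑ x ∈ C, b x = (lam ^ 2 * ∑ x ∈ C, Psi T lam k x) / R := by
      rw [Finset.mul_sum, Finset.sum_div]
    have hap : G R lam (Psi T lam (k + 1) v) = F (∑ x ∈ C, b x) := by
      rw [Psi_succ, G_F hR hR2, hsumb]
    rw [hap]
    set ap := F (∑ x ∈ C, b x) with hapdef
    by_cases hbig : 1 ≤ K * ap
    · exact (hs1 v).trans hbig
    rw [not_le] at hbig
    have hK0 : 0 < K := by linarith
    have hap_small : ap < 1 / K := by
      rw [lt_div_iff₀ hK0]; linarith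
    have hu_eq : ∀ x, F (b x) = lam ^ 2 * G R lam (Psi T lam k x) := fun x =>
      (lam_sq_G hR).symm
    have hu_le : ∀ x ∈ C, F (b x) ≤ ap := by
      intro x hx
      apply F_mono (hb0 x hx)
      exact Finset.single_le_sum hb0 hx
    have hu0 : ∀ x ∈ C, 0 ≤ F (b x) := fun x hx => F_nonneg (hb0 x hx)
    have hu_half : ∀ x ∈ C, F (b x) ≤ 1 / 2 := by
      intro x hx
      have h1 := hu_le x hx
      have h2 : 1 / K ≤ 1 / 2 := one_div_le_one_div_of_le (by norm_num) hK2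
      linarith
    -- the two functions
    set u : V → ℝ := fun x => F (b x) with hu
    set t : V → ℝ := fun x => K * u x with ht
    set h : V → ℝ := fun x => lam ^ 2 * s x with hh
    have hh0 : ∀ x ∈ C, 0 ≤ h x := fun x _ => mul_nonneg (sq_nonneg _) (hs0 x)
    have hht : ∀ x ∈ C, h x ≤ t x := by
      intro x hx
      have h1 := hih x hx
      have h2 : lam ^ 2 * s x ≤ lam ^ 2 * (K * G R lam (Psi T lam k x)) :=
        mul_le_mul_of_nonneg_left h1 (sq_nonneg _)
      simp only [hh, ht, hu, hu_eq]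
      linarith
    have ht1 : ∀ x ∈ C, t x ≤ 1 := by
      intro x hx
      have h1 : u x ≤ ap := hu_le x hx
      have h2 : K * u x ≤ K * ap := mul_le_mul_of_nonneg_left h1 hK0.le
      simp only [ht]
      linarith
    have hcard := hB v
    have hdepthlt : T.depth v < n := by omega
    have hr := hrec v hdepthlt
    have hP := P_mono B C hcard hκ0 hκ hh0 hht ht1
    -- Q t = K^3 Q u
    have hQt : Q C t = K ^ 3 * Q C u := by
      unfold Q
      rw [Finset.mul_sum]
      refine Finset.sum_congr rfl fun x _ => ?_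
      rw [Finset.mul_sum]
      refine Finset.sum_congr rfl fun y _ => ?_
      simp only [ht]; ring
    have hSt : ∑ x ∈ C, t x = K * ∑ x ∈ C, u x := by
      simp only [ht]; rw [Finset.mul_sum]
    have hFs := F_sum_ge B C b hb0 hcard
    have hbu : ∀ x ∈ C, b x ≤ 2 * u x := fun x hx => le_two_F (hb0 x hx) (hu_half x hx)
    have hQ8 := Q_mono8 C hb0 hbu
    have hQu0 : 0 ≤ Q C u := Q_nonneg C hu0
    have hB0 : (0 : ℝ) ≤ B := Nat.cast_nonneg _
    -- conclude
    have e1 : ∑ x ∈ C, u x - 12 * B * Q C u ≤ ap := by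
      have : 3 / 2 * (B : ℝ) * Q C b ≤ 12 * B * Q C u := by
        have := mul_le_mul_of_nonneg_left hQ8 (by positivity : (0 : ℝ) ≤ 3 / 2 * B)
        nlinarith
      have h3 : ∑ x ∈ C, u x - 3 / 2 * B * Q C b ≤ ap := hFs
      linarith
    have e2 : K * (∑ x ∈ C, u x - 12 * B * Q C u) ≤ K * ap := mul_le_mul_of_nonneg_left e1 hK0.le
    have e3 : (12 * B : ℝ) * (K * Q C u) ≤ κ * K ^ 2 * (K * Q C u) :=
      mul_le_mul_of_nonneg_right hK (mul_nonneg hK0.le hQu0)
    have hP' : ∑ x ∈ C, h x - κ * Q C h ≤ K * ∑ x ∈ C, u x - κ * (K ^ 3 * Q C u) := by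
      rw [← hQt, ← hSt]; exact hP
    calc s v ≤ ∑ x ∈ C, h x - κ * Q C h := hr
      _ ≤ K * ∑ x ∈ C, u x - κ * (K ^ 3 * Q C u) := hP'
      _ ≤ K * ap := by nlinarith

/-! ## The truncated flows -/

/-- truncated capacity value -/
noncomputable def psiN (n : ℕ) (v : V) : ℝ := Psi T lam (n - T.depth v) v

lemma psiN_nonneg (n : ℕ) (v : V) : 0 ≤ psiN T lam n v := Psi_nonneg T lam _ v

lemma psiN_le_one (n : ℕ) (v : V) : psiN T lam n v ≤ 1 := Psi_le_one T lam _ v

/-- square root of the budget left at a vertex, by depth -/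
noncomputable def rhoAux (n : ℕ) : ℕ → V → ℝ
  | 0, _ => 1
  | 1, _ => 1
  | d + 2, v => rhoAux n (d + 1) (T.parent v) * Real.sqrt (1 - psiN T lam n (T.parent v) ^ 2)

/-- square root of the budget left at `v` -/
noncomputable def rho (n : ℕ) (v : V) : ℝ := rhoAux T lam n (T.depth v) v

lemma rhoAux_nonneg (n d : ℕ) (v : V) : 0 ≤ rhoAux T lam n d v := by
  induction d using Nat.strong_induction_on generalizing v with
  | _ d ih =>
    match d with
    | 0 => simp [rhoAux]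
    | 1 => simp [rhoAux]
    | d + 2 =>
      rw [rhoAux]
      exact mul_nonneg (ih (d + 1) (by omega) _) (Real.sqrt_nonneg _)

lemma sqrt_budget_le_one (n : ℕ) (v : V) : Real.sqrt (1 - psiN T lam n v ^ 2) ≤ 1 := by
  rw [Real.sqrt_le_one]
  nlinarith [sq_nonneg (psiN T lam n v)]

lemma rhoAux_le_one (n d : ℕ) (v : V) : rhoAux T lam n d v ≤ 1 := by
  induction d using Nat.strong_induction_on generalizing v with
  | _ d ih =>
    match d with
    | 0 => simp [rhoAux]
    | 1 => simp [rhoAux]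
    | d + 2 =>
      rw [rhoAux]
      have h1 := ih (d + 1) (by omega) (T.parent v)
      have h2 := sqrt_budget_le_one T lam n (T.parent v)
      have h3 := rhoAux_nonneg T lam n (d + 1) (T.parent v)
      have h4 := Real.sqrt_nonneg (1 - psiN T lam n (T.parent v) ^ 2)
      nlinarith

lemma rho_nonneg (n : ℕ) (v : V) : 0 ≤ rho T lam n v := rhoAux_nonneg T lam n _ v

lemma rho_le_one (n : ℕ) (v : V) : rho T lam n v ≤ 1 := rhoAux_le_one T lam n _ v

lemma mem_children_depth {v x : V} (hx : x ∈ T.children v) : T.depth x = T.depth v + 1 :=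
  (T.mem_level_iff _ _).1 (Finset.mem_filter.1 hx).1

lemma mem_children_parent {v x : V} (hx : x ∈ T.children v) : T.parent x = v :=
  (Finset.mem_filter.1 hx).2

lemma rho_child (n : ℕ) {v x : V} (hv : v ≠ T.root) (hx : x ∈ T.children v) :
    rho T lam n x = rho T lam n v * Real.sqrt (1 - psiN T lam n v ^ 2) := by
  have hd : T.depth v ≠ 0 := fun h => hv ((T.depth_eq_zero_iff v).1 h)
  obtain ⟨d, hd'⟩ := Nat.exists_eq_succ_of_ne_zero hd
  have hx' : T.depth x = d + 2 := by rw [mem_children_depth T hx, hd']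
  unfold rho
  rw [hx', hd', rhoAux, mem_children_parent T hx]

lemma rho_child_root (n : ℕ) {x : V} (hx : x ∈ T.children T.root) : rho T lam n x = 1 := by
  have hd : T.depth T.root = 0 := (T.depth_eq_zero_iff _).2 rfl
  have hx' : T.depth x = 1 := by rw [mem_children_depth T hx, hd]
  unfold rho
  rw [hx']
  simp [rhoAux]

/-- the truncated flow -/
noncomputable def thetaN (n : ℕ) (v : V) : ℝ :=
  lam ^ (2 * T.depth v) * psiN T lam n v * rho T lam n v

variable {lam}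

lemma thetaN_nonneg (h0 : 0 < lam) (n : ℕ) (v : V) : 0 ≤ thetaN T lam n v :=
  mul_nonneg (mul_nonneg (pow_nonneg h0.le _) (psiN_nonneg T lam n v)) (rho_nonneg T lam n v)

lemma thetaN_le_one (h0 : 0 < lam) (h1 : lam < 1) (n : ℕ) (v : V) : thetaN T lam n v ≤ 1 := by
  unfold thetaN
  have a1 : lam ^ (2 * T.depth v) ≤ 1 := pow_le_one₀ h0.le h1.le
  have a2 := psiN_le_one T lam n v
  have a3 := rho_le_one T lam n v
  have a4 := psiN_nonneg T lam n v
  have a5 := rho_nonneg T lam n v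
  have a6 : 0 ≤ lam ^ (2 * T.depth v) := pow_nonneg h0.le _
  calc lam ^ (2 * T.depth v) * psiN T lam n v * rho T lam n v
      ≤ 1 * 1 * 1 := by
        apply mul_le_mul (mul_le_mul a1 a2 a4 (by norm_num)) a3 a5 (by norm_num)
    _ = 1 := by norm_num

/-- conservation of the truncated flow above level `n` -/
lemma thetaN_conservation (n : ℕ) {v : V} (hv : v ≠ T.root) (hn : T.depth v < n) :
    thetaN T lam n v = ∑ x ∈ T.children v, thetaN T lam n x := by
  obtain ⟨k, hk⟩ : ∃ k, n - T.depth v = k + 1 := ⟨n - T.depth v - 1, by omega⟩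
  have hpsi : psiN T lam n v = F (lam ^ 2 * ∑ x ∈ T.children v, Psi T lam k x) := by
    unfold psiN; rw [hk, Psi_succ]
  set L := lam ^ 2 * ∑ x ∈ T.children v, Psi T lam k x with hL
  have hchild : ∀ x ∈ T.children v, thetaN T lam n x =
      lam ^ (2 * T.depth v) * (lam ^ 2 * Psi T lam k x) *
        (rho T lam n v * (1 / Real.sqrt (1 + L ^ 2))) := by
    intro x hx
    unfold thetaN
    have hdx := mem_children_depth T hx
    have h1 : psiN T lam n x = Psi T lam k x := by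
      unfold psiN
      have : n - T.depth x = k := by omega
      rw [this]
    rw [rho_child T lam n hv hx, h1, hpsi, sqrt_one_sub_F_sq, hdx]
    ring
  rw [Finset.sum_congr rfl hchild, ← Finset.sum_mul, ← Finset.mul_sum, ← Finset.mul_sum, ← hL]
  unfold thetaN
  rw [hpsi]
  unfold F
  ring

/-- mass of the truncated flow -/
lemma thetaN_mass (m : ℕ) :
    ∑ x ∈ T.children T.root, thetaN T lam (m + 1) x
      = lam ^ 2 * ∑ x ∈ T.children T.root, Psi T lam m x := by
  rw [Finset.mul_sum]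
  refine Finset.sum_congr rfl fun x hx => ?_
  unfold thetaN
  have hd : T.depth T.root = 0 := (T.depth_eq_zero_iff _).2 rfl
  have hx' : T.depth x = 1 := by rw [mem_children_depth T hx, hd]
  rw [rho_child_root T lam _ hx]
  unfold psiN
  rw [hx']
  simp

lemma ray_depth {ξ : ℕ → V} (hξ : T.IsRay ξ) (k : ℕ) : T.depth (ξ k) = k := by
  induction k with
  | zero => rw [hξ.1]; exact (T.depth_eq_zero_iff _).2 rfl
  | succ k ih => rw [mem_children_depth T (hξ.2 k), ih]

lemma ray_ne_root {ξ : ℕ → V} (hξ : T.IsRay ξ) (k : ℕ) : ξ (k + 1) ≠ T.root := by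
  intro h
  have := ray_depth T hξ (k + 1)
  rw [h, (T.depth_eq_zero_iff _).2 rfl] at this
  omega

/-- partial sums of the potential along a ray telescope -/
lemma thetaN_potential (h0 : 0 < lam) (n : ℕ) {ξ : ℕ → V} (hξ : T.IsRay ξ) (m : ℕ) :
    ∑ k ∈ Finset.range m, (thetaN T lam n (ξ (k + 1)) / lam ^ (2 * (k + 1))) ^ 2 ≤ 1 := by
  have hstep : ∀ k, (thetaN T lam n (ξ (k + 1)) / lam ^ (2 * (k + 1))) ^ 2
      = rho T lam n (ξ (k + 1)) ^ 2 - rho T lam n (ξ (k + 2)) ^ 2 := by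
    intro k
    have hd := ray_depth T hξ (k + 1)
    have hlam : lam ^ (2 * (k + 1)) ≠ 0 := pow_ne_zero _ h0.ne'
    have e1 : thetaN T lam n (ξ (k + 1)) / lam ^ (2 * (k + 1))
        = psiN T lam n (ξ (k + 1)) * rho T lam n (ξ (k + 1)) := by
      unfold thetaN
      rw [hd]
      field_simp
    rw [e1, rho_child T lam n (ray_ne_root T hξ k) (hξ.2 (k + 1)), mul_pow, mul_pow,
      Real.sq_sqrt]
    · ring
    · nlinarith [psiN_le_one T lam n (ξ (k + 1)), psiN_nonneg T lam n (ξ (k + 1))]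
  have htel : ∑ k ∈ Finset.range m, (thetaN T lam n (ξ (k + 1)) / lam ^ (2 * (k + 1))) ^ 2
      = rho T lam n (ξ 1) ^ 2 - rho T lam n (ξ (m + 1)) ^ 2 := by
    induction m with
    | zero => simp
    | succ m ih => rw [Finset.sum_range_succ, ih, hstep m]; ring
  rw [htel]
  have h1 : rho T lam n (ξ 1) = 1 := by
    apply rho_child_root
    have := hξ.2 0
    rwa [hξ.1] at this
  rw [h1]
  nlinarith [sq_nonneg (rho T lam n (ξ (m + 1)))]

/-- **Module B9.** From the cubic-loss recursion (uniform in the truncation level) to a flow. -/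
theorem flow_of_recursion (B : ℕ) (hB : ∀ v, (T.children v).card ≤ B)
    (h0 : 0 < lam) (h1 : lam < 1) {κ c : ℝ} (hκ : 0 < κ) (hc : 0 < c) (s : ℕ → V → ℝ)
    (hs0 : ∀ n v, 0 ≤ s n v) (hs1 : ∀ n v, s n v ≤ 1)
    (hrec : ∀ n v, T.depth v < n →
      s n v ≤ ∑ x ∈ T.children v, lam ^ 2 * s n x
        - κ * ∑ x ∈ T.children v, ∑ y ∈ (T.children v).erase x,
            (lam ^ 2 * s n x) ^ 2 * (lam ^ 2 * s n y))
    (hroot : ∀ n, c ≤ s n T.root) :
    ∃ θ : V → ℝ, IsFlow T θ ∧ 0 < flowMass T θ ∧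
      ∀ ξ : ℕ → V, T.IsRay ξ → rayPotential lam θ ξ ≤ 1 := by
  classical
  -- constants
  have hlam4 : lam ^ 4 < 1 := pow_lt_one₀ h0.le h1 (by norm_num)
  set R := Real.sqrt (1 - lam ^ 4) with hRdef
  have hR : 0 < R := Real.sqrt_pos.2 (by linarith)
  have hR2 : R ^ 2 = 1 - lam ^ 4 := Real.sq_sqrt (by linarith)
  set κ' := min κ (1 / (3 * (B : ℝ) + 1)) with hκ'def
  have hB0 : (0 : ℝ) ≤ B := Nat.cast_nonneg _
  have hκ'0 : 0 < κ' := lt_min hκ (by positivity)
  have hκ'1 : κ' * (3 * B) ≤ 1 := by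
    have h2 : κ' ≤ 1 / (3 * (B : ℝ) + 1) := min_le_right _ _
    have h3 : κ' * (3 * (B : ℝ) + 1) ≤ 1 := by
      rw [le_div_iff₀ (by positivity)] at h2
      exact h2
    nlinarith
  set K := 2 + 12 * (B : ℝ) / κ' with hKdef
  have hfrac : 0 ≤ 12 * (B : ℝ) / κ' := by positivity
  have hK2 : 2 ≤ K := by linarith
  have hK : (12 * B : ℝ) ≤ κ' * K ^ 2 := by
    have h2 : 12 * (B : ℝ) = κ' * (12 * (B : ℝ) / κ') := by field_simp
    have h3 : 12 * (B : ℝ) / κ' ≤ K ^ 2 := by nlinarith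
    calc (12 * B : ℝ) = κ' * (12 * (B : ℝ) / κ') := h2
      _ ≤ κ' * K ^ 2 := mul_le_mul_of_nonneg_left h3 hκ'0.le
  have hK0 : 0 < K := by linarith
  -- the comparison for each `n`
  have hcmp : ∀ n k v, T.depth v + k = n → s n v ≤ K * G R lam (Psi T lam k v) := by
    intro n
    refine s_le_K_G T lam B hB hR hR2 hκ'0.le hκ'1 hK2 hK n (s n) (hs0 n) (hs1 n) ?_
    intro v hv
    have h2 := hrec n v hv
    have h3 : 0 ≤ Q (T.children v) (fun x => lam ^ 2 * s n x) :=
      Q_nonneg _ fun x _ => mul_nonneg (sq_nonneg _) (hs0 n x)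
    have h4 : κ' ≤ κ := min_le_left _ _
    have h5 : κ' * Q (T.children v) (fun x => lam ^ 2 * s n x)
        ≤ κ * Q (T.children v) (fun x => lam ^ 2 * s n x) :=
      mul_le_mul_of_nonneg_right h4 h3
    have h6 : Q (T.children v) (fun x => lam ^ 2 * s n x)
        = ∑ x ∈ T.children v, ∑ y ∈ (T.children v).erase x,
            (lam ^ 2 * s n x) ^ 2 * (lam ^ 2 * s n y) := rfl
    rw [← h6] at h2
    linarith
  -- lower bound of the truncated masses
  set c' := c * R / K with hc'def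
  have hc'0 : 0 < c' := by positivity
  have hmass : ∀ m : ℕ, c' ≤ ∑ x ∈ T.children T.root, thetaN T lam (m + 1) x := by
    intro m
    rw [thetaN_mass]
    set L := lam ^ 2 * ∑ x ∈ T.children T.root, Psi T lam m x with hL
    have hL0 : 0 ≤ L := mul_nonneg (sq_nonneg _) (Finset.sum_nonneg fun x _ => Psi_nonneg T lam m x)
    have h2 := hcmp (m + 1) (m + 1) T.root (by
      rw [(T.depth_eq_zero_iff _).2 rfl]; omega)
    rw [Psi_succ, G_F hR hR2, ← hL] at h2
    have h3 : F (L / R) ≤ L / R := F_le_self (by positivity)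
    have h4 := hroot (m + 1)
    have h5 : c ≤ K * (L / R) := by
      calc c ≤ s (m + 1) T.root := h4
        _ ≤ K * F (L / R) := h2
        _ ≤ K * (L / R) := mul_le_mul_of_nonneg_left h3 hK0.le
    rw [hc'def, div_le_iff₀ hK0]
    have h6 : K * (L / R) * R = K * L := by field_simp
    have h7 := mul_le_mul_of_nonneg_right h5 hR.le
    rw [h6] at h7
    linarith
  -- limit along an ultrafilter
  let U : Ultrafilter ℕ := Filter.hyperfilter ℕ
  have hU : (U : Filter ℕ) ≤ Filter.atTop := Nat.hyperfilter_le_atTop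
  have hlim : ∀ v : V, ∃ a ∈ Set.Icc (0 : ℝ) 1,
      Filter.Tendsto (fun n => thetaN T lam n v) (U : Filter ℕ) (nhds a) := by
    intro v
    have hcomp : IsCompact (Set.Icc (0 : ℝ) 1) := isCompact_Icc
    obtain ⟨a, ha, hle⟩ := hcomp.ultrafilter_le_nhds (U.map (fun n => thetaN T lam n v)) (by
      rw [Filter.le_principal_iff]
      show (fun n => thetaN T lam n v) ⁻¹' (Set.Icc (0 : ℝ) 1) ∈ (U : Filter ℕ)
      have : (fun n => thetaN T lam n v) ⁻¹' (Set.Icc (0 : ℝ) 1) = Set.univ := by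
        ext n
        simp [thetaN_nonneg T h0 n v, thetaN_le_one T h0 h1 n v]
      rw [this]
      exact Filter.univ_mem)
    exact ⟨a, ha, hle⟩
  choose θ hθ01 hθ using hlim
  have hsumlim : ∀ S : Finset V, Filter.Tendsto (fun n => ∑ x ∈ S, thetaN T lam n x) (U : Filter ℕ)
      (nhds (∑ x ∈ S, θ x)) := fun S => tendsto_finsetSum _ fun x _ => hθ x
  refine ⟨θ, ⟨fun v => (hθ01 v).1, ?_⟩, ?_, ?_⟩
  · -- conservation
    intro v hv
    have hev : ∀ᶠ n in (U : Filter ℕ), thetaN T lam n v = ∑ x ∈ T.children v, thetaN T lam n x := by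
      apply hU
      filter_upwards [Filter.eventually_gt_atTop (T.depth v)] with n hn
      exact thetaN_conservation T n hv hn
    exact tendsto_nhds_unique_of_eventuallyEq (hθ v) (hsumlim _) hev
  · -- mass
    have hge : c' ≤ flowMass T θ := by
      unfold flowMass
      refine ge_of_tendsto (hsumlim _) ?_
      apply hU
      filter_upwards [Filter.eventually_ge_atTop 1] with n hn
      obtain ⟨m, rfl⟩ : ∃ m, n = m + 1 := ⟨n - 1, by omega⟩
      exact hmass m
    linarith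
  · -- potentials
    intro ξ hξ
    unfold rayPotential
    rw [ENNReal.tsum_eq_iSup_nat]
    refine iSup_le fun m => ?_
    rw [← ENNReal.ofReal_sum_of_nonneg (fun _ _ => sq_nonneg _), ENNReal.ofReal_le_one]
    have hlimsum : Filter.Tendsto
        (fun n => ∑ k ∈ Finset.range m, (thetaN T lam n (ξ (k + 1)) / lam ^ (2 * (k + 1))) ^ 2)
        (U : Filter ℕ)
        (nhds (∑ k ∈ Finset.range m, (θ (ξ (k + 1)) / lam ^ (2 * (k + 1))) ^ 2)) :=
      tendsto_finsetSum _ fun k _ => ((hθ (ξ (k + 1))).div_const _).pow 2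
    exact le_of_tendsto hlimsum (Filter.Eventually.of_forall fun n => thetaN_potential T h0 n hξ m)

end FlowFromS
end Crest.Agent.Lib.Bc
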