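import Crest.Agent.Lib.Bc.Api
/-!
# Row 163, module B5: the general tree as an `SLaw`

`treeSL T lam hq hch n v`: the law of the spins at level `n` below `v`, given the spin at `v`.
Defined by the recursion over the children of `v`, so that `treeSL_succ` is immediate. The link with
the level-by-level Markov definition `levelLaw` is `levelLaw_eq_treeW` (a multilinear identity in the
leaf weights), and `treeAdvantage_eq` follows.
-/
open scoped BigOperators
open Crest.ProbabilityR.Broadcast Crest.ProbabilityR.TreeBroadcast
namespace Crest.Agent.Lib.Bc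
variable {q : ℕ} {V : Type*} [DecidableEq V]

/-- the hard field: the spin itself is observed -/
noncomputable def hardSL (q : ℕ) : SLaw q where
  O := Fin q
  w := fun o i => if o = i then 1 else 0
  nonneg := by intros; split_ifs <;> norm_num
  sum_one := fun i => by
    have := hasSum_fintype (fun o : Fin q => if o = i then (1 : ℝ) else 0)
    simpa using this
  sym := fun σ => ⟨σ, fun o i => by simp [σ.injective.eq_iff]⟩

/-- the `Φ` of the hard field, for a symmetric `f` -/
theorem hardSL_Φ (f : (Fin q → ℝ) → ℝ) (hsym : ∀ σ : Equiv.Perm (Fin q), ∀ x, f (x ∘ σ) = f x) (i : Fin q) :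
    (hardSL q).Φ f = f (fun j => if j = i then 1 else 0) := by
  have hq : 0 < q := i.pos
  have hq' : (q : ℝ) ≠ 0 := by positivity
  have e : (hardSL q).Φ f = ∑ o : Fin q, (hardSL q).mass o * f ((hardSL q).post o) := by
    have h0 : (hardSL q).Φ f = ∑' o : Fin q, (hardSL q).mass o * f ((hardSL q).post o) := rfl
    rw [h0, tsum_fintype]
  rw [e]
  have hs : ∀ o : Fin q, ∑ j, (hardSL q).w o j = 1 := fun o => by
    show ∑ j, (if o = j then (1 : ℝ) else 0) = 1
    simp
  have hm : ∀ o : Fin q, (hardSL q).mass o = 1 / q := fun o => by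
    unfold SLaw.mass; rw [hs]
  have hp : ∀ o : Fin q, f ((hardSL q).post o) = f (fun j => if j = i then 1 else 0) := fun o => by
    have : (hardSL q).post o = (fun j => if j = i then (1 : ℝ) else 0) ∘ (Equiv.swap o i) := by
      funext j
      show (if ∑ j, (hardSL q).w o j = 0 then (1 : ℝ) / q else (hardSL q).w o j / ∑ j, (hardSL q).w o j) = _
      rw [hs]
      simp only [one_ne_zero, if_false, div_one, Function.comp]
      show (if o = j then (1 : ℝ) else 0) = _
      by_cases h : o = j
      · subst h; simp
      · have h1 : Equiv.swap o i j ≠ i := by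
          intro h2
          have : j = o := by
            have := congrArg (Equiv.swap o i) h2
            simpa using this
          exact h this.symm
        simp [h, h1]
    rw [this, hsym]
  simp only [hm, hp]
  simp
  field_simp

/-- product of a list of laws -/
noncomputable def prodList : List (SLaw q) → SLaw q
  | [] => SLaw.triv q
  | L :: l => (prodList l).prod L

/-- laws below `v`, at relative depth `k` -/
noncomputable def auxSL (T : LocFinTree V) (lam : ℝ) (hch : ∀ i j : Fin q, 0 ≤ channel q lam i j) :
    ℕ → V → SLaw q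
  | 0, _ => hardSL q
  | k + 1, v => prodList ((T.children v).toList.map (fun c => (auxSL T lam hch k c).tilt lam hch))

/-- law of the observations below `v` at level `n` -/
noncomputable def treeSL (T : LocFinTree V) (lam : ℝ) (_hq : 0 < q) (hch : ∀ i j : Fin q, 0 ≤ channel q lam i j)
    (n : ℕ) (v : V) : SLaw q := auxSL T lam hch (n - T.depth v) v

lemma depth_of_mem_children (T : LocFinTree V) {v c : V} (hc : c ∈ T.children v) :
    T.depth c = T.depth v + 1 := by
  have := (Finset.mem_filter.1 hc).1
  exact (T.mem_level_iff _ _).1 this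

lemma parent_of_mem_children (T : LocFinTree V) {v c : V} (hc : c ∈ T.children v) :
    T.parent c = v := (Finset.mem_filter.1 hc).2

/-- level `n` vertex: hard field -/
theorem treeSL_level (T : LocFinTree V) (lam : ℝ) (hq : 0 < q) (hch : ∀ i j : Fin q, 0 ≤ channel q lam i j)
    (n : ℕ) (v : V) (hv : T.depth v = n) (f : (Fin q → ℝ) → ℝ)
    (hsym : ∀ σ : Equiv.Perm (Fin q), ∀ x, f (x ∘ σ) = f x) (i : Fin q) :
    (treeSL T lam hq hch n v).Φ f = f (fun j => if j = i then 1 else 0) := by
  have : treeSL T lam hq hch n v = hardSL q := by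
    unfold treeSL
    rw [hv, Nat.sub_self]
    rfl
  rw [this]
  exact hardSL_Φ f hsym i

/-- above level `n`: the law at `v` IS the product over the children of the tilted laws -/
theorem treeSL_eq_prod (T : LocFinTree V) (lam : ℝ) (hq : 0 < q) (hch : ∀ i j : Fin q, 0 ≤ channel q lam i j)
    (n : ℕ) (v : V) (hv : T.depth v < n) :
    treeSL T lam hq hch n v
      = prodList ((T.children v).toList.map (fun c => (treeSL T lam hq hch n c).tilt lam hch)) := by
  obtain ⟨m, hm⟩ : ∃ m, n - T.depth v = m + 1 := ⟨n - T.depth v - 1, by omega⟩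
  have h1 : treeSL T lam hq hch n v = auxSL T lam hch (m + 1) v := by
    unfold treeSL; rw [hm]
  rw [h1]
  show prodList ((T.children v).toList.map (fun c => (auxSL T lam hch m c).tilt lam hch)) = _
  congr 1
  apply List.map_congr_left
  intro c hc
  have hc' : c ∈ T.children v := by simpa using hc
  have h2 : n - T.depth c = m := by
    rw [depth_of_mem_children T hc']; omega
  unfold treeSL; rw [h2]

/-- above level `n`: product over the children of the tilted laws, in any order -/
theorem treeSL_succ (T : LocFinTree V) (lam : ℝ) (hq : 0 < q) (hch : ∀ i j : Fin q, 0 ≤ channel q lam i j)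
    (n : ℕ) (v : V) (hv : T.depth v < n) {f : (Fin q → ℝ) → ℝ} (_hf : SLaw.BddS f) :
    (treeSL T lam hq hch n v).Φ f
      = (prodList ((T.children v).toList.map (fun c => (treeSL T lam hq hch n c).tilt lam hch))).Φ f := by
  rw [← treeSL_eq_prod T lam hq hch n v hv]

/-! ## The multilinear identity -/

/-- partition function of the subtree of `v`, relative depth `k`, with leaf weights `g` -/
noncomputable def treeW (T : LocFinTree V) (lam : ℝ) (g : V → Fin q → ℝ) : ℕ → V → Fin q → ℝ
  | 0, v, i => g v i
  | k + 1, v, i => ∏ c ∈ T.children v, ∑ j, channel q lam i j * treeW T lam g k c j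

/-- pulling the leaf level one step up -/
noncomputable def upW (T : LocFinTree V) (lam : ℝ) (g : V → Fin q → ℝ) : V → Fin q → ℝ :=
  fun u j => ∏ c ∈ T.children u, ∑ k, channel q lam j k * g c k

lemma treeW_succ_eq (T : LocFinTree V) (lam : ℝ) (g : V → Fin q → ℝ) (k : ℕ) (v : V) (i : Fin q) :
    treeW T lam g (k + 1) v i = treeW T lam (upW T lam g) k v i := by
  induction k generalizing v i with
  | zero => rfl
  | succ k ih =>
    show (∏ c ∈ T.children v, ∑ j, channel q lam i j * treeW T lam g (k + 1) c j)
      = ∏ c ∈ T.children v, ∑ j, channel q lam i j * treeW T lam (upW T lam g) k c j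
    simp only [ih]

lemma parent_mem_level' (T : LocFinTree V) {n : ℕ} {v : V}
    (hv : v ∈ T.level (n + 1)) : T.parent v ∈ T.level n := by
  have hd : T.depth v = n + 1 := (T.mem_level_iff _ _).1 hv
  have hne : v ≠ T.root := fun h => by
    have := (T.depth_eq_zero_iff v).2 h; omega
  have := T.depth_parent v hne
  exact (T.mem_level_iff _ _).2 (by omega)

lemma root_mem_level_zero' (T : LocFinTree V) : T.root ∈ T.level 0 :=
  (T.mem_level_iff 0 T.root).2 ((T.depth_eq_zero_iff T.root).2 rfl)

lemma levelLaw_succ (T : LocFinTree V) (lam : ℝ) (n : ℕ) (i : Fin q) (τ : T.level (n + 1) → Fin q) :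
    levelLaw q T lam (n + 1) i τ = ∑ τ' : T.level n → Fin q, levelLaw q T lam n i τ' *
        ∏ v : T.level (n + 1), channel q lam (τ' ⟨T.parent v.1, parent_mem_level' T v.2⟩) (τ v) := rfl

lemma levelLaw_zero (T : LocFinTree V) (lam : ℝ) (i : Fin q) (τ : T.level 0 → Fin q) :
    levelLaw q T lam 0 i τ = if τ ⟨T.root, root_mem_level_zero' T⟩ = i then 1 else 0 := rfl

/-- grouping level `n+1` by parents -/
lemma prod_level_succ (T : LocFinTree V) (n : ℕ) (h : T.level n → V → ℝ) :
    ∏ v : T.level (n + 1), h ⟨T.parent v.1, parent_mem_level' T v.2⟩ v.1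
      = ∏ u : T.level n, ∏ c ∈ T.children u.1, h u c := by
  classical
  let p : T.level (n + 1) → T.level n := fun v => ⟨T.parent v.1, parent_mem_level' T v.2⟩
  have h1 := Finset.prod_fiberwise (s := (Finset.univ : Finset (T.level (n + 1)))) (g := p)
    (f := fun v => h (p v) v.1)
  rw [← h1]
  refine Finset.prod_congr rfl fun u _ => ?_
  have hu : T.depth u.1 = n := (T.mem_level_iff _ _).1 u.2
  refine Finset.prod_bij (fun v _ => v.1) ?_ ?_ ?_ ?_
  · intro v hv
    have hv' : p v = u := (Finset.mem_filter.1 hv).2
    refine Finset.mem_filter.2 ⟨?_, ?_⟩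
    · rw [hu]; exact v.2
    · exact congrArg Subtype.val hv'
  · intro a _ b _ hab
    exact Subtype.ext hab
  · intro c hc
    have hc1 := (Finset.mem_filter.1 hc).1
    have hc2 := (Finset.mem_filter.1 hc).2
    rw [hu] at hc1
    refine ⟨⟨c, hc1⟩, Finset.mem_filter.2 ⟨Finset.mem_univ _, Subtype.ext hc2⟩, rfl⟩
  · intro v hv
    have hv' : p v = u := (Finset.mem_filter.1 hv).2
    rw [hv']

/-- the sum over a level of the level law against product weights -/
noncomputable def levelSum (T : LocFinTree V) (lam : ℝ) (n : ℕ) (i : Fin q) (g : V → Fin q → ℝ) : ℝ :=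
  ∑ τ : T.level n → Fin q, levelLaw q T lam n i τ * ∏ u : T.level n, g u.1 (τ u)

lemma levelSum_succ (T : LocFinTree V) (lam : ℝ) (n : ℕ) (i : Fin q) (g : V → Fin q → ℝ) :
    levelSum T lam (n + 1) i g = levelSum T lam n i (upW T lam g) := by
  classical
  unfold levelSum
  have step : ∀ τ' : T.level n → Fin q,
      (∑ τ : T.level (n + 1) → Fin q,
        (∏ v : T.level (n + 1), channel q lam (τ' ⟨T.parent v.1, parent_mem_level' T v.2⟩) (τ v)) *
          ∏ v : T.level (n + 1), g v.1 (τ v))
      = ∏ u : T.level n, upW T lam g u.1 (τ' u) := by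
    intro τ'
    have h1 : ∀ τ : T.level (n + 1) → Fin q,
        (∏ v : T.level (n + 1), channel q lam (τ' ⟨T.parent v.1, parent_mem_level' T v.2⟩) (τ v)) *
          ∏ v : T.level (n + 1), g v.1 (τ v)
        = ∏ v : T.level (n + 1), (channel q lam (τ' ⟨T.parent v.1, parent_mem_level' T v.2⟩) (τ v) * g v.1 (τ v)) :=
      fun τ => (Finset.prod_mul_distrib).symm
    simp only [h1]
    have h2 := (Finset.prod_univ_sum (t := fun _ : T.level (n + 1) => (Finset.univ : Finset (Fin q)))
      (f := fun v k => channel q lam (τ' ⟨T.parent v.1, parent_mem_level' T v.2⟩) k * g v.1 k))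
    rw [Fintype.piFinset_univ] at h2
    rw [← h2]
    exact prod_level_succ T n (fun u c => ∑ k, channel q lam (τ' u) k * g c k)
  calc ∑ τ : T.level (n + 1) → Fin q, levelLaw q T lam (n + 1) i τ * ∏ u : T.level (n + 1), g u.1 (τ u)
      = ∑ τ : T.level (n + 1) → Fin q, ∑ τ' : T.level n → Fin q, levelLaw q T lam n i τ' *
          ((∏ v : T.level (n + 1), channel q lam (τ' ⟨T.parent v.1, parent_mem_level' T v.2⟩) (τ v)) *
            ∏ u : T.level (n + 1), g u.1 (τ u)) := by
        refine Finset.sum_congr rfl fun τ _ => ?_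
        rw [levelLaw_succ, Finset.sum_mul]
        exact Finset.sum_congr rfl fun τ' _ => by ring
    _ = ∑ τ' : T.level n → Fin q, levelLaw q T lam n i τ' *
          ∑ τ : T.level (n + 1) → Fin q,
            ((∏ v : T.level (n + 1), channel q lam (τ' ⟨T.parent v.1, parent_mem_level' T v.2⟩) (τ v)) *
              ∏ u : T.level (n + 1), g u.1 (τ u)) := by
        rw [Finset.sum_comm]
        refine Finset.sum_congr rfl fun τ' _ => ?_
        rw [Finset.mul_sum]
    _ = _ := by
        refine Finset.sum_congr rfl fun τ' _ => ?_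
        rw [step]

lemma levelSum_zero (T : LocFinTree V) (lam : ℝ) (i : Fin q) (g : V → Fin q → ℝ) :
    levelSum T lam 0 i g = g T.root i := by
  classical
  unfold levelSum
  let r : T.level 0 := ⟨T.root, root_mem_level_zero' T⟩
  have hr : ∀ u : T.level 0, u = r := fun u => by
    apply Subtype.ext
    exact (T.depth_eq_zero_iff u.1).1 ((T.mem_level_iff _ _).1 u.2)
  haveI : Unique (T.level 0) := ⟨⟨r⟩, hr⟩
  have hprod : ∀ τ : T.level 0 → Fin q, ∏ u : T.level 0, g u.1 (τ u) = g T.root (τ r) := fun τ => by
    rw [Fintype.prod_unique]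
    have : (default : T.level 0) = r := hr _
    rw [this]
  simp only [hprod, levelLaw_zero]
  rw [Finset.sum_eq_single (fun _ => i)]
  · show (if i = i then (1 : ℝ) else 0) * g T.root i = g T.root i
    simp
  · intro τ _ hτ
    have : τ r ≠ i := fun h => hτ (by
      funext u; rw [hr u]; exact h)
    have h2 : (⟨T.root, root_mem_level_zero' T⟩ : T.level 0) = r := rfl
    rw [h2, if_neg this, zero_mul]
  · intro h; exact absurd (Finset.mem_univ _) h

/-- the level-by-level sum is the tree recursion -/
theorem levelSum_eq_treeW (T : LocFinTree V) (lam : ℝ) (n : ℕ) (i : Fin q) (g : V → Fin q → ℝ) :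
    levelSum T lam n i g = treeW T lam g n T.root i := by
  induction n generalizing g with
  | zero => exact levelSum_zero T lam i g
  | succ n ih => rw [levelSum_succ, ih, treeW_succ_eq]

/-- leaf weights concentrated on a configuration -/
noncomputable def ptW (τ : V → Fin q) : V → Fin q → ℝ := fun u j => if τ u = j then 1 else 0

/-- the extension by a default spin -/
noncomputable def extCfg (T : LocFinTree V) (n : ℕ) (d : Fin q) (τ : T.level n → Fin q) : V → Fin q :=
  fun u => if h : u ∈ T.level n then τ ⟨u, h⟩ else d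

theorem levelLaw_eq_treeW (T : LocFinTree V) (lam : ℝ) (n : ℕ) (i : Fin q) (τ : T.level n → Fin q) :
    levelLaw q T lam n i τ = treeW T lam (ptW (extCfg T n i τ)) n T.root i := by
  classical
  rw [← levelSum_eq_treeW]
  unfold levelSum
  rw [Finset.sum_eq_single τ]
  · have : ∏ u : T.level n, ptW (extCfg T n i τ) u.1 (τ u) = 1 := by
      refine Finset.prod_eq_one fun u _ => ?_
      simp [ptW, extCfg]
    rw [this, mul_one]
  · intro τ' _ hτ'
    obtain ⟨u, hu⟩ : ∃ u, τ' u ≠ τ u := by
      by_contra hne
      exact hτ' (funext fun u => by_contra fun h => hne ⟨u, h⟩)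
    have : ∏ u : T.level n, ptW (extCfg T n i τ) u.1 (τ' u) = 0 := by
      refine Finset.prod_eq_zero (Finset.mem_univ u) ?_
      simp [ptW, extCfg, hu.symm]
    rw [this, mul_zero]
  · intro h; exact absurd (Finset.mem_univ _) h

lemma treeW_one (T : LocFinTree V) (lam : ℝ) (k : ℕ) (v : V) (i : Fin q) :
    treeW T lam (fun _ _ => (1 : ℝ)) k v i = 1 := by
  induction k generalizing v i with
  | zero => rfl
  | succ k ih =>
    show ∏ c ∈ T.children v, ∑ j, channel q lam i j * treeW T lam (fun _ _ => (1 : ℝ)) k c j = 1
    simp only [ih, mul_one, channel_sum_eq_one, Finset.prod_const_one]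

/-- the level law is a probability law -/
theorem sum_levelLaw (T : LocFinTree V) (lam : ℝ) (n : ℕ) (i : Fin q) :
    ∑ τ : T.level n → Fin q, levelLaw q T lam n i τ = 1 := by
  have := levelSum_eq_treeW T lam n i (fun _ _ => (1 : ℝ))
  rw [treeW_one] at this
  unfold levelSum at this
  simpa using this

/-! ## Observations -/

section Obs
variable {α : Type*}

/-- an element of the list product from a family of observations -/
noncomputable def listObs : (l : List α) → (L : α → SLaw q) → (s : ∀ a, (L a).O) → (prodList (l.map L)).O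
  | [], _, _ => ()
  | a :: l, L, s => (listObs l L s, s a)

lemma listObs_w (l : List α) (L : α → SLaw q) (s : ∀ a, (L a).O) (i : Fin q) :
    (prodList (l.map L)).w (listObs l L s) i = (l.map (fun a => (L a).w (s a) i)).prod := by
  induction l with
  | nil => rfl
  | cons a l ih =>
    show (prodList (l.map L)).w (listObs l L s) i * (L a).w (s a) i = _
    rw [ih, List.map_cons, List.prod_cons, mul_comm]

lemma listObs_inj (l : List α) (L : α → SLaw q) (s s' : ∀ a, (L a).O)
    (h : listObs l L s = listObs l L s') : ∀ a ∈ l, s a = s' a := by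
  induction l with
  | nil => simp
  | cons b l ih =>
    intro a ha
    have h' : (listObs l L s, s b) = (listObs l L s', s' b) := h
    have h1 := (Prod.mk.inj h').1
    have h2 := (Prod.mk.inj h').2
    rcases List.mem_cons.1 ha with rfl | ha
    · exact h2
    · exact ih h1 a ha

end Obs

/-- the observation attached to a spin configuration -/
noncomputable def obsOf (T : LocFinTree V) (lam : ℝ) (hch : ∀ i j : Fin q, 0 ≤ channel q lam i j)
    (τ : V → Fin q) : (k : ℕ) → (v : V) → (auxSL T lam hch k v).O
  | 0, v => τ v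
  | k + 1, v => listObs (T.children v).toList (fun c => (auxSL T lam hch k c).tilt lam hch)
      (fun c => obsOf T lam hch τ k c)

lemma obsOf_w (T : LocFinTree V) (lam : ℝ) (hch : ∀ i j : Fin q, 0 ≤ channel q lam i j)
    (τ : V → Fin q) (k : ℕ) (v : V) (i : Fin q) :
    (auxSL T lam hch k v).w (obsOf T lam hch τ k v) i = treeW T lam (ptW τ) k v i := by
  induction k generalizing v i with
  | zero => rfl
  | succ k ih =>
    show (prodList ((T.children v).toList.map (fun c => (auxSL T lam hch k c).tilt lam hch))).w
        (listObs (T.children v).toList (fun c => (auxSL T lam hch k c).tilt lam hch)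
          (fun c => obsOf T lam hch τ k c)) i
      = ∏ c ∈ T.children v, ∑ j, channel q lam i j * treeW T lam (ptW τ) k c j
    rw [listObs_w, ← Finset.prod_map_toList]
    congr 1
    apply List.map_congr_left
    intro c _
    show ∑ j, channel q lam i j * (auxSL T lam hch k c).w (obsOf T lam hch τ k c) j = _
    simp only [ih]

/-- `u` is a descendant of `v`, at relative depth `k` -/
def Desc (T : LocFinTree V) : ℕ → V → V → Prop
  | 0, v, u => u = v
  | k + 1, v, u => ∃ c ∈ T.children v, Desc T k c u

lemma obsOf_inj (T : LocFinTree V) (lam : ℝ) (hch : ∀ i j : Fin q, 0 ≤ channel q lam i j)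
    (τ τ' : V → Fin q) (k : ℕ) (v : V) (h : obsOf T lam hch τ k v = obsOf T lam hch τ' k v)
    (u : V) (hu : Desc T k v u) : τ u = τ' u := by
  induction k generalizing v with
  | zero =>
    have hu' : u = v := hu
    subst hu'
    exact h
  | succ k ih =>
    obtain ⟨c, hc, hcu⟩ := hu
    have h1 := listObs_inj (T.children v).toList (fun c => (auxSL T lam hch k c).tilt lam hch)
      (fun c => obsOf T lam hch τ k c) (fun c => obsOf T lam hch τ' k c) h c (by simpa using hc)
    exact ih c h1 hcu

lemma Desc_extend (T : LocFinTree V) {k : ℕ} {v w c : V} (h : Desc T k v w) (hc : c ∈ T.children w) :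
    Desc T (k + 1) v c := by
  induction k generalizing v with
  | zero =>
    have h' : w = v := h
    subst h'
    exact ⟨c, hc, rfl⟩
  | succ k ih =>
    obtain ⟨c', hc', hw⟩ := h
    exact ⟨c', hc', ih hw⟩

lemma Desc_root (T : LocFinTree V) (n : ℕ) (u : V) (hu : T.depth u = n) : Desc T n T.root u := by
  induction n generalizing u with
  | zero => exact (T.depth_eq_zero_iff u).1 hu
  | succ n ih =>
    have hne : u ≠ T.root := fun h => by
      have := (T.depth_eq_zero_iff u).2 h; omega
    have hp := T.depth_parent u hne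
    refine Desc_extend T (ih (T.parent u) (by omega)) ?_
    refine Finset.mem_filter.2 ⟨?_, rfl⟩
    exact (T.mem_level_iff _ _).2 (by omega)

/-- the homogeneous form of `tvU` -/
lemma mass_mul_tvU_B5 (L : SLaw q) (hq : 0 < q) (o : L.O) :
    L.mass o * tvU q (L.post o) = (1 / (2 * q)) * ∑ i, |L.w o i - (1 / q) * ∑ j, L.w o j| := by
  have hq' : (q : ℝ) ≠ 0 := by positivity
  by_cases h : ∑ j, L.w o j = 0
  · have h0 : ∀ i, L.w o i = 0 := L.w_eq_zero_of_sum h
    simp [SLaw.mass, h, h0]
  · have hS : 0 < ∑ j, L.w o j := lt_of_le_of_ne (L.sum_w_nonneg o) (Ne.symm h)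
    unfold SLaw.mass tvU SLaw.post
    simp only [h, if_false]
    rw [show (∑ i, L.w o i) / q * (1 / 2 * ∑ i, |L.w o i / ∑ j, L.w o j - 1 / q|)
        = (1 / (2 * q)) * ∑ i, ((∑ j, L.w o j) * |L.w o i / ∑ j, L.w o j - 1 / q|) by
      rw [← Finset.mul_sum]; field_simp]
    congr 1
    refine Finset.sum_congr rfl fun i _ => ?_
    rw [← abs_of_pos hS, ← abs_mul, abs_of_pos hS]
    congr 1
    field_simp

theorem treeAdvantage_eq (T : LocFinTree V) (lam : ℝ) (hq : 0 < q) (hch : ∀ i j : Fin q, 0 ≤ channel q lam i j) (n : ℕ) :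
    treeAdvantage q T lam n = (treeSL T lam hq hch n T.root).Φ (tvU q) := by
  classical
  have hroot : T.depth T.root = 0 := (T.depth_eq_zero_iff _).2 rfl
  have e0 : treeSL T lam hq hch n T.root = auxSL T lam hch n T.root := by
    unfold treeSL; rw [hroot, Nat.sub_zero]
  rw [e0]
  set L := auxSL T lam hch n T.root with hL
  let d : Fin q := ⟨0, hq⟩
  let ι : (T.level n → Fin q) → L.O := fun τ => obsOf T lam hch (extCfg T n d τ) n T.root
  have hw : ∀ τ i, L.w (ι τ) i = levelLaw q T lam n i τ := by
    intro τ i
    have h00 : L.w (ι τ) i = treeW T lam (ptW (extCfg T n d τ)) n T.root i :=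
      obsOf_w T lam hch _ n T.root i
    rw [h00]
    -- the default spin in the extension does not matter: rewrite through the level sum
    have key : ∀ e : Fin q, treeW T lam (ptW (extCfg T n e τ)) n T.root i
        = levelSum T lam n i (ptW (extCfg T n e τ)) := fun e => (levelSum_eq_treeW T lam n i _).symm
    rw [key d]
    unfold levelSum
    rw [Finset.sum_eq_single τ]
    · have : ∏ u : T.level n, ptW (extCfg T n d τ) u.1 (τ u) = 1 := by
        refine Finset.prod_eq_one fun u _ => ?_
        simp [ptW, extCfg]
      rw [this, mul_one]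
    · intro τ' _ hτ'
      obtain ⟨u, hu⟩ : ∃ u, τ' u ≠ τ u := by
        by_contra hne
        exact hτ' (funext fun u => by_contra fun h => hne ⟨u, h⟩)
      have : ∏ u : T.level n, ptW (extCfg T n d τ) u.1 (τ' u) = 0 := by
        refine Finset.prod_eq_zero (Finset.mem_univ u) ?_
        simp [ptW, extCfg, hu.symm]
      rw [this, mul_zero]
    · intro h; exact absurd (Finset.mem_univ _) h
  have hinj : Function.Injective ι := by
    intro τ τ' h
    funext u
    have hu := (T.mem_level_iff n u.1).1 u.2
    have := obsOf_inj T lam hch _ _ n T.root h u.1 (Desc_root T n u.1 hu)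
    simpa [extCfg] using this
  have hzero : ∀ o, o ∉ Set.range ι → ∀ i, L.w o i = 0 := by
    intro o ho i
    by_contra hne
    have hpos : 0 < L.w o i := lt_of_le_of_ne (L.nonneg o i) (Ne.symm hne)
    have hs := L.sum_one i
    let S : Finset L.O := Finset.univ.image ι
    have hoS : o ∉ S := fun h => ho (by
      obtain ⟨τ, _, hτ⟩ := Finset.mem_image.1 h
      exact ⟨τ, hτ⟩)
    have hle := sum_le_hasSum (insert o S) (fun b _ => L.nonneg b i) hs
    rw [Finset.sum_insert hoS, Finset.sum_image (fun a _ b _ h => hinj h)] at hle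
    simp only [hw, sum_levelLaw] at hle
    linarith
  unfold treeAdvantage SLaw.Φ
  have hsupp : Function.support (fun o => L.mass o * tvU q (L.post o)) ⊆ Set.range ι := by
    intro o ho
    by_contra hr
    apply ho
    have h0 := hzero o hr
    show L.mass o * tvU q (L.post o) = 0
    rw [mass_mul_tvU_B5 L hq o]
    simp [h0]
  rw [← hinj.tsum_eq hsupp, tsum_fintype, Finset.mul_sum]
  refine Finset.sum_congr rfl fun τ _ => ?_
  rw [mass_mul_tvU_B5 L hq (ι τ)]
  simp only [hw]

end Crest.Agent.Lib.Bc
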