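import Crest.Agent.Lib.Bc.Gw
import Crest.Agent.Lib.Bc.TreeSL
/-!
# Row 163: the three models as `SLaw`s (modules B3, B4, B5 of BLUEPRINT.md)
-/
open scoped BigOperators
open Crest.ProbabilityR.Broadcast Crest.ProbabilityR.TreeBroadcast
namespace Crest.Agent.Lib.Bc
variable {q : ℕ}

/-- channel nonnegative -/
lemma channel_nonneg (hq : 0 < q) {lam : ℝ} (h1 : -(1 / ((q : ℝ) - 1)) ≤ lam ∨ q = 1) (h2 : lam ≤ 1) (i j : Fin q) :
    0 ≤ channel q lam i j := by
  have hq' : (0 : ℝ) < q := by exact_mod_cast hq
  unfold channel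
  by_cases hij : i = j
  · rw [if_pos hij]
    have : lam + (1 - lam) / q = (lam * ((q : ℝ) - 1) + 1) / q := by
      field_simp
      ring
    rw [this]
    apply div_nonneg _ hq'.le
    rcases h1 with h1 | h1
    · rcases Nat.lt_or_ge 1 q with h | h
      · have hq2 : (1 : ℝ) < q := by exact_mod_cast h
        have hp : (0 : ℝ) < q - 1 := by linarith
        have := mul_le_mul_of_nonneg_right h1 hp.le
        have e : -(1 / ((q : ℝ) - 1)) * ((q : ℝ) - 1) = -1 := by
          field_simp
        rw [e] at this
        linarith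
      · have : q = 1 := by omega
        subst this
        simp
    · subst h1
      simp
  · rw [if_neg hij, zero_add]
    exact div_nonneg (by linarith) hq'.le

/-! ## B3: regular tree: see `Leaf.lean` -/

/-! ## B4: Poisson tree: see `Gw.lean` -/

/-! ## B5: general tree: see `TreeSL.lean` -/

end Crest.Agent.Lib.Bc
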