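import Crest.Agent.Lib.Bc.Abstract
import Crest.Agent.Lib.Bc.Models
import Crest.Agent.Lib.Bc.FlowFromS
/-!
# Row 163: assembling the three models from a `Cert`

* pointwise data processing: `aFn_le_Esig`, `aFn_le_Esig'`; law level `Φ_aFn_le_prod_left/right`.
* `Cert.list_sub`: `s(∏ L_x) ≤ ∑ t_x - κ₃/B ∑_{x≠y} t_x² t_y`.
* `Cert.advantage_tendsto`, `Cert.gwAdvantage_tendsto`: the regular and Poisson trees.
* `Cert.flow_of_advantage`: reconstruction on a general tree gives a flow (S0246, direction 1).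
-/
open scoped BigOperators
open Crest.ProbabilityR.Broadcast Crest.ProbabilityR.TreeBroadcast
namespace Crest.Agent.Lib.Bc
variable {q : ℕ}

/-- averaging a function over the image of a point under all permutations -/
lemma sum_perm_apply (_hq : 0 < q) (x : Fin q → ℝ) (i : Fin q) :
    (q : ℝ) * ∑ σ : Equiv.Perm (Fin q), x (σ i) = (Nat.factorial q) * ∑ k, x k := by
  have h : ∀ j, ∑ σ : Equiv.Perm (Fin q), x (σ j) = ∑ σ : Equiv.Perm (Fin q), x (σ i) := by
    intro j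
    rw [← Equiv.sum_comp (Equiv.mulRight (Equiv.swap j i)) (fun σ : Equiv.Perm (Fin q) => x (σ j))]
    refine Finset.sum_congr rfl fun σ _ => ?_
    simp [Equiv.mulRight]
  have h2 : ∑ j, ∑ σ : Equiv.Perm (Fin q), x (σ j) = ∑ σ : Equiv.Perm (Fin q), ∑ j, x (σ j) :=
    Finset.sum_comm
  have h3 : ∀ σ : Equiv.Perm (Fin q), ∑ j, x (σ j) = ∑ k, x k := fun σ => Equiv.sum_comp σ x
  simp only [h3, h, Finset.sum_const, Finset.card_univ, Fintype.card_fin, Fintype.card_perm,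
    nsmul_eq_mul] at h2
  exact h2

/-- pointwise data processing: averaging over the relabellings of `x'`, the `χ²` coordinate can only grow -/
theorem aFn_le_Esig (hq : 2 ≤ q) {x x' : Fin q → ℝ} (hx : x ∈ Simp q) (hx' : x' ∈ Simp q) :
    aFn q x ≤ Esig q (aFn q) x x' := by
  have hq0 : 0 < q := by omega
  have hq1 : (2 : ℝ) ≤ q := by exact_mod_cast hq
  have hqne : (q : ℝ) ≠ 0 := by positivity
  have hq2 : 0 < (q : ℝ) - 1 := by linarith
  have hfac : (0 : ℝ) < Nat.factorial q := by exact_mod_cast Nat.factorial_pos q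
  set y : Equiv.Perm (Fin q) → Fin q → ℝ := fun σ => star q x (x' ∘ σ) with hy
  set Z : Equiv.Perm (Fin q) → ℝ := fun σ => dotZ q x (x' ∘ σ) with hZ
  have Z0 : ∀ σ, 0 ≤ Z σ := fun σ => dotZ_nonneg hx (comp_mem_Simp σ hx')
  have F1 : ∀ σ i, Z σ * y σ i = q * (x i * x' (σ i)) := by
    intro σ i
    simp only [hZ, hy, dotZ, star, Function.comp]
    by_cases hS : ∑ j, x j * x' (σ j) = 0
    · have hzero : x i * x' (σ i) = 0 := by
        have := (Finset.sum_eq_zero_iff_of_nonneg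
          (fun j _ => mul_nonneg (hx.1 j) (hx'.1 (σ j)))).1 hS i (Finset.mem_univ i)
        exact this
      rw [hS, hzero]; simp
    · rw [if_neg hS]; field_simp
  have F2 : ∑ σ, Z σ = Nat.factorial q := by
    simp only [hZ, dotZ, Function.comp]
    rw [← Finset.mul_sum, Finset.sum_comm]
    have : ∀ j, ∑ σ : Equiv.Perm (Fin q), x j * x' (σ j) = x j * ∑ σ : Equiv.Perm (Fin q), x' (σ j) :=
      fun j => by rw [Finset.mul_sum]
    simp only [this]
    rw [Finset.mul_sum]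
    have : ∀ j, (q : ℝ) * (x j * ∑ σ : Equiv.Perm (Fin q), x' (σ j)) = x j * (Nat.factorial q) := by
      intro j
      have := sum_perm_apply hq0 x' j
      rw [hx'.2, mul_one] at this
      rw [mul_left_comm, this]
    simp only [this]
    rw [← Finset.sum_mul, hx.2, one_mul]
  have F3 : ∀ i, ∑ σ, Z σ * y σ i = x i * Nat.factorial q := by
    intro i
    simp only [F1]
    have := sum_perm_apply hq0 x' i
    rw [hx'.2, mul_one] at this
    calc ∑ σ : Equiv.Perm (Fin q), (q : ℝ) * (x i * x' (σ i))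
        = x i * ((q : ℝ) * ∑ σ : Equiv.Perm (Fin q), x' (σ i)) := by
          rw [Finset.mul_sum, Finset.mul_sum]
          exact Finset.sum_congr rfl fun σ _ => by ring
      _ = _ := by rw [this]
  have F4 : ∀ i, (x i) ^ 2 * Nat.factorial q ≤ ∑ σ, Z σ * (y σ i) ^ 2 := by
    intro i
    have h1 : ∀ σ, 2 * x i * (Z σ * y σ i) - (x i) ^ 2 * Z σ ≤ Z σ * (y σ i) ^ 2 := by
      intro σ
      nlinarith [mul_nonneg (Z0 σ) (sq_nonneg (y σ i - x i))]
    have h2 := Finset.sum_le_sum (s := Finset.univ) fun σ _ => h1 σ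
    rw [Finset.sum_sub_distrib, ← Finset.mul_sum, ← Finset.mul_sum, F3, F2] at h2
    nlinarith
  have F5 : ∀ σ, Z σ * aFn q (y σ) = ((q : ℝ) * ∑ i, Z σ * (y σ i) ^ 2 - Z σ) / ((q : ℝ) - 1) := by
    intro σ
    unfold aFn
    rw [← Finset.mul_sum]
    ring
  have e : Esig q (aFn q) x x' = (∑ σ, Z σ * aFn q (y σ)) / (Nat.factorial q) := rfl
  rw [e, le_div_iff₀ hfac]
  simp only [F5]
  rw [← Finset.sum_div, Finset.sum_sub_distrib, ← Finset.mul_sum, F2, Finset.sum_comm, le_div_iff₀ hq2]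
  have h5 : ∑ i, (x i) ^ 2 * (Nat.factorial q : ℝ) ≤ ∑ i, ∑ σ, Z σ * (y σ i) ^ 2 :=
    Finset.sum_le_sum fun i _ => F4 i
  rw [← Finset.sum_mul] at h5
  have h6 : aFn q x * ((q : ℝ) - 1) = (q : ℝ) * ∑ i, x i ^ 2 - 1 := by
    unfold aFn; field_simp
  have h7 : aFn q x * (Nat.factorial q : ℝ) * ((q : ℝ) - 1)
      = ((q : ℝ) * ∑ i, x i ^ 2 - 1) * Nat.factorial q := by
    rw [← h6]; ring
  rw [h7]
  nlinarith

lemma aFn_comp (σ : Equiv.Perm (Fin q)) (x : Fin q → ℝ) : aFn q (x ∘ σ) = aFn q x := by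
  unfold aFn
  congr 2
  congr 1
  exact Equiv.sum_comp σ (fun i => x i ^ 2)

/-- symmetry of the kernel for a relabelling-invariant `f` -/
theorem Esig_comm {f : (Fin q → ℝ) → ℝ} (hf : ∀ σ : Equiv.Perm (Fin q), ∀ x, f (x ∘ σ) = f x)
    (x x' : Fin q → ℝ) : Esig q f x x' = Esig q f x' x := by
  unfold Esig
  congr 1
  rw [← Equiv.sum_comp (Equiv.inv (Equiv.Perm (Fin q)))
    (fun σ : Equiv.Perm (Fin q) => dotZ q x (x' ∘ σ) * f (star q x (x' ∘ σ)))]
  refine Finset.sum_congr rfl fun σ _ => ?_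
  have hS : ∑ j, x j * x' (σ⁻¹ j) = ∑ j, x' j * x (σ j) := by
    rw [← Equiv.sum_comp σ (fun j => x j * x' (σ⁻¹ j))]
    refine Finset.sum_congr rfl fun j _ => ?_
    simp [mul_comm]
  have hd : dotZ q x (x' ∘ ((Equiv.inv (Equiv.Perm (Fin q))) σ)) = dotZ q x' (x ∘ σ) := by
    simp only [dotZ, Function.comp, Equiv.inv_apply]
    rw [hS]
  have hst : star q x (x' ∘ ((Equiv.inv (Equiv.Perm (Fin q))) σ)) = (star q x' (x ∘ σ)) ∘ (σ⁻¹ : Equiv.Perm (Fin q)) := by
    funext i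
    simp only [star, Function.comp, Equiv.inv_apply]
    rw [hS]
    simp [mul_comm]
  rw [hd, hst, hf]

theorem aFn_le_Esig' (hq : 2 ≤ q) {x x' : Fin q → ℝ} (hx : x ∈ Simp q) (hx' : x' ∈ Simp q) :
    aFn q x' ≤ Esig q (aFn q) x x' := by
  rw [Esig_comm aFn_comp]
  exact aFn_le_Esig hq hx' hx

namespace SLaw

theorem Φ_aFn_le_prod_left (hq : 2 ≤ q) (L L' : SLaw q) : L.Φ (aFn q) ≤ (L.prod L').Φ (aFn q) := by
  have hq0 : 0 < q := by omega
  have ha := BddS_aFn hq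
  have key := pair_le L L' hq0 (ι := Unit) (f := fun y => - aFn q y)
    (fun _ x => - aFn q x) (fun _ _ => 1) (BddS.neg ha) (fun _ => BddS.neg ha) (fun _ => BddS.const 1)
    (fun x hx x' hx' => by
      rw [Esig_neg]
      simp
      exact aFn_le_Esig hq hx hx')
  simp only [Finset.univ_unique, Finset.sum_singleton, L'.Φ_const hq0] at key
  rw [Φ_neg hq0 ha, Φ_neg hq0 ha] at key
  linarith

theorem Φ_aFn_le_prod_right (hq : 2 ≤ q) (L L' : SLaw q) : L'.Φ (aFn q) ≤ (L.prod L').Φ (aFn q) := by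
  have hq0 : 0 < q := by omega
  have ha := BddS_aFn hq
  have key := pair_le L L' hq0 (ι := Unit) (f := fun y => - aFn q y)
    (fun _ _ => 1) (fun _ x => - aFn q x) (BddS.neg ha) (fun _ => BddS.const 1) (fun _ => BddS.neg ha)
    (fun x hx x' hx' => by
      rw [Esig_neg]
      simp
      exact aFn_le_Esig' hq hx hx')
  simp only [Finset.univ_unique, Finset.sum_singleton, L.Φ_const hq0] at key
  rw [Φ_neg hq0 ha, Φ_neg hq0 ha] at key
  linarith

end SLaw

lemma aFn_centre (hq : 2 ≤ q) : aFn q (fun _ => (1 : ℝ) / q) = 0 := by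
  have hq1 : (2 : ℝ) ≤ q := by exact_mod_cast hq
  have hq' : (q : ℝ) ≠ 0 := by positivity
  unfold aFn
  simp [Finset.sum_const, Finset.card_univ]
  field_simp
  simp

lemma le_prodList (hq : 2 ≤ q) (l : List (SLaw q)) {L : SLaw q} (hL : L ∈ l) :
    L.Φ (aFn q) ≤ (prodList l).Φ (aFn q) := by
  induction l with
  | nil => simp at hL
  | cons K l ih =>
    rcases List.mem_cons.1 hL with rfl | h
    · exact SLaw.Φ_aFn_le_prod_right hq _ _
    · exact (ih h).trans (SLaw.Φ_aFn_le_prod_left hq _ _)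

namespace Cert
variable (C : Cert q)

lemma class_prodList (hq : 0 < q) (hU : 0 ≤ C.g (fun _ => (1 : ℝ) / q)) (l : List (SLaw q))
    (h : ∀ L ∈ l, 0 ≤ L.Φ C.g) : 0 ≤ (prodList l).Φ C.g := by
  induction l with
  | nil =>
    have e : (prodList ([] : List (SLaw q))) = (SLaw.triv q).pow 0 := rfl
    rw [e, SLaw.Φ_pow_zero _ hq]; exact hU
  | cons K l ih =>
    exact C.class_prod hq (ih fun L hL => h L (List.mem_cons_of_mem _ hL)) (h K List.mem_cons_self)

lemma Q_insert {V : Type*} [DecidableEq V] {S : Finset V} {v : V} (hv : v ∉ S) (b : V → ℝ) :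
    FlowFromS.Q (insert v S) b = FlowFromS.Q S b + b v * ∑ x ∈ S, b x ^ 2 + b v ^ 2 * ∑ x ∈ S, b x := by
  rw [FlowFromS.Q_eq, FlowFromS.Q_eq, Finset.sum_insert hv, Finset.sum_insert hv, Finset.sum_insert hv]
  ring

/-- the product over a list of distinct indices -/
theorem list_sub (hq : 2 ≤ q) (hU : 0 ≤ C.g (fun _ => (1 : ℝ) / q)) {V : Type*} [DecidableEq V]
    (L : V → SLaw q) (B : ℕ) (hB0 : 0 < B) (l : List V) (hnd : l.Nodup) (hlen : l.length ≤ B)
    (hcl : ∀ v ∈ l, 0 ≤ (L v).Φ C.g) :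
    (prodList (l.map L)).Φ (aFn q) ≤ ∑ x ∈ l.toFinset, (L x).Φ (aFn q)
      - (C.κ₃ / B) * FlowFromS.Q l.toFinset (fun x => (L x).Φ (aFn q)) := by
  have hq0 : 0 < q := by omega
  have hB : (0 : ℝ) < B := by exact_mod_cast hB0
  induction l with
  | nil =>
    have e : (prodList (([] : List V).map L)) = (SLaw.triv q).pow 0 := rfl
    rw [e, SLaw.Φ_pow_zero _ hq0, aFn_centre hq]
    simp [FlowFromS.Q]
  | cons v l ih =>
    have hnd' := List.nodup_cons.1 hnd
    have hlen' : l.length ≤ B := by simp at hlen; omega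
    have hcl' : ∀ x ∈ l, 0 ≤ (L x).Φ C.g := fun x hx => hcl x (List.mem_cons_of_mem _ hx)
    have ih' := ih hnd'.2 hlen' hcl'
    have hv : v ∉ l.toFinset := by simpa using hnd'.1
    set U := (prodList (l.map L)).Φ (aFn q) with hUdef
    set t : V → ℝ := fun x => (L x).Φ (aFn q) with ht
    have hcls : 0 ≤ (prodList (l.map L)).Φ C.g := by
      refine C.class_prodList hq0 hU _ ?_
      intro K hK
      obtain ⟨x, hx, rfl⟩ := List.mem_map.1 hK
      exact hcl' x hx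
    have e : prodList ((v :: l).map L) = (prodList (l.map L)).prod (L v) := rfl
    have hsub := C.sub hq hcls (hcl v List.mem_cons_self)
    rw [e, List.toFinset_cons, Finset.sum_insert hv, Q_insert hv]
    have t0 : 0 ≤ t v := (L v).Φ_aFn_nonneg hq
    have U0 : 0 ≤ U := (prodList (l.map L)).Φ_aFn_nonneg hq
    have hle : ∀ x ∈ l.toFinset, t x ≤ U := fun x hx => by
      have : L x ∈ l.map L := List.mem_map_of_mem (List.mem_toFinset.1 hx)
      exact le_prodList hq _ this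
    have ht0 : ∀ x ∈ l.toFinset, 0 ≤ t x := fun x _ => (L x).Φ_aFn_nonneg hq
    have hcard : (l.toFinset.card : ℝ) ≤ B := by
      have := List.toFinset_card_le l
      exact_mod_cast this.trans hlen'
    have s1 : ∑ x ∈ l.toFinset, t x ≤ B * U := by
      have := Finset.sum_le_card_nsmul l.toFinset t U hle
      rw [nsmul_eq_mul] at this
      exact this.trans (mul_le_mul_of_nonneg_right hcard U0)
    have s2 : ∑ x ∈ l.toFinset, t x ^ 2 ≤ B * U ^ 2 := by
      have := Finset.sum_le_card_nsmul l.toFinset (fun x => t x ^ 2) (U ^ 2)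
        (fun x hx => pow_le_pow_left₀ (ht0 x hx) (hle x hx) 2)
      rw [nsmul_eq_mul] at this
      exact this.trans (mul_le_mul_of_nonneg_right hcard (sq_nonneg U))
    have hk3 := C.κ₃_nonneg
    have hk2 := C.κ₂_nonneg
    have a1 : (C.κ₃ / B) * (t v * ∑ x ∈ l.toFinset, t x ^ 2 + t v ^ 2 * ∑ x ∈ l.toFinset, t x)
        ≤ C.κ₃ * (U ^ 2 * t v + U * t v ^ 2) := by
      have h1 : t v * ∑ x ∈ l.toFinset, t x ^ 2 + t v ^ 2 * ∑ x ∈ l.toFinset, t x
          ≤ B * (U ^ 2 * t v + U * t v ^ 2) := by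
        have := mul_le_mul_of_nonneg_left s2 t0
        have := mul_le_mul_of_nonneg_left s1 (sq_nonneg (t v))
        nlinarith
      calc (C.κ₃ / B) * (t v * ∑ x ∈ l.toFinset, t x ^ 2 + t v ^ 2 * ∑ x ∈ l.toFinset, t x)
          ≤ (C.κ₃ / B) * (B * (U ^ 2 * t v + U * t v ^ 2)) :=
            mul_le_mul_of_nonneg_left h1 (by positivity)
        _ = _ := by field_simp
    have a2 := mul_nonneg hk2 (mul_nonneg U0 t0)
    simp only [hUdef.symm, ht] at hsub a1 a2 ih' ⊢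
    nlinarith

/-- the class along a tree -/
theorem class_tree (hq : 2 ≤ q) (hU : 0 ≤ C.g (fun _ => (1 : ℝ) / q))
    (hsym : ∀ σ : Equiv.Perm (Fin q), ∀ x, C.g (x ∘ σ) = C.g x)
    (hV : ∀ i : Fin q, 0 ≤ C.g (fun j => if j = i then 1 else 0))
    {lam γ : ℝ} (hch : ∀ i j : Fin q, 0 ≤ channel q lam i j) (hγ : 0 ≤ γ)
    (hT : ∀ x ∈ Simp q, γ * C.g x ≤ C.g (Tl q lam x))
    {V : Type*} [DecidableEq V] (T : LocFinTree V) (n k : ℕ) :
    ∀ v, T.depth v + k = n → 0 ≤ (treeSL T lam (show 0 < q by omega) hch n v).Φ C.g := by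
  have hq0 : 0 < q := by omega
  induction k with
  | zero =>
    intro v hv
    rw [treeSL_level T lam hq0 hch n v (by omega) C.g hsym ⟨0, hq0⟩]
    exact hV _
  | succ k ih =>
    intro v hv
    rw [treeSL_eq_prod T lam hq0 hch n v (by omega)]
    refine C.class_prodList hq0 hU _ ?_
    intro K hK
    obtain ⟨c, hc, rfl⟩ := List.mem_map.1 hK
    have hc' : c ∈ T.children v := by simpa using hc
    refine C.class_tilt hq0 hch hγ hT (ih c ?_)
    rw [depth_of_mem_children T hc']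
    omega

/-- the recursion of `FlowFromS.flow_of_recursion` for the tree laws -/
theorem tree_rec (hq : 2 ≤ q) (hU : 0 ≤ C.g (fun _ => (1 : ℝ) / q))
    (hsym : ∀ σ : Equiv.Perm (Fin q), ∀ x, C.g (x ∘ σ) = C.g x)
    (hV : ∀ i : Fin q, 0 ≤ C.g (fun j => if j = i then 1 else 0))
    {lam γ : ℝ} (hch : ∀ i j : Fin q, 0 ≤ channel q lam i j) (hγ : 0 ≤ γ)
    (hT : ∀ x ∈ Simp q, γ * C.g x ≤ C.g (Tl q lam x))
    {V : Type*} [DecidableEq V] (T : LocFinTree V) (B : ℕ) (hB : ∀ v, (T.children v).card ≤ B)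
    (n : ℕ) (v : V) (hv : T.depth v < n) :
    (treeSL T lam (show 0 < q by omega) hch n v).Φ (aFn q) ≤
      ∑ x ∈ T.children v, lam ^ 2 * (treeSL T lam (show 0 < q by omega) hch n x).Φ (aFn q)
        - (C.κ₃ / ((B + 1 : ℕ) : ℝ)) * ∑ x ∈ T.children v, ∑ y ∈ (T.children v).erase x,
            (lam ^ 2 * (treeSL T lam (show 0 < q by omega) hch n x).Φ (aFn q)) ^ 2 *
              (lam ^ 2 * (treeSL T lam (show 0 < q by omega) hch n y).Φ (aFn q)) := by
  have hq0 : 0 < q := by omega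
  have hs := C.list_sub hq hU (fun c => (treeSL T lam hq0 hch n c).tilt lam hch) (B + 1) (by omega)
    (T.children v).toList (Finset.nodup_toList _) (by rw [Finset.length_toList]; have := hB v; omega)
    (by
      intro c hc
      have hc' : c ∈ T.children v := by simpa using hc
      refine C.class_tilt hq0 hch hγ hT (C.class_tree hq hU hsym hV hch hγ hT T n (n - T.depth c) c ?_)
      have := depth_of_mem_children T hc'
      omega)
  rw [Finset.toList_toFinset] at hs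
  rw [treeSL_eq_prod T lam hq0 hch n v hv]
  simp only [SLaw.Φ_aFn_tilt _ hq lam hch] at hs
  simpa [FlowFromS.Q] using hs

/-- **S0246, reconstruction ⇒ flow**, from a certificate. -/
theorem flow_of_advantage (hq : 2 ≤ q) (hκ : 0 < C.κ₃) (hU : 0 ≤ C.g (fun _ => (1 : ℝ) / q))
    (hsym : ∀ σ : Equiv.Perm (Fin q), ∀ x, C.g (x ∘ σ) = C.g x)
    (hV : ∀ i : Fin q, 0 ≤ C.g (fun j => if j = i then 1 else 0))
    {lam γ : ℝ} (h0 : 0 < lam) (h1 : lam < 1) (hch : ∀ i j : Fin q, 0 ≤ channel q lam i j) (hγ : 0 ≤ γ)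
    (hT : ∀ x ∈ Simp q, γ * C.g x ≤ C.g (Tl q lam x))
    {V : Type*} [DecidableEq V] (T : LocFinTree V) (B : ℕ) (hB : ∀ v, (T.children v).card ≤ B)
    (h : ∃ ε : ℝ, 0 < ε ∧ ∀ n, ε ≤ treeAdvantage q T lam n) :
    ∃ θ : V → ℝ, IsFlow T θ ∧ 0 < flowMass T θ ∧ ∀ ξ : ℕ → V, T.IsRay ξ → rayPotential lam θ ξ ≤ 1 := by
  obtain ⟨ε, hε, hadv⟩ := h
  have hq0 : 0 < q := by omega
  have hq1 : (2 : ℝ) ≤ q := by exact_mod_cast hq
  have hq2 : 0 < (q : ℝ) - 1 := by linarith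
  refine FlowFromS.flow_of_recursion T B hB h0 h1 (κ := C.κ₃ / ((B + 1 : ℕ) : ℝ))
    (c := ε ^ 2 * (4 / ((q : ℝ) - 1))) (by positivity) (by positivity)
    (fun n v => (treeSL T lam hq0 hch n v).Φ (aFn q))
    (fun n v => SLaw.Φ_aFn_nonneg _ hq) (fun n v => SLaw.Φ_aFn_le_one _ hq)
    (fun n v hv => C.tree_rec hq hU hsym hV hch hγ hT T B hB n v hv) ?_
  intro n
  have h2 := hadv n
  rw [treeAdvantage_eq T lam hq0 hch n] at h2
  have h3 := (treeSL T lam hq0 hch n T.root).sq_Φ_tvU_le hq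
  have h4 : ε ^ 2 ≤ ((treeSL T lam hq0 hch n T.root).Φ (tvU q)) ^ 2 :=
    pow_le_pow_left₀ hε.le h2 2
  have h5 := h4.trans h3
  show ε ^ 2 * (4 / ((q : ℝ) - 1)) ≤ (treeSL T lam hq0 hch n T.root).Φ (aFn q)
  rw [mul_div_assoc', div_le_iff₀ hq2]
  linarith

/-- **Regular trees** from a certificate. -/
theorem advantage_tendsto (hq : 2 ≤ q) (hκ : 0 < C.κ₂ + C.κ₃) (hU : 0 ≤ C.g (fun _ => (1 : ℝ) / q))
    (hsym : ∀ σ : Equiv.Perm (Fin q), ∀ x, C.g (x ∘ σ) = C.g x)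
    (hV : ∀ i : Fin q, 0 ≤ C.g (fun j => if j = i then 1 else 0))
    {lam γ : ℝ} (hch : ∀ i j : Fin q, 0 ≤ channel q lam i j) (hγ : 0 ≤ γ)
    (hT : ∀ x ∈ Simp q, γ * C.g x ≤ C.g (Tl q lam x)) {b : ℕ} (hb : 2 ≤ b)
    (hbl : (b : ℝ) * lam ^ 2 ≤ 1) :
    Filter.Tendsto (advantage q b lam) Filter.atTop (nhds 0) := by
  have hq0 : 0 < q := by omega
  have e : advantage q b lam = fun n => (leafSL q b lam n hq0 hch).Φ (tvU q) :=
    funext fun n => advantage_eq b lam n hq0 hch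
  rw [e]
  refine C.regular_tendsto hq hκ hU hch hγ hT hb hbl _ ?_ ?_
  · rw [leafSL_zero b lam hq0 hch C.g hsym ⟨0, hq0⟩]
    exact hV _
  · intro n f hf
    exact leafSL_succ b lam n hq0 hch hf

/-- **Poisson trees** from a certificate. -/
theorem gwAdvantage_tendsto (hq : 2 ≤ q) (hκ : 0 < C.κ₂ + C.κ₃) (hU : 0 ≤ C.g (fun _ => (1 : ℝ) / q))
    (hsym : ∀ σ : Equiv.Perm (Fin q), ∀ x, C.g (x ∘ σ) = C.g x)
    (hV : ∀ i : Fin q, 0 ≤ C.g (fun j => if j = i then 1 else 0))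
    {lam γ : ℝ} (hch : ∀ i j : Fin q, 0 ≤ channel q lam i j) (hγ : 0 ≤ γ)
    (hT : ∀ x ∈ Simp q, γ * C.g x ≤ C.g (Tl q lam x)) {d : ℝ} (hd : 0 < d)
    (hdl : d * lam ^ 2 ≤ 1) :
    Filter.Tendsto (gwAdvantage q lam d) Filter.atTop (nhds 0) := by
  have hq0 : 0 < q := by omega
  have e : gwAdvantage q lam d = fun n => (gwSL q lam d n hd.le hq0 hch).Φ (tvU q) :=
    funext fun n => gwAdvantage_eq lam d n hd.le hq0 hch
  rw [e]
  refine C.poisson_tendsto hq hκ hU hch hγ hT hd hdl _ ?_ ?_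
  · have e0 : gwSL q lam d 0 hd.le hq0 hch = hardSL q := rfl
    rw [e0, hardSL_Φ C.g hsym ⟨0, hq0⟩]
    exact hV _
  · intro n f hf
    exact gwSL_succ lam d n hd.le hq0 hch hf

end Cert

end Crest.Agent.Lib.Bc
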