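import Crest.Agent.Lib.Bc.Api
/-!
# Row 163: garbling and the convex order on symmetric laws (module B8 of BLUEPRINT.md)

* `ConvexSym f`: test functions: convex, continuous and symmetric on the simplex.
* `jensen_tsum`: Jensen for countable mixtures.
* `Garble L L'`: `L'` is obtained from `L` by a stochastic kernel on observations.
  `Garble.Φ_le`: `L'.Φ f ≤ L.Φ f` for convex continuous `f`.
* `Dominated L L'`: `L.Φ f ≤ L'.Φ f` for all `ConvexSym f`: a preorder, monotone under
  `tilt`, `prod`, `pow`; `Dominated.le_prod`: adding observations only raises `Φ f`;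
  `triv_dominated`: the trivial law is the bottom; `Φ_le_vertex`: the hard field is the top;
  `tilt_mul_dominated`: `T_{r μ}` is a degradation of `T_μ` for `r` in `[-1/(q-1), 1]`.
-/
open scoped BigOperators
open Filter Topology
namespace Crest.Agent.Lib.Bc
variable {q : ℕ}

lemma Simp_eq_stdSimplex : Simp q = stdSimplex ℝ (Fin q) := rfl

lemma convex_Simp : Convex ℝ (Simp q) := convex_stdSimplex ℝ (Fin q)

lemma isCompact_Simp : IsCompact (Simp q) := isCompact_stdSimplex ℝ (Fin q)

/-- test functions of the convex order -/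
structure ConvexSym (f : (Fin q → ℝ) → ℝ) : Prop where
  convex : ConvexOn ℝ (Simp q) f
  cont : ContinuousOn f (Simp q)
  sym : ∀ (σ : Equiv.Perm (Fin q)), ∀ x ∈ Simp q, f (x ∘ σ) = f x

lemma BddS_of_continuousOn {f : (Fin q → ℝ) → ℝ} (hc : ContinuousOn f (Simp q)) : SLaw.BddS f := by
  obtain ⟨C, hC⟩ := isCompact_Simp.exists_bound_of_continuousOn hc
  exact ⟨C, fun x hx => by simpa [Real.norm_eq_abs] using hC x hx⟩

lemma ConvexSym.bdd {f : (Fin q → ℝ) → ℝ} (hf : ConvexSym f) : SLaw.BddS f :=
  BddS_of_continuousOn hf.cont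

/-- Jensen's inequality for countable mixtures. -/
theorem jensen_tsum {ι : Type*} (hq : 0 < q) {f : (Fin q → ℝ) → ℝ} (hf : ConvexOn ℝ (Simp q) f)
    (hc : ContinuousOn f (Simp q)) {p : ι → ℝ} {x : ι → Fin q → ℝ} (hp0 : ∀ i, 0 ≤ p i)
    (hp : HasSum p 1) (hx : ∀ i, x i ∈ Simp q) {X : Fin q → ℝ}
    (hX : ∀ j, HasSum (fun i => p i * x i j) (X j)) :
    X ∈ Simp q ∧ Summable (fun i => p i * f (x i)) ∧ f X ≤ ∑' i, p i * f (x i) := by
  classical
  obtain ⟨C, hC⟩ := BddS_of_continuousOn hc
  have hu := unif_mem_Simp hq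
  set u : Fin q → ℝ := fun _ => (1 : ℝ) / q with hu_def
  -- the finite mixtures
  let w : Finset ι → Option ι → ℝ := fun s o => o.elim (1 - ∑ i ∈ s, p i) p
  let pt : Option ι → Fin q → ℝ := fun o => o.elim u x
  let Xs : Finset ι → Fin q → ℝ := fun s => ∑ o ∈ s.insertNone, w s o • pt o
  have hP : ∀ s : Finset ι, ∑ i ∈ s, p i ≤ 1 := fun s =>
    sum_le_hasSum s (fun i _ => hp0 i) hp
  have hw0 : ∀ s, ∀ o ∈ s.insertNone, 0 ≤ w s o := by
    intro s o _
    cases o with
    | none => exact sub_nonneg.2 (hP s)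
    | some i => exact hp0 i
  have hw1 : ∀ s, ∑ o ∈ s.insertNone, w s o = 1 := by
    intro s
    rw [Finset.sum_insertNone]
    simp [w]
  have hpt : ∀ o, pt o ∈ Simp q := by
    intro o
    cases o with
    | none => exact hu
    | some i => exact hx i
  have hXs_mem : ∀ s, Xs s ∈ Simp q := fun s =>
    (convex_Simp).sum_mem (hw0 s) (hw1 s) (fun o _ => hpt o)
  have hJ : ∀ s, f (Xs s) ≤ ∑ o ∈ s.insertNone, w s o • f (pt o) := fun s =>
    hf.map_sum_le (hw0 s) (hw1 s) (fun o _ => hpt o)
  have hXs_eval : ∀ s j, Xs s j = (1 - ∑ i ∈ s, p i) * u j + ∑ i ∈ s, p i * x i j := by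
    intro s j
    show (∑ o ∈ s.insertNone, w s o • pt o) j = _
    rw [Finset.sum_apply, Finset.sum_insertNone]
    simp [w, pt]
  have hRHS : ∀ s, ∑ o ∈ s.insertNone, w s o • f (pt o)
      = (1 - ∑ i ∈ s, p i) * f u + ∑ i ∈ s, p i * f (x i) := by
    intro s
    rw [Finset.sum_insertNone]
    simp [w, pt]
  -- limits
  have hPt : Tendsto (fun s : Finset ι => 1 - ∑ i ∈ s, p i) atTop (𝓝 0) := by
    simpa using (tendsto_const_nhds (x := (1 : ℝ))).sub (hp : HasSum p 1)
  have hXt : Tendsto Xs atTop (𝓝 X) := by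
    refine tendsto_pi_nhds.2 fun j => ?_
    have h1 := (hPt.mul_const (u j)).add (hX j)
    simp only [zero_mul, zero_add] at h1
    exact h1.congr fun s => (hXs_eval s j).symm
  have hXm : X ∈ Simp q :=
    isCompact_Simp.isClosed.mem_of_tendsto hXt (Eventually.of_forall hXs_mem)
  have hsum : Summable (fun i => p i * f (x i)) := by
    refine Summable.of_norm_bounded (g := fun i => p i * C) (hp.summable.mul_right C) ?_
    intro i
    rw [Real.norm_eq_abs, abs_mul, abs_of_nonneg (hp0 i)]
    exact mul_le_mul_of_nonneg_left (hC _ (hx i)) (hp0 i)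
  refine ⟨hXm, hsum, ?_⟩
  have hfX : Tendsto (fun s => f (Xs s)) atTop (𝓝 (f X)) := by
    have h1 : Tendsto Xs atTop (𝓝[Simp q] X) :=
      tendsto_nhdsWithin_iff.2 ⟨hXt, Eventually.of_forall hXs_mem⟩
    exact (hc X hXm).tendsto.comp h1
  have hR : Tendsto (fun s : Finset ι => (1 - ∑ i ∈ s, p i) * f u + ∑ i ∈ s, p i * f (x i)) atTop
      (𝓝 (∑' i, p i * f (x i))) := by
    have h1 := (hPt.mul_const (f u)).add hsum.hasSum
    simpa using h1
  refine le_of_tendsto_of_tendsto' hfX hR fun s => ?_
  rw [← hRHS]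
  exact hJ s

namespace SLaw

lemma abs_Φ_le (L : SLaw q) (hq : 0 < q) {g : (Fin q → ℝ) → ℝ} {C : ℝ}
    (h : ∀ x ∈ Simp q, |g x| ≤ C) : |L.Φ g| ≤ C := by
  have hg : BddS g := ⟨C, h⟩
  have h1 : L.Φ g ≤ L.Φ (fun _ => C) :=
    L.Φ_mono hq hg (BddS.const _) fun x hx => (le_abs_self _).trans (h x hx)
  have h2 : L.Φ (fun _ => -C) ≤ L.Φ g :=
    L.Φ_mono hq (BddS.const _) hg fun x hx => neg_le_of_abs_le (h x hx)
  rw [L.Φ_const hq] at h1 h2
  exact abs_le.2 ⟨h2, h1⟩

/-- the mean of the posterior is uniform: Jensen below. -/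
theorem Φ_ge_center (L : SLaw q) (hq : 0 < q) {g : (Fin q → ℝ) → ℝ} (hg : ConvexOn ℝ (Simp q) g)
    (hc : ContinuousOn g (Simp q)) : g (fun _ => (1 : ℝ) / q) ≤ L.Φ g := by
  have hq' : (q : ℝ) ≠ 0 := by positivity
  have hX : ∀ j : Fin q, HasSum (fun o => L.mass o * L.post o j) ((1 : ℝ) / q) := by
    intro j
    have h1 : (fun o => L.mass o * L.post o j) = fun o => L.w o j * (1 / q) := by
      funext o
      rw [L.w_eq hq o j]
      field_simp
    rw [h1]
    simpa using (L.sum_one j).mul_right (1 / (q : ℝ))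
  exact (jensen_tsum hq hg hc (fun o => L.mass_nonneg hq o) (L.hasSum_mass hq)
    (fun o => L.post_mem hq o) hX).2.2

end SLaw

/-- `L'` is a garbling of `L`: a stochastic kernel on observations produces `L'` from `L`. -/
structure Garble (L L' : SLaw q) where
  κ : L.O → L'.O → ℝ
  nonneg : ∀ o o', 0 ≤ κ o o'
  sum_one : ∀ o, HasSum (κ o) 1
  w_eq : ∀ o' i, HasSum (fun o => κ o o' * L.w o i) (L'.w o' i)

namespace Garble

variable {L L' : SLaw q}

lemma mass_hasSum (G : Garble L L') (o' : L'.O) :
    HasSum (fun o => G.κ o o' * L.mass o) (L'.mass o') := by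
  have h1 := hasSum_sum (s := Finset.univ) (fun i _ => G.w_eq o' i)
  have h2 := h1.div_const (q : ℝ)
  have e : (fun o => (∑ i : Fin q, G.κ o o' * L.w o i) / (q : ℝ)) = fun o => G.κ o o' * L.mass o := by
    funext o
    unfold SLaw.mass
    rw [← Finset.mul_sum, mul_div_assoc]
  rw [e] at h2
  exact h2

/-- one fibre of the kernel: Jensen -/
lemma fibre_le (hq : 0 < q) (G : Garble L L') {f : (Fin q → ℝ) → ℝ} (hf : ConvexOn ℝ (Simp q) f)
    (hc : ContinuousOn f (Simp q)) (o' : L'.O) :
    L'.mass o' * f (L'.post o') ≤ ∑' o, G.κ o o' * (L.mass o * f (L.post o)) := by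
  have hq' : (q : ℝ) ≠ 0 := by positivity
  have hm := G.mass_hasSum o'
  have hnn : ∀ o, 0 ≤ G.κ o o' * L.mass o := fun o => mul_nonneg (G.nonneg o o') (L.mass_nonneg hq o)
  have hm0 : 0 ≤ L'.mass o' := L'.mass_nonneg hq o'
  rcases hm0.eq_or_lt with h0 | hpos
  · -- zero mass: all terms vanish
    have hz : ∀ o, G.κ o o' * L.mass o = 0 := by
      have := (hasSum_zero_iff_of_nonneg hnn).1 (by rw [← h0] at hm; exact hm)
      exact fun o => congrFun this o
    have : ∀ o, G.κ o o' * (L.mass o * f (L.post o)) = 0 := fun o => by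
      rw [← mul_assoc, hz o, zero_mul]
    simp [this, ← h0]
  · have hne : L'.mass o' ≠ 0 := hpos.ne'
    let p : L.O → ℝ := fun o => G.κ o o' * L.mass o / L'.mass o'
    have hp0 : ∀ o, 0 ≤ p o := fun o => div_nonneg (hnn o) hm0
    have hp : HasSum p 1 := by
      have := hm.div_const (L'.mass o')
      rwa [div_self hne] at this
    have hX : ∀ j, HasSum (fun o => p o * L.post o j) (L'.post o' j) := by
      intro j
      have h1 := (G.w_eq o' j).div_const ((q : ℝ) * L'.mass o')
      have e1 : (fun o => G.κ o o' * L.w o j / ((q : ℝ) * L'.mass o')) = fun o => p o * L.post o j := by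
        funext o
        simp only [p]
        rw [L.w_eq hq o j]
        field_simp
      rw [e1] at h1
      have e2 : L'.w o' j / ((q : ℝ) * L'.mass o') = L'.post o' j := by
        rw [L'.w_eq hq o' j]
        field_simp
      rwa [e2] at h1
    have hJ := jensen_tsum hq hf hc hp0 hp (fun o => L.post_mem hq o) hX
    have h2 : L'.mass o' * f (L'.post o') ≤ L'.mass o' * ∑' o, p o * f (L.post o) :=
      mul_le_mul_of_nonneg_left hJ.2.2 hm0
    refine h2.trans_eq ?_
    rw [← tsum_mul_left]
    refine tsum_congr fun o => ?_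
    simp only [p]
    field_simp

/-- **Data processing**: garbling lowers `Φ f` for convex continuous `f`. -/
theorem Φ_le (hq : 0 < q) (G : Garble L L') {f : (Fin q → ℝ) → ℝ} (hf : ConvexOn ℝ (Simp q) f)
    (hc : ContinuousOn f (Simp q)) : L'.Φ f ≤ L.Φ f := by
  obtain ⟨C, hC⟩ := BddS_of_continuousOn hc
  have hC0 : 0 ≤ C := (abs_nonneg _).trans (hC _ (unif_mem_Simp hq))
  let F : L.O → L'.O → ℝ := fun o o' => G.κ o o' * (L.mass o * f (L.post o))
  let B : L.O × L'.O → ℝ := fun z => G.κ z.1 z.2 * (L.mass z.1 * C)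
  have hB0 : ∀ z, 0 ≤ B z := fun z =>
    mul_nonneg (G.nonneg _ _) (mul_nonneg (L.mass_nonneg hq _) hC0)
  have hBsum : Summable B := by
    refine (summable_prod_of_nonneg hB0).2 ⟨fun o => ?_, ?_⟩
    · show Summable fun o' => G.κ o o' * (L.mass o * C)
      exact (G.sum_one o).summable.mul_right _
    · have : (fun o => ∑' o', B (o, o')) = fun o => L.mass o * C := by
        funext o
        show ∑' o', G.κ o o' * (L.mass o * C) = _
        rw [tsum_mul_right, (G.sum_one o).tsum_eq, one_mul]
      rw [this]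
      exact (L.summable_mass hq).mul_right C
  have hFsum : Summable (Function.uncurry F) := by
    refine Summable.of_norm_bounded (g := B) hBsum ?_
    rintro ⟨o, o'⟩
    show ‖G.κ o o' * (L.mass o * f (L.post o))‖ ≤ G.κ o o' * (L.mass o * C)
    rw [Real.norm_eq_abs, abs_mul, abs_mul, abs_of_nonneg (G.nonneg o o'),
      abs_of_nonneg (L.mass_nonneg hq o)]
    exact mul_le_mul_of_nonneg_left
      (mul_le_mul_of_nonneg_left (hC _ (L.post_mem hq o)) (L.mass_nonneg hq o)) (G.nonneg o o')
  have hcomm : ∑' o', ∑' o, F o o' = ∑' o, ∑' o', F o o' := hFsum.tsum_comm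
  have h2 : ∑' o, ∑' o', F o o' = L.Φ f := by
    unfold SLaw.Φ
    refine tsum_congr fun o => ?_
    simp only [F]
    rw [tsum_mul_right, (G.sum_one o).tsum_eq, one_mul]
  have hsum2 : Summable (fun o' => ∑' o, F o o') := by
    have := (hFsum.prod_symm).prod
    simpa [Function.uncurry] using this
  rw [← h2, ← hcomm]
  exact (L'.summable_Φ hq ⟨C, hC⟩).tsum_le_tsum (fun o' => G.fibre_le hq hf hc o') hsum2

/-- the identity garbling -/
noncomputable def refl (L : SLaw q) : Garble L L := by
  classical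
  exact
  { κ := fun o o' => if o = o' then 1 else 0
    nonneg := fun o o' => by split_ifs <;> norm_num
    sum_one := fun o => by
      convert hasSum_ite_eq o (1 : ℝ) using 2
      simp [eq_comm]
    w_eq := fun o' i => by
      have := hasSum_ite_eq o' (L.w o' i)
      convert this using 2 with o
      by_cases h : o = o'
      · subst h; simp
      · simp [h] }

/-- garbling is preserved by the tree edge -/
noncomputable def tilt (G : Garble L L') (lam : ℝ)
    (h : ∀ i j : Fin q, 0 ≤ Crest.ProbabilityR.Broadcast.channel q lam i j) :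
    Garble (L.tilt lam h) (L'.tilt lam h) where
  κ := G.κ
  nonneg := G.nonneg
  sum_one := G.sum_one
  w_eq := fun o' i => by
    have h1 := hasSum_sum (s := Finset.univ) (fun j _ =>
      (G.w_eq o' j).mul_left (Crest.ProbabilityR.Broadcast.channel q lam i j))
    show HasSum (fun o : L.O => G.κ o o' * ∑ j, Crest.ProbabilityR.Broadcast.channel q lam i j * L.w o j)
      (∑ j, Crest.ProbabilityR.Broadcast.channel q lam i j * L'.w o' j)
    have e : (fun o : L.O => G.κ o o' * ∑ j, Crest.ProbabilityR.Broadcast.channel q lam i j * L.w o j)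
        = fun o => ∑ j, Crest.ProbabilityR.Broadcast.channel q lam i j * (G.κ o o' * L.w o j) := by
      funext o
      rw [Finset.mul_sum]
      exact Finset.sum_congr rfl fun j _ => by ring
    rw [e]
    exact h1

/-- garbling is preserved by independent products -/
noncomputable def prod {K K' : SLaw q} (G : Garble L L') (H : Garble K K') :
    Garble (L.prod K) (L'.prod K') where
  κ := fun z z' => G.κ z.1 z'.1 * H.κ z.2 z'.2
  nonneg := fun z z' => mul_nonneg (G.nonneg _ _) (H.nonneg _ _)
  sum_one := fun z => by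
    have h1 := G.sum_one z.1
    have h2 := H.sum_one z.2
    have hs : Summable fun x : L'.O × K'.O => G.κ z.1 x.1 * H.κ z.2 x.2 :=
      h1.summable.mul_of_nonneg h2.summable (fun o => G.nonneg _ o) (fun o => H.nonneg _ o)
    have h3 : HasSum (fun x : L'.O × K'.O => G.κ z.1 x.1 * H.κ z.2 x.2) 1 := by
      simpa using h1.mul h2 hs
    exact h3
  w_eq := fun z' i => by
    have h1 := G.w_eq z'.1 i
    have h2 := H.w_eq z'.2 i
    have n1 : ∀ o, 0 ≤ G.κ o z'.1 * L.w o i := fun o => mul_nonneg (G.nonneg _ _) (L.nonneg _ _)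
    have n2 : ∀ o, 0 ≤ H.κ o z'.2 * K.w o i := fun o => mul_nonneg (H.nonneg _ _) (K.nonneg _ _)
    have hs : Summable fun x : L.O × K.O => (G.κ x.1 z'.1 * L.w x.1 i) * (H.κ x.2 z'.2 * K.w x.2 i) :=
      h1.summable.mul_of_nonneg h2.summable n1 n2
    have h3 := h1.mul h2 hs
    have e : (fun x : L.O × K.O => G.κ x.1 z'.1 * H.κ x.2 z'.2 * (L.w x.1 i * K.w x.2 i))
        = fun x : L.O × K.O => (G.κ x.1 z'.1 * L.w x.1 i) * (H.κ x.2 z'.2 * K.w x.2 i) := by
      funext x
      ring
    show HasSum (fun x : L.O × K.O => G.κ x.1 z'.1 * H.κ x.2 z'.2 * (L.w x.1 i * K.w x.2 i))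
      (L'.w z'.1 i * K'.w z'.2 i)
    rw [e]
    exact h3

/-- garbling is preserved by `pow` -/
noncomputable def pow (G : Garble L L') : (c : ℕ) → Garble (L.pow c) (L'.pow c)
  | 0 => refl _
  | c + 1 => (pow G c).prod G

end Garble

/-! ## The convex order -/

/-- `L` is dominated by `L'` in the convex order (tested by symmetric convex functions). -/
def Dominated (L L' : SLaw q) : Prop := ∀ f : (Fin q → ℝ) → ℝ, ConvexSym f → L.Φ f ≤ L'.Φ f

namespace Dominated

lemma refl (L : SLaw q) : Dominated L L := fun _ _ => le_rfl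

lemma trans {L L' L'' : SLaw q} (h : Dominated L L') (h' : Dominated L' L'') : Dominated L L'' :=
  fun f hf => (h f hf).trans (h' f hf)

end Dominated

lemma Garble.dominated (hq : 0 < q) {L L' : SLaw q} (G : Garble L L') : Dominated L' L :=
  fun _ hf => G.Φ_le hq hf.convex hf.cont

lemma Tl_comp_perm (lam : ℝ) (σ : Equiv.Perm (Fin q)) (x : Fin q → ℝ) :
    Tl q lam (x ∘ σ) = Tl q lam x ∘ σ := rfl

lemma Tl_continuous (lam : ℝ) : Continuous (Tl q lam) := by
  unfold Tl
  fun_prop

/-- test functions are stable under the channel -/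
lemma ConvexSym.comp_Tl {f : (Fin q → ℝ) → ℝ} (hf : ConvexSym f) {lam : ℝ}
    (hT : ∀ x ∈ Simp q, Tl q lam x ∈ Simp q) : ConvexSym (f ∘ Tl q lam) := by
  refine ⟨⟨convex_Simp, fun x hx y hy a b ha hb hab => ?_⟩, ?_, ?_⟩
  · have e : Tl q lam (a • x + b • y) = a • Tl q lam x + b • Tl q lam y := by
      funext i
      simp only [Tl, Pi.add_apply, Pi.smul_apply, smul_eq_mul]
      obtain rfl : b = 1 - a := by linarith
      ring
    show f (Tl q lam (a • x + b • y)) ≤ a • f (Tl q lam x) + b • f (Tl q lam y)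
    rw [e]
    exact hf.convex.2 (hT x hx) (hT y hy) ha hb hab
  · exact hf.cont.comp (Tl_continuous lam).continuousOn hT
  · intro σ x hx
    show f (Tl q lam (x ∘ σ)) = f (Tl q lam x)
    rw [Tl_comp_perm]
    exact hf.sym σ _ (hT x hx)

theorem Dominated.tilt (hq : 0 < q) {L L' : SLaw q} (h : Dominated L L') (lam : ℝ)
    (hch : ∀ i j : Fin q, 0 ≤ Crest.ProbabilityR.Broadcast.channel q lam i j) :
    Dominated (L.tilt lam hch) (L'.tilt lam hch) := by
  intro f hf
  have hT : ∀ x ∈ Simp q, Tl q lam x ∈ Simp q := fun x hx => SLaw.Tl_mem hq lam hch hx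
  rw [SLaw.Φ_tilt L hq lam hch hf.bdd hT, SLaw.Φ_tilt L' hq lam hch hf.bdd hT]
  exact h _ (hf.comp_Tl hT)

/-! ## Convexity of the pair kernel (perspective) -/

section Kern
open SLaw

lemma sum_mul_nonneg {x x' : Fin q → ℝ} (hx : x ∈ Simp q) (hx' : x' ∈ Simp q) :
    0 ≤ ∑ j, x j * x' j := Finset.sum_nonneg fun i _ => mul_nonneg (hx.1 i) (hx'.1 i)

/-- `kern q f x = q S f(x ⊙ x' / S)` is convex in `x'`: perspective of a convex function. -/
theorem kern_convex (hq : 0 < q) {f : (Fin q → ℝ) → ℝ} (hf : ConvexOn ℝ (Simp q) f)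
    {x : Fin q → ℝ} (hx : x ∈ Simp q) : ConvexOn ℝ (Simp q) (kern q f x) := by
  refine ⟨convex_Simp, fun y hy z hz a b ha hb hab => ?_⟩
  set Sy := ∑ j, x j * y j with hSy
  set Sz := ∑ j, x j * z j with hSz
  have hSy0 : 0 ≤ Sy := sum_mul_nonneg hx hy
  have hSz0 : 0 ≤ Sz := sum_mul_nonneg hx hz
  have hw : a • y + b • z ∈ Simp q := convex_Simp hy hz ha hb hab
  have hS : ∑ j, x j * (a • y + b • z) j = a * Sy + b * Sz := by
    simp only [Pi.add_apply, Pi.smul_apply, smul_eq_mul, hSy, hSz, Finset.mul_sum, ← Finset.sum_add_distrib]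
    exact Finset.sum_congr rfl fun j _ => by ring
  have hker : ∀ w, kern q f x w = q * ((∑ j, x j * w j) * f (star q x w)) := fun w => by
    unfold kern dotZ; ring
  simp only [hker, smul_eq_mul]
  have hq0 : (0 : ℝ) ≤ q := Nat.cast_nonneg _
  have key : (∑ j, x j * (a • y + b • z) j) * f (star q x (a • y + b • z))
      ≤ a * (Sy * f (star q x y)) + b * (Sz * f (star q x z)) := by
    rw [hS]
    have hy1 := star_mem hq hx hy
    have hz1 := star_mem hq hx hz
    by_cases h1 : a * Sy = 0
    · by_cases h2 : b * Sz = 0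
      · have : a * (Sy * f (star q x y)) = 0 := by rw [← mul_assoc, h1, zero_mul]
        have h3 : b * (Sz * f (star q x z)) = 0 := by rw [← mul_assoc, h2, zero_mul]
        rw [h1, h2, this, h3]; simp
      · -- only `z` counts
        have hb0 : 0 < b := lt_of_le_of_ne hb (fun h => h2 (by rw [← h, zero_mul]))
        have hSz1 : Sz ≠ 0 := fun h => h2 (by rw [h, mul_zero])
        have hy0 : ∀ j, a * (x j * y j) = 0 := by
          have hs : ∑ j, a * (x j * y j) = 0 := by rw [← Finset.mul_sum]; exact h1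
          have := (Finset.sum_eq_zero_iff_of_nonneg
            (fun j _ => mul_nonneg ha (mul_nonneg (hx.1 j) (hy.1 j)))).1 hs
          exact fun j => this j (Finset.mem_univ j)
        have e : star q x (a • y + b • z) = star q x z := by
          funext i
          have hne : ∑ j, x j * (a • y + b • z) j ≠ 0 := by
            rw [hS, h1, zero_add]; exact h2
          simp only [star, hne, hSz.symm ▸ hSz1, if_false]
          rw [hS, h1, zero_add]
          have : x i * (a • y + b • z) i = b * (x i * z i) := by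
            simp only [Pi.add_apply, Pi.smul_apply, smul_eq_mul]
            have := hy0 i
            linear_combination this
          rw [this]
          rw [mul_div_mul_left _ _ hb0.ne']
        rw [e, h1, zero_add]
        have : a * (Sy * f (star q x y)) = 0 := by rw [← mul_assoc, h1, zero_mul]
        rw [this, zero_add]
        ring_nf
        rfl
    · by_cases h2 : b * Sz = 0
      · -- only `y` counts
        have ha0 : 0 < a := lt_of_le_of_ne ha (fun h => h1 (by rw [← h, zero_mul]))
        have hSy1 : Sy ≠ 0 := fun h => h1 (by rw [h, mul_zero])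
        have hz0 : ∀ j, b * (x j * z j) = 0 := by
          have hs : ∑ j, b * (x j * z j) = 0 := by rw [← Finset.mul_sum]; exact h2
          have := (Finset.sum_eq_zero_iff_of_nonneg
            (fun j _ => mul_nonneg hb (mul_nonneg (hx.1 j) (hz.1 j)))).1 hs
          exact fun j => this j (Finset.mem_univ j)
        have e : star q x (a • y + b • z) = star q x y := by
          funext i
          have hne : ∑ j, x j * (a • y + b • z) j ≠ 0 := by
            rw [hS, h2, add_zero]; exact h1
          simp only [star, hne, hSy.symm ▸ hSy1, if_false]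
          rw [hS, h2, add_zero]
          have : x i * (a • y + b • z) i = a * (x i * y i) := by
            simp only [Pi.add_apply, Pi.smul_apply, smul_eq_mul]
            have := hz0 i
            linear_combination this
          rw [this]
          rw [mul_div_mul_left _ _ ha0.ne']
        rw [e, h2, add_zero]
        have : b * (Sz * f (star q x z)) = 0 := by rw [← mul_assoc, h2, zero_mul]
        rw [this, add_zero]
        ring_nf
        rfl
      · -- the main case: convex combination of the two normalised products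
        have ha0 : 0 < a := lt_of_le_of_ne ha (fun h => h1 (by rw [← h, zero_mul]))
        have hb0 : 0 < b := lt_of_le_of_ne hb (fun h => h2 (by rw [← h, zero_mul]))
        have hSy1 : 0 < Sy := lt_of_le_of_ne hSy0 (fun h => h1 (by rw [← h, mul_zero]))
        have hSz1 : 0 < Sz := lt_of_le_of_ne hSz0 (fun h => h2 (by rw [← h, mul_zero]))
        set S := a * Sy + b * Sz with hSdef
        have hSpos : 0 < S := by positivity
        have hα : 0 ≤ a * Sy / S := by positivity
        have hβ : 0 ≤ b * Sz / S := by positivity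
        have hαβ : a * Sy / S + b * Sz / S = 1 := by
          rw [← add_div, div_self hSpos.ne']
        have e : star q x (a • y + b • z)
            = (a * Sy / S) • star q x y + (b * Sz / S) • star q x z := by
          funext i
          have hne : ∑ j, x j * (a • y + b • z) j ≠ 0 := by rw [hS]; exact hSpos.ne'
          have e0 : star q x (a • y + b • z) i = x i * (a • y + b • z) i / S := by
            show (if ∑ j, x j * (a • y + b • z) j = 0 then (1 : ℝ) / q
              else x i * (a • y + b • z) i / ∑ j, x j * (a • y + b • z) j) = _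
            rw [if_neg hne, hS]
          have e1 : star q x y i = x i * y i / Sy := by
            show (if ∑ j, x j * y j = 0 then (1 : ℝ) / q else x i * y i / ∑ j, x j * y j) = _
            rw [if_neg (hSy.symm ▸ hSy1.ne')]
          have e2 : star q x z i = x i * z i / Sz := by
            show (if ∑ j, x j * z j = 0 then (1 : ℝ) / q else x i * z i / ∑ j, x j * z j) = _
            rw [if_neg (hSz.symm ▸ hSz1.ne')]
          simp only [Pi.add_apply, Pi.smul_apply, smul_eq_mul, e0, e1, e2]
          field_simp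
        have hJ := hf.2 hy1 hz1 hα hβ hαβ
        rw [← e] at hJ
        simp only [smul_eq_mul] at hJ
        have := mul_le_mul_of_nonneg_left hJ hSpos.le
        refine this.trans_eq ?_
        field_simp
  exact (mul_le_mul_of_nonneg_left key hq0).trans_eq (by ring)

/-- the pair kernel is continuous in `x'` (the bad set `S = 0` is harmless: the prefactor vanishes) -/
theorem kern_continuousOn (hq : 0 < q) {f : (Fin q → ℝ) → ℝ} (hc : ContinuousOn f (Simp q))
    {x : Fin q → ℝ} (hx : x ∈ Simp q) : ContinuousOn (kern q f x) (Simp q) := by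
  obtain ⟨C, hC⟩ := BddS_of_continuousOn hc
  have hS : Continuous fun w : Fin q → ℝ => ∑ j, x j * w j := by fun_prop
  have hker : ∀ w, kern q f x w = q * ((∑ j, x j * w j) * f (star q x w)) := fun w => by
    unfold kern dotZ; ring
  intro w hw
  by_cases h0 : ∑ j, x j * w j = 0
  · -- squeeze
    have hval : kern q f x w = 0 := by rw [hker, h0]; simp
    rw [ContinuousWithinAt, hval]
    refine squeeze_zero_norm' ?_ (?_ : Tendsto (fun v => (q : ℝ) * ((∑ j, x j * v j) * C)) _ _)
    · filter_upwards [self_mem_nhdsWithin] with v hv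
      have hv0 : 0 ≤ ∑ j, x j * v j := sum_mul_nonneg hx hv
      rw [hker, Real.norm_eq_abs, abs_mul, abs_mul, abs_of_nonneg hv0, abs_of_nonneg (Nat.cast_nonneg q)]
      exact mul_le_mul_of_nonneg_left (mul_le_mul_of_nonneg_left (hC _ (star_mem hq hx hv)) hv0)
        (Nat.cast_nonneg q)
    · have : Tendsto (fun v : Fin q → ℝ => (q : ℝ) * ((∑ j, x j * v j) * C)) (𝓝 w)
          (𝓝 ((q : ℝ) * ((∑ j, x j * w j) * C))) := by
        apply Continuous.tendsto
        fun_prop
      rw [h0] at this
      simp only [zero_mul, mul_zero] at this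
      exact this.mono_left nhdsWithin_le_nhds
  · -- nonzero: everything is continuous
    have hne : ∀ᶠ v in 𝓝[Simp q] w, ∑ j, x j * v j ≠ 0 :=
      (hS.continuousAt.eventually_ne h0).filter_mono nhdsWithin_le_nhds
    have hstar : ContinuousWithinAt (star q x) (Simp q) w := by
      have h1 : ContinuousAt (fun v : Fin q → ℝ => fun i => x i * v i / ∑ j, x j * v j) w := by
        refine continuousAt_pi.2 fun i => ?_
        exact ContinuousAt.div (continuous_const.mul (continuous_apply i)).continuousAt hS.continuousAt h0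
      refine (h1.continuousWithinAt).congr_of_eventuallyEq ?_ ?_
      · filter_upwards [hne] with v hv
        funext i
        show (if ∑ j, x j * v j = 0 then (1 : ℝ) / q else x i * v i / ∑ j, x j * v j) = _
        rw [if_neg hv]
      · funext i
        show (if ∑ j, x j * w j = 0 then (1 : ℝ) / q else x i * w i / ∑ j, x j * w j) = _
        rw [if_neg h0]
    have hf' : ContinuousWithinAt (fun v => f (star q x v)) (Simp q) w :=
      ContinuousWithinAt.comp (t := Simp q) (hc _ (star_mem hq hx hw)) hstar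
        (fun v hv => star_mem hq hx hv)
    have hall : ContinuousWithinAt (fun v => (q : ℝ) * ((∑ j, x j * v j) * f (star q x v))) (Simp q) w :=
      continuousWithinAt_const.mul (hS.continuousWithinAt.mul hf')
    exact hall.congr (fun v _ => hker v) (hker w)

/-- the symmetrised pair kernel is a test function in `x'` -/
theorem ConvexSym.Esig (hq : 0 < q) {f : (Fin q → ℝ) → ℝ} (hf : ConvexSym f) {x : Fin q → ℝ}
    (hx : x ∈ Simp q) : ConvexSym (fun x' => Esig q f x x') := by
  have hfact : (0 : ℝ) < (Nat.factorial q : ℝ) := by exact_mod_cast Nat.factorial_pos q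
  have hE : ∀ x' : Fin q → ℝ, Crest.Agent.Lib.Bc.Esig q f x x'
      = (∑ σ : Equiv.Perm (Fin q), kern q f x (x' ∘ σ)) / (Nat.factorial q) := fun x' => rfl
  have hkc := kern_convex hq hf.convex hx
  have hkt := kern_continuousOn hq hf.cont hx
  refine ⟨⟨convex_Simp, fun y hy z hz a b ha hb hab => ?_⟩, ?_, ?_⟩
  · simp only [hE, smul_eq_mul]
    have h1 : ∀ σ : Equiv.Perm (Fin q), kern q f x ((a • y + b • z) ∘ σ)
        ≤ a * kern q f x (y ∘ σ) + b * kern q f x (z ∘ σ) := fun σ => by
      have : (a • y + b • z) ∘ σ = a • (y ∘ σ) + b • (z ∘ σ) := rfl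
      rw [this]
      exact hkc.2 (comp_mem_Simp σ hy) (comp_mem_Simp σ hz) ha hb hab
    have h2 := Finset.sum_le_sum (s := Finset.univ) fun σ _ => h1 σ
    rw [Finset.sum_add_distrib, ← Finset.mul_sum, ← Finset.mul_sum] at h2
    rw [div_le_iff₀ hfact]
    refine h2.trans_eq ?_
    field_simp
  · simp only [hE]
    refine ContinuousOn.div_const ?_ _
    refine continuousOn_finsetSum _ fun σ _ => ?_
    have hσ : Continuous fun y : Fin q → ℝ => y ∘ σ := by fun_prop
    exact hkt.comp hσ.continuousOn fun y hy => comp_mem_Simp σ hy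
  · intro τ y _
    simp only [hE]
    congr 1
    have : ∀ σ : Equiv.Perm (Fin q), (y ∘ τ) ∘ σ = y ∘ (τ * σ : Equiv.Perm (Fin q)) := fun σ => rfl
    simp only [this]
    exact Equiv.sum_comp (Equiv.mulLeft τ) (fun σ => kern q f x (y ∘ σ))

/-- `Esig` at the uniform second argument: an empty observation changes nothing. -/
lemma Esig_unif (hq : 0 < q) (f : (Fin q → ℝ) → ℝ) {x : Fin q → ℝ} (hx : x ∈ Simp q) :
    Esig q f x (fun _ => (1 : ℝ) / q) = f x := by
  have hq' : (q : ℝ) ≠ 0 := by positivity
  have hfact : ((Nat.factorial q : ℕ) : ℝ) ≠ 0 := by exact_mod_cast Nat.factorial_ne_zero q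
  have hZ : dotZ q x (fun _ => (1 : ℝ) / q) = 1 := by
    unfold dotZ
    rw [← Finset.sum_mul, hx.2]
    field_simp
  have hst : star q x (fun _ => (1 : ℝ) / q) = x := by
    funext i
    have hs : ∑ j, x j * ((1 : ℝ) / q) = 1 / q := by
      rw [← Finset.sum_mul, hx.2, one_mul]
    have hne : ∑ j, x j * ((1 : ℝ) / q) ≠ 0 := by
      rw [hs]; positivity
    show (if ∑ j, x j * ((1 : ℝ) / q) = 0 then (1 : ℝ) / q else x i * ((1 : ℝ) / q) / ∑ j, x j * ((1 : ℝ) / q)) = _
    rw [if_neg hne, hs]
    field_simp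
  have hc : ∀ σ : Equiv.Perm (Fin q), (fun _ : Fin q => (1 : ℝ) / q) ∘ σ = fun _ => (1 : ℝ) / q :=
    fun _ => rfl
  unfold Esig
  simp only [hc, hZ, hst, one_mul, Finset.sum_const, Finset.card_univ, Fintype.card_perm,
    Fintype.card_fin, nsmul_eq_mul]
  field_simp

end Kern

/-! ## Products -/

theorem Dominated.prod_right (hq : 0 < q) (L : SLaw q) {K K' : SLaw q} (h : Dominated K K') :
    Dominated (L.prod K) (L.prod K') := by
  intro f hf
  have hb := hf.bdd
  rw [L.Φ_prod K hq hb, L.Φ_prod K' hq hb]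
  obtain ⟨C, hC⟩ := hb
  have hC' : ∀ (M : SLaw q) (o : L.O), |M.Φ (fun x' => Esig q f (L.post o) x')| ≤ q * C := fun M o =>
    M.abs_Φ_le hq fun x' hx' => SLaw.abs_Esig_le hq hC (L.post_mem hq o) hx'
  have hs : ∀ M : SLaw q, Summable (fun o => L.mass o * M.Φ (fun x' => Esig q f (L.post o) x')) :=
    fun M => by
      refine Summable.of_norm_bounded (g := fun o => L.mass o * (q * C))
        ((L.summable_mass hq).mul_right _) fun o => ?_
      rw [Real.norm_eq_abs, abs_mul, abs_of_nonneg (L.mass_nonneg hq o)]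
      exact mul_le_mul_of_nonneg_left (hC' M o) (L.mass_nonneg hq o)
  exact (hs K).tsum_le_tsum (fun o => mul_le_mul_of_nonneg_left
    (h _ (hf.Esig hq (L.post_mem hq o))) (L.mass_nonneg hq o)) (hs K')

/-- `prod` is commutative at the level of `Φ` -/
lemma SLaw.Φ_prod_comm (L K : SLaw q) (f : (Fin q → ℝ) → ℝ) : (L.prod K).Φ f = (K.prod L).Φ f :=
  by
  have e : (L.prod K).O ≃ (K.prod L).O := Equiv.prodComm L.O K.O
  have hm : ∀ o : L.O × K.O, (K.prod L).mass (Equiv.prodComm L.O K.O o) = (L.prod K).mass o := fun o => by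
    show (∑ i, K.w o.2 i * L.w o.1 i) / q = (∑ i, L.w o.1 i * K.w o.2 i) / q
    simp only [mul_comm]
  have hp : ∀ o : L.O × K.O, (K.prod L).post (Equiv.prodComm L.O K.O o) = (L.prod K).post o := fun o => by
    funext i
    show (if ∑ j, K.w o.2 j * L.w o.1 j = 0 then (1 : ℝ) / q
      else K.w o.2 i * L.w o.1 i / ∑ j, K.w o.2 j * L.w o.1 j)
      = (if ∑ j, L.w o.1 j * K.w o.2 j = 0 then (1 : ℝ) / q
        else L.w o.1 i * K.w o.2 i / ∑ j, L.w o.1 j * K.w o.2 j)
    simp only [mul_comm]
  show ∑' o : L.O × K.O, (L.prod K).mass o * f ((L.prod K).post o)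
    = ∑' o : K.O × L.O, (K.prod L).mass o * f ((K.prod L).post o)
  rw [← (Equiv.prodComm L.O K.O).tsum_eq (fun o : K.O × L.O => (K.prod L).mass o * f ((K.prod L).post o))]
  exact tsum_congr fun o => by rw [hm, hp]

theorem Dominated.prod (hq : 0 < q) {L L' K K' : SLaw q} (h : Dominated L L') (h' : Dominated K K') :
    Dominated (L.prod K) (L'.prod K') := by
  refine Dominated.trans (Dominated.prod_right hq L h') ?_
  intro f hf
  rw [SLaw.Φ_prod_comm L K', SLaw.Φ_prod_comm L' K']
  exact Dominated.prod_right hq K' h f hf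

theorem Dominated.pow (hq : 0 < q) {L L' : SLaw q} (h : Dominated L L') (c : ℕ) :
    Dominated (L.pow c) (L'.pow c) := by
  induction c with
  | zero => exact Dominated.refl _
  | succ c ih => exact Dominated.prod hq ih h

/-- more observations can only raise `Φ f` -/
theorem Dominated.le_prod (hq : 0 < q) (L K : SLaw q) : Dominated L (L.prod K) := by
  intro f hf
  have hb := hf.bdd
  rw [L.Φ_prod K hq hb]
  obtain ⟨C, hC⟩ := hb
  have hs : Summable (fun o => L.mass o * K.Φ (fun x' => Esig q f (L.post o) x')) := by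
    refine Summable.of_norm_bounded (g := fun o => L.mass o * (q * C))
      ((L.summable_mass hq).mul_right _) fun o => ?_
    rw [Real.norm_eq_abs, abs_mul, abs_of_nonneg (L.mass_nonneg hq o)]
    exact mul_le_mul_of_nonneg_left
      (K.abs_Φ_le hq fun x' hx' => SLaw.abs_Esig_le hq hC (L.post_mem hq o) hx') (L.mass_nonneg hq o)
  refine (L.summable_Φ hq ⟨C, hC⟩).tsum_le_tsum (fun o => ?_) hs
  refine mul_le_mul_of_nonneg_left ?_ (L.mass_nonneg hq o)
  have hE := hf.Esig hq (L.post_mem hq o)
  have := K.Φ_ge_center hq hE.convex hE.cont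
  rwa [Esig_unif hq f (L.post_mem hq o)] at this

/-- adding a child raises `Φ f` -/
theorem Dominated.pow_succ (hq : 0 < q) (L : SLaw q) (c : ℕ) : Dominated (L.pow c) (L.pow (c + 1)) :=
  Dominated.le_prod hq _ _

theorem Dominated.pow_mono (hq : 0 < q) (L : SLaw q) {c d : ℕ} (h : c ≤ d) :
    Dominated (L.pow c) (L.pow d) := by
  induction h with
  | refl => exact Dominated.refl _
  | step _ ih => exact ih.trans (Dominated.pow_succ hq L _)

/-- the trivial law is the bottom of the convex order -/
theorem triv_dominated (hq : 0 < q) (L : SLaw q) : Dominated (SLaw.triv q) L := by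
  intro f hf
  have h1 : (SLaw.triv q).Φ f = f (fun _ => (1 : ℝ) / q) := SLaw.Φ_pow_zero (SLaw.triv q) hq f
  rw [h1]
  exact L.Φ_ge_center hq hf.convex hf.cont

/-! ## Top and degradation (pointwise facts for symmetric convex functions) -/

/-- the hard field is the top: `f x ≤ f (e_i)` on the simplex -/
theorem ConvexSym.le_vertex {f : (Fin q → ℝ) → ℝ} (hf : ConvexSym f) (i₀ : Fin q) {x : Fin q → ℝ}
    (hx : x ∈ Simp q) : f x ≤ f (fun j => if j = i₀ then 1 else 0) := by
  classical
  let e : Fin q → Fin q → ℝ := fun i j => if j = i then 1 else 0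
  have he : ∀ i, e i ∈ Simp q := fun i => by
    refine ⟨fun j => by simp only [e]; split_ifs <;> norm_num, ?_⟩
    simp [e]
  have hei : ∀ i, f (e i) = f (e i₀) := fun i => by
    have : e i₀ = e i ∘ (Equiv.swap i i₀) := by
      funext j
      simp only [e, Function.comp]
      by_cases h1 : j = i₀
      · subst h1; simp
      · by_cases h2 : j = i
        · subst h2; simp [Ne.symm h1, h1]
        · simp [Equiv.swap_apply_of_ne_of_ne h2 h1, h1, h2]
    rw [this, hf.sym _ _ (he i)]
  have hxe : x = ∑ i, x i • e i := by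
    funext j
    rw [Finset.sum_apply]
    simp [e]
  have hJ := hf.convex.map_sum_le (t := Finset.univ) (w := x) (p := e) (fun i _ => hx.1 i) hx.2
    (fun i _ => he i)
  rw [← hxe] at hJ
  refine hJ.trans_eq ?_
  simp only [hei, smul_eq_mul]
  rw [← Finset.sum_mul, hx.2, one_mul]

theorem SLaw.Φ_le_vertex (L : SLaw q) (hq : 0 < q) {f : (Fin q → ℝ) → ℝ} (hf : ConvexSym f) (i₀ : Fin q) :
    L.Φ f ≤ f (fun j => if j = i₀ then 1 else 0) := by
  have h := L.Φ_mono hq hf.bdd (SLaw.BddS.const (f (fun j => if j = i₀ then 1 else 0)))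
    (fun x hx => hf.le_vertex i₀ hx)
  rwa [L.Φ_const hq] at h

/-- `T_r` is a mixture of relabellings, so a symmetric convex `f` can only go down. -/
theorem ConvexSym.Tl_le (hq : 0 < q) {f : (Fin q → ℝ) → ℝ} (hf : ConvexSym f) {r : ℝ}
    (hr0 : 0 ≤ 1 + ((q : ℝ) - 1) * r) (hr1 : r ≤ 1) {y : Fin q → ℝ} (hy : y ∈ Simp q) :
    f (Tl q r y) ≤ f y := by
  classical
  have : NeZero q := ⟨hq.ne'⟩
  have hq' : (q : ℝ) ≠ 0 := by positivity
  have hqpos : (0 : ℝ) < q := by positivity
  let w : Fin q → ℝ := fun t => if t = 0 then (1 + ((q : ℝ) - 1) * r) / q else (1 - r) / q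
  let σ : Fin q → Equiv.Perm (Fin q) := fun t => Equiv.addRight t
  let pt : Fin q → Fin q → ℝ := fun t => y ∘ σ t
  have hw0 : ∀ t, 0 ≤ w t := fun t => by
    simp only [w]
    split_ifs
    · positivity
    · exact div_nonneg (by linarith) hqpos.le
  have hsum1 : ∑ t, (if t = (0 : Fin q) then (1 + ((q : ℝ) - 1) * r) / q else (1 - r) / q) = 1 := by
    have : ∀ t : Fin q, (if t = (0 : Fin q) then (1 + ((q : ℝ) - 1) * r) / q else (1 - r) / q)
        = (1 - r) / q + (if t = (0 : Fin q) then r else 0) := fun t => by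
      split_ifs
      · field_simp; ring
      · ring
    simp only [this, Finset.sum_add_distrib, Finset.sum_ite_eq', Finset.mem_univ, if_true,
      Finset.sum_const, Finset.card_univ, Fintype.card_fin, nsmul_eq_mul]
    field_simp
    ring
  have hw1 : ∑ t, w t = 1 := hsum1
  have hpt : ∀ t, pt t ∈ Simp q := fun t => comp_mem_Simp (σ t) hy
  have hJ := hf.convex.map_sum_le (t := Finset.univ) (w := w) (p := pt) (fun t _ => hw0 t) hw1
    (fun t _ => hpt t)
  have hval : ∀ t, f (pt t) = f y := fun t => hf.sym (σ t) y hy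
  have hT : Tl q r y = ∑ t, w t • pt t := by
    funext i
    rw [Finset.sum_apply]
    simp only [Pi.smul_apply, smul_eq_mul, Tl]
    have h1 : ∀ t : Fin q, w t * pt t i = (1 - r) / q * y (i + t)
        + (if t = (0 : Fin q) then r * y (i + t) else 0) := fun t => by
      simp only [w, pt, σ, Function.comp, Equiv.coe_addRight]
      split_ifs
      · field_simp; ring
      · ring
    simp only [h1, Finset.sum_add_distrib, ← Finset.mul_sum]
    have h2 : ∑ t : Fin q, y (i + t) = 1 := by
      have := Equiv.sum_comp (Equiv.addLeft i) y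
      simpa [hy.2] using this
    rw [h2]
    simp
    ring
  rw [hT]
  refine hJ.trans_eq ?_
  simp only [hval, smul_eq_mul]
  rw [← Finset.sum_mul, hw1, one_mul]

lemma Tl_mul (r mu : ℝ) (x : Fin q → ℝ) : Tl q (r * mu) x = Tl q r (Tl q mu x) := by
  funext i
  simp only [Tl]
  ring

/-- degradation: `T_{r μ}` is below `T_μ`, for `-1/(q-1) ≤ r ≤ 1`. -/
theorem tilt_mul_dominated (hq : 0 < q) (L : SLaw q) {r mu : ℝ}
    (hr0 : 0 ≤ 1 + ((q : ℝ) - 1) * r) (hr1 : r ≤ 1)
    (h : ∀ i j : Fin q, 0 ≤ Crest.ProbabilityR.Broadcast.channel q mu i j)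
    (h' : ∀ i j : Fin q, 0 ≤ Crest.ProbabilityR.Broadcast.channel q (r * mu) i j) :
    Dominated (L.tilt (r * mu) h') (L.tilt mu h) := by
  intro f hf
  have hT : ∀ x ∈ Simp q, Tl q mu x ∈ Simp q := fun x hx => SLaw.Tl_mem hq mu h hx
  have hT' : ∀ x ∈ Simp q, Tl q (r * mu) x ∈ Simp q := fun x hx => SLaw.Tl_mem hq _ h' hx
  rw [SLaw.Φ_tilt L hq _ h' hf.bdd hT', SLaw.Φ_tilt L hq _ h hf.bdd hT]
  refine L.Φ_mono hq (hf.comp_Tl hT').bdd (hf.comp_Tl hT).bdd fun x hx => ?_
  show f (Tl q (r * mu) x) ≤ f (Tl q mu x)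
  rw [Tl_mul]
  exact hf.Tl_le hq hr0 hr1 (hT x hx)

end Crest.Agent.Lib.Bc
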