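import Crest.Agent.Lib.Bc.Compare
import Crest.Agent.Lib.Bc.Models
/-!
# Row 163: q = 3, lam < 0 reduces to the critical family

Everything with `lam < 0` is dominated (data processing) by one of:
* `H4`: the regular tree `b = 4`, `lam = -1/2`;
* `HB`: the regular tree `b ≥ 5`, `lam < 0`, `b lam² = 1`;
* `HP`: the Poisson tree `d ≥ 4`, `lam < 0`, `d lam² = 1`.

`S0244_of_parts` assembles the statement S0244 from these and the `lam ≥ 0` half.
-/
open scoped BigOperators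
open Crest.ProbabilityR.Broadcast Crest.ProbabilityR.TreeBroadcast Filter Topology
namespace Crest.Agent.Lib.Bc

lemma ch3 {lam : ℝ} (h1 : -(1 / 2 : ℝ) ≤ lam) (h2 : lam ≤ 1) (i j : Fin 3) : 0 ≤ channel 3 lam i j :=
  channel_nonneg (by norm_num) (Or.inl (by norm_num; linarith)) h2 i j

/-- regular tree: domination in `b` and `|lam|` -/
theorem advantage_tendsto_of_dominated {b b' : ℕ} (hb : b ≤ b') {r mu : ℝ} (hr0 : 0 ≤ r) (hr1 : r ≤ 1)
    (hmu0 : -(1 / 2 : ℝ) ≤ mu) (hmu1 : mu ≤ 0)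
    (h : Tendsto (advantage 3 b' mu) atTop (𝓝 0)) : Tendsto (advantage 3 b (r * mu)) atTop (𝓝 0) := by
  have hq : 0 < 3 := by norm_num
  have hch' := ch3 hmu0 (by linarith)
  have hrm1 : -(1 / 2 : ℝ) ≤ r * mu := by nlinarith
  have hrm2 : r * mu ≤ 1 := by nlinarith
  have hch := ch3 hrm1 hrm2
  have e1 : advantage 3 b' mu = fun n => (leafSL 3 b' mu n hq hch').Φ (tvU 3) :=
    funext fun n => advantage_eq b' mu n hq hch'
  have e2 : advantage 3 b (r * mu) = fun n => (leafSL 3 b (r * mu) n hq hch).Φ (tvU 3) :=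
    funext fun n => advantage_eq b (r * mu) n hq hch
  rw [e1] at h
  rw [e2]
  refine tendsto_tvU_of_dominated hq (fun n => ?_) h
  exact leaf_dominated hq hb (by norm_num; linarith) hr1 hch' hch n

/-- Poisson tree: domination in `d` and `|lam|` -/
theorem gwAdvantage_tendsto_of_dominated {d d' : ℝ} (hd : 0 ≤ d) (hdd : d ≤ d') {r mu : ℝ} (hr0 : 0 ≤ r) (hr1 : r ≤ 1)
    (hmu0 : -(1 / 2 : ℝ) ≤ mu) (hmu1 : mu ≤ 0)
    (h : Tendsto (gwAdvantage 3 mu d') atTop (𝓝 0)) : Tendsto (gwAdvantage 3 (r * mu) d) atTop (𝓝 0) := by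
  have hq : 0 < 3 := by norm_num
  have hch' := ch3 hmu0 (by linarith)
  have hrm1 : -(1 / 2 : ℝ) ≤ r * mu := by nlinarith
  have hrm2 : r * mu ≤ 1 := by nlinarith
  have hch := ch3 hrm1 hrm2
  have e1 : gwAdvantage 3 mu d' = fun n => (gwSL 3 mu d' n (hd.trans hdd) hq hch').Φ (tvU 3) :=
    funext fun n => gwAdvantage_eq mu d' n (hd.trans hdd) hq hch'
  have e2 : gwAdvantage 3 (r * mu) d = fun n => (gwSL 3 (r * mu) d n hd hq hch).Φ (tvU 3) :=
    funext fun n => gwAdvantage_eq (r * mu) d n hd hq hch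
  rw [e1] at h
  rw [e2]
  refine tendsto_tvU_of_dominated hq (fun n => ?_) h
  exact gw_dominated hq hd hdd (by norm_num; linarith) hr1 hch' hch n

/-- the critical negative parameter -/
noncomputable def critLam (d : ℝ) : ℝ := -(1 / Real.sqrt d)

lemma critLam_neg {d : ℝ} (hd : 0 < d) : critLam d < 0 := by
  unfold critLam
  have := Real.sqrt_pos.2 hd
  have : 0 < 1 / Real.sqrt d := by positivity
  linarith

lemma critLam_sq {d : ℝ} (hd : 0 < d) : d * critLam d ^ 2 = 1 := by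
  unfold critLam
  have h := Real.sqrt_pos.2 hd
  have h2 : Real.sqrt d ^ 2 = d := Real.sq_sqrt hd.le
  rw [neg_sq, div_pow, h2]
  field_simp

lemma critLam_ge {d : ℝ} (hd : 4 ≤ d) : -(1 / 2 : ℝ) ≤ critLam d := by
  unfold critLam
  have h4 : (2 : ℝ) ≤ Real.sqrt d := by
    rw [show (2 : ℝ) = Real.sqrt 4 by
      rw [show (4 : ℝ) = 2 ^ 2 by norm_num]; exact (Real.sqrt_sq (by norm_num)).symm]
    exact Real.sqrt_le_sqrt hd
  have : 1 / Real.sqrt d ≤ 1 / 2 := one_div_le_one_div_of_le (by norm_num) h4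
  linarith

/-- if `lam < 0`, `mu < 0` and `d lam² ≤ 1 = d mu²` then `lam = r mu` with `r ∈ [0,1]` -/
lemma exists_ratio {lam mu d : ℝ} (hd : 0 < d) (hl : lam < 0) (hm : mu < 0) (h1 : d * lam ^ 2 ≤ 1)
    (h2 : d * mu ^ 2 = 1) : ∃ r, 0 ≤ r ∧ r ≤ 1 ∧ lam = r * mu := by
  refine ⟨lam / mu, (div_pos_of_neg_of_neg hl hm).le, ?_, (div_mul_cancel₀ lam hm.ne).symm⟩
  have h3 : lam ^ 2 ≤ mu ^ 2 := by nlinarith
  have h4 : -lam ≤ -mu := by nlinarith
  rw [div_le_one_of_neg hm]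
  linarith

/-- regular tree, all `lam < 0`, from the critical family -/
theorem neg_regular_of_critical
    (H4 : Tendsto (advantage 3 4 (-(1 / 2 : ℝ))) atTop (𝓝 0))
    (HB : ∀ b : ℕ, 5 ≤ b → ∀ lam : ℝ, lam < 0 → (b : ℝ) * lam ^ 2 = 1 → Tendsto (advantage 3 b lam) atTop (𝓝 0))
    (b : ℕ) (hb : 2 ≤ b) (lam : ℝ) (h1 : -(1 / 2 : ℝ) ≤ lam) (h0 : lam < 0) (hbl : (b : ℝ) * lam ^ 2 ≤ 1) :
    Tendsto (advantage 3 b lam) atTop (𝓝 0) := by
  by_cases h4 : b ≤ 4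
  · obtain ⟨r, hr0, hr1, e⟩ := exists_ratio (d := 4) (by norm_num) h0 (by norm_num : (-(1 / 2 : ℝ)) < 0)
      (by nlinarith) (by norm_num)
    rw [e]
    exact advantage_tendsto_of_dominated h4 hr0 hr1 (by norm_num) (by norm_num) H4
  · have hb5 : 5 ≤ b := by omega
    have hb5' : (5 : ℝ) ≤ b := by exact_mod_cast hb5
    have hbpos : (0 : ℝ) < b := by linarith
    obtain ⟨r, hr0, hr1, e⟩ := exists_ratio hbpos h0 (critLam_neg hbpos) hbl (critLam_sq hbpos)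
    rw [e]
    exact advantage_tendsto_of_dominated le_rfl hr0 hr1 (critLam_ge (by linarith)) (critLam_neg hbpos).le
      (HB b hb5 _ (critLam_neg hbpos) (critLam_sq hbpos))

/-- Poisson tree, all `lam < 0`, from the critical family -/
theorem neg_poisson_of_critical
    (HP : ∀ d : ℝ, 4 ≤ d → ∀ lam : ℝ, lam < 0 → d * lam ^ 2 = 1 → Tendsto (gwAdvantage 3 lam d) atTop (𝓝 0))
    (d : ℝ) (hd : 0 < d) (lam : ℝ) (h1 : -(1 / 2 : ℝ) ≤ lam) (h0 : lam < 0) (hdl : d * lam ^ 2 ≤ 1) :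
    Tendsto (gwAdvantage 3 lam d) atTop (𝓝 0) := by
  by_cases h4 : d ≤ 4
  · obtain ⟨r, hr0, hr1, e⟩ := exists_ratio (d := 4) (by norm_num) h0 (by norm_num : (-(1 / 2 : ℝ)) < 0)
      (by nlinarith) (by norm_num)
    rw [e]
    exact gwAdvantage_tendsto_of_dominated hd.le h4 hr0 hr1 (by norm_num) (by norm_num)
      (HP 4 le_rfl _ (by norm_num) (by norm_num))
  · have hd4 : 4 ≤ d := by linarith
    obtain ⟨r, hr0, hr1, e⟩ := exists_ratio hd h0 (critLam_neg hd) hdl (critLam_sq hd)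
    rw [e]
    exact gwAdvantage_tendsto_of_dominated hd.le le_rfl hr0 hr1 (critLam_ge hd4) (critLam_neg hd).le
      (HP d hd4 _ (critLam_neg hd) (critLam_sq hd))

/-- S0244 from its four parts. -/
theorem S0244_of_parts
    (Hreg : ∀ b : ℕ, 2 ≤ b → ∀ lam : ℝ, 0 ≤ lam → lam ≤ 1 → (b : ℝ) * lam ^ 2 ≤ 1 →
      Tendsto (advantage 3 b lam) atTop (𝓝 0))
    (Hgw : ∀ d : ℝ, 1 < d → ∀ lam : ℝ, 0 ≤ lam → lam ≤ 1 → d * lam ^ 2 ≤ 1 →
      Tendsto (gwAdvantage 3 lam d) atTop (𝓝 0))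
    (H4 : Tendsto (advantage 3 4 (-(1 / 2 : ℝ))) atTop (𝓝 0))
    (HB : ∀ b : ℕ, 5 ≤ b → ∀ lam : ℝ, lam < 0 → (b : ℝ) * lam ^ 2 = 1 → Tendsto (advantage 3 b lam) atTop (𝓝 0))
    (HP : ∀ d : ℝ, 4 ≤ d → ∀ lam : ℝ, lam < 0 → d * lam ^ 2 = 1 → Tendsto (gwAdvantage 3 lam d) atTop (𝓝 0)) :
    (∀ b : ℕ, 2 ≤ b → ∀ lam : ℝ, -(1 / 2 : ℝ) ≤ lam → lam ≤ 1 → (b : ℝ) * lam ^ 2 ≤ 1 →
      Filter.Tendsto (advantage 3 b lam) Filter.atTop (nhds 0)) ∧
    (∀ d : ℝ, 1 < d → ∀ lam : ℝ, -(1 / 2 : ℝ) ≤ lam → lam ≤ 1 → d * lam ^ 2 ≤ 1 →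
      Filter.Tendsto (gwAdvantage 3 lam d) Filter.atTop (nhds 0)) := by
  constructor
  · intro b hb lam h1 h2 hbl
    rcases lt_or_ge lam 0 with h0 | h0
    · exact neg_regular_of_critical H4 HB b hb lam h1 h0 hbl
    · exact Hreg b hb lam h0 h2 hbl
  · intro d hd lam h1 h2 hdl
    rcases lt_or_ge lam 0 with h0 | h0
    · exact neg_poisson_of_critical HP d (by linarith) lam h1 h0 hdl
    · exact Hgw d hd lam h0 h2 hdl

end Crest.Agent.Lib.Bc
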