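import Crest.Agent.Lib.Bc.Api
/-!
# Row 163, module B6: total variation from uniform against the `χ²` coordinate

`aFn q x = (q ∑ x_i² - 1)/(q - 1)`, which is `a` (q = 3) and `f` (q = 4) of `BLUEPRINT.md`.
On the simplex `0 ≤ a ≤ 1`, `tvU² ≤ (q-1)/4 * a`, `a ≤ 2q/(q-1) * tvU`, and `a ∘ T_lam = lam² a`.
Law level: `(Φ tvU)² ≤ (q-1)/4 Φ a`, `Φ a ≤ 2q/(q-1) Φ tvU`, and `Φ a → 0` implies `Φ tvU → 0`.
-/
open scoped BigOperators
namespace Crest.Agent.Lib.Bc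
variable {q : ℕ}

/-- the `χ²` coordinate -/
noncomputable def aFn (q : ℕ) (x : Fin q → ℝ) : ℝ := ((q : ℝ) * ∑ i, x i ^ 2 - 1) / ((q : ℝ) - 1)

lemma sum_sq_center (hq : 0 < q) {x : Fin q → ℝ} (hx : x ∈ Simp q) :
    ∑ i, (x i - 1 / (q : ℝ)) ^ 2 = ∑ i, x i ^ 2 - 1 / (q : ℝ) := by
  have hq' : (q : ℝ) ≠ 0 := by positivity
  have h1 : ∀ i, (x i - 1 / (q : ℝ)) ^ 2 = x i ^ 2 - (2 / (q : ℝ)) * x i + 1 / (q : ℝ) ^ 2 := by
    intro i; field_simp; ring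
  simp only [h1, Finset.sum_add_distrib, Finset.sum_sub_distrib, ← Finset.mul_sum, hx.2,
    Finset.sum_const, Finset.card_univ, Fintype.card_fin, nsmul_eq_mul]
  field_simp
  ring

lemma aFn_eq (hq : 2 ≤ q) {x : Fin q → ℝ} (hx : x ∈ Simp q) :
    ((q : ℝ) - 1) * aFn q x = q * ∑ i, (x i - 1 / (q : ℝ)) ^ 2 := by
  have hq0 : 0 < q := by omega
  have hq1 : (2 : ℝ) ≤ q := by exact_mod_cast hq
  have hq' : (q : ℝ) ≠ 0 := by positivity
  have hq2 : (q : ℝ) - 1 ≠ 0 := by intro h'; linarith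
  rw [sum_sq_center hq0 hx]
  unfold aFn
  field_simp

lemma aFn_nonneg (hq : 2 ≤ q) {x : Fin q → ℝ} (hx : x ∈ Simp q) : 0 ≤ aFn q x := by
  have hq1 : (2 : ℝ) ≤ q := by exact_mod_cast hq
  have h := aFn_eq hq hx
  have h2 : 0 ≤ (q : ℝ) * ∑ i, (x i - 1 / (q : ℝ)) ^ 2 :=
    mul_nonneg (by linarith) (Finset.sum_nonneg fun i _ => sq_nonneg _)
  rw [← h] at h2
  have h3 : 0 < (q : ℝ) - 1 := by linarith
  exact nonneg_of_mul_nonneg_right h2 h3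

lemma sum_sq_le_one {x : Fin q → ℝ} (hx : x ∈ Simp q) : ∑ i, x i ^ 2 ≤ 1 := by
  calc ∑ i, x i ^ 2 ≤ ∑ i, x i := Finset.sum_le_sum fun i _ => by
        have h0 := hx.1 i
        have h1 := Simp.le_one hx i
        nlinarith
    _ = 1 := hx.2

lemma aFn_le_one (hq : 2 ≤ q) {x : Fin q → ℝ} (hx : x ∈ Simp q) : aFn q x ≤ 1 := by
  have hq1 : (2 : ℝ) ≤ q := by exact_mod_cast hq
  have h3 : 0 < (q : ℝ) - 1 := by linarith
  unfold aFn
  rw [div_le_one h3]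
  have := sum_sq_le_one hx
  nlinarith

lemma BddS_aFn (hq : 2 ≤ q) : SLaw.BddS (aFn q) :=
  ⟨1, fun x hx => abs_le.2 ⟨by linarith [aFn_nonneg hq hx], aFn_le_one hq hx⟩⟩

lemma tvU_nonneg (x : Fin q → ℝ) : 0 ≤ tvU q x :=
  mul_nonneg (by norm_num) (Finset.sum_nonneg fun i _ => abs_nonneg _)

lemma tvU_le_one (hq : 0 < q) {x : Fin q → ℝ} (hx : x ∈ Simp q) : tvU q x ≤ 1 := by
  have hq' : (q : ℝ) ≠ 0 := by positivity
  have h : ∑ i, |x i - 1 / (q : ℝ)| ≤ ∑ i, (x i + 1 / (q : ℝ)) := by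
    refine Finset.sum_le_sum fun i _ => ?_
    have h0 := hx.1 i
    have h1 : 0 < 1 / (q : ℝ) := by positivity
    rw [abs_le]; constructor <;> linarith
  have h2 : ∑ i, (x i + 1 / (q : ℝ)) = 2 := by
    simp only [Finset.sum_add_distrib, hx.2, Finset.sum_const, Finset.card_univ, Fintype.card_fin,
      nsmul_eq_mul]
    field_simp
    norm_num
  unfold tvU
  rw [h2] at h
  linarith

lemma BddS_tvU (hq : 0 < q) : SLaw.BddS (tvU q) :=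
  ⟨1, fun x hx => by rw [abs_of_nonneg (tvU_nonneg x)]; exact tvU_le_one hq hx⟩

/-- `tvU² ≤ (q-1)/4 * a` (Cauchy-Schwarz) -/
lemma tvU_sq_le (hq : 2 ≤ q) {x : Fin q → ℝ} (hx : x ∈ Simp q) :
    tvU q x ^ 2 ≤ ((q : ℝ) - 1) / 4 * aFn q x := by
  have h1 : (∑ i, |x i - 1 / (q : ℝ)|) ^ 2 ≤ q * ∑ i, (x i - 1 / (q : ℝ)) ^ 2 := by
    have := sq_sum_le_card_mul_sum_sq (s := (Finset.univ : Finset (Fin q)))
      (f := fun i => |x i - 1 / (q : ℝ)|)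
    simpa [sq_abs] using this
  have h2 := aFn_eq hq hx
  unfold tvU
  nlinarith

/-- `a ≤ 2q/(q-1) * tvU` -/
lemma aFn_le_tvU (hq : 2 ≤ q) {x : Fin q → ℝ} (hx : x ∈ Simp q) :
    aFn q x ≤ 2 * (q : ℝ) / ((q : ℝ) - 1) * tvU q x := by
  have hq1 : (2 : ℝ) ≤ q := by exact_mod_cast hq
  have h3 : 0 < (q : ℝ) - 1 := by linarith
  have h1 : ∑ i, (x i - 1 / (q : ℝ)) ^ 2 ≤ ∑ i, |x i - 1 / (q : ℝ)| := by
    refine Finset.sum_le_sum fun i _ => ?_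
    have h0 := hx.1 i
    have h1 := Simp.le_one hx i
    have h2 : 0 < 1 / (q : ℝ) := by positivity
    have h4 : 1 / (q : ℝ) ≤ 1 := by
      rw [div_le_one (by positivity)]; linarith
    have h5 : |x i - 1 / (q : ℝ)| ≤ 1 := by rw [abs_le]; constructor <;> linarith
    rw [← sq_abs]
    nlinarith [abs_nonneg (x i - 1 / (q : ℝ))]
  have h2 := aFn_eq hq hx
  have h5 : ((q : ℝ) - 1) * aFn q x ≤ 2 * q * tvU q x := by
    rw [h2]; unfold tvU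
    nlinarith
  rw [div_mul_eq_mul_div, le_div_iff₀ h3]
  linarith

/-- the coordinate is homogeneous of degree two in the channel parameter -/
lemma aFn_Tl (hq : 2 ≤ q) (lam : ℝ) {x : Fin q → ℝ} (hx : x ∈ Simp q) :
    aFn q (Tl q lam x) = lam ^ 2 * aFn q x := by
  have hq0 : 0 < q := by omega
  have hq1 : (2 : ℝ) ≤ q := by exact_mod_cast hq
  have hq' : (q : ℝ) ≠ 0 := by positivity
  have h3 : (q : ℝ) - 1 ≠ 0 := by intro h'; linarith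
  have h1 : ∑ i, (Tl q lam x i) ^ 2 = lam ^ 2 * ∑ i, x i ^ 2 + (1 - lam ^ 2) / q := by
    have h2 : ∀ i, (Tl q lam x i) ^ 2
        = lam ^ 2 * x i ^ 2 + (2 * lam * ((1 - lam) / q)) * x i + ((1 - lam) / q) ^ 2 := by
      intro i; unfold Tl; ring
    simp only [h2, Finset.sum_add_distrib, ← Finset.mul_sum, hx.2, Finset.sum_const,
      Finset.card_univ, Fintype.card_fin, nsmul_eq_mul]
    field_simp
    ring
  unfold aFn
  rw [h1]
  field_simp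
  ring

namespace SLaw
variable (L : SLaw q)

lemma Φ_aFn_nonneg (hq : 2 ≤ q) : 0 ≤ L.Φ (aFn q) := by
  have := L.Φ_mono (by omega) (BddS.const 0) (BddS_aFn hq) (fun x hx => aFn_nonneg hq hx)
  rwa [L.Φ_const (by omega)] at this

lemma Φ_aFn_le_one (hq : 2 ≤ q) : L.Φ (aFn q) ≤ 1 := by
  have := L.Φ_mono (by omega) (BddS_aFn hq) (BddS.const 1) (fun x hx => aFn_le_one hq hx)
  rwa [L.Φ_const (by omega)] at this

lemma Φ_tvU_nonneg (hq : 0 < q) : 0 ≤ L.Φ (tvU q) := by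
  have := L.Φ_mono hq (BddS.const 0) (BddS_tvU hq) (fun x _ => tvU_nonneg x)
  rwa [L.Φ_const hq] at this

/-- `(Φ tvU)² ≤ (q-1)/4 Φ a` -/
theorem sq_Φ_tvU_le (hq : 2 ≤ q) : (L.Φ (tvU q)) ^ 2 ≤ ((q : ℝ) - 1) / 4 * L.Φ (aFn q) := by
  have hq0 : 0 < q := by omega
  have h1 := L.sq_Φ_le hq0 (BddS_tvU hq0)
  have h2 := L.Φ_mono hq0 (BddS.pow (BddS_tvU hq0) 2)
    (BddS.const_mul (((q : ℝ) - 1) / 4) (BddS_aFn hq)) (fun x hx => tvU_sq_le hq hx)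
  rw [L.Φ_const_mul hq0 _ (BddS_aFn hq)] at h2
  exact h1.trans h2

/-- `Φ tvU ≤ sqrt((q-1)/4 Φ a)` -/
theorem Φ_tvU_le_sqrt (hq : 2 ≤ q) : L.Φ (tvU q) ≤ Real.sqrt (((q : ℝ) - 1) / 4 * L.Φ (aFn q)) :=
  Real.le_sqrt_of_sq_le (L.sq_Φ_tvU_le hq)

/-- `Φ a ≤ 2q/(q-1) Φ tvU` -/
theorem Φ_aFn_le_tvU (hq : 2 ≤ q) : L.Φ (aFn q) ≤ 2 * (q : ℝ) / ((q : ℝ) - 1) * L.Φ (tvU q) := by
  have hq0 : 0 < q := by omega
  have h2 := L.Φ_mono hq0 (BddS_aFn hq)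
    (BddS.const_mul (2 * (q : ℝ) / ((q : ℝ) - 1)) (BddS_tvU hq0)) (fun x hx => aFn_le_tvU hq hx)
  rwa [L.Φ_const_mul hq0 _ (BddS_tvU hq0)] at h2

/-- the channel multiplies the second moment by `lam²` -/
theorem Φ_aFn_tilt (hq : 2 ≤ q) (lam : ℝ)
    (h : ∀ i j : Fin q, 0 ≤ Crest.ProbabilityR.Broadcast.channel q lam i j) :
    (L.tilt lam h).Φ (aFn q) = lam ^ 2 * L.Φ (aFn q) := by
  have hq0 : 0 < q := by omega
  rw [L.Φ_tilt hq0 lam h (BddS_aFn hq) (fun x hx => Tl_mem hq0 lam h hx)]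
  have hb : BddS (aFn q ∘ Tl q lam) := by
    refine ⟨1, fun x hx => ?_⟩
    have hm := Tl_mem hq0 lam h hx
    have h0 := aFn_nonneg hq hm
    have h1 := aFn_le_one hq hm
    simp only [Function.comp_apply]
    exact abs_le.2 ⟨by linarith, h1⟩
  have h1 := L.Φ_mono hq0 hb (BddS.const_mul (lam ^ 2) (BddS_aFn hq))
    (fun x hx => le_of_eq (aFn_Tl hq lam hx))
  have h2 := L.Φ_mono hq0 (BddS.const_mul (lam ^ 2) (BddS_aFn hq)) hb
    (fun x hx => le_of_eq (aFn_Tl hq lam hx).symm)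
  rw [L.Φ_const_mul hq0 _ (BddS_aFn hq)] at h1 h2
  exact le_antisymm h1 h2

end SLaw

/-- if the second moments tend to zero so do the advantages -/
theorem tendsto_Φ_tvU_of_aFn (hq : 2 ≤ q) (M : ℕ → SLaw q)
    (h : Filter.Tendsto (fun n => (M n).Φ (aFn q)) Filter.atTop (nhds 0)) :
    Filter.Tendsto (fun n => (M n).Φ (tvU q)) Filter.atTop (nhds 0) := by
  have hq0 : 0 < q := by omega
  have h2 : Filter.Tendsto (fun n => Real.sqrt (((q : ℝ) - 1) / 4 * (M n).Φ (aFn q)))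
      Filter.atTop (nhds 0) := by
    have := (Real.continuous_sqrt.tendsto (((q : ℝ) - 1) / 4 * 0)).comp (h.const_mul (((q : ℝ) - 1) / 4))
    simpa [Function.comp_def] using this
  exact squeeze_zero (fun n => (M n).Φ_tvU_nonneg hq0) (fun n => (M n).Φ_tvU_le_sqrt hq) h2

end Crest.Agent.Lib.Bc
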