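import Crest.Agent.Lib.Bc.SymInv
import Crest.Agent.Lib.Bc.TvBounds
/-!
# Row 163, `q = 4`: the invariants of `Cert 4` (helper88)

On `Simp 4`, with `e_k` the elementary symmetric functions of `x` and `a_i` the `V₄` coordinates of `x`
(`x_j = (1 + ∑ χ_i(j) a_i)/4`):
* `fF x = 1 - (8/3) e₂ = (a₁²+a₂²+a₃²)/3` (this is `aFn 4 x`, `aFn_eq_fF`);
* `piF x = 1 - 4 e₂ + 8 e₃ = a₁ a₂ a₃`;
* `dF x = 128 e₄ - 32 e₃ + (32/3) e₂² = ∑ a_i⁴ - 3 f²`;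
* `gF x = 40 π + 12 f π - 45 f²`, the class function of `Cert 4`.
-/
set_option autoImplicit false
open scoped BigOperators
namespace Crest.Agent.Lib.Bc.Q4Inv
open Crest.Agent.Lib.Bc.SymAvg

/-- `f = aFn 4` on the simplex -/
noncomputable def fF (x : Fin 4 → ℝ) : ℝ := 1 - (8 / 3) * e24 x
/-- `π = a₁ a₂ a₃` on the simplex -/
noncomputable def piF (x : Fin 4 → ℝ) : ℝ := 1 - 4 * e24 x + 8 * e34 x
/-- `D = ∑ a_i⁴ - 3 f²` on the simplex -/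
noncomputable def dF (x : Fin 4 → ℝ) : ℝ := 128 * e44 x - 32 * e34 x + (32 / 3) * e24 x ^ 2
/-- the class function of `Cert 4` -/
noncomputable def gF (x : Fin 4 → ℝ) : ℝ := 40 * piF x + 12 * fF x * piF x - 45 * fF x ^ 2

lemma sum_fin4 (x : Fin 4 → ℝ) : ∑ i, x i = x 0 + x 1 + x 2 + x 3 := by
  simp [Fin.sum_univ_succ]; ring

lemma e14_eq_one {x : Fin 4 → ℝ} (hx : x ∈ Simp 4) : e14 x = 1 := by
  have := hx.2
  rw [sum_fin4] at this
  simpa [e14] using this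

lemma aFn_eq_fF {x : Fin 4 → ℝ} (hx : x ∈ Simp 4) : aFn 4 x = fF x := by
  have h1 : x 0 + x 1 + x 2 + x 3 = 1 := by
    have := hx.2
    rwa [sum_fin4] at this
  have hsq : ∑ i, x i ^ 2 = 1 - 2 * e24 x := by
    have : ∑ i, x i ^ 2 = x 0 ^ 2 + x 1 ^ 2 + x 2 ^ 2 + x 3 ^ 2 := by
      simp [Fin.sum_univ_succ]; ring
    rw [this]
    have e : (x 0 + x 1 + x 2 + x 3) ^ 2 = 1 := by rw [h1]; norm_num
    unfold e24
    nlinarith [e]
  unfold aFn fF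
  rw [hsq]
  push_cast
  ring

end Crest.Agent.Lib.Bc.Q4Inv
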