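import Crest.Agent.Lib.Bc.Cert4Glue
import Crest.Agent.Lib.Bc.Q4Inv
/-!
# Row 163: `Cert 4` stated with the elementary symmetric form `Q4Inv.gF`

On `Simp 4`: `piFn = piF`, `G4 = gF`, so `Esig 4 G4 = Esig 4 gF`.  `mkCert4F` takes CERT I and CERT II for `gF`.
`bdd_of_e`: a continuous function of `(e₂, e₃, e₄)` is bounded on the simplex.
-/
open scoped BigOperators
open Crest.ProbabilityR.Broadcast Crest.ProbabilityR.TreeBroadcast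
namespace Crest.Agent.Lib.Bc
namespace Q4Glue
open PIII Dir2 SymAvg Q4Inv

lemma piFn_eq_piF {x : Fin 4 → ℝ} (hx : x ∈ Simp 4) : piFn x = piF x := by
  have hs : x 0 + x 1 + x 2 + x 3 = 1 := by simpa [Fin.sum_univ_four] using hx.2
  have e : x 3 = 1 - x 0 - x 1 - x 2 := by linarith
  unfold piFn Cw dev piF e24 e34
  rw [Fin.sum_univ_four, e]
  ring

lemma G4_eq_gF {x : Fin 4 → ℝ} (hx : x ∈ Simp 4) : G4 x = gF x := by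
  unfold G4 gF
  rw [piFn_eq_piF hx, aFn_eq_fF hx]

lemma Esig_congr {q : ℕ} (hq : 0 < q) {f g : (Fin q → ℝ) → ℝ} (h : ∀ x ∈ Simp q, f x = g x)
    {x x' : Fin q → ℝ} (hx : x ∈ Simp q) (hx' : x' ∈ Simp q) : Esig q f x x' = Esig q g x x' := by
  unfold Esig
  congr 1
  refine Finset.sum_congr rfl fun σ _ => ?_
  rw [h _ (star_mem hq hx (comp_mem_Simp σ hx'))]

lemma Esig_G4 {x x' : Fin 4 → ℝ} (hx : x ∈ Simp 4) (hx' : x' ∈ Simp 4) :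
    Esig 4 G4 x x' = Esig 4 gF x x' :=
  Esig_congr (by norm_num) (fun _ h => G4_eq_gF h) hx hx'

/-- `Cert 4` from its two inequalities, stated with `gF` -/
noncomputable def mkCert4F (α β : (Fin 4 → ℝ) → ℝ) (κ : ℝ) (hα : SLaw.BddS α) (hβ : SLaw.BddS β)
    (α0 : ∀ x ∈ Simp 4, 0 ≤ α x) (β0 : ∀ x ∈ Simp 4, 0 ≤ β x) (hκ : 0 ≤ κ)
    (I : ∀ x ∈ Simp 4, ∀ x' ∈ Simp 4, α x' * gF x + α x * gF x' ≤ Esig 4 gF x x')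
    (II : ∀ x ∈ Simp 4, ∀ x' ∈ Simp 4,
      β x' * gF x + β x * gF x' + κ * (aFn 4 x ^ 2 * aFn 4 x' + aFn 4 x * aFn 4 x' ^ 2)
        ≤ aFn 4 x + aFn 4 x' - Esig 4 (aFn 4) x x') : Cert 4 :=
  mkCert4 α β κ hα hβ α0 β0 hκ
    (fun x hx x' hx' => by
      rw [G4_eq_gF hx, G4_eq_gF hx', Esig_G4 hx hx']
      exact I x hx x' hx')
    (fun x hx x' hx' => by
      rw [G4_eq_gF hx, G4_eq_gF hx']
      exact II x hx x' hx')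

lemma mkCert4F_g (α β : (Fin 4 → ℝ) → ℝ) (κ : ℝ) (hα : SLaw.BddS α) (hβ : SLaw.BddS β)
    (α0 : ∀ x ∈ Simp 4, 0 ≤ α x) (β0 : ∀ x ∈ Simp 4, 0 ≤ β x) (hκ : 0 ≤ κ) (I II) :
    (mkCert4F α β κ hα hβ α0 β0 hκ I II).g = G4 := rfl

lemma mkCert4F_κ (α β : (Fin 4 → ℝ) → ℝ) (κ : ℝ) (hα : SLaw.BddS α) (hβ : SLaw.BddS β)
    (α0 : ∀ x ∈ Simp 4, 0 ≤ α x) (β0 : ∀ x ∈ Simp 4, 0 ≤ β x) (hκ : 0 ≤ κ) (I II) :
    (mkCert4F α β κ hα hβ α0 β0 hκ I II).κ₃ = κ := rfl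

/-- the elementary symmetric functions lie in a box on the simplex -/
lemma e_range {x : Fin 4 → ℝ} (hx : x ∈ Simp 4) :
    (0 ≤ e24 x ∧ e24 x ≤ 6) ∧ (0 ≤ e34 x ∧ e34 x ≤ 4) ∧ (0 ≤ e44 x ∧ e44 x ≤ 1) := by
  have h0 := hx.1 0
  have h1 := hx.1 1
  have h2 := hx.1 2
  have h3 := hx.1 3
  have k0 := Simp.le_one hx 0
  have k1 := Simp.le_one hx 1
  have k2 := Simp.le_one hx 2
  have k3 := Simp.le_one hx 3
  have m : ∀ a b : ℝ, 0 ≤ a → a ≤ 1 → 0 ≤ b → b ≤ 1 → 0 ≤ a * b ∧ a * b ≤ 1 := fun a b ha ha' hb hb' =>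
    ⟨mul_nonneg ha hb, by nlinarith⟩
  obtain ⟨a01, b01⟩ := m _ _ h0 k0 h1 k1
  obtain ⟨a02, b02⟩ := m _ _ h0 k0 h2 k2
  obtain ⟨a03, b03⟩ := m _ _ h0 k0 h3 k3
  obtain ⟨a12, b12⟩ := m _ _ h1 k1 h2 k2
  obtain ⟨a13, b13⟩ := m _ _ h1 k1 h3 k3
  obtain ⟨a23, b23⟩ := m _ _ h2 k2 h3 k3
  obtain ⟨c012, d012⟩ := m _ _ a01 b01 h2 k2
  obtain ⟨c013, d013⟩ := m _ _ a01 b01 h3 k3
  obtain ⟨c023, d023⟩ := m _ _ a02 b02 h3 k3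
  obtain ⟨c123, d123⟩ := m _ _ a12 b12 h3 k3
  obtain ⟨f0, f1⟩ := m _ _ c012 d012 h3 k3
  unfold e24 e34 e44
  refine ⟨⟨by linarith, by linarith⟩, ⟨by linarith, by linarith⟩, ⟨f0, f1⟩⟩

/-- a continuous function of `(e₂, e₃, e₄)` is bounded on the simplex -/
lemma bdd_of_e {f : (Fin 4 → ℝ) → ℝ} (F : ℝ × ℝ × ℝ → ℝ) (hF : Continuous F)
    (h : ∀ x, f x = F (e24 x, e34 x, e44 x)) : SLaw.BddS f := by
  have hK : IsCompact (Set.Icc (0 : ℝ) 6 ×ˢ (Set.Icc (0 : ℝ) 4 ×ˢ Set.Icc (0 : ℝ) 1)) :=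
    isCompact_Icc.prod (isCompact_Icc.prod isCompact_Icc)
  obtain ⟨C, hC⟩ := hK.exists_bound_of_continuousOn hF.continuousOn
  refine ⟨C, fun x hx => ?_⟩
  obtain ⟨h2, h3, h4⟩ := e_range hx
  have hm : (e24 x, e34 x, e44 x) ∈ Set.Icc (0 : ℝ) 6 ×ˢ (Set.Icc (0 : ℝ) 4 ×ˢ Set.Icc (0 : ℝ) 1) :=
    ⟨h2, h3, h4⟩
  rw [h x]
  simpa [Real.norm_eq_abs] using hC _ hm

end Q4Glue
end Crest.Agent.Lib.Bc
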