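import Crest.Agent.Lib.Bc.Dir2
/-!
# Row 163: the `q = 4` class function and the final assembly of S0245, S0246

`G4 = 40 π + 12 f π - 45 f²` with `f = aFn 4`, `π = PIII.piFn`.  Everything about `G4` that `Cert 4` and the
theorems of `Dir1`, `Dir2` ask for besides CERT I, CERT II: bounded, invariant, `0` at the centre, `7` at the vertices,
`μ³ G ≤ G ∘ T_μ` for `μ ∈ [0, 1]`.  Then `mkCert4` and the two statements.
-/
open scoped BigOperators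
open Crest.ProbabilityR.Broadcast Crest.ProbabilityR.TreeBroadcast
namespace Crest.Agent.Lib.Bc
namespace Q4Glue
open PIII Dir2

/-- the class function -/
noncomputable def G4 (x : Fin 4 → ℝ) : ℝ :=
  40 * piFn x + 12 * aFn 4 x * piFn x - 45 * aFn 4 x ^ 2

lemma bdd_G4 : SLaw.BddS G4 := by
  have h1 := SLaw.BddS.const_mul 40 BddS_pi
  have h2 := SLaw.BddS.const_mul 12 (SLaw.BddS.mul BddS_ff BddS_pi)
  have h3 := SLaw.BddS.const_mul (-45) BddS_ffsq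
  have h := (h1.add h2).add h3
  have e : G4 = fun x => 40 * piFn x + 12 * (aFn 4 x * piFn x) + (-45) * aFn 4 x ^ 2 := by
    funext x; unfold G4; ring
  rw [e]; exact h

lemma G4_centre : G4 (fun _ => (1 : ℝ) / (4 : ℕ)) = 0 := by
  unfold G4
  rw [pi_centre, aFn_centre (by norm_num : (2 : ℕ) ≤ 4)]
  ring

lemma G4_comp (σ : Equiv.Perm (Fin 4)) (x : Fin 4 → ℝ) : G4 (x ∘ σ) = G4 x := by
  unfold G4
  rw [pi_sym, aFn_comp]

lemma G4_vertex (i : Fin 4) : G4 (fun j => if j = i then 1 else 0) = 7 := by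
  fin_cases i <;>
    simp [G4, piFn, Cw, dev, aFn, Fin.sum_univ_four] <;> norm_num

/-- `π ≤ (3/2) f` on the simplex -/
lemma pi_le {x : Fin 4 → ℝ} (hx : x ∈ Simp 4) : piFn x ≤ (3 / 2) * aFn 4 x := by
  have hs : x 0 + x 1 + x 2 + x 3 = 1 := by simpa [Fin.sum_univ_four] using hx.2
  have h1 : ∀ i, (4 * x i - 1) ^ 3 ≤ 3 * (4 * x i - 1) ^ 2 := by
    intro i
    have h3 : 4 * x i - 1 ≤ 3 := by linarith [Simp.le_one hx i]
    have := mul_le_mul_of_nonneg_left h3 (sq_nonneg (4 * x i - 1))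
    nlinarith
  have a0 := h1 0
  have a1 := h1 1
  have a2 := h1 2
  have a3 := h1 3
  unfold piFn Cw dev aFn
  rw [Fin.sum_univ_four, Fin.sum_univ_four]
  push_cast
  have e : x 3 = 1 - x 0 - x 1 - x 2 := by linarith
  rw [e] at a3 ⊢
  nlinarith

/-- the class is stable under the channel -/
theorem G4_Tl {mu : ℝ} (h0 : 0 ≤ mu) (h1 : mu ≤ 1) {x : Fin 4 → ℝ} (hx : x ∈ Simp 4) :
    mu ^ 3 * G4 x ≤ G4 (Tl 4 mu x) := by
  have hf : 0 ≤ aFn 4 x := aFn_nonneg (by norm_num) hx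
  have hp := pi_le hx
  unfold G4
  rw [pi_comp_Tl, ff_comp_Tl mu hx]
  set f := aFn 4 x with hfd
  set p := piFn x with hpd
  have key : 40 * (mu ^ 3 * p) + 12 * (mu ^ 2 * f) * (mu ^ 3 * p) - 45 * (mu ^ 2 * f) ^ 2
      - mu ^ 3 * (40 * p + 12 * f * p - 45 * f ^ 2)
      = mu ^ 3 * (1 - mu) * f * (45 * f - 12 * (1 + mu) * p) := by ring
  have hb : 0 ≤ 45 * f - 12 * (1 + mu) * p := by
    rcases le_total p 0 with hp0 | hp0
    · have : 12 * (1 + mu) * p ≤ 0 := mul_nonpos_of_nonneg_of_nonpos (by positivity) hp0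
      linarith
    · have : 12 * (1 + mu) * p ≤ 24 * p := by nlinarith
      linarith
  have hpos : 0 ≤ mu ^ 3 * (1 - mu) * f * (45 * f - 12 * (1 + mu) * p) := by
    have h2 : 0 ≤ 1 - mu := by linarith
    positivity
  linarith

/-- `Cert 4` from its two inequalities -/
noncomputable def mkCert4 (α β : (Fin 4 → ℝ) → ℝ) (κ : ℝ) (hα : SLaw.BddS α) (hβ : SLaw.BddS β)
    (α0 : ∀ x ∈ Simp 4, 0 ≤ α x) (β0 : ∀ x ∈ Simp 4, 0 ≤ β x) (hκ : 0 ≤ κ)
    (I : ∀ x ∈ Simp 4, ∀ x' ∈ Simp 4, α x' * G4 x + α x * G4 x' ≤ Esig 4 G4 x x')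
    (II : ∀ x ∈ Simp 4, ∀ x' ∈ Simp 4,
      β x' * G4 x + β x * G4 x' + κ * (aFn 4 x ^ 2 * aFn 4 x' + aFn 4 x * aFn 4 x' ^ 2)
        ≤ aFn 4 x + aFn 4 x' - Esig 4 (aFn 4) x x') : Cert 4 where
  g := G4
  α := α
  β := β
  κ₂ := 0
  κ₃ := κ
  hg := bdd_G4
  hα := hα
  hβ := hβ
  α_nonneg := α0
  β_nonneg := β0
  κ₂_nonneg := le_rfl
  κ₃_nonneg := hκ
  I := I
  II := fun x hx x' hx' => by
    have := II x hx x' hx'
    linarith

section
variable (C : Cert 4) (hg : C.g = G4)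
include hg

/-- the statement S0245 from a certificate on `G4` -/
theorem s0245 (hκ : 0 < C.κ₃) :
    (∀ b : ℕ, 2 ≤ b → ∀ lam : ℝ, 0 ≤ lam → lam ≤ 1 → (b : ℝ) * lam ^ 2 ≤ 1 →
      Filter.Tendsto (advantage 4 b lam) Filter.atTop (nhds 0)) ∧
    (∀ d : ℝ, 0 < d → ∀ lam : ℝ, 0 ≤ lam → lam ≤ 1 → d * lam ^ 2 ≤ 1 →
      Filter.Tendsto (gwAdvantage 4 lam d) Filter.atTop (nhds 0)) := by
  have hκ' : 0 < C.κ₂ + C.κ₃ := by linarith [C.κ₂_nonneg]
  have hU : 0 ≤ C.g (fun _ => (1 : ℝ) / (4 : ℕ)) := by rw [hg, G4_centre]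
  have hsym : ∀ σ : Equiv.Perm (Fin 4), ∀ x, C.g (x ∘ σ) = C.g x := by
    intro σ x; rw [hg]; exact G4_comp σ x
  have hV : ∀ i : Fin 4, 0 ≤ C.g (fun j => if j = i then 1 else 0) := by
    intro i; rw [hg, G4_vertex]; norm_num
  have hch : ∀ lam : ℝ, 0 ≤ lam → lam ≤ 1 → ∀ i j : Fin 4, 0 ≤ channel 4 lam i j := fun lam h0 h1 =>
    channel_nonneg (by norm_num) (Or.inl (by norm_num; linarith)) h1
  constructor
  · intro b hb lam h0 h1 hbl
    refine C.advantage_tendsto (by norm_num) hκ' hU hsym hV (hch lam h0 h1) (pow_nonneg h0 3)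
      (fun x hx => ?_) hb hbl
    rw [hg]; exact G4_Tl h0 h1 hx
  · intro d hd lam h0 h1 hdl
    refine C.gwAdvantage_tendsto (by norm_num) hκ' hU hsym hV (hch lam h0 h1) (pow_nonneg h0 3)
      (fun x hx => ?_) hd hdl
    rw [hg]; exact G4_Tl h0 h1 hx

/-- the statement S0246 from a certificate on `G4` -/
theorem s0246 (hκ : 0 < C.κ₃) (V : Type*) [DecidableEq V] (T : LocFinTree V) (B : ℕ)
    (hB : ∀ v, (T.children v).card ≤ B) (lam : ℝ) (h0 : 0 < lam) (h1 : lam < 1) :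
    (∃ ε : ℝ, 0 < ε ∧ ∀ n, ε ≤ treeAdvantage 4 T lam n) ↔
    (∃ θ : V → ℝ, IsFlow T θ ∧ 0 < flowMass T θ ∧ ∀ ξ : ℕ → V, T.IsRay ξ → rayPotential lam θ ξ ≤ 1) := by
  have hU : 0 ≤ C.g (fun _ => (1 : ℝ) / (4 : ℕ)) := by rw [hg, G4_centre]
  have hsym : ∀ σ : Equiv.Perm (Fin 4), ∀ x, C.g (x ∘ σ) = C.g x := by
    intro σ x; rw [hg]; exact G4_comp σ x
  have hV : ∀ i : Fin 4, 0 ≤ C.g (fun j => if j = i then 1 else 0) := by
    intro i; rw [hg, G4_vertex]; norm_num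
  refine s0246_of_cert T hB C hκ hU hsym hV (fun μ h2 h3 => ⟨μ ^ 3, pow_nonneg h2 3, fun x hx => ?_⟩) h0 h1
  rw [hg]; exact G4_Tl h2 h3 hx

end

end Q4Glue
end Crest.Agent.Lib.Bc
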