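import Crest.Agent.Lib.Bc.Leaf
/-!
# Row 163: the Poisson tree model as an `SLaw` (module B4 of BLUEPRINT.md)
-/
open scoped BigOperators
open Crest.ProbabilityR.Broadcast
namespace Crest.Agent.Lib.Bc
variable {q : ℕ}
namespace SLaw

/-- scaling the likelihoods scales the mass and leaves the posterior alone -/
lemma term_of_scale (L1 L2 : SLaw q) (o1 : L1.O) (o2 : L2.O) (r : ℝ)
    (h : ∀ i, L2.w o2 i = r * L1.w o1 i) (f : (Fin q → ℝ) → ℝ) :
    L2.mass o2 * f (L2.post o2) = r * (L1.mass o1 * f (L1.post o1)) := by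
  have hm : L2.mass o2 = r * L1.mass o1 := by
    unfold mass
    simp only [h, ← Finset.mul_sum, mul_div_assoc]
  by_cases hr : r = 0
  · rw [hm, hr]; simp
  · have hp : L2.post o2 = L1.post o1 := by
      funext i
      unfold post
      simp only [h, ← Finset.mul_sum, mul_eq_zero, hr, false_or]
      split_ifs with h0
      · rfl
      · rw [mul_div_mul_left _ _ hr]
    rw [hm, hp]; ring

lemma hasSum_fin_prod (L : SLaw q) (c : ℕ) (i : Fin q) :
    HasSum (fun g : Fin c → L.O => ∏ m, L.w (g m) i) 1 := by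
  have h1 := (pow L c).sum_one i
  rw [← (powEquiv L c).symm.hasSum_iff] at h1
  convert h1 using 1
  funext g
  simp [pow_w]

/-- a random number of iid observations, recorded as a list -/
noncomputable def mixList (L : SLaw q) (p : ℕ → ℝ) (hp : ∀ c, 0 ≤ p c) (hp1 : HasSum p 1) : SLaw q where
  O := List L.O
  w := fun o i => p o.length * (o.map (fun x => L.w x i)).prod
  nonneg := fun o i => mul_nonneg (hp _) (List.prod_nonneg (by
    intro a ha
    obtain ⟨x, _, rfl⟩ := List.mem_map.1 ha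
    exact L.nonneg x i))
  sum_one := fun i => by
    have hF : HasSum (fun x : (Σ c, Fin c → L.O) => p x.1 * ∏ m, L.w (x.2 m) i) 1 := by
      refine HasSum.sigma_of_hasSum hp1 (fun c => ?_) ?_
      · simpa using (hasSum_fin_prod L c i).mul_left (p c)
      · rw [summable_sigma_of_nonneg]
        · refine ⟨fun c => ((hasSum_fin_prod L c i).mul_left (p c)).summable, ?_⟩
          have : ∀ c, ∑' g : Fin c → L.O, p c * ∏ m, L.w (g m) i = p c := fun c => by
            simpa using ((hasSum_fin_prod L c i).mul_left (p c)).tsum_eq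
          simp only [this]
          exact hp1.summable
        · intro x
          exact mul_nonneg (hp _) (Finset.prod_nonneg fun m _ => L.nonneg _ i)
    refine (List.equivSigmaTuple.symm.hasSum_iff).1 ?_
    convert hF using 1
    funext x
    obtain ⟨c, g⟩ := x
    simp [List.equivSigmaTuple, List.map_ofFn, List.prod_ofFn, Function.comp_def]
  sym := fun σ => by
    obtain ⟨e, he⟩ := L.sym σ
    refine ⟨Equiv.listEquivOfEquiv e, fun o i => ?_⟩
    simp [Equiv.listEquivOfEquiv, Function.comp_def, he]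


lemma mixList_term (L : SLaw q) (p : ℕ → ℝ) (hp : ∀ c, 0 ≤ p c) (hp1 : HasSum p 1) (c : ℕ) (o : (pow L c).O)
    (f : (Fin q → ℝ) → ℝ) :
    (mixList L p hp hp1).mass (List.ofFn (powEquiv L c o)) * f ((mixList L p hp hp1).post (List.ofFn (powEquiv L c o)))
      = p c * ((pow L c).mass o * f ((pow L c).post o)) := by
  refine term_of_scale (pow L c) (mixList L p hp hp1) o (List.ofFn (powEquiv L c o)) (p c) (fun i => ?_) f
  rw [pow_w]
  show p (List.ofFn (powEquiv L c o)).length * ((List.ofFn (powEquiv L c o)).map (fun x => L.w x i)).prod = _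
  simp [List.map_ofFn, List.prod_ofFn, Function.comp_def]

/-- law of total expectation over the number of observations -/
theorem Φ_mixList (hq : 0 < q) (L : SLaw q) (p : ℕ → ℝ) (hp : ∀ c, 0 ≤ p c) (hp1 : HasSum p 1)
    {f : (Fin q → ℝ) → ℝ} (hf : BddS f) :
    (mixList L p hp hp1).Φ f = ∑' c, p c * (pow L c).Φ f := by
  set M := mixList L p hp hp1 with hM
  have hs : Summable (fun o : List L.O => M.mass o * f (M.post o)) := M.summable_Φ hq hf
  have e : M.Φ f = ∑' o : List L.O, M.mass o * f (M.post o) := rfl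
  rw [e, ← List.equivSigmaTuple.symm.tsum_eq]
  have hs2 : Summable (fun x : (Σ c, Fin c → L.O) =>
      M.mass (List.equivSigmaTuple.symm x) * f (M.post (List.equivSigmaTuple.symm x))) :=
    (List.equivSigmaTuple.symm.summable_iff).2 hs
  rw [hs2.tsum_sigma]
  refine tsum_congr fun c => ?_
  rw [← (powEquiv L c).tsum_eq]
  have : ∀ o : (pow L c).O, M.mass (List.equivSigmaTuple.symm ⟨c, powEquiv L c o⟩)
      * f (M.post (List.equivSigmaTuple.symm ⟨c, powEquiv L c o⟩))
      = p c * ((pow L c).mass o * f ((pow L c).post o)) := fun o => mixList_term L p hp hp1 c o f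
  simp only [this]
  rw [tsum_mul_left]
  rfl

end SLaw

/-- the Poisson weights -/
lemma pois_nonneg {d : ℝ} (hd : 0 ≤ d) (c : ℕ) : 0 ≤ Real.exp (-d) * d ^ c / Nat.factorial c := by
  positivity

lemma pois_hasSum (d : ℝ) : HasSum (fun c : ℕ => Real.exp (-d) * d ^ c / Nat.factorial c) 1 := by
  convert! (NormedSpace.expSeries_div_hasSum_exp (d : ℝ)).mul_left (Real.exp (-d)) using 1
  · simp_rw [mul_div_assoc]
  · simp [← Real.exp_eq_exp_ℝ, ← Real.exp_add]

/-- all that is needed to see `gwLaw` as a symmetric law -/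
theorem gw_facts (lam d : ℝ) (hd : 0 ≤ d) (hch : ∀ i j : Fin q, 0 ≤ channel q lam i j) (ℓ : ℕ) :
    (∀ (o : PObs q ℓ) (i : Fin q), 0 ≤ gwLaw q lam d ℓ i o) ∧
    (∀ i : Fin q, HasSum (fun o : PObs q ℓ => gwLaw q lam d ℓ i o) 1) ∧
    (∀ σ : Equiv.Perm (Fin q), ∃ e : PObs q ℓ ≃ PObs q ℓ, ∀ (o : PObs q ℓ) (i : Fin q),
      gwLaw q lam d ℓ (σ i) (e o) = gwLaw q lam d ℓ i o) := by
  induction ℓ with
  | zero =>
    refine ⟨fun o i => ?_, fun i => ?_, fun σ => ⟨σ, fun o i => ?_⟩⟩
    · simp only [gwLaw]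
      split_ifs <;> norm_num
    · have := hasSum_fintype (fun o : Fin q => if o = i then (1 : ℝ) else 0)
      simpa [gwLaw] using this
    · simp only [gwLaw]
      simp [σ.injective.eq_iff]
  | succ ℓ ih =>
    obtain ⟨h1, h2, h3⟩ := ih
    let L : SLaw q :=
      { O := PObs q ℓ
        w := fun o i => gwLaw q lam d ℓ i o
        nonneg := h1
        sum_one := h2
        sym := h3 }
    let N := SLaw.mixList (L.tilt lam hch) (fun c : ℕ => Real.exp (-d) * d ^ c / Nat.factorial c)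
      (pois_nonneg hd) (pois_hasSum d)
    exact ⟨fun o i => N.nonneg o i, fun i => N.sum_one i, fun σ => N.sym σ⟩

/-- B4: the Poisson model as a symmetric observation law -/
noncomputable def gwSL (q : ℕ) (lam d : ℝ) (ℓ : ℕ) (hd : 0 ≤ d) (_hq : 0 < q)
    (hch : ∀ i j : Fin q, 0 ≤ channel q lam i j) : SLaw q where
  O := PObs q ℓ
  w := fun o i => gwLaw q lam d ℓ i o
  nonneg := (gw_facts lam d hd hch ℓ).1
  sum_one := (gw_facts lam d hd hch ℓ).2.1
  sym := (gw_facts lam d hd hch ℓ).2.2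

theorem gwAdvantage_eq (lam d : ℝ) (ℓ : ℕ) (hd : 0 ≤ d) (hq : 0 < q)
    (hch : ∀ i j : Fin q, 0 ≤ channel q lam i j) :
    gwAdvantage q lam d ℓ = (gwSL q lam d ℓ hd hq hch).Φ (tvU q) := by
  rw [SLaw.Φ_tvU_of_fintype hq]
  unfold gwAdvantage
  rw [tsum_mul_left]
  rfl

/-- one level: `M_{ℓ+1} = ∑_c Pois_d(c) (T_lam M_ℓ)^{★ c}` -/
theorem gwSL_succ (lam d : ℝ) (ℓ : ℕ) (hd : 0 ≤ d) (hq : 0 < q)
    (hch : ∀ i j : Fin q, 0 ≤ channel q lam i j)
    {f : (Fin q → ℝ) → ℝ} (hf : SLaw.BddS f) :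
    (gwSL q lam d (ℓ + 1) hd hq hch).Φ f
      = ∑' c : ℕ, (Real.exp (-d) * d ^ c / Nat.factorial c) *
          (((gwSL q lam d ℓ hd hq hch).tilt lam hch).pow c).Φ f := by
  rw [← SLaw.Φ_mixList hq _ _ (pois_nonneg hd) (pois_hasSum d) hf]
  rfl

end Crest.Agent.Lib.Bc
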