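import Crest.Agent.Lib.Bc.Hats
import Crest.Agent.Lib.Bc.TvBounds
import Crest.Agent.Lib.Bc.Gw
/-!
# Row 163: the `q = 3` layer of the closed forms (helper37's hats)

For `ℓ ≥ 0` (the product over the children of `3 x_i`): `Z = (∑ ℓ)/3`, `Xt = (∑_{i<j} ℓ_i ℓ_j)/3`,
`W = ℓ_0 ℓ_1 ℓ_2`. With `y = ℓ/∑ℓ`: `3 e₂(y) = Xt/Z²`, `27 e₃(y) = W/Z³`, so

* `Kz_aFn`: `Z a(y) = Z - Xt/Z`,
* `Kz_cFn`: `Z c(y) = Z - (3/2) Xt/Z + (1/2) W/Z²`,
* `Kz_a2`: `Z a(y)² = Z - 2 Xt/Z + Xt²/Z³`.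

Upper bounds by polynomials in the hats: `Kz_aFn_le`, `Kz_cFn_le`, `Kz_cFn_ge`, `Kz_a2_le`.
-/
open scoped BigOperators
open Crest.ProbabilityR.Broadcast
namespace Crest.Agent.Lib.Bc

/-- the cubic invariant `c = Re z³ = ∑ (3x_i-1)³/6` -/
noncomputable def cFn (x : Fin 3 → ℝ) : ℝ :=
  ((3 * x 0 - 1) ^ 3 + (3 * x 1 - 1) ^ 3 + (3 * x 2 - 1) ^ 3) / 6

noncomputable def Zl (ℓ : Fin 3 → ℝ) : ℝ := (ℓ 0 + ℓ 1 + ℓ 2) / 3
noncomputable def Xt (ℓ : Fin 3 → ℝ) : ℝ := (ℓ 0 * ℓ 1 + ℓ 0 * ℓ 2 + ℓ 1 * ℓ 2) / 3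
noncomputable def Wl (ℓ : Fin 3 → ℝ) : ℝ := ℓ 0 * ℓ 1 * ℓ 2

/-- `a` in coordinates -/
lemma aFn3 (x : Fin 3 → ℝ) : aFn 3 x = (3 * (x 0 ^ 2 + x 1 ^ 2 + x 2 ^ 2) - 1) / 2 := by
  unfold aFn
  rw [Fin.sum_univ_three]
  norm_num

lemma Zl_nonneg {ℓ : Fin 3 → ℝ} (h : ∀ i, 0 ≤ ℓ i) : 0 ≤ Zl ℓ := by
  have := h 0; have := h 1; have := h 2
  unfold Zl; positivity

lemma Xt_nonneg {ℓ : Fin 3 → ℝ} (h : ∀ i, 0 ≤ ℓ i) : 0 ≤ Xt ℓ := by
  have := h 0; have := h 1; have := h 2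
  unfold Xt; positivity

lemma Wl_nonneg {ℓ : Fin 3 → ℝ} (h : ∀ i, 0 ≤ ℓ i) : 0 ≤ Wl ℓ := by
  have := h 0; have := h 1; have := h 2
  unfold Wl; positivity

lemma zero_of_Zl {ℓ : Fin 3 → ℝ} (h : ∀ i, 0 ≤ ℓ i) (hZ : Zl ℓ = 0) (i : Fin 3) : ℓ i = 0 := by
  have h0 := h 0; have h1 := h 1; have h2 := h 2
  unfold Zl at hZ
  have e0 : ℓ 0 = 0 := by linarith
  have e1 : ℓ 1 = 0 := by linarith
  have e2 : ℓ 2 = 0 := by linarith
  fin_cases i <;> simpa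

/-- `Kz` in coordinates -/
lemma Kz_eq (f : (Fin 3 → ℝ) → ℝ) (ℓ : Fin 3 → ℝ) :
    Kz 3 f ℓ = Zl ℓ * f (fun i => ℓ i / (3 * Zl ℓ)) := by
  unfold Kz Zl
  rw [Fin.sum_univ_three]
  have : (3 : ℝ) * ((ℓ 0 + ℓ 1 + ℓ 2) / 3) = ℓ 0 + ℓ 1 + ℓ 2 := by ring
  rw [this]
  norm_num

/-- on the normalised vector -/
lemma aFn_y (ℓ : Fin 3 → ℝ) (hZ : Zl ℓ ≠ 0) :
    aFn 3 (fun i => ℓ i / (3 * Zl ℓ)) = 1 - Xt ℓ / Zl ℓ ^ 2 := by
  rw [aFn3]
  have h3 : ℓ 0 + ℓ 1 + ℓ 2 = 3 * Zl ℓ := by unfold Zl; ring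
  have h4 : ℓ 2 = 3 * Zl ℓ - ℓ 0 - ℓ 1 := by linarith
  have e : Xt ℓ = (ℓ 0 * ℓ 1 + ℓ 0 * ℓ 2 + ℓ 1 * ℓ 2) / 3 := rfl
  rw [e]
  generalize Zl ℓ = Z at *
  rw [h4]
  field_simp
  ring

lemma cFn_y (ℓ : Fin 3 → ℝ) (hZ : Zl ℓ ≠ 0) :
    cFn (fun i => ℓ i / (3 * Zl ℓ)) = 1 - (3 / 2) * (Xt ℓ / Zl ℓ ^ 2) + (1 / 2) * (Wl ℓ / Zl ℓ ^ 3) := by
  unfold cFn
  have h3 : ℓ 0 + ℓ 1 + ℓ 2 = 3 * Zl ℓ := by unfold Zl; ring
  have h4 : ℓ 2 = 3 * Zl ℓ - ℓ 0 - ℓ 1 := by linarith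
  have e : Xt ℓ = (ℓ 0 * ℓ 1 + ℓ 0 * ℓ 2 + ℓ 1 * ℓ 2) / 3 := rfl
  have e' : Wl ℓ = ℓ 0 * ℓ 1 * ℓ 2 := rfl
  rw [e, e']
  beta_reduce
  generalize Zl ℓ = Z at *
  rw [h4]
  field_simp
  ring

/-- `Z a(y) = Z - Xt/Z` -/
theorem Kz_aFn {ℓ : Fin 3 → ℝ} (h : ∀ i, 0 ≤ ℓ i) :
    Kz 3 (aFn 3) ℓ = Zl ℓ - Xt ℓ / Zl ℓ := by
  rw [Kz_eq]
  by_cases hZ : Zl ℓ = 0
  · simp [hZ]
  · rw [aFn_y ℓ hZ]
    field_simp

/-- `Z c(y) = Z - (3/2) Xt/Z + (1/2) W/Z²` -/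
theorem Kz_cFn {ℓ : Fin 3 → ℝ} (h : ∀ i, 0 ≤ ℓ i) :
    Kz 3 cFn ℓ = Zl ℓ - (3 / 2) * (Xt ℓ / Zl ℓ) + (1 / 2) * (Wl ℓ / Zl ℓ ^ 2) := by
  rw [Kz_eq]
  by_cases hZ : Zl ℓ = 0
  · simp [hZ]
  · rw [cFn_y ℓ hZ]
    field_simp

/-- `Z a(y)² = Z - 2 Xt/Z + Xt²/Z³` -/
theorem Kz_a2 {ℓ : Fin 3 → ℝ} (h : ∀ i, 0 ≤ ℓ i) :
    Kz 3 (fun x => aFn 3 x ^ 2) ℓ = Zl ℓ - 2 * (Xt ℓ / Zl ℓ) + Xt ℓ ^ 2 / Zl ℓ ^ 3 := by
  rw [Kz_eq]
  by_cases hZ : Zl ℓ = 0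
  · simp [hZ]
  · rw [aFn_y ℓ hZ]
    field_simp
    ring

/-- `Z a(y)c(y)` -/
theorem Kz_ac {ℓ : Fin 3 → ℝ} (h : ∀ i, 0 ≤ ℓ i) :
    Kz 3 (fun x => aFn 3 x * cFn x) ℓ = Zl ℓ - (5 / 2) * (Xt ℓ / Zl ℓ) + (1 / 2) * (Wl ℓ / Zl ℓ ^ 2)
      + (3 / 2) * (Xt ℓ ^ 2 / Zl ℓ ^ 3) - (1 / 2) * (Xt ℓ * Wl ℓ / Zl ℓ ^ 4) := by
  rw [Kz_eq]
  by_cases hZ : Zl ℓ = 0
  · simp [hZ]
  · rw [aFn_y ℓ hZ, cFn_y ℓ hZ]
    field_simp
    ring

/-! ### Pointwise inequalities in `(x,y,z)` on the simplex -/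

/-- Maclaurin `e₁e₂ ≥ 9e₃` in the form used here -/
lemma maclaurin3 {x y z : ℝ} (hx : 0 ≤ x) (hy : 0 ≤ y) (hz : 0 ≤ z) :
    9 * (x * y * z) ≤ (x + y + z) * (x * y + x * z + y * z) := by
  nlinarith [mul_nonneg hx (sq_nonneg (y - z)), mul_nonneg hy (sq_nonneg (x - z)),
    mul_nonneg hz (sq_nonneg (x - y))]

private lemma schur_ord {x y z : ℝ} (hz : 0 ≤ z) (hyz : z ≤ y) (hxy : y ≤ x) :
    0 ≤ x * (x - y) * (x - z) + y * (y - x) * (y - z) + z * (z - x) * (z - y) := by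
  have h1 : 0 ≤ (x - y) * (x * (x - z) - y * (y - z)) := by
    apply mul_nonneg (by linarith)
    nlinarith [mul_nonneg (sub_nonneg.2 hxy) (sub_nonneg.2 hyz), mul_nonneg (sub_nonneg.2 hxy) hz,
      mul_nonneg (sub_nonneg.2 hxy) (sub_nonneg.2 hxy)]
  have h2 : 0 ≤ z * ((x - z) * (y - z)) :=
    mul_nonneg hz (mul_nonneg (by linarith) (by linarith))
  nlinarith

/-- Schur of degree one -/
lemma schur3 {x y z : ℝ} (hx : 0 ≤ x) (hy : 0 ≤ y) (hz : 0 ≤ z) :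
    0 ≤ x * (x - y) * (x - z) + y * (y - x) * (y - z) + z * (z - x) * (z - y) := by
  rcases le_total x y with h1 | h1 <;> rcases le_total y z with h2 | h2 <;> rcases le_total x z with h3 | h3
  · have := schur_ord hx h1 h2; nlinarith
  · have := schur_ord hx h1 h2; nlinarith
  · have := schur_ord hx h3 h2; nlinarith
  · have := schur_ord hz h3 h1; nlinarith
  · have := schur_ord hy h1 h3; nlinarith
  · have := schur_ord hy h2 h3; nlinarith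
  · have := schur_ord hz h2 h1; nlinarith
  · have := schur_ord hz h2 h1; nlinarith

lemma Simp3_coords {x : Fin 3 → ℝ} (hx : x ∈ Simp 3) :
    0 ≤ x 0 ∧ 0 ≤ x 1 ∧ 0 ≤ x 2 ∧ x 0 + x 1 + x 2 = 1 := by
  refine ⟨hx.1 0, hx.1 1, hx.1 2, ?_⟩
  have := hx.2
  rwa [Fin.sum_univ_three] at this

/-- `c ≤ a` on the simplex -/
lemma cFn_le_aFn {x : Fin 3 → ℝ} (hx : x ∈ Simp 3) : cFn x ≤ aFn 3 x := by
  obtain ⟨h0, h1, h2, hs⟩ := Simp3_coords hx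
  rw [aFn3]
  unfold cFn
  generalize x 0 = u at *
  generalize x 1 = v at *
  generalize x 2 = w at *
  have hm := maclaurin3 h0 h1 h2
  obtain rfl : w = 1 - u - v := by linarith
  nlinarith

/-- `-a/2 ≤ c` on the simplex -/
lemma neg_half_aFn_le_cFn {x : Fin 3 → ℝ} (hx : x ∈ Simp 3) : -(aFn 3 x) / 2 ≤ cFn x := by
  obtain ⟨h0, h1, h2, hs⟩ := Simp3_coords hx
  rw [aFn3]
  unfold cFn
  generalize x 0 = u at *
  generalize x 1 = v at *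
  generalize x 2 = w at *
  have hm := schur3 h0 h1 h2
  obtain rfl : w = 1 - u - v := by linarith
  nlinarith

/-- `c² ≤ a³` on the simplex (and everywhere on the plane) -/
lemma cFn_sq_le {x : Fin 3 → ℝ} (hx : x ∈ Simp 3) : cFn x ^ 2 ≤ aFn 3 x ^ 3 := by
  obtain ⟨h0, h1, h2, hs⟩ := Simp3_coords hx
  rw [aFn3]
  unfold cFn
  generalize x 0 = u at *
  generalize x 1 = v at *
  generalize x 2 = w at *
  obtain rfl : w = 1 - u - v := by linarith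
  have : 0 ≤ (27 / 4) * ((u - v) * (u - (1 - u - v)) * (v - (1 - u - v))) ^ 2 := by positivity
  nlinarith

lemma BddS_cFn : SLaw.BddS cFn := by
  refine ⟨1, fun x hx => abs_le.2 ⟨?_, ?_⟩⟩
  · have h1 := neg_half_aFn_le_cFn hx
    have h2 := aFn_le_one (q := 3) (by norm_num) hx
    linarith
  · have h1 := cFn_le_aFn hx
    have h2 := aFn_le_one (q := 3) (by norm_num) hx
    linarith

/-- `c ∘ T = lam³ c` -/
lemma cFn_Tl (lam : ℝ) (x : Fin 3 → ℝ) : cFn (Tl 3 lam x) = lam ^ 3 * cFn x := by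
  unfold cFn Tl
  norm_num
  ring

/-! ### Polynomial bounds of `Kz` -/

/-- pointwise: `Xt ≤ Z²`, `W ≤ Xt Z` -/
lemma Xt_le_Zsq {ℓ : Fin 3 → ℝ} : Xt ℓ ≤ Zl ℓ ^ 2 := by
  unfold Xt Zl
  nlinarith [sq_nonneg (ℓ 0 - ℓ 1), sq_nonneg (ℓ 0 - ℓ 2), sq_nonneg (ℓ 1 - ℓ 2)]

lemma Wl_le_Xt_Z {ℓ : Fin 3 → ℝ} (h : ∀ i, 0 ≤ ℓ i) : Wl ℓ ≤ Xt ℓ * Zl ℓ := by
  unfold Wl Xt Zl
  have := maclaurin3 (h 0) (h 1) (h 2)
  nlinarith

/-- upper bound for `s_new` : for any `Q` with `z Q(z) ≤ 1` on `z>0` -/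
theorem Kz_aFn_le (Q : ℝ → ℝ) (hQ : ∀ z, 0 < z → z * Q z ≤ 1) {ℓ : Fin 3 → ℝ} (h : ∀ i, 0 ≤ ℓ i) :
    Kz 3 (aFn 3) ℓ ≤ Zl ℓ - Xt ℓ * Q (Zl ℓ) := by
  rw [Kz_aFn h]
  by_cases hZ : Zl ℓ = 0
  · have : Xt ℓ = 0 := by
      unfold Xt; rw [zero_of_Zl h hZ 0, zero_of_Zl h hZ 1]; simp
    simp [hZ, this]
  · have hpos : 0 < Zl ℓ := lt_of_le_of_ne (Zl_nonneg h) (Ne.symm hZ)
    have h1 : Q (Zl ℓ) ≤ 1 / Zl ℓ := by
      rw [le_div_iff₀ hpos]; linarith [hQ _ hpos]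
    have h2 := mul_le_mul_of_nonneg_left h1 (Xt_nonneg h)
    have : Xt ℓ * (1 / Zl ℓ) = Xt ℓ / Zl ℓ := by ring
    linarith

/-- lower bound for `s_new`, for any `Q` with `z Q(z) ≥ 1` on `z>0` -/
theorem le_Kz_aFn (Q : ℝ → ℝ) (hQ : ∀ z, 0 < z → 1 ≤ z * Q z) {ℓ : Fin 3 → ℝ} (h : ∀ i, 0 ≤ ℓ i) :
    Zl ℓ - Xt ℓ * Q (Zl ℓ) ≤ Kz 3 (aFn 3) ℓ := by
  rw [Kz_aFn h]
  by_cases hZ : Zl ℓ = 0
  · have : Xt ℓ = 0 := by
      unfold Xt; rw [zero_of_Zl h hZ 0, zero_of_Zl h hZ 1]; simp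
    simp [hZ, this]
  · have hpos : 0 < Zl ℓ := lt_of_le_of_ne (Zl_nonneg h) (Ne.symm hZ)
    have h1 : 1 / Zl ℓ ≤ Q (Zl ℓ) := by
      rw [div_le_iff₀ hpos]; linarith [hQ _ hpos]
    have h2 := mul_le_mul_of_nonneg_left h1 (Xt_nonneg h)
    have : Xt ℓ * (1 / Zl ℓ) = Xt ℓ / Zl ℓ := by ring
    linarith

/-- upper bound for `rho_new`: `Z c(y) ≤ Z + Xt q₁(Z) + W q₂(Z)` when
`z q₁ + 3/2 ≥ 0` and `z q₁ + z² q₂ + 1 ≥ 0` on `z>0`. -/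
theorem Kz_cFn_le (q₁ q₂ : ℝ → ℝ) (h1 : ∀ z, 0 < z → 0 ≤ z * q₁ z + 3 / 2)
    (h2 : ∀ z, 0 < z → 0 ≤ z * q₁ z + z ^ 2 * q₂ z + 1) {ℓ : Fin 3 → ℝ} (h : ∀ i, 0 ≤ ℓ i) :
    Kz 3 cFn ℓ ≤ Zl ℓ + Xt ℓ * q₁ (Zl ℓ) + Wl ℓ * q₂ (Zl ℓ) := by
  rw [Kz_cFn h]
  by_cases hZ : Zl ℓ = 0
  · have e0 : Xt ℓ = 0 := by
      unfold Xt; rw [zero_of_Zl h hZ 0, zero_of_Zl h hZ 1]; simp
    have e1 : Wl ℓ = 0 := by
      unfold Wl; rw [zero_of_Zl h hZ 0]; simp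
    simp [hZ, e0, e1]
  · have hpos : 0 < Zl ℓ := lt_of_le_of_ne (Zl_nonneg h) (Ne.symm hZ)
    set Z := Zl ℓ with hZdef
    set X := Xt ℓ with hXdef
    set W := Wl ℓ with hWdef
    have hX : 0 ≤ X := Xt_nonneg h
    have hW : 0 ≤ W := Wl_nonneg h
    have hWX : W ≤ X * Z := Wl_le_Xt_Z h
    set A := Z * q₁ Z + 3 / 2 with hA
    set B := Z * q₁ Z + Z ^ 2 * q₂ Z + 1 with hB
    have hA0 : 0 ≤ A := h1 Z hpos
    have hB0 : 0 ≤ B := h2 Z hpos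
    have e : Z + X * q₁ Z + W * q₂ Z - (Z - 3 / 2 * (X / Z) + 1 / 2 * (W / Z ^ 2))
        = ((X * Z - W) * A + W * B) / Z ^ 2 := by
      rw [hA, hB]; field_simp; ring
    have : 0 ≤ ((X * Z - W) * A + W * B) / Z ^ 2 := by
      apply div_nonneg _ (by positivity)
      exact add_nonneg (mul_nonneg (by linarith) hA0) (mul_nonneg hW hB0)
    linarith

/-- lower bound for `rho_new`: `Z + Xt q₁(Z) + W q₂(Z) ≤ Z c(y)` when
`z q₁ + 3/2 ≤ 0` and `z q₁ + z² q₂ + 1 ≤ 0` on `z>0`. -/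
theorem le_Kz_cFn (q₁ q₂ : ℝ → ℝ) (h1 : ∀ z, 0 < z → z * q₁ z + 3 / 2 ≤ 0)
    (h2 : ∀ z, 0 < z → z * q₁ z + z ^ 2 * q₂ z + 1 ≤ 0) {ℓ : Fin 3 → ℝ} (h : ∀ i, 0 ≤ ℓ i) :
    Zl ℓ + Xt ℓ * q₁ (Zl ℓ) + Wl ℓ * q₂ (Zl ℓ) ≤ Kz 3 cFn ℓ := by
  rw [Kz_cFn h]
  by_cases hZ : Zl ℓ = 0
  · have e0 : Xt ℓ = 0 := by
      unfold Xt; rw [zero_of_Zl h hZ 0, zero_of_Zl h hZ 1]; simp
    have e1 : Wl ℓ = 0 := by
      unfold Wl; rw [zero_of_Zl h hZ 0]; simp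
    simp [hZ, e0, e1]
  · have hpos : 0 < Zl ℓ := lt_of_le_of_ne (Zl_nonneg h) (Ne.symm hZ)
    set Z := Zl ℓ with hZdef
    set X := Xt ℓ with hXdef
    set W := Wl ℓ with hWdef
    have hX : 0 ≤ X := Xt_nonneg h
    have hW : 0 ≤ W := Wl_nonneg h
    have hWX : W ≤ X * Z := Wl_le_Xt_Z h
    set A := Z * q₁ Z + 3 / 2 with hA
    set B := Z * q₁ Z + Z ^ 2 * q₂ Z + 1 with hB
    have hA0 : A ≤ 0 := h1 Z hpos
    have hB0 : B ≤ 0 := h2 Z hpos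
    have e : (Z - 3 / 2 * (X / Z) + 1 / 2 * (W / Z ^ 2)) - (Z + X * q₁ Z + W * q₂ Z)
        = ((X * Z - W) * (-A) + W * (-B)) / Z ^ 2 := by
      rw [hA, hB]; field_simp; ring
    have : 0 ≤ ((X * Z - W) * (-A) + W * (-B)) / Z ^ 2 := by
      apply div_nonneg _ (by positivity)
      exact add_nonneg (mul_nonneg (by linarith) (by linarith)) (mul_nonneg hW (by linarith))
    linarith

/-- upper bound for `r_new`: `Z a(y)² ≤ Z + Xt q₁(Z) + Xt² q₂(Z)` when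
`z q₁ + 2 ≥ 0` and `z q₁ + z³ q₂ + 1 ≥ 0` on `z>0`. -/
theorem Kz_a2_le (q₁ q₂ : ℝ → ℝ) (h1 : ∀ z, 0 < z → 0 ≤ z * q₁ z + 2)
    (h2 : ∀ z, 0 < z → 0 ≤ z * q₁ z + z ^ 3 * q₂ z + 1) {ℓ : Fin 3 → ℝ} (h : ∀ i, 0 ≤ ℓ i) :
    Kz 3 (fun x => aFn 3 x ^ 2) ℓ ≤ Zl ℓ + Xt ℓ * q₁ (Zl ℓ) + Xt ℓ ^ 2 * q₂ (Zl ℓ) := by
  rw [Kz_a2 h]
  by_cases hZ : Zl ℓ = 0
  · have e0 : Xt ℓ = 0 := by
      unfold Xt; rw [zero_of_Zl h hZ 0, zero_of_Zl h hZ 1]; simp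
    simp [hZ, e0]
  · have hpos : 0 < Zl ℓ := lt_of_le_of_ne (Zl_nonneg h) (Ne.symm hZ)
    have hle : Xt ℓ ≤ Zl ℓ ^ 2 := Xt_le_Zsq
    set Z := Zl ℓ with hZdef
    set X := Xt ℓ with hXdef
    have hX : 0 ≤ X := Xt_nonneg h
    set A := Z * q₁ Z + 2 with hA
    set B := Z * q₁ Z + Z ^ 3 * q₂ Z + 1 with hB
    have hA0 : 0 ≤ A := h1 Z hpos
    have hB0 : 0 ≤ B := h2 Z hpos
    have e : Z + X * q₁ Z + X ^ 2 * q₂ Z - (Z - 2 * (X / Z) + X ^ 2 / Z ^ 3)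
        = X * ((Z ^ 2 - X) * A + X * B) / Z ^ 3 := by
      rw [hA, hB]; field_simp; ring
    have : 0 ≤ X * ((Z ^ 2 - X) * A + X * B) / Z ^ 3 := by
      apply div_nonneg _ (by positivity)
      exact mul_nonneg hX (add_nonneg (mul_nonneg (by linarith) hA0) (mul_nonneg hX hB0))
    linarith

/-! ### The moment table -/

/-- a single-child moment -/
noncomputable def mono3 (e0 e1 e2 : ℕ) (x : Fin 3 → ℝ) : ℝ :=
  (3 * x 0) ^ e0 * (3 * x 1) ^ e1 * (3 * x 2) ^ e2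

lemma monoFn_eq_mono3 (e0 e1 e2 : ℕ) : monoFn 3 ![e0, e1, e2] = mono3 e0 e1 e2 := by
  funext x
  unfold monoFn mono3
  rw [Fin.prod_univ_three]
  have : ((3 : ℕ) : ℝ) = 3 := by norm_num
  rw [this]
  rfl

lemma BddS_mono3 (e0 e1 e2 : ℕ) : SLaw.BddS (mono3 e0 e1 e2) := by
  rw [← monoFn_eq_mono3]
  exact SLaw.monoFn_bdd (q := 3) (by norm_num) _

noncomputable def MM (H : SLaw 3) (e0 e1 e2 : ℕ) : ℝ := H.Φ (mono3 e0 e1 e2)
noncomputable def momS (H : SLaw 3) : ℝ := H.Φ (aFn 3)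
noncomputable def momC (H : SLaw 3) : ℝ := H.Φ cFn
noncomputable def momR (H : SLaw 3) : ℝ := H.Φ (fun x => aFn 3 x ^ 2)
noncomputable def momT (H : SLaw 3) : ℝ := H.Φ (fun x => aFn 3 x * cFn x)
noncomputable def momA3 (H : SLaw 3) : ℝ := H.Φ (fun x => aFn 3 x ^ 3)
noncomputable def momC2 (H : SLaw 3) : ℝ := H.Φ (fun x => cFn x ^ 2)
noncomputable def momA2C (H : SLaw 3) : ℝ := H.Φ (fun x => aFn 3 x ^ 2 * cFn x)

lemma MM_swap01 (H : SLaw 3) (e0 e1 e2 : ℕ) : MM H e0 e1 e2 = MM H e1 e0 e2 := by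
  have h := H.Φ_sym (by norm_num) (Equiv.swap (0 : Fin 3) 1) (BddS_mono3 e0 e1 e2)
  unfold MM
  rw [← h]
  congr 1
  funext x
  have s0 : Equiv.swap (0 : Fin 3) 1 0 = 1 := by decide
  have s1 : Equiv.swap (0 : Fin 3) 1 1 = 0 := by decide
  have s2 : Equiv.swap (0 : Fin 3) 1 2 = 2 := by decide
  simp only [mono3, Function.comp, s0, s1, s2]
  ring

lemma MM_swap12 (H : SLaw 3) (e0 e1 e2 : ℕ) : MM H e0 e1 e2 = MM H e0 e2 e1 := by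
  have h := H.Φ_sym (by norm_num) (Equiv.swap (1 : Fin 3) 2) (BddS_mono3 e0 e1 e2)
  unfold MM
  rw [← h]
  congr 1
  funext x
  have s0 : Equiv.swap (1 : Fin 3) 2 0 = 0 := by decide
  have s1 : Equiv.swap (1 : Fin 3) 2 1 = 2 := by decide
  have s2 : Equiv.swap (1 : Fin 3) 2 2 = 1 := by decide
  simp only [mono3, Function.comp, s0, s1, s2]
  ring

/-- exponent sorting -/
lemma MM_sort01 (H : SLaw 3) {e0 e1 : ℕ} (e2 : ℕ) (_h : e0 < e1) : MM H e0 e1 e2 = MM H e1 e0 e2 :=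
  MM_swap01 H e0 e1 e2

lemma MM_sort12 (H : SLaw 3) (e0 : ℕ) {e1 e2 : ℕ} (_h : e1 < e2) : MM H e0 e1 e2 = MM H e0 e2 e1 :=
  MM_swap12 H e0 e1 e2

lemma BddS_aFn3 : SLaw.BddS (aFn 3) := BddS_aFn (q := 3) (by norm_num)

/-- The linear form on the moments. -/
theorem Φ_lin (H : SLaw 3) (k0 k1 k2 k3 k4 k5 k6 k7 : ℝ) :
    H.Φ (fun x => k0 + k1 * aFn 3 x + k2 * cFn x + k3 * aFn 3 x ^ 2 + k4 * (aFn 3 x * cFn x)
        + k5 * aFn 3 x ^ 3 + k6 * cFn x ^ 2 + k7 * (aFn 3 x ^ 2 * cFn x))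
      = k0 + k1 * momS H + k2 * momC H + k3 * momR H + k4 * momT H + k5 * momA3 H + k6 * momC2 H
        + k7 * momA2C H := by
  have h3 : 0 < 3 := by norm_num
  have ha := BddS_aFn3
  have hc := BddS_cFn
  have b1 := SLaw.BddS.const_mul k1 ha
  have b2 := SLaw.BddS.const_mul k2 hc
  have b3 := SLaw.BddS.const_mul k3 (SLaw.BddS.pow ha 2)
  have b4 := SLaw.BddS.const_mul k4 (SLaw.BddS.mul ha hc)
  have b5 := SLaw.BddS.const_mul k5 (SLaw.BddS.pow ha 3)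
  have b6 := SLaw.BddS.const_mul k6 (SLaw.BddS.pow hc 2)
  have b7 := SLaw.BddS.const_mul k7 (SLaw.BddS.mul (SLaw.BddS.pow ha 2) hc)
  have s1 := SLaw.BddS.add (SLaw.BddS.const k0) b1
  have s2 := SLaw.BddS.add s1 b2
  have s3 := SLaw.BddS.add s2 b3
  have s4 := SLaw.BddS.add s3 b4
  have s5 := SLaw.BddS.add s4 b5
  have s6 := SLaw.BddS.add s5 b6
  rw [H.Φ_add h3 s6 b7, H.Φ_add h3 s5 b6, H.Φ_add h3 s4 b5, H.Φ_add h3 s3 b4, H.Φ_add h3 s2 b3,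
    H.Φ_add h3 s1 b2, H.Φ_add h3 (SLaw.BddS.const k0) b1, H.Φ_const h3,
    H.Φ_const_mul h3 _ ha, H.Φ_const_mul h3 _ hc, H.Φ_const_mul h3 _ (SLaw.BddS.pow ha 2),
    H.Φ_const_mul h3 _ (SLaw.BddS.mul ha hc), H.Φ_const_mul h3 _ (SLaw.BddS.pow ha 3),
    H.Φ_const_mul h3 _ (SLaw.BddS.pow hc 2), H.Φ_const_mul h3 _ (SLaw.BddS.mul (SLaw.BddS.pow ha 2) hc)]
  rfl

/-- Reading a moment off a pointwise polynomial identity after symmetrisation. -/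
theorem MM_of_identity (H : SLaw 3) (e0 e1 e2 : ℕ) (k0 k1 k2 k3 k4 k5 k6 k7 : ℝ)
    (hid : ∀ x y z : ℝ, x + y + z = 1 →
      (3 * x) ^ e0 * (3 * y) ^ e1 * (3 * z) ^ e2 + (3 * x) ^ e0 * (3 * y) ^ e2 * (3 * z) ^ e1
        + (3 * x) ^ e1 * (3 * y) ^ e0 * (3 * z) ^ e2 + (3 * x) ^ e1 * (3 * y) ^ e2 * (3 * z) ^ e0
        + (3 * x) ^ e2 * (3 * y) ^ e0 * (3 * z) ^ e1 + (3 * x) ^ e2 * (3 * y) ^ e1 * (3 * z) ^ e0
      = 6 * (k0 + k1 * ((3 * (x ^ 2 + y ^ 2 + z ^ 2) - 1) / 2)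
          + k2 * (((3 * x - 1) ^ 3 + (3 * y - 1) ^ 3 + (3 * z - 1) ^ 3) / 6)
          + k3 * ((3 * (x ^ 2 + y ^ 2 + z ^ 2) - 1) / 2) ^ 2
          + k4 * (((3 * (x ^ 2 + y ^ 2 + z ^ 2) - 1) / 2) * (((3 * x - 1) ^ 3 + (3 * y - 1) ^ 3 + (3 * z - 1) ^ 3) / 6))
          + k5 * ((3 * (x ^ 2 + y ^ 2 + z ^ 2) - 1) / 2) ^ 3
          + k6 * (((3 * x - 1) ^ 3 + (3 * y - 1) ^ 3 + (3 * z - 1) ^ 3) / 6) ^ 2
          + k7 * (((3 * (x ^ 2 + y ^ 2 + z ^ 2) - 1) / 2) ^ 2 * (((3 * x - 1) ^ 3 + (3 * y - 1) ^ 3 + (3 * z - 1) ^ 3) / 6)))) :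
    MM H e0 e1 e2 = k0 + k1 * momS H + k2 * momC H + k3 * momR H + k4 * momT H + k5 * momA3 H
      + k6 * momC2 H + k7 * momA2C H := by
  have h3 : 0 < 3 := by norm_num
  rw [← Φ_lin]
  have e1' : MM H e0 e2 e1 = MM H e0 e1 e2 := (MM_swap12 H e0 e1 e2).symm
  have e2' : MM H e1 e0 e2 = MM H e0 e1 e2 := (MM_swap01 H e0 e1 e2).symm
  have e3' : MM H e1 e2 e0 = MM H e0 e1 e2 := by
    rw [MM_swap12 H e1 e2 e0, MM_swap01 H e1 e0 e2]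
  have e4' : MM H e2 e0 e1 = MM H e0 e1 e2 := by
    rw [MM_swap01 H e2 e0 e1, MM_swap12 H e0 e2 e1]
  have e5' : MM H e2 e1 e0 = MM H e0 e1 e2 := by
    rw [MM_swap01 H e2 e1 e0, MM_swap12 H e1 e2 e0, MM_swap01 H e1 e0 e2]
  have hb := fun a b c => BddS_mono3 a b c
  have hsum : H.Φ (fun x => mono3 e0 e1 e2 x + mono3 e0 e2 e1 x + mono3 e1 e0 e2 x + mono3 e1 e2 e0 x
      + mono3 e2 e0 e1 x + mono3 e2 e1 e0 x) = 6 * MM H e0 e1 e2 := by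
    have s1 := SLaw.BddS.add (hb e0 e1 e2) (hb e0 e2 e1)
    have s2 := SLaw.BddS.add s1 (hb e1 e0 e2)
    have s3 := SLaw.BddS.add s2 (hb e1 e2 e0)
    have s4 := SLaw.BddS.add s3 (hb e2 e0 e1)
    rw [H.Φ_add h3 s4 (hb e2 e1 e0), H.Φ_add h3 s3 (hb e2 e0 e1), H.Φ_add h3 s2 (hb e1 e2 e0),
      H.Φ_add h3 s1 (hb e1 e0 e2), H.Φ_add h3 (hb e0 e1 e2) (hb e0 e2 e1)]
    show MM H e0 e1 e2 + MM H e0 e2 e1 + MM H e1 e0 e2 + MM H e1 e2 e0 + MM H e2 e0 e1 + MM H e2 e1 e0 = _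
    rw [e1', e2', e3', e4', e5']
    ring
  have hP : SLaw.BddS (fun x => k0 + k1 * aFn 3 x + k2 * cFn x + k3 * aFn 3 x ^ 2 + k4 * (aFn 3 x * cFn x)
        + k5 * aFn 3 x ^ 3 + k6 * cFn x ^ 2 + k7 * (aFn 3 x ^ 2 * cFn x)) := by
    have ha := BddS_aFn3
    have hc := BddS_cFn
    exact SLaw.BddS.add (SLaw.BddS.add (SLaw.BddS.add (SLaw.BddS.add (SLaw.BddS.add (SLaw.BddS.add
      (SLaw.BddS.add (SLaw.BddS.const k0) (SLaw.BddS.const_mul k1 ha)) (SLaw.BddS.const_mul k2 hc))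
      (SLaw.BddS.const_mul k3 (SLaw.BddS.pow ha 2))) (SLaw.BddS.const_mul k4 (SLaw.BddS.mul ha hc)))
      (SLaw.BddS.const_mul k5 (SLaw.BddS.pow ha 3))) (SLaw.BddS.const_mul k6 (SLaw.BddS.pow hc 2)))
      (SLaw.BddS.const_mul k7 (SLaw.BddS.mul (SLaw.BddS.pow ha 2) hc))
  have hpt : ∀ x ∈ Simp 3, mono3 e0 e1 e2 x + mono3 e0 e2 e1 x + mono3 e1 e0 e2 x + mono3 e1 e2 e0 x
      + mono3 e2 e0 e1 x + mono3 e2 e1 e0 x = 6 * (k0 + k1 * aFn 3 x + k2 * cFn x + k3 * aFn 3 x ^ 2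
        + k4 * (aFn 3 x * cFn x) + k5 * aFn 3 x ^ 3 + k6 * cFn x ^ 2 + k7 * (aFn 3 x ^ 2 * cFn x)) := by
    intro x hx
    obtain ⟨_, _, _, hs⟩ := Simp3_coords hx
    have := hid (x 0) (x 1) (x 2) hs
    rw [aFn3]
    unfold cFn mono3
    exact this
  have hmid : H.Φ (fun x => mono3 e0 e1 e2 x + mono3 e0 e2 e1 x + mono3 e1 e0 e2 x + mono3 e1 e2 e0 x
      + mono3 e2 e0 e1 x + mono3 e2 e1 e0 x) = 6 * H.Φ (fun x => k0 + k1 * aFn 3 x + k2 * cFn x + k3 * aFn 3 x ^ 2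
        + k4 * (aFn 3 x * cFn x) + k5 * aFn 3 x ^ 3 + k6 * cFn x ^ 2 + k7 * (aFn 3 x ^ 2 * cFn x)) := by
    rw [← H.Φ_const_mul h3 _ hP]
    unfold SLaw.Φ
    refine tsum_congr fun o => ?_
    congr 1
    exact hpt _ (H.post_mem h3 o)
  rw [hsum] at hmid
  linarith

theorem MM_100 (H : SLaw 3) : MM H 1 0 0 =
    (1) + (0) * momS H + (0) * momC H + (0) * momR H + (0) * momT H + (0) * momA3 H + (0) * momC2 H + (0) * momA2C H :=
  MM_of_identity H 1 0 0 _ _ _ _ _ _ _ _ (fun x y z h => by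
    obtain rfl : z = 1 - x - y := by linarith
    ring)

theorem MM_200 (H : SLaw 3) : MM H 2 0 0 =
    (1) + (2) * momS H + (0) * momC H + (0) * momR H + (0) * momT H + (0) * momA3 H + (0) * momC2 H + (0) * momA2C H :=
  MM_of_identity H 2 0 0 _ _ _ _ _ _ _ _ (fun x y z h => by
    obtain rfl : z = 1 - x - y := by linarith
    ring)

theorem MM_110 (H : SLaw 3) : MM H 1 1 0 =
    (1) + (-1) * momS H + (0) * momC H + (0) * momR H + (0) * momT H + (0) * momA3 H + (0) * momC2 H + (0) * momA2C H :=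
  MM_of_identity H 1 1 0 _ _ _ _ _ _ _ _ (fun x y z h => by
    obtain rfl : z = 1 - x - y := by linarith
    ring)

theorem MM_300 (H : SLaw 3) : MM H 3 0 0 =
    (1) + (6) * momS H + (2) * momC H + (0) * momR H + (0) * momT H + (0) * momA3 H + (0) * momC2 H + (0) * momA2C H :=
  MM_of_identity H 3 0 0 _ _ _ _ _ _ _ _ (fun x y z h => by
    obtain rfl : z = 1 - x - y := by linarith
    ring)

theorem MM_210 (H : SLaw 3) : MM H 2 1 0 =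
    (1) + (0) * momS H + (-1) * momC H + (0) * momR H + (0) * momT H + (0) * momA3 H + (0) * momC2 H + (0) * momA2C H :=
  MM_of_identity H 2 1 0 _ _ _ _ _ _ _ _ (fun x y z h => by
    obtain rfl : z = 1 - x - y := by linarith
    ring)

theorem MM_111 (H : SLaw 3) : MM H 1 1 1 =
    (1) + (-3) * momS H + (2) * momC H + (0) * momR H + (0) * momT H + (0) * momA3 H + (0) * momC2 H + (0) * momA2C H :=
  MM_of_identity H 1 1 1 _ _ _ _ _ _ _ _ (fun x y z h => by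
    obtain rfl : z = 1 - x - y := by linarith
    ring)

theorem MM_400 (H : SLaw 3) : MM H 4 0 0 =
    (1) + (12) * momS H + (8) * momC H + (6) * momR H + (0) * momT H + (0) * momA3 H + (0) * momC2 H + (0) * momA2C H :=
  MM_of_identity H 4 0 0 _ _ _ _ _ _ _ _ (fun x y z h => by
    obtain rfl : z = 1 - x - y := by linarith
    ring)

theorem MM_310 (H : SLaw 3) : MM H 3 1 0 =
    (1) + (3) * momS H + (-1) * momC H + (-3) * momR H + (0) * momT H + (0) * momA3 H + (0) * momC2 H + (0) * momA2C H :=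
  MM_of_identity H 3 1 0 _ _ _ _ _ _ _ _ (fun x y z h => by
    obtain rfl : z = 1 - x - y := by linarith
    ring)

theorem MM_220 (H : SLaw 3) : MM H 2 2 0 =
    (1) + (0) * momS H + (-4) * momC H + (3) * momR H + (0) * momT H + (0) * momA3 H + (0) * momC2 H + (0) * momA2C H :=
  MM_of_identity H 2 2 0 _ _ _ _ _ _ _ _ (fun x y z h => by
    obtain rfl : z = 1 - x - y := by linarith
    ring)

theorem MM_211 (H : SLaw 3) : MM H 2 1 1 =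
    (1) + (-3) * momS H + (2) * momC H + (0) * momR H + (0) * momT H + (0) * momA3 H + (0) * momC2 H + (0) * momA2C H :=
  MM_of_identity H 2 1 1 _ _ _ _ _ _ _ _ (fun x y z h => by
    obtain rfl : z = 1 - x - y := by linarith
    ring)

theorem MM_500 (H : SLaw 3) : MM H 5 0 0 =
    (1) + (20) * momS H + (20) * momC H + (30) * momR H + (10) * momT H + (0) * momA3 H + (0) * momC2 H + (0) * momA2C H :=
  MM_of_identity H 5 0 0 _ _ _ _ _ _ _ _ (fun x y z h => by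
    obtain rfl : z = 1 - x - y := by linarith
    ring)

theorem MM_410 (H : SLaw 3) : MM H 4 1 0 =
    (1) + (8) * momS H + (2) * momC H + (-6) * momR H + (-5) * momT H + (0) * momA3 H + (0) * momC2 H + (0) * momA2C H :=
  MM_of_identity H 4 1 0 _ _ _ _ _ _ _ _ (fun x y z h => by
    obtain rfl : z = 1 - x - y := by linarith
    ring)

theorem MM_320 (H : SLaw 3) : MM H 3 2 0 =
    (1) + (2) * momS H + (-7) * momC H + (3) * momR H + (1) * momT H + (0) * momA3 H + (0) * momC2 H + (0) * momA2C H :=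
  MM_of_identity H 3 2 0 _ _ _ _ _ _ _ _ (fun x y z h => by
    obtain rfl : z = 1 - x - y := by linarith
    ring)

theorem MM_311 (H : SLaw 3) : MM H 3 1 1 =
    (1) + (-1) * momS H + (2) * momC H + (-6) * momR H + (4) * momT H + (0) * momA3 H + (0) * momC2 H + (0) * momA2C H :=
  MM_of_identity H 3 1 1 _ _ _ _ _ _ _ _ (fun x y z h => by
    obtain rfl : z = 1 - x - y := by linarith
    ring)

theorem MM_221 (H : SLaw 3) : MM H 2 2 1 =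
    (1) + (-4) * momS H + (2) * momC H + (3) * momR H + (-2) * momT H + (0) * momA3 H + (0) * momC2 H + (0) * momA2C H :=
  MM_of_identity H 2 2 1 _ _ _ _ _ _ _ _ (fun x y z h => by
    obtain rfl : z = 1 - x - y := by linarith
    ring)

theorem MM_600 (H : SLaw 3) : MM H 6 0 0 =
    (1) + (30) * momS H + (40) * momC H + (90) * momR H + (60) * momT H + (18) * momA3 H + (4) * momC2 H + (0) * momA2C H :=
  MM_of_identity H 6 0 0 _ _ _ _ _ _ _ _ (fun x y z h => by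
    obtain rfl : z = 1 - x - y := by linarith
    ring)

theorem MM_510 (H : SLaw 3) : MM H 5 1 0 =
    (1) + (15) * momS H + (10) * momC H + (0) * momR H + (-15) * momT H + (-9) * momA3 H + (-2) * momC2 H + (0) * momA2C H :=
  MM_of_identity H 5 1 0 _ _ _ _ _ _ _ _ (fun x y z h => by
    obtain rfl : z = 1 - x - y := by linarith
    ring)

theorem MM_420 (H : SLaw 3) : MM H 4 2 0 =
    (1) + (6) * momS H + (-8) * momC H + (0) * momR H + (-6) * momT H + (9) * momA3 H + (-2) * momC2 H + (0) * momA2C H :=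
  MM_of_identity H 4 2 0 _ _ _ _ _ _ _ _ (fun x y z h => by
    obtain rfl : z = 1 - x - y := by linarith
    ring)

theorem MM_411 (H : SLaw 3) : MM H 4 1 1 =
    (1) + (3) * momS H + (4) * momC H + (-18) * momR H + (6) * momT H + (0) * momA3 H + (4) * momC2 H + (0) * momA2C H :=
  MM_of_identity H 4 1 1 _ _ _ _ _ _ _ _ (fun x y z h => by
    obtain rfl : z = 1 - x - y := by linarith
    ring)

theorem MM_330 (H : SLaw 3) : MM H 3 3 0 =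
    (1) + (3) * momS H + (-14) * momC H + (9) * momR H + (6) * momT H + (-9) * momA3 H + (4) * momC2 H + (0) * momA2C H :=
  MM_of_identity H 3 3 0 _ _ _ _ _ _ _ _ (fun x y z h => by
    obtain rfl : z = 1 - x - y := by linarith
    ring)

theorem MM_321 (H : SLaw 3) : MM H 3 2 1 =
    (1) + (-3) * momS H + (1) * momC H + (0) * momR H + (3) * momT H + (0) * momA3 H + (-2) * momC2 H + (0) * momA2C H :=
  MM_of_identity H 3 2 1 _ _ _ _ _ _ _ _ (fun x y z h => by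
    obtain rfl : z = 1 - x - y := by linarith
    ring)

theorem MM_222 (H : SLaw 3) : MM H 2 2 2 =
    (1) + (-6) * momS H + (4) * momC H + (9) * momR H + (-12) * momT H + (0) * momA3 H + (4) * momC2 H + (0) * momA2C H :=
  MM_of_identity H 2 2 2 _ _ _ _ _ _ _ _ (fun x y z h => by
    obtain rfl : z = 1 - x - y := by linarith
    ring)

theorem MM_700 (H : SLaw 3) : MM H 7 0 0 =
    (1) + (42) * momS H + (70) * momC H + (210) * momR H + (210) * momT H + (126) * momA3 H + (28) * momC2 H + (42) * momA2C H :=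
  MM_of_identity H 7 0 0 _ _ _ _ _ _ _ _ (fun x y z h => by
    obtain rfl : z = 1 - x - y := by linarith
    ring)

theorem MM_610 (H : SLaw 3) : MM H 6 1 0 =
    (1) + (24) * momS H + (25) * momC H + (30) * momR H + (-15) * momT H + (-36) * momA3 H + (-8) * momC2 H + (-21) * momA2C H :=
  MM_of_identity H 6 1 0 _ _ _ _ _ _ _ _ (fun x y z h => by
    obtain rfl : z = 1 - x - y := by linarith
    ring)

theorem MM_520 (H : SLaw 3) : MM H 5 2 0 =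
    (1) + (12) * momS H + (-5) * momC H + (0) * momR H + (-30) * momT H + (27) * momA3 H + (-14) * momC2 H + (9) * momA2C H :=
  MM_of_identity H 5 2 0 _ _ _ _ _ _ _ _ (fun x y z h => by
    obtain rfl : z = 1 - x - y := by linarith
    ring)

theorem MM_511 (H : SLaw 3) : MM H 5 1 1 =
    (1) + (9) * momS H + (10) * momC H + (-30) * momR H + (0) * momT H + (-18) * momA3 H + (16) * momC2 H + (12) * momA2C H :=
  MM_of_identity H 5 1 1 _ _ _ _ _ _ _ _ (fun x y z h => by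
    obtain rfl : z = 1 - x - y := by linarith
    ring)

theorem MM_430 (H : SLaw 3) : MM H 4 3 0 =
    (1) + (6) * momS H + (-20) * momC H + (12) * momR H + (3) * momT H + (-9) * momA3 H + (10) * momC2 H + (-3) * momA2C H :=
  MM_of_identity H 4 3 0 _ _ _ _ _ _ _ _ (fun x y z h => by
    obtain rfl : z = 1 - x - y := by linarith
    ring)

theorem MM_421 (H : SLaw 3) : MM H 4 2 1 =
    (1) + (0) * momS H + (1) * momC H + (-12) * momR H + (9) * momT H + (9) * momA3 H + (-2) * momC2 H + (-6) * momA2C H :=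
  MM_of_identity H 4 2 1 _ _ _ _ _ _ _ _ (fun x y z h => by
    obtain rfl : z = 1 - x - y := by linarith
    ring)

theorem MM_331 (H : SLaw 3) : MM H 3 3 1 =
    (1) + (-3) * momS H + (-2) * momC H + (3) * momR H + (12) * momT H + (-9) * momA3 H + (-8) * momC2 H + (6) * momA2C H :=
  MM_of_identity H 3 3 1 _ _ _ _ _ _ _ _ (fun x y z h => by
    obtain rfl : z = 1 - x - y := by linarith
    ring)

theorem MM_322 (H : SLaw 3) : MM H 3 2 2 =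
    (1) + (-6) * momS H + (4) * momC H + (9) * momR H + (-12) * momT H + (0) * momA3 H + (4) * momC2 H + (0) * momA2C H :=
  MM_of_identity H 3 2 2 _ _ _ _ _ _ _ _ (fun x y z h => by
    obtain rfl : z = 1 - x - y := by linarith
    ring)


/-! ### Tilts of the moments -/

section Tilt
variable (M : SLaw 3) (lam : ℝ) (hch : ∀ i j : Fin 3, 0 ≤ channel 3 lam i j)

private lemma tilt_aux {f : (Fin 3 → ℝ) → ℝ} (hf : SLaw.BddS f) (k : ℝ)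
    (h : ∀ x ∈ Simp 3, f (Tl 3 lam x) = k * f x) : (M.tilt lam hch).Φ f = k * M.Φ f := by
  have h3 : 0 < 3 := by norm_num
  rw [M.Φ_tilt h3 lam hch hf (fun x hx => SLaw.Tl_mem h3 lam hch hx), ← M.Φ_const_mul h3 _ hf]
  unfold SLaw.Φ
  refine tsum_congr fun o => ?_
  show M.mass o * f (Tl 3 lam (M.post o)) = M.mass o * (k * f (M.post o))
  rw [h _ (M.post_mem h3 o)]

lemma aFn3_Tl {x : Fin 3 → ℝ} (hx : x ∈ Simp 3) : aFn 3 (Tl 3 lam x) = lam ^ 2 * aFn 3 x :=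
  aFn_Tl (q := 3) (by norm_num) lam hx

lemma momS_tilt : momS (M.tilt lam hch) = lam ^ 2 * momS M :=
  tilt_aux M lam hch BddS_aFn3 _ (fun _ hx => aFn3_Tl lam hx)

lemma momC_tilt : momC (M.tilt lam hch) = lam ^ 3 * momC M :=
  tilt_aux M lam hch BddS_cFn _ (fun x _ => cFn_Tl lam x)

lemma momR_tilt : momR (M.tilt lam hch) = lam ^ 4 * momR M :=
  tilt_aux M lam hch (SLaw.BddS.pow BddS_aFn3 2) _ (fun x hx => by rw [aFn3_Tl lam hx]; ring)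

lemma momT_tilt : momT (M.tilt lam hch) = lam ^ 5 * momT M :=
  tilt_aux M lam hch (SLaw.BddS.mul BddS_aFn3 BddS_cFn) _ (fun x hx => by
    rw [aFn3_Tl lam hx, cFn_Tl]; ring)

lemma momA3_tilt : momA3 (M.tilt lam hch) = lam ^ 6 * momA3 M :=
  tilt_aux M lam hch (SLaw.BddS.pow BddS_aFn3 3) _ (fun x hx => by rw [aFn3_Tl lam hx]; ring)

lemma momC2_tilt : momC2 (M.tilt lam hch) = lam ^ 6 * momC2 M :=
  tilt_aux M lam hch (SLaw.BddS.pow BddS_cFn 2) _ (fun x _ => by rw [cFn_Tl]; ring)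

lemma momA2C_tilt : momA2C (M.tilt lam hch) = lam ^ 7 * momA2C M :=
  tilt_aux M lam hch (SLaw.BddS.mul (SLaw.BddS.pow BddS_aFn3 2) BddS_cFn) _ (fun x hx => by
    rw [aFn3_Tl lam hx, cFn_Tl]; ring)

end Tilt

/-! ### Trivial bounds on the moments -/

section Trivial
variable (H : SLaw 3)

private lemma Φ_le_of {f g : (Fin 3 → ℝ) → ℝ} (hf : SLaw.BddS f) (hg : SLaw.BddS g)
    (h : ∀ x ∈ Simp 3, f x ≤ g x) : H.Φ f ≤ H.Φ g := H.Φ_mono (by norm_num) hf hg h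

lemma aFn3_nonneg {x : Fin 3 → ℝ} (hx : x ∈ Simp 3) : 0 ≤ aFn 3 x := aFn_nonneg (q := 3) (by norm_num) hx
lemma aFn3_le_one {x : Fin 3 → ℝ} (hx : x ∈ Simp 3) : aFn 3 x ≤ 1 := aFn_le_one (q := 3) (by norm_num) hx

private lemma bA2 : SLaw.BddS (fun x => aFn 3 x ^ 2) := SLaw.BddS.pow BddS_aFn3 2
private lemma bA3 : SLaw.BddS (fun x => aFn 3 x ^ 3) := SLaw.BddS.pow BddS_aFn3 3
private lemma bAC : SLaw.BddS (fun x => aFn 3 x * cFn x) := SLaw.BddS.mul BddS_aFn3 BddS_cFn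
private lemma bC2 : SLaw.BddS (fun x => cFn x ^ 2) := SLaw.BddS.pow BddS_cFn 2
private lemma bA2C : SLaw.BddS (fun x => aFn 3 x ^ 2 * cFn x) := SLaw.BddS.mul bA2 BddS_cFn

lemma momS_nonneg : 0 ≤ momS H := H.Φ_aFn_nonneg (by norm_num)
lemma momS_le_one : momS H ≤ 1 := H.Φ_aFn_le_one (by norm_num)
lemma momC_le_momS : momC H ≤ momS H := Φ_le_of H BddS_cFn BddS_aFn3 (fun _ hx => cFn_le_aFn hx)
lemma neg_half_momS_le_momC : -(momS H) / 2 ≤ momC H := by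
  have h3 : 0 < 3 := by norm_num
  have := Φ_le_of H (SLaw.BddS.const_mul (-(1 / 2)) BddS_aFn3) BddS_cFn (fun x hx => by
    have := neg_half_aFn_le_cFn hx
    show -(1 / 2) * aFn 3 x ≤ cFn x
    linarith)
  rw [H.Φ_const_mul h3 _ BddS_aFn3] at this
  unfold momS momC
  linarith
lemma momR_le_momS : momR H ≤ momS H := Φ_le_of H bA2 BddS_aFn3 (fun x hx => by
  have h0 := aFn3_nonneg hx; have h1 := aFn3_le_one hx; show aFn 3 x ^ 2 ≤ aFn 3 x; nlinarith)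
lemma sq_momS_le_momR : momS H ^ 2 ≤ momR H := H.sq_Φ_le (by norm_num) BddS_aFn3
lemma momT_le_momR : momT H ≤ momR H := Φ_le_of H bAC bA2 (fun x hx => by
  have h0 := aFn3_nonneg hx; have h1 := cFn_le_aFn hx; show aFn 3 x * cFn x ≤ aFn 3 x ^ 2; nlinarith)
lemma neg_half_momR_le_momT : -(momR H) / 2 ≤ momT H := by
  have h3 : 0 < 3 := by norm_num
  have := Φ_le_of H (SLaw.BddS.const_mul (-(1 / 2)) bA2) bAC (fun x hx => by
    have h0 := aFn3_nonneg hx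
    have h1 := neg_half_aFn_le_cFn hx
    show -(1 / 2) * aFn 3 x ^ 2 ≤ aFn 3 x * cFn x
    nlinarith)
  rw [H.Φ_const_mul h3 _ bA2] at this
  unfold momR momT
  linarith
lemma momA3_nonneg : 0 ≤ momA3 H := by
  have h3 : 0 < 3 := by norm_num
  have := Φ_le_of H (SLaw.BddS.const 0) bA3 (fun x hx => pow_nonneg (aFn3_nonneg hx) 3)
  rwa [H.Φ_const h3] at this
lemma momA3_le_momR : momA3 H ≤ momR H := Φ_le_of H bA3 bA2 (fun x hx => by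
  have h0 := aFn3_nonneg hx; have h1 := aFn3_le_one hx
  show aFn 3 x ^ 3 ≤ aFn 3 x ^ 2
  nlinarith [sq_nonneg (aFn 3 x)])
lemma momC2_nonneg : 0 ≤ momC2 H := by
  have h3 : 0 < 3 := by norm_num
  have := Φ_le_of H (SLaw.BddS.const 0) bC2 (fun x _ => sq_nonneg (cFn x))
  rwa [H.Φ_const h3] at this
lemma momC2_le_momA3 : momC2 H ≤ momA3 H := Φ_le_of H bC2 bA3 (fun _ hx => cFn_sq_le hx)
lemma momA2C_le_momA3 : momA2C H ≤ momA3 H := Φ_le_of H bA2C bA3 (fun x hx => by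
  have h0 := aFn3_nonneg hx; have h1 := cFn_le_aFn hx
  show aFn 3 x ^ 2 * cFn x ≤ aFn 3 x ^ 3
  nlinarith [sq_nonneg (aFn 3 x), mul_nonneg (sq_nonneg (aFn 3 x)) (sub_nonneg.2 h1)])
lemma neg_half_momA3_le_momA2C : -(momA3 H) / 2 ≤ momA2C H := by
  have h3 : 0 < 3 := by norm_num
  have := Φ_le_of H (SLaw.BddS.const_mul (-(1 / 2)) bA3) bA2C (fun x hx => by
    have h0 := aFn3_nonneg hx
    have h1 := neg_half_aFn_le_cFn hx
    show -(1 / 2) * aFn 3 x ^ 3 ≤ aFn 3 x ^ 2 * cFn x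
    nlinarith [mul_nonneg (sq_nonneg (aFn 3 x)) (by linarith : 0 ≤ cFn x + aFn 3 x / 2)])
  rw [H.Φ_const_mul h3 _ bA3] at this
  unfold momA3 momA2C
  linarith

end Trivial

/-! ### Closed forms for powers, in the form used by the checker -/

/-- `E_hats[ℓ^e] = M_e^c`. -/
theorem hasSum_hm_ell (H : SLaw 3) (c e0 e1 e2 : ℕ) :
    HasSum (fun o => SLaw.hm H c o * (SLaw.ell H c o 0 ^ e0 * SLaw.ell H c o 1 ^ e1 * SLaw.ell H c o 2 ^ e2))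
      (MM H e0 e1 e2 ^ c) := by
  have h := SLaw.hasSum_hm_gp H (q := 3) (by norm_num) (BddS_mono3 e0 e1 e2) c
  rw [← monoFn_eq_mono3] at h
  simp only [SLaw.gp_monoFn, Fin.prod_univ_three] at h
  simpa [MM, monoFn_eq_mono3] using h

/-- the expectation functional of the i.i.d. hats, on a bounded integrand -/
noncomputable def hatE (H : SLaw 3) (c : ℕ) (g : (Fin 3 → ℝ) → ℝ) : ℝ :=
  ∑' o, SLaw.hm H c o * g (SLaw.ell H c o)

/-- `Φ` of a power as an hat expectation -/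
theorem Φ_pow_eq_hatE (H : SLaw 3) (f : (Fin 3 → ℝ) → ℝ) (c : ℕ) :
    (H.pow c).Φ f = hatE H c (Kz 3 f) := SLaw.Φ_pow_eq H (by norm_num) f c

/-! ### Poisson number of children -/

/-- The Poisson mixture of closed-form moment bounds. -/
theorem hasSum_pois_pow (d M : ℝ) :
    HasSum (fun c : ℕ => (Real.exp (-d) * d ^ c / Nat.factorial c) * M ^ c) (Real.exp (d * (M - 1))) := by
  have h := NormedSpace.expSeries_div_hasSum_exp (𝔸 := ℝ) (d * M)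
  have h2 := h.mul_left (Real.exp (-d))
  have e : Real.exp (-d) * NormedSpace.exp (d * M) = Real.exp (d * (M - 1)) := by
    rw [← Real.exp_eq_exp_ℝ, ← Real.exp_add]
    congr 1
    ring
  rw [e] at h2
  have e2 : (fun c : ℕ => (Real.exp (-d) * d ^ c / Nat.factorial c) * M ^ c)
      = fun i : ℕ => Real.exp (-d) * ((d * M) ^ i / Nat.factorial i) := by
    funext c
    rw [mul_pow]
    ring
  rw [e2]
  exact h2

/-- A bound for each number of children gives a bound for the Poisson mixture. -/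
theorem gw_Φ_le_of_term (lam d : ℝ) (ℓ : ℕ) (hd : 0 ≤ d)
    (hch : ∀ i j : Fin 3, 0 ≤ channel 3 lam i j) {f : (Fin 3 → ℝ) → ℝ} (hf : SLaw.BddS f)
    {B : ℕ → ℝ} {T : ℝ} (hB : HasSum (fun c : ℕ => (Real.exp (-d) * d ^ c / Nat.factorial c) * B c) T)
    (h : ∀ c, (((gwSL 3 lam d ℓ hd (by norm_num) hch).tilt lam hch).pow c).Φ f ≤ B c) :
    (gwSL 3 lam d (ℓ + 1) hd (by norm_num) hch).Φ f ≤ T := by
  have h3 : 0 < 3 := by norm_num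
  rw [gwSL_succ lam d ℓ hd h3 hch hf]
  set H := (gwSL 3 lam d ℓ hd h3 hch).tilt lam hch with hH
  obtain ⟨C, hC⟩ := hf
  have hf' : SLaw.BddS f := ⟨C, hC⟩
  have hbd : ∀ c, |(H.pow c).Φ f| ≤ C := fun c => by
    have h1 := (H.pow c).Φ_mono h3 hf' (SLaw.BddS.const C) (fun x hx => (le_abs_self _).trans (hC x hx))
    have h2 := (H.pow c).Φ_mono h3 (SLaw.BddS.const (-C)) hf' (fun x hx => by
      have := (abs_le.1 (hC x hx)).1
      exact this)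
    rw [(H.pow c).Φ_const h3] at h1 h2
    exact abs_le.2 ⟨h2, h1⟩
  have hs : Summable (fun c : ℕ => (Real.exp (-d) * d ^ c / Nat.factorial c) * (H.pow c).Φ f) := by
    refine Summable.of_norm_bounded (g := fun c : ℕ => (Real.exp (-d) * d ^ c / Nat.factorial c) * C)
      ((pois_hasSum d).summable.mul_right C) fun c => ?_
    rw [Real.norm_eq_abs, abs_mul, abs_of_nonneg (pois_nonneg hd c)]
    exact mul_le_mul_of_nonneg_left (hbd c) (pois_nonneg hd c)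
  refine hasSum_le (fun c => ?_) hs.hasSum hB
  exact mul_le_mul_of_nonneg_left (h c) (pois_nonneg hd c)

end Crest.Agent.Lib.Bc
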