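import Crest.Agent.Lib.Bc.Compare
import Crest.Agent.Lib.Bc.Hats3
/-!
# Row 163, `q = 3`, `lam < 0`: the class-free logic around the closed forms (helper62, asked in finding 2177)

* `leaf_dominated_succ`, `gw_dominated_succ`: the levels of both tree models decrease in the convex order.
* `momS_leaf_antitone`, `momS_gw_antitone`: hence `n ↦ Φ_{M_n}(a)` is antitone (in fact for every `q`, see `Φ_leaf_antitone`).
* `cover`: an antitone real sequence bounded by `1`, and a finite chain of cells each of which cannot hold the sequence forever: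
  the sequence goes below the first breakpoint. `cover_list` is the same with the breakpoints in a list.
* `Tendsto` forms: `tendsto_zero_of_forall_lt`, `advantage_tendsto_of_tail`, `gwAdvantage_tendsto_of_tail`.

Nothing here depends on the evaluator.
-/
open scoped BigOperators
open Filter Topology
open Crest.ProbabilityR.Broadcast
namespace Crest.Agent.Lib.Bc
variable {q : ℕ}

/-! ## The levels decrease in the convex order -/

lemma leaf_zero_Φ (b : ℕ) (lam : ℝ) (hq : 0 < q) (hch : ∀ i j : Fin q, 0 ≤ channel q lam i j)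
    {f : (Fin q → ℝ) → ℝ} (hf : ConvexSym f) (i₀ : Fin q) :
    (leafSL q b lam 0 hq hch).Φ f = f (fun j => if j = i₀ then 1 else 0) := by
  have hv : ∀ k : Fin q, (fun j : Fin q => if j = k then (1 : ℝ) else 0) ∈ Simp q := fun k => by
    refine ⟨fun j => by dsimp only; split_ifs <;> norm_num, ?_⟩
    simp
  refine Φ_eq_const_of_post hq _ f _ fun τ => ?_
  set k : Fin q := τ Fin.elim0 with hk
  have hw : ∀ j, (leafSL q b lam 0 hq hch).w τ j = if j = k then 1 else 0 := fun j => by
    show leafLaw q b lam 0 j τ = _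
    simp only [leafLaw, hk, eq_comm]
  have hp : (leafSL q b lam 0 hq hch).post τ = fun j => if j = k then 1 else 0 := by
    funext j
    show (if ∑ j, (leafSL q b lam 0 hq hch).w τ j = 0 then (1 : ℝ) / q
      else (leafSL q b lam 0 hq hch).w τ j / ∑ j, (leafSL q b lam 0 hq hch).w τ j) = _
    simp only [hw]
    simp
  rw [hp]
  have e : (fun j : Fin q => if j = i₀ then (1 : ℝ) else 0)
      = (fun j : Fin q => if j = k then (1 : ℝ) else 0) ∘ (Equiv.swap i₀ k) := by
    funext j
    simp only [Function.comp]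
    by_cases h1 : j = i₀
    · subst h1; simp
    · by_cases h2 : j = k
      · subst h2; simp [h1, Ne.symm h1]
      · simp [Equiv.swap_apply_of_ne_of_ne h1 h2, h1, h2]
  rw [e, hf.sym _ _ (hv k)]

/-- Level `n+1` of the `b`-ary model is below level `n` in the convex order. -/
theorem leaf_dominated_succ (b : ℕ) (lam : ℝ) (hq : 0 < q) (hch : ∀ i j : Fin q, 0 ≤ channel q lam i j) (n : ℕ) :
    Dominated (leafSL q b lam (n + 1) hq hch) (leafSL q b lam n hq hch) := by
  induction n with
  | zero =>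
    intro f hf
    rw [leaf_zero_Φ b lam hq hch hf ⟨0, hq⟩]
    exact SLaw.Φ_le_vertex _ hq hf _
  | succ n ih =>
    intro f hf
    rw [leafSL_succ b lam (n + 1) hq hch hf.bdd, leafSL_succ b lam n hq hch hf.bdd]
    exact ((ih.tilt hq lam hch).pow hq b) f hf

lemma gw_zero_Φ (lam d : ℝ) (hd : 0 ≤ d) (hq : 0 < q) (hch : ∀ i j : Fin q, 0 ≤ channel q lam i j)
    {f : (Fin q → ℝ) → ℝ} (hf : ConvexSym f) (i₀ : Fin q) :
    (gwSL q lam d 0 hd hq hch).Φ f = f (fun j => if j = i₀ then 1 else 0) := by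
  have hv : ∀ k : Fin q, (fun j : Fin q => if j = k then (1 : ℝ) else 0) ∈ Simp q := fun k => by
    refine ⟨fun j => by dsimp only; split_ifs <;> norm_num, ?_⟩
    simp
  refine Φ_eq_const_of_post hq _ f _ fun τ => ?_
  obtain ⟨k, rfl⟩ : ∃ k : Fin q, k = τ := ⟨τ, rfl⟩
  have hw : ∀ j, (gwSL q lam d 0 hd hq hch).w k j = if j = k then 1 else 0 := fun j => by
    show gwLaw q lam d 0 j k = _
    simp only [gwLaw, eq_comm]
  have hp : (gwSL q lam d 0 hd hq hch).post k = fun j => if j = k then 1 else 0 := by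
    funext j
    show (if ∑ j, (gwSL q lam d 0 hd hq hch).w k j = 0 then (1 : ℝ) / q
      else (gwSL q lam d 0 hd hq hch).w k j / ∑ j, (gwSL q lam d 0 hd hq hch).w k j) = _
    simp only [hw]
    simp
  rw [hp]
  have e : (fun j : Fin q => if j = i₀ then (1 : ℝ) else 0)
      = (fun j : Fin q => if j = k then (1 : ℝ) else 0) ∘ (Equiv.swap i₀ k) := by
    funext j
    simp only [Function.comp]
    by_cases h1 : j = i₀
    · subst h1; simp
    · by_cases h2 : j = k
      · subst h2; simp [h1, Ne.symm h1]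
      · simp [Equiv.swap_apply_of_ne_of_ne h1 h2, h1, h2]
  rw [e, hf.sym _ _ (hv k)]

/-- Level `n+1` of the Poisson model is below level `n` in the convex order. -/
theorem gw_dominated_succ (lam d : ℝ) (hd : 0 ≤ d) (hq : 0 < q) (hch : ∀ i j : Fin q, 0 ≤ channel q lam i j) (n : ℕ) :
    Dominated (gwSL q lam d (n + 1) hd hq hch) (gwSL q lam d n hd hq hch) := by
  induction n with
  | zero =>
    intro f hf
    rw [gw_zero_Φ lam d hd hq hch hf ⟨0, hq⟩]
    exact SLaw.Φ_le_vertex _ hq hf _
  | succ n ih =>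
    intro f hf
    rw [gwSL_succ lam d (n + 1) hd hq hch hf.bdd, gwSL_succ lam d n hd hq hch hf.bdd]
    set K := (gwSL q lam d (n + 1) hd hq hch).tilt lam hch with hK
    set K' := (gwSL q lam d n hd hq hch).tilt lam hch with hK'
    have h1 : Dominated K K' := ih.tilt hq lam hch
    obtain ⟨C, hC⟩ := hf.bdd
    have hbd : ∀ (M : SLaw q) (c : ℕ), |(M.pow c).Φ f| ≤ C := fun M c => (M.pow c).abs_Φ_le hq hC
    have hsum : ∀ (M : SLaw q),
        Summable fun c : ℕ => (Real.exp (-d) * d ^ c / Nat.factorial c) * (M.pow c).Φ f := fun M => by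
      refine Summable.of_norm_bounded (g := fun c : ℕ => (Real.exp (-d) * d ^ c / Nat.factorial c) * C)
        ((pois_hasSum d).summable.mul_right C) fun c => ?_
      rw [Real.norm_eq_abs, abs_mul, abs_of_nonneg (pois_nonneg hd c)]
      exact mul_le_mul_of_nonneg_left (hbd M c) (pois_nonneg hd c)
    exact (hsum K).tsum_le_tsum (fun c => mul_le_mul_of_nonneg_left ((h1.pow hq c) f hf) (pois_nonneg hd c)) (hsum K')

/-- `Φ_{M_n} f` is antitone for every test function, `b`-ary model. -/
theorem Φ_leaf_antitone (b : ℕ) (lam : ℝ) (hq : 0 < q) (hch : ∀ i j : Fin q, 0 ≤ channel q lam i j)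
    {f : (Fin q → ℝ) → ℝ} (hf : ConvexSym f) : Antitone fun n => (leafSL q b lam n hq hch).Φ f :=
  antitone_nat_of_succ_le fun n => leaf_dominated_succ b lam hq hch n f hf

/-- `Φ_{M_n} f` is antitone for every test function, Poisson model. -/
theorem Φ_gw_antitone (lam d : ℝ) (hd : 0 ≤ d) (hq : 0 < q) (hch : ∀ i j : Fin q, 0 ≤ channel q lam i j)
    {f : (Fin q → ℝ) → ℝ} (hf : ConvexSym f) : Antitone fun n => (gwSL q lam d n hd hq hch).Φ f :=
  antitone_nat_of_succ_le fun n => gw_dominated_succ lam d hd hq hch n f hf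

/-- `a` is a test function (every `q ≥ 2`). -/
theorem aFn_convexSym' (hq : 2 ≤ q) : ConvexSym (aFn q) := by
  have hq1 : (1 : ℝ) < q := by exact_mod_cast hq
  have hq0 : (0 : ℝ) < (q : ℝ) - 1 := by linarith
  refine ⟨⟨convex_Simp, fun x _ y _ a b ha hb hab => ?_⟩, ?_, fun σ x _ => ?_⟩
  · simp only [aFn, smul_eq_mul, Pi.add_apply, Pi.smul_apply]
    have key : ∑ i, (a * x i + b * y i) ^ 2 ≤ a * ∑ i, x i ^ 2 + b * ∑ i, y i ^ 2 := by
      rw [Finset.mul_sum, Finset.mul_sum, ← Finset.sum_add_distrib]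
      refine Finset.sum_le_sum fun i _ => ?_
      obtain rfl : b = 1 - a := by linarith
      nlinarith [mul_nonneg (mul_nonneg ha hb) (sq_nonneg (x i - y i))]
    have hq' : (0 : ℝ) ≤ q := by linarith
    have h2 : (q : ℝ) * ∑ i, (a * x i + b * y i) ^ 2 - 1
        ≤ a * ((q : ℝ) * ∑ i, x i ^ 2 - 1) + b * ((q : ℝ) * ∑ i, y i ^ 2 - 1) := by
      have := mul_le_mul_of_nonneg_left key hq'
      obtain rfl : b = 1 - a := by linarith
      nlinarith
    have h3 := div_le_div_of_nonneg_right h2 hq0.le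
    refine h3.trans_eq ?_
    field_simp
  · unfold aFn
    fun_prop
  · unfold aFn
    congr 2
    exact congrArg _ (Equiv.sum_comp σ fun i => x i ^ 2)

/-- (a) for `q = 3`: `momS` decreases along the levels, `b`-ary model. -/
theorem momS_leaf_antitone (b : ℕ) (lam : ℝ) (hq : 0 < 3) (hch : ∀ i j : Fin 3, 0 ≤ channel 3 lam i j) :
    Antitone fun n => momS (leafSL 3 b lam n hq hch) :=
  Φ_leaf_antitone b lam hq hch (aFn_convexSym' (by norm_num))

/-- (a) for `q = 3`: `momS` decreases along the levels, Poisson model. -/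
theorem momS_gw_antitone (lam d : ℝ) (hd : 0 ≤ d) (hq : 0 < 3) (hch : ∀ i j : Fin 3, 0 ≤ channel 3 lam i j) :
    Antitone fun n => momS (gwSL 3 lam d n hd hq hch) :=
  Φ_gw_antitone lam d hd hq hch (aFn_convexSym' (by norm_num))

/-! ## Abstract logic of the cells -/

/-- The sequence `s` cannot stay in the cell `[t, t')` forever. -/
def CellFalse (s : ℕ → ℝ) (t t' : ℝ) : Prop := ∀ N : ℕ, (∀ n, N ≤ n → t ≤ s n ∧ s n < t') → False

/-- Covering argument, breakpoints given by a function. -/
theorem cover {s : ℕ → ℝ} (hanti : Antitone s) {t : ℕ → ℝ} {m : ℕ} (htop : s 0 < t m)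
    (hcell : ∀ j, j < m → CellFalse s (t j) (t (j + 1))) : ∃ n, s n < t 0 := by
  by_contra hcon
  simp only [not_exists, not_lt] at hcon
  -- the limit
  have hbdd : BddBelow (Set.range s) := ⟨t 0, by rintro _ ⟨n, rfl⟩; exact hcon n⟩
  have hlim : Tendsto s atTop (𝓝 (⨅ n, s n)) := tendsto_atTop_ciInf hanti hbdd
  set l := ⨅ n, s n with hl
  have hle : ∀ n, l ≤ s n := fun n => ciInf_le hbdd n
  have h0 : t 0 ≤ l := le_ciInf hcon
  have hm : l < t m := (hle 0).trans_lt htop
  -- find the cell of the limit: the least k with l < t k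
  classical
  have hex : ∃ k, l < t k := ⟨m, hm⟩
  have hkm : Nat.find hex ≤ m := Nat.find_min' hex hm
  have hk0 : Nat.find hex ≠ 0 := fun h => by
    have := Nat.find_spec hex
    rw [h] at this
    linarith
  obtain ⟨j, hj⟩ := Nat.exists_eq_succ_of_ne_zero hk0
  have hjlt : l < t (j + 1) := by
    have := Nat.find_spec hex
    rwa [hj] at this
  have hjge : t j ≤ l := by
    have := Nat.find_min hex (m := j) (by omega)
    linarith
  have hev : ∀ᶠ n in atTop, s n < t (j + 1) := hlim.eventually_lt_const hjlt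
  obtain ⟨N, hN⟩ := eventually_atTop.1 hev
  exact hcell j (by omega) N fun n hn => ⟨hjge.trans (hle n), hN n hn⟩

/-- Covering argument, breakpoints in a list `t₀ :: rest`, all cells between consecutive breakpoints false,
and the sequence starts below the last breakpoint. -/
theorem cover_list {s : ℕ → ℝ} (hanti : Antitone s) (t₀ : ℝ) (l : List ℝ)
    (htop : s 0 < (t₀ :: l).getLast (by simp))
    (hcell : List.IsChain (CellFalse s) (t₀ :: l)) : ∃ n, s n < t₀ := by
  have key : ∀ (l : List ℝ) (t₀ : ℝ), s 0 < (t₀ :: l).getLast (by simp) →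
      List.IsChain (CellFalse s) (t₀ :: l) → ∃ n, s n < t₀ := by
    intro l
    induction l with
    | nil =>
      intro t₀ h _
      exact ⟨0, by simpa using h⟩
    | cons a l ih =>
      intro t₀ h hc
      have hc' : List.IsChain (CellFalse s) (a :: l) := (List.isChain_cons_cons.1 hc).2
      have hcf : CellFalse s t₀ a := (List.isChain_cons_cons.1 hc).1
      have h' : s 0 < (a :: l).getLast (by simp) := by
        simpa [List.getLast_cons] using h
      obtain ⟨n, hn⟩ := ih a h' hc'
      by_contra hcon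
      simp only [not_exists, not_lt] at hcon
      exact hcf n fun k hk => ⟨hcon k, (hanti hk).trans_lt hn⟩
  exact key l t₀ htop hcell

/-- An antitone nonnegative sequence which goes below every positive number tends to zero. -/
theorem tendsto_zero_of_forall_lt {s : ℕ → ℝ} (hanti : Antitone s) (h0 : ∀ n, 0 ≤ s n)
    (h : ∀ ε, 0 < ε → ∃ n, s n < ε) : Tendsto s atTop (𝓝 0) := by
  rw [Metric.tendsto_atTop]
  intro ε hε
  obtain ⟨N, hN⟩ := h ε hε
  refine ⟨N, fun n hn => ?_⟩
  rw [Real.dist_eq, sub_zero, abs_of_nonneg (h0 n)]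
  exact (hanti hn).trans_lt hN

section models

/-- Final form, `b`-ary model: if the moment sequence tends to `0`, the advantage does. -/
theorem advantage_tendsto_of_momS (b : ℕ) (lam : ℝ) (hch : ∀ i j : Fin 3, 0 ≤ channel 3 lam i j)
    (h : Tendsto (fun n => momS (leafSL 3 b lam n (by norm_num) hch)) atTop (𝓝 0)) :
    Tendsto (advantage 3 b lam) atTop (𝓝 0) := by
  have h2 := tendsto_Φ_tvU_of_aFn (q := 3) (by norm_num) (fun n => leafSL 3 b lam n (by norm_num) hch) h
  refine h2.congr fun n => ?_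
  exact (advantage_eq b lam n (by norm_num) hch).symm

/-- Final form, Poisson model: if the moment sequence tends to `0`, the advantage does. -/
theorem gwAdvantage_tendsto_of_momS (lam d : ℝ) (hd : 0 ≤ d) (hch : ∀ i j : Fin 3, 0 ≤ channel 3 lam i j)
    (h : Tendsto (fun n => momS (gwSL 3 lam d n hd (by norm_num) hch)) atTop (𝓝 0)) :
    Tendsto (gwAdvantage 3 lam d) atTop (𝓝 0) := by
  have h2 := tendsto_Φ_tvU_of_aFn (q := 3) (by norm_num) (fun n => gwSL 3 lam d n hd (by norm_num) hch) h
  refine h2.congr fun n => ?_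
  exact (gwAdvantage_eq lam d n hd (by norm_num) hch).symm

/-- (c) `b`-ary model. Cells reach `s0`; a tail statement from `s0` down finishes. -/
theorem advantage_tendsto_of_tail (b : ℕ) (lam : ℝ) (hch : ∀ i j : Fin 3, 0 ≤ channel 3 lam i j) {s0 : ℝ}
    (hexit : ∃ n, momS (leafSL 3 b lam n (by norm_num) hch) < s0)
    (htail : ∀ N, momS (leafSL 3 b lam N (by norm_num) hch) < s0 →
      Tendsto (fun n => momS (leafSL 3 b lam n (by norm_num) hch)) atTop (𝓝 0)) :
    Tendsto (advantage 3 b lam) atTop (𝓝 0) := by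
  obtain ⟨N, hN⟩ := hexit
  exact advantage_tendsto_of_momS b lam hch (htail N hN)

/-- (c) Poisson model. -/
theorem gwAdvantage_tendsto_of_tail (lam d : ℝ) (hd : 0 ≤ d) (hch : ∀ i j : Fin 3, 0 ≤ channel 3 lam i j) {s0 : ℝ}
    (hexit : ∃ n, momS (gwSL 3 lam d n hd (by norm_num) hch) < s0)
    (htail : ∀ N, momS (gwSL 3 lam d N hd (by norm_num) hch) < s0 →
      Tendsto (fun n => momS (gwSL 3 lam d n hd (by norm_num) hch)) atTop (𝓝 0)) :
    Tendsto (gwAdvantage 3 lam d) atTop (𝓝 0) := by
  obtain ⟨N, hN⟩ := hexit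
  exact gwAdvantage_tendsto_of_momS lam d hd hch (htail N hN)

/-- (b)+(c) all in one, `b`-ary model: breakpoints `t`, `t 0 = s0`, `t m > 1`. -/
theorem leaf_exit_of_cells (b : ℕ) (lam : ℝ) (hch : ∀ i j : Fin 3, 0 ≤ channel 3 lam i j)
    {t : ℕ → ℝ} {m : ℕ} (htop : 1 < t m)
    (hcell : ∀ j, j < m →
      CellFalse (fun n => momS (leafSL 3 b lam n (by norm_num) hch)) (t j) (t (j + 1))) :
    ∃ n, momS (leafSL 3 b lam n (by norm_num) hch) < t 0 :=
  cover (momS_leaf_antitone b lam (by norm_num) hch) (lt_of_le_of_lt (SLaw.Φ_aFn_le_one _ (by norm_num)) htop) hcell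

/-- (b)+(c) all in one, Poisson model: breakpoints `t`, `t 0 = s0`, `t m > 1`. -/
theorem gw_exit_of_cells (lam d : ℝ) (hd : 0 ≤ d) (hch : ∀ i j : Fin 3, 0 ≤ channel 3 lam i j)
    {t : ℕ → ℝ} {m : ℕ} (htop : 1 < t m)
    (hcell : ∀ j, j < m →
      CellFalse (fun n => momS (gwSL 3 lam d n hd (by norm_num) hch)) (t j) (t (j + 1))) :
    ∃ n, momS (gwSL 3 lam d n hd (by norm_num) hch) < t 0 :=
  cover (momS_gw_antitone lam d hd (by norm_num) hch) (lt_of_le_of_lt (SLaw.Φ_aFn_le_one _ (by norm_num)) htop) hcell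

end models

end Crest.Agent.Lib.Bc
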