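import Mathlib
/-!
# Kernel friendly enclosures of `Real.exp` at rational points

Everything is dyadic fixed point on `ℕ`, so that `decide +kernel` only runs GMP operations.

* `expUp p t`, `expDn p t` : `ℕ` for `t : ℚ` and precision `p`;
* `exp_le_expUp : Real.exp t ≤ expUp p t / 2 ^ p`;
* `expDn_le_exp : expDn p t / 2 ^ p ≤ Real.exp t`;
* `exp_le_chord`, `tangent_le_exp` : linear bounds on an interval.

Method: `exp (A / B) = exp (A / (B 2 ^ k)) ^ (2 ^ k)`, Taylor at the small point (with Mathlib's remainder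
`Real.exp_bound'`), squarings with one sided rounding; negative `t` by inversion.
-/
namespace Crest.Agent.Lib.Bc.ExpQ

/-- `⌈a / b⌉` on `ℕ`. -/
def cdiv (a b : ℕ) : ℕ := (a + b - 1) / b

lemma le_cdiv {a b : ℕ} (hb : 0 < b) : (a : ℝ) / b ≤ cdiv a b := by
  have hb' : (0 : ℝ) < b := by exact_mod_cast hb
  rw [div_le_iff₀ hb']
  have h := Nat.lt_div_mul_add (a := a + b - 1) hb
  have h2 : a ≤ cdiv a b * b := by
    unfold cdiv
    have : (a + b - 1) / b * b + b > a + b - 1 := by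
      have := Nat.div_add_mod (a + b - 1) b
      have h3 := Nat.mod_lt (a + b - 1) hb
      nlinarith [Nat.mul_comm b ((a + b - 1) / b)]
    omega
  exact_mod_cast h2

lemma fdiv_le {a b : ℕ} : ((a / b : ℕ) : ℝ) ≤ (a : ℝ) / b := Nat.cast_div_le

/-- one step of the forward Taylor sum, rounding up: `(i, term, sum)`. -/
def upStep (A B : ℕ) (s : ℕ × ℕ × ℕ) : ℕ × ℕ × ℕ :=
  (s.1 + 1, cdiv (s.2.1 * A) (B * (s.1 + 1)), s.2.2 + s.2.1)

/-- one step of the forward Taylor sum, rounding down: `(i, term, sum)`. -/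
def dnStep (A B : ℕ) (s : ℕ × ℕ × ℕ) : ℕ × ℕ × ℕ :=
  (s.1 + 1, (s.2.1 * A) / (B * (s.1 + 1)), s.2.2 + s.2.1)

/-- the real Taylor sum -/
noncomputable def tSum (y : ℝ) (n : ℕ) : ℝ := ∑ m ∈ Finset.range n, y ^ m / m.factorial

lemma up_iter (p A B : ℕ) (hB : 0 < B) (n : ℕ) :
    let s := (upStep A B)^[n] (0, 2 ^ p, 0)
    s.1 = n ∧ ((A : ℝ) / B) ^ n / n.factorial ≤ (s.2.1 : ℝ) / 2 ^ p ∧
      tSum ((A : ℝ) / B) n ≤ (s.2.2 : ℝ) / 2 ^ p := by
  induction n with
  | zero =>
    simp [tSum]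
  | succ n ih =>
    simp only [Function.iterate_succ_apply'] at ih ⊢
    obtain ⟨h1, h2, h3⟩ := ih
    set s := (upStep A B)^[n] (0, 2 ^ p, 0) with hs
    have hB' : (0 : ℝ) < B := by exact_mod_cast hB
    have hy : (0 : ℝ) ≤ (A : ℝ) / B := by positivity
    refine ⟨by simp [upStep, h1], ?_, ?_⟩
    · have hp : (0 : ℝ) < 2 ^ p := by positivity
      have hn : (0 : ℝ) < (n : ℝ) + 1 := by positivity
      have hpos : 0 < B * (s.1 + 1) := by positivity
      have hc := le_cdiv (a := s.2.1 * A) hpos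
      have e : ((A : ℝ) / B) ^ (n + 1) / ((n + 1).factorial : ℝ)
          = (((A : ℝ) / B) ^ n / n.factorial) * ((A : ℝ) / (B * (n + 1))) := by
        rw [Nat.factorial_succ, pow_succ]
        push_cast
        have : ((n.factorial : ℝ)) ≠ 0 := by positivity
        field_simp
      rw [e]
      calc ((A : ℝ) / B) ^ n / n.factorial * ((A : ℝ) / (B * (n + 1)))
          ≤ ((s.2.1 : ℝ) / 2 ^ p) * ((A : ℝ) / (B * (n + 1))) := by
            apply mul_le_mul_of_nonneg_right h2; positivity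
        _ = (((s.2.1 * A : ℕ) : ℝ) / ((B * (s.1 + 1) : ℕ) : ℝ)) / 2 ^ p := by
            rw [h1]; push_cast; field_simp
        _ ≤ _ := by
            apply div_le_div_of_nonneg_right _ hp.le
            exact hc
    · have : tSum ((A : ℝ) / B) (n + 1) = tSum ((A : ℝ) / B) n + ((A : ℝ) / B) ^ n / n.factorial := by
        simp [tSum, Finset.sum_range_succ]
      rw [this]
      have e2 : ((upStep A B s).2.2 : ℝ) / 2 ^ p = (s.2.2 : ℝ) / 2 ^ p + (s.2.1 : ℝ) / 2 ^ p := by
        simp [upStep]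
        ring
      rw [e2]
      linarith

lemma dn_iter (p A B : ℕ) (n : ℕ) :
    let s := (dnStep A B)^[n] (0, 2 ^ p, 0)
    s.1 = n ∧ (s.2.1 : ℝ) / 2 ^ p ≤ ((A : ℝ) / B) ^ n / n.factorial ∧
      (s.2.2 : ℝ) / 2 ^ p ≤ tSum ((A : ℝ) / B) n := by
  induction n with
  | zero =>
    simp [tSum]
  | succ n ih =>
    simp only [Function.iterate_succ_apply'] at ih ⊢
    obtain ⟨h1, h2, h3⟩ := ih
    set s := (dnStep A B)^[n] (0, 2 ^ p, 0) with hs
    refine ⟨by simp [dnStep, h1], ?_, ?_⟩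
    · have hp : (0 : ℝ) < 2 ^ p := by positivity
      have hn : (0 : ℝ) < (n : ℝ) + 1 := by positivity
      have hc := fdiv_le (a := s.2.1 * A) (b := B * (s.1 + 1))
      by_cases hB : B = 0
      · subst hB
        have : (dnStep A 0 s).2.1 = 0 := by simp [dnStep]
        rw [this]
        simp only [Nat.cast_zero, zero_div]
        simp only [div_zero]
        positivity
      have hB' : (0 : ℝ) < B := by exact_mod_cast Nat.pos_of_ne_zero hB
      have e : ((A : ℝ) / B) ^ (n + 1) / ((n + 1).factorial : ℝ)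
          = (((A : ℝ) / B) ^ n / n.factorial) * ((A : ℝ) / (B * (n + 1))) := by
        rw [Nat.factorial_succ, pow_succ]
        push_cast
        have : ((n.factorial : ℝ)) ≠ 0 := by positivity
        field_simp
      rw [e]
      calc ((dnStep A B s).2.1 : ℝ) / 2 ^ p
          ≤ (((s.2.1 * A : ℕ) : ℝ) / ((B * (s.1 + 1) : ℕ) : ℝ)) / 2 ^ p := by
            apply div_le_div_of_nonneg_right _ hp.le
            exact hc
        _ = ((s.2.1 : ℝ) / 2 ^ p) * ((A : ℝ) / (B * (n + 1))) := by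
            rw [h1]; push_cast; field_simp
        _ ≤ _ := by
            apply mul_le_mul_of_nonneg_right h2; positivity
    · have : tSum ((A : ℝ) / B) (n + 1) = tSum ((A : ℝ) / B) n + ((A : ℝ) / B) ^ n / n.factorial := by
        simp [tSum, Finset.sum_range_succ]
      rw [this]
      have e2 : ((dnStep A B s).2.2 : ℝ) / 2 ^ p = (s.2.2 : ℝ) / 2 ^ p + (s.2.1 : ℝ) / 2 ^ p := by
        simp [dnStep]
        ring
      rw [e2]
      linarith

/-- squaring with upward rounding -/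
def sqUp (p U : ℕ) : ℕ := cdiv (U * U) (2 ^ p)

/-- squaring with downward rounding -/
def sqDn (p L : ℕ) : ℕ := (L * L) / 2 ^ p

lemma sqUp_spec {p U : ℕ} {x : ℝ} (hx : 0 ≤ x) (h : x ≤ (U : ℝ) / 2 ^ p) :
    x * x ≤ (sqUp p U : ℝ) / 2 ^ p := by
  have hp : (0 : ℝ) < 2 ^ p := by positivity
  have hc := le_cdiv (a := U * U) (b := 2 ^ p) (by positivity)
  have h1 : x * x ≤ ((U : ℝ) / 2 ^ p) * ((U : ℝ) / 2 ^ p) := mul_le_mul h h hx (hx.trans h)
  refine h1.trans ?_
  rw [le_div_iff₀ hp]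
  have e : ((U : ℝ) / 2 ^ p) * ((U : ℝ) / 2 ^ p) * 2 ^ p = ((U * U : ℕ) : ℝ) / ((2 ^ p : ℕ) : ℝ) := by
    push_cast; field_simp
  rw [e]
  exact hc

lemma sqDn_spec {p L : ℕ} {x : ℝ} (h : (L : ℝ) / 2 ^ p ≤ x) :
    (sqDn p L : ℝ) / 2 ^ p ≤ x * x := by
  have hp : (0 : ℝ) < 2 ^ p := by positivity
  have hc := fdiv_le (a := L * L) (b := 2 ^ p)
  have h0 : (0 : ℝ) ≤ (L : ℝ) / 2 ^ p := by positivity
  have h1 : ((L : ℝ) / 2 ^ p) * ((L : ℝ) / 2 ^ p) ≤ x * x := mul_le_mul h h h0 (h0.trans h)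
  refine le_trans ?_ h1
  rw [div_le_iff₀ hp]
  have e : ((L : ℝ) / 2 ^ p) * ((L : ℝ) / 2 ^ p) * 2 ^ p = ((L * L : ℕ) : ℝ) / ((2 ^ p : ℕ) : ℝ) := by
    push_cast; field_simp
  rw [e]
  exact hc

/-- upper fixed point of `exp (A / (B * 2 ^ k))` by Taylor of order `n`, remainder included -/
def baseUp (p n A B : ℕ) : ℕ :=
  let s := (upStep A B)^[n] (0, 2 ^ p, 0)
  s.2.2 + cdiv (s.2.1 * (n + 1)) n

/-- lower fixed point of `exp (A / B)` by Taylor of order `n` -/
def baseDn (p n A B : ℕ) : ℕ :=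
  ((dnStep A B)^[n] (0, 2 ^ p, 0)).2.2

lemma baseUp_spec {p n A B : ℕ} (hB : 0 < B) (hAB : A ≤ B) (hn : 0 < n) :
    Real.exp ((A : ℝ) / B) ≤ (baseUp p n A B : ℝ) / 2 ^ p := by
  obtain ⟨h1, h2, h3⟩ := up_iter p A B hB n
  set s := (upStep A B)^[n] (0, 2 ^ p, 0) with hs
  have hB' : (0 : ℝ) < B := by exact_mod_cast hB
  have hy0 : (0 : ℝ) ≤ (A : ℝ) / B := by positivity
  have hy1 : (A : ℝ) / B ≤ 1 := by
    rw [div_le_one hB']; exact_mod_cast hAB
  have hb := Real.exp_bound' hy0 hy1 hn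
  have hp : (0 : ℝ) < 2 ^ p := by positivity
  have hn' : (0 : ℝ) < n := by exact_mod_cast hn
  have hf : (0 : ℝ) < (n.factorial : ℝ) := by positivity
  have e1 : ((A : ℝ) / B) ^ n * ((n : ℝ) + 1) / (n.factorial * n)
      = (((A : ℝ) / B) ^ n / n.factorial) * (((n : ℝ) + 1) / n) := by
    field_simp
  have hc := le_cdiv (a := s.2.1 * (n + 1)) (b := n) hn
  have e2 : ((baseUp p n A B : ℕ) : ℝ) / 2 ^ p
      = (s.2.2 : ℝ) / 2 ^ p + ((cdiv (s.2.1 * (n + 1)) n : ℕ) : ℝ) / 2 ^ p := by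
    simp only [baseUp, ← hs]
    push_cast
    ring
  rw [e2]
  refine hb.trans ?_
  rw [e1]
  refine add_le_add h3 ?_
  calc ((A : ℝ) / B) ^ n / n.factorial * (((n : ℝ) + 1) / n)
      ≤ ((s.2.1 : ℝ) / 2 ^ p) * (((n : ℝ) + 1) / n) := by
        apply mul_le_mul_of_nonneg_right h2; positivity
    _ = (((s.2.1 * (n + 1) : ℕ) : ℝ) / (n : ℝ)) / 2 ^ p := by
        push_cast; field_simp
    _ ≤ _ := by
        apply div_le_div_of_nonneg_right hc hp.le

lemma baseDn_spec {p n A B : ℕ} :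
    (baseDn p n A B : ℝ) / 2 ^ p ≤ Real.exp ((A : ℝ) / B) := by
  obtain ⟨h1, h2, h3⟩ := dn_iter p A B n
  have hy0 : (0 : ℝ) ≤ (A : ℝ) / B := by positivity
  exact h3.trans (Real.sum_le_exp_of_nonneg hy0 n)

/-- `exp (A / B)` from above, with `k` halvings and Taylor order `n` -/
def powUp (p n k A B : ℕ) : ℕ := (sqUp p)^[k] (baseUp p n A (B * 2 ^ k))

/-- `exp (A / B)` from below, with `k` halvings and Taylor order `n` -/
def powDn (p n k A B : ℕ) : ℕ := (sqDn p)^[k] (baseDn p n A (B * 2 ^ k))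

lemma exp_halve (y : ℝ) (j : ℕ) : Real.exp (y / 2 ^ (j + 1)) * Real.exp (y / 2 ^ (j + 1)) = Real.exp (y / 2 ^ j) := by
  rw [← Real.exp_add]
  congr 1
  rw [pow_succ]
  field_simp
  ring

lemma powUp_spec {p n k A B : ℕ} (hB : 0 < B) (hAB : A ≤ B * 2 ^ k) (hn : 0 < n) :
    Real.exp ((A : ℝ) / B) ≤ (powUp p n k A B : ℝ) / 2 ^ p := by
  have key : ∀ j, j ≤ k → Real.exp ((A : ℝ) / B / 2 ^ (k - j)) ≤
      (((sqUp p)^[j] (baseUp p n A (B * 2 ^ k)) : ℕ) : ℝ) / 2 ^ p := by
    intro j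
    induction j with
    | zero =>
      intro _
      have := baseUp_spec (p := p) (n := n) (A := A) (B := B * 2 ^ k) (by positivity) hAB hn
      simpa [div_div] using this
    | succ j ih =>
      intro hj
      have h0 := ih (by omega)
      rw [Function.iterate_succ_apply']
      have e := exp_halve ((A : ℝ) / B) (k - (j + 1))
      have e2 : k - (j + 1) + 1 = k - j := by omega
      rw [e2] at e
      rw [← e]
      exact sqUp_spec (Real.exp_pos _).le h0
  have := key k le_rfl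
  simpa [powUp] using this

lemma powDn_spec {p n k A B : ℕ} :
    (powDn p n k A B : ℝ) / 2 ^ p ≤ Real.exp ((A : ℝ) / B) := by
  have key : ∀ j, j ≤ k →
      (((sqDn p)^[j] (baseDn p n A (B * 2 ^ k)) : ℕ) : ℝ) / 2 ^ p ≤
        Real.exp ((A : ℝ) / B / 2 ^ (k - j)) := by
    intro j
    induction j with
    | zero =>
      intro _
      have := baseDn_spec (p := p) (n := n) (A := A) (B := B * 2 ^ k)
      simpa [div_div] using this
    | succ j ih =>
      intro hj
      have h0 := ih (by omega)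
      rw [Function.iterate_succ_apply']
      have e := exp_halve ((A : ℝ) / B) (k - (j + 1))
      have e2 : k - (j + 1) + 1 = k - j := by omega
      rw [e2] at e
      rw [← e]
      exact sqDn_spec h0
  have := key k le_rfl
  simpa [powDn] using this

/-- number of halvings: `A ≤ B * 2 ^ halv A B`, with `16 A / B ≤ 2 ^ halv` roughly -/
def halv (A B : ℕ) : ℕ := Nat.log2 (A / B + 1) + 5

lemma le_mul_two_pow_halv {A B : ℕ} (hB : 0 < B) : A ≤ B * 2 ^ halv A B := by
  have h1 : A / B + 1 ≤ 2 ^ (Nat.log2 (A / B + 1) + 1) := by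
    rw [Nat.log2_eq_log_two]
    exact (Nat.lt_pow_succ_log_self (by norm_num) _).le
  have h2 : A < (A / B + 1) * B := by
    have := Nat.div_add_mod A B
    have h3 := Nat.mod_lt A hB
    nlinarith [Nat.mul_comm B (A / B)]
  have h3 : (2 : ℕ) ^ (Nat.log2 (A / B + 1) + 1) ≤ 2 ^ halv A B :=
    Nat.pow_le_pow_right (by norm_num) (by unfold halv; omega)
  calc A ≤ (A / B + 1) * B := h2.le
    _ ≤ 2 ^ halv A B * B := Nat.mul_le_mul_right _ (h1.trans h3)
    _ = B * 2 ^ halv A B := Nat.mul_comm _ _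

/-- Taylor order for precision `p` (the point is `≤ 1 / 32`, so `p / 5 + 4` is enough) -/
def ordOf (p : ℕ) : ℕ := p / 5 + 4

/-- working precision: `p` plus guard bits for `k` squarings at value up to `exp (A/B)` -/
def wp (p A B : ℕ) : ℕ := p + 2 * halv A B + 2 * (A / B) + 8

/-- change of fixed point precision, rounding up -/
def rescaleUp (q p U : ℕ) : ℕ := cdiv (U * 2 ^ p) (2 ^ q)

/-- change of fixed point precision, rounding down -/
def rescaleDn (q p L : ℕ) : ℕ := (L * 2 ^ p) / 2 ^ q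

lemma rescaleUp_spec {q p U : ℕ} {x : ℝ} (h : x ≤ (U : ℝ) / 2 ^ q) :
    x ≤ (rescaleUp q p U : ℝ) / 2 ^ p := by
  have hp : (0 : ℝ) < 2 ^ p := by positivity
  have hq : (0 : ℝ) < 2 ^ q := by positivity
  have hc := le_cdiv (a := U * 2 ^ p) (b := 2 ^ q) (by positivity)
  refine h.trans ?_
  rw [le_div_iff₀ hp]
  refine le_trans (le_of_eq ?_) hc
  push_cast
  ring

lemma rescaleDn_spec {q p L : ℕ} {x : ℝ} (h : (L : ℝ) / 2 ^ q ≤ x) :
    (rescaleDn q p L : ℝ) / 2 ^ p ≤ x := by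
  have hp : (0 : ℝ) < 2 ^ p := by positivity
  have hq : (0 : ℝ) < 2 ^ q := by positivity
  have hc := fdiv_le (a := L * 2 ^ p) (b := 2 ^ q)
  refine le_trans ?_ h
  rw [div_le_iff₀ hp]
  refine le_trans hc (le_of_eq ?_)
  push_cast
  ring

/-- upper bound for `exp (A / B)`, `A B : ℕ`, at output precision `p` -/
def natUp (p A B : ℕ) : ℕ :=
  rescaleUp (wp p A B) p (powUp (wp p A B) (ordOf (wp p A B)) (halv A B) A B)

/-- lower bound for `exp (A / B)`, `A B : ℕ`, at output precision `p` -/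
def natDn (p A B : ℕ) : ℕ :=
  rescaleDn (wp p A B) p (powDn (wp p A B) (ordOf (wp p A B)) (halv A B) A B)

lemma natUp_spec {p A B : ℕ} (hB : 0 < B) : Real.exp ((A : ℝ) / B) ≤ (natUp p A B : ℝ) / 2 ^ p :=
  rescaleUp_spec (powUp_spec hB (le_mul_two_pow_halv hB) (by unfold ordOf; omega))

lemma natDn_spec {p A B : ℕ} : (natDn p A B : ℝ) / 2 ^ p ≤ Real.exp ((A : ℝ) / B) :=
  rescaleDn_spec powDn_spec

/-- `exp t ≤ expUp p t / 2 ^ p` for every rational `t` -/
def expUp (p : ℕ) (t : ℚ) : ℕ :=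
  if 0 ≤ t.num then natUp p t.num.toNat t.den
  else
    -- `exp (-|t|) = 1 / exp |t| ≤ 2 ^ p' / L`
    let L := natDn (p + 8) (-t.num).toNat t.den
    if L = 0 then 2 ^ p else cdiv (2 ^ (2 * p + 8)) L

/-- `expDn p t / 2 ^ p ≤ exp t` for every rational `t` -/
def expDn (p : ℕ) (t : ℚ) : ℕ :=
  if 0 ≤ t.num then natDn p t.num.toNat t.den
  else
    let U := natUp (p + 8) (-t.num).toNat t.den
    2 ^ (2 * p + 8) / U

lemma rat_cast_eq (t : ℚ) (h : 0 ≤ t.num) : (t : ℝ) = ((t.num.toNat : ℕ) : ℝ) / (t.den : ℝ) := by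
  have e : (t : ℝ) = (t.num : ℝ) / (t.den : ℝ) := by
    exact_mod_cast (Rat.num_div_den t).symm
  rw [e]
  congr 1
  have : ((t.num.toNat : ℕ) : ℤ) = t.num := Int.toNat_of_nonneg h
  exact_mod_cast this.symm

lemma rat_cast_eq_neg (t : ℚ) (h : ¬ 0 ≤ t.num) :
    (t : ℝ) = -((((-t.num).toNat : ℕ) : ℝ) / (t.den : ℝ)) := by
  have e : (t : ℝ) = (t.num : ℝ) / (t.den : ℝ) := by
    exact_mod_cast (Rat.num_div_den t).symm
  rw [e, ← neg_div]
  congr 1
  have : (((-t.num).toNat : ℕ) : ℤ) = -t.num := Int.toNat_of_nonneg (by omega)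
  have h2 : (((-t.num).toNat : ℕ) : ℝ) = -(t.num : ℝ) := by exact_mod_cast this
  rw [h2]; ring

theorem exp_le_expUp (p : ℕ) (t : ℚ) : Real.exp (t : ℝ) ≤ (expUp p t : ℝ) / 2 ^ p := by
  unfold expUp
  have hd : 0 < t.den := t.den_pos
  split_ifs with h
  · rw [rat_cast_eq t h]
    exact natUp_spec hd
  · rw [rat_cast_eq_neg t h, Real.exp_neg]
    set y := (((-t.num).toNat : ℕ) : ℝ) / (t.den : ℝ) with hy
    have hL := natDn_spec (p := p + 8) (A := (-t.num).toNat) (B := t.den)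
    rw [← hy] at hL
    simp only
    split_ifs with hL0
    · -- `exp y ≥ 1` as `y ≥ 0`
      have hy0 : 0 ≤ y := by positivity
      have h1 : (Real.exp y)⁻¹ ≤ 1 := by
        rw [inv_le_one₀ (Real.exp_pos _)]
        exact Real.one_le_exp hy0
      refine h1.trans (le_of_eq ?_)
      push_cast
      field_simp
    · set L := natDn (p + 8) (-t.num).toNat t.den with hLdef
      have hLpos : 0 < L := Nat.pos_of_ne_zero hL0
      have hLpos' : (0 : ℝ) < L := by exact_mod_cast hLpos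
      have hP : (0 : ℝ) < 2 ^ (p + 8) := by positivity
      have hc := le_cdiv (a := 2 ^ (2 * p + 8)) (b := L) hLpos
      have h2 : (Real.exp y)⁻¹ ≤ 2 ^ (p + 8) / (L : ℝ) := by
        rw [inv_le_comm₀ (Real.exp_pos _) (by positivity), inv_div]
        exact hL
      refine h2.trans ?_
      have hp : (0 : ℝ) < 2 ^ p := by positivity
      rw [le_div_iff₀ hp]
      refine le_trans (le_of_eq ?_) hc
      push_cast
      field_simp
      ring

theorem expDn_le_exp (p : ℕ) (t : ℚ) : (expDn p t : ℝ) / 2 ^ p ≤ Real.exp (t : ℝ) := by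
  unfold expDn
  have hd : 0 < t.den := t.den_pos
  split_ifs with h
  · rw [rat_cast_eq t h]
    exact natDn_spec
  · rw [rat_cast_eq_neg t h, Real.exp_neg]
    set y := (((-t.num).toNat : ℕ) : ℝ) / (t.den : ℝ) with hy
    have hU := natUp_spec (p := p + 8) (A := (-t.num).toNat) (B := t.den) hd
    rw [← hy] at hU
    simp only
    set U := natUp (p + 8) (-t.num).toNat t.den with hUdef
    have hUpos' : (0 : ℝ) < U := by
      have h0 : 0 < (U : ℝ) / 2 ^ (p + 8) := (Real.exp_pos _).trans_le hU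
      have hP : (0 : ℝ) < 2 ^ (p + 8) := by positivity
      exact (div_pos_iff_of_pos_right hP).1 h0
    have hP : (0 : ℝ) < 2 ^ (p + 8) := by positivity
    have hp : (0 : ℝ) < 2 ^ p := by positivity
    have h2 : 2 ^ (p + 8) / (U : ℝ) ≤ (Real.exp y)⁻¹ := by
      rw [le_inv_comm₀ (by positivity) (Real.exp_pos _), inv_div]
      exact hU
    refine le_trans ?_ h2
    rw [div_le_iff₀ hp]
    refine le_trans (fdiv_le (a := 2 ^ (2 * p + 8)) (b := U)) (le_of_eq ?_)
    push_cast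
    field_simp
    ring

/-- chord bound: `exp` below the segment through upper bounds at the ends of an interval. -/
theorem exp_le_chord {a b t Ua Ub : ℝ} (hab : a < b) (h1 : a ≤ t) (h2 : t ≤ b)
    (ha : Real.exp a ≤ Ua) (hb : Real.exp b ≤ Ub) :
    Real.exp t ≤ ((b - t) * Ua + (t - a) * Ub) / (b - a) := by
  have hba : 0 < b - a := by linarith
  have hw1 : 0 ≤ (b - t) / (b - a) := div_nonneg (by linarith) hba.le
  have hw2 : 0 ≤ (t - a) / (b - a) := div_nonneg (by linarith) hba.le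
  have hsum : (b - t) / (b - a) + (t - a) / (b - a) = 1 := by
    field_simp; ring
  have ht : (b - t) / (b - a) * a + (t - a) / (b - a) * b = t := by
    field_simp; ring
  have hc := convexOn_exp.2 (Set.mem_univ a) (Set.mem_univ b) hw1 hw2 hsum
  simp only [smul_eq_mul, ht] at hc
  refine hc.trans ?_
  have e : ((b - t) * Ua + (t - a) * Ub) / (b - a) = (b - t) / (b - a) * Ua + (t - a) / (b - a) * Ub := by
    ring
  rw [e]
  exact add_le_add (mul_le_mul_of_nonneg_left ha hw1) (mul_le_mul_of_nonneg_left hb hw2)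

/-- tangent bound with a lower bound of `exp` at the base point. -/
theorem tangent_le_exp {a t La : ℝ} (ha : La ≤ Real.exp a) (h0 : 0 ≤ 1 + t - a) :
    La * (1 + t - a) ≤ Real.exp t := by
  have h1 : 1 + t - a ≤ Real.exp (t - a) := by
    have := Real.add_one_le_exp (t - a)
    linarith
  have e : Real.exp t = Real.exp a * Real.exp (t - a) := by
    rw [← Real.exp_add]; congr 1; ring
  rw [e]
  calc La * (1 + t - a) ≤ Real.exp a * (1 + t - a) := mul_le_mul_of_nonneg_right ha h0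
    _ ≤ _ := mul_le_mul_of_nonneg_left h1 (Real.exp_pos _).le

/-! ## sanity checks: values are within `2 ^ (-p)` relative and the kernel evaluates them at once -/

example : expUp 64 (27 / 10) ≤ 2 ^ 64 * 15 := by decide +kernel
example : 2 ^ 64 * 14 ≤ expDn 64 (27 / 10) := by decide +kernel
example : expUp 128 (-(57 / 2)) ≤ 2 ^ 128 / 10 ^ 12 := by decide +kernel
example : 2 ^ 128 / 10 ^ 13 ≤ expDn 128 (-(57 / 2)) := by decide +kernel

end Crest.Agent.Lib.Bc.ExpQ
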