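import Crest.Agent.Lib.Bc.TailClass
/-!
# Row 163, `q = 3`, `lam < 0`: the tail at the loose constants

`TailClass` closes the rounds at the pair constants `(3,3;2,0;10,10;5,11;24)`.  The rounds still close at the looser
constants `(3,3;3,2;10,10;6,13;24)`, which are the ones the polynomial pair bounds give with room to spare.
`TailPairs` is monotone in its constants (`TailPairs.mono`), so anything at most these is usable.
-/
open scoped BigOperators
open Filter Topology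
open Crest.ProbabilityR.Broadcast
namespace Crest.Agent.Lib.Bc.Tail
open Crest.Agent.Lib.Bc

theorem TailPairs.mono {A₁ A₂ B₁ B₂ D₁ D₂ E₁ E₂ Ec A₁' A₂' B₁' B₂' D₁' D₂' E₁' E₂' : ℝ}
    (hP : TailPairs A₁ A₂ B₁ B₂ D₁ D₂ E₁ E₂ Ec)
    (h1 : A₁ ≤ A₁') (h2 : A₂ ≤ A₂') (h3 : B₁ ≤ B₁') (h4 : B₂ ≤ B₂') (h5 : D₁ ≤ D₁') (h6 : D₂ ≤ D₂')
    (h7 : E₁ ≤ E₁') (h8 : E₂ ≤ E₂') : TailPairs A₁' A₂' B₁' B₂' D₁' D₂' E₁' E₂' Ec := by
  have key : ∀ {u v : ℝ} (x x' : Fin 3 → ℝ), x ∈ Simp 3 → x' ∈ Simp 3 → u ≤ v →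
      u * aFn 3 x ^ 2 * aFn 3 x' ≤ v * aFn 3 x ^ 2 * aFn 3 x' ∧
        u * aFn 3 x * aFn 3 x' ^ 2 ≤ v * aFn 3 x * aFn 3 x' ^ 2 := by
    intro u v x x' hx hx' huv
    have ha := aFn3_nonneg hx
    have ha' := aFn3_nonneg hx'
    constructor
    · exact mul_le_mul_of_nonneg_right (mul_le_mul_of_nonneg_right huv (by positivity)) ha'
    · exact mul_le_mul_of_nonneg_right (mul_le_mul_of_nonneg_right huv ha) (by positivity)
  refine ⟨?_, hP.Sm, ?_, ?_, ?_⟩
  · intro x hx x' hx' hD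
    have := hP.Sp x hx x' hx' hD
    have a1 := (key x x' hx hx' h1).1
    have a2 := (key x x' hx hx' h2).2
    linarith
  · intro x hx x' hx' hD
    have := hP.Pp x hx x' hx' hD
    have a1 := (key x x' hx hx' h3).1
    have a2 := (key x x' hx hx' h4).2
    linarith
  · intro x hx x' hx' hD
    have := hP.Pm x hx x' hx' hD
    have a1 := (key x x' hx hx' h5).1
    have a2 := (key x x' hx hx' h6).2
    linarith
  · intro x hx x' hx' hD
    have := hP.Rp x hx x' hx' hD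
    have a1 := (key x x' hx hx' h7).1
    have a2 := (key x x' hx hx' h8).2
    linarith

namespace Loose

lemma nums0 : Nums 3 3 3 2 10 10 6 13 24 (1/2) (1/4) (1/25) (62/25) (2353/1000) (169/25) (-527/200) (1627/200) (1269/40) (33233/500) (46287/500) (-1501/1000) (163/8) (1011/125) := by
  constructor <;> norm_num

lemma nums1 : Nums 3 3 3 2 10 10 6 13 24 (178/625) (1579/10000) (1/25) (341/250) (188/125) (1031/200) (-339/1000) (5271/1000) (1881/125) (9989/250) (42017/1000) (-313/500) (10357/1000) (5799/1000) := by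
  constructor <;> norm_num

lemma nums2 : Nums 3 3 3 2 10 10 6 13 24 (897/5000) (58/625) (1/25) (833/1000) (143/125) (867/200) (969/1000) (1921/500) (1897/250) (28711/1000) (3147/125) (-171/1000) (61/10) (4669/1000) := by
  constructor <;> norm_num

lemma nums3 : Nums 3 3 3 2 10 10 6 13 24 (631/5000) (647/10000) (1/25) (609/1000) (979/1000) (3937/1000) (1577/1000) (811/250) (4421/1000) (12061/500) (4769/250) (9/250) (4369/1000) (207/50) := by
  constructor <;> norm_num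

lemma nums4 : Nums 3 3 3 2 10 10 6 13 24 (127/1250) (107/2000) (1/25) (259/500) (907/1000) (3759/1000) (46/25) (3001/1000) (3121/1000) (5563/250) (1673/100) (31/250) (3667/1000) (977/250) := by
  constructor <;> norm_num

lemma nums5 : Nums 3 3 3 2 10 10 6 13 24 (91/1000) (49/1000) (1/25) (12/25) (219/250) (3683/1000) (1949/1000) (1451/500) (259/100) (2149/100) (79/5) (161/1000) (424/125) (381/100) := by
  constructor <;> norm_num

theorem no_limit {μ θ : ℝ} (hμ0 : 0 ≤ μ) (hμ1 : μ ≤ 1 / 2) (hθ0 : 1 / 2 ≤ θ) (hθ1 : θ ≤ 1) {s ρ r : ℕ → ℝ}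
    (hstep : LevelStep 3 3 3 2 10 10 6 13 24 μ θ s ρ r) (hs0 : ∀ n, 0 ≤ s n) (hρ1 : ∀ n, ρ n ≤ s n)
    (hρ2 : ∀ n, -s n / 2 ≤ ρ n) (hr0 : ∀ n, 0 ≤ r n) (hr1 : ∀ n, r n ≤ s n) {l : ℝ} (hsl : ∀ n, l ≤ s n)
    (hlim : Tendsto s atTop (𝓝 l)) (hl0 : 0 < l) (hl1 : l < (1/25)) : False := by
  have hθ0' : 0 ≤ θ := by linarith
  have b0 : ∀ᶠ n in atTop, μ * |ρ n| ≤ (1/2) * s n ∧ μ ^ 2 * r n ≤ (1/4) * s n := by
    refine Eventually.of_forall fun n => ?_
    exact trivial_box hμ0 hμ1 (hs0 n) (hρ1 n) (hρ2 n) (hr0 n) (hr1 n)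
  have b1 := box_step nums0 hμ0 hμ1 hθ0' hθ1 hstep hl0 hsl hlim hl1 (E := (3559/500)) (F := (1973/500)) (α' := (178/625)) (β' := (1579/10000))
    (by norm_num) (by norm_num) (by norm_num) (by norm_num) (by norm_num) (by norm_num) (by norm_num) (by norm_num) (by norm_num) (by norm_num) b0
  have b2 := box_step nums1 hμ0 hμ1 hθ0' hθ1 hstep hl0 hsl hlim hl1 (E := (1121/250)) (F := (1159/500)) (α' := (897/5000)) (β' := (58/625))
    (by norm_num) (by norm_num) (by norm_num) (by norm_num) (by norm_num) (by norm_num) (by norm_num) (by norm_num) (by norm_num) (by norm_num) b1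
  have b3 := box_step nums2 hμ0 hμ1 hθ0' hθ1 hstep hl0 hsl hlim hl1 (E := (3153/1000)) (F := (1617/1000)) (α' := (631/5000)) (β' := (647/10000))
    (by norm_num) (by norm_num) (by norm_num) (by norm_num) (by norm_num) (by norm_num) (by norm_num) (by norm_num) (by norm_num) (by norm_num) b2
  have b4 := box_step nums3 hμ0 hμ1 hθ0' hθ1 hstep hl0 hsl hlim hl1 (E := (2539/1000)) (F := (167/125)) (α' := (127/1250)) (β' := (107/2000))
    (by norm_num) (by norm_num) (by norm_num) (by norm_num) (by norm_num) (by norm_num) (by norm_num) (by norm_num) (by norm_num) (by norm_num) b3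
  have b5 := box_step nums4 hμ0 hμ1 hθ0' hθ1 hstep hl0 hsl hlim hl1 (E := (2273/1000)) (F := (153/125)) (α' := (91/1000)) (β' := (49/1000))
    (by norm_num) (by norm_num) (by norm_num) (by norm_num) (by norm_num) (by norm_num) (by norm_num) (by norm_num) (by norm_num) (by norm_num) b4
  exact final_step nums5 hθ0 hθ1 hstep hl0 hsl hlim hl1 (by norm_num) b5


/-- If the moments converge along an antitone sequence to `l < 1/25` then `l = 0`. -/
theorem tendsto_zero_of_exit {μ θ : ℝ} (hμ0 : 0 ≤ μ) (hμ1 : μ ≤ 1 / 2) (hθ0 : 1 / 2 ≤ θ) (hθ1 : θ ≤ 1) {s ρ r : ℕ → ℝ}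
    (hstep : LevelStep 3 3 3 2 10 10 6 13 24 μ θ s ρ r) (hanti : Antitone s) (hs0 : ∀ n, 0 ≤ s n)
    (hρ1 : ∀ n, ρ n ≤ s n) (hρ2 : ∀ n, -s n / 2 ≤ ρ n) (hr0 : ∀ n, 0 ≤ r n) (hr1 : ∀ n, r n ≤ s n)
    (hexit : ∃ n, s n < 1 / 25) : Tendsto s atTop (𝓝 0) := by
  have hbdd : BddBelow (Set.range s) := ⟨0, by rintro _ ⟨n, rfl⟩; exact hs0 n⟩
  have hlim : Tendsto s atTop (𝓝 (⨅ n, s n)) := tendsto_atTop_ciInf hanti hbdd
  set l := ⨅ n, s n with hl
  have hsl : ∀ n, l ≤ s n := fun n => ciInf_le hbdd n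
  have hl00 : 0 ≤ l := le_ciInf hs0
  obtain ⟨n, hn⟩ := hexit
  have hl1 : l < 1 / 25 := (hsl n).trans_lt hn
  rcases hl00.lt_or_eq with h | h
  · exact (no_limit hμ0 hμ1 hθ0 hθ1 hstep hs0 hρ1 hρ2 hr0 hr1 hsl hlim h hl1).elim
  · rw [← h] at hlim
    exact hlim

/-- **Tail, regular tree.** -/
theorem tail_leaf (hP : TailPairs 3 3 3 2 10 10 6 13 24) {b : ℕ} (hb : 4 ≤ b) {lam : ℝ} (hl : lam < 0)
    (hbl : (b : ℝ) * lam ^ 2 = 1) (hch : ∀ i j : Fin 3, 0 ≤ channel 3 lam i j)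
    (hexit : ∃ n, momS (leafSL 3 b lam n (by norm_num) hch) < 1 / 25) :
    Tendsto (advantage 3 b lam) atTop (𝓝 0) := by
  have hb4 : (4 : ℝ) ≤ b := by exact_mod_cast hb
  have hμ2 : lam ^ 2 ≤ 1 / 4 := by nlinarith [sq_nonneg lam]
  have hμ1 : -lam ≤ 1 / 2 := by nlinarith
  obtain ⟨μ, rfl⟩ : ∃ μ, lam = -μ := ⟨-lam, by ring⟩
  have hμ0 : 0 ≤ μ := by linarith
  have hcrit : (b : ℝ) * μ ^ 2 = 1 := by simpa using hbl
  have hθ0 : (1 : ℝ) / 2 ≤ 1 - 1 / (b : ℝ) := by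
    have : 1 / (b : ℝ) ≤ 1 / 4 := one_div_le_one_div_of_le (by norm_num) hb4
    linarith
  have hθ1 : 1 - 1 / (b : ℝ) ≤ 1 := by
    have : 0 ≤ 1 / (b : ℝ) := by positivity
    linarith
  have h3 : 0 < 3 := by norm_num
  refine advantage_tendsto_of_momS b (-μ) hch ?_
  exact tendsto_zero_of_exit hμ0 (by linarith) hθ0 hθ1 (levelStep_leaf hP (by omega) hμ0 (by linarith) hch hcrit)
    (momS_leaf_antitone b (-μ) h3 hch) (fun n => momS_nonneg _) (fun n => momC_le_momS _)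
    (fun n => neg_half_momS_le_momC _) (fun n => momR_nonneg _) (fun n => momR_le_momS _) hexit

/-- **Tail, Poisson tree.** -/
theorem tail_gw (hP : TailPairs 3 3 3 2 10 10 6 13 24) {d : ℝ} (hd : 4 ≤ d) {lam : ℝ} (hl : lam < 0)
    (hdl : d * lam ^ 2 = 1) (hch : ∀ i j : Fin 3, 0 ≤ channel 3 lam i j)
    (hexit : ∃ n, momS (gwSL 3 lam d n (by linarith) (by norm_num) hch) < 1 / 25) :
    Tendsto (gwAdvantage 3 lam d) atTop (𝓝 0) := by
  have hμ2 : lam ^ 2 ≤ 1 / 4 := by nlinarith [sq_nonneg lam]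
  have hμ1 : -lam ≤ 1 / 2 := by nlinarith
  obtain ⟨μ, rfl⟩ : ∃ μ, lam = -μ := ⟨-lam, by ring⟩
  have hμ0 : 0 ≤ μ := by linarith
  have hcrit : d * μ ^ 2 = 1 := by simpa using hdl
  have h3 : 0 < 3 := by norm_num
  have hd0 : 0 < d := by linarith
  refine gwAdvantage_tendsto_of_momS (-μ) d hd0.le hch ?_
  exact tendsto_zero_of_exit hμ0 (by linarith) (by norm_num) le_rfl (levelStep_gw hP hd0 hμ0 (by linarith) hch hcrit)
    (momS_gw_antitone (-μ) d hd0.le h3 hch) (fun n => momS_nonneg _) (fun n => momC_le_momS _)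
    (fun n => neg_half_momS_le_momC _) (fun n => momR_nonneg _) (fun n => momR_le_momS _) hexit

end Loose

end Crest.Agent.Lib.Bc.Tail
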