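import Crest.Agent.Lib.Bc.Api
/-!
# Row 163: reindexing laws, `pow` as a function space, and the advantage formula
-/
open scoped BigOperators
namespace Crest.Agent.Lib.Bc
variable {q : ℕ}
namespace SLaw

/-- two laws with the same likelihoods along an equivalence of observations have the same `Φ` -/
lemma Φ_congr_equiv (L L' : SLaw q) (e : L.O ≃ L'.O) (h : ∀ o i, L'.w (e o) i = L.w o i)
    (f : (Fin q → ℝ) → ℝ) : L'.Φ f = L.Φ f := by
  unfold Φ
  rw [← e.tsum_eq (fun o => L'.mass o * f (L'.post o))]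
  refine tsum_congr fun o => ?_
  have h1 : L'.mass (e o) = L.mass o := by
    unfold mass; simp only [h]
  have h2 : L'.post (e o) = L.post o := by
    funext i; unfold post; simp only [h]
  rw [h1, h2]

/-- same for laws on the same observation type with the same likelihoods, via a function -/
lemma Φ_congr_fun (L L' : SLaw q) (e : L.O → L'.O) (he : Function.Bijective e)
    (h : ∀ o i, L'.w (e o) i = L.w o i)
    (f : (Fin q → ℝ) → ℝ) : L'.Φ f = L.Φ f :=
  Φ_congr_equiv L L' (Equiv.ofBijective e he) h f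

/-- appending at the end -/
def snocE (X : Type) (c : ℕ) : (Fin c → X) × X ≃ (Fin (c + 1) → X) where
  toFun p := Fin.snoc (α := fun _ => X) p.1 p.2
  invFun g := (Fin.init (α := fun _ => X) g, g (Fin.last c))
  left_inv p := by simp
  right_inv g := Fin.snoc_init_self (α := fun _ => X) g

/-- `pow L c` has observations `Fin c → L.O` -/
noncomputable def powEquiv (L : SLaw q) : (c : ℕ) → (pow L c).O ≃ (Fin c → L.O)
  | 0 => (Equiv.ofUnique (Unit) (Fin 0 → L.O))
  | c + 1 =>
    ((Equiv.prodCongr (powEquiv L c) (Equiv.refl L.O)).trans (snocE L.O c))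

lemma pow_w (L : SLaw q) (c : ℕ) (o : (pow L c).O) (i : Fin q) :
    (pow L c).w o i = ∏ m, L.w (powEquiv L c o m) i := by
  induction c with
  | zero => simp [pow, triv]
  | succ c ih =>
    obtain ⟨o1, o2⟩ := o
    have h1 : (pow L (c + 1)).w (o1, o2) i = (pow L c).w o1 i * L.w o2 i := rfl
    have e1 : ∀ x : Fin c, powEquiv L (c + 1) (o1, o2) x.castSucc = powEquiv L c o1 x := fun x => by
      show Fin.snoc (α := fun _ => L.O) (powEquiv L c o1) o2 x.castSucc = _
      simp only [Fin.snoc_castSucc]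
    have e2 : powEquiv L (c + 1) (o1, o2) (Fin.last c) = o2 := by
      show Fin.snoc (α := fun _ => L.O) (powEquiv L c o1) o2 (Fin.last c) = _
      simp only [Fin.snoc_last]
    rw [h1, ih, Fin.prod_univ_castSucc]
    simp only [e1, e2]

/-- `pow L c` compared to a law with observations `O'` with an equivalence to `Fin c → L.O` -/
lemma Φ_pow_of_equiv (L L' : SLaw q) (c : ℕ) (e : L'.O ≃ (Fin c → L.O))
    (h : ∀ o i, L'.w o i = ∏ m, L.w (e o m) i) (f : (Fin q → ℝ) → ℝ) :
    L'.Φ f = (pow L c).Φ f := by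
  refine (Φ_congr_equiv L' (pow L c) (e.trans (powEquiv L c).symm) ?_ f).symm
  intro o i
  rw [pow_w, h]
  simp

/-- each term of `Φ tvU` is the textbook expression -/
lemma mass_mul_tvU (hq : 0 < q) (L : SLaw q) (o : L.O) :
    L.mass o * tvU q (L.post o) = (1 / (2 * q)) * ∑ i, |L.w o i - (1 / q) * ∑ j, L.w o j| := by
  have hq' : (q : ℝ) ≠ 0 := by positivity
  by_cases h : ∑ j, L.w o j = 0
  · have hm : L.mass o = 0 := by simp [mass, h]
    simp [hm, L.w_eq_zero_of_sum h]
  · have hW : 0 < ∑ j, L.w o j := lt_of_le_of_ne (L.sum_w_nonneg o) (Ne.symm h)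
    set W := ∑ j, L.w o j with hWd
    have hp : ∀ i, L.post o i = L.w o i / W := fun i => by
      show (if W = 0 then (1 : ℝ) / q else L.w o i / W) = _
      rw [if_neg h]
    have hm : L.mass o = W / q := rfl
    unfold tvU
    rw [hm]
    simp only [hp]
    have key : ∀ i, |L.w o i - 1 / (q : ℝ) * W| = W * |L.w o i / W - 1 / (q : ℝ)| := fun i => by
      have : L.w o i - 1 / (q : ℝ) * W = W * (L.w o i / W - 1 / (q : ℝ)) := by
        field_simp
      rw [this, abs_mul, abs_of_pos hW]
    simp only [key, ← Finset.mul_sum]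
    field_simp

lemma Φ_tvU_of_fintype (hq : 0 < q) (L : SLaw q) :
    L.Φ (tvU q) = ∑' o, (1 / (2 * (q : ℝ))) * ∑ i, |L.w o i - (1 / q) * ∑ j, L.w o j| := by
  unfold Φ
  exact tsum_congr fun o => mass_mul_tvU hq L o

end SLaw
end Crest.Agent.Lib.Bc
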