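import Crest.Agent.Lib.Bc.Compare
import Crest.Agent.Lib.Bc.Equiv
import Crest.Agent.Lib.Bc.Abstract
/-!
# Row 163: thinning domination for the Poisson model

`T_{θ μ} x = θ T_μ x + (1-θ) u`, so in the convex order the tilted law `T_{θ μ} M` sits below the
erasure mixture `θ (T_μ M) + (1-θ) δ_u`; the centre `u` is the unit of the star product and a Poisson
number of erasure children is a thinned Poisson number of children:

* `gw_thin_dominated`: `gwSL (θ μ) d` is dominated by `gwSL μ (θ d)`, at every level.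
* `gw_window_dominated`: the critical point `(d, -1/√d)` is dominated by `(d', -μ')` as soon as
  `1/√d ≤ μ'` and `√d ≤ μ' d'`.  So a window `[d₁,d₂]` of critical points has the single upper chain
  `μ' = 1/√d₁`, `d' = √(d₁ d₂)`, with `d' μ'² = √(d₂/d₁)`.
-/
open scoped BigOperators
open Filter Topology
open Crest.ProbabilityR.Broadcast
namespace Crest.Agent.Lib.Bc
variable {q : ℕ}
namespace SLaw

/-- the erasure mixture: with probability `θ` an observation of `K`, otherwise nothing -/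
noncomputable def erase (K : SLaw q) (θ : ℝ) (h0 : 0 ≤ θ) (h1 : θ ≤ 1) : SLaw q where
  O := K.O ⊕ Unit
  w := Sum.elim (fun o i => θ * K.w o i) (fun _ _ => 1 - θ)
  nonneg := by
    rintro (o | o) i
    · exact mul_nonneg h0 (K.nonneg o i)
    · exact sub_nonneg.2 h1
  sum_one := fun i => by
    have h2 : HasSum (fun _ : Unit => (1 : ℝ) - θ) (1 - θ) := by
      exact (hasSum_unique (fun _ : Unit => (1 : ℝ) - θ))
    have h3 : HasSum (fun o : K.O ⊕ Unit =>
        (Sum.elim (fun o i => θ * K.w o i) (fun _ _ => 1 - θ) : K.O ⊕ Unit → Fin q → ℝ) o i) (θ * 1 + (1 - θ)) :=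
      HasSum.sum ((K.sum_one i).mul_left θ) h2
    simpa using h3
  sym := fun σ => by
    obtain ⟨e, he⟩ := K.sym σ
    refine ⟨Equiv.sumCongr e (Equiv.refl _), ?_⟩
    rintro (o | o) i
    · simp [he]
    · simp

lemma Φ_prod_assoc' (A B C : SLaw q) (f : (Fin q → ℝ) → ℝ) :
    ((A.prod B).prod C).Φ f = (A.prod (B.prod C)).Φ f :=
  SLaw.Φ_congr_equiv (A.prod (B.prod C)) ((A.prod B).prod C)
    (Equiv.prodAssoc A.O B.O C.O).symm (fun o i => by
      obtain ⟨a, b, c⟩ := o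
      show A.w a i * B.w b i * C.w c i = A.w a i * (B.w b i * C.w c i)
      ring) f

lemma Φ_prod_swap_right (A B C : SLaw q) (f : (Fin q → ℝ) → ℝ) :
    ((A.prod B).prod C).Φ f = ((A.prod C).prod B).Φ f :=
  SLaw.Φ_congr_equiv ((A.prod C).prod B) ((A.prod B).prod C)
    ((Equiv.prodAssoc A.O C.O B.O).trans ((Equiv.prodCongr (Equiv.refl _) (Equiv.prodComm _ _)).trans
      (Equiv.prodAssoc A.O B.O C.O).symm)) (fun o i => by
      obtain ⟨⟨a, c⟩, b⟩ := o
      show A.w a i * B.w b i * C.w c i = A.w a i * C.w c i * B.w b i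
      ring) f

/-- the product with an erasure mixture is a mixture of products -/
theorem Φ_prod_erase (hq : 0 < q) (A K : SLaw q) (θ : ℝ) (h0 : 0 ≤ θ) (h1 : θ ≤ 1)
    {f : (Fin q → ℝ) → ℝ} (hf : BddS f) :
    (A.prod (K.erase θ h0 h1)).Φ f = θ * (A.prod K).Φ f + (1 - θ) * A.Φ f := by
  set L := A.prod (K.erase θ h0 h1) with hL
  let e : A.O × (K.O ⊕ Unit) ≃ (A.O × K.O) ⊕ (A.O × Unit) := Equiv.prodSumDistrib _ _ _
  let F : L.O → ℝ := fun o => L.mass o * f (L.post o)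
  have h2 : HasSum (fun p : A.O × K.O => F (p.1, Sum.inl p.2)) (θ * (A.prod K).Φ f) := by
    have : (fun p : A.O × K.O => F (p.1, Sum.inl p.2))
        = fun p => θ * ((A.prod K).mass p * f ((A.prod K).post p)) := by
      funext p
      refine term_of_scale (A.prod K) L p (p.1, Sum.inl p.2) θ (fun i => ?_) f
      show A.w p.1 i * (θ * K.w p.2 i) = θ * (A.w p.1 i * K.w p.2 i)
      ring
    rw [this]
    exact ((A.prod K).summable_Φ hq hf).hasSum.mul_left θ
  have h3 : HasSum (fun p : A.O × Unit => F (p.1, Sum.inr p.2)) ((1 - θ) * A.Φ f) := by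
    have : (fun p : A.O × Unit => F (p.1, Sum.inr p.2))
        = fun p => (1 - θ) * (A.mass p.1 * f (A.post p.1)) := by
      funext p
      refine term_of_scale A L p.1 (p.1, Sum.inr p.2) (1 - θ) (fun i => ?_) f
      show A.w p.1 i * (1 - θ) = (1 - θ) * A.w p.1 i
      ring
    rw [this]
    have h4 : HasSum (fun p : A.O × Unit => A.mass p.1 * f (A.post p.1)) (A.Φ f) := by
      have h5 := (A.summable_Φ hq hf).hasSum
      exact ((Equiv.prodPUnit A.O).hasSum_iff (f := fun o => A.mass o * f (A.post o))).2 h5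
    exact h4.mul_left (1 - θ)
  have h6 : HasSum (F ∘ e.symm) (θ * (A.prod K).Φ f + (1 - θ) * A.Φ f) := by
    refine HasSum.sum ?_ ?_
    · exact h2
    · exact h3
  have h7 : HasSum F (θ * (A.prod K).Φ f + (1 - θ) * A.Φ f) := (e.symm.hasSum_iff).1 h6
  exact h7.tsum_eq

/-- the binomial mixture, written recursively -/
noncomputable def binomEval (θ : ℝ) : ℕ → (ℕ → ℝ) → ℝ
  | 0, g => g 0
  | c + 1, g => θ * binomEval θ c (fun j => g (j + 1)) + (1 - θ) * binomEval θ c g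

theorem Φ_prod_erase_pow (hq : 0 < q) (K : SLaw q) (θ : ℝ) (h0 : 0 ≤ θ) (h1 : θ ≤ 1)
    {f : (Fin q → ℝ) → ℝ} (hf : BddS f) (c : ℕ) (A : SLaw q) :
    (A.prod ((K.erase θ h0 h1).pow c)).Φ f = binomEval θ c (fun j => (A.prod (K.pow j)).Φ f) := by
  induction c generalizing A with
  | zero => rfl
  | succ c ih =>
    set E := K.erase θ h0 h1 with hE
    have e1 : (A.prod (E.pow (c + 1))).Φ f = ((A.prod (E.pow c)).prod E).Φ f :=
      (Φ_prod_assoc' A (E.pow c) E f).symm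
    rw [e1, Φ_prod_erase hq (A.prod (E.pow c)) K θ h0 h1 hf, Φ_prod_swap_right A (E.pow c) K f,
      ih (A.prod K), ih A]
    have hg : (fun j => ((A.prod K).prod (K.pow j)).Φ f) = (fun j => (A.prod (K.pow (j + 1))).Φ f) := by
      funext j
      refine (Φ_prod_assoc' A K (K.pow j) f).trans ?_
      refine SLaw.Φ_congr_equiv (A.prod (K.pow (j + 1))) (A.prod (K.prod (K.pow j)))
        (Equiv.prodCongr (Equiv.refl _) (Equiv.prodComm _ _)) (fun o i => ?_) f
      obtain ⟨a, u, k⟩ := o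
      show A.w a i * (K.w k i * (K.pow j).w u i) = A.w a i * ((K.pow j).w u i * K.w k i)
      ring
    rw [hg]
    rfl

theorem Φ_erase_pow (hq : 0 < q) (K : SLaw q) (θ : ℝ) (h0 : 0 ≤ θ) (h1 : θ ≤ 1)
    {f : (Fin q → ℝ) → ℝ} (hf : BddS f) (c : ℕ) :
    ((K.erase θ h0 h1).pow c).Φ f = binomEval θ c (fun j => (K.pow j).Φ f) := by
  have := Φ_prod_erase_pow hq K θ h0 h1 hf c (triv q)
  simp only [Φ_triv_prod] at this
  exact this

end SLaw

open SLaw

/-- closed form of the binomial mixture -/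
lemma binomEval_eq (θ : ℝ) (c : ℕ) (g : ℕ → ℝ) :
    binomEval θ c g = ∑ p ∈ Finset.HasAntidiagonal.antidiagonal c,
      (c.choose p.1 : ℝ) * (θ ^ p.1 * (1 - θ) ^ p.2 * g p.1) := by
  induction c generalizing g with
  | zero => simp [binomEval]
  | succ c ih =>
    rw [Finset.sum_antidiagonal_choose_succ_mul (fun i m => θ ^ i * (1 - θ) ^ m * g i) c]
    simp only [binomEval]
    rw [ih, ih, add_comm, Finset.mul_sum, Finset.mul_sum]
    refine congrArg₂ _ (Finset.sum_congr rfl fun p _ => by ring) (Finset.sum_congr rfl fun p hp => ?_)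
    have hp' : p.1 + p.2 = c := Finset.HasAntidiagonal.mem_antidiagonal.1 hp
    have : (c.choose p.1 : ℝ) = (c.choose p.2 : ℝ) := by
      rw [Nat.choose_symm_of_eq_add hp'.symm]
    rw [this]
    ring

/-- Poisson thinning, pointwise -/
lemma pois_thin_term (d θ : ℝ) (c : ℕ) (g : ℕ → ℝ) :
    (Real.exp (-d) * d ^ c / Nat.factorial c) * binomEval θ c g
      = ∑ p ∈ Finset.HasAntidiagonal.antidiagonal c,
        (Real.exp (-(θ * d)) * (θ * d) ^ p.1 / Nat.factorial p.1) *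
          (Real.exp (-((1 - θ) * d)) * ((1 - θ) * d) ^ p.2 / Nat.factorial p.2) * g p.1 := by
  rw [binomEval_eq, Finset.mul_sum]
  refine Finset.sum_congr rfl fun p hp => ?_
  have hp' : p.1 + p.2 = c := Finset.HasAntidiagonal.mem_antidiagonal.1 hp
  have hexp : Real.exp (-d) = Real.exp (-(θ * d)) * Real.exp (-((1 - θ) * d)) := by
    rw [← Real.exp_add]; congr 1; ring
  have hc : (c.choose p.1 : ℝ) = (Nat.factorial c : ℝ) / ((Nat.factorial p.1 : ℝ) * (Nat.factorial p.2 : ℝ)) := by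
    rw [← hp', Nat.cast_add_choose]
  have h1 : (Nat.factorial p.1 : ℝ) ≠ 0 := by exact_mod_cast Nat.factorial_ne_zero _
  have h2 : (Nat.factorial p.2 : ℝ) ≠ 0 := by exact_mod_cast Nat.factorial_ne_zero _
  have h3 : (Nat.factorial c : ℝ) ≠ 0 := by exact_mod_cast Nat.factorial_ne_zero _
  have hdc : d ^ c = d ^ p.1 * d ^ p.2 := by rw [← hp', pow_add]
  rw [hexp, hc, hdc, mul_pow, mul_pow]
  field_simp

/-- Poisson thinning for bounded sequences -/
theorem pois_thin_tsum {d θ : ℝ} (hd : 0 ≤ d) (h0 : 0 ≤ θ) (h1 : θ ≤ 1) {g : ℕ → ℝ} {C : ℝ}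
    (hC : ∀ c, |g c| ≤ C) :
    ∑' c : ℕ, (Real.exp (-d) * d ^ c / Nat.factorial c) * binomEval θ c g
      = ∑' c : ℕ, (Real.exp (-(θ * d)) * (θ * d) ^ c / Nat.factorial c) * g c := by
  let P : ℝ → ℕ → ℝ := fun t c => Real.exp (-t) * t ^ c / Nat.factorial c
  have hd1 : 0 ≤ θ * d := mul_nonneg h0 hd
  have hd2 : 0 ≤ (1 - θ) * d := mul_nonneg (sub_nonneg.2 h1) hd
  have hP1 : HasSum (P (θ * d)) 1 := pois_hasSum _
  have hP2 : HasSum (P ((1 - θ) * d)) 1 := pois_hasSum _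
  have hP01 : ∀ c, 0 ≤ P (θ * d) c := pois_nonneg hd1
  have hP02 : ∀ c, 0 ≤ P ((1 - θ) * d) c := pois_nonneg hd2
  have hprod : Summable fun z : ℕ × ℕ => P (θ * d) z.1 * P ((1 - θ) * d) z.2 :=
    hP1.summable.mul_of_nonneg hP2.summable hP01 hP02
  let F : ℕ × ℕ → ℝ := fun z => P (θ * d) z.1 * P ((1 - θ) * d) z.2 * g z.1
  have hF : Summable F := by
    refine Summable.of_norm_bounded (g := fun z : ℕ × ℕ => P (θ * d) z.1 * P ((1 - θ) * d) z.2 * C)
      (hprod.mul_right C) ?_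
    intro z
    rw [Real.norm_eq_abs, abs_mul, abs_of_nonneg (mul_nonneg (hP01 _) (hP02 _))]
    exact mul_le_mul_of_nonneg_left (hC _) (mul_nonneg (hP01 _) (hP02 _))
  have hL : ∑' z, F z = ∑' c : ℕ, P (θ * d) c * g c := by
    rw [hF.tsum_prod]
    refine tsum_congr fun k => ?_
    have : ∀ m, F (k, m) = (P (θ * d) k * g k) * P ((1 - θ) * d) m := fun m => by
      show P (θ * d) k * P ((1 - θ) * d) m * g k = _
      ring
    simp only [this]
    rw [tsum_mul_left, hP2.tsum_eq, mul_one]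
  have hR : ∑' z, F z = ∑' c : ℕ, (Real.exp (-d) * d ^ c / Nat.factorial c) * binomEval θ c g := by
    rw [← Finset.HasAntidiagonal.sigmaAntidiagonalEquivProd.tsum_eq F]
    have hS : Summable (F ∘ Finset.HasAntidiagonal.sigmaAntidiagonalEquivProd) :=
      Finset.HasAntidiagonal.sigmaAntidiagonalEquivProd.summable_iff.2 hF
    have e1 : ∑' c, F (Finset.HasAntidiagonal.sigmaAntidiagonalEquivProd c)
        = ∑' c, (F ∘ Finset.HasAntidiagonal.sigmaAntidiagonalEquivProd) c := rfl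
    rw [e1, hS.tsum_sigma' (fun n => (hasSum_fintype _).summable)]
    refine tsum_congr fun n => ?_
    rw [tsum_fintype, pois_thin_term]
    exact Finset.sum_coe_sort (Finset.HasAntidiagonal.antidiagonal n) (fun p : ℕ × ℕ =>
      (Real.exp (-(θ * d)) * (θ * d) ^ p.1 / Nat.factorial p.1) *
          (Real.exp (-((1 - θ) * d)) * ((1 - θ) * d) ^ p.2 / Nat.factorial p.2) * g p.1)
  show ∑' c : ℕ, (Real.exp (-d) * d ^ c / Nat.factorial c) * binomEval θ c g = ∑' c : ℕ, P (θ * d) c * g c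
  rw [← hL, hR]

section models
variable (hq : 0 < q)
include hq

/-- erasure bound for the tilt -/
theorem tilt_mul_le_erase (L : SLaw q) {θ mu : ℝ} (h0 : 0 ≤ θ) (h1 : θ ≤ 1)
    (h : ∀ i j : Fin q, 0 ≤ channel q mu i j) (h' : ∀ i j : Fin q, 0 ≤ channel q (θ * mu) i j) :
    Dominated (L.tilt (θ * mu) h') ((L.tilt mu h).erase θ h0 h1) := by
  intro f hf
  have hT : ∀ x ∈ Simp q, Tl q mu x ∈ Simp q := fun x hx => SLaw.Tl_mem hq mu h hx
  have hT' : ∀ x ∈ Simp q, Tl q (θ * mu) x ∈ Simp q := fun x hx => SLaw.Tl_mem hq _ h' hx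
  have hu := unif_mem_Simp hq
  have hbT := (hf.comp_Tl hT).bdd
  have e1 : ((L.tilt mu h).erase θ h0 h1).Φ f
      = θ * L.Φ (f ∘ Tl q mu) + (1 - θ) * f (fun _ => (1 : ℝ) / q) := by
    have e2 := Φ_prod_erase hq (triv q) (L.tilt mu h) θ h0 h1 hf.bdd
    rw [Φ_triv_prod, Φ_triv_prod] at e2
    rw [e2, SLaw.Φ_tilt L hq mu h hf.bdd hT]
    congr 2
    exact Φ_pow_zero (L := L) hq f
  rw [e1, SLaw.Φ_tilt L hq _ h' hf.bdd hT']
  have hbd : BddS (fun x => θ * (f ∘ Tl q mu) x + (1 - θ) * f (fun _ => (1 : ℝ) / q)) :=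
    (BddS.const_mul θ hbT).add (BddS.const _)
  have e3 : L.Φ (fun x => θ * (f ∘ Tl q mu) x + (1 - θ) * f (fun _ => (1 : ℝ) / q))
      = θ * L.Φ (f ∘ Tl q mu) + (1 - θ) * f (fun _ => (1 : ℝ) / q) := by
    rw [L.Φ_add hq (BddS.const_mul θ hbT) (BddS.const _), L.Φ_const_mul hq θ hbT, L.Φ_const hq]
  rw [← e3]
  refine L.Φ_mono hq (hf.comp_Tl hT').bdd hbd fun x hx => ?_
  have hy := hT x hx
  have e4 : Tl q (θ * mu) x = θ • Tl q mu x + (1 - θ) • (fun _ : Fin q => (1 : ℝ) / q) := by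
    funext i
    simp only [Tl, Pi.add_apply, Pi.smul_apply, smul_eq_mul]
    ring
  show f (Tl q (θ * mu) x) ≤ θ * f (Tl q mu x) + (1 - θ) * f (fun _ => (1 : ℝ) / q)
  rw [e4]
  exact hf.convex.2 hy hu h0 (sub_nonneg.2 h1) (by ring)

/-- **Thinning domination.** -/
theorem gw_thin_dominated {d θ mu : ℝ} (hd : 0 ≤ d) (h0 : 0 ≤ θ) (h1 : θ ≤ 1)
    (hch' : ∀ i j : Fin q, 0 ≤ channel q mu i j) (hch : ∀ i j : Fin q, 0 ≤ channel q (θ * mu) i j) (ℓ : ℕ) :
    Dominated (gwSL q (θ * mu) d ℓ hd hq hch) (gwSL q mu (θ * d) ℓ (mul_nonneg h0 hd) hq hch') := by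
  induction ℓ with
  | zero =>
    intro f _
    exact le_of_eq (by
      refine SLaw.Φ_congr_equiv (gwSL q mu (θ * d) 0 (mul_nonneg h0 hd) hq hch') (gwSL q (θ * mu) d 0 hd hq hch)
        (Equiv.refl _) ?_ f
      intro o i
      rfl)
  | succ ℓ ih =>
    intro f hf
    have hd' := mul_nonneg h0 hd
    rw [gwSL_succ (θ * mu) d ℓ hd hq hch hf.bdd, gwSL_succ mu (θ * d) ℓ hd' hq hch' hf.bdd]
    set K := (gwSL q (θ * mu) d ℓ hd hq hch).tilt (θ * mu) hch with hK
    set M' := gwSL q mu (θ * d) ℓ hd' hq hch' with hM'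
    set K' := M'.tilt mu hch' with hK'
    set E := K'.erase θ h0 h1 with hE
    have h2 : Dominated K E :=
      (ih.tilt hq (θ * mu) hch).trans (tilt_mul_le_erase hq M' h0 h1 hch' hch)
    obtain ⟨C, hC⟩ := hf.bdd
    have hbd : ∀ (M : SLaw q) (c : ℕ), |(M.pow c).Φ f| ≤ C := fun M c => (M.pow c).abs_Φ_le hq hC
    have hsum : ∀ (M : SLaw q) (t : ℝ), 0 ≤ t →
        Summable fun c : ℕ => (Real.exp (-t) * t ^ c / Nat.factorial c) * (M.pow c).Φ f := fun M t ht => by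
      refine Summable.of_norm_bounded (g := fun c : ℕ => (Real.exp (-t) * t ^ c / Nat.factorial c) * C)
        ((pois_hasSum t).summable.mul_right C) fun c => ?_
      rw [Real.norm_eq_abs, abs_mul, abs_of_nonneg (pois_nonneg ht c)]
      exact mul_le_mul_of_nonneg_left (hbd M c) (pois_nonneg ht c)
    refine ((hsum K d hd).tsum_le_tsum (fun c => ?_) (hsum E d hd)).trans (le_of_eq ?_)
    · exact mul_le_mul_of_nonneg_left ((h2.pow hq c) f hf) (pois_nonneg hd c)
    · have e5 : ∀ c : ℕ, (E.pow c).Φ f = binomEval θ c (fun j => (K'.pow j).Φ f) := fun c =>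
        Φ_erase_pow hq K' θ h0 h1 hf.bdd c
      simp only [e5]
      exact pois_thin_tsum hd h0 h1 (fun c => hbd K' c)

end models

/-- The critical point `(d, -1/√d)` of the Poisson model with `q = 3` below the upper chain `(d', -μ')`:
enough: `1/√d ≤ μ'` and `√d ≤ μ' d'`. -/
theorem gw_window_dominated {d d' mu : ℝ} (hd : 0 < d) (hmu : 1 / Real.sqrt d ≤ mu)
    (hd' : Real.sqrt d ≤ mu * d') (hd'0 : 0 ≤ d')
    (hq : 0 < 3) (hch : ∀ i j : Fin 3, 0 ≤ channel 3 (-(1 / Real.sqrt d)) i j)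
    (hch' : ∀ i j : Fin 3, 0 ≤ channel 3 (-mu) i j) (ℓ : ℕ) :
    Dominated (gwSL 3 (-(1 / Real.sqrt d)) d ℓ hd.le hq hch) (gwSL 3 (-mu) d' ℓ hd'0 hq hch') := by
  have hs : 0 < Real.sqrt d := Real.sqrt_pos.2 hd
  have hinv : 0 < 1 / Real.sqrt d := by positivity
  have hmu0 : 0 < mu := lt_of_lt_of_le hinv hmu
  set θ := (1 / Real.sqrt d) / mu with hθ
  have h0 : 0 ≤ θ := by positivity
  have h1 : θ ≤ 1 := by
    rw [hθ, div_le_one hmu0]
    exact hmu
  have hlam : θ * (-mu) = -(1 / Real.sqrt d) := by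
    rw [hθ]; field_simp
  have hthin : θ * d ≤ d' := by
    have e : θ * d = Real.sqrt d / mu := by
      rw [hθ]
      have h2 : d = Real.sqrt d * Real.sqrt d := (Real.mul_self_sqrt hd.le).symm
      field_simp
      nlinarith
    rw [e, div_le_iff₀ hmu0]
    linarith
  have hch2 : ∀ i j : Fin 3, 0 ≤ channel 3 (θ * (-mu)) i j := by
    rw [hlam]; exact hch
  have step1 := gw_thin_dominated hq hd.le h0 h1 hch' hch2 ℓ
  have step2 : Dominated (gwSL 3 (-mu) (θ * d) ℓ (mul_nonneg h0 hd.le) hq hch') (gwSL 3 (-mu) d' ℓ hd'0 hq hch') := by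
    have h1m : ∀ i j : Fin 3, 0 ≤ channel 3 (1 * (-mu)) i j := by
      rw [one_mul]; exact hch'
    have h3 := gw_dominated hq (mul_nonneg h0 hd.le) hthin (r := 1) (mu := -mu) (by norm_num) le_rfl hch' h1m ℓ
    intro f hf
    have h4 := h3 f hf
    have h5 : ∀ (lam : ℝ) (h1 : lam = -mu) (hc : ∀ i j : Fin 3, 0 ≤ channel 3 lam i j),
        (gwSL 3 lam (θ * d) ℓ (mul_nonneg h0 hd.le) hq hc).Φ f
          = (gwSL 3 (-mu) (θ * d) ℓ (mul_nonneg h0 hd.le) hq hch').Φ f := by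
      intro lam h1 hc
      subst h1
      rfl
    rw [← h5 (1 * (-mu)) (one_mul _) h1m]
    exact h4
  have e : Dominated (gwSL 3 (-(1 / Real.sqrt d)) d ℓ hd.le hq hch) (gwSL 3 (θ * (-mu)) d ℓ hd.le hq hch2) := by
    intro f _
    have : ∀ (lam : ℝ) (h1 : lam = -(1 / Real.sqrt d)) (hc : ∀ i j : Fin 3, 0 ≤ channel 3 lam i j),
        (gwSL 3 (-(1 / Real.sqrt d)) d ℓ hd.le hq hch).Φ f ≤ (gwSL 3 lam d ℓ hd.le hq hc).Φ f := by
      intro lam h1 hc
      subst h1
      exact le_rfl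
    exact this _ hlam hch2
  exact e.trans (step1.trans step2)

end Crest.Agent.Lib.Bc
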