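import Crest.Agent.Lib.Bc.Hats3
import Crest.Agent.Lib.Bc.CloAbstract
/-!
# Row 163, `q = 3`: the model layer of the closure evaluator

A majorant of `Kz f` which is a polynomial in `Z, X, W` integrates in closed form to a finite combination of
`G e = MM H e ^ b` (regular tree) or `G e = exp (d (MM H e - 1))` (Poisson tree).

* `evP p z` is the polynomial `p` (coefficients in `ℚ`, lowest first) at `z`;
* `evT G p e` is `E[ℓ^e p(Z)]`, given `G e = E[ℓ^e]`, by `Z = (ℓ₀+ℓ₁+ℓ₂)/3`;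
* `Fm` is a form `pZ(Z) + X pX(Z) + W pW(Z) + X² pXX(Z)`, `evF` its value and `formT G F` its expectation.
-/
open scoped BigOperators
open Filter Topology
open Crest.ProbabilityR.Broadcast
namespace Crest.Agent.Lib.Bc.CloStep
open Crest.Agent.Lib.Bc

/-- polynomial with coefficients in `ℚ`, lowest first, Horner -/
noncomputable def evP : List ℚ → ℝ → ℝ
  | [], _ => 0
  | a :: t, z => (a : ℝ) + z * evP t z

/-- `E[ℓ^e p(Z)]` from the moments `G e = E[ℓ^e]` -/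
noncomputable def evT (G : ℕ → ℕ → ℕ → ℝ) : List ℚ → ℕ → ℕ → ℕ → ℝ
  | [], _, _, _ => 0
  | a :: t, e0, e1, e2 => (a : ℝ) * G e0 e1 e2 +
      (evT G t (e0 + 1) e1 e2 + evT G t e0 (e1 + 1) e2 + evT G t e0 e1 (e2 + 1)) / 3

noncomputable def evP_eq_def_forced := @evP.eq_def

noncomputable def evT_eq_def_forced := @evT.eq_def

private lemma hs_congr {ι : Type*} {f g : ι → ℝ} {a : ℝ} (h : ∀ i, f i = g i) (hg : HasSum g a) : HasSum f a := by
  rw [funext h]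
  exact hg

/-- a monomial -/
noncomputable def ml (ℓ : Fin 3 → ℝ) (e0 e1 e2 : ℕ) : ℝ := ℓ 0 ^ e0 * ℓ 1 ^ e1 * ℓ 2 ^ e2

/-- the closed form for the polynomial in `Z` times a monomial: the hats of a power -/
theorem hasSum_evT (H : SLaw 3) (c : ℕ) (p : List ℚ) (e0 e1 e2 : ℕ) :
    HasSum (fun o => SLaw.hm H c o * (ml (SLaw.ell H c o) e0 e1 e2 * evP p (Zl (SLaw.ell H c o))))
      (evT (fun a b c' => MM H a b c' ^ c) p e0 e1 e2) := by
  induction p generalizing e0 e1 e2 with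
  | nil => simp only [evP, evT, mul_zero]; exact hasSum_zero
  | cons a t ih =>
    have h0 := (hasSum_hm_ell H c e0 e1 e2).mul_left (a : ℝ)
    have h1 := ih (e0 + 1) e1 e2
    have h2 := ih e0 (e1 + 1) e2
    have h3 := ih e0 e1 (e2 + 1)
    have h := h0.add (((h1.add h2).add h3).div_const 3)
    have e : (fun o => SLaw.hm H c o * (ml (SLaw.ell H c o) e0 e1 e2 * evP (a :: t) (Zl (SLaw.ell H c o)))) =
        fun o => (a : ℝ) * (SLaw.hm H c o * (SLaw.ell H c o 0 ^ e0 * SLaw.ell H c o 1 ^ e1 * SLaw.ell H c o 2 ^ e2)) +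
        (SLaw.hm H c o * (ml (SLaw.ell H c o) (e0 + 1) e1 e2 * evP t (Zl (SLaw.ell H c o))) +
          SLaw.hm H c o * (ml (SLaw.ell H c o) e0 (e1 + 1) e2 * evP t (Zl (SLaw.ell H c o))) +
          SLaw.hm H c o * (ml (SLaw.ell H c o) e0 e1 (e2 + 1) * evP t (Zl (SLaw.ell H c o)))) / 3 := by
      funext o
      simp only [evP, ml, Zl]
      ring
    rw [e]
    exact h

/-- a form -/
structure Fm where
  pZ : List ℚ
  pX : List ℚ
  pW : List ℚ
  pXX : List ℚ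

/-- the value of a form -/
noncomputable def evF (F : Fm) (ℓ : Fin 3 → ℝ) : ℝ :=
  evP F.pZ (Zl ℓ) + Xt ℓ * evP F.pX (Zl ℓ) + Wl ℓ * evP F.pW (Zl ℓ) + Xt ℓ ^ 2 * evP F.pXX (Zl ℓ)

/-- the expectation of a form -/
noncomputable def formT (G : ℕ → ℕ → ℕ → ℝ) (F : Fm) : ℝ :=
  evT G F.pZ 0 0 0 + (evT G F.pX 1 1 0 + evT G F.pX 1 0 1 + evT G F.pX 0 1 1) / 3 + evT G F.pW 1 1 1 +
    (evT G F.pXX 2 2 0 + evT G F.pXX 2 0 2 + evT G F.pXX 0 2 2 +
      2 * (evT G F.pXX 2 1 1 + evT G F.pXX 1 2 1 + evT G F.pXX 1 1 2)) / 9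

theorem hasSum_evF (H : SLaw 3) (c : ℕ) (F : Fm) :
    HasSum (fun o => SLaw.hm H c o * evF F (SLaw.ell H c o)) (formT (fun a b c' => MM H a b c' ^ c) F) := by
  have a := hasSum_evT H c F.pZ 0 0 0
  have b1 := hasSum_evT H c F.pX 1 1 0
  have b2 := hasSum_evT H c F.pX 1 0 1
  have b3 := hasSum_evT H c F.pX 0 1 1
  have w := hasSum_evT H c F.pW 1 1 1
  have c1 := hasSum_evT H c F.pXX 2 2 0
  have c2 := hasSum_evT H c F.pXX 2 0 2
  have c3 := hasSum_evT H c F.pXX 0 2 2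
  have d1 := hasSum_evT H c F.pXX 2 1 1
  have d2 := hasSum_evT H c F.pXX 1 2 1
  have d3 := hasSum_evT H c F.pXX 1 1 2
  have h := (((a.add (((b1.add b2).add b3).div_const 3)).add w).add
    ((((c1.add c2).add c3).add (((d1.add d2).add d3).mul_left 2)).div_const 9))
  refine hs_congr (fun o => ?_) h
  simp only [evF, ml, Xt, Wl]
  ring

/-- **the regular step**, any number of children: a majorant integrates to its closed form -/
theorem pow_le_form (H : SLaw 3) (c : ℕ) {f : (Fin 3 → ℝ) → ℝ} (hf : SLaw.BddS f) (F : Fm)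
    (hle : ∀ ℓ : Fin 3 → ℝ, (∀ i, 0 ≤ ℓ i) → Kz 3 f ℓ ≤ evF F ℓ) :
    (H.pow c).Φ f ≤ formT (fun a b c' => MM H a b c' ^ c) F := by
  have h3 : 0 < 3 := by norm_num
  have h1 := ((H.pow c).summable_Φ h3 hf).hasSum
  refine hasSum_le (fun o => ?_) h1 (hasSum_evF H c F)
  rw [SLaw.pow_term H h3 f c o]
  exact mul_le_mul_of_nonneg_left (hle _ fun i => SLaw.ell_nonneg H h3 i c o) (SLaw.hm_nonneg H h3 c o)

/-- the regular tree -/
theorem leaf_le_form (b : ℕ) (lam : ℝ) (hch : ∀ i j : Fin 3, 0 ≤ channel 3 lam i j) (n : ℕ)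
    {f : (Fin 3 → ℝ) → ℝ} (hf : SLaw.BddS f) (F : Fm)
    (hle : ∀ ℓ : Fin 3 → ℝ, (∀ i, 0 ≤ ℓ i) → Kz 3 f ℓ ≤ evF F ℓ) :
    (leafSL 3 b lam (n + 1) (by norm_num) hch).Φ f ≤
      formT (fun a b' c' => MM ((leafSL 3 b lam n (by norm_num) hch).tilt lam hch) a b' c' ^ b) F := by
  rw [leafSL_succ b lam n (by norm_num) hch hf]
  exact pow_le_form _ b hf F hle

/-- Poisson mixtures of a list expression -/
theorem hasSum_evT_pois {w : ℕ → ℝ} {G : ℕ → ℕ → ℕ → ℕ → ℝ} {G' : ℕ → ℕ → ℕ → ℝ}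
    (h : ∀ e0 e1 e2, HasSum (fun c => w c * G c e0 e1 e2) (G' e0 e1 e2)) (p : List ℚ) (e0 e1 e2 : ℕ) :
    HasSum (fun c => w c * evT (G c) p e0 e1 e2) (evT G' p e0 e1 e2) := by
  induction p generalizing e0 e1 e2 with
  | nil => simp only [evT, mul_zero]; exact hasSum_zero
  | cons a t ih =>
    have h0 := (h e0 e1 e2).mul_left (a : ℝ)
    have h1 := ih (e0 + 1) e1 e2
    have h2 := ih e0 (e1 + 1) e2
    have h3 := ih e0 e1 (e2 + 1)
    have hh := h0.add (((h1.add h2).add h3).div_const 3)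
    refine hs_congr (fun c => ?_) hh
    simp only [evT]
    ring

theorem hasSum_formT_pois {w : ℕ → ℝ} {G : ℕ → ℕ → ℕ → ℕ → ℝ} {G' : ℕ → ℕ → ℕ → ℝ}
    (h : ∀ e0 e1 e2, HasSum (fun c => w c * G c e0 e1 e2) (G' e0 e1 e2)) (F : Fm) :
    HasSum (fun c => w c * formT (G c) F) (formT G' F) := by
  have a := hasSum_evT_pois h F.pZ 0 0 0
  have b1 := hasSum_evT_pois h F.pX 1 1 0
  have b2 := hasSum_evT_pois h F.pX 1 0 1
  have b3 := hasSum_evT_pois h F.pX 0 1 1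
  have x := hasSum_evT_pois h F.pW 1 1 1
  have c1 := hasSum_evT_pois h F.pXX 2 2 0
  have c2 := hasSum_evT_pois h F.pXX 2 0 2
  have c3 := hasSum_evT_pois h F.pXX 0 2 2
  have d1 := hasSum_evT_pois h F.pXX 2 1 1
  have d2 := hasSum_evT_pois h F.pXX 1 2 1
  have d3 := hasSum_evT_pois h F.pXX 1 1 2
  have hh := (((a.add (((b1.add b2).add b3).div_const 3)).add x).add
    ((((c1.add c2).add c3).add (((d1.add d2).add d3).mul_left 2)).div_const 9))
  refine hs_congr (fun c => ?_) hh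
  simp only [formT]
  ring

/-- the Poisson tree -/
theorem gw_le_form (lam d : ℝ) (hd : 0 ≤ d) (hch : ∀ i j : Fin 3, 0 ≤ channel 3 lam i j) (n : ℕ)
    {f : (Fin 3 → ℝ) → ℝ} (hf : SLaw.BddS f) (F : Fm)
    (hle : ∀ ℓ : Fin 3 → ℝ, (∀ i, 0 ≤ ℓ i) → Kz 3 f ℓ ≤ evF F ℓ) :
    (gwSL 3 lam d (n + 1) hd (by norm_num) hch).Φ f ≤
      formT (fun a b' c' => Real.exp (d * (MM ((gwSL 3 lam d n hd (by norm_num) hch).tilt lam hch) a b' c' - 1))) F := by
  set H := (gwSL 3 lam d n hd (by norm_num) hch).tilt lam hch with hH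
  refine gw_Φ_le_of_term lam d n hd hch hf (B := fun c => formT (fun a b' c' => MM H a b' c' ^ c) F) ?_ ?_
  · refine hasSum_formT_pois (G := fun c a b' c' => MM H a b' c' ^ c) (fun e0 e1 e2 => ?_) F
    exact hasSum_pois_pow d (MM H e0 e1 e2)
  · intro c
    exact pow_le_form H c hf F hle

end Crest.Agent.Lib.Bc.CloStep
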