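import Crest.Agent.Lib.Bc.CloStep
/-!
# Row 163, `q = 3`: weights of a form on the sorted moments (per-child degree ≤ 5)

`wL5 F` is a list of 16 rationals, aligned with `alphas5` and `kL5`, computed with about 30 rational operations
in total, such that `E[form] = Σ wᵢ G(αᵢ)` for every symmetric `G`.  `kL5` is the table of `MM H α - 1` as linear forms
in the moments `momS, momC, momR, momT` of `H`.
-/
open scoped BigOperators
open Filter Topology
open Crest.ProbabilityR.Broadcast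
namespace Crest.Agent.Lib.Bc.CloStep
open Crest.Agent.Lib.Bc

set_option linter.unusedSimpArgs false

/-- coefficients on `(s, ρ, r, τ)` -/
abbrev Kq := ℚ × ℚ × ℚ × ℚ

/-- the finite sum `Σ wᵢ yᵢ` -/
noncomputable def dotW : List ℚ → List ℝ → ℝ
  | w :: ws, y :: ys => (w : ℝ) * y + dotW ws ys
  | _, _ => 0

noncomputable def dotW_eq_def_forced := @dotW.eq_def

/-- the linear form -/
noncomputable def Lq (k : Kq) (S C R T : ℝ) : ℝ :=
  (k.1 : ℝ) * S + (k.2.1 : ℝ) * C + (k.2.2.1 : ℝ) * R + (k.2.2.2 : ℝ) * T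

def alphas5 : List (ℕ × ℕ × ℕ) :=
  [(0, 0, 0), (1, 0, 0), (2, 0, 0), (1, 1, 0), (3, 0, 0), (2, 1, 0), (1, 1, 1), (4, 0, 0), (3, 1, 0), (2, 2, 0), (2, 1, 1), (5, 0, 0), (4, 1, 0), (3, 2, 0), (3, 1, 1), (2, 2, 1)]

/-- weights of a form on the sorted exponents (degree ≤ 5) -/
def wL5 (F : Fm) : List ℚ :=
  [F.pZ.getD 0 0 * (1),
   F.pZ.getD 1 0 * (1),
   F.pZ.getD 2 0 * (1/3),
   F.pZ.getD 2 0 * (2/3) + F.pX.getD 0 0 * (1),
   F.pZ.getD 3 0 * (1/9),
   F.pZ.getD 3 0 * (2/3) + F.pX.getD 1 0 * (2/3),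
   F.pZ.getD 3 0 * (2/9) + F.pX.getD 1 0 * (1/3) + F.pW.getD 0 0 * (1),
   F.pZ.getD 4 0 * (1/27),
   F.pZ.getD 4 0 * (8/27) + F.pX.getD 2 0 * (2/9),
   F.pZ.getD 4 0 * (2/9) + F.pX.getD 2 0 * (2/9) + F.pXX.getD 0 0 * (1/3),
   F.pZ.getD 4 0 * (4/9) + F.pX.getD 2 0 * (5/9) + F.pW.getD 1 0 * (1) + F.pXX.getD 0 0 * (2/3),
   F.pZ.getD 5 0 * (1/81),
   F.pZ.getD 5 0 * (10/81) + F.pX.getD 3 0 * (2/27),
   F.pZ.getD 5 0 * (20/81) + F.pX.getD 3 0 * (2/9) + F.pXX.getD 1 0 * (2/9),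
   F.pZ.getD 5 0 * (20/81) + F.pX.getD 3 0 * (7/27) + F.pW.getD 2 0 * (1/3) + F.pXX.getD 1 0 * (2/9),
   F.pZ.getD 5 0 * (10/27) + F.pX.getD 3 0 * (4/9) + F.pW.getD 2 0 * (2/3) + F.pXX.getD 1 0 * (5/9)]

/-- the moment table: `MM H α = 1 + k₁ momS H + k₂ momC H + k₃ momR H + k₄ momT H + ...` -/
def kL5 : List Kq :=
  [(0, 0, 0, 0),
   (0, 0, 0, 0),
   (2, 0, 0, 0),
   (-1, 0, 0, 0),
   (6, 2, 0, 0),
   (0, -1, 0, 0),
   (-3, 2, 0, 0),
   (12, 8, 6, 0),
   (3, -1, -3, 0),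
   (0, -4, 3, 0),
   (-3, 2, 0, 0),
   (20, 20, 30, 10),
   (8, 2, -6, -5),
   (2, -7, 3, 1),
   (-1, 2, -6, 4),
   (-4, 2, 3, -2)]

section sym5
variable {G : ℕ → ℕ → ℕ → ℝ} (h01 : ∀ a b c, G a b c = G b a c) (h12 : ∀ a b c, G a b c = G a c b)
include h01 h12

private lemma pZ05 (p : List ℚ) (hp : p.length ≤ 6) : evT G p 0 0 0 =
    ((p.getD 0 0 : ℚ) : ℝ) * ((1) * G 0 0 0) +
    ((p.getD 1 0 : ℚ) : ℝ) * ((1) * G 1 0 0) +
    ((p.getD 2 0 : ℚ) : ℝ) * ((2/3) * G 1 1 0 + (1/3) * G 2 0 0) +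
    ((p.getD 3 0 : ℚ) : ℝ) * ((2/9) * G 1 1 1 + (2/3) * G 2 1 0 + (1/9) * G 3 0 0) +
    ((p.getD 4 0 : ℚ) : ℝ) * ((4/9) * G 2 1 1 + (2/9) * G 2 2 0 + (8/27) * G 3 1 0 + (1/27) * G 4 0 0) +
    ((p.getD 5 0 : ℚ) : ℝ) * ((10/27) * G 2 2 1 + (20/81) * G 3 1 1 + (20/81) * G 3 2 0 + (10/81) * G 4 1 0 + (1/81) * G 5 0 0) := by
  have e001 : G 0 0 1 = G 1 0 0 := (h12 0 0 1).trans (h01 0 1 0)
  have e010 : G 0 1 0 = G 1 0 0 := h01 0 1 0
  have e002 : G 0 0 2 = G 2 0 0 := (h12 0 0 2).trans (h01 0 2 0)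
  have e011 : G 0 1 1 = G 1 1 0 := (h01 0 1 1).trans (h12 1 0 1)
  have e020 : G 0 2 0 = G 2 0 0 := h01 0 2 0
  have e101 : G 1 0 1 = G 1 1 0 := h12 1 0 1
  have e003 : G 0 0 3 = G 3 0 0 := (h12 0 0 3).trans (h01 0 3 0)
  have e012 : G 0 1 2 = G 2 1 0 := ((h01 0 1 2).trans (h12 1 0 2)).trans (h01 1 2 0)
  have e021 : G 0 2 1 = G 2 1 0 := (h01 0 2 1).trans (h12 2 0 1)
  have e030 : G 0 3 0 = G 3 0 0 := h01 0 3 0
  have e102 : G 1 0 2 = G 2 1 0 := (h12 1 0 2).trans (h01 1 2 0)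
  have e120 : G 1 2 0 = G 2 1 0 := h01 1 2 0
  have e201 : G 2 0 1 = G 2 1 0 := h12 2 0 1
  have e004 : G 0 0 4 = G 4 0 0 := (h12 0 0 4).trans (h01 0 4 0)
  have e013 : G 0 1 3 = G 3 1 0 := ((h01 0 1 3).trans (h12 1 0 3)).trans (h01 1 3 0)
  have e022 : G 0 2 2 = G 2 2 0 := (h01 0 2 2).trans (h12 2 0 2)
  have e031 : G 0 3 1 = G 3 1 0 := (h01 0 3 1).trans (h12 3 0 1)
  have e040 : G 0 4 0 = G 4 0 0 := h01 0 4 0
  have e103 : G 1 0 3 = G 3 1 0 := (h12 1 0 3).trans (h01 1 3 0)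
  have e112 : G 1 1 2 = G 2 1 1 := (h12 1 1 2).trans (h01 1 2 1)
  have e121 : G 1 2 1 = G 2 1 1 := h01 1 2 1
  have e130 : G 1 3 0 = G 3 1 0 := h01 1 3 0
  have e202 : G 2 0 2 = G 2 2 0 := h12 2 0 2
  have e301 : G 3 0 1 = G 3 1 0 := h12 3 0 1
  have e005 : G 0 0 5 = G 5 0 0 := (h12 0 0 5).trans (h01 0 5 0)
  have e014 : G 0 1 4 = G 4 1 0 := ((h01 0 1 4).trans (h12 1 0 4)).trans (h01 1 4 0)
  have e023 : G 0 2 3 = G 3 2 0 := ((h01 0 2 3).trans (h12 2 0 3)).trans (h01 2 3 0)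
  have e032 : G 0 3 2 = G 3 2 0 := (h01 0 3 2).trans (h12 3 0 2)
  have e041 : G 0 4 1 = G 4 1 0 := (h01 0 4 1).trans (h12 4 0 1)
  have e050 : G 0 5 0 = G 5 0 0 := h01 0 5 0
  have e104 : G 1 0 4 = G 4 1 0 := (h12 1 0 4).trans (h01 1 4 0)
  have e113 : G 1 1 3 = G 3 1 1 := (h12 1 1 3).trans (h01 1 3 1)
  have e122 : G 1 2 2 = G 2 2 1 := (h01 1 2 2).trans (h12 2 1 2)
  have e131 : G 1 3 1 = G 3 1 1 := h01 1 3 1
  have e140 : G 1 4 0 = G 4 1 0 := h01 1 4 0
  have e203 : G 2 0 3 = G 3 2 0 := (h12 2 0 3).trans (h01 2 3 0)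
  have e212 : G 2 1 2 = G 2 2 1 := h12 2 1 2
  have e230 : G 2 3 0 = G 3 2 0 := h01 2 3 0
  have e302 : G 3 0 2 = G 3 2 0 := h12 3 0 2
  have e401 : G 4 0 1 = G 4 1 0 := h12 4 0 1
  match p, hp with
  | [], _ =>
    simp only [evT, Nat.reduceAdd, zero_add, List.getD_cons_zero, List.getD_cons_succ, List.getD_nil, Rat.cast_zero, e001, e010, e002, e011, e020, e101, e003, e012, e021, e030, e102, e120, e201, e004, e013, e022, e031, e040, e103, e112, e121, e130, e202, e301, e005, e014, e023, e032, e041, e050, e104, e113, e122, e131, e140, e203, e212, e230, e302, e401]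
    ring
  | [a0], _ =>
    simp only [evT, Nat.reduceAdd, zero_add, List.getD_cons_zero, List.getD_cons_succ, List.getD_nil, Rat.cast_zero, e001, e010, e002, e011, e020, e101, e003, e012, e021, e030, e102, e120, e201, e004, e013, e022, e031, e040, e103, e112, e121, e130, e202, e301, e005, e014, e023, e032, e041, e050, e104, e113, e122, e131, e140, e203, e212, e230, e302, e401]
    ring
  | [a0, a1], _ =>
    simp only [evT, Nat.reduceAdd, zero_add, List.getD_cons_zero, List.getD_cons_succ, List.getD_nil, Rat.cast_zero, e001, e010, e002, e011, e020, e101, e003, e012, e021, e030, e102, e120, e201, e004, e013, e022, e031, e040, e103, e112, e121, e130, e202, e301, e005, e014, e023, e032, e041, e050, e104, e113, e122, e131, e140, e203, e212, e230, e302, e401]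
    ring
  | [a0, a1, a2], _ =>
    simp only [evT, Nat.reduceAdd, zero_add, List.getD_cons_zero, List.getD_cons_succ, List.getD_nil, Rat.cast_zero, e001, e010, e002, e011, e020, e101, e003, e012, e021, e030, e102, e120, e201, e004, e013, e022, e031, e040, e103, e112, e121, e130, e202, e301, e005, e014, e023, e032, e041, e050, e104, e113, e122, e131, e140, e203, e212, e230, e302, e401]
    ring
  | [a0, a1, a2, a3], _ =>
    simp only [evT, Nat.reduceAdd, zero_add, List.getD_cons_zero, List.getD_cons_succ, List.getD_nil, Rat.cast_zero, e001, e010, e002, e011, e020, e101, e003, e012, e021, e030, e102, e120, e201, e004, e013, e022, e031, e040, e103, e112, e121, e130, e202, e301, e005, e014, e023, e032, e041, e050, e104, e113, e122, e131, e140, e203, e212, e230, e302, e401]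
    ring
  | [a0, a1, a2, a3, a4], _ =>
    simp only [evT, Nat.reduceAdd, zero_add, List.getD_cons_zero, List.getD_cons_succ, List.getD_nil, Rat.cast_zero, e001, e010, e002, e011, e020, e101, e003, e012, e021, e030, e102, e120, e201, e004, e013, e022, e031, e040, e103, e112, e121, e130, e202, e301, e005, e014, e023, e032, e041, e050, e104, e113, e122, e131, e140, e203, e212, e230, e302, e401]
    ring
  | [a0, a1, a2, a3, a4, a5], _ =>
    simp only [evT, Nat.reduceAdd, zero_add, List.getD_cons_zero, List.getD_cons_succ, List.getD_nil, Rat.cast_zero, e001, e010, e002, e011, e020, e101, e003, e012, e021, e030, e102, e120, e201, e004, e013, e022, e031, e040, e103, e112, e121, e130, e202, e301, e005, e014, e023, e032, e041, e050, e104, e113, e122, e131, e140, e203, e212, e230, e302, e401]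
    ring
  | _ :: _ :: _ :: _ :: _ :: _ :: _ :: _, h =>
    simp only [List.length_cons] at h
    omega

private lemma pX1105 (p : List ℚ) (hp : p.length ≤ 4) : evT G p 1 1 0 =
    ((p.getD 0 0 : ℚ) : ℝ) * ((1) * G 1 1 0) +
    ((p.getD 1 0 : ℚ) : ℝ) * ((1/3) * G 1 1 1 + (2/3) * G 2 1 0) +
    ((p.getD 2 0 : ℚ) : ℝ) * ((5/9) * G 2 1 1 + (2/9) * G 2 2 0 + (2/9) * G 3 1 0) +
    ((p.getD 3 0 : ℚ) : ℝ) * ((4/9) * G 2 2 1 + (7/27) * G 3 1 1 + (2/9) * G 3 2 0 + (2/27) * G 4 1 0) := by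
  have e120 : G 1 2 0 = G 2 1 0 := h01 1 2 0
  have e112 : G 1 1 2 = G 2 1 1 := (h12 1 1 2).trans (h01 1 2 1)
  have e121 : G 1 2 1 = G 2 1 1 := h01 1 2 1
  have e130 : G 1 3 0 = G 3 1 0 := h01 1 3 0
  have e113 : G 1 1 3 = G 3 1 1 := (h12 1 1 3).trans (h01 1 3 1)
  have e122 : G 1 2 2 = G 2 2 1 := (h01 1 2 2).trans (h12 2 1 2)
  have e131 : G 1 3 1 = G 3 1 1 := h01 1 3 1
  have e140 : G 1 4 0 = G 4 1 0 := h01 1 4 0
  have e212 : G 2 1 2 = G 2 2 1 := h12 2 1 2
  have e230 : G 2 3 0 = G 3 2 0 := h01 2 3 0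
  match p, hp with
  | [], _ =>
    simp only [evT, Nat.reduceAdd, zero_add, List.getD_cons_zero, List.getD_cons_succ, List.getD_nil, Rat.cast_zero, e120, e112, e121, e130, e113, e122, e131, e140, e212, e230]
    ring
  | [a0], _ =>
    simp only [evT, Nat.reduceAdd, zero_add, List.getD_cons_zero, List.getD_cons_succ, List.getD_nil, Rat.cast_zero, e120, e112, e121, e130, e113, e122, e131, e140, e212, e230]
    ring
  | [a0, a1], _ =>
    simp only [evT, Nat.reduceAdd, zero_add, List.getD_cons_zero, List.getD_cons_succ, List.getD_nil, Rat.cast_zero, e120, e112, e121, e130, e113, e122, e131, e140, e212, e230]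
    ring
  | [a0, a1, a2], _ =>
    simp only [evT, Nat.reduceAdd, zero_add, List.getD_cons_zero, List.getD_cons_succ, List.getD_nil, Rat.cast_zero, e120, e112, e121, e130, e113, e122, e131, e140, e212, e230]
    ring
  | [a0, a1, a2, a3], _ =>
    simp only [evT, Nat.reduceAdd, zero_add, List.getD_cons_zero, List.getD_cons_succ, List.getD_nil, Rat.cast_zero, e120, e112, e121, e130, e113, e122, e131, e140, e212, e230]
    ring
  | _ :: _ :: _ :: _ :: _ :: _, h =>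
    simp only [List.length_cons] at h
    omega

private lemma pX1015 (p : List ℚ) (hp : p.length ≤ 4) : evT G p 1 0 1 =
    ((p.getD 0 0 : ℚ) : ℝ) * ((1) * G 1 1 0) +
    ((p.getD 1 0 : ℚ) : ℝ) * ((1/3) * G 1 1 1 + (2/3) * G 2 1 0) +
    ((p.getD 2 0 : ℚ) : ℝ) * ((5/9) * G 2 1 1 + (2/9) * G 2 2 0 + (2/9) * G 3 1 0) +
    ((p.getD 3 0 : ℚ) : ℝ) * ((4/9) * G 2 2 1 + (7/27) * G 3 1 1 + (2/9) * G 3 2 0 + (2/27) * G 4 1 0) := by
  have e101 : G 1 0 1 = G 1 1 0 := h12 1 0 1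
  have e102 : G 1 0 2 = G 2 1 0 := (h12 1 0 2).trans (h01 1 2 0)
  have e201 : G 2 0 1 = G 2 1 0 := h12 2 0 1
  have e103 : G 1 0 3 = G 3 1 0 := (h12 1 0 3).trans (h01 1 3 0)
  have e112 : G 1 1 2 = G 2 1 1 := (h12 1 1 2).trans (h01 1 2 1)
  have e121 : G 1 2 1 = G 2 1 1 := h01 1 2 1
  have e202 : G 2 0 2 = G 2 2 0 := h12 2 0 2
  have e301 : G 3 0 1 = G 3 1 0 := h12 3 0 1
  have e104 : G 1 0 4 = G 4 1 0 := (h12 1 0 4).trans (h01 1 4 0)
  have e113 : G 1 1 3 = G 3 1 1 := (h12 1 1 3).trans (h01 1 3 1)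
  have e122 : G 1 2 2 = G 2 2 1 := (h01 1 2 2).trans (h12 2 1 2)
  have e131 : G 1 3 1 = G 3 1 1 := h01 1 3 1
  have e203 : G 2 0 3 = G 3 2 0 := (h12 2 0 3).trans (h01 2 3 0)
  have e212 : G 2 1 2 = G 2 2 1 := h12 2 1 2
  have e302 : G 3 0 2 = G 3 2 0 := h12 3 0 2
  have e401 : G 4 0 1 = G 4 1 0 := h12 4 0 1
  match p, hp with
  | [], _ =>
    simp only [evT, Nat.reduceAdd, zero_add, List.getD_cons_zero, List.getD_cons_succ, List.getD_nil, Rat.cast_zero, e101, e102, e201, e103, e112, e121, e202, e301, e104, e113, e122, e131, e203, e212, e302, e401]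
    ring
  | [a0], _ =>
    simp only [evT, Nat.reduceAdd, zero_add, List.getD_cons_zero, List.getD_cons_succ, List.getD_nil, Rat.cast_zero, e101, e102, e201, e103, e112, e121, e202, e301, e104, e113, e122, e131, e203, e212, e302, e401]
    ring
  | [a0, a1], _ =>
    simp only [evT, Nat.reduceAdd, zero_add, List.getD_cons_zero, List.getD_cons_succ, List.getD_nil, Rat.cast_zero, e101, e102, e201, e103, e112, e121, e202, e301, e104, e113, e122, e131, e203, e212, e302, e401]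
    ring
  | [a0, a1, a2], _ =>
    simp only [evT, Nat.reduceAdd, zero_add, List.getD_cons_zero, List.getD_cons_succ, List.getD_nil, Rat.cast_zero, e101, e102, e201, e103, e112, e121, e202, e301, e104, e113, e122, e131, e203, e212, e302, e401]
    ring
  | [a0, a1, a2, a3], _ =>
    simp only [evT, Nat.reduceAdd, zero_add, List.getD_cons_zero, List.getD_cons_succ, List.getD_nil, Rat.cast_zero, e101, e102, e201, e103, e112, e121, e202, e301, e104, e113, e122, e131, e203, e212, e302, e401]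
    ring
  | _ :: _ :: _ :: _ :: _ :: _, h =>
    simp only [List.length_cons] at h
    omega

private lemma pX0115 (p : List ℚ) (hp : p.length ≤ 4) : evT G p 0 1 1 =
    ((p.getD 0 0 : ℚ) : ℝ) * ((1) * G 1 1 0) +
    ((p.getD 1 0 : ℚ) : ℝ) * ((1/3) * G 1 1 1 + (2/3) * G 2 1 0) +
    ((p.getD 2 0 : ℚ) : ℝ) * ((5/9) * G 2 1 1 + (2/9) * G 2 2 0 + (2/9) * G 3 1 0) +
    ((p.getD 3 0 : ℚ) : ℝ) * ((4/9) * G 2 2 1 + (7/27) * G 3 1 1 + (2/9) * G 3 2 0 + (2/27) * G 4 1 0) := by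
  have e011 : G 0 1 1 = G 1 1 0 := (h01 0 1 1).trans (h12 1 0 1)
  have e012 : G 0 1 2 = G 2 1 0 := ((h01 0 1 2).trans (h12 1 0 2)).trans (h01 1 2 0)
  have e021 : G 0 2 1 = G 2 1 0 := (h01 0 2 1).trans (h12 2 0 1)
  have e013 : G 0 1 3 = G 3 1 0 := ((h01 0 1 3).trans (h12 1 0 3)).trans (h01 1 3 0)
  have e022 : G 0 2 2 = G 2 2 0 := (h01 0 2 2).trans (h12 2 0 2)
  have e031 : G 0 3 1 = G 3 1 0 := (h01 0 3 1).trans (h12 3 0 1)
  have e112 : G 1 1 2 = G 2 1 1 := (h12 1 1 2).trans (h01 1 2 1)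
  have e121 : G 1 2 1 = G 2 1 1 := h01 1 2 1
  have e014 : G 0 1 4 = G 4 1 0 := ((h01 0 1 4).trans (h12 1 0 4)).trans (h01 1 4 0)
  have e023 : G 0 2 3 = G 3 2 0 := ((h01 0 2 3).trans (h12 2 0 3)).trans (h01 2 3 0)
  have e032 : G 0 3 2 = G 3 2 0 := (h01 0 3 2).trans (h12 3 0 2)
  have e041 : G 0 4 1 = G 4 1 0 := (h01 0 4 1).trans (h12 4 0 1)
  have e113 : G 1 1 3 = G 3 1 1 := (h12 1 1 3).trans (h01 1 3 1)
  have e122 : G 1 2 2 = G 2 2 1 := (h01 1 2 2).trans (h12 2 1 2)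
  have e131 : G 1 3 1 = G 3 1 1 := h01 1 3 1
  have e212 : G 2 1 2 = G 2 2 1 := h12 2 1 2
  match p, hp with
  | [], _ =>
    simp only [evT, Nat.reduceAdd, zero_add, List.getD_cons_zero, List.getD_cons_succ, List.getD_nil, Rat.cast_zero, e011, e012, e021, e013, e022, e031, e112, e121, e014, e023, e032, e041, e113, e122, e131, e212]
    ring
  | [a0], _ =>
    simp only [evT, Nat.reduceAdd, zero_add, List.getD_cons_zero, List.getD_cons_succ, List.getD_nil, Rat.cast_zero, e011, e012, e021, e013, e022, e031, e112, e121, e014, e023, e032, e041, e113, e122, e131, e212]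
    ring
  | [a0, a1], _ =>
    simp only [evT, Nat.reduceAdd, zero_add, List.getD_cons_zero, List.getD_cons_succ, List.getD_nil, Rat.cast_zero, e011, e012, e021, e013, e022, e031, e112, e121, e014, e023, e032, e041, e113, e122, e131, e212]
    ring
  | [a0, a1, a2], _ =>
    simp only [evT, Nat.reduceAdd, zero_add, List.getD_cons_zero, List.getD_cons_succ, List.getD_nil, Rat.cast_zero, e011, e012, e021, e013, e022, e031, e112, e121, e014, e023, e032, e041, e113, e122, e131, e212]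
    ring
  | [a0, a1, a2, a3], _ =>
    simp only [evT, Nat.reduceAdd, zero_add, List.getD_cons_zero, List.getD_cons_succ, List.getD_nil, Rat.cast_zero, e011, e012, e021, e013, e022, e031, e112, e121, e014, e023, e032, e041, e113, e122, e131, e212]
    ring
  | _ :: _ :: _ :: _ :: _ :: _, h =>
    simp only [List.length_cons] at h
    omega

private lemma pW1115 (p : List ℚ) (hp : p.length ≤ 3) : evT G p 1 1 1 =
    ((p.getD 0 0 : ℚ) : ℝ) * ((1) * G 1 1 1) +
    ((p.getD 1 0 : ℚ) : ℝ) * ((1) * G 2 1 1) +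
    ((p.getD 2 0 : ℚ) : ℝ) * ((2/3) * G 2 2 1 + (1/3) * G 3 1 1) := by
  have e112 : G 1 1 2 = G 2 1 1 := (h12 1 1 2).trans (h01 1 2 1)
  have e121 : G 1 2 1 = G 2 1 1 := h01 1 2 1
  have e113 : G 1 1 3 = G 3 1 1 := (h12 1 1 3).trans (h01 1 3 1)
  have e122 : G 1 2 2 = G 2 2 1 := (h01 1 2 2).trans (h12 2 1 2)
  have e131 : G 1 3 1 = G 3 1 1 := h01 1 3 1
  have e212 : G 2 1 2 = G 2 2 1 := h12 2 1 2
  match p, hp with
  | [], _ =>
    simp only [evT, Nat.reduceAdd, zero_add, List.getD_cons_zero, List.getD_cons_succ, List.getD_nil, Rat.cast_zero, e112, e121, e113, e122, e131, e212]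
    ring
  | [a0], _ =>
    simp only [evT, Nat.reduceAdd, zero_add, List.getD_cons_zero, List.getD_cons_succ, List.getD_nil, Rat.cast_zero, e112, e121, e113, e122, e131, e212]
    ring
  | [a0, a1], _ =>
    simp only [evT, Nat.reduceAdd, zero_add, List.getD_cons_zero, List.getD_cons_succ, List.getD_nil, Rat.cast_zero, e112, e121, e113, e122, e131, e212]
    ring
  | [a0, a1, a2], _ =>
    simp only [evT, Nat.reduceAdd, zero_add, List.getD_cons_zero, List.getD_cons_succ, List.getD_nil, Rat.cast_zero, e112, e121, e113, e122, e131, e212]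
    ring
  | _ :: _ :: _ :: _ :: _, h =>
    simp only [List.length_cons] at h
    omega

private lemma pY2205 (p : List ℚ) (hp : p.length ≤ 2) : evT G p 2 2 0 =
    ((p.getD 0 0 : ℚ) : ℝ) * ((1) * G 2 2 0) +
    ((p.getD 1 0 : ℚ) : ℝ) * ((1/3) * G 2 2 1 + (2/3) * G 3 2 0) := by
  have e230 : G 2 3 0 = G 3 2 0 := h01 2 3 0
  match p, hp with
  | [], _ =>
    simp only [evT, Nat.reduceAdd, zero_add, List.getD_cons_zero, List.getD_cons_succ, List.getD_nil, Rat.cast_zero, e230]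
    ring
  | [a0], _ =>
    simp only [evT, Nat.reduceAdd, zero_add, List.getD_cons_zero, List.getD_cons_succ, List.getD_nil, Rat.cast_zero, e230]
    ring
  | [a0, a1], _ =>
    simp only [evT, Nat.reduceAdd, zero_add, List.getD_cons_zero, List.getD_cons_succ, List.getD_nil, Rat.cast_zero, e230]
    ring
  | _ :: _ :: _ :: _, h =>
    simp only [List.length_cons] at h
    omega

private lemma pY2025 (p : List ℚ) (hp : p.length ≤ 2) : evT G p 2 0 2 =
    ((p.getD 0 0 : ℚ) : ℝ) * ((1) * G 2 2 0) +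
    ((p.getD 1 0 : ℚ) : ℝ) * ((1/3) * G 2 2 1 + (2/3) * G 3 2 0) := by
  have e202 : G 2 0 2 = G 2 2 0 := h12 2 0 2
  have e203 : G 2 0 3 = G 3 2 0 := (h12 2 0 3).trans (h01 2 3 0)
  have e212 : G 2 1 2 = G 2 2 1 := h12 2 1 2
  have e302 : G 3 0 2 = G 3 2 0 := h12 3 0 2
  match p, hp with
  | [], _ =>
    simp only [evT, Nat.reduceAdd, zero_add, List.getD_cons_zero, List.getD_cons_succ, List.getD_nil, Rat.cast_zero, e202, e203, e212, e302]
    ring
  | [a0], _ =>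
    simp only [evT, Nat.reduceAdd, zero_add, List.getD_cons_zero, List.getD_cons_succ, List.getD_nil, Rat.cast_zero, e202, e203, e212, e302]
    ring
  | [a0, a1], _ =>
    simp only [evT, Nat.reduceAdd, zero_add, List.getD_cons_zero, List.getD_cons_succ, List.getD_nil, Rat.cast_zero, e202, e203, e212, e302]
    ring
  | _ :: _ :: _ :: _, h =>
    simp only [List.length_cons] at h
    omega

private lemma pY0225 (p : List ℚ) (hp : p.length ≤ 2) : evT G p 0 2 2 =
    ((p.getD 0 0 : ℚ) : ℝ) * ((1) * G 2 2 0) +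
    ((p.getD 1 0 : ℚ) : ℝ) * ((1/3) * G 2 2 1 + (2/3) * G 3 2 0) := by
  have e022 : G 0 2 2 = G 2 2 0 := (h01 0 2 2).trans (h12 2 0 2)
  have e023 : G 0 2 3 = G 3 2 0 := ((h01 0 2 3).trans (h12 2 0 3)).trans (h01 2 3 0)
  have e032 : G 0 3 2 = G 3 2 0 := (h01 0 3 2).trans (h12 3 0 2)
  have e122 : G 1 2 2 = G 2 2 1 := (h01 1 2 2).trans (h12 2 1 2)
  match p, hp with
  | [], _ =>
    simp only [evT, Nat.reduceAdd, zero_add, List.getD_cons_zero, List.getD_cons_succ, List.getD_nil, Rat.cast_zero, e022, e023, e032, e122]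
    ring
  | [a0], _ =>
    simp only [evT, Nat.reduceAdd, zero_add, List.getD_cons_zero, List.getD_cons_succ, List.getD_nil, Rat.cast_zero, e022, e023, e032, e122]
    ring
  | [a0, a1], _ =>
    simp only [evT, Nat.reduceAdd, zero_add, List.getD_cons_zero, List.getD_cons_succ, List.getD_nil, Rat.cast_zero, e022, e023, e032, e122]
    ring
  | _ :: _ :: _ :: _, h =>
    simp only [List.length_cons] at h
    omega

private lemma pY2115 (p : List ℚ) (hp : p.length ≤ 2) : evT G p 2 1 1 =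
    ((p.getD 0 0 : ℚ) : ℝ) * ((1) * G 2 1 1) +
    ((p.getD 1 0 : ℚ) : ℝ) * ((2/3) * G 2 2 1 + (1/3) * G 3 1 1) := by
  have e212 : G 2 1 2 = G 2 2 1 := h12 2 1 2
  match p, hp with
  | [], _ =>
    simp only [evT, Nat.reduceAdd, zero_add, List.getD_cons_zero, List.getD_cons_succ, List.getD_nil, Rat.cast_zero, e212]
    ring
  | [a0], _ =>
    simp only [evT, Nat.reduceAdd, zero_add, List.getD_cons_zero, List.getD_cons_succ, List.getD_nil, Rat.cast_zero, e212]
    ring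
  | [a0, a1], _ =>
    simp only [evT, Nat.reduceAdd, zero_add, List.getD_cons_zero, List.getD_cons_succ, List.getD_nil, Rat.cast_zero, e212]
    ring
  | _ :: _ :: _ :: _, h =>
    simp only [List.length_cons] at h
    omega

private lemma pY1215 (p : List ℚ) (hp : p.length ≤ 2) : evT G p 1 2 1 =
    ((p.getD 0 0 : ℚ) : ℝ) * ((1) * G 2 1 1) +
    ((p.getD 1 0 : ℚ) : ℝ) * ((2/3) * G 2 2 1 + (1/3) * G 3 1 1) := by
  have e121 : G 1 2 1 = G 2 1 1 := h01 1 2 1
  have e122 : G 1 2 2 = G 2 2 1 := (h01 1 2 2).trans (h12 2 1 2)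
  have e131 : G 1 3 1 = G 3 1 1 := h01 1 3 1
  match p, hp with
  | [], _ =>
    simp only [evT, Nat.reduceAdd, zero_add, List.getD_cons_zero, List.getD_cons_succ, List.getD_nil, Rat.cast_zero, e121, e122, e131]
    ring
  | [a0], _ =>
    simp only [evT, Nat.reduceAdd, zero_add, List.getD_cons_zero, List.getD_cons_succ, List.getD_nil, Rat.cast_zero, e121, e122, e131]
    ring
  | [a0, a1], _ =>
    simp only [evT, Nat.reduceAdd, zero_add, List.getD_cons_zero, List.getD_cons_succ, List.getD_nil, Rat.cast_zero, e121, e122, e131]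
    ring
  | _ :: _ :: _ :: _, h =>
    simp only [List.length_cons] at h
    omega

private lemma pY1125 (p : List ℚ) (hp : p.length ≤ 2) : evT G p 1 1 2 =
    ((p.getD 0 0 : ℚ) : ℝ) * ((1) * G 2 1 1) +
    ((p.getD 1 0 : ℚ) : ℝ) * ((2/3) * G 2 2 1 + (1/3) * G 3 1 1) := by
  have e112 : G 1 1 2 = G 2 1 1 := (h12 1 1 2).trans (h01 1 2 1)
  have e113 : G 1 1 3 = G 3 1 1 := (h12 1 1 3).trans (h01 1 3 1)
  have e122 : G 1 2 2 = G 2 2 1 := (h01 1 2 2).trans (h12 2 1 2)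
  have e212 : G 2 1 2 = G 2 2 1 := h12 2 1 2
  match p, hp with
  | [], _ =>
    simp only [evT, Nat.reduceAdd, zero_add, List.getD_cons_zero, List.getD_cons_succ, List.getD_nil, Rat.cast_zero, e112, e113, e122, e212]
    ring
  | [a0], _ =>
    simp only [evT, Nat.reduceAdd, zero_add, List.getD_cons_zero, List.getD_cons_succ, List.getD_nil, Rat.cast_zero, e112, e113, e122, e212]
    ring
  | [a0, a1], _ =>
    simp only [evT, Nat.reduceAdd, zero_add, List.getD_cons_zero, List.getD_cons_succ, List.getD_nil, Rat.cast_zero, e112, e113, e122, e212]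
    ring
  | _ :: _ :: _ :: _, h =>
    simp only [List.length_cons] at h
    omega

/-- **weights**: the expectation of a form, for a symmetric moment function -/
theorem formT_eq5 (F : Fm) (hZ : F.pZ.length ≤ 6) (hX : F.pX.length ≤ 4) (hW : F.pW.length ≤ 3)
    (hY : F.pXX.length ≤ 2) : formT G F = dotW (wL5 F) (alphas5.map fun a => G a.1 a.2.1 a.2.2) := by
  unfold formT
  rw [pZ05 h01 h12 F.pZ hZ]
  rw [pX1105 h01 h12 F.pX hX]
  rw [pX1015 h01 h12 F.pX hX]
  rw [pX0115 h01 h12 F.pX hX]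
  rw [pW1115 h01 h12 F.pW hW]
  rw [pY2205 h01 h12 F.pXX hY]
  rw [pY2025 h01 h12 F.pXX hY]
  rw [pY0225 h01 h12 F.pXX hY]
  rw [pY2115 h01 h12 F.pXX hY]
  rw [pY1215 h01 h12 F.pXX hY]
  rw [pY1125 h01 h12 F.pXX hY]
  simp only [alphas5, wL5, List.map_cons, List.map_nil, dotW]
  push_cast
  ring

end sym5

/-- `E[1] = 1` -/
lemma MM_000 (H : SLaw 3) : MM H 0 0 0 = 1 := by
  unfold MM
  have : mono3 0 0 0 = fun _ => 1 := by
    funext x
    simp [mono3]
  rw [this]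
  exact H.Φ_const (by norm_num) 1

/-- the table `kL5` -/
theorem alphas5_map (H : SLaw 3) (Ψ : ℝ → ℝ) :
    (alphas5.map fun a => Ψ (MM H a.1 a.2.1 a.2.2 - 1)) =
      kL5.map fun k => Ψ (Lq k (momS H) (momC H) (momR H) (momT H)) := by
  simp only [alphas5, kL5, List.map_cons, List.map_nil, Lq]
  rw [MM_000, MM_100, MM_200, MM_110, MM_300, MM_210, MM_111, MM_400, MM_310, MM_220, MM_211, MM_500, MM_410,
    MM_320, MM_311, MM_221]
  repeat' refine congrArg₂ (· :: ·) (congrArg Ψ ?_) ?_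
  all_goals first | rfl | (push_cast; ring)

/-- tilted moments -/
noncomputable def LqT (k : Kq) (lam : ℝ) (M : SLaw 3) : ℝ :=
  Lq k (lam ^ 2 * momS M) (lam ^ 3 * momC M) (lam ^ 4 * momR M) (lam ^ 5 * momT M)

/-- **Regular tree, degree 5.** -/
theorem leaf_bound5 (b : ℕ) (lam : ℝ) (hch : ∀ i j : Fin 3, 0 ≤ channel 3 lam i j) (n : ℕ)
    {f : (Fin 3 → ℝ) → ℝ} (hf : SLaw.BddS f) (F : Fm)
    (hZ : F.pZ.length ≤ 6) (hX : F.pX.length ≤ 4) (hW : F.pW.length ≤ 3) (hY : F.pXX.length ≤ 2)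
    (hle : ∀ ℓ : Fin 3 → ℝ, (∀ i, 0 ≤ ℓ i) → Kz 3 f ℓ ≤ evF F ℓ) :
    (leafSL 3 b lam (n + 1) (by norm_num) hch).Φ f ≤
      dotW (wL5 F) (kL5.map fun k => (1 + LqT k lam (leafSL 3 b lam n (by norm_num) hch)) ^ b) := by
  have h := leaf_le_form b lam hch n hf F hle
  set M := leafSL 3 b lam n (by norm_num) hch with hM
  set H := M.tilt lam hch with hH
  rw [formT_eq5 (G := fun a b' c' => MM H a b' c' ^ b)
    (fun a b' c' => by rw [MM_swap01]) (fun a b' c' => by rw [MM_swap12]) F hZ hX hW hY] at h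
  have e := alphas5_map H (fun x => (1 + x) ^ b)
  have e' : (alphas5.map fun a => MM H a.1 a.2.1 a.2.2 ^ b) =
      alphas5.map fun a => (fun x => (1 + x) ^ b) (MM H a.1 a.2.1 a.2.2 - 1) := by
    refine List.map_congr_left fun a _ => ?_
    simp
  rw [e', e] at h
  have e2 : (kL5.map fun k => (fun x : ℝ => (1 + x) ^ b) (Lq k (momS H) (momC H) (momR H) (momT H))) =
      kL5.map fun k => (1 + LqT k lam M) ^ b := by
    refine List.map_congr_left fun k _ => ?_
    simp only [LqT]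
    rw [show momS H = lam ^ 2 * momS M from momS_tilt M lam hch, show momC H = lam ^ 3 * momC M from momC_tilt M lam hch,
      show momR H = lam ^ 4 * momR M from momR_tilt M lam hch, show momT H = lam ^ 5 * momT M from momT_tilt M lam hch]
  rw [e2] at h
  exact h

/-- **Poisson tree, degree 5.** -/
theorem gw_bound5 (lam d : ℝ) (hd : 0 ≤ d) (hch : ∀ i j : Fin 3, 0 ≤ channel 3 lam i j) (n : ℕ)
    {f : (Fin 3 → ℝ) → ℝ} (hf : SLaw.BddS f) (F : Fm)
    (hZ : F.pZ.length ≤ 6) (hX : F.pX.length ≤ 4) (hW : F.pW.length ≤ 3) (hY : F.pXX.length ≤ 2)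
    (hle : ∀ ℓ : Fin 3 → ℝ, (∀ i, 0 ≤ ℓ i) → Kz 3 f ℓ ≤ evF F ℓ) :
    (gwSL 3 lam d (n + 1) hd (by norm_num) hch).Φ f ≤
      dotW (wL5 F) (kL5.map fun k => Real.exp (d * LqT k lam (gwSL 3 lam d n hd (by norm_num) hch))) := by
  have h := gw_le_form lam d hd hch n hf F hle
  set M := gwSL 3 lam d n hd (by norm_num) hch with hM
  set H := M.tilt lam hch with hH
  rw [formT_eq5 (G := fun a b' c' => Real.exp (d * (MM H a b' c' - 1)))
    (fun a b' c' => by rw [MM_swap01]) (fun a b' c' => by rw [MM_swap12]) F hZ hX hW hY] at h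
  have e := alphas5_map H (fun x => Real.exp (d * x))
  rw [e] at h
  have e2 : (kL5.map fun k => (fun x : ℝ => Real.exp (d * x)) (Lq k (momS H) (momC H) (momR H) (momT H))) =
      kL5.map fun k => Real.exp (d * LqT k lam M) := by
    refine List.map_congr_left fun k _ => ?_
    simp only [LqT]
    rw [show momS H = lam ^ 2 * momS M from momS_tilt M lam hch, show momC H = lam ^ 3 * momC M from momC_tilt M lam hch,
      show momR H = lam ^ 4 * momR M from momR_tilt M lam hch, show momT H = lam ^ 5 * momT M from momT_tilt M lam hch]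
  rw [e2] at h
  exact h

end Crest.Agent.Lib.Bc.CloStep
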