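import Crest.Agent.Lib.Bc.Equiv
/-!
# Row 163: the regular tree model as an `SLaw` (module B3 of BLUEPRINT.md)
-/
open scoped BigOperators
open Crest.ProbabilityR.Broadcast
namespace Crest.Agent.Lib.Bc
variable {q : ℕ}

lemma leafLaw_nonneg {b : ℕ} {lam : ℝ} (hch : ∀ i j : Fin q, 0 ≤ channel q lam i j) (ℓ : ℕ) :
    ∀ (i : Fin q) (τ : (Fin ℓ → Fin b) → Fin q), 0 ≤ leafLaw q b lam ℓ i τ := by
  induction ℓ with
  | zero =>
    intro i τ
    simp only [leafLaw]
    split_ifs <;> norm_num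
  | succ ℓ ih =>
    intro i τ
    simp only [leafLaw]
    exact Finset.prod_nonneg fun m _ => Finset.sum_nonneg fun j _ => mul_nonneg (hch i j) (ih j _)

/-- the observations at depth `ℓ+1` are `b` independent observations at depth `ℓ` -/
def leafE (q b ℓ : ℕ) : ((Fin (ℓ + 1) → Fin b) → Fin q) ≃ (Fin b → ((Fin ℓ → Fin b) → Fin q)) where
  toFun τ := fun m w => τ (Fin.cons m w)
  invFun g := fun u => g (u 0) (Fin.tail u)
  left_inv τ := by
    funext u
    simp [Fin.cons_self_tail]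
  right_inv g := by
    funext m w
    simp

lemma leafLaw_sum_one {b : ℕ} {lam : ℝ} (ℓ : ℕ) :
    ∀ (i : Fin q), ∑ τ : (Fin ℓ → Fin b) → Fin q, leafLaw q b lam ℓ i τ = 1 := by
  induction ℓ with
  | zero =>
    intro i
    simp only [leafLaw]
    rw [Fintype.sum_eq_single (fun _ => i)]
    · simp
    · intro τ hτ
      have : τ Fin.elim0 ≠ i := fun h => hτ (by
        funext u
        have : u = Fin.elim0 := Subsingleton.elim _ _
        rw [this, h])
      simp [this]
  | succ ℓ ih =>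
    intro i
    rw [← (leafE q b ℓ).symm.sum_comp]
    have : ∀ g : Fin b → ((Fin ℓ → Fin b) → Fin q), leafLaw q b lam (ℓ + 1) i ((leafE q b ℓ).symm g)
        = ∏ m, ∑ j, channel q lam i j * leafLaw q b lam ℓ j (g m) := fun g => by
      simp only [leafLaw]
      refine Finset.prod_congr rfl fun m _ => ?_
      have : (fun w => (leafE q b ℓ).symm g (Fin.cons m w)) = g m := by
        funext w
        simp [leafE]
      rw [this]
    simp only [this]
    rw [← Fintype.prod_sum (fun (m : Fin b) (t : (Fin ℓ → Fin b) → Fin q) =>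
      ∑ j, channel q lam i j * leafLaw q b lam ℓ j t)]
    refine Finset.prod_eq_one fun m _ => ?_
    rw [Finset.sum_comm]
    simp only [← Finset.mul_sum, ih, mul_one]
    exact channel_sum_eq_one i lam

lemma leafLaw_perm {b : ℕ} {lam : ℝ} (σ : Equiv.Perm (Fin q)) (ℓ : ℕ) :
    ∀ (i : Fin q) (τ : (Fin ℓ → Fin b) → Fin q),
      leafLaw q b lam ℓ (σ i) (fun u => σ (τ u)) = leafLaw q b lam ℓ i τ := by
  induction ℓ with
  | zero =>
    intro i τ
    simp only [leafLaw, σ.injective.eq_iff]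
  | succ ℓ ih =>
    intro i τ
    simp only [leafLaw]
    refine Finset.prod_congr rfl fun m _ => ?_
    rw [← Equiv.sum_comp σ]
    refine Finset.sum_congr rfl fun j _ => ?_
    rw [channel_perm, ih]

/-- B3: the depth-`ℓ` spins of the `b`-ary tree, as a symmetric observation law -/
noncomputable def leafSL (q b : ℕ) (lam : ℝ) (ℓ : ℕ) (_hq : 0 < q) (hch : ∀ i j : Fin q, 0 ≤ channel q lam i j) : SLaw q where
  O := (Fin ℓ → Fin b) → Fin q
  w := fun o i => leafLaw q b lam ℓ i o
  nonneg := fun o i => leafLaw_nonneg hch ℓ i o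
  sum_one := fun i => by
    have := hasSum_fintype (fun τ : (Fin ℓ → Fin b) → Fin q => leafLaw q b lam ℓ i τ)
    rwa [leafLaw_sum_one] at this
  sym := fun σ => by
    refine ⟨⟨fun τ u => σ (τ u), fun τ u => σ.symm (τ u), fun τ => ?_, fun τ => ?_⟩, fun o i => leafLaw_perm σ ℓ i o⟩
    · funext u; simp
    · funext u; simp

theorem advantage_eq (b : ℕ) (lam : ℝ) (ℓ : ℕ) (hq : 0 < q) (hch : ∀ i j : Fin q, 0 ≤ channel q lam i j) :
    advantage q b lam ℓ = (leafSL q b lam ℓ hq hch).Φ (tvU q) := by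
  rw [SLaw.Φ_tvU_of_fintype hq]
  unfold advantage
  rw [Finset.mul_sum]
  exact (tsum_fintype (L := SummationFilter.unconditional _) _).symm

/-- one level: `M_{ℓ+1} = (T_lam M_ℓ)^{★ b}` -/
theorem leafSL_succ (b : ℕ) (lam : ℝ) (ℓ : ℕ) (hq : 0 < q) (hch : ∀ i j : Fin q, 0 ≤ channel q lam i j)
    {f : (Fin q → ℝ) → ℝ} (_hf : SLaw.BddS f) :
    (leafSL q b lam (ℓ + 1) hq hch).Φ f = (((leafSL q b lam ℓ hq hch).tilt lam hch).pow b).Φ f :=
  SLaw.Φ_pow_of_equiv _ _ b (leafE q b ℓ) (fun _ _ => rfl) f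

lemma Φ_eq_const_of_post (hq : 0 < q) (L : SLaw q) (f : (Fin q → ℝ) → ℝ) (c : ℝ)
    (h : ∀ o, f (L.post o) = c) : L.Φ f = c := by
  unfold SLaw.Φ
  simp only [h]
  have := L.Φ_const hq c
  exact this

theorem leafSL_zero (b : ℕ) (lam : ℝ) (hq : 0 < q) (hch : ∀ i j : Fin q, 0 ≤ channel q lam i j)
    (f : (Fin q → ℝ) → ℝ) (hsym : ∀ σ : Equiv.Perm (Fin q), ∀ x, f (x ∘ σ) = f x) (i : Fin q) :
    (leafSL q b lam 0 hq hch).Φ f = f (fun j => if j = i then 1 else 0) := by
  refine Φ_eq_const_of_post hq _ f _ fun τ => ?_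
  set k : Fin q := τ Fin.elim0 with hk
  have hw : ∀ j, (leafSL q b lam 0 hq hch).w τ j = if j = k then 1 else 0 := fun j => by
    show leafLaw q b lam 0 j τ = _
    simp only [leafLaw, hk, eq_comm]
  have hp : (leafSL q b lam 0 hq hch).post τ = fun j => if j = k then 1 else 0 := by
    funext j
    show (if ∑ j, (leafSL q b lam 0 hq hch).w τ j = 0 then (1 : ℝ) / q
      else (leafSL q b lam 0 hq hch).w τ j / ∑ j, (leafSL q b lam 0 hq hch).w τ j) = _
    simp only [hw]
    simp
  rw [hp]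
  have := hsym (Equiv.swap i k) (fun j => if j = i then 1 else 0)
  rw [← this]
  congr 1
  funext j
  simp only [Function.comp]
  by_cases hj : j = k
  · simp [hj]
  · have : (Equiv.swap i k) j ≠ i := fun h => hj (by
      have := congrArg (Equiv.swap i k) h
      simpa using this)
    simp [hj, this]

end Crest.Agent.Lib.Bc
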