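import Crest.Agent.Lib.Bc.Garble
import Crest.Agent.Lib.Bc.Leaf
import Crest.Agent.Lib.Bc.Gw
/-!
# Row 163: comparison of the broadcasting recursions in the convex order

* `pois_tsum_mono`: Poisson is stochastically monotone in `d`.
* `leaf_dominated`: `leafSL` is monotone in the degree `b` and in `mu` (`r * mu` against `mu`).
* `gw_dominated`: `gwSL` is monotone in `d` and `mu`.
* `tvU_convexSym`, `aSq_convexSym`: the test functions used in the row.
-/
open scoped BigOperators
open Filter Topology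
open Crest.ProbabilityR.Broadcast
namespace Crest.Agent.Lib.Bc
variable {q : ℕ}

/-- Poisson convolution, pointwise -/
lemma pois_convolution {d e : ℝ} (n : ℕ) :
    ∑ p ∈ Finset.HasAntidiagonal.antidiagonal n,
        (Real.exp (-d) * d ^ p.1 / Nat.factorial p.1) * (Real.exp (-e) * e ^ p.2 / Nat.factorial p.2)
      = Real.exp (-(d + e)) * (d + e) ^ n / Nat.factorial n := by
  have hexp : Real.exp (-(d + e)) = Real.exp (-d) * Real.exp (-e) := by
    rw [← Real.exp_add]; congr 1; ring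
  rw [hexp, (Commute.all d e).add_pow' n]
  rw [mul_div_assoc, Finset.sum_div, Finset.mul_sum]
  refine Finset.sum_congr rfl fun p hp => ?_
  have hp' : p.1 + p.2 = n := Finset.HasAntidiagonal.mem_antidiagonal.1 hp
  have hc : (n.choose p.1 : ℝ) = (Nat.factorial n : ℝ) / ((Nat.factorial p.1 : ℝ) * (Nat.factorial p.2 : ℝ)) := by
    rw [← hp', Nat.cast_add_choose]
  have h1 : (Nat.factorial p.1 : ℝ) ≠ 0 := by exact_mod_cast Nat.factorial_ne_zero _
  have h2 : (Nat.factorial p.2 : ℝ) ≠ 0 := by exact_mod_cast Nat.factorial_ne_zero _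
  have h3 : (Nat.factorial n : ℝ) ≠ 0 := by exact_mod_cast Nat.factorial_ne_zero _
  rw [nsmul_eq_mul, hc]
  field_simp

/-- Poisson is stochastically monotone: for bounded nondecreasing `g`. -/
theorem pois_tsum_mono {d d' : ℝ} (hd : 0 ≤ d) (hdd : d ≤ d') {g : ℕ → ℝ} (hg : Monotone g) {C : ℝ}
    (hC : ∀ c, |g c| ≤ C) :
    ∑' c : ℕ, (Real.exp (-d) * d ^ c / Nat.factorial c) * g c
      ≤ ∑' c : ℕ, (Real.exp (-d') * d' ^ c / Nat.factorial c) * g c := by
  have hC0 : 0 ≤ C := (abs_nonneg _).trans (hC 0)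
  set e := d' - d with he
  have he0 : 0 ≤ e := sub_nonneg.2 hdd
  have hd' : d' = d + e := by rw [he]; ring
  let P : ℝ → ℕ → ℝ := fun t c => Real.exp (-t) * t ^ c / Nat.factorial c
  have hPd : HasSum (P d) 1 := pois_hasSum d
  have hPe : HasSum (P e) 1 := pois_hasSum e
  have hP0d : ∀ c, 0 ≤ P d c := pois_nonneg hd
  have hP0e : ∀ c, 0 ≤ P e c := pois_nonneg he0
  have hprod : Summable fun z : ℕ × ℕ => P d z.1 * P e z.2 :=
    hPd.summable.mul_of_nonneg hPe.summable hP0d hP0e
  -- the double sum with `g (k + m)`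
  let F : ℕ × ℕ → ℝ := fun z => P d z.1 * P e z.2 * g (z.1 + z.2)
  have hF : Summable F := by
    refine Summable.of_norm_bounded (g := fun z : ℕ × ℕ => P d z.1 * P e z.2 * C) (hprod.mul_right C) ?_
    intro z
    rw [Real.norm_eq_abs, abs_mul, abs_of_nonneg (mul_nonneg (hP0d _) (hP0e _))]
    exact mul_le_mul_of_nonneg_left (hC _) (mul_nonneg (hP0d _) (hP0e _))
  let F0 : ℕ × ℕ → ℝ := fun z => P d z.1 * P e z.2 * g z.1
  have hF0 : Summable F0 := by
    refine Summable.of_norm_bounded (g := fun z : ℕ × ℕ => P d z.1 * P e z.2 * C) (hprod.mul_right C) ?_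
    intro z
    rw [Real.norm_eq_abs, abs_mul, abs_of_nonneg (mul_nonneg (hP0d _) (hP0e _))]
    exact mul_le_mul_of_nonneg_left (hC _) (mul_nonneg (hP0d _) (hP0e _))
  have hle : ∑' z, F0 z ≤ ∑' z, F z := hF0.tsum_le_tsum (fun z =>
    mul_le_mul_of_nonneg_left (hg (Nat.le_add_right _ _)) (mul_nonneg (hP0d _) (hP0e _))) hF
  -- left side
  have hL : ∑' z, F0 z = ∑' c : ℕ, P d c * g c := by
    rw [hF0.tsum_prod]
    refine tsum_congr fun k => ?_
    have : ∀ m, F0 (k, m) = (P d k * g k) * P e m := fun m => by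
      show P d k * P e m * g k = _
      ring
    simp only [this]
    rw [tsum_mul_left, hPe.tsum_eq, mul_one]
  -- right side
  have hR : ∑' z, F z = ∑' c : ℕ, P d' c * g c := by
    rw [← Finset.HasAntidiagonal.sigmaAntidiagonalEquivProd.tsum_eq F]
    have hS : Summable (F ∘ Finset.HasAntidiagonal.sigmaAntidiagonalEquivProd) :=
      Finset.HasAntidiagonal.sigmaAntidiagonalEquivProd.summable_iff.2 hF
    have e1 : ∑' c, F (Finset.HasAntidiagonal.sigmaAntidiagonalEquivProd c)
        = ∑' c, (F ∘ Finset.HasAntidiagonal.sigmaAntidiagonalEquivProd) c := rfl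
    rw [e1, hS.tsum_sigma' (fun n => (hasSum_fintype _).summable)]
    refine tsum_congr fun n => ?_
    rw [tsum_fintype]
    have h1 : ∀ y : Finset.HasAntidiagonal.antidiagonal n,
        (F ∘ Finset.HasAntidiagonal.sigmaAntidiagonalEquivProd) ⟨n, y⟩ = P d y.1.1 * P e y.1.2 * g n := fun y => by
      show P d y.1.1 * P e y.1.2 * g (y.1.1 + y.1.2) = _
      rw [Finset.HasAntidiagonal.mem_antidiagonal.1 y.2]
    simp only [h1]
    rw [← Finset.sum_mul, Finset.sum_coe_sort (Finset.HasAntidiagonal.antidiagonal n) (fun y => P d y.1 * P e y.2)]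
    congr 1
    rw [hd']
    exact pois_convolution n
  show ∑' c : ℕ, P d c * g c ≤ ∑' c : ℕ, P d' c * g c
  rw [← hL, ← hR]
  exact hle

/-! ## Comparison of the recursions -/

section models
variable (hq : 0 < q)
include hq

/-- the depth-zero laws do not depend on the parameters -/
lemma leafSL_zero_eq {b b' : ℕ} {lam lam' : ℝ} (hch : ∀ i j : Fin q, 0 ≤ channel q lam i j)
    (hch' : ∀ i j : Fin q, 0 ≤ channel q lam' i j) (f : (Fin q → ℝ) → ℝ) :
    (leafSL q b lam 0 hq hch).Φ f = (leafSL q b' lam' 0 hq hch').Φ f := by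
  let e0 : (Fin 0 → Fin b) ≃ (Fin 0 → Fin b') := Equiv.ofUnique _ _
  let e : ((Fin 0 → Fin b) → Fin q) ≃ ((Fin 0 → Fin b') → Fin q) := e0.arrowCongr (Equiv.refl _)
  refine (SLaw.Φ_congr_equiv (leafSL q b' lam' 0 hq hch') (leafSL q b lam 0 hq hch) e.symm ?_ f)
  intro o i
  show leafLaw q b lam 0 i (e.symm o) = leafLaw q b' lam' 0 i o
  simp only [leafLaw]
  have : e.symm o Fin.elim0 = o Fin.elim0 := by
    show o (e0 Fin.elim0) = _
    congr 1
  rw [this]

/-- `leafSL` is monotone in the degree and in the channel. -/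
theorem leaf_dominated {b b' : ℕ} (hb : b ≤ b') {r mu : ℝ} (hr0 : 0 ≤ 1 + ((q : ℝ) - 1) * r) (hr1 : r ≤ 1)
    (hch' : ∀ i j : Fin q, 0 ≤ channel q mu i j) (hch : ∀ i j : Fin q, 0 ≤ channel q (r * mu) i j) (ℓ : ℕ) :
    Dominated (leafSL q b (r * mu) ℓ hq hch) (leafSL q b' mu ℓ hq hch') := by
  induction ℓ with
  | zero =>
    intro f _
    exact (leafSL_zero_eq hq hch hch' f).le
  | succ ℓ ih =>
    intro f hf
    rw [leafSL_succ b (r * mu) ℓ hq hch hf.bdd, leafSL_succ b' mu ℓ hq hch' hf.bdd]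
    have h1 : Dominated ((leafSL q b (r * mu) ℓ hq hch).tilt (r * mu) hch)
        ((leafSL q b' mu ℓ hq hch').tilt mu hch') :=
      (tilt_mul_dominated hq _ hr0 hr1 hch' hch).trans (ih.tilt hq mu hch')
    exact ((h1.pow hq b).trans (Dominated.pow_mono hq _ hb)) f hf

/-- `gwSL` is monotone in `d` and in the channel. -/
theorem gw_dominated {d d' : ℝ} (hd : 0 ≤ d) (hdd : d ≤ d') {r mu : ℝ} (hr0 : 0 ≤ 1 + ((q : ℝ) - 1) * r)
    (hr1 : r ≤ 1) (hch' : ∀ i j : Fin q, 0 ≤ channel q mu i j)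
    (hch : ∀ i j : Fin q, 0 ≤ channel q (r * mu) i j) (ℓ : ℕ) :
    Dominated (gwSL q (r * mu) d ℓ hd hq hch) (gwSL q mu d' ℓ (hd.trans hdd) hq hch') := by
  induction ℓ with
  | zero =>
    intro f _
    exact le_of_eq (by
      refine SLaw.Φ_congr_equiv (gwSL q mu d' 0 (hd.trans hdd) hq hch') (gwSL q (r * mu) d 0 hd hq hch)
        (Equiv.refl _) ?_ f
      intro o i
      rfl)
  | succ ℓ ih =>
    intro f hf
    have hd' := hd.trans hdd
    rw [gwSL_succ (r * mu) d ℓ hd hq hch hf.bdd, gwSL_succ mu d' ℓ hd' hq hch' hf.bdd]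
    set K := (gwSL q (r * mu) d ℓ hd hq hch).tilt (r * mu) hch with hK
    set K' := (gwSL q mu d' ℓ hd' hq hch').tilt mu hch' with hK'
    have h1 : Dominated K K' :=
      (tilt_mul_dominated hq _ hr0 hr1 hch' hch).trans (ih.tilt hq mu hch')
    obtain ⟨C, hC⟩ := hf.bdd
    have hbd : ∀ (M : SLaw q) (c : ℕ), |(M.pow c).Φ f| ≤ C := fun M c => (M.pow c).abs_Φ_le hq hC
    have hmono : Monotone fun c => (K'.pow c).Φ f := fun c c' h =>
      Dominated.pow_mono hq K' h f hf
    have hsum : ∀ (M : SLaw q) (t : ℝ), 0 ≤ t →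
        Summable fun c : ℕ => (Real.exp (-t) * t ^ c / Nat.factorial c) * (M.pow c).Φ f := fun M t ht => by
      refine Summable.of_norm_bounded (g := fun c : ℕ => (Real.exp (-t) * t ^ c / Nat.factorial c) * C)
        ((pois_hasSum t).summable.mul_right C) fun c => ?_
      rw [Real.norm_eq_abs, abs_mul, abs_of_nonneg (pois_nonneg ht c)]
      exact mul_le_mul_of_nonneg_left (hbd M c) (pois_nonneg ht c)
    refine ((hsum K d hd).tsum_le_tsum (fun c => ?_) (hsum K' d hd)).trans
      (pois_tsum_mono hd hdd hmono (C := C) (fun c => hbd K' c))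
    exact mul_le_mul_of_nonneg_left ((h1.pow hq c) f hf) (pois_nonneg hd c)

end models

/-! ## Test functions of the row -/

theorem tvU_convexSym : ConvexSym (tvU q) := by
  have hc : Continuous (tvU q) := by
    unfold tvU
    fun_prop
  refine ⟨⟨convex_Simp, fun x _ y _ a b ha hb hab => ?_⟩, hc.continuousOn, ?_⟩
  · simp only [tvU, smul_eq_mul]
    have h1 : ∀ i, |(a • x + b • y) i - 1 / (q : ℝ)| ≤ a * |x i - 1 / (q : ℝ)| + b * |y i - 1 / (q : ℝ)| := fun i => by
      have e : (a • x + b • y) i - 1 / (q : ℝ) = a * (x i - 1 / (q : ℝ)) + b * (y i - 1 / (q : ℝ)) := by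
        obtain rfl : b = 1 - a := by linarith
        simp only [Pi.add_apply, Pi.smul_apply, smul_eq_mul]
        ring
      rw [e]
      refine (abs_add_le _ _).trans ?_
      rw [abs_mul, abs_mul, abs_of_nonneg ha, abs_of_nonneg hb]
    have h2 := Finset.sum_le_sum (s := Finset.univ) fun i _ => h1 i
    rw [Finset.sum_add_distrib, ← Finset.mul_sum, ← Finset.mul_sum] at h2
    nlinarith
  · intro σ x _
    unfold tvU
    congr 1
    exact Equiv.sum_comp σ (fun i => |x i - 1 / (q : ℝ)|)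

/-- the convex order transfers non-reconstruction -/
theorem tendsto_tvU_of_dominated (hq : 0 < q) {M M' : ℕ → SLaw q} (h : ∀ n, Dominated (M n) (M' n))
    (h' : Tendsto (fun n => (M' n).Φ (tvU q)) atTop (𝓝 0)) :
    Tendsto (fun n => (M n).Φ (tvU q)) atTop (𝓝 0) := by
  refine squeeze_zero (fun n => ?_) (fun n => h n _ tvU_convexSym) h'
  have h1 : (M n).Φ (fun _ => (0 : ℝ)) ≤ (M n).Φ (tvU q) :=
    (M n).Φ_mono hq (SLaw.BddS.const _) tvU_convexSym.bdd (fun x _ => by
      unfold tvU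
      have : 0 ≤ ∑ i, |x i - 1 / (q : ℝ)| := Finset.sum_nonneg fun i _ => abs_nonneg _
      linarith)
  rwa [(M n).Φ_const hq] at h1

end Crest.Agent.Lib.Bc
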