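import Mathlib
import Crest.Prelude.Def_Broadcast
import Crest.Prelude.Def_TreeBroadcast

/-!
# Row 163 (S0244, S0245, S0246): symmetric observation laws

`SLaw q`: an observation channel from a spin in `Fin q`, symmetric under relabelling spins.
`Φ L f = ∑' o, mass o * f (post o)` is the expectation of `f` of the posterior (root uniform).
Everything in the row is written with these functionals: see `BLUEPRINT.md`.
-/

open scoped BigOperators

namespace Crest.Agent.Lib.Bc

variable {q : ℕ}

/-- probability vectors -/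
def Simp (q : ℕ) : Set (Fin q → ℝ) := {x | (∀ i, 0 ≤ x i) ∧ ∑ i, x i = 1}

/-- A symmetric observation channel: `w o i = P(o | root spin i)`. -/
structure SLaw (q : ℕ) where
  O : Type
  w : O → Fin q → ℝ
  nonneg : ∀ o i, 0 ≤ w o i
  sum_one : ∀ i, HasSum (fun o => w o i) 1
  sym : ∀ σ : Equiv.Perm (Fin q), ∃ e : O ≃ O, ∀ o i, w (e o) (σ i) = w o i

namespace SLaw

variable (L : SLaw q)

/-- probability of the observation `o` under a uniform root -/
noncomputable def mass (o : L.O) : ℝ := (∑ i, L.w o i) / q

/-- posterior of the root given `o` (uniform when `o` has probability zero) -/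
noncomputable def post (o : L.O) : Fin q → ℝ :=
  fun i => if ∑ j, L.w o j = 0 then (1 : ℝ) / q else L.w o i / ∑ j, L.w o j

/-- expectation of `f` of the posterior -/
noncomputable def Φ (f : (Fin q → ℝ) → ℝ) : ℝ := ∑' o, L.mass o * f (L.post o)

end SLaw

/-- the channel acting on a probability vector: `T_lam x = lam x + (1-lam)/q` -/
noncomputable def Tl (q : ℕ) (lam : ℝ) (x : Fin q → ℝ) : Fin q → ℝ :=
  fun i => lam * x i + (1 - lam) / q

/-- `Z(x,x') = q ∑ x_i x'_i`, the likelihood ratio of a pair of observations -/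
noncomputable def dotZ (q : ℕ) (x x' : Fin q → ℝ) : ℝ := q * ∑ i, x i * x' i

/-- normalised product `x ⊙ x' / ∑ x_i x'_i` (uniform if the sum vanishes) -/
noncomputable def star (q : ℕ) (x x' : Fin q → ℝ) : Fin q → ℝ :=
  fun i => if ∑ j, x j * x' j = 0 then (1 : ℝ) / q else x i * x' i / ∑ j, x j * x' j

/-- average over relabellings of `x'` of `Z f(y)`: `E_σ[Z f(y_σ)]` -/
noncomputable def Esig (q : ℕ) (f : (Fin q → ℝ) → ℝ) (x x' : Fin q → ℝ) : ℝ :=
  (∑ σ : Equiv.Perm (Fin q), dotZ q x (x' ∘ σ) * f (star q x (x' ∘ σ))) / (Nat.factorial q)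

/-- total variation from uniform -/
noncomputable def tvU (q : ℕ) (x : Fin q → ℝ) : ℝ := (1 / 2) * ∑ i, |x i - 1 / q|

/-- the channel is a probability kernel -/
lemma channel_sum_eq_one (i : Fin q) (lam : ℝ) :
    ∑ j, Crest.ProbabilityR.Broadcast.channel q lam i j = 1 := by
  have hq : (q : ℝ) ≠ 0 := by
    have : 0 < q := i.pos
    positivity
  unfold Crest.ProbabilityR.Broadcast.channel
  rw [Finset.sum_add_distrib, Finset.sum_ite_eq]
  simp
  field_simp
  ring

/-- the channel depends only on whether the two spins agree -/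
lemma channel_perm (σ : Equiv.Perm (Fin q)) (lam : ℝ) (i j : Fin q) :
    Crest.ProbabilityR.Broadcast.channel q lam (σ i) (σ j)
      = Crest.ProbabilityR.Broadcast.channel q lam i j := by
  unfold Crest.ProbabilityR.Broadcast.channel
  simp [σ.injective.eq_iff]

namespace SLaw

/-- the law seen through one edge of the tree: `w' o i = ∑ j, channel i j * w o j` -/
noncomputable def tilt (L : SLaw q) (lam : ℝ)
    (h : ∀ i j : Fin q, 0 ≤ Crest.ProbabilityR.Broadcast.channel q lam i j) : SLaw q where
  O := L.O
  w := fun o i => ∑ j, Crest.ProbabilityR.Broadcast.channel q lam i j * L.w o j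
  nonneg := fun o i => Finset.sum_nonneg fun j _ => mul_nonneg (h i j) (L.nonneg o j)
  sum_one := fun i => by
    have h1 := hasSum_sum (s := Finset.univ) (fun j _ =>
      ((L.sum_one j).mul_left (Crest.ProbabilityR.Broadcast.channel q lam i j)))
    simpa [channel_sum_eq_one i lam] using h1
  sym := fun σ => by
    obtain ⟨e, he⟩ := L.sym σ
    refine ⟨e, fun o i => ?_⟩
    rw [← Equiv.sum_comp σ (fun j => Crest.ProbabilityR.Broadcast.channel q lam (σ i) j * L.w (e o) j)]
    refine Finset.sum_congr rfl fun j _ => ?_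
    rw [he, channel_perm]

/-- independent observations from two subtrees -/
noncomputable def prod (L L' : SLaw q) : SLaw q where
  O := L.O × L'.O
  w := fun o i => L.w o.1 i * L'.w o.2 i
  nonneg := fun o i => mul_nonneg (L.nonneg _ _) (L'.nonneg _ _)
  sum_one := fun i => by
    have h1 := L.sum_one i
    have h2 := L'.sum_one i
    have hs : Summable fun x : L.O × L'.O => L.w x.1 i * L'.w x.2 i :=
      h1.summable.mul_of_nonneg h2.summable (fun o => L.nonneg o i) (fun o => L'.nonneg o i)
    simpa using h1.mul h2 hs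
  sym := fun σ => by
    obtain ⟨e, he⟩ := L.sym σ
    obtain ⟨e', he'⟩ := L'.sym σ
    exact ⟨Equiv.prodCongr e e', fun o i => by simp [he, he']⟩

/-- the trivial observation (no children) -/
noncomputable def triv (q : ℕ) : SLaw q where
  O := Unit
  w := fun _ _ => 1
  nonneg := by intros; norm_num
  sum_one := fun _ => by simp
  sym := fun _ => ⟨Equiv.refl _, fun _ _ => rfl⟩

/-- `c` i.i.d. children -/
noncomputable def pow (L : SLaw q) : ℕ → SLaw q
  | 0 => triv q
  | c + 1 => (pow L c).prod L

end SLaw

end Crest.Agent.Lib.Bc
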