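import Crest.Prelude.Def_TreeBroadcast

/-!
# Row 163, module B10: from a flow of finite ray potential to a lower bound on the moment `s`

Abstract statement on a truncated tree.  `s, TT, R : V → ℝ` are the moments at the vertices above
level `n` (in the application: `E f`, `(E π)⁺`, `E f²` of the posterior at `v`).  The hypotheses are
collected in `Moments`: leaf values `s_w = ε b_w`, `TT_w ≤ τ b_w`, `R_w ≤ ε² b_w²`, and the recursion with
the hats `λ² s`, `λ³ TT`, `λ⁴ R`.  Here `b_v = M_v / λ^(2 |v|)` with `M` a conservative mass.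

The conclusion `core_main`: `ε M₀ - K₀ (ε τ bmax M₀/(1-λ) + K₀ ε³ Ebd/(1-λ) + (K₀+2) ε³ Ebd) ≤ s root`,
`Ebd` a bound for the energy `∑_{j<n} ∑_{v ∈ level j} M_v b_v²`.

Proof (helper98): `s ≤ ε b`, `R ≤ (K₀+1) ε² b²`, `TT ≤ τ λ^k b + K₀ ε² W_k` with
`W_{k+1}(v) = Q_v + λ³ ∑_c W_k(c)`; the weighted sum of `W` is unrolled along levels and bounded by the
level energies with one AM-GM `b_a b_u² ≤ b_u (b_a² + b_u²)/2`.

`energy_le`: `∑_{1≤j≤n} ∑_{level j} M b² ≤ M₀` for a flow with ray potentials at most `1`.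
-/

open Crest.ProbabilityR.TreeBroadcast
open scoped BigOperators

set_option autoImplicit false
set_option linter.unusedSectionVars false

namespace Crest.Agent.Lib.Bc.FlowToS

variable {V : Type*} [DecidableEq V] (T : LocFinTree V)

lemma mem_children {v c : V} :
    c ∈ T.children v ↔ T.depth c = T.depth v + 1 ∧ T.parent c = v := by
  simp [LocFinTree.children, T.mem_level_iff]

lemma ne_root_of_mem_children {v c : V} (h : c ∈ T.children v) : c ≠ T.root := by
  intro hc
  have h1 := (mem_children T).1 h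
  have h0 := (T.depth_eq_zero_iff c).2 hc
  omega

lemma parent_mem_level {j : ℕ} {c : V} (hc : c ∈ T.level (j + 1)) : T.parent c ∈ T.level j := by
  have hd : T.depth c = j + 1 := (T.mem_level_iff _ _).1 hc
  have hne : c ≠ T.root := fun h => by
    have := (T.depth_eq_zero_iff c).2 h
    omega
  have := T.depth_parent c hne
  exact (T.mem_level_iff _ _).2 (by omega)

/-- the children of a level partition the next level -/
lemma sum_children_level (j : ℕ) (f : V → ℝ) :
    ∑ v ∈ T.level j, ∑ c ∈ T.children v, f c = ∑ c ∈ T.level (j + 1), f c := by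
  have hmaps : ∀ c ∈ T.level (j + 1), T.parent c ∈ T.level j := fun c hc => parent_mem_level T hc
  rw [← Finset.sum_fiberwise_of_maps_to hmaps]
  apply Finset.sum_congr rfl
  intro v hv
  have hd : T.depth v = j := (T.mem_level_iff _ _).1 hv
  simp [LocFinTree.children, hd]

/-- a weight at the parent -/
lemma sum_weight (j : ℕ) (F f : V → ℝ) :
    ∑ v ∈ T.level j, F v * ∑ c ∈ T.children v, f c
      = ∑ c ∈ T.level (j + 1), F (T.parent c) * f c := by
  rw [← sum_children_level T j (fun c => F (T.parent c) * f c)]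
  apply Finset.sum_congr rfl
  intro v _
  rw [Finset.mul_sum]
  apply Finset.sum_congr rfl
  intro c hc
  rw [((mem_children T).1 hc).2]

lemma level_zero : T.level 0 = {T.root} := by
  ext v
  simp [T.mem_level_iff, T.depth_eq_zero_iff]

lemma sq_sum_erase {ι : Type*} [DecidableEq ι] (S : Finset ι) (f : ι → ℝ) :
    (∑ c ∈ S, f c) ^ 2 = ∑ c ∈ S, (f c) ^ 2 + ∑ c ∈ S, ∑ c' ∈ S.erase c, f c * f c' := by
  rw [sq, Finset.sum_mul_sum, ← Finset.sum_add_distrib]
  apply Finset.sum_congr rfl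
  intro c hc
  rw [← Finset.add_sum_erase S (fun c' => f c * f c') hc]
  ring

/-! ## The quantities -/

/-- the pair term at a vertex -/
noncomputable def Qf (lam : ℝ) (b : V → ℝ) (p : V) : ℝ :=
  lam ^ 4 * ∑ c ∈ T.children p, ∑ c' ∈ (T.children p).erase c, b c * b c'

/-- accumulated pair terms -/
noncomputable def WW (lam : ℝ) (b : V → ℝ) : ℕ → V → ℝ
  | 0, _ => 0
  | k + 1, v => Qf T lam b v + lam ^ 3 * ∑ c ∈ T.children v, WW lam b k c

/-- the cross term of the moment `s` -/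
noncomputable def cross (lam : ℝ) (s : V → ℝ) (p : V) : ℝ :=
  ∑ c ∈ T.children p, ∑ c' ∈ (T.children p).erase c, (lam ^ 2 * s c) * (lam ^ 2 * s c')

/-- the hypotheses on the moments on the truncated tree -/
structure Moments (lam K0 eps tau : ℝ) (b : V → ℝ) (n : ℕ) (s TT R : V → ℝ) : Prop where
  s_nonneg : ∀ v, T.depth v ≤ n → 0 ≤ s v
  T_nonneg : ∀ v, T.depth v ≤ n → 0 ≤ TT v
  R_nonneg : ∀ v, T.depth v ≤ n → 0 ≤ R v
  leaf_s : ∀ v, T.depth v = n → s v = eps * b v
  leaf_T : ∀ v, T.depth v = n → TT v ≤ tau * b v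
  leaf_R : ∀ v, T.depth v = n → R v ≤ eps ^ 2 * (b v) ^ 2
  up_s : ∀ p, T.depth p < n → s p ≤ lam ^ 2 * ∑ c ∈ T.children p, s c
  up_T : ∀ p, T.depth p < n → TT p ≤ lam ^ 3 * ∑ c ∈ T.children p, TT c + K0 * cross T lam s p
  up_R : ∀ p, T.depth p < n → R p ≤ lam ^ 4 * ∑ c ∈ T.children p, R c + K0 * cross T lam s p
  low_s : ∀ p, T.depth p < n →
    lam ^ 2 * ∑ c ∈ T.children p, s c
      - K0 * (∑ c ∈ T.children p, (lam ^ 3 * TT c + lam ^ 4 * R c) *
            ∑ c' ∈ (T.children p).erase c, lam ^ 2 * s c'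
          + (lam ^ 2 * ∑ c ∈ T.children p, s c) * cross T lam s p) ≤ s p

section core

variable {lam K0 eps tau : ℝ} {b : V → ℝ} {n : ℕ} {s TT R : V → ℝ}

lemma depth_child {p c : V} (hc : c ∈ T.children p) : T.depth c = T.depth p + 1 :=
  ((mem_children T).1 hc).1

lemma Qf_nonneg (hlam : 0 < lam) (hb : ∀ v, 0 ≤ b v) (p : V) : 0 ≤ Qf T lam b p := by
  unfold Qf
  apply mul_nonneg (by positivity)
  exact Finset.sum_nonneg fun c _ => Finset.sum_nonneg fun c' _ => mul_nonneg (hb c) (hb c')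

lemma b_sq_eq (hrec : ∀ p, b p = lam ^ 2 * ∑ c ∈ T.children p, b c) (p : V) :
    (b p) ^ 2 = lam ^ 4 * ∑ c ∈ T.children p, (b c) ^ 2 + Qf T lam b p := by
  unfold Qf
  rw [hrec p, mul_pow, sq_sum_erase]
  ring

lemma Qf_le (hlam : 0 < lam) (hb : ∀ v, 0 ≤ b v)
    (hrec : ∀ p, b p = lam ^ 2 * ∑ c ∈ T.children p, b c) (p : V) :
    Qf T lam b p ≤ (b p) ^ 2 := by
  rw [b_sq_eq T hrec p]
  have : 0 ≤ lam ^ 4 * ∑ c ∈ T.children p, (b c) ^ 2 :=
    mul_nonneg (by positivity) (Finset.sum_nonneg fun c _ => sq_nonneg _)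
  linarith

lemma lam4_sum_le (hlam : 0 < lam) (hb : ∀ v, 0 ≤ b v)
    (hrec : ∀ p, b p = lam ^ 2 * ∑ c ∈ T.children p, b c) (p : V) :
    lam ^ 4 * ∑ c ∈ T.children p, (b c) ^ 2 ≤ (b p) ^ 2 := by
  rw [b_sq_eq T hrec p]
  have := Qf_nonneg T hlam hb p
  linarith

variable {T}

lemma s_le (hlam : 0 < lam) (hrec : ∀ p, b p = lam ^ 2 * ∑ c ∈ T.children p, b c)
    (hM : Moments T lam K0 eps tau b n s TT R) :
    ∀ k v, T.depth v + k = n → s v ≤ eps * b v := by
  intro k
  induction k with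
  | zero =>
    intro v hv
    exact le_of_eq (hM.leaf_s v (by omega))
  | succ k ih =>
    intro v hv
    have h1 := hM.up_s v (by omega)
    have h2 : ∑ c ∈ T.children v, s c ≤ ∑ c ∈ T.children v, eps * b c :=
      Finset.sum_le_sum fun c hc => ih c (by rw [depth_child T hc]; omega)
    rw [← Finset.mul_sum] at h2
    rw [hrec v]
    have : lam ^ 2 * ∑ c ∈ T.children v, s c ≤ lam ^ 2 * (eps * ∑ c ∈ T.children v, b c) :=
      mul_le_mul_of_nonneg_left h2 (by positivity)
    nlinarith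

lemma cross_le (hlam : 0 < lam) (heps : 0 ≤ eps) (hb : ∀ v, 0 ≤ b v)
    (hrec : ∀ p, b p = lam ^ 2 * ∑ c ∈ T.children p, b c)
    (hM : Moments T lam K0 eps tau b n s TT R) {p : V} (hp : T.depth p < n) :
    cross T lam s p ≤ eps ^ 2 * Qf T lam b p := by
  have key : ∀ c ∈ T.children p, 0 ≤ s c ∧ s c ≤ eps * b c := by
    intro c hc
    have hd := depth_child T hc
    exact ⟨hM.s_nonneg c (by omega), s_le hlam hrec hM (n - T.depth c) c (by omega)⟩
  unfold cross Qf
  calc ∑ c ∈ T.children p, ∑ c' ∈ (T.children p).erase c, (lam ^ 2 * s c) * (lam ^ 2 * s c')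
      ≤ ∑ c ∈ T.children p, ∑ c' ∈ (T.children p).erase c,
          eps ^ 2 * lam ^ 4 * (b c * b c') := by
        apply Finset.sum_le_sum
        intro c hc
        apply Finset.sum_le_sum
        intro c' hc'
        have hc'' := Finset.mem_of_mem_erase hc'
        obtain ⟨h1, h2⟩ := key c hc
        obtain ⟨h3, h4⟩ := key c' hc''
        have h5 : s c * s c' ≤ (eps * b c) * (eps * b c') := mul_le_mul h2 h4 h3 (le_trans h1 h2)
        have h6 : 0 ≤ lam ^ 4 := by positivity
        calc (lam ^ 2 * s c) * (lam ^ 2 * s c') = lam ^ 4 * (s c * s c') := by ring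
          _ ≤ lam ^ 4 * ((eps * b c) * (eps * b c')) := mul_le_mul_of_nonneg_left h5 h6
          _ = eps ^ 2 * lam ^ 4 * (b c * b c') := by ring
    _ = eps ^ 2 * (lam ^ 4 * ∑ c ∈ T.children p, ∑ c' ∈ (T.children p).erase c, b c * b c') := by
        simp only [Finset.mul_sum]
        exact Finset.sum_congr rfl fun c _ => Finset.sum_congr rfl fun c' _ => by ring

lemma R_le (hlam : 0 < lam) (heps : 0 ≤ eps) (hK0 : 0 ≤ K0) (hb : ∀ v, 0 ≤ b v)
    (hrec : ∀ p, b p = lam ^ 2 * ∑ c ∈ T.children p, b c)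
    (hM : Moments T lam K0 eps tau b n s TT R) :
    ∀ k v, T.depth v + k = n → R v ≤ (K0 + 1) * eps ^ 2 * (b v) ^ 2 := by
  intro k
  induction k with
  | zero =>
    intro v hv
    have := hM.leaf_R v (by omega)
    have h2 : 0 ≤ K0 * eps ^ 2 * (b v) ^ 2 := by positivity
    nlinarith
  | succ k ih =>
    intro v hv
    have hd : T.depth v < n := by omega
    have h1 := hM.up_R v hd
    have h2 : ∑ c ∈ T.children v, R c ≤ ∑ c ∈ T.children v, (K0 + 1) * eps ^ 2 * (b c) ^ 2 :=
      Finset.sum_le_sum fun c hc => ih c (by rw [depth_child T hc]; omega)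
    rw [← Finset.mul_sum] at h2
    have h3 := cross_le hlam heps hb hrec hM hd
    have h4 := Qf_nonneg T hlam hb v
    have h5 := b_sq_eq T hrec v
    have h6 : lam ^ 4 * ∑ c ∈ T.children v, R c ≤
        lam ^ 4 * ((K0 + 1) * eps ^ 2 * ∑ c ∈ T.children v, (b c) ^ 2) :=
      mul_le_mul_of_nonneg_left h2 (by positivity)
    have h7 : K0 * cross T lam s v ≤ K0 * (eps ^ 2 * Qf T lam b v) :=
      mul_le_mul_of_nonneg_left h3 hK0
    have h8 : 0 ≤ eps ^ 2 * Qf T lam b v := by positivity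
    rw [h5]
    nlinarith

lemma T_le (hlam : 0 < lam) (heps : 0 ≤ eps) (hK0 : 0 ≤ K0) (hb : ∀ v, 0 ≤ b v)
    (hrec : ∀ p, b p = lam ^ 2 * ∑ c ∈ T.children p, b c)
    (hM : Moments T lam K0 eps tau b n s TT R) :
    ∀ k v, T.depth v + k = n →
      TT v ≤ tau * lam ^ k * b v + K0 * eps ^ 2 * WW T lam b k v := by
  intro k
  induction k with
  | zero =>
    intro v hv
    have := hM.leaf_T v (by omega)
    simpa [WW] using this
  | succ k ih =>
    intro v hv
    have hd : T.depth v < n := by omega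
    have h1 := hM.up_T v hd
    have h2 : ∑ c ∈ T.children v, TT c ≤
        ∑ c ∈ T.children v, (tau * lam ^ k * b c + K0 * eps ^ 2 * WW T lam b k c) :=
      Finset.sum_le_sum fun c hc => ih c (by rw [depth_child T hc]; omega)
    rw [Finset.sum_add_distrib, ← Finset.mul_sum, ← Finset.mul_sum] at h2
    have h3 := cross_le hlam heps hb hrec hM hd
    have h6 := mul_le_mul_of_nonneg_left h2 (show 0 ≤ lam ^ 3 by positivity)
    have h7 : K0 * cross T lam s v ≤ K0 * (eps ^ 2 * Qf T lam b v) :=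
      mul_le_mul_of_nonneg_left h3 hK0
    have hWW : WW T lam b (k + 1) v
        = Qf T lam b v + lam ^ 3 * ∑ c ∈ T.children v, WW T lam b k c := rfl
    rw [hWW]
    have hbv := hrec v
    have e1 : tau * lam ^ (k + 1) * b v
        = lam ^ 3 * (tau * lam ^ k * ∑ c ∈ T.children v, b c) := by
      rw [hbv]; ring
    rw [e1]
    nlinarith

/-- the loss at a vertex -/
lemma loss_le (hlam : 0 < lam) (heps : 0 ≤ eps) (hK0 : 0 ≤ K0) (htau : 0 ≤ tau) (hb : ∀ v, 0 ≤ b v)
    (hrec : ∀ p, b p = lam ^ 2 * ∑ c ∈ T.children p, b c)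
    (hM : Moments T lam K0 eps tau b n s TT R) (k : ℕ) (p : V) (hk : T.depth p + (k + 1) = n) :
    K0 * (∑ c ∈ T.children p, (lam ^ 3 * TT c + lam ^ 4 * R c) *
            ∑ c' ∈ (T.children p).erase c, lam ^ 2 * s c'
          + (lam ^ 2 * ∑ c ∈ T.children p, s c) * cross T lam s p)
      ≤ K0 * (eps * tau * lam ^ (k + 1) * (b p) ^ 2
          + K0 * eps ^ 3 * lam ^ 3 * (b p * ∑ c ∈ T.children p, WW T lam b k c)
          + (K0 + 2) * eps ^ 3 * (b p) ^ 3) := by
  apply mul_le_mul_of_nonneg_left _ hK0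
  have hd : T.depth p < n := by omega
  have hsc : ∀ c ∈ T.children p, 0 ≤ s c ∧ s c ≤ eps * b c := by
    intro c hc
    have hd' := depth_child T hc
    exact ⟨hM.s_nonneg c (by omega), s_le hlam hrec hM (n - T.depth c) c (by omega)⟩
  have hbp := hb p
  -- sum of hats
  have hS : lam ^ 2 * ∑ c ∈ T.children p, s c ≤ eps * b p := by
    have h2 : ∑ c ∈ T.children p, s c ≤ ∑ c ∈ T.children p, eps * b c :=
      Finset.sum_le_sum fun c hc => (hsc c hc).2
    rw [← Finset.mul_sum] at h2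
    have := mul_le_mul_of_nonneg_left h2 (show 0 ≤ lam ^ 2 by positivity)
    rw [hrec p]
    nlinarith
  have hS0 : 0 ≤ lam ^ 2 * ∑ c ∈ T.children p, s c :=
    mul_nonneg (by positivity) (Finset.sum_nonneg fun c hc => (hsc c hc).1)
  have hinner : ∀ c ∈ T.children p,
      ∑ c' ∈ (T.children p).erase c, lam ^ 2 * s c' ≤ eps * b p := by
    intro c hc
    refine le_trans ?_ hS
    rw [Finset.mul_sum]
    exact Finset.sum_le_sum_of_subset_of_nonneg (Finset.erase_subset _ _)
      (fun c' hc' _ => mul_nonneg (by positivity) (hsc c' hc').1)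
  -- bounds of T, R at the children
  have hTc : ∑ c ∈ T.children p, TT c ≤
      tau * lam ^ k * ∑ c ∈ T.children p, b c
        + K0 * eps ^ 2 * ∑ c ∈ T.children p, WW T lam b k c := by
    rw [Finset.mul_sum, Finset.mul_sum, ← Finset.sum_add_distrib]
    exact Finset.sum_le_sum fun c hc => T_le hlam heps hK0 hb hrec hM k c (by
      rw [depth_child T hc]; omega)
  have hRc : ∑ c ∈ T.children p, R c ≤ (K0 + 1) * eps ^ 2 * ∑ c ∈ T.children p, (b c) ^ 2 := by
    rw [Finset.mul_sum]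
    exact Finset.sum_le_sum fun c hc => R_le hlam heps hK0 hb hrec hM k c (by
      rw [depth_child T hc]; omega)
  have h4 := lam4_sum_le T hlam hb hrec p
  -- first sum
  have hfirst : ∑ c ∈ T.children p, (lam ^ 3 * TT c + lam ^ 4 * R c) *
        ∑ c' ∈ (T.children p).erase c, lam ^ 2 * s c'
      ≤ (lam ^ 3 * ∑ c ∈ T.children p, TT c + lam ^ 4 * ∑ c ∈ T.children p, R c) * (eps * b p) := by
    rw [Finset.mul_sum, Finset.mul_sum, ← Finset.sum_add_distrib, Finset.sum_mul]
    apply Finset.sum_le_sum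
    intro c hc
    have hd' := depth_child T hc
    have h0 : 0 ≤ lam ^ 3 * TT c + lam ^ 4 * R c := by
      have := hM.T_nonneg c (by omega)
      have := hM.R_nonneg c (by omega)
      positivity
    exact mul_le_mul_of_nonneg_left (hinner c hc) h0
  -- second term
  have hcr := cross_le hlam heps hb hrec hM hd
  have hcr2 : cross T lam s p ≤ eps ^ 2 * (b p) ^ 2 :=
    le_trans hcr (mul_le_mul_of_nonneg_left (Qf_le T hlam hb hrec p) (by positivity))
  have hcr0 : 0 ≤ cross T lam s p := by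
    unfold cross
    refine Finset.sum_nonneg fun c hc => Finset.sum_nonneg fun c' hc' => ?_
    have h1 := (hsc c hc).1
    have h2 := (hsc c' (Finset.mem_of_mem_erase hc')).1
    positivity
  have hsecond : (lam ^ 2 * ∑ c ∈ T.children p, s c) * cross T lam s p
      ≤ (eps * b p) * (eps ^ 2 * (b p) ^ 2) :=
    mul_le_mul hS hcr2 hcr0 (by positivity)
  -- combine
  have hbv : lam ^ 3 * (tau * lam ^ k * ∑ c ∈ T.children p, b c) = tau * lam ^ (k + 1) * b p := by
    rw [hrec p]; ring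
  have hA : lam ^ 3 * ∑ c ∈ T.children p, TT c + lam ^ 4 * ∑ c ∈ T.children p, R c
      ≤ tau * lam ^ (k + 1) * b p
        + K0 * eps ^ 2 * (lam ^ 3 * ∑ c ∈ T.children p, WW T lam b k c)
        + (K0 + 1) * eps ^ 2 * (b p) ^ 2 := by
    have h5 := mul_le_mul_of_nonneg_left hTc (show 0 ≤ lam ^ 3 by positivity)
    have h6 := mul_le_mul_of_nonneg_left hRc (show 0 ≤ lam ^ 4 by positivity)
    have h7 : lam ^ 4 * ((K0 + 1) * eps ^ 2 * ∑ c ∈ T.children p, (b c) ^ 2)
        ≤ (K0 + 1) * eps ^ 2 * (b p) ^ 2 := by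
      have h8 : 0 ≤ (K0 + 1) * eps ^ 2 := by positivity
      have := mul_le_mul_of_nonneg_left h4 h8
      nlinarith
    nlinarith
  have hB := mul_le_mul_of_nonneg_right hA (show 0 ≤ eps * b p by positivity)
  have e2 : (tau * lam ^ (k + 1) * b p
        + K0 * eps ^ 2 * (lam ^ 3 * ∑ c ∈ T.children p, WW T lam b k c)
        + (K0 + 1) * eps ^ 2 * (b p) ^ 2) * (eps * b p) + (eps * b p) * (eps ^ 2 * (b p) ^ 2)
      = eps * tau * lam ^ (k + 1) * (b p) ^ 2
          + K0 * eps ^ 3 * lam ^ 3 * (b p * ∑ c ∈ T.children p, WW T lam b k c)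
          + (K0 + 2) * eps ^ 3 * (b p) ^ 3 := by ring
  linarith

end core

/-! ## Level sums -/

section levels

variable {lam : ℝ} {M b : V → ℝ}

lemma sum_level_push (hMc : ∀ v, M v = ∑ c ∈ T.children v, M c) (j : ℕ) (f : V → ℝ) :
    ∑ v ∈ T.level j, M v * f v = ∑ c ∈ T.level (j + 1), M c * f (T.parent c) := by
  rw [← sum_children_level T j (fun c => M c * f (T.parent c))]
  apply Finset.sum_congr rfl
  intro v _
  conv_lhs => rw [hMc v]
  rw [Finset.sum_mul]
  apply Finset.sum_congr rfl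
  intro c hc
  rw [((mem_children T).1 hc).2]

lemma sum_level_push_iter (hMc : ∀ v, M v = ∑ c ∈ T.children v, M c) (j : ℕ) (f : V → ℝ) :
    ∀ D : ℕ, ∑ u ∈ T.level (j + D), M u * f (T.parent^[D] u) = ∑ p ∈ T.level j, M p * f p := by
  intro D
  induction D with
  | zero => simp
  | succ D ih =>
    rw [← ih, sum_level_push T hMc (j + D) (fun v => f (T.parent^[D] v))]
    apply Finset.sum_congr rfl
    intro c _
    rw [Function.iterate_succ_apply]

lemma parent_iter_mem {j : ℕ} : ∀ (D : ℕ) (u : V), u ∈ T.level (j + D) → T.parent^[D] u ∈ T.level j := by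
  intro D
  induction D with
  | zero => intro u hu; simpa using hu
  | succ D ih =>
    intro u hu
    rw [Function.iterate_succ_apply]
    exact ih _ (parent_mem_level T hu)

lemma sum_level_mass (hMc : ∀ v, M v = ∑ c ∈ T.children v, M c) (j : ℕ) :
    ∑ v ∈ T.level j, M v = M T.root := by
  induction j with
  | zero => simp [level_zero]
  | succ j ih =>
    rw [← ih, ← sum_children_level T j M]
    exact Finset.sum_congr rfl fun v _ => (hMc v).symm

lemma sum_WW (lam : ℝ) (b : V → ℝ) :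
    ∀ (k j : ℕ) (F : V → ℝ), ∑ v ∈ T.level j, F v * WW T lam b k v
      = ∑ d ∈ Finset.range k, lam ^ (3 * d) *
          ∑ u ∈ T.level (j + d), F (T.parent^[d] u) * Qf T lam b u := by
  intro k
  induction k with
  | zero =>
    intro j F
    simp [WW]
  | succ k ih =>
    intro j F
    have h1 : ∑ v ∈ T.level j, F v * WW T lam b (k + 1) v
        = ∑ v ∈ T.level j, F v * Qf T lam b v
          + lam ^ 3 * ∑ v ∈ T.level j, F v * ∑ c ∈ T.children v, WW T lam b k c := by
      rw [Finset.mul_sum, ← Finset.sum_add_distrib]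
      apply Finset.sum_congr rfl
      intro v _
      show F v * (Qf T lam b v + lam ^ 3 * ∑ c ∈ T.children v, WW T lam b k c) = _
      ring
    rw [h1, sum_weight T j F (WW T lam b k), ih (j + 1) (fun c => F (T.parent c)),
      Finset.sum_range_succ', Finset.mul_sum, add_comm]
    congr 1
    · apply Finset.sum_congr rfl
      intro d _
      have e : j + 1 + d = j + (d + 1) := by omega
      rw [e, ← mul_assoc, ← pow_add]
      have e2 : 3 + 3 * d = 3 * (d + 1) := by ring
      rw [e2]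
      congr 1
      apply Finset.sum_congr rfl
      intro u _
      have e3 : T.parent^[d + 1] u = T.parent (T.parent^[d] u) := Function.iterate_succ_apply' _ _ _
      rw [e3]
    · simp

lemma WW_nonneg {lam : ℝ} {b : V → ℝ} (hlam : 0 < lam) (hb : ∀ v, 0 ≤ b v) :
    ∀ (k : ℕ) (v : V), 0 ≤ WW T lam b k v := by
  intro k
  induction k with
  | zero => intro v; exact le_rfl
  | succ k ih =>
    intro v
    have h1 := Qf_nonneg T hlam hb v
    have h2 : 0 ≤ ∑ c ∈ T.children v, WW T lam b k c := Finset.sum_nonneg fun c _ => ih c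
    show 0 ≤ Qf T lam b v + lam ^ 3 * ∑ c ∈ T.children v, WW T lam b k c
    positivity

/-- the energy at a level -/
noncomputable def En (M b : V → ℝ) (j : ℕ) : ℝ := ∑ v ∈ T.level j, M v * (b v) ^ 2

lemma En_nonneg (hM0 : ∀ v, 0 ≤ M v) (j : ℕ) : 0 ≤ En T M b j :=
  Finset.sum_nonneg fun v _ => mul_nonneg (hM0 v) (sq_nonneg _)

/-- the AM-GM step -/
lemma key_level (hlam : 0 < lam) (hMc : ∀ v, M v = ∑ c ∈ T.children v, M c)
    (hbM : ∀ v, M v = lam ^ (2 * T.depth v) * b v) (hb : ∀ v, 0 ≤ b v) (j D : ℕ) :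
    lam ^ (2 * D) * ∑ u ∈ T.level (j + D), M (T.parent^[D] u) * (b u) ^ 2
      ≤ (1 / 2) * (En T M b j + En T M b (j + D)) := by
  have h1 : En T M b j = ∑ u ∈ T.level (j + D), M u * (b (T.parent^[D] u)) ^ 2 := by
    unfold En
    exact (sum_level_push_iter T hMc j (fun v => (b v) ^ 2) D).symm
  rw [h1]
  unfold En
  rw [← Finset.sum_add_distrib, Finset.mul_sum, Finset.mul_sum]
  apply Finset.sum_le_sum
  intro u hu
  have hdu : T.depth u = j + D := (T.mem_level_iff _ _).1 hu
  have ha : T.parent^[D] u ∈ T.level j := parent_iter_mem T D u hu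
  have hda : T.depth (T.parent^[D] u) = j := (T.mem_level_iff _ _).1 ha
  set a := T.parent^[D] u
  have e1 : M a = lam ^ (2 * j) * b a := by rw [hbM a, hda]
  have e2 : M u = lam ^ (2 * (j + D)) * b u := by rw [hbM u, hdu]
  rw [e1, e2]
  have hL : 0 ≤ lam ^ (2 * (j + D)) := by positivity
  have e3 : lam ^ (2 * D) * (lam ^ (2 * j) * b a * (b u) ^ 2)
      = lam ^ (2 * (j + D)) * (b a * (b u) ^ 2) := by ring
  have e4 : (1 / 2) * (lam ^ (2 * (j + D)) * b u * (b a) ^ 2 + lam ^ (2 * (j + D)) * b u * (b u) ^ 2)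
      = lam ^ (2 * (j + D)) * ((1 / 2) * (b u * ((b a) ^ 2 + (b u) ^ 2))) := by ring
  rw [e3, e4]
  apply mul_le_mul_of_nonneg_left _ hL
  have h5 := hb u
  nlinarith [mul_nonneg h5 (sq_nonneg (b a - b u))]

lemma geom_le (hlam0 : 0 ≤ lam) (hlam1 : lam < 1) (m : ℕ) :
    ∑ i ∈ Finset.range m, lam ^ i ≤ 1 / (1 - lam) := by
  have h1 : 0 < 1 - lam := by linarith
  rw [le_div_iff₀ h1]
  have h2 := mul_neg_geom_sum lam m
  have h3 : 0 ≤ lam ^ m := by positivity
  nlinarith

lemma shift_le (hlam0 : 0 ≤ lam) (hlam1 : lam < 1) (E : ℕ → ℝ) (hE : ∀ j, 0 ≤ E j) :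
    ∀ n : ℕ, ∑ j ∈ Finset.range n, ∑ d ∈ Finset.range (n - j - 1), lam ^ d * E (j + 1 + d)
      ≤ 1 / (1 - lam) * ∑ j ∈ Finset.range n, E j := by
  intro n
  induction n with
  | zero => simp
  | succ n ih =>
    have h1 : ∑ j ∈ Finset.range (n + 1), ∑ d ∈ Finset.range (n + 1 - j - 1), lam ^ d * E (j + 1 + d)
        = ∑ j ∈ Finset.range n, ∑ d ∈ Finset.range (n - j - 1), lam ^ d * E (j + 1 + d)
          + (∑ j ∈ Finset.range n, lam ^ (n - 1 - j)) * E n := by
      rw [Finset.sum_range_succ]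
      have e0 : n + 1 - n - 1 = 0 := by omega
      rw [e0, Finset.range_zero, Finset.sum_empty, add_zero, Finset.sum_mul, ← Finset.sum_add_distrib]
      apply Finset.sum_congr rfl
      intro j hj
      have hj' : j < n := Finset.mem_range.1 hj
      have e1 : n + 1 - j - 1 = (n - j - 1) + 1 := by omega
      rw [e1, Finset.sum_range_succ]
      have e2 : j + 1 + (n - j - 1) = n := by omega
      have e3 : n - j - 1 = n - 1 - j := by omega
      rw [e2, e3]
    rw [h1, Finset.sum_range_succ, mul_add]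
    have h2 : ∑ j ∈ Finset.range n, lam ^ (n - 1 - j) ≤ 1 / (1 - lam) := by
      rw [Finset.sum_range_reflect (fun i => lam ^ i) n]
      exact geom_le hlam0 hlam1 n
    have h3 := mul_le_mul_of_nonneg_right h2 (hE n)
    linarith

lemma sum_pow_sub_le (hlam0 : 0 ≤ lam) (hlam1 : lam < 1) (n : ℕ) :
    ∑ j ∈ Finset.range n, lam ^ (n - j - 1 + 1) ≤ 1 / (1 - lam) := by
  have h1 : ∑ j ∈ Finset.range n, lam ^ (n - j - 1 + 1) ≤ ∑ j ∈ Finset.range n, lam ^ (n - 1 - j) := by
    apply Finset.sum_le_sum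
    intro j hj
    have e3 : n - j - 1 = n - 1 - j := by omega
    rw [e3, pow_succ]
    have : 0 ≤ lam ^ (n - 1 - j) := by positivity
    nlinarith
  refine le_trans h1 ?_
  rw [Finset.sum_range_reflect (fun i => lam ^ i) n]
  exact geom_le hlam0 hlam1 n

end levels

/-! ## The core inequality -/

section main

variable {lam K0 eps tau : ℝ} {M b : V → ℝ} {n : ℕ} {s TT R : V → ℝ}

lemma b_rec (hlam : 0 < lam) (hMc : ∀ v, M v = ∑ c ∈ T.children v, M c)
    (hbM : ∀ v, M v = lam ^ (2 * T.depth v) * b v) (p : V) :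
    b p = lam ^ 2 * ∑ c ∈ T.children p, b c := by
  have h1 : lam ^ (2 * T.depth p) * b p
      = lam ^ (2 * T.depth p) * (lam ^ 2 * ∑ c ∈ T.children p, b c) := by
    rw [← hbM p, hMc p, Finset.mul_sum, Finset.mul_sum]
    apply Finset.sum_congr rfl
    intro c hc
    rw [hbM c, depth_child T hc]
    ring
  exact mul_left_cancel₀ (by positivity) h1

/-- the quantity `Y` at level `j` -/
lemma Y_le (hlam : 0 < lam) (hM0 : ∀ v, 0 ≤ M v) (hMc : ∀ v, M v = ∑ c ∈ T.children v, M c)
    (hbM : ∀ v, M v = lam ^ (2 * T.depth v) * b v) (hb : ∀ v, 0 ≤ b v) (j k : ℕ) :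
    lam ^ 2 * ∑ p ∈ T.level j, M p * ∑ c ∈ T.children p, WW T lam b k c
      ≤ ∑ d ∈ Finset.range k, lam ^ d * ((1 / 2) * (En T M b j + En T M b (j + 1 + d))) := by
  have hrec := b_rec T hlam hMc hbM
  rw [sum_weight T j M, sum_WW T lam b k (j + 1) (fun c => M (T.parent c)), Finset.mul_sum]
  apply Finset.sum_le_sum
  intro d _
  have e0 : j + 1 + d = j + (d + 1) := by omega
  rw [e0]
  have h1 : ∑ u ∈ T.level (j + (d + 1)), M (T.parent (T.parent^[d] u)) * Qf T lam b u
      ≤ ∑ u ∈ T.level (j + (d + 1)), M (T.parent^[d + 1] u) * (b u) ^ 2 := by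
    apply Finset.sum_le_sum
    intro u _
    rw [Function.iterate_succ_apply']
    exact mul_le_mul_of_nonneg_left (Qf_le T hlam hb hrec u) (hM0 _)
  have h2 := key_level T hlam hMc hbM hb j (d + 1)
  have h3 : lam ^ (2 * (d + 1)) * ∑ u ∈ T.level (j + (d + 1)), M (T.parent (T.parent^[d] u)) * Qf T lam b u
      ≤ (1 / 2) * (En T M b j + En T M b (j + (d + 1))) :=
    le_trans (mul_le_mul_of_nonneg_left h1 (by positivity)) h2
  have h4 := mul_le_mul_of_nonneg_left h3 (show 0 ≤ lam ^ d by positivity)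
  calc lam ^ 2 * (lam ^ (3 * d) * ∑ u ∈ T.level (j + (d + 1)), M (T.parent (T.parent^[d] u)) * Qf T lam b u)
      = lam ^ d * (lam ^ (2 * (d + 1)) * ∑ u ∈ T.level (j + (d + 1)), M (T.parent (T.parent^[d] u)) * Qf T lam b u) := by
        ring
    _ ≤ _ := h4

lemma sum_Y_le (hlam0 : 0 < lam) (hlam1 : lam < 1) (hM0 : ∀ v, 0 ≤ M v)
    (hMc : ∀ v, M v = ∑ c ∈ T.children v, M c)
    (hbM : ∀ v, M v = lam ^ (2 * T.depth v) * b v) (hb : ∀ v, 0 ≤ b v) (n : ℕ) :
    ∑ j ∈ Finset.range n, lam ^ 2 * ∑ p ∈ T.level j, M p * ∑ c ∈ T.children p, WW T lam b (n - j - 1) c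
      ≤ 1 / (1 - lam) * ∑ j ∈ Finset.range n, En T M b j := by
  have hE := En_nonneg (b := b) T hM0
  have h1 : ∀ j ∈ Finset.range n,
      lam ^ 2 * ∑ p ∈ T.level j, M p * ∑ c ∈ T.children p, WW T lam b (n - j - 1) c
      ≤ (1 / 2) * ((1 / (1 - lam)) * En T M b j)
        + (1 / 2) * ∑ d ∈ Finset.range (n - j - 1), lam ^ d * En T M b (j + 1 + d) := by
    intro j _
    refine le_trans (Y_le T hlam0 hM0 hMc hbM hb j (n - j - 1)) ?_
    have e : ∑ d ∈ Finset.range (n - j - 1), lam ^ d * ((1 / 2) * (En T M b j + En T M b (j + 1 + d)))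
        = (1 / 2) * ((∑ d ∈ Finset.range (n - j - 1), lam ^ d) * En T M b j)
          + (1 / 2) * ∑ d ∈ Finset.range (n - j - 1), lam ^ d * En T M b (j + 1 + d) := by
      rw [Finset.sum_mul, Finset.mul_sum, Finset.mul_sum, ← Finset.sum_add_distrib]
      exact Finset.sum_congr rfl fun d _ => by ring
    rw [e]
    have h2 := mul_le_mul_of_nonneg_right (geom_le hlam0.le hlam1 (n - j - 1)) (hE j)
    linarith
  refine le_trans (Finset.sum_le_sum h1) ?_
  rw [Finset.sum_add_distrib, ← Finset.mul_sum, ← Finset.mul_sum, ← Finset.mul_sum]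
  have h3 := shift_le hlam0.le hlam1 (En T M b) hE n
  have h4 : 0 ≤ ∑ j ∈ Finset.range n, En T M b j := Finset.sum_nonneg fun j _ => hE j
  have h5 : 0 < 1 / (1 - lam) := by
    apply div_pos one_pos
    linarith
  linarith

/-- **The core inequality.** -/
theorem core_main (hlam0 : 0 < lam) (hlam1 : lam < 1) (hK0 : 0 ≤ K0) (heps : 0 ≤ eps) (htau : 0 ≤ tau)
    (hM0 : ∀ v, 0 ≤ M v) (hMc : ∀ v, M v = ∑ c ∈ T.children v, M c)
    (hbM : ∀ v, M v = lam ^ (2 * T.depth v) * b v) (hb : ∀ v, 0 ≤ b v)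
    (hMom : Moments T lam K0 eps tau b n s TT R)
    {bmax : ℝ} (hbmax0 : 0 ≤ bmax) (hbmax : ∀ p, T.depth p < n → b p ≤ bmax)
    {Ebd : ℝ} (hE : ∑ j ∈ Finset.range n, En T M b j ≤ Ebd) :
    eps * M T.root - K0 * (eps * tau * bmax * M T.root / (1 - lam)
        + K0 * eps ^ 3 * Ebd / (1 - lam) + (K0 + 2) * eps ^ 3 * Ebd) ≤ s T.root := by
  have hrec := b_rec T hlam0 hMc hbM
  have hlam1' : 0 < 1 - lam := by linarith
  -- the level sums of `s`
  let Sj : ℕ → ℝ := fun j => lam ^ (2 * j) * ∑ v ∈ T.level j, s v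
  let Loss : V → ℝ := fun p => K0 * (∑ c ∈ T.children p, (lam ^ 3 * TT c + lam ^ 4 * R c) *
            ∑ c' ∈ (T.children p).erase c, lam ^ 2 * s c'
          + (lam ^ 2 * ∑ c ∈ T.children p, s c) * cross T lam s p)
  let Lev : ℕ → ℝ := fun j => lam ^ (2 * j) * ∑ p ∈ T.level j, Loss p
  have hstep : ∀ j, j < n → Sj (j + 1) ≤ Sj j + Lev j := by
    intro j hj
    have h1 : ∑ p ∈ T.level j, (lam ^ 2 * ∑ c ∈ T.children p, s c - Loss p)
        ≤ ∑ p ∈ T.level j, s p := by
      apply Finset.sum_le_sum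
      intro p hp
      have hd : T.depth p = j := (T.mem_level_iff _ _).1 hp
      exact hMom.low_s p (by omega)
    rw [Finset.sum_sub_distrib, ← Finset.mul_sum, sum_children_level T j s] at h1
    have h2 := mul_le_mul_of_nonneg_left h1 (show 0 ≤ lam ^ (2 * j) by positivity)
    show lam ^ (2 * (j + 1)) * ∑ v ∈ T.level (j + 1), s v
      ≤ lam ^ (2 * j) * ∑ v ∈ T.level j, s v + lam ^ (2 * j) * ∑ p ∈ T.level j, Loss p
    have e : lam ^ (2 * (j + 1)) = lam ^ (2 * j) * lam ^ 2 := by ring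
    rw [e]
    nlinarith
  have htel : ∀ j, j ≤ n → Sj j ≤ Sj 0 + ∑ i ∈ Finset.range j, Lev i := by
    intro j
    induction j with
    | zero => intro _; simp
    | succ j ih =>
      intro hj
      rw [Finset.sum_range_succ]
      have := ih (by omega)
      have := hstep j (by omega)
      linarith
  have hS0 : Sj 0 = s T.root := by
    show lam ^ (2 * 0) * ∑ v ∈ T.level 0, s v = _
    simp [level_zero]
  have hSn : Sj n = eps * M T.root := by
    show lam ^ (2 * n) * ∑ v ∈ T.level n, s v = _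
    rw [← sum_level_mass T hMc n, Finset.mul_sum, Finset.mul_sum]
    apply Finset.sum_congr rfl
    intro w hw
    have hd : T.depth w = n := (T.mem_level_iff _ _).1 hw
    rw [hMom.leaf_s w hd, hbM w, hd]
    ring
  -- bound of a level
  have hLev : ∀ j ∈ Finset.range n, Lev j ≤
      K0 * (eps * tau * bmax * M T.root * lam ^ (n - j - 1 + 1)
        + K0 * eps ^ 3 * (lam ^ 3 * ∑ p ∈ T.level j, M p * ∑ c ∈ T.children p, WW T lam b (n - j - 1) c)
        + (K0 + 2) * eps ^ 3 * En T M b j) := by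
    intro j hj
    have hj' : j < n := Finset.mem_range.1 hj
    set k := n - j - 1 with hk
    have h1 : ∀ p ∈ T.level j, lam ^ (2 * j) * Loss p ≤
        K0 * (eps * tau * lam ^ (k + 1) * (bmax * M p)
          + K0 * eps ^ 3 * (lam ^ 3 * (M p * ∑ c ∈ T.children p, WW T lam b k c))
          + (K0 + 2) * eps ^ 3 * (M p * (b p) ^ 2)) := by
      intro p hp
      have hd : T.depth p = j := (T.mem_level_iff _ _).1 hp
      have hL := loss_le hlam0 heps hK0 htau hb hrec hMom k p (by omega)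
      have hMp : M p = lam ^ (2 * j) * b p := by rw [hbM p, hd]
      have hL2 := mul_le_mul_of_nonneg_left hL (show 0 ≤ lam ^ (2 * j) by positivity)
      refine le_trans hL2 ?_
      have hbp := hb p
      have hb2 : b p ≤ bmax := hbmax p (by omega)
      have e : lam ^ (2 * j) * (K0 * (eps * tau * lam ^ (k + 1) * (b p) ^ 2
            + K0 * eps ^ 3 * lam ^ 3 * (b p * ∑ c ∈ T.children p, WW T lam b k c)
            + (K0 + 2) * eps ^ 3 * (b p) ^ 3))
          = K0 * (eps * tau * lam ^ (k + 1) * ((lam ^ (2 * j) * b p) * b p)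
            + K0 * eps ^ 3 * (lam ^ 3 * ((lam ^ (2 * j) * b p) * ∑ c ∈ T.children p, WW T lam b k c))
            + (K0 + 2) * eps ^ 3 * ((lam ^ (2 * j) * b p) * (b p) ^ 2)) := by ring
      rw [e, ← hMp]
      apply mul_le_mul_of_nonneg_left _ hK0
      have h2 : M p * b p ≤ bmax * M p := by
        rw [mul_comm bmax]
        exact mul_le_mul_of_nonneg_left hb2 (hM0 p)
      have h3 : 0 ≤ eps * tau * lam ^ (k + 1) := by positivity
      have := mul_le_mul_of_nonneg_left h2 h3
      linarith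
    show lam ^ (2 * j) * ∑ p ∈ T.level j, Loss p ≤ _
    rw [Finset.mul_sum]
    refine le_trans (Finset.sum_le_sum h1) ?_
    apply le_of_eq
    have e1 : ∑ p ∈ T.level j, eps * tau * lam ^ (k + 1) * (bmax * M p)
        = eps * tau * lam ^ (k + 1) * (bmax * M T.root) := by
      rw [← sum_level_mass T hMc j, Finset.mul_sum, Finset.mul_sum]
    have e2 : ∑ p ∈ T.level j, K0 * eps ^ 3 * (lam ^ 3 * (M p * ∑ c ∈ T.children p, WW T lam b k c))
        = K0 * eps ^ 3 * (lam ^ 3 * ∑ p ∈ T.level j, M p * ∑ c ∈ T.children p, WW T lam b k c) := by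
      rw [Finset.mul_sum, Finset.mul_sum]
    have e3 : ∑ p ∈ T.level j, (K0 + 2) * eps ^ 3 * (M p * (b p) ^ 2)
        = (K0 + 2) * eps ^ 3 * En T M b j := by
      unfold En
      rw [Finset.mul_sum]
    rw [← Finset.mul_sum, Finset.sum_add_distrib, Finset.sum_add_distrib, e1, e2, e3]
    ring
  have hEnn : 0 ≤ ∑ j ∈ Finset.range n, En T M b j :=
    Finset.sum_nonneg fun j _ => En_nonneg T hM0 j
  have hEbd0 : 0 ≤ Ebd := le_trans hEnn hE
  have hinv : 0 < 1 / (1 - lam) := div_pos one_pos hlam1'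
  -- sum over the levels
  have hSumLev : ∑ i ∈ Finset.range n, Lev i ≤
      K0 * (eps * tau * bmax * M T.root * (1 / (1 - lam))
        + K0 * eps ^ 3 * (1 / (1 - lam) * Ebd) + (K0 + 2) * eps ^ 3 * Ebd) := by
    refine le_trans (Finset.sum_le_sum hLev) ?_
    rw [← Finset.mul_sum]
    apply mul_le_mul_of_nonneg_left _ hK0
    have hM00 := hM0 T.root
    have hA : eps * tau * bmax * M T.root * ∑ j ∈ Finset.range n, lam ^ (n - j - 1 + 1)
        ≤ eps * tau * bmax * M T.root * (1 / (1 - lam)) :=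
      mul_le_mul_of_nonneg_left (sum_pow_sub_le hlam0.le hlam1 n) (by positivity)
    have hY0 : ∀ j ∈ Finset.range n, 0 ≤ ∑ p ∈ T.level j, M p * ∑ c ∈ T.children p, WW T lam b (n - j - 1) c :=
      fun j _ => Finset.sum_nonneg fun p _ => mul_nonneg (hM0 p)
        (Finset.sum_nonneg fun c _ => WW_nonneg T hlam0 hb _ c)
    have hB : ∑ j ∈ Finset.range n, lam ^ 3 * ∑ p ∈ T.level j, M p * ∑ c ∈ T.children p, WW T lam b (n - j - 1) c
        ≤ 1 / (1 - lam) * Ebd := by
      have h3 := sum_Y_le T hlam0 hlam1 hM0 hMc hbM hb n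
      have h4 : ∑ j ∈ Finset.range n, lam ^ 3 * ∑ p ∈ T.level j, M p * ∑ c ∈ T.children p, WW T lam b (n - j - 1) c
          ≤ ∑ j ∈ Finset.range n, lam ^ 2 * ∑ p ∈ T.level j, M p * ∑ c ∈ T.children p, WW T lam b (n - j - 1) c := by
        apply Finset.sum_le_sum
        intro j hj
        have h5 := hY0 j hj
        apply mul_le_mul_of_nonneg_right _ h5
        have e : lam ^ 3 = lam ^ 2 * lam := by ring
        rw [e]
        nlinarith [sq_nonneg lam]
      have h6 := mul_le_mul_of_nonneg_left hE hinv.le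
      linarith
    have hC : ∑ j ∈ Finset.range n, En T M b j ≤ Ebd := hE
    have e0 : ∑ j ∈ Finset.range n, (eps * tau * bmax * M T.root * lam ^ (n - j - 1 + 1)
          + K0 * eps ^ 3 * (lam ^ 3 * ∑ p ∈ T.level j, M p * ∑ c ∈ T.children p, WW T lam b (n - j - 1) c)
          + (K0 + 2) * eps ^ 3 * En T M b j)
        = eps * tau * bmax * M T.root * ∑ j ∈ Finset.range n, lam ^ (n - j - 1 + 1)
          + K0 * eps ^ 3 * ∑ j ∈ Finset.range n, lam ^ 3 * ∑ p ∈ T.level j, M p * ∑ c ∈ T.children p, WW T lam b (n - j - 1) c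
          + (K0 + 2) * eps ^ 3 * ∑ j ∈ Finset.range n, En T M b j := by
      rw [Finset.sum_add_distrib, Finset.sum_add_distrib, Finset.mul_sum, Finset.mul_sum, Finset.mul_sum]
    rw [e0]
    have h7 := mul_le_mul_of_nonneg_left hB (show 0 ≤ K0 * eps ^ 3 by positivity)
    have h8 := mul_le_mul_of_nonneg_left hC (show 0 ≤ (K0 + 2) * eps ^ 3 by positivity)
    linarith
  have h1 := htel n le_rfl
  rw [hS0, hSn] at h1
  have e : K0 * (eps * tau * bmax * M T.root * (1 / (1 - lam))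
        + K0 * eps ^ 3 * (1 / (1 - lam) * Ebd) + (K0 + 2) * eps ^ 3 * Ebd)
      = K0 * (eps * tau * bmax * M T.root / (1 - lam)
        + K0 * eps ^ 3 * Ebd / (1 - lam) + (K0 + 2) * eps ^ 3 * Ebd) := by
    field_simp
  rw [e] at hSumLev
  linarith

end main

/-! ## Flows -/

section flow

variable {lam : ℝ} {θ : V → ℝ}

/-- the conservative mass of a flow: the total mass at the root -/
noncomputable def Mf (θ : V → ℝ) (v : V) : ℝ := if v = T.root then flowMass T θ else θ v

/-- `b_v = M_v / λ^(2|v|)` -/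
noncomputable def bf (lam : ℝ) (θ : V → ℝ) (v : V) : ℝ := Mf T θ v / lam ^ (2 * T.depth v)

lemma Mf_root : Mf T θ T.root = flowMass T θ := by simp [Mf]

lemma Mf_of_ne {v : V} (h : v ≠ T.root) : Mf T θ v = θ v := by simp [Mf, h]

lemma flowMass_nonneg (hθ : IsFlow T θ) : 0 ≤ flowMass T θ :=
  Finset.sum_nonneg fun c _ => hθ.1 c

lemma Mf_nonneg (hθ : IsFlow T θ) (v : V) : 0 ≤ Mf T θ v := by
  by_cases h : v = T.root
  · subst h
    rw [Mf_root]
    exact flowMass_nonneg T hθ
  · rw [Mf_of_ne T h]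
    exact hθ.1 v

lemma Mf_cons (hθ : IsFlow T θ) (v : V) : Mf T θ v = ∑ c ∈ T.children v, Mf T θ c := by
  have e : ∑ c ∈ T.children v, Mf T θ c = ∑ c ∈ T.children v, θ c :=
    Finset.sum_congr rfl fun c hc => Mf_of_ne T (ne_root_of_mem_children T hc)
  rw [e]
  by_cases h : v = T.root
  · subst h
    rw [Mf_root]
    rfl
  · rw [Mf_of_ne T h]
    exact hθ.2 v h

lemma Mf_eq (hlam : 0 < lam) (v : V) : Mf T θ v = lam ^ (2 * T.depth v) * bf T lam θ v := by
  unfold bf
  have : lam ^ (2 * T.depth v) ≠ 0 := by positivity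
  field_simp

lemma bf_nonneg (hθ : IsFlow T θ) (hlam : 0 < lam) (v : V) : 0 ≤ bf T lam θ v :=
  div_nonneg (Mf_nonneg T hθ v) (by positivity)

lemma exists_ray (hθ : IsFlow T θ) {w : V} (hw : 0 < Mf T θ w) :
    ∃ ξ : ℕ → V, T.IsRay ξ ∧ ∀ i, i ≤ T.depth w → ξ i = T.parent^[T.depth w - i] w := by
  classical
  have hex : ∀ v, ∃ c, 0 < Mf T θ v → c ∈ T.children v ∧ 0 < Mf T θ c := by
    intro v
    by_cases h : 0 < Mf T θ v
    · have : ∃ c ∈ T.children v, 0 < Mf T θ c := by
        by_contra hcon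
        have hcon' : ∀ c ∈ T.children v, Mf T θ c ≤ 0 := fun c hc => not_lt.1 fun h' => hcon ⟨c, hc, h'⟩
        have h1 := Finset.sum_nonpos hcon'
        rw [← Mf_cons T hθ v] at h1
        linarith
      obtain ⟨c, hc, hc2⟩ := this
      exact ⟨c, fun _ => ⟨hc, hc2⟩⟩
    · exact ⟨v, fun h' => absurd h' h⟩
  choose nx hnx using hex
  set n := T.depth w with hn
  have hpos : ∀ m, 0 < Mf T θ (nx^[m] w) := by
    intro m
    induction m with
    | zero => simpa using hw
    | succ m ih =>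
      rw [Function.iterate_succ_apply']
      exact (hnx _ ih).2
  let ξ : ℕ → V := fun i => if i ≤ n then T.parent^[n - i] w else nx^[i - n] w
  have hξ1 : ∀ i, i ≤ n → ξ i = T.parent^[n - i] w := fun i hi => by simp [ξ, hi]
  have hξ2 : ∀ m, ξ (n + m) = nx^[m] w := by
    intro m
    by_cases hm : m = 0
    · subst hm
      simp [ξ]
    · have : ¬ (n + m ≤ n) := by omega
      simp only [ξ, this, if_false]
      congr 1
      omega
  have hwl : w ∈ T.level (0 + n) := (T.mem_level_iff _ _).2 (by omega)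
  refine ⟨ξ, ⟨?_, ?_⟩, hξ1⟩
  · rw [hξ1 0 (Nat.zero_le _)]
    have h0 := parent_iter_mem T n w hwl
    have h1 : T.depth (T.parent^[n - 0] w) = 0 := (T.mem_level_iff _ _).1 (by simpa using h0)
    exact (T.depth_eq_zero_iff _).1 h1
  · intro i
    by_cases hi : i < n
    · rw [hξ1 (i + 1) (by omega), hξ1 i (by omega)]
      have e : n - i = (n - (i + 1)) + 1 := by omega
      rw [e, Function.iterate_succ_apply']
      have hl : w ∈ T.level ((i + 1) + (n - (i + 1))) := (T.mem_level_iff _ _).2 (by omega)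
      have hv := parent_iter_mem T (n - (i + 1)) w hl
      set v := T.parent^[n - (i + 1)] w
      have hdv : T.depth v = i + 1 := (T.mem_level_iff _ _).1 hv
      have hne : v ≠ T.root := fun h => by
        have := (T.depth_eq_zero_iff v).2 h
        omega
      exact (mem_children T).2 ⟨(T.depth_parent v hne).symm, rfl⟩
    · obtain ⟨m, rfl⟩ : ∃ m, i = n + m := ⟨i - n, by omega⟩
      rw [hξ2 m]
      have e : n + m + 1 = n + (m + 1) := by omega
      rw [e, hξ2 (m + 1), Function.iterate_succ_apply']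
      exact (hnx _ (hpos m)).1

lemma pot_sum {ξ : ℕ → V} (hp : rayPotential lam θ ξ ≤ 1) (N : ℕ) :
    ∑ i ∈ Finset.range N, (θ (ξ (i + 1)) / lam ^ (2 * (i + 1))) ^ 2 ≤ 1 := by
  have h := ENNReal.sum_le_tsum (f := fun i : ℕ => ENNReal.ofReal ((θ (ξ (i + 1)) / lam ^ (2 * (i + 1))) ^ 2))
    (Finset.range N)
  rw [← ENNReal.ofReal_sum_of_nonneg (fun i _ => sq_nonneg _)] at h
  exact ENNReal.ofReal_le_one.1 (le_trans h hp)

lemma path_le (hθ : IsFlow T θ) (hpot : ∀ ξ, T.IsRay ξ → rayPotential lam θ ξ ≤ 1) {w : V}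
    (hw : 0 < Mf T θ w) :
    ∑ j ∈ Finset.range (T.depth w), (bf T lam θ (T.parent^[T.depth w - (j + 1)] w)) ^ 2 ≤ 1 := by
  obtain ⟨ξ, hξ, hξw⟩ := exists_ray T hθ hw
  refine le_trans (le_of_eq ?_) (pot_sum (hpot ξ hξ) (T.depth w))
  apply Finset.sum_congr rfl
  intro j hj
  have hj' : j < T.depth w := Finset.mem_range.1 hj
  rw [hξw (j + 1) (by omega)]
  have hl : w ∈ T.level ((j + 1) + (T.depth w - (j + 1))) := (T.mem_level_iff _ _).2 (by omega)
  have hv := parent_iter_mem T (T.depth w - (j + 1)) w hl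
  set v := T.parent^[T.depth w - (j + 1)] w
  have hdv : T.depth v = j + 1 := (T.mem_level_iff _ _).1 hv
  have hne : v ≠ T.root := fun h => by
    have := (T.depth_eq_zero_iff v).2 h
    omega
  unfold bf
  rw [Mf_of_ne T hne, hdv]

/-- **Energy.** -/
theorem energy_le (hθ : IsFlow T θ) (hpot : ∀ ξ, T.IsRay ξ → rayPotential lam θ ξ ≤ 1) (n : ℕ) :
    ∑ j ∈ Finset.range n, En T (Mf T θ) (bf T lam θ) (j + 1) ≤ flowMass T θ := by
  have hMc := Mf_cons T hθ
  have h1 : ∀ j ∈ Finset.range n, En T (Mf T θ) (bf T lam θ) (j + 1)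
      = ∑ w ∈ T.level n, Mf T θ w * (bf T lam θ (T.parent^[n - (j + 1)] w)) ^ 2 := by
    intro j hj
    have hj' : j < n := Finset.mem_range.1 hj
    have h2 := sum_level_push_iter T hMc (j + 1) (fun v => (bf T lam θ v) ^ 2) (n - (j + 1))
    have e : j + 1 + (n - (j + 1)) = n := by omega
    rw [e] at h2
    exact h2.symm
  rw [Finset.sum_congr rfl h1, Finset.sum_comm, ← Mf_root T, ← sum_level_mass T hMc n]
  apply Finset.sum_le_sum
  intro w hw
  have hd : T.depth w = n := (T.mem_level_iff _ _).1 hw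
  rw [← Finset.mul_sum]
  have h0 := Mf_nonneg T hθ w
  rcases h0.lt_or_eq with h | h
  · have := path_le T hθ hpot h
    rw [hd] at this
    calc _ ≤ Mf T θ w * 1 := mul_le_mul_of_nonneg_left this h0
      _ = Mf T θ w := mul_one _
  · rw [← h]
    simp

lemma bf_le_one (hθ : IsFlow T θ) (hlam : 0 < lam) (hpot : ∀ ξ, T.IsRay ξ → rayPotential lam θ ξ ≤ 1)
    {v : V} (hv : v ≠ T.root) : bf T lam θ v ≤ 1 := by
  have h0 := Mf_nonneg T hθ v
  rcases h0.lt_or_eq with h | h
  · have h1 := path_le T hθ hpot h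
    have hpos : 0 < T.depth v := by
      rcases Nat.eq_zero_or_pos (T.depth v) with h2 | h2
      · exact absurd ((T.depth_eq_zero_iff v).1 h2) hv
      · exact h2
    have h2 := Finset.single_le_sum (f := fun j => (bf T lam θ (T.parent^[T.depth v - (j + 1)] v)) ^ 2)
      (fun j _ => sq_nonneg _) (Finset.mem_range.2 (show T.depth v - 1 < T.depth v by omega))
    have e : T.depth v - (T.depth v - 1 + 1) = 0 := by omega
    simp only [e, Function.iterate_zero, id_eq] at h2
    have h3 : (bf T lam θ v) ^ 2 ≤ 1 := le_trans h2 h1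
    exact (sq_le_one_iff₀ (bf_nonneg T hθ hlam v)).1 h3
  · unfold bf
    rw [← h]
    simp

lemma flowMass_le (hθ : IsFlow T θ) (hlam : 0 < lam) (hlam1 : lam < 1)
    (hpot : ∀ ξ, T.IsRay ξ → rayPotential lam θ ξ ≤ 1) {B : ℕ}
    (hB : ∀ v, (T.children v).card ≤ B) : flowMass T θ ≤ B := by
  have h1 : ∀ c ∈ T.children T.root, θ c ≤ 1 := by
    intro c hc
    have hne := ne_root_of_mem_children T hc
    have h2 := bf_le_one T hθ hlam hpot hne
    have h3 : θ c = Mf T θ c := (Mf_of_ne T hne).symm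
    rw [h3, Mf_eq T hlam c]
    have h4 := bf_nonneg T hθ hlam c
    have h5 : lam ^ (2 * T.depth c) ≤ 1 := pow_le_one₀ hlam.le hlam1.le
    calc _ ≤ 1 * 1 := mul_le_mul h5 h2 h4 (by norm_num)
      _ = 1 := by norm_num
  calc flowMass T θ ≤ ∑ c ∈ T.children T.root, (1 : ℝ) := Finset.sum_le_sum h1
    _ = (T.children T.root).card := by simp
    _ ≤ B := by exact_mod_cast hB T.root

/-- the constant of the theorem -/
noncomputable def Cst (lam K0 : ℝ) (B : ℕ) : ℝ :=
  K0 * ((1 + (B : ℝ)) / (1 - lam) + (K0 / (1 - lam) + K0 + 2) * (1 + (B : ℝ) ^ 2))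

/-- **Module B10.** A flow of positive mass with ray potentials at most `1` forces the moment at the root,
whatever the level `n`: the linear term `ε m` survives, the losses are `O((ε τ + ε³) m)`. -/
theorem flowToS {B : ℕ} (hB : ∀ v, (T.children v).card ≤ B) (hlam0 : 0 < lam) (hlam1 : lam < 1)
    {K0 : ℝ} (hK0 : 0 ≤ K0) (hθ : IsFlow T θ) (hpot : ∀ ξ, T.IsRay ξ → rayPotential lam θ ξ ≤ 1)
    {n : ℕ} {eps tau : ℝ} {s TT R : V → ℝ} (heps : 0 ≤ eps) (htau : 0 ≤ tau)
    (hMom : Moments T lam K0 eps tau (bf T lam θ) n s TT R) :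
    eps * flowMass T θ - Cst lam K0 B * (eps * tau + eps ^ 3) * flowMass T θ ≤ s T.root := by
  have hm0 := flowMass_nonneg T hθ
  have hmB := flowMass_le T hθ hlam0 hlam1 hpot hB
  have hBr : (0 : ℝ) ≤ B := Nat.cast_nonneg B
  have hM0 := Mf_nonneg T hθ
  have hMc := Mf_cons T hθ
  have hbM := Mf_eq (θ := θ) T hlam0
  have hb := bf_nonneg T hθ hlam0
  have hbroot : bf T lam θ T.root = flowMass T θ := by
    unfold bf
    rw [Mf_root, (T.depth_eq_zero_iff _).2 rfl]
    simp
  have hbmax : ∀ p, T.depth p < n → bf T lam θ p ≤ 1 + (B : ℝ) := by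
    intro p _
    by_cases h : p = T.root
    · subst h
      rw [hbroot]
      linarith
    · have := bf_le_one T hθ hlam0 hpot h
      linarith
  have hE : ∑ j ∈ Finset.range n, En T (Mf T θ) (bf T lam θ) j ≤ flowMass T θ * (1 + (B : ℝ) ^ 2) := by
    have hE0 := En_nonneg (b := bf T lam θ) T hM0
    have h1 : ∑ j ∈ Finset.range n, En T (Mf T θ) (bf T lam θ) j
        ≤ ∑ j ∈ Finset.range (n + 1), En T (Mf T θ) (bf T lam θ) j := by
      rw [Finset.sum_range_succ]
      have := hE0 n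
      linarith
    rw [Finset.sum_range_succ'] at h1
    have h2 := energy_le (lam := lam) T hθ hpot n
    have h3 : En T (Mf T θ) (bf T lam θ) 0 = flowMass T θ * (flowMass T θ) ^ 2 := by
      unfold En
      rw [level_zero, Finset.sum_singleton, hbroot, Mf_root]
    rw [h3] at h1
    have h4 : (flowMass T θ) ^ 2 ≤ (B : ℝ) ^ 2 := pow_le_pow_left₀ hm0 hmB 2
    have h5 := mul_le_mul_of_nonneg_left h4 hm0
    nlinarith
  have hmain := core_main T hlam0 hlam1 hK0 heps htau hM0 hMc hbM hb hMom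
    (show (0 : ℝ) ≤ 1 + (B : ℝ) by linarith) hbmax hE
  rw [Mf_root] at hmain
  have hd : 0 < 1 - lam := by linarith
  refine le_trans ?_ hmain
  unfold Cst
  set m := flowMass T θ
  set A := (1 + (B : ℝ)) / (1 - lam) with hA
  set D := (K0 / (1 - lam) + K0 + 2) * (1 + (B : ℝ) ^ 2) with hD
  have hA0 : 0 ≤ A := div_nonneg (by linarith) hd.le
  have hD0 : 0 ≤ D := by
    apply mul_nonneg
    · have : 0 ≤ K0 / (1 - lam) := div_nonneg hK0 hd.le
      linarith
    · positivity
  have e1 : K0 * (eps * tau * (1 + (B : ℝ)) * m / (1 - lam)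
        + K0 * eps ^ 3 * (m * (1 + (B : ℝ) ^ 2)) / (1 - lam)
        + (K0 + 2) * eps ^ 3 * (m * (1 + (B : ℝ) ^ 2)))
      = K0 * m * (A * (eps * tau) + D * eps ^ 3) := by
    rw [hA, hD]
    field_simp
    ring
  rw [e1]
  have h6 : 0 ≤ K0 * m * (A * eps ^ 3 + D * (eps * tau)) := by positivity
  nlinarith

end flow

end Crest.Agent.Lib.Bc.FlowToS
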