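import Crest.Agent.Lib.Bc.PairIII
/-!
# Row 163: the pair bounds Q4III, concrete part (helper98): sums over `Fin 4`, permutations, `Esig`.
-/
open scoped BigOperators
namespace Crest.Agent.Lib.Bc
namespace PIII

/-- `(1/4) ∑ ξ^a ζ^b` -/
noncomputable def W (a b : ℕ) (ξ ζ : Fin 4 → ℝ) : ℝ := (1 / 4) * ∑ i, ξ i ^ a * ζ i ^ b

/-- `(1/4) ∑ ξ²` -/
noncomputable def Pw (ξ : Fin 4 → ℝ) : ℝ := (1 / 4) * ∑ i, ξ i ^ 2

/-- `(1/4) ∑ ξ³` -/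
noncomputable def Cw (ξ : Fin 4 → ℝ) : ℝ := (1 / 4) * ∑ i, ξ i ^ 3

/-- centred coordinates -/
noncomputable def dev (x : Fin 4 → ℝ) : Fin 4 → ℝ := fun i => 4 * x i - 1

/-- the cubic invariant -/
noncomputable def piFn (x : Fin 4 → ℝ) : ℝ := Cw (dev x) / 6

lemma sum_dev {x : Fin 4 → ℝ} (hx : x ∈ Simp 4) : ∑ i, dev x i = 0 := by
  have h := hx.2
  rw [Fin.sum_univ_four] at h ⊢
  unfold dev
  linarith

lemma dev_comp (x : Fin 4 → ℝ) (σ : Equiv.Perm (Fin 4)) : dev (x ∘ σ) = dev x ∘ σ := rfl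

lemma Pw_comp (ξ : Fin 4 → ℝ) (σ : Equiv.Perm (Fin 4)) : Pw (ξ ∘ σ) = Pw ξ := by
  unfold Pw
  congr 1
  exact Equiv.sum_comp σ (fun i => ξ i ^ 2)

lemma Cw_comp (ξ : Fin 4 → ℝ) (σ : Equiv.Perm (Fin 4)) : Cw (ξ ∘ σ) = Cw ξ := by
  unfold Cw
  congr 1
  exact Equiv.sum_comp σ (fun i => ξ i ^ 3)

lemma aFn_eq_Pw {x : Fin 4 → ℝ} (hx : x ∈ Simp 4) : aFn 4 x = Pw (dev x) / 3 := by
  have h := hx.2
  rw [Fin.sum_univ_four] at h
  unfold aFn Pw dev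
  simp only [Fin.sum_univ_four]
  push_cast
  linear_combination (2 / 3) * h

lemma Pw_nonneg (ξ : Fin 4 → ℝ) : 0 ≤ Pw ξ := by
  unfold Pw
  positivity

lemma Pw_dev_le {x : Fin 4 → ℝ} (hx : x ∈ Simp 4) : Pw (dev x) ≤ 3 := by
  have h1 := aFn_le_one (q := 4) (by norm_num) hx
  rw [aFn_eq_Pw hx] at h1
  linarith

lemma abs_le_two_sqrt (ξ : Fin 4 → ℝ) (i : Fin 4) : |ξ i| ≤ 2 * Real.sqrt (Pw ξ) := by
  have h0 : ξ i ^ 2 ≤ 4 * Pw ξ := by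
    unfold Pw
    have : ξ i ^ 2 ≤ ∑ j, ξ j ^ 2 :=
      Finset.single_le_sum (f := fun j => ξ j ^ 2) (fun j _ => sq_nonneg _) (Finset.mem_univ i)
    linarith
  have h1 : |ξ i| = Real.sqrt (ξ i ^ 2) := (Real.sqrt_sq_eq_abs _).symm
  rw [h1]
  have h2 : Real.sqrt (ξ i ^ 2) ≤ Real.sqrt (4 * Pw ξ) := Real.sqrt_le_sqrt h0
  refine h2.trans (le_of_eq ?_)
  rw [Real.sqrt_mul (by norm_num : (0 : ℝ) ≤ 4)]
  congr 1
  rw [show (4 : ℝ) = 2 ^ 2 by norm_num]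
  exact Real.sqrt_sq (by norm_num)

lemma cauchy (ξ ζ : Fin 4 → ℝ) : (1 / 4) * ∑ i, |ξ i| * |ζ i| ≤ Real.sqrt (Pw ξ) * Real.sqrt (Pw ζ) := by
  have h := Real.sum_mul_le_sqrt_mul_sqrt (Finset.univ) (fun i => |ξ i|) (fun i => |ζ i|)
  simp only [sq_abs] at h
  have e1 : Real.sqrt (∑ i, ξ i ^ 2) = 2 * Real.sqrt (Pw ξ) := by
    have : ∑ i, ξ i ^ 2 = 2 ^ 2 * Pw ξ := by unfold Pw; ring
    rw [this, Real.sqrt_mul (by norm_num), Real.sqrt_sq (by norm_num)]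
  have e2 : Real.sqrt (∑ i, ζ i ^ 2) = 2 * Real.sqrt (Pw ζ) := by
    have : ∑ i, ζ i ^ 2 = 2 ^ 2 * Pw ζ := by unfold Pw; ring
    rw [this, Real.sqrt_mul (by norm_num), Real.sqrt_sq (by norm_num)]
  rw [e1, e2] at h
  linarith

/-- the basic bound on the mixed moments -/
lemma abs_W_le (a b : ℕ) (ξ ζ : Fin 4 → ℝ) :
    |W (a + 1) (b + 1) ξ ζ| ≤ (2 * Real.sqrt (Pw ξ)) ^ a * (2 * Real.sqrt (Pw ζ)) ^ b *
      (Real.sqrt (Pw ξ) * Real.sqrt (Pw ζ)) := by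
  set p := Real.sqrt (Pw ξ)
  set p' := Real.sqrt (Pw ζ)
  have hp : 0 ≤ p := Real.sqrt_nonneg _
  have hp' : 0 ≤ p' := Real.sqrt_nonneg _
  unfold W
  rw [abs_mul, abs_of_pos (by norm_num : (0 : ℝ) < 1 / 4)]
  have h1 : |∑ i, ξ i ^ (a + 1) * ζ i ^ (b + 1)| ≤ ∑ i, (2 * p) ^ a * (2 * p') ^ b * (|ξ i| * |ζ i|) := by
    refine (Finset.abs_sum_le_sum_abs _ _).trans (Finset.sum_le_sum fun i _ => ?_)
    rw [abs_mul, abs_pow, abs_pow, pow_succ, pow_succ]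
    have h2 : |ξ i| ^ a ≤ (2 * p) ^ a := pow_le_pow_left₀ (abs_nonneg _) (abs_le_two_sqrt ξ i) a
    have h3 : |ζ i| ^ b ≤ (2 * p') ^ b := pow_le_pow_left₀ (abs_nonneg _) (abs_le_two_sqrt ζ i) b
    have h4 := mul_le_mul h2 h3 (by positivity) (by positivity)
    have h5 := mul_le_mul_of_nonneg_right h4 (mul_nonneg (abs_nonneg (ξ i)) (abs_nonneg (ζ i)))
    calc |ξ i| ^ a * |ξ i| * (|ζ i| ^ b * |ζ i|) = |ξ i| ^ a * |ζ i| ^ b * (|ξ i| * |ζ i|) := by ring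
      _ ≤ _ := h5
  rw [← Finset.mul_sum] at h1
  have h6 := cauchy ξ ζ
  have h7 : 0 ≤ (2 * p) ^ a * (2 * p') ^ b := by positivity
  have h8 := mul_le_mul_of_nonneg_left h6 h7
  calc 1 / 4 * |∑ i, ξ i ^ (a + 1) * ζ i ^ (b + 1)|
      ≤ 1 / 4 * ((2 * p) ^ a * (2 * p') ^ b * ∑ i, |ξ i| * |ζ i|) := by
        exact mul_le_mul_of_nonneg_left h1 (by norm_num)
    _ = (2 * p) ^ a * (2 * p') ^ b * (1 / 4 * ∑ i, |ξ i| * |ζ i|) := by ring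
    _ ≤ _ := h8

lemma abs_Cw_le {x : Fin 4 → ℝ} (hx : x ∈ Simp 4) : |Cw (dev x)| ≤ 12 := by
  -- each coordinate of `dev x` lies in `[-1,3]`
  have h0 : ∀ i, |dev x i| ≤ 3 := fun i => by
    have h1 := hx.1 i
    have h2 := Simp.le_one hx i
    unfold dev
    rw [abs_le]
    constructor <;> linarith
  unfold Cw
  rw [abs_mul, abs_of_pos (by norm_num : (0 : ℝ) < 1 / 4)]
  have h1 : |∑ i, dev x i ^ 3| ≤ ∑ i, 3 * dev x i ^ 2 := by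
    refine (Finset.abs_sum_le_sum_abs _ _).trans (Finset.sum_le_sum fun i _ => ?_)
    rw [abs_pow, pow_succ]
    have := mul_le_mul_of_nonneg_left (h0 i) (sq_nonneg (|dev x i|))
    rw [sq_abs] at this ⊢
    linarith
  rw [← Finset.mul_sum] at h1
  have h2 := Pw_dev_le hx
  unfold Pw at h2
  linarith

/-! ## The star -/

lemma dotZ_eq {x x' : Fin 4 → ℝ} (hx : x ∈ Simp 4) (hx' : x' ∈ Simp 4) :
    dotZ 4 x x' = 1 + W 1 1 (dev x) (dev x') := by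
  have h := hx.2
  have h' := hx'.2
  rw [Fin.sum_univ_four] at h h'
  unfold dotZ W dev
  simp only [Fin.sum_univ_four]
  push_cast
  linear_combination h + h'

/-- the numerators -/
noncomputable def nn (ξ ζ : Fin 4 → ℝ) (i : Fin 4) : ℝ := ξ i + ζ i + ξ i * ζ i - W 1 1 ξ ζ

lemma dev_star {x x' : Fin 4 → ℝ} (hx : x ∈ Simp 4) (hx' : x' ∈ Simp 4) (hZ : dotZ 4 x x' ≠ 0) (i : Fin 4) :
    dev (star 4 x x') i = nn (dev x) (dev x') i / dotZ 4 x x' := by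
  have hS : ∑ j, x j * x' j ≠ 0 := by
    intro h
    apply hZ
    unfold dotZ
    rw [h]; simp
  have hdz : dotZ 4 x x' = 4 * ∑ j, x j * x' j := by
    unfold dotZ; push_cast; ring
  have hw := dotZ_eq hx hx'
  have hw' : W 1 1 (dev x) (dev x') = dotZ 4 x x' - 1 := by linarith
  unfold dev nn
  show 4 * star 4 x x' i - 1 = _
  rw [show (W 1 1 (fun i => 4 * x i - 1) (fun i => 4 * x' i - 1)) = W 1 1 (dev x) (dev x') from rfl, hw']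
  have e : star 4 x x' i = x i * x' i / ∑ j, x j * x' j := by
    simp [star, hS]
  rw [e, hdz]
  field_simp
  ring

/-- second moment of the numerators -/
noncomputable def N2 (ξ ζ : Fin 4 → ℝ) : ℝ := (1 / 4) * ∑ i, nn ξ ζ i ^ 2

/-- third moment of the numerators -/
noncomputable def N3 (ξ ζ : Fin 4 → ℝ) : ℝ := (1 / 4) * ∑ i, nn ξ ζ i ^ 3

lemma N2_eq (ξ ζ : Fin 4 → ℝ) (hξ : ∑ i, ξ i = 0) (hζ : ∑ i, ζ i = 0) :
    N2 ξ ζ = Pw ξ + Pw ζ + 2 * W 1 1 ξ ζ + 2 * W 1 2 ξ ζ + 2 * W 2 1 ξ ζ + W 2 2 ξ ζ - W 1 1 ξ ζ ^ 2 := by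
  rw [Fin.sum_univ_four] at hξ hζ
  have h4 : ξ 0 * ζ 0 + ξ 1 * ζ 1 + ξ 2 * ζ 2 + ξ 3 * ζ 3 = 4 * W 1 1 ξ ζ := by
    unfold W; simp only [Fin.sum_univ_four, pow_one]; ring
  unfold N2 nn Pw
  generalize W 1 1 ξ ζ = w at *
  unfold W
  simp only [Fin.sum_univ_four]
  linear_combination (1 / 2 - w / 2) * h4 - (w / 2) * hξ - (w / 2) * hζ

lemma N3_eq (ξ ζ : Fin 4 → ℝ) (hξ : ∑ i, ξ i = 0) (hζ : ∑ i, ζ i = 0) :
    N3 ξ ζ = Cw ξ + Cw ζ + 3 * W 2 1 ξ ζ + 3 * W 1 2 ξ ζ + 3 * W 3 1 ξ ζ + 6 * W 2 2 ξ ζ + 3 * W 1 3 ξ ζ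
      + 3 * W 3 2 ξ ζ + 3 * W 2 3 ξ ζ + W 3 3 ξ ζ
      - 3 * W 1 1 ξ ζ * (Pw ξ + Pw ζ + 2 * W 1 1 ξ ζ + 2 * W 1 2 ξ ζ + 2 * W 2 1 ξ ζ + W 2 2 ξ ζ)
      + 2 * W 1 1 ξ ζ ^ 3 := by
  rw [Fin.sum_univ_four] at hξ hζ
  have h4 : ξ 0 * ζ 0 + ξ 1 * ζ 1 + ξ 2 * ζ 2 + ξ 3 * ζ 3 = 4 * W 1 1 ξ ζ := by
    unfold W; simp only [Fin.sum_univ_four, pow_one]; ring
  unfold N3 nn Pw Cw
  generalize W 1 1 ξ ζ = w at *
  unfold W
  simp only [Fin.sum_univ_four]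
  linear_combination (-(3 * w / 2) + (3 / 4) * w ^ 2) * h4 + (3 / 4) * w ^ 2 * hξ + (3 / 4) * w ^ 2 * hζ

/-- pointwise: `Z f(y) = N2 / (3 Z)` -/
lemma Z_aFn_star {x x' : Fin 4 → ℝ} (hx : x ∈ Simp 4) (hx' : x' ∈ Simp 4) (hZ : dotZ 4 x x' ≠ 0) :
    aFn 4 (star 4 x x') = N2 (dev x) (dev x') / (3 * dotZ 4 x x' ^ 2) := by
  have hm := star_mem (q := 4) (by norm_num) hx hx'
  rw [aFn_eq_Pw hm]
  unfold Pw N2
  simp only [dev_star hx hx' hZ, Fin.sum_univ_four]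
  field_simp

lemma Z_piFn_star {x x' : Fin 4 → ℝ} (hx : x ∈ Simp 4) (hx' : x' ∈ Simp 4) (hZ : dotZ 4 x x' ≠ 0) :
    piFn (star 4 x x') = N3 (dev x) (dev x') / (6 * dotZ 4 x x' ^ 3) := by
  unfold piFn Cw N3
  simp only [dev_star hx hx' hZ, Fin.sum_univ_four]
  field_simp

/-! ## Permutation averages -/

lemma perm_sum_one (g : Fin 4 → ℝ) (i : Fin 4) :
    ∑ σ : Equiv.Perm (Fin 4), g (σ i) = 6 * ∑ k, g k := by
  have hinv : ∀ j, ∑ σ : Equiv.Perm (Fin 4), g (σ j) = ∑ σ : Equiv.Perm (Fin 4), g (σ i) := by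
    intro j
    have := Equiv.sum_comp (Equiv.mulRight (Equiv.swap i j)) (fun σ : Equiv.Perm (Fin 4) => g (σ i))
    rw [← this]
    refine Finset.sum_congr rfl fun σ _ => ?_
    simp [Equiv.Perm.mul_apply]
  have h1 : ∑ j, ∑ σ : Equiv.Perm (Fin 4), g (σ j) = 24 * ∑ k, g k := by
    rw [Finset.sum_comm]
    have : ∀ σ : Equiv.Perm (Fin 4), ∑ j, g (σ j) = ∑ k, g k := fun σ => Equiv.sum_comp σ g
    simp only [this, Finset.sum_const, Finset.card_univ, Fintype.card_perm, Fintype.card_fin]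
    simp [Nat.factorial]
  simp only [hinv, Finset.sum_const, Finset.card_univ, Fintype.card_fin] at h1
  simp at h1
  linarith

lemma exists_perm_two {i j i' j' : Fin 4} (h : i ≠ j) (h' : i' ≠ j') :
    ∃ τ : Equiv.Perm (Fin 4), τ i = i' ∧ τ j = j' := by
  refine ⟨Equiv.swap (Equiv.swap i i' j) j' * Equiv.swap i i', ?_, ?_⟩
  · simp only [Equiv.Perm.mul_apply, Equiv.swap_apply_left]
    apply Equiv.swap_apply_of_ne_of_ne _ h'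
    intro h2
    have h3 : j = i := by
      have := congrArg (Equiv.swap i i') h2
      simpa using this.symm
    exact h h3.symm
  · simp [Equiv.Perm.mul_apply]

lemma perm_sum_two (g h : Fin 4 → ℝ) {i j : Fin 4} (hij : i ≠ j) :
    ∑ σ : Equiv.Perm (Fin 4), g (σ i) * h (σ j) = 2 * ((∑ k, g k) * (∑ k, h k) - ∑ k, g k * h k) := by
  have hinv : ∀ a b : Fin 4, a ≠ b →
      ∑ σ : Equiv.Perm (Fin 4), g (σ a) * h (σ b) = ∑ σ : Equiv.Perm (Fin 4), g (σ i) * h (σ j) := by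
    intro a b hab
    obtain ⟨τ, h1, h2⟩ := exists_perm_two hij hab
    have := Equiv.sum_comp (Equiv.mulRight τ) (fun σ : Equiv.Perm (Fin 4) => g (σ i) * h (σ j))
    rw [← this]
    refine Finset.sum_congr rfl fun σ _ => ?_
    simp [Equiv.Perm.mul_apply, h1, h2]
  have h1 : ∑ a, ∑ b, (if a = b then 0 else ∑ σ : Equiv.Perm (Fin 4), g (σ a) * h (σ b))
      = 24 * ((∑ k, g k) * (∑ k, h k) - ∑ k, g k * h k) := by
    have e : ∀ σ : Equiv.Perm (Fin 4), ∑ a, ∑ b, (if a = b then 0 else g (σ a) * h (σ b))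
        = (∑ k, g k) * (∑ k, h k) - ∑ k, g k * h k := by
      intro σ
      have e1 : ∀ a b, (if a = b then (0 : ℝ) else g (σ a) * h (σ b))
          = g (σ a) * h (σ b) - if a = b then g (σ a) * h (σ b) else 0 := by
        intro a b
        split_ifs <;> simp
      simp only [e1, Finset.sum_sub_distrib, Finset.sum_ite_eq, Finset.mem_univ, if_true]
      rw [← Finset.sum_mul_sum]
      rw [Equiv.sum_comp σ g, Equiv.sum_comp σ h, Equiv.sum_comp σ (fun k => g k * h k)]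
    have e2 : ∀ a b, (if a = b then 0 else ∑ σ : Equiv.Perm (Fin 4), g (σ a) * h (σ b))
        = ∑ σ : Equiv.Perm (Fin 4), (if a = b then 0 else g (σ a) * h (σ b)) := by
      intro a b
      split_ifs <;> simp
    simp only [e2]
    have e4 : ∑ a : Fin 4, ∑ b : Fin 4, ∑ σ : Equiv.Perm (Fin 4), (if a = b then 0 else g (σ a) * h (σ b))
        = ∑ σ : Equiv.Perm (Fin 4), ∑ a : Fin 4, ∑ b : Fin 4, (if a = b then 0 else g (σ a) * h (σ b)) := by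
      calc _ = ∑ a : Fin 4, ∑ σ : Equiv.Perm (Fin 4), ∑ b : Fin 4, (if a = b then 0 else g (σ a) * h (σ b)) :=
            Finset.sum_congr rfl fun a _ => Finset.sum_comm
        _ = _ := Finset.sum_comm
    rw [e4]
    simp only [e, Finset.sum_const, Finset.card_univ, Fintype.card_perm, Fintype.card_fin]
    simp [Nat.factorial]
  have h2 : ∑ a, ∑ b, (if a = b then 0 else ∑ σ : Equiv.Perm (Fin 4), g (σ a) * h (σ b))
      = 12 * ∑ σ : Equiv.Perm (Fin 4), g (σ i) * h (σ j) := by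
    have e3 : ∀ a b : Fin 4, (if a = b then 0 else ∑ σ : Equiv.Perm (Fin 4), g (σ a) * h (σ b))
        = if a = b then 0 else ∑ σ : Equiv.Perm (Fin 4), g (σ i) * h (σ j) := by
      intro a b
      split_ifs with hab
      · rfl
      · exact hinv a b hab
    simp only [e3]
    simp only [Fin.sum_univ_four]
    simp
    ring
  linarith

/-- one point average -/
lemma avg_one (u G : Fin 4 → ℝ) :
    ∑ σ : Equiv.Perm (Fin 4), ∑ i, u i * G (σ i) = 6 * ((∑ i, u i) * ∑ k, G k) := by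
  rw [Finset.sum_comm]
  have : ∀ i, ∑ σ : Equiv.Perm (Fin 4), u i * G (σ i) = u i * (6 * ∑ k, G k) := fun i => by
    rw [← Finset.mul_sum, perm_sum_one]
  simp only [this]
  rw [← Finset.sum_mul]
  ring

/-- two point average -/
lemma avg_two (u v G H : Fin 4 → ℝ) :
    ∑ σ : Equiv.Perm (Fin 4), (∑ i, u i * G (σ i)) * (∑ j, v j * H (σ j))
      = 6 * (∑ i, u i * v i) * (∑ k, G k * H k)
        + 2 * ((∑ i, u i) * (∑ j, v j) - ∑ i, u i * v i) * ((∑ k, G k) * (∑ k, H k) - ∑ k, G k * H k) := by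
  have e1 : ∀ σ : Equiv.Perm (Fin 4), (∑ i, u i * G (σ i)) * (∑ j, v j * H (σ j))
      = ∑ i, ∑ j, (u i * v j) * (G (σ i) * H (σ j)) := by
    intro σ
    rw [Finset.sum_mul_sum]
    exact Finset.sum_congr rfl fun i _ => Finset.sum_congr rfl fun j _ => by ring
  simp only [e1]
  have e2 : ∑ σ : Equiv.Perm (Fin 4), ∑ i, ∑ j, (u i * v j) * (G (σ i) * H (σ j))
      = ∑ i, ∑ j, (u i * v j) * ∑ σ : Equiv.Perm (Fin 4), G (σ i) * H (σ j) := by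
    calc _ = ∑ i, ∑ σ : Equiv.Perm (Fin 4), ∑ j, (u i * v j) * (G (σ i) * H (σ j)) := Finset.sum_comm
      _ = ∑ i, ∑ j, ∑ σ : Equiv.Perm (Fin 4), (u i * v j) * (G (σ i) * H (σ j)) :=
          Finset.sum_congr rfl fun i _ => Finset.sum_comm
      _ = _ := Finset.sum_congr rfl fun i _ => Finset.sum_congr rfl fun j _ => by rw [Finset.mul_sum]
  rw [e2]
  have e3 : ∀ i j : Fin 4, ∑ σ : Equiv.Perm (Fin 4), G (σ i) * H (σ j)
      = (if i = j then 6 * ∑ k, G k * H k else 0)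
        + (if i = j then 0 else 2 * ((∑ k, G k) * (∑ k, H k) - ∑ k, G k * H k)) := by
    intro i j
    by_cases hij : i = j
    · subst hij
      simp only [if_true, add_zero]
      exact perm_sum_one (fun k => G k * H k) i
    · simp only [hij, if_false, zero_add]
      exact perm_sum_two G H hij
  simp only [e3]
  set A := ∑ k, G k * H k
  set B := (∑ k, G k) * (∑ k, H k) - ∑ k, G k * H k
  have e4 : ∀ i j : Fin 4, (u i * v j) * ((if i = j then 6 * A else 0) + (if i = j then 0 else 2 * B))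
      = (if i = j then (u i * v j) * (6 * A - 2 * B) else 0) + (u i * v j) * (2 * B) := by
    intro i j
    by_cases hij : i = j <;> simp [hij] <;> ring
  simp only [e4, Finset.sum_add_distrib, Finset.sum_ite_eq, Finset.mem_univ, if_true]
  have e5 : ∑ i, ∑ j, u i * v j * (2 * B) = (∑ i, u i) * (∑ j, v j) * (2 * B) := by
    rw [Finset.sum_mul_sum, Finset.sum_mul]
    exact Finset.sum_congr rfl fun i _ => by rw [Finset.sum_mul]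
  rw [e5, ← Finset.sum_mul]
  ring

lemma W_comp (a b : ℕ) (ξ g : Fin 4 → ℝ) (σ : Equiv.Perm (Fin 4)) :
    W a b ξ (g ∘ σ) = (1 / 4) * ∑ i, ξ i ^ a * (fun k => g k ^ b) (σ i) := rfl

/-- average of one mixed moment -/
lemma sum_W (a b : ℕ) (ξ g : Fin 4 → ℝ) :
    ∑ σ : Equiv.Perm (Fin 4), W a b ξ (g ∘ σ) = (3 / 2) * ((∑ i, ξ i ^ a) * ∑ k, g k ^ b) := by
  simp only [W_comp]
  have h := avg_one (fun i => ξ i ^ a) (fun k => g k ^ b)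
  rw [← Finset.mul_sum, h]
  ring

/-- average of a product of two mixed moments -/
lemma sum_WW (a b c d : ℕ) (ξ g : Fin 4 → ℝ) :
    ∑ σ : Equiv.Perm (Fin 4), W a b ξ (g ∘ σ) * W c d ξ (g ∘ σ)
      = (1 / 16) * (6 * (∑ i, ξ i ^ a * ξ i ^ c) * (∑ k, g k ^ b * g k ^ d)
        + 2 * ((∑ i, ξ i ^ a) * (∑ j, ξ j ^ c) - ∑ i, ξ i ^ a * ξ i ^ c) *
            ((∑ k, g k ^ b) * (∑ k, g k ^ d) - ∑ k, g k ^ b * g k ^ d)) := by
  simp only [W_comp]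
  have e : ∀ σ : Equiv.Perm (Fin 4), (1 / 4 * ∑ i, ξ i ^ a * (fun k => g k ^ b) (σ i)) *
      (1 / 4 * ∑ i, ξ i ^ c * (fun k => g k ^ d) (σ i))
      = (1 / 16) * ((∑ i, ξ i ^ a * (fun k => g k ^ b) (σ i)) * (∑ i, ξ i ^ c * (fun k => g k ^ d) (σ i))) := by
    intro σ; ring
  simp only [e]
  have h := avg_two (fun i => ξ i ^ a) (fun i => ξ i ^ c) (fun k => g k ^ b) (fun k => g k ^ d)
  rw [← Finset.mul_sum, h]

section averages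
variable (ξ g : Fin 4 → ℝ) (hξ : ∑ i, ξ i = 0) (hg : ∑ i, g i = 0)
include hξ

lemma sum_W11 : ∑ σ : Equiv.Perm (Fin 4), W 1 1 ξ (g ∘ σ) = 0 := by
  rw [sum_W]; simp [hξ]

lemma sum_W12 : ∑ σ : Equiv.Perm (Fin 4), W 1 2 ξ (g ∘ σ) = 0 := by
  rw [sum_W]; simp [hξ]

lemma sum_W13 : ∑ σ : Equiv.Perm (Fin 4), W 1 3 ξ (g ∘ σ) = 0 := by
  rw [sum_W]; simp [hξ]

omit hξ in
include hg in
lemma sum_W21 : ∑ σ : Equiv.Perm (Fin 4), W 2 1 ξ (g ∘ σ) = 0 := by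
  rw [sum_W]; simp [hg]

omit hξ in
include hg in
lemma sum_W31 : ∑ σ : Equiv.Perm (Fin 4), W 3 1 ξ (g ∘ σ) = 0 := by
  rw [sum_W]; simp [hg]

omit hξ in
lemma sum_W22 : ∑ σ : Equiv.Perm (Fin 4), W 2 2 ξ (g ∘ σ) = 24 * (Pw ξ * Pw g) := by
  rw [sum_W]; unfold Pw; ring

include hg in
lemma sum_W11sq : ∑ σ : Equiv.Perm (Fin 4), W 1 1 ξ (g ∘ σ) * W 1 1 ξ (g ∘ σ) = 8 * (Pw ξ * Pw g) := by
  rw [sum_WW]
  have e1 : ∑ i, ξ i ^ 1 = 0 := by simpa using hξ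
  have e2 : ∑ i, g i ^ 1 = 0 := by simpa using hg
  have e3 : ∀ i, ξ i ^ 1 * ξ i ^ 1 = ξ i ^ 2 := fun i => by ring
  have e4 : ∀ i, g i ^ 1 * g i ^ 1 = g i ^ 2 := fun i => by ring
  simp only [e1, e2, e3, e4]
  unfold Pw
  ring

include hg in
lemma sum_W12W11 : ∑ σ : Equiv.Perm (Fin 4), W 1 2 ξ (g ∘ σ) * W 1 1 ξ (g ∘ σ) = 8 * (Pw ξ * Cw g) := by
  rw [sum_WW]
  have e1 : ∑ i, ξ i ^ 1 = 0 := by simpa using hξ
  have e2 : ∑ i, g i ^ 1 = 0 := by simpa using hg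
  have e3 : ∀ i, ξ i ^ 1 * ξ i ^ 1 = ξ i ^ 2 := fun i => by ring
  have e4 : ∀ i, g i ^ 2 * g i ^ 1 = g i ^ 3 := fun i => by ring
  simp only [e1, e2, e3, e4]
  unfold Pw Cw
  ring

include hg in
lemma sum_W21W11 : ∑ σ : Equiv.Perm (Fin 4), W 2 1 ξ (g ∘ σ) * W 1 1 ξ (g ∘ σ) = 8 * (Cw ξ * Pw g) := by
  rw [sum_WW]
  have e1 : ∑ i, ξ i ^ 1 = 0 := by simpa using hξ
  have e2 : ∑ i, g i ^ 1 = 0 := by simpa using hg
  have e3 : ∀ i, ξ i ^ 2 * ξ i ^ 1 = ξ i ^ 3 := fun i => by ring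
  have e4 : ∀ i, g i ^ 1 * g i ^ 1 = g i ^ 2 := fun i => by ring
  simp only [e1, e2, e3, e4]
  unfold Pw Cw
  ring

end averages

/-! ## Per permutation -/

section perSigma
variable {x y : Fin 4 → ℝ} {z0 : ℝ}

lemma bounds (hx : x ∈ Simp 4) :
    0 ≤ Real.sqrt (Pw (dev x)) ∧ Pw (dev x) = Real.sqrt (Pw (dev x)) ^ 2 ∧ Real.sqrt (Pw (dev x)) ≤ 2 ∧
      Pw (dev x) ≤ 3 := by
  have h3 := Pw_dev_le hx
  refine ⟨Real.sqrt_nonneg _, (Real.sq_sqrt (Pw_nonneg _)).symm, ?_, h3⟩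
  rw [show (2 : ℝ) = Real.sqrt (2 ^ 2) by rw [Real.sqrt_sq]; norm_num]
  exact Real.sqrt_le_sqrt (by linarith)

lemma W_bounds (ξ ζ : Fin 4 → ℝ) :
    let p := Real.sqrt (Pw ξ); let p' := Real.sqrt (Pw ζ)
    |W 1 1 ξ ζ| ≤ p * p' ∧ |W 1 2 ξ ζ| ≤ 2 * (p * p') * p' ∧ |W 2 1 ξ ζ| ≤ 2 * (p * p') * p ∧
    |W 2 2 ξ ζ| ≤ 4 * (p * p') ^ 2 ∧ |W 3 1 ξ ζ| ≤ 4 * p ^ 2 * (p * p') ∧ |W 1 3 ξ ζ| ≤ 4 * p' ^ 2 * (p * p') ∧
    |W 3 2 ξ ζ| ≤ 8 * p * (p * p') ^ 2 ∧ |W 2 3 ξ ζ| ≤ 8 * p' * (p * p') ^ 2 ∧ |W 3 3 ξ ζ| ≤ 16 * (p * p') ^ 3 := by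
  intro p p'
  refine ⟨?_, ?_, ?_, ?_, ?_, ?_, ?_, ?_, ?_⟩
  · simpa using abs_W_le 0 0 ξ ζ
  · refine (abs_W_le 0 1 ξ ζ).trans (le_of_eq ?_); ring
  · refine (abs_W_le 1 0 ξ ζ).trans (le_of_eq ?_); ring
  · refine (abs_W_le 1 1 ξ ζ).trans (le_of_eq ?_); ring
  · refine (abs_W_le 2 0 ξ ζ).trans (le_of_eq ?_); ring
  · refine (abs_W_le 0 2 ξ ζ).trans (le_of_eq ?_); ring
  · refine (abs_W_le 2 1 ξ ζ).trans (le_of_eq ?_); ring
  · refine (abs_W_le 1 2 ξ ζ).trans (le_of_eq ?_); ring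
  · refine (abs_W_le 2 2 ξ ζ).trans (le_of_eq ?_); ring

lemma per1 (hx : x ∈ Simp 4) (hy : y ∈ Simp 4) (hz0 : 0 < z0) (hZ : z0 ≤ dotZ 4 x y) :
    |dotZ 4 x y * aFn 4 (star 4 x y) - (1 / 3) *
      (Pw (dev x) + Pw (dev y) + 2 * W 1 1 (dev x) (dev y) + 2 * W 1 2 (dev x) (dev y) + 2 * W 2 1 (dev x) (dev y)
        - (Pw (dev x) + Pw (dev y)) * W 1 1 (dev x) (dev y) + W 2 2 (dev x) (dev y)
        - 3 * (W 1 1 (dev x) (dev y) * W 1 1 (dev x) (dev y))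
        - 2 * (W 1 2 (dev x) (dev y) * W 1 1 (dev x) (dev y))
        - 2 * (W 2 1 (dev x) (dev y) * W 1 1 (dev x) (dev y)))|
      ≤ (1 / 3) * (K1 z0 * (Pw (dev x) * Pw (dev y) * (Pw (dev x) + Pw (dev y)))) := by
  obtain ⟨hp, hP, hp2, hP3⟩ := bounds hx
  obtain ⟨hp', hP', hp2', hP3'⟩ := bounds hy
  obtain ⟨h11, h12, h21, h22, -⟩ := W_bounds (dev x) (dev y)
  have hZ' : dotZ 4 x y = 1 + W 1 1 (dev x) (dev y) := dotZ_eq hx hy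
  have hZ0 : dotZ 4 x y ≠ 0 := by linarith
  have e : dotZ 4 x y * aFn 4 (star 4 x y) = (1 / 3) * (N2 (dev x) (dev y) / (1 + W 1 1 (dev x) (dev y))) := by
    rw [Z_aFn_star hx hy hZ0, ← hZ']
    field_simp
  have hb := rem1_bound (w := W 1 1 (dev x) (dev y)) (w12 := W 1 2 (dev x) (dev y)) (w21 := W 2 1 (dev x) (dev y))
    (w22 := W 2 2 (dev x) (dev y)) hp hp' hP hP' hp2 hp2' hP3 hP3' h11 h12 h21 h22 hz0 (by rw [← hZ']; exact hZ)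
  rw [e, N2_eq _ _ (sum_dev hx) (sum_dev hy), ← mul_sub, abs_mul, abs_of_pos (by norm_num : (0 : ℝ) < 1 / 3)]
  apply mul_le_mul_of_nonneg_left _ (by norm_num)
  have e2 : (Real.sqrt (Pw (dev x)) * Real.sqrt (Pw (dev y))) ^ 2 = Pw (dev x) * Pw (dev y) := by
    rw [mul_pow, ← hP, ← hP']
  rw [e2] at hb
  have e3 : (Pw (dev x) + Pw (dev y) + 2 * W 1 1 (dev x) (dev y) + 2 * W 1 2 (dev x) (dev y) + 2 * W 2 1 (dev x) (dev y)
        - (Pw (dev x) + Pw (dev y)) * W 1 1 (dev x) (dev y) + W 2 2 (dev x) (dev y)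
        - 3 * (W 1 1 (dev x) (dev y) * W 1 1 (dev x) (dev y))
        - 2 * (W 1 2 (dev x) (dev y) * W 1 1 (dev x) (dev y))
        - 2 * (W 2 1 (dev x) (dev y) * W 1 1 (dev x) (dev y)))
      = (Pw (dev x) + Pw (dev y) + 2 * W 1 1 (dev x) (dev y) + 2 * W 1 2 (dev x) (dev y) + 2 * W 2 1 (dev x) (dev y)
        - (Pw (dev x) + Pw (dev y)) * W 1 1 (dev x) (dev y) + W 2 2 (dev x) (dev y)
        - 3 * W 1 1 (dev x) (dev y) ^ 2
        - 2 * W 1 2 (dev x) (dev y) * W 1 1 (dev x) (dev y)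
        - 2 * W 2 1 (dev x) (dev y) * W 1 1 (dev x) (dev y)) := by ring
  rw [e3]
  exact hb

lemma per2 (hx : x ∈ Simp 4) (hy : y ∈ Simp 4) (hz0 : 0 < z0) (hZ : z0 ≤ dotZ 4 x y) :
    |dotZ 4 x y * piFn (star 4 x y) - (1 / 6) *
      (Cw (dev x) + Cw (dev y) + 3 * W 2 1 (dev x) (dev y) + 3 * W 1 2 (dev x) (dev y) + 3 * W 3 1 (dev x) (dev y)
        + 3 * W 1 3 (dev x) (dev y) - (3 * (Pw (dev x) + Pw (dev y)) + 2 * (Cw (dev x) + Cw (dev y))) * W 1 1 (dev x) (dev y))|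
      ≤ (1 / 6) * (K2 z0 * (Pw (dev x) * Pw (dev y))) := by
  obtain ⟨hp, hP, hp2, hP3⟩ := bounds hx
  obtain ⟨hp', hP', hp2', hP3'⟩ := bounds hy
  obtain ⟨h11, h12, h21, h22, h31, h13, h32, h23, h33⟩ := W_bounds (dev x) (dev y)
  have hZ' : dotZ 4 x y = 1 + W 1 1 (dev x) (dev y) := dotZ_eq hx hy
  have hZ0 : dotZ 4 x y ≠ 0 := by linarith
  have e : dotZ 4 x y * piFn (star 4 x y) = (1 / 6) * (N3 (dev x) (dev y) / (1 + W 1 1 (dev x) (dev y)) ^ 2) := by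
    rw [Z_piFn_star hx hy hZ0, ← hZ']
    field_simp
  have hb := rem2_bound (w := W 1 1 (dev x) (dev y)) (w12 := W 1 2 (dev x) (dev y)) (w21 := W 2 1 (dev x) (dev y))
    (w22 := W 2 2 (dev x) (dev y)) (w31 := W 3 1 (dev x) (dev y)) (w13 := W 1 3 (dev x) (dev y))
    (w32 := W 3 2 (dev x) (dev y)) (w23 := W 2 3 (dev x) (dev y)) (w33 := W 3 3 (dev x) (dev y))
    (c3 := Cw (dev x)) (c3' := Cw (dev y))
    hp hp' hP hP' hp2 hp2' hP3 hP3' h11 h12 h21 h22 h31 h13 h32 h23 h33 (abs_Cw_le hx) (abs_Cw_le hy) hz0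
    (by rw [← hZ']; exact hZ)
  rw [e, N3_eq _ _ (sum_dev hx) (sum_dev hy), ← mul_sub, abs_mul, abs_of_pos (by norm_num : (0 : ℝ) < 1 / 6)]
  apply mul_le_mul_of_nonneg_left _ (by norm_num)
  have e2 : (Real.sqrt (Pw (dev x)) * Real.sqrt (Pw (dev y))) ^ 2 = Pw (dev x) * Pw (dev y) := by
    rw [mul_pow, ← hP, ← hP']
  rw [e2] at hb
  have e3 : (Cw (dev x) + Cw (dev y) + 3 * W 2 1 (dev x) (dev y) + 3 * W 1 2 (dev x) (dev y) + 3 * W 3 1 (dev x) (dev y)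
        + 3 * W 1 3 (dev x) (dev y) - (3 * (Pw (dev x) + Pw (dev y)) + 2 * (Cw (dev x) + Cw (dev y))) * W 1 1 (dev x) (dev y))
      = (Cw (dev x) + Cw (dev y) + 3 * W 2 1 (dev x) (dev y) + 3 * W 1 2 (dev x) (dev y) + 3 * W 3 1 (dev x) (dev y)
        + 3 * W 1 3 (dev x) (dev y) - 3 * W 1 1 (dev x) (dev y) * (Pw (dev x) + Pw (dev y))
        - 2 * W 1 1 (dev x) (dev y) * (Cw (dev x) + Cw (dev y))) := by ring
  rw [e3]
  exact hb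

lemma per3 (hx : x ∈ Simp 4) (hy : y ∈ Simp 4) (hz0 : 0 < z0) (hZ : z0 ≤ dotZ 4 x y) :
    |dotZ 4 x y * aFn 4 (star 4 x y) ^ 2 - (1 / 9) *
      (Pw (dev x) ^ 2 + Pw (dev y) ^ 2
        + (4 * (Pw (dev x) + Pw (dev y)) - 3 * (Pw (dev x) + Pw (dev y)) ^ 2) * W 1 1 (dev x) (dev y)
        + 4 * (Pw (dev x) + Pw (dev y)) * W 1 2 (dev x) (dev y)
        + 4 * (Pw (dev x) + Pw (dev y)) * W 2 1 (dev x) (dev y))|
      ≤ (1 / 9) * (K3 z0 * (Pw (dev x) * Pw (dev y))) := by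
  obtain ⟨hp, hP, hp2, hP3⟩ := bounds hx
  obtain ⟨hp', hP', hp2', hP3'⟩ := bounds hy
  obtain ⟨h11, h12, h21, h22, -⟩ := W_bounds (dev x) (dev y)
  have hZ' : dotZ 4 x y = 1 + W 1 1 (dev x) (dev y) := dotZ_eq hx hy
  have hZ0 : dotZ 4 x y ≠ 0 := by linarith
  have e : dotZ 4 x y * aFn 4 (star 4 x y) ^ 2 = (1 / 9) * (N2 (dev x) (dev y) ^ 2 / (1 + W 1 1 (dev x) (dev y)) ^ 3) := by
    rw [Z_aFn_star hx hy hZ0, ← hZ']
    field_simp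
    ring
  have hb := rem3_bound (w := W 1 1 (dev x) (dev y)) (w12 := W 1 2 (dev x) (dev y)) (w21 := W 2 1 (dev x) (dev y))
    (w22 := W 2 2 (dev x) (dev y)) hp hp' hP hP' hp2 hp2' hP3 hP3' h11 h12 h21 h22 hz0 (by rw [← hZ']; exact hZ)
  rw [e, N2_eq _ _ (sum_dev hx) (sum_dev hy), ← mul_sub, abs_mul, abs_of_pos (by norm_num : (0 : ℝ) < 1 / 9)]
  apply mul_le_mul_of_nonneg_left _ (by norm_num)
  have e2 : (Real.sqrt (Pw (dev x)) * Real.sqrt (Pw (dev y))) ^ 2 = Pw (dev x) * Pw (dev y) := by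
    rw [mul_pow, ← hP, ← hP']
  rw [e2] at hb
  have e3 : (Pw (dev x) ^ 2 + Pw (dev y) ^ 2
        + (4 * (Pw (dev x) + Pw (dev y)) - 3 * (Pw (dev x) + Pw (dev y)) ^ 2) * W 1 1 (dev x) (dev y)
        + 4 * (Pw (dev x) + Pw (dev y)) * W 1 2 (dev x) (dev y)
        + 4 * (Pw (dev x) + Pw (dev y)) * W 2 1 (dev x) (dev y))
      = (Pw (dev x) ^ 2 + Pw (dev y) ^ 2 + 4 * (Pw (dev x) + Pw (dev y)) * W 1 1 (dev x) (dev y)
        + 4 * (Pw (dev x) + Pw (dev y)) * (W 1 2 (dev x) (dev y) + W 2 1 (dev x) (dev y))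
        - 3 * W 1 1 (dev x) (dev y) * (Pw (dev x) + Pw (dev y)) ^ 2) := by ring
  rw [e3]
  exact hb

end perSigma

/-! ## The pair bounds -/

lemma sum_perm_const (c : ℝ) : ∑ _σ : Equiv.Perm (Fin 4), c = 24 * c := by
  simp [Finset.card_univ, Fintype.card_perm, Nat.factorial]

lemma Esig_four (f : (Fin 4 → ℝ) → ℝ) (x x' : Fin 4 → ℝ) :
    Esig 4 f x x' = (∑ σ : Equiv.Perm (Fin 4), dotZ 4 x (x' ∘ σ) * f (star 4 x (x' ∘ σ))) / 24 := by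
  unfold Esig
  norm_num [Nat.factorial]

/-- constant of the lower bound -/
noncomputable def KL (z0 : ℝ) : ℝ := 9 * K1 z0

variable {x x' : Fin 4 → ℝ} {z0 : ℝ}

/-- **The lower pair bound.** -/
theorem pair_low (hx : x ∈ Simp 4) (hx' : x' ∈ Simp 4) (hz0 : 0 < z0) (hZ : ∀ σ : Equiv.Perm (Fin 4), z0 ≤ dotZ 4 x (x' ∘ σ)) :
    aFn 4 x + aFn 4 x' - 4 * (piFn x * aFn 4 x' + piFn x' * aFn 4 x)
      - KL z0 * (aFn 4 x ^ 2 * aFn 4 x' + aFn 4 x * aFn 4 x' ^ 2) ≤ Esig 4 (aFn 4) x x' := by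
  have hξ := sum_dev hx
  have hg := sum_dev hx'
  rw [Esig_four, le_div_iff₀ (by norm_num : (0 : ℝ) < 24)]
  have h : ∀ σ : Equiv.Perm (Fin 4), (1 / 3) * (Pw (dev x) + Pw (dev x') + 2 * W 1 1 (dev x) (dev x' ∘ σ)
        + 2 * W 1 2 (dev x) (dev x' ∘ σ) + 2 * W 2 1 (dev x) (dev x' ∘ σ)
        - (Pw (dev x) + Pw (dev x')) * W 1 1 (dev x) (dev x' ∘ σ) + W 2 2 (dev x) (dev x' ∘ σ)
        - 3 * (W 1 1 (dev x) (dev x' ∘ σ) * W 1 1 (dev x) (dev x' ∘ σ))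
        - 2 * (W 1 2 (dev x) (dev x' ∘ σ) * W 1 1 (dev x) (dev x' ∘ σ))
        - 2 * (W 2 1 (dev x) (dev x' ∘ σ) * W 1 1 (dev x) (dev x' ∘ σ)))
        - (1 / 3) * (K1 z0 * (Pw (dev x) * Pw (dev x') * (Pw (dev x) + Pw (dev x'))))
      ≤ dotZ 4 x (x' ∘ σ) * aFn 4 (star 4 x (x' ∘ σ)) := by
    intro σ
    have h1 := per1 hx (comp_mem_Simp σ hx') hz0 (hZ σ)
    simp only [dev_comp, Pw_comp] at h1
    have h2 := (abs_le.1 h1).1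
    linarith
  have hsum := Finset.sum_le_sum (s := Finset.univ) fun σ _ => h σ
  refine le_trans (le_of_eq ?_) hsum
  simp only [Finset.sum_sub_distrib, Finset.sum_add_distrib, ← Finset.mul_sum, sum_perm_const]
  rw [sum_W11 _ _ hξ, sum_W12 _ _ hξ, sum_W21 _ _ hg, sum_W22, sum_W11sq _ _ hξ hg, sum_W12W11 _ _ hξ hg,
    sum_W21W11 _ _ hξ hg]
  rw [aFn_eq_Pw hx, aFn_eq_Pw hx']
  unfold piFn KL
  ring

/-- constant of the upper bounds -/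
noncomputable def KU (z0 : ℝ) : ℝ := 2 * K2 z0 + K3 z0

lemma K2_nonneg (hz0 : 0 < z0) : 0 ≤ K2 z0 := by unfold K2; positivity
lemma K3_nonneg (hz0 : 0 < z0) : 0 ≤ K3 z0 := by unfold K3; positivity
lemma K1_nonneg (hz0 : 0 < z0) : 0 ≤ K1 z0 := by unfold K1; positivity

/-- **The cubic moment.** -/
theorem pair_pi (hx : x ∈ Simp 4) (hx' : x' ∈ Simp 4) (hz0 : 0 < z0) (hZ : ∀ σ : Equiv.Perm (Fin 4), z0 ≤ dotZ 4 x (x' ∘ σ)) :
    Esig 4 piFn x x' ≤ piFn x + piFn x' + KU z0 * (aFn 4 x * aFn 4 x') := by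
  have hξ := sum_dev hx
  have hg := sum_dev hx'
  rw [Esig_four, div_le_iff₀ (by norm_num : (0 : ℝ) < 24)]
  have h : ∀ σ : Equiv.Perm (Fin 4), dotZ 4 x (x' ∘ σ) * piFn (star 4 x (x' ∘ σ)) ≤
      (1 / 6) * (Cw (dev x) + Cw (dev x') + 3 * W 2 1 (dev x) (dev x' ∘ σ) + 3 * W 1 2 (dev x) (dev x' ∘ σ)
        + 3 * W 3 1 (dev x) (dev x' ∘ σ) + 3 * W 1 3 (dev x) (dev x' ∘ σ)
        - (3 * (Pw (dev x) + Pw (dev x')) + 2 * (Cw (dev x) + Cw (dev x'))) * W 1 1 (dev x) (dev x' ∘ σ))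
        + (1 / 6) * (K2 z0 * (Pw (dev x) * Pw (dev x'))) := by
    intro σ
    have h1 := per2 hx (comp_mem_Simp σ hx') hz0 (hZ σ)
    simp only [dev_comp, Pw_comp, Cw_comp] at h1
    have h2 := (abs_le.1 h1).2
    linarith
  have hsum := Finset.sum_le_sum (s := Finset.univ) fun σ _ => h σ
  refine le_trans hsum ?_
  simp only [Finset.sum_sub_distrib, Finset.sum_add_distrib, ← Finset.mul_sum, sum_perm_const]
  rw [sum_W11 _ _ hξ, sum_W12 _ _ hξ, sum_W21 _ _ hg, sum_W31 _ _ hg, sum_W13 _ _ hξ]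
  rw [aFn_eq_Pw hx, aFn_eq_Pw hx']
  unfold piFn KU
  have h0 := mul_nonneg (Pw_nonneg (dev x)) (Pw_nonneg (dev x'))
  have h1 := mul_nonneg (K3_nonneg hz0) h0
  have h2 := mul_nonneg (K2_nonneg hz0) h0
  simp only [mul_zero, add_zero, sub_zero]
  linarith

/-- **The square.** -/
theorem pair_sq (hx : x ∈ Simp 4) (hx' : x' ∈ Simp 4) (hz0 : 0 < z0) (hZ : ∀ σ : Equiv.Perm (Fin 4), z0 ≤ dotZ 4 x (x' ∘ σ)) :
    Esig 4 (fun y => aFn 4 y ^ 2) x x' ≤ aFn 4 x ^ 2 + aFn 4 x' ^ 2 + KU z0 * (aFn 4 x * aFn 4 x') := by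
  have hξ := sum_dev hx
  have hg := sum_dev hx'
  rw [Esig_four, div_le_iff₀ (by norm_num : (0 : ℝ) < 24)]
  have h : ∀ σ : Equiv.Perm (Fin 4), dotZ 4 x (x' ∘ σ) * aFn 4 (star 4 x (x' ∘ σ)) ^ 2 ≤
      (1 / 9) * (Pw (dev x) ^ 2 + Pw (dev x') ^ 2
        + (4 * (Pw (dev x) + Pw (dev x')) - 3 * (Pw (dev x) + Pw (dev x')) ^ 2) * W 1 1 (dev x) (dev x' ∘ σ)
        + 4 * (Pw (dev x) + Pw (dev x')) * W 1 2 (dev x) (dev x' ∘ σ)
        + 4 * (Pw (dev x) + Pw (dev x')) * W 2 1 (dev x) (dev x' ∘ σ))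
        + (1 / 9) * (K3 z0 * (Pw (dev x) * Pw (dev x'))) := by
    intro σ
    have h1 := per3 hx (comp_mem_Simp σ hx') hz0 (hZ σ)
    simp only [dev_comp, Pw_comp] at h1
    have h2 := (abs_le.1 h1).2
    linarith
  have hsum := Finset.sum_le_sum (s := Finset.univ) fun σ _ => h σ
  refine le_trans hsum ?_
  simp only [Finset.sum_sub_distrib, Finset.sum_add_distrib, ← Finset.mul_sum, sum_perm_const]
  rw [sum_W11 _ _ hξ, sum_W12 _ _ hξ, sum_W21 _ _ hg]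
  rw [aFn_eq_Pw hx, aFn_eq_Pw hx']
  unfold KU
  have h0 := mul_nonneg (Pw_nonneg (dev x)) (Pw_nonneg (dev x'))
  have h1 := mul_nonneg (K2_nonneg hz0) h0
  have h2 := mul_nonneg (K3_nonneg hz0) h0
  simp only [mul_zero, add_zero, sub_zero]
  linarith

end PIII
end Crest.Agent.Lib.Bc
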