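import Crest.Agent.Lib.Bc.Dir1
import Crest.Agent.Lib.Bc.Garble
import Crest.Agent.Lib.Bc.FlowToS
import Crest.Agent.Lib.Bc.PairIII2
/-!
# Row 163: S0246, direction flow ⇒ reconstruction (helper98)

From a certificate `Cert 4` (only the subadditivity of `s` on the class is used) and the pair bounds of
`PairIII2.lean`: the degraded tree laws (`T_μ δ` at level `n`, `μ² = ε b_w`) satisfy the hypotheses `Moments`
of `FlowToS.lean`, and they are dominated by the true tree laws.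
-/
open scoped BigOperators
open Crest.ProbabilityR.Broadcast Crest.ProbabilityR.TreeBroadcast
namespace Crest.Agent.Lib.Bc
namespace Dir2
open PIII

/-! ## A pair lemma with a constraint on the second argument -/

theorem pair_le_on {q : ℕ} (L L' : SLaw q) (hq : 0 < q) {ι : Type} [Fintype ι] {S' : Set (Fin q → ℝ)}
    (hS' : ∀ o, L'.post o ∈ S') {f : (Fin q → ℝ) → ℝ}
    (g h : ι → (Fin q → ℝ) → ℝ) (hf : SLaw.BddS f) (hg : ∀ k, SLaw.BddS (g k)) (hh : ∀ k, SLaw.BddS (h k))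
    (H : ∀ x ∈ Simp q, ∀ x' ∈ S', Esig q f x x' ≤ ∑ k, g k x * h k x') :
    (L.prod L').Φ f ≤ ∑ k, L.Φ (g k) * L'.Φ (h k) := by
  have step : ∀ o, L'.Φ (fun x' => Esig q f (L.post o) x') ≤ ∑ k, g k (L.post o) * L'.Φ (h k) := by
    intro o
    have hx := L.post_mem hq o
    have hb : ∀ k ∈ (Finset.univ : Finset ι), SLaw.BddS (fun x' => g k (L.post o) * h k x') :=
      fun k _ => SLaw.BddS.const_mul _ (hh k)
    have h1 : L'.Φ (fun x' => Esig q f (L.post o) x') ≤ L'.Φ (fun x' => ∑ k, g k (L.post o) * h k x') :=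
      (L'.summable_Φ hq (SLaw.BddS_Esig hq hf hx)).tsum_le_tsum
        (fun o' => mul_le_mul_of_nonneg_left (H _ hx _ (hS' o')) (L'.mass_nonneg hq o'))
        (L'.summable_Φ hq (SLaw.BddS.sum _ hb))
    rw [L'.Φ_sum hq _ hb] at h1
    simpa only [L'.Φ_const_mul hq _ (hh _)] using h1
  have hsum : ∀ k, Summable (fun o => L.mass o * g k (L.post o)) := fun k => L.summable_Φ hq (hg k)
  have e2 : ∑ k, L.Φ (g k) * L'.Φ (h k)
      = ∑' o, L.mass o * ∑ k, g k (L.post o) * L'.Φ (h k) := by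
    have : ∀ o, L.mass o * ∑ k, g k (L.post o) * L'.Φ (h k)
        = ∑ k, (L.mass o * g k (L.post o)) * L'.Φ (h k) := fun o => by
      rw [Finset.mul_sum]; exact Finset.sum_congr rfl fun k _ => by ring
    simp only [this]
    rw [(Summable.tsum_finsetSum (fun k _ => (hsum k).mul_right _))]
    refine Finset.sum_congr rfl fun k _ => ?_
    rw [tsum_mul_right]; rfl
  rw [L.Φ_prod L' hq hf, e2]
  have hB : ∀ o, |L'.Φ (fun x' => Esig q f (L.post o) x')| ≤ (q * (Classical.choose hf)) := by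
    intro o
    have hC := Classical.choose_spec hf
    have hb0 := SLaw.BddS_Esig hq hf (L.post_mem hq o)
    have h1 : L'.Φ (fun x' => Esig q f (L.post o) x') ≤ L'.Φ (fun _ => q * Classical.choose hf) :=
      L'.Φ_mono hq hb0 (SLaw.BddS.const _) (fun x' hx' => (le_abs_self _).trans (SLaw.abs_Esig_le hq hC (L.post_mem hq o) hx'))
    have h2 : L'.Φ (fun _ => -(q * Classical.choose hf)) ≤ L'.Φ (fun x' => Esig q f (L.post o) x') :=
      L'.Φ_mono hq (SLaw.BddS.const _) hb0 (fun x' hx' => (neg_le_of_abs_le (SLaw.abs_Esig_le hq hC (L.post_mem hq o) hx')))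
    rw [L'.Φ_const hq] at h1 h2
    exact abs_le.2 ⟨h2, h1⟩
  have s1 : Summable (fun o => L.mass o * L'.Φ (fun x' => Esig q f (L.post o) x')) := by
    refine Summable.of_norm_bounded (g := fun o => L.mass o * (q * Classical.choose hf))
      ((L.summable_mass hq).mul_right _) ?_
    intro o
    rw [Real.norm_eq_abs, abs_mul, abs_of_nonneg (L.mass_nonneg hq o)]
    exact mul_le_mul_of_nonneg_left (hB o) (L.mass_nonneg hq o)
  have s2 : Summable (fun o => L.mass o * ∑ k, g k (L.post o) * L'.Φ (h k)) := by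
    have : ∀ o, L.mass o * ∑ k, g k (L.post o) * L'.Φ (h k)
        = ∑ k, (L.mass o * g k (L.post o)) * L'.Φ (h k) := fun o => by
      rw [Finset.mul_sum]; exact Finset.sum_congr rfl fun k _ => by ring
    simp only [this]
    exact summable_sum fun k _ => (hsum k).mul_right _
  exact s1.tsum_le_tsum (fun o => mul_le_mul_of_nonneg_left (step o) (L.mass_nonneg hq o)) s2

/-! ## Test functions -/

local notation "ff" => aFn 4

lemma hq4 : (2 : ℕ) ≤ 4 := by norm_num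
lemma hq0 : (0 : ℕ) < 4 := by norm_num

lemma BddS_ff : SLaw.BddS ff := BddS_aFn hq4

lemma BddS_ffsq : SLaw.BddS (fun x => ff x ^ 2) := SLaw.BddS.pow BddS_ff 2

lemma BddS_pi : SLaw.BddS piFn := by
  refine ⟨2, fun x hx => ?_⟩
  have := abs_Cw_le hx
  unfold piFn
  rw [abs_div, abs_of_pos (by norm_num : (0 : ℝ) < 6)]
  linarith

lemma ff_comp_Tl (lam : ℝ) {x : Fin 4 → ℝ} (hx : x ∈ Simp 4) : ff (Tl 4 lam x) = lam ^ 2 * ff x :=
  aFn_Tl hq4 lam hx

lemma dev_Tl (lam : ℝ) (x : Fin 4 → ℝ) : dev (Tl 4 lam x) = fun i => lam * dev x i := by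
  funext i
  unfold dev Tl
  push_cast
  ring

lemma pi_comp_Tl (lam : ℝ) (x : Fin 4 → ℝ) : piFn (Tl 4 lam x) = lam ^ 3 * piFn x := by
  unfold piFn Cw
  rw [dev_Tl]
  simp only [mul_pow, ← Finset.mul_sum]
  ring

lemma Φ_tilt_ff {K : SLaw 4} {lam : ℝ} (hch : ∀ i j : Fin 4, 0 ≤ channel 4 lam i j) :
    (K.tilt lam hch).Φ ff = lam ^ 2 * K.Φ ff := SLaw.Φ_aFn_tilt K hq4 lam hch

/-- evaluation of a tilt by pointwise scaling -/
lemma Φ_tilt_scale {K : SLaw 4} {lam c : ℝ} (hch : ∀ i j : Fin 4, 0 ≤ channel 4 lam i j)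
    {F : (Fin 4 → ℝ) → ℝ} (hF : SLaw.BddS F) (h : ∀ x ∈ Simp 4, F (Tl 4 lam x) = c * F x) :
    (K.tilt lam hch).Φ F = c * K.Φ F := by
  have hT : ∀ x ∈ Simp 4, Tl 4 lam x ∈ Simp 4 := fun x hx => SLaw.Tl_mem hq0 lam hch hx
  rw [K.Φ_tilt hq0 lam hch hF hT]
  have hb : SLaw.BddS (F ∘ Tl 4 lam) := by
    obtain ⟨D, hD⟩ := hF
    exact ⟨D, fun x hx => hD _ (hT x hx)⟩
  have h1 := K.Φ_mono hq0 hb (SLaw.BddS.const_mul c hF) (fun x hx => le_of_eq (h x hx))
  have h2 := K.Φ_mono hq0 (SLaw.BddS.const_mul c hF) hb (fun x hx => le_of_eq (h x hx).symm)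
  rw [K.Φ_const_mul hq0 _ hF] at h1 h2
  exact le_antisymm h1 h2

lemma Φ_tilt_pi {K : SLaw 4} {lam : ℝ} (hch : ∀ i j : Fin 4, 0 ≤ channel 4 lam i j) :
    (K.tilt lam hch).Φ piFn = lam ^ 3 * K.Φ piFn :=
  Φ_tilt_scale hch BddS_pi (fun x _ => pi_comp_Tl lam x)

lemma Φ_tilt_ffsq {K : SLaw 4} {lam : ℝ} (hch : ∀ i j : Fin 4, 0 ≤ channel 4 lam i j) :
    (K.tilt lam hch).Φ (fun x => ff x ^ 2) = lam ^ 4 * K.Φ (fun x => ff x ^ 2) :=
  Φ_tilt_scale hch BddS_ffsq (fun x hx => by rw [ff_comp_Tl lam hx]; ring)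

lemma Φ_ff_nonneg (K : SLaw 4) : 0 ≤ K.Φ ff := K.Φ_aFn_nonneg hq4

lemma Φ_ffsq_nonneg (K : SLaw 4) : 0 ≤ K.Φ (fun x => ff x ^ 2) :=
  Cert.Φ_nonneg_of hq0 K BddS_ffsq (fun x _ => sq_nonneg _)

/-! ## Integrated pair bounds -/

/-- points of `T_λ Simp` are bounded below -/
def Rg (z0 : ℝ) : Set (Fin 4 → ℝ) := {x' | x' ∈ Simp 4 ∧ ∀ i, z0 / 4 ≤ x' i}

lemma post_tilt_mem (K : SLaw 4) {lam : ℝ} (h1 : 0 ≤ lam) (h2 : lam ≤ 1)
    (hch : ∀ i j : Fin 4, 0 ≤ channel 4 lam i j) (o : (K.tilt lam hch).O) :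
    (K.tilt lam hch).post o ∈ Rg (1 - lam) := by
  refine ⟨(K.tilt lam hch).post_mem hq0 o, fun i => ?_⟩
  by_cases ho : ∑ j, K.w o j = 0
  · have e : ∑ j, (K.tilt lam hch).w o j = 0 := by rw [K.tilt_sum lam hch o, ho]
    have : (K.tilt lam hch).post o i = 1 / (4 : ℕ) := by
      unfold SLaw.post
      rw [if_pos e]
    rw [this]
    push_cast
    linarith
  · rw [K.tilt_post hq0 lam hch o ho]
    have := (K.post_mem hq0 o).1 i
    unfold Tl
    push_cast
    have := mul_nonneg h1 this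
    linarith

lemma dotZ_ge {z0 : ℝ} {x x' : Fin 4 → ℝ} (hx : x ∈ Simp 4) (hx' : x' ∈ Rg z0) (σ : Equiv.Perm (Fin 4)) :
    z0 ≤ dotZ 4 x (x' ∘ σ) := by
  unfold dotZ
  push_cast
  have h1 : ∑ i, x i * (z0 / 4) ≤ ∑ i, x i * (x' ∘ σ) i :=
    Finset.sum_le_sum fun i _ => mul_le_mul_of_nonneg_left (hx'.2 _) (hx.1 i)
  rw [← Finset.sum_mul, hx.2] at h1
  linarith

section integrated
variable (L K : SLaw 4) {lam : ℝ} (h1 : 0 ≤ lam) (h2 : lam < 1) (hch : ∀ i j : Fin 4, 0 ≤ channel 4 lam i j)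
include h1 h2

theorem prod_pi_le :
    (L.prod (K.tilt lam hch)).Φ piFn ≤ L.Φ piFn + (K.tilt lam hch).Φ piFn
      + KU (1 - lam) * (L.Φ ff * (K.tilt lam hch).Φ ff) := by
  have hz : 0 < 1 - lam := by linarith
  have key := pair_le_on L (K.tilt lam hch) hq0 (S' := Rg (1 - lam)) (post_tilt_mem K h1 h2.le hch) (ι := Fin 3)
    (f := piFn) ![piFn, fun _ => 1, ff] ![fun _ => 1, piFn, fun x => KU (1 - lam) * ff x]
    BddS_pi
    (fun k => by fin_cases k <;> simp [BddS_pi, SLaw.BddS.const, BddS_ff])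
    (fun k => by
      fin_cases k
      · simpa using SLaw.BddS.const 1
      · simpa using BddS_pi
      · simpa using SLaw.BddS.const_mul _ BddS_ff)
    (fun x hx x' hx' => by
      have := pair_pi hx hx'.1 hz (fun σ => dotZ_ge hx hx' σ)
      simp only [Fin.sum_univ_three, Matrix.cons_val_zero, Matrix.cons_val_one, Matrix.cons_val]
      linarith)
  simp only [Fin.sum_univ_three, Matrix.cons_val_zero, Matrix.cons_val_one, Matrix.cons_val] at key
  rw [SLaw.Φ_const _ hq0, SLaw.Φ_const _ hq0, SLaw.Φ_const_mul _ hq0 _ BddS_ff] at key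
  linarith

theorem prod_ffsq_le :
    (L.prod (K.tilt lam hch)).Φ (fun x => ff x ^ 2) ≤ L.Φ (fun x => ff x ^ 2) + (K.tilt lam hch).Φ (fun x => ff x ^ 2)
      + KU (1 - lam) * (L.Φ ff * (K.tilt lam hch).Φ ff) := by
  have hz : 0 < 1 - lam := by linarith
  have key := pair_le_on L (K.tilt lam hch) hq0 (S' := Rg (1 - lam)) (post_tilt_mem K h1 h2.le hch) (ι := Fin 3)
    (f := fun x => ff x ^ 2) ![fun x => ff x ^ 2, fun _ => 1, ff] ![fun _ => 1, fun x => ff x ^ 2, fun x => KU (1 - lam) * ff x]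
    BddS_ffsq
    (fun k => by fin_cases k <;> simp [BddS_ffsq, SLaw.BddS.const, BddS_ff])
    (fun k => by
      fin_cases k
      · simpa using SLaw.BddS.const 1
      · simpa using BddS_ffsq
      · simpa using SLaw.BddS.const_mul _ BddS_ff)
    (fun x hx x' hx' => by
      have := pair_sq hx hx'.1 hz (fun σ => dotZ_ge hx hx' σ)
      simp only [Fin.sum_univ_three, Matrix.cons_val_zero, Matrix.cons_val_one, Matrix.cons_val]
      linarith)
  simp only [Fin.sum_univ_three, Matrix.cons_val_zero, Matrix.cons_val_one, Matrix.cons_val] at key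
  rw [SLaw.Φ_const _ hq0, SLaw.Φ_const _ hq0, SLaw.Φ_const_mul _ hq0 _ BddS_ff] at key
  linarith

theorem prod_ff_ge :
    L.Φ ff + (K.tilt lam hch).Φ ff
      - 4 * (L.Φ piFn * (K.tilt lam hch).Φ ff + (K.tilt lam hch).Φ piFn * L.Φ ff)
      - KL (1 - lam) * (L.Φ (fun x => ff x ^ 2) * (K.tilt lam hch).Φ ff + L.Φ ff * (K.tilt lam hch).Φ (fun x => ff x ^ 2))
      ≤ (L.prod (K.tilt lam hch)).Φ ff := by
  have hz : 0 < 1 - lam := by linarith
  have hnf : SLaw.BddS (fun x => - ff x) := SLaw.BddS.neg BddS_ff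
  have key := pair_le_on L (K.tilt lam hch) hq0 (S' := Rg (1 - lam)) (post_tilt_mem K h1 h2.le hch) (ι := Fin 6)
    (f := fun x => - ff x)
    ![fun x => - ff x, fun _ => 1, piFn, ff, fun x => ff x ^ 2, ff]
    ![fun _ => 1, fun x => - ff x, fun x => 4 * ff x, fun x => 4 * piFn x, fun x => KL (1 - lam) * ff x,
      fun x => KL (1 - lam) * ff x ^ 2]
    hnf
    (fun k => by
      fin_cases k
      · simpa using hnf
      · simpa using SLaw.BddS.const 1
      · simpa using BddS_pi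
      · simpa using BddS_ff
      · simpa using BddS_ffsq
      · simpa using BddS_ff)
    (fun k => by
      fin_cases k
      · simpa using SLaw.BddS.const 1
      · simpa using hnf
      · simpa using SLaw.BddS.const_mul 4 BddS_ff
      · simpa using SLaw.BddS.const_mul 4 BddS_pi
      · simpa using SLaw.BddS.const_mul _ BddS_ff
      · simpa using SLaw.BddS.const_mul _ BddS_ffsq)
    (fun x hx x' hx' => by
      rw [Esig_neg]
      have := pair_low hx hx'.1 hz (fun σ => dotZ_ge hx hx' σ)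
      simp only [Fin.sum_univ_succ, Fin.sum_univ_zero, Matrix.cons_val_zero, Matrix.cons_val_succ]
      nlinarith)
  simp only [Fin.sum_univ_succ, Fin.sum_univ_zero, Matrix.cons_val_zero, Matrix.cons_val_succ] at key
  rw [SLaw.Φ_neg hq0 BddS_ff, SLaw.Φ_neg hq0 BddS_ff, SLaw.Φ_neg hq0 BddS_ff, SLaw.Φ_const _ hq0, SLaw.Φ_const _ hq0,
    SLaw.Φ_const_mul _ hq0 _ BddS_ff, SLaw.Φ_const_mul _ hq0 _ BddS_pi, SLaw.Φ_const_mul _ hq0 _ BddS_ff,
    SLaw.Φ_const_mul _ hq0 _ BddS_ffsq] at key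
  nlinarith

end integrated

/-! ## Merging a list of children -/

section merge
variable {α : Type*} (C : Cert 4) (hU : 0 ≤ C.g (fun _ => (1 : ℝ) / (4 : ℕ))) {lam : ℝ} (h0 : 0 ≤ lam) (h1 : lam < 1)
  (hch : ∀ i j : Fin 4, 0 ≤ channel 4 lam i j) (Ls : α → SLaw 4)

/-- the law of a list of children -/
noncomputable def AA (l : List α) : SLaw 4 := prodList (l.map fun c => (Ls c).tilt lam hch)

lemma AA_cons (c : α) (l : List α) : AA hch Ls (c :: l) = (AA hch Ls l).prod ((Ls c).tilt lam hch) := rfl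

/-- the hats -/
noncomputable def shat (lam : ℝ) (Ls : α → SLaw 4) (c : α) : ℝ := lam ^ 2 * (Ls c).Φ ff
noncomputable def That (lam : ℝ) (Ls : α → SLaw 4) (c : α) : ℝ := lam ^ 3 * max 0 ((Ls c).Φ piFn)
noncomputable def Rhat (lam : ℝ) (Ls : α → SLaw 4) (c : α) : ℝ := lam ^ 4 * (Ls c).Φ (fun x => ff x ^ 2)

/-- list sum -/
noncomputable def LS (u : α → ℝ) (l : List α) : ℝ := (l.map u).sum

/-- pair quantity -/
noncomputable def PP (u : α → ℝ) : List α → ℝ
  | [] => 0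
  | c :: l => PP u l + LS u l * u c

@[simp] lemma LS_nil (u : α → ℝ) : LS u [] = 0 := rfl
@[simp] lemma LS_cons (u : α → ℝ) (c : α) (l : List α) : LS u (c :: l) = u c + LS u l := by
  simp [LS]

lemma LS_nonneg {u : α → ℝ} (hu : ∀ c, 0 ≤ u c) (l : List α) : 0 ≤ LS u l := by
  induction l with
  | nil => simp
  | cons c l ih => rw [LS_cons]; linarith [hu c]

lemma PP_nonneg {u : α → ℝ} (hu : ∀ c, 0 ≤ u c) (l : List α) : 0 ≤ PP u l := by
  induction l with
  | nil => exact le_rfl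
  | cons c l ih =>
    have := mul_nonneg (LS_nonneg hu l) (hu c)
    show 0 ≤ PP u l + LS u l * u c
    linarith

lemma two_PP (u : α → ℝ) (l : List α) : 2 * PP u l = LS u l ^ 2 - LS (fun c => u c ^ 2) l := by
  induction l with
  | nil => simp [PP]
  | cons c l ih =>
    show 2 * (PP u l + LS u l * u c) = _
    rw [LS_cons, LS_cons]
    linarith [ih, sq_nonneg (u c)]

/-- accumulated cross moment -/
noncomputable def XX (u v : α → ℝ) : List α → ℝ
  | [] => 0
  | c :: l => XX u v l + LS u l * v c + u c * LS v l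

lemma XX_eq (u v : α → ℝ) (l : List α) : XX u v l = LS u l * LS v l - LS (fun c => u c * v c) l := by
  induction l with
  | nil => simp [XX]
  | cons c l ih =>
    show XX u v l + LS u l * v c + u c * LS v l = _
    rw [ih, LS_cons, LS_cons, LS_cons]
    ring

/-- sum along the list of `PP · u` -/
noncomputable def PPP (u : α → ℝ) : List α → ℝ
  | [] => 0
  | c :: l => PPP u l + PP u l * u c

lemma PPP_le {u : α → ℝ} (hu : ∀ c, 0 ≤ u c) (l : List α) : PPP u l ≤ LS u l * PP u l := by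
  induction l with
  | nil => simp [PPP]
  | cons c l ih =>
    show PPP u l + PP u l * u c ≤ LS u (c :: l) * (PP u l + LS u l * u c)
    rw [LS_cons]
    have a1 := hu c
    have a2 := LS_nonneg hu l
    have a3 := PP_nonneg hu l
    have a4 := mul_nonneg a2 (mul_nonneg a2 a1)
    have a5 := mul_nonneg a1 (mul_nonneg a2 a1)
    nlinarith

lemma Φ_triv_eq (f : (Fin 4 → ℝ) → ℝ) : (SLaw.triv 4).Φ f = f (fun _ => (1 : ℝ) / (4 : ℕ)) :=
  SLaw.Φ_pow_zero (SLaw.triv 4) hq0 f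

lemma ff_centre : ff (fun _ => (1 : ℝ) / (4 : ℕ)) = 0 := aFn_centre hq4

lemma pi_centre : piFn (fun _ => (1 : ℝ) / (4 : ℕ)) = 0 := by
  unfold piFn Cw dev
  norm_num

variable {Ls}
include hU in
/-- class and subadditivity -/
lemma AA_class (hcl : ∀ c, 0 ≤ ((Ls c).tilt lam hch).Φ C.g) (l : List α) : 0 ≤ (AA hch Ls l).Φ C.g := by
  induction l with
  | nil =>
    show 0 ≤ (SLaw.triv 4).Φ C.g
    rw [Φ_triv_eq]; exact hU
  | cons c l ih =>
    rw [AA_cons]
    exact C.class_prod hq0 ih (hcl c)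

lemma shat_nonneg (lam : ℝ) (Ls : α → SLaw 4) (c : α) : 0 ≤ shat lam Ls c :=
  mul_nonneg (sq_nonneg lam) (Φ_ff_nonneg _)

include h0 in
lemma That_nonneg (Ls : α → SLaw 4) (c : α) : 0 ≤ That lam Ls c :=
  mul_nonneg (pow_nonneg h0 3) (le_max_left _ _)

lemma Rhat_nonneg (lam : ℝ) (Ls : α → SLaw 4) (c : α) : 0 ≤ Rhat lam Ls c :=
  mul_nonneg (by positivity) (Φ_ffsq_nonneg _)

include hU in
lemma AA_s_le (hcl : ∀ c, 0 ≤ ((Ls c).tilt lam hch).Φ C.g) (l : List α) :
    (AA hch Ls l).Φ ff ≤ LS (shat lam Ls) l := by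
  induction l with
  | nil =>
    show (SLaw.triv 4).Φ ff ≤ 0
    rw [Φ_triv_eq, ff_centre]
  | cons c l ih =>
    rw [AA_cons, LS_cons]
    have h := C.sub hq4 (AA_class C hU hch hcl l) (hcl c)
    have e : ((Ls c).tilt lam hch).Φ (aFn 4) = shat lam Ls c := Φ_tilt_ff hch
    rw [e] at h
    have s0 := Φ_ff_nonneg (AA hch Ls l)
    have s1 := shat_nonneg lam Ls c
    have a1 := mul_nonneg C.κ₂_nonneg (mul_nonneg s0 s1)
    have a2 := mul_nonneg C.κ₃_nonneg
      (add_nonneg (mul_nonneg (sq_nonneg ((AA hch Ls l).Φ ff)) s1) (mul_nonneg s0 (sq_nonneg (shat lam Ls c))))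
    linarith

include h0 h1 hU in
lemma AA_pi_le (hcl : ∀ c, 0 ≤ ((Ls c).tilt lam hch).Φ C.g) (l : List α) :
    (AA hch Ls l).Φ piFn ≤ LS (That lam Ls) l + KU (1 - lam) * PP (shat lam Ls) l := by
  have hKU : 0 ≤ KU (1 - lam) := by
    have hz : 0 < 1 - lam := by linarith
    have := K2_nonneg hz
    have := K3_nonneg hz
    unfold KU
    linarith
  induction l with
  | nil =>
    show (SLaw.triv 4).Φ piFn ≤ 0 + KU (1 - lam) * 0
    rw [Φ_triv_eq, pi_centre]
    simp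
  | cons c l ih =>
    rw [AA_cons, LS_cons]
    have h := prod_pi_le (AA hch Ls l) (Ls c) h0 h1 hch
    have e : ((Ls c).tilt lam hch).Φ (aFn 4) = shat lam Ls c := Φ_tilt_ff hch
    rw [e, Φ_tilt_pi hch] at h
    have s := AA_s_le C hU hch hcl l
    have s1 := shat_nonneg lam Ls c
    have a1 : (AA hch Ls l).Φ ff * shat lam Ls c ≤ LS (shat lam Ls) l * shat lam Ls c :=
      mul_le_mul_of_nonneg_right s s1
    have a2 := mul_le_mul_of_nonneg_left a1 hKU
    have a3 : lam ^ 3 * (Ls c).Φ piFn ≤ That lam Ls c :=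
      mul_le_mul_of_nonneg_left (le_max_right _ _) (pow_nonneg h0 3)
    show _ ≤ _ + _ + KU (1 - lam) * (PP (shat lam Ls) l + LS (shat lam Ls) l * shat lam Ls c)
    nlinarith

include h0 h1 hU in
lemma AA_ffsq_le (hcl : ∀ c, 0 ≤ ((Ls c).tilt lam hch).Φ C.g) (l : List α) :
    (AA hch Ls l).Φ (fun x => ff x ^ 2) ≤ LS (Rhat lam Ls) l + KU (1 - lam) * PP (shat lam Ls) l := by
  have hKU : 0 ≤ KU (1 - lam) := by
    have hz : 0 < 1 - lam := by linarith
    have := K2_nonneg hz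
    have := K3_nonneg hz
    unfold KU
    linarith
  induction l with
  | nil =>
    show (SLaw.triv 4).Φ (fun x => ff x ^ 2) ≤ 0 + KU (1 - lam) * 0
    rw [Φ_triv_eq, ff_centre]
    simp
  | cons c l ih =>
    rw [AA_cons, LS_cons]
    have h := prod_ffsq_le (AA hch Ls l) (Ls c) h0 h1 hch
    have e : ((Ls c).tilt lam hch).Φ (aFn 4) = shat lam Ls c := Φ_tilt_ff hch
    rw [e, Φ_tilt_ffsq hch] at h
    have s := AA_s_le C hU hch hcl l
    have s1 := shat_nonneg lam Ls c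
    have a1 : (AA hch Ls l).Φ ff * shat lam Ls c ≤ LS (shat lam Ls) l * shat lam Ls c :=
      mul_le_mul_of_nonneg_right s s1
    have a2 := mul_le_mul_of_nonneg_left a1 hKU
    show _ ≤ _ + _ + KU (1 - lam) * (PP (shat lam Ls) l + LS (shat lam Ls) l * shat lam Ls c)
    have e2 : Rhat lam Ls c = lam ^ 4 * (Ls c).Φ (fun x => ff x ^ 2) := rfl
    nlinarith

/-- the sum of the hats -/
noncomputable def Uhat (lam : ℝ) (Ls : α → SLaw 4) (c : α) : ℝ := That lam Ls c + Rhat lam Ls c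

include h0 h1 hU in
/-- **the lower bound along the list** -/
lemma AA_s_ge (hcl : ∀ c, 0 ≤ ((Ls c).tilt lam hch).Φ C.g) (l : List α) :
    LS (shat lam Ls) l - ((4 + KL (1 - lam)) * XX (Uhat lam Ls) (shat lam Ls) l
        + (4 + KL (1 - lam)) * KU (1 - lam) * PPP (shat lam Ls) l)
      ≤ (AA hch Ls l).Φ ff := by
  have hz : 0 < 1 - lam := by linarith
  have hKU : 0 ≤ KU (1 - lam) := by
    have := K2_nonneg hz
    have := K3_nonneg hz
    unfold KU
    linarith
  have hKL : 0 ≤ KL (1 - lam) := by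
    have := K1_nonneg hz
    unfold KL
    linarith
  induction l with
  | nil =>
    show 0 - ((4 + KL (1 - lam)) * 0 + (4 + KL (1 - lam)) * KU (1 - lam) * 0) ≤ (SLaw.triv 4).Φ ff
    rw [Φ_triv_eq, ff_centre]
    simp
  | cons c l ih =>
    rw [AA_cons, LS_cons]
    have h := prod_ff_ge (AA hch Ls l) (Ls c) h0 h1 hch
    have e : ((Ls c).tilt lam hch).Φ (aFn 4) = shat lam Ls c := Φ_tilt_ff hch
    rw [e, Φ_tilt_pi hch, Φ_tilt_ffsq hch] at h
    set s := (AA hch Ls l).Φ ff with hs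
    set t := (AA hch Ls l).Φ piFn with ht
    set r := (AA hch Ls l).Φ (fun x => ff x ^ 2) with hr
    set S := LS (shat lam Ls) l with hS
    set Pl := PP (shat lam Ls) l with hPl
    set Tl' := LS (That lam Ls) l with hTl
    set Rl := LS (Rhat lam Ls) l with hRl
    have s0 : 0 ≤ s := Φ_ff_nonneg _
    have s1 : s ≤ S := AA_s_le C hU hch hcl l
    have t1 : t ≤ Tl' + KU (1 - lam) * Pl := AA_pi_le C hU h0 h1 hch hcl l
    have r1 : r ≤ Rl + KU (1 - lam) * Pl := AA_ffsq_le C hU h0 h1 hch hcl l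
    have u0 := shat_nonneg lam Ls c
    have u1 := That_nonneg h0 Ls c
    have u2 := Rhat_nonneg lam Ls c
    have u3 : lam ^ 3 * (Ls c).Φ piFn ≤ That lam Ls c :=
      mul_le_mul_of_nonneg_left (le_max_right _ _) (pow_nonneg h0 3)
    have P0 : 0 ≤ Pl := PP_nonneg (shat_nonneg lam Ls) l
    have T0 : 0 ≤ Tl' := LS_nonneg (That_nonneg h0 Ls) l
    have R0 : 0 ≤ Rl := LS_nonneg (Rhat_nonneg lam Ls) l
    have S0 : 0 ≤ S := s0.trans s1
    -- bounds for the four terms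
    have b1 : t * shat lam Ls c ≤ (Tl' + KU (1 - lam) * Pl) * shat lam Ls c := mul_le_mul_of_nonneg_right t1 u0
    have b2 : lam ^ 3 * (Ls c).Φ piFn * s ≤ That lam Ls c * S :=
      (mul_le_mul_of_nonneg_right u3 s0).trans (mul_le_mul_of_nonneg_left s1 u1)
    have b3 : r * shat lam Ls c ≤ (Rl + KU (1 - lam) * Pl) * shat lam Ls c := mul_le_mul_of_nonneg_right r1 u0
    have b4 : s * (lam ^ 4 * (Ls c).Φ (fun x => ff x ^ 2)) ≤ S * Rhat lam Ls c := by
      have e2 : Rhat lam Ls c = lam ^ 4 * (Ls c).Φ (fun x => ff x ^ 2) := rfl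
      rw [← e2]
      exact mul_le_mul_of_nonneg_right s1 u2
    have b3' := mul_le_mul_of_nonneg_left b3 hKL
    have b4' := mul_le_mul_of_nonneg_left b4 hKL
    -- the recursions of the accumulated quantities
    have eX : XX (Uhat lam Ls) (shat lam Ls) (c :: l)
        = XX (Uhat lam Ls) (shat lam Ls) l + LS (Uhat lam Ls) l * shat lam Ls c + Uhat lam Ls c * S := rfl
    have eP : PPP (shat lam Ls) (c :: l) = PPP (shat lam Ls) l + Pl * shat lam Ls c := rfl
    have eU : LS (Uhat lam Ls) l = Tl' + Rl := by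
      rw [hTl, hRl]
      clear_value s t r S Pl Tl' Rl
      clear ih h s0 s1 t1 r1 u0 u1 u2 u3 P0 T0 R0 S0 b1 b2 b3 b4 b3' b4' eX eP hs ht hr hS hPl hTl hRl
      induction l with
      | nil => simp
      | cons d l ih =>
        simp only [LS_cons]
        rw [ih]
        unfold Uhat
        ring
    have eUc : Uhat lam Ls c = That lam Ls c + Rhat lam Ls c := rfl
    rw [eX, eP, eU, eUc]
    -- nonnegative leftovers
    have n1 : 0 ≤ KL (1 - lam) * (Tl' * shat lam Ls c) := by positivity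
    have n2 : 0 ≤ KL (1 - lam) * (That lam Ls c * S) := by positivity
    have n3 : 0 ≤ 4 * (Rl * shat lam Ls c) := by positivity
    have n4 : 0 ≤ 4 * (S * Rhat lam Ls c) := by positivity
    have n5 : 0 ≤ KL (1 - lam) * (KU (1 - lam) * Pl * shat lam Ls c) := by positivity
    nlinarith

end merge

/-! ## The degraded tree -/

section tree
variable {V : Type*} [DecidableEq V] (T : LocFinTree V) {lam : ℝ} (hch : ∀ i j : Fin 4, 0 ≤ channel 4 lam i j)

/-- laws below `v` with leaf laws `leaf`, relative depth `k` -/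
noncomputable def degAux (leaf : V → SLaw 4) : ℕ → V → SLaw 4
  | 0, v => leaf v
  | k + 1, v => prodList ((T.children v).toList.map fun c => (degAux leaf k c).tilt lam hch)

/-- the degraded tree law at `v`, with level `n` -/
noncomputable def deg (leaf : V → SLaw 4) (n : ℕ) (v : V) : SLaw 4 := degAux T hch leaf (n - T.depth v) v

lemma deg_level (leaf : V → SLaw 4) {n : ℕ} {v : V} (hv : T.depth v = n) : deg T hch leaf n v = leaf v := by
  unfold deg
  rw [hv, Nat.sub_self]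
  rfl

lemma deg_eq_prod (leaf : V → SLaw 4) {n : ℕ} {v : V} (hv : T.depth v < n) :
    deg T hch leaf n v = AA hch (deg T hch leaf n) (T.children v).toList := by
  obtain ⟨m, hm⟩ : ∃ m, n - T.depth v = m + 1 := ⟨n - T.depth v - 1, by omega⟩
  have h1 : deg T hch leaf n v = degAux T hch leaf (m + 1) v := by
    unfold deg; rw [hm]
  rw [h1]
  show prodList ((T.children v).toList.map fun c => (degAux T hch leaf m c).tilt lam hch) = _
  unfold AA
  congr 1
  apply List.map_congr_left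
  intro c hc
  have hc' : c ∈ T.children v := by simpa using hc
  have h2 : n - T.depth c = m := by
    rw [depth_of_mem_children T hc']; omega
  unfold deg; rw [h2]

lemma dominated_prodList {α : Type*} (l : List α) (F F' : α → SLaw 4) (h : ∀ c ∈ l, Dominated (F c) (F' c)) :
    Dominated (prodList (l.map F)) (prodList (l.map F')) := by
  induction l with
  | nil => exact Dominated.refl _
  | cons c l ih =>
    exact Dominated.prod hq0 (ih fun d hd => h d (List.mem_cons_of_mem _ hd)) (h c List.mem_cons_self)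

theorem deg_dominated (leaf : V → SLaw 4) (hleaf : ∀ v, Dominated (leaf v) (hardSL 4)) (n k : ℕ) :
    ∀ v, T.depth v + k = n → Dominated (deg T hch leaf n v) (treeSL T lam hq0 hch n v) := by
  induction k with
  | zero =>
    intro v hv
    have hv' : T.depth v = n := by omega
    rw [deg_level T hch leaf hv']
    have : treeSL T lam hq0 hch n v = hardSL 4 := by
      unfold treeSL
      rw [hv', Nat.sub_self]
      rfl
    rw [this]
    exact hleaf v
  | succ k ih =>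
    intro v hv
    rw [deg_eq_prod T hch leaf (by omega), treeSL_eq_prod T lam hq0 hch n v (by omega)]
    refine dominated_prodList _ _ _ fun c hc => ?_
    have hc' : c ∈ T.children v := by simpa using hc
    refine Dominated.tilt hq0 (ih c ?_) lam hch
    rw [depth_of_mem_children T hc']
    omega

theorem deg_class (C : Cert 4) (hU : 0 ≤ C.g (fun _ => (1 : ℝ) / (4 : ℕ))) {γ : ℝ} (hγ : 0 ≤ γ)
    (hT : ∀ x ∈ Simp 4, γ * C.g x ≤ C.g (Tl 4 lam x))
    (leaf : V → SLaw 4) (hleaf : ∀ v, 0 ≤ (leaf v).Φ C.g) (n k : ℕ) :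
    ∀ v, n - T.depth v = k → 0 ≤ (deg T hch leaf n v).Φ C.g := by
  induction k with
  | zero =>
    intro v hv
    have : deg T hch leaf n v = leaf v := by
      unfold deg; rw [hv]; rfl
    rw [this]
    exact hleaf v
  | succ k ih =>
    intro v hv
    have hlt : T.depth v < n := by omega
    rw [deg_eq_prod T hch leaf hlt]
    refine C.class_prodList hq0 hU _ ?_
    intro K hK
    obtain ⟨c, hc, rfl⟩ := List.mem_map.1 hK
    have hc' : c ∈ T.children v := by simpa using hc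
    refine C.class_tilt hq0 hch hγ hT (ih c ?_)
    rw [depth_of_mem_children T hc']
    omega

/-! ### The hard field and its degradation -/

/-- a vertex of the simplex -/
noncomputable def vtx : Fin 4 → ℝ := fun j => if j = 0 then 1 else 0

lemma ff_vtx : ff vtx = 1 := by
  unfold aFn vtx
  simp [Fin.sum_univ_four]
  norm_num

lemma pi_vtx : piFn vtx = 1 := by
  unfold piFn Cw dev vtx
  simp [Fin.sum_univ_four]
  norm_num

lemma pi_sym (σ : Equiv.Perm (Fin 4)) (x : Fin 4 → ℝ) : piFn (x ∘ σ) = piFn x := by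
  unfold piFn
  rw [dev_comp, Cw_comp]

lemma hard_ff : (hardSL 4).Φ ff = 1 := by
  rw [hardSL_Φ ff (fun σ x => aFn_comp σ x) (0 : Fin 4)]
  exact ff_vtx

lemma hard_pi : (hardSL 4).Φ piFn = 1 := by
  rw [hardSL_Φ piFn pi_sym (0 : Fin 4)]
  exact pi_vtx

lemma hard_ffsq : (hardSL 4).Φ (fun x => ff x ^ 2) = 1 := by
  rw [hardSL_Φ (fun x => ff x ^ 2) (fun σ x => by rw [aFn_comp]) (0 : Fin 4)]
  show ff vtx ^ 2 = 1
  rw [ff_vtx]; norm_num

lemma tilt_dominated (L : SLaw 4) {μ : ℝ} (h0 : 0 ≤ μ) (h1 : μ ≤ 1)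
    (h : ∀ i j : Fin 4, 0 ≤ channel 4 μ i j) : Dominated (L.tilt μ h) L := by
  intro f hf
  have hT : ∀ x ∈ Simp 4, Tl 4 μ x ∈ Simp 4 := fun x hx => SLaw.Tl_mem hq0 μ h hx
  rw [SLaw.Φ_tilt L hq0 μ h hf.bdd hT]
  refine L.Φ_mono hq0 (hf.comp_Tl hT).bdd hf.bdd fun x hx => ?_
  exact hf.Tl_le hq0 (by push_cast; nlinarith) h1 hx

lemma aFn_convexSym : ConvexSym ff := by
  refine ⟨⟨convex_Simp, fun x _ y _ a b ha hb hab => ?_⟩, ?_, fun σ x _ => aFn_comp σ x⟩
  · simp only [aFn, smul_eq_mul, Pi.add_apply, Pi.smul_apply]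
    have key : ∑ i, (a * x i + b * y i) ^ 2 ≤ a * ∑ i, x i ^ 2 + b * ∑ i, y i ^ 2 := by
      rw [Finset.mul_sum, Finset.mul_sum, ← Finset.sum_add_distrib]
      refine Finset.sum_le_sum fun i _ => ?_
      obtain rfl : b = 1 - a := by linarith
      nlinarith [mul_nonneg (mul_nonneg ha hb) (sq_nonneg (x i - y i))]
    push_cast
    obtain rfl : b = 1 - a := by linarith
    nlinarith
  · have : Continuous ff := by
      unfold aFn
      fun_prop
    exact this.continuousOn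

lemma chan_nonneg {μ : ℝ} (h0 : 0 ≤ μ) (h1 : μ ≤ 1) (i j : Fin 4) : 0 ≤ channel 4 μ i j :=
  channel_nonneg hq0 (Or.inl (by push_cast; norm_num; linarith)) h1 i j

/-- the leaf laws: hard field through `T_μ` -/
noncomputable def leafMu (μ : V → ℝ) (h0 : ∀ v, 0 ≤ μ v) (h1 : ∀ v, μ v ≤ 1) (v : V) : SLaw 4 :=
  (hardSL 4).tilt (μ v) (chan_nonneg (h0 v) (h1 v))

/-! ### The moments -/

/-- `cross` in closed form -/
lemma sum_erase_mul (S : Finset V) (u v : V → ℝ) :
    ∑ c ∈ S, u c * ∑ c' ∈ S.erase c, v c' = (∑ c ∈ S, u c) * (∑ c ∈ S, v c) - ∑ c ∈ S, u c * v c := by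
  rw [Finset.sum_mul, ← Finset.sum_sub_distrib]
  refine Finset.sum_congr rfl fun c hc => ?_
  have h := Finset.sum_erase_add S v hc
  rw [← h]
  ring

lemma LS_toList (S : Finset V) (u : V → ℝ) : LS u S.toList = ∑ c ∈ S, u c := Finset.sum_map_toList S u

lemma cross_eq (lam : ℝ) (s : V → ℝ) (p : V) :
    FlowToS.cross T lam s p = (∑ c ∈ T.children p, lam ^ 2 * s c) ^ 2 - ∑ c ∈ T.children p, (lam ^ 2 * s c) ^ 2 := by
  unfold FlowToS.cross
  have : ∀ c, ∑ c' ∈ (T.children p).erase c, (lam ^ 2 * s c) * (lam ^ 2 * s c')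
      = (lam ^ 2 * s c) * ∑ c' ∈ (T.children p).erase c, (lam ^ 2 * s c') := fun c => by
    rw [Finset.mul_sum]
  simp only [this]
  rw [sum_erase_mul]
  congr 1
  · ring
  · exact Finset.sum_congr rfl fun c _ => by ring

/-- the constant of the moments -/
noncomputable def K0 (lam : ℝ) : ℝ := (4 + KL (1 - lam)) * (1 + KU (1 - lam)) + KU (1 - lam) + 1

lemma K0_nonneg {lam : ℝ} (h1 : lam < 1) : 0 ≤ K0 lam := by
  have hz : 0 < 1 - lam := by linarith
  have h2 : 0 ≤ KU (1 - lam) := by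
    have := K2_nonneg hz
    have := K3_nonneg hz
    unfold KU
    linarith
  have h3 : 0 ≤ KL (1 - lam) := by
    have := K1_nonneg hz
    unfold KL
    linarith
  unfold K0
  positivity

section moments

variable (C : Cert 4) (hU : 0 ≤ C.g (fun _ => (1 : ℝ) / (4 : ℕ))) (h0 : 0 ≤ lam) (h1 : lam < 1)
  {leaf : V → SLaw 4} {n : ℕ} (hcl : ∀ v, 0 ≤ ((deg T hch leaf n v).tilt lam hch).Φ C.g)

/-- the moments -/
noncomputable def sM (leaf : V → SLaw 4) (n : ℕ) (v : V) : ℝ := (deg T hch leaf n v).Φ ff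
noncomputable def tM (leaf : V → SLaw 4) (n : ℕ) (v : V) : ℝ := max 0 ((deg T hch leaf n v).Φ piFn)
noncomputable def rM (leaf : V → SLaw 4) (n : ℕ) (v : V) : ℝ := (deg T hch leaf n v).Φ (fun x => ff x ^ 2)

include hU hcl in
lemma up_s {p : V} (hp : T.depth p < n) :
    sM T hch leaf n p ≤ lam ^ 2 * ∑ c ∈ T.children p, sM T hch leaf n c := by
  unfold sM
  rw [deg_eq_prod T hch leaf hp]
  refine (AA_s_le C hU hch hcl _).trans (le_of_eq ?_)
  rw [LS_toList, Finset.mul_sum]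
  rfl

lemma PP_toList (lam : ℝ) (s : V → ℝ) (p : V) :
    2 * PP (fun c => lam ^ 2 * s c) (T.children p).toList = FlowToS.cross T lam s p := by
  rw [two_PP, LS_toList, LS_toList, cross_eq]

include h0 h1 in
lemma KU_nonneg : 0 ≤ KU (1 - lam) := by
  have hz : 0 < 1 - lam := by linarith
  have := K2_nonneg hz
  have := K3_nonneg hz
  unfold KU
  linarith

include h1 in
lemma KL_nonneg : 0 ≤ KL (1 - lam) := by
  have hz : 0 < 1 - lam := by linarith
  have := K1_nonneg hz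
  unfold KL
  linarith

include hU hcl h0 h1 in
lemma up_T {p : V} (hp : T.depth p < n) :
    tM T hch leaf n p ≤ lam ^ 3 * ∑ c ∈ T.children p, tM T hch leaf n c
      + K0 lam * FlowToS.cross T lam (sM T hch leaf n) p := by
  have hKU := KU_nonneg h0 h1
  have hKL := KL_nonneg (lam := lam) h1
  have hc0 : 0 ≤ PP (shat lam (deg T hch leaf n)) (T.children p).toList :=
    PP_nonneg (shat_nonneg lam _) _
  have e : FlowToS.cross T lam (sM T hch leaf n) p = 2 * PP (shat lam (deg T hch leaf n)) (T.children p).toList :=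
    (PP_toList T lam (sM T hch leaf n) p).symm
  have hK : KU (1 - lam) ≤ K0 lam := by
    unfold K0
    have : 0 ≤ (4 + KL (1 - lam)) * (1 + KU (1 - lam)) := by positivity
    linarith
  have h2 : (deg T hch leaf n p).Φ piFn ≤ LS (That lam (deg T hch leaf n)) (T.children p).toList
      + KU (1 - lam) * PP (shat lam (deg T hch leaf n)) (T.children p).toList := by
    conv_lhs => rw [deg_eq_prod T hch leaf hp]
    exact AA_pi_le C hU h0 h1 hch hcl _
  have e2 : LS (That lam (deg T hch leaf n)) (T.children p).toList = lam ^ 3 * ∑ c ∈ T.children p, tM T hch leaf n c := by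
    rw [LS_toList, Finset.mul_sum]
    rfl
  rw [e2] at h2
  have h3 : 0 ≤ lam ^ 3 * ∑ c ∈ T.children p, tM T hch leaf n c :=
    mul_nonneg (pow_nonneg h0 3) (Finset.sum_nonneg fun c _ => le_max_left _ _)
  rw [e]
  have h4 : KU (1 - lam) * PP (shat lam (deg T hch leaf n)) (T.children p).toList
      ≤ K0 lam * (2 * PP (shat lam (deg T hch leaf n)) (T.children p).toList) := by
    have h5 := mul_le_mul_of_nonneg_right hK hc0
    have h6 : 0 ≤ K0 lam * PP (shat lam (deg T hch leaf n)) (T.children p).toList :=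
      mul_nonneg (hKU.trans hK) hc0
    linarith
  have h6 : 0 ≤ K0 lam * (2 * PP (shat lam (deg T hch leaf n)) (T.children p).toList) :=
    mul_nonneg (hKU.trans hK) (by linarith)
  show max 0 _ ≤ _
  refine max_le ?_ ?_
  · linarith
  · linarith

include hU hcl h0 h1 in
lemma up_R {p : V} (hp : T.depth p < n) :
    rM T hch leaf n p ≤ lam ^ 4 * ∑ c ∈ T.children p, rM T hch leaf n c
      + K0 lam * FlowToS.cross T lam (sM T hch leaf n) p := by
  have hKU := KU_nonneg h0 h1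
  have hKL := KL_nonneg (lam := lam) h1
  have hc0 : 0 ≤ PP (shat lam (deg T hch leaf n)) (T.children p).toList :=
    PP_nonneg (shat_nonneg lam _) _
  have e : FlowToS.cross T lam (sM T hch leaf n) p = 2 * PP (shat lam (deg T hch leaf n)) (T.children p).toList :=
    (PP_toList T lam (sM T hch leaf n) p).symm
  have hK : KU (1 - lam) ≤ K0 lam := by
    unfold K0
    have : 0 ≤ (4 + KL (1 - lam)) * (1 + KU (1 - lam)) := by positivity
    linarith
  have h2 : (deg T hch leaf n p).Φ (fun x => ff x ^ 2) ≤ LS (Rhat lam (deg T hch leaf n)) (T.children p).toList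
      + KU (1 - lam) * PP (shat lam (deg T hch leaf n)) (T.children p).toList := by
    conv_lhs => rw [deg_eq_prod T hch leaf hp]
    exact AA_ffsq_le C hU h0 h1 hch hcl _
  have e2 : LS (Rhat lam (deg T hch leaf n)) (T.children p).toList = lam ^ 4 * ∑ c ∈ T.children p, rM T hch leaf n c := by
    rw [LS_toList, Finset.mul_sum]
    rfl
  rw [e2] at h2
  rw [e]
  have h4 : KU (1 - lam) * PP (shat lam (deg T hch leaf n)) (T.children p).toList
      ≤ K0 lam * (2 * PP (shat lam (deg T hch leaf n)) (T.children p).toList) := by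
    have h5 := mul_le_mul_of_nonneg_right hK hc0
    have h6 : 0 ≤ K0 lam * PP (shat lam (deg T hch leaf n)) (T.children p).toList :=
      mul_nonneg (hKU.trans hK) hc0
    linarith
  have h7 : rM T hch leaf n p = (deg T hch leaf n p).Φ (fun x => ff x ^ 2) := rfl
  rw [h7]
  linarith

include hU hcl h0 h1 in
lemma low_s {p : V} (hp : T.depth p < n) :
    lam ^ 2 * ∑ c ∈ T.children p, sM T hch leaf n c
      - K0 lam * (∑ c ∈ T.children p, (lam ^ 3 * tM T hch leaf n c + lam ^ 4 * rM T hch leaf n c) *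
            ∑ c' ∈ (T.children p).erase c, lam ^ 2 * sM T hch leaf n c'
          + (lam ^ 2 * ∑ c ∈ T.children p, sM T hch leaf n c) * FlowToS.cross T lam (sM T hch leaf n) p)
      ≤ sM T hch leaf n p := by
  have hKU := KU_nonneg h0 h1
  have hKL := KL_nonneg (lam := lam) h1
  set l := (T.children p).toList with hl
  have h2 := AA_s_ge C hU h0 h1 hch hcl l
  rw [← deg_eq_prod T hch leaf hp] at h2
  have eS : LS (shat lam (deg T hch leaf n)) l = lam ^ 2 * ∑ c ∈ T.children p, sM T hch leaf n c := by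
    rw [hl, LS_toList, Finset.mul_sum]
    rfl
  have eX : XX (Uhat lam (deg T hch leaf n)) (shat lam (deg T hch leaf n)) l
      = ∑ c ∈ T.children p, (lam ^ 3 * tM T hch leaf n c + lam ^ 4 * rM T hch leaf n c) *
            ∑ c' ∈ (T.children p).erase c, lam ^ 2 * sM T hch leaf n c' := by
    rw [XX_eq, hl, LS_toList, LS_toList, LS_toList, sum_erase_mul]
    rfl
  have eP : 2 * PP (shat lam (deg T hch leaf n)) l = FlowToS.cross T lam (sM T hch leaf n) p :=
    PP_toList T lam (sM T hch leaf n) p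
  have hPPP : PPP (shat lam (deg T hch leaf n)) l ≤ LS (shat lam (deg T hch leaf n)) l * PP (shat lam (deg T hch leaf n)) l :=
    PPP_le (shat_nonneg lam _) l
  have hS0 : 0 ≤ LS (shat lam (deg T hch leaf n)) l := LS_nonneg (shat_nonneg lam _) l
  have hP0 : 0 ≤ PP (shat lam (deg T hch leaf n)) l := PP_nonneg (shat_nonneg lam _) l
  have hX0 : 0 ≤ XX (Uhat lam (deg T hch leaf n)) (shat lam (deg T hch leaf n)) l := by
    rw [eX]
    refine Finset.sum_nonneg fun c _ => mul_nonneg ?_ (Finset.sum_nonneg fun c' _ => mul_nonneg (sq_nonneg lam) (Φ_ff_nonneg _))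
    refine add_nonneg (mul_nonneg (pow_nonneg h0 3) (le_max_left _ _)) (mul_nonneg (by positivity) (Φ_ffsq_nonneg _))
  have h2' : LS (shat lam (deg T hch leaf n)) l -
      ((4 + KL (1 - lam)) * XX (Uhat lam (deg T hch leaf n)) (shat lam (deg T hch leaf n)) l +
        (4 + KL (1 - lam)) * KU (1 - lam) * PPP (shat lam (deg T hch leaf n)) l) ≤ sM T hch leaf n p := h2
  rw [← eP, ← eX, ← eS]
  set Q := (4 + KL (1 - lam)) with hQ
  have hQ0 : 0 ≤ Q := by positivity
  have b1 : Q * KU (1 - lam) * PPP (shat lam (deg T hch leaf n)) l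
      ≤ Q * KU (1 - lam) * (LS (shat lam (deg T hch leaf n)) l * PP (shat lam (deg T hch leaf n)) l) :=
    mul_le_mul_of_nonneg_left hPPP (by positivity)
  have hA : Q ≤ K0 lam := by
    unfold K0
    have : 0 ≤ Q * KU (1 - lam) := by positivity
    rw [← hQ]
    nlinarith
  have hB : Q * KU (1 - lam) ≤ K0 lam := by
    unfold K0
    have : 0 ≤ Q := hQ0
    rw [← hQ]
    nlinarith
  have c1 := mul_le_mul_of_nonneg_right hA hX0
  have c2 := mul_le_mul_of_nonneg_right hB (mul_nonneg hS0 hP0)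
  have c3 : 0 ≤ K0 lam * (LS (shat lam (deg T hch leaf n)) l * PP (shat lam (deg T hch leaf n)) l) := by
    have : 0 ≤ K0 lam := hA.trans' hQ0
    positivity
  nlinarith

end moments

/-! ### Assembling: the degraded moments -/

section final
variable (C : Cert 4) (hU : 0 ≤ C.g (fun _ => (1 : ℝ) / (4 : ℕ)))
  (hsym : ∀ σ : Equiv.Perm (Fin 4), ∀ x, C.g (x ∘ σ) = C.g x)
  (hV : ∀ i : Fin 4, 0 ≤ C.g (fun j => if j = i then 1 else 0))
  (hγ : ∀ μ : ℝ, 0 ≤ μ → μ ≤ 1 → ∃ γ : ℝ, 0 ≤ γ ∧ ∀ x ∈ Simp 4, γ * C.g x ≤ C.g (Tl 4 μ x))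

include hsym hV in
lemma hard_class : 0 ≤ (hardSL 4).Φ C.g := by
  rw [hardSL_Φ C.g hsym (0 : Fin 4)]
  exact hV 0

include hsym hV hγ in
lemma leaf_class {μ : ℝ} (h0 : 0 ≤ μ) (h1 : μ ≤ 1) (h : ∀ i j : Fin 4, 0 ≤ channel 4 μ i j) :
    0 ≤ ((hardSL 4).tilt μ h).Φ C.g := by
  obtain ⟨γ, hγ0, hγ1⟩ := hγ μ h0 h1
  exact C.class_tilt hq0 h hγ0 hγ1 (hard_class C hsym hV)

/-- the degradation at a leaf -/
noncomputable def muF (δ : ℝ) (b : V → ℝ) (v : V) : ℝ := min 1 (δ * Real.sqrt (b v))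

lemma muF_nonneg {δ : ℝ} (hδ : 0 ≤ δ) (b : V → ℝ) (v : V) : 0 ≤ muF δ b v :=
  le_min zero_le_one (mul_nonneg hδ (Real.sqrt_nonneg _))

lemma muF_le_one (δ : ℝ) (b : V → ℝ) (v : V) : muF δ b v ≤ 1 := min_le_left _ _

lemma muF_eq {δ : ℝ} (hδ0 : 0 ≤ δ) (hδ1 : δ ≤ 1) {b : V → ℝ} {v : V} (hb : b v ≤ 1) : muF δ b v = δ * Real.sqrt (b v) := by
  apply min_eq_right
  have h1 : Real.sqrt (b v) ≤ 1 := Real.sqrt_le_one.2 hb
  have h2 := Real.sqrt_nonneg (b v)
  nlinarith

/-- leaf values -/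
lemma leaf_ff {μ : ℝ} (h : ∀ i j : Fin 4, 0 ≤ channel 4 μ i j) : ((hardSL 4).tilt μ h).Φ ff = μ ^ 2 := by
  rw [Φ_tilt_ff h, hard_ff, mul_one]

lemma leaf_pi {μ : ℝ} (h : ∀ i j : Fin 4, 0 ≤ channel 4 μ i j) : ((hardSL 4).tilt μ h).Φ piFn = μ ^ 3 := by
  rw [Φ_tilt_pi h, hard_pi, mul_one]

lemma leaf_ffsq {μ : ℝ} (h : ∀ i j : Fin 4, 0 ≤ channel 4 μ i j) :
    ((hardSL 4).tilt μ h).Φ (fun x => ff x ^ 2) = μ ^ 4 := by
  rw [Φ_tilt_ffsq h, hard_ffsq, mul_one]

variable {lam : ℝ} (h0 : 0 < lam) (h1 : lam < 1) (hch : ∀ i j : Fin 4, 0 ≤ channel 4 lam i j)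
  {θ : V → ℝ} (hθ : IsFlow T θ) (hpot : ∀ ξ, T.IsRay ξ → rayPotential lam θ ξ ≤ 1)

/-- the leaf laws of the degraded tree -/
noncomputable def leafDeg (lam : ℝ) (θ : V → ℝ) {δ : ℝ} (hδ0 : 0 ≤ δ) : V → SLaw 4 :=
  leafMu (muF δ (FlowToS.bf T lam θ)) (muF_nonneg hδ0 _) (muF_le_one _ _)

include hU hsym hV hγ h0 h1 hθ hpot in
theorem moments {δ : ℝ} (hδ0 : 0 ≤ δ) (hδ1 : δ ≤ 1) {n : ℕ} (hn : 1 ≤ n) :
    FlowToS.Moments T lam (K0 lam) (δ ^ 2) (δ ^ 3) (FlowToS.bf T lam θ) n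
      (sM T hch (leafDeg T lam θ hδ0) n) (tM T hch (leafDeg T lam θ hδ0) n) (rM T hch (leafDeg T lam θ hδ0) n) := by
  obtain ⟨γ, hγ0, hγ1⟩ := hγ lam h0.le h1.le
  have hcl0 : ∀ v, 0 ≤ (leafDeg T lam θ hδ0 v).Φ C.g := fun v =>
    leaf_class C hsym hV hγ (muF_nonneg hδ0 _ v) (muF_le_one _ _ v)
      (chan_nonneg (muF_nonneg hδ0 _ v) (muF_le_one _ _ v))
  have hcl : ∀ v, 0 ≤ ((deg T hch (leafDeg T lam θ hδ0) n v).tilt lam hch).Φ C.g := fun v =>
    C.class_tilt hq0 hch hγ0 hγ1 (deg_class T hch C hU hγ0 hγ1 _ hcl0 n _ v rfl)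
  have hb0 : ∀ v, 0 ≤ FlowToS.bf T lam θ v := FlowToS.bf_nonneg T hθ h0
  have hmu : ∀ v, T.depth v = n → δ * Real.sqrt (FlowToS.bf T lam θ v) ≤ 1 := by
    intro v hv
    have hne : v ≠ T.root := by
      intro h
      have := (T.depth_eq_zero_iff v).2 h
      omega
    have h2 := FlowToS.bf_le_one T hθ h0 hpot hne
    have h3 : Real.sqrt (FlowToS.bf T lam θ v) ≤ 1 := Real.sqrt_le_one.2 h2
    have h4 := Real.sqrt_nonneg (FlowToS.bf T lam θ v)
    nlinarith
  have hleaf : ∀ v, ∀ hv : T.depth v = n,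
      deg T hch (leafDeg T lam θ hδ0) n v = (hardSL 4).tilt (δ * Real.sqrt (FlowToS.bf T lam θ v))
        (chan_nonneg (by positivity) (hmu v hv)) := by
    intro v hv
    rw [deg_level T hch _ hv]
    have hne : v ≠ T.root := by
      intro h
      have := (T.depth_eq_zero_iff v).2 h
      omega
    have h2 := FlowToS.bf_le_one T hθ h0 hpot hne
    unfold leafDeg leafMu
    congr 1
    exact muF_eq hδ0 hδ1 h2
  refine ⟨fun v _ => Φ_ff_nonneg _, fun v _ => le_max_left _ _, fun v _ => Φ_ffsq_nonneg _, ?_, ?_, ?_, ?_, ?_, ?_, ?_⟩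
  · intro v hv
    unfold sM
    rw [hleaf v hv, leaf_ff, mul_pow, Real.sq_sqrt (hb0 v)]
  · intro v hv
    unfold tM
    rw [hleaf v hv, leaf_pi]
    have hne : v ≠ T.root := by
      intro h
      have := (T.depth_eq_zero_iff v).2 h
      omega
    have h2 := FlowToS.bf_le_one T hθ h0 hpot hne
    have h3 : Real.sqrt (FlowToS.bf T lam θ v) ≤ 1 := Real.sqrt_le_one.2 h2
    have h4 := Real.sqrt_nonneg (FlowToS.bf T lam θ v)
    have e : (δ * Real.sqrt (FlowToS.bf T lam θ v)) ^ 3 = δ ^ 3 * (FlowToS.bf T lam θ v * Real.sqrt (FlowToS.bf T lam θ v)) := by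
      have := Real.sq_sqrt (hb0 v)
      calc _ = δ ^ 3 * (Real.sqrt (FlowToS.bf T lam θ v) ^ 2 * Real.sqrt (FlowToS.bf T lam θ v)) := by ring
        _ = _ := by rw [this]
    rw [e]
    have hd3 : 0 ≤ δ ^ 3 := pow_nonneg hδ0 3
    refine max_le (mul_nonneg hd3 (hb0 v)) (mul_le_mul_of_nonneg_left ?_ hd3)
    nlinarith [hb0 v]
  · intro v hv
    unfold rM
    rw [hleaf v hv, leaf_ffsq]
    apply le_of_eq
    have := Real.sq_sqrt (hb0 v)
    calc _ = δ ^ 4 * (Real.sqrt (FlowToS.bf T lam θ v) ^ 2) ^ 2 := by ring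
      _ = _ := by rw [this]; ring
  · intro p hp
    exact up_s T hch C hU hcl hp
  · intro p hp
    exact up_T T hch C hU h0.le h1 hcl hp
  · intro p hp
    exact up_R T hch C hU h0.le h1 hcl hp
  · intro p hp
    exact low_s T hch C hU h0.le h1 hcl hp

/-- **S0246, flow ⇒ reconstruction**, from a certificate. -/
theorem advantage_of_flow {B : ℕ} (hB : ∀ v, (T.children v).card ≤ B)
    (C : Cert 4) (hU : 0 ≤ C.g (fun _ => (1 : ℝ) / (4 : ℕ)))
    (hsym : ∀ σ : Equiv.Perm (Fin 4), ∀ x, C.g (x ∘ σ) = C.g x)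
    (hV : ∀ i : Fin 4, 0 ≤ C.g (fun j => if j = i then 1 else 0))
    (hγ : ∀ μ : ℝ, 0 ≤ μ → μ ≤ 1 → ∃ γ : ℝ, 0 ≤ γ ∧ ∀ x ∈ Simp 4, γ * C.g x ≤ C.g (Tl 4 μ x))
    (h0 : 0 < lam) (h1 : lam < 1)
    (h : ∃ θ : V → ℝ, IsFlow T θ ∧ 0 < flowMass T θ ∧ ∀ ξ : ℕ → V, T.IsRay ξ → rayPotential lam θ ξ ≤ 1) :
    ∃ ε : ℝ, 0 < ε ∧ ∀ n, ε ≤ treeAdvantage 4 T lam n := by
  obtain ⟨θ, hθ, hm, hpot⟩ := h
  have hch : ∀ i j : Fin 4, 0 ≤ channel 4 lam i j := chan_nonneg h0.le h1.le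
  set Cs := FlowToS.Cst lam (K0 lam) B with hCs
  set δ : ℝ := 1 / (4 * (|Cs| + 1)) with hδ
  have hA : 0 < |Cs| + 1 := by positivity
  have hδ0 : 0 < δ := by rw [hδ]; positivity
  have hδ1 : δ ≤ 1 / 4 := by
    rw [hδ]
    apply one_div_le_one_div_of_le (by norm_num)
    have := abs_nonneg Cs
    linarith
  have hδC : |Cs| * δ ≤ 1 / 4 := by
    have h2 : δ * (4 * (|Cs| + 1)) = 1 := by rw [hδ]; field_simp
    have := abs_nonneg Cs
    nlinarith
  refine ⟨min (3 / 8) (3 / 16 * (δ ^ 2 * flowMass T θ)), lt_min (by norm_num) (by positivity), fun n => ?_⟩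
  rw [treeAdvantage_eq T lam hq0 hch n]
  have hadv := (treeSL T lam hq0 hch n T.root).Φ_aFn_le_tvU (q := 4) hq4
  have hconst : 2 * ((4 : ℕ) : ℝ) / (((4 : ℕ) : ℝ) - 1) = 8 / 3 := by norm_num
  rw [hconst] at hadv
  rcases Nat.eq_zero_or_pos n with hn | hn
  · -- level zero: the root is observed
    subst hn
    have hroot : T.depth T.root = 0 := (T.depth_eq_zero_iff _).2 rfl
    have h2 : (treeSL T lam hq0 hch 0 T.root).Φ ff = 1 := by
      have : treeSL T lam hq0 hch 0 T.root = hardSL 4 := by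
        unfold treeSL
        rw [hroot]
        rfl
      rw [this]
      exact hard_ff
    rw [h2] at hadv
    exact (min_le_left _ _).trans (by linarith)
  · -- level `n ≥ 1`
    have hM := moments T C hU hsym hV hγ h0 h1 hch hθ hpot hδ0.le (by linarith) hn
    have hS := FlowToS.flowToS T hB h0 h1 (K0_nonneg h1) hθ hpot (by positivity) (by positivity) hM
    have hdom := deg_dominated T hch (leafDeg T lam θ hδ0.le) (fun v => tilt_dominated _ (muF_nonneg hδ0.le _ v) (muF_le_one _ _ v)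
      (chan_nonneg (muF_nonneg hδ0.le _ v) (muF_le_one _ _ v)))
      n n T.root (by rw [(T.depth_eq_zero_iff _).2 rfl, zero_add]) ff aFn_convexSym
    have hm0 := hm.le
    have hloss : Cs * (δ ^ 2 * δ ^ 3 + (δ ^ 2) ^ 3) * flowMass T θ ≤ 1 / 2 * (δ ^ 2 * flowMass T θ) := by
      have e : δ ^ 2 * δ ^ 3 + (δ ^ 2) ^ 3 = δ ^ 2 * (δ * (δ ^ 2 + δ ^ 3)) := by ring
      rw [e]
      have h3 : δ ^ 2 + δ ^ 3 ≤ 2 := by
        have : δ ≤ 1 := by linarith
        have h4 : δ ^ 2 ≤ 1 := pow_le_one₀ hδ0.le this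
        have h5 : δ ^ 3 ≤ 1 := pow_le_one₀ hδ0.le this
        linarith
      have h6 : 0 ≤ δ ^ 2 + δ ^ 3 := by positivity
      have h7 : Cs * (δ * (δ ^ 2 + δ ^ 3)) ≤ 1 / 2 := by
        have h8 : Cs ≤ |Cs| := le_abs_self _
        have h9 : Cs * (δ * (δ ^ 2 + δ ^ 3)) ≤ |Cs| * (δ * (δ ^ 2 + δ ^ 3)) :=
          mul_le_mul_of_nonneg_right h8 (by positivity)
        have h10 : |Cs| * (δ * (δ ^ 2 + δ ^ 3)) = (|Cs| * δ) * (δ ^ 2 + δ ^ 3) := by ring
        rw [h10] at h9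
        have h11 : (|Cs| * δ) * (δ ^ 2 + δ ^ 3) ≤ (1 / 4) * 2 :=
          mul_le_mul hδC h3 h6 (by norm_num)
        linarith
      have h12 : 0 ≤ δ ^ 2 * flowMass T θ := by positivity
      calc Cs * (δ ^ 2 * (δ * (δ ^ 2 + δ ^ 3))) * flowMass T θ
          = (Cs * (δ * (δ ^ 2 + δ ^ 3))) * (δ ^ 2 * flowMass T θ) := by ring
        _ ≤ _ := mul_le_mul_of_nonneg_right h7 h12
    have h2 : (treeSL T lam hq0 hch n T.root).Φ ff ≥ 1 / 2 * (δ ^ 2 * flowMass T θ) := by
      have h3 : sM T hch (leafDeg T lam θ hδ0.le) n T.root ≤ (treeSL T lam hq0 hch n T.root).Φ ff := hdom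
      rw [← hCs] at hS
      linarith
    refine (min_le_right _ _).trans ?_
    linarith

/-- **S0246 from a certificate.** -/
theorem s0246_of_cert {B : ℕ} (hB : ∀ v, (T.children v).card ≤ B)
    (C : Cert 4) (hκ : 0 < C.κ₃) (hU : 0 ≤ C.g (fun _ => (1 : ℝ) / (4 : ℕ)))
    (hsym : ∀ σ : Equiv.Perm (Fin 4), ∀ x, C.g (x ∘ σ) = C.g x)
    (hV : ∀ i : Fin 4, 0 ≤ C.g (fun j => if j = i then 1 else 0))
    (hγ : ∀ μ : ℝ, 0 ≤ μ → μ ≤ 1 → ∃ γ : ℝ, 0 ≤ γ ∧ ∀ x ∈ Simp 4, γ * C.g x ≤ C.g (Tl 4 μ x))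
    (h0 : 0 < lam) (h1 : lam < 1) :
    (∃ ε : ℝ, 0 < ε ∧ ∀ n, ε ≤ treeAdvantage 4 T lam n) ↔
    (∃ θ : V → ℝ, IsFlow T θ ∧ 0 < flowMass T θ ∧ ∀ ξ : ℕ → V, T.IsRay ξ → rayPotential lam θ ξ ≤ 1) := by
  constructor
  · intro h
    obtain ⟨γ, hγ0, hγ1⟩ := hγ lam h0.le h1.le
    exact C.flow_of_advantage hq4 hκ hU hsym hV h0 h1 (chan_nonneg h0.le h1.le) hγ0 hγ1 T B hB h
  · exact advantage_of_flow T hB C hU hsym hV hγ h0 h1

end final

end tree

end Dir2
end Crest.Agent.Lib.Bc
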