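import Crest.Agent.Lib.Bc.GridFast
import Crest.Agent.Lib.Bc.CloAbstract
import Crest.Agent.Lib.Bc.NegReduce
/-!
# Row 163, `q = 3`, `lam < 0`: the regular trees `b = 5, 6` on the grid (rational tilt, star chains)

`tiltPtQ`: the tilt `T_{-u/v}` on grid points (grid `N` to grid `3 v N`, needs `2 u ≤ v`).
`level5_step`, `level6_step`: one level of the recursion on grid laws.
`Inv5`, `Inv6`: the grid law dominates the level of the recursion.  `momS_le_of_grid`: the exit number.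
-/
open scoped BigOperators
open Crest.ProbabilityR.Broadcast
namespace Crest.Agent.Lib.Bc.GridO

/-! ## The rational tilt -/

/-- the point `T_{-u/v} p` of the grid `3 v N` -/
def tiltPtQ (u v N : ℕ) (p : Pt) : Pt :=
  ⟨(u + v) * N - 3 * u * p.a, (u + v) * N - 3 * u * p.b, (u + v) * N - 3 * u * p.c⟩

section Tilt
variable {u v N D : ℕ}

lemma tiltQ_le (h2 : 2 * u ≤ v) {a : ℕ} (ha : a ≤ N) : 3 * u * a ≤ (u + v) * N :=
  (Nat.mul_le_mul_left _ ha).trans (Nat.mul_le_mul_right _ (by omega))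

lemma tiltQ_sum (h2 : 2 * u ≤ v) {p : Pt} (hp : p.a + p.b + p.c = N) :
    (tiltPtQ u v N p).a + (tiltPtQ u v N p).b + (tiltPtQ u v N p).c = 3 * v * N := by
  have h1 := tiltQ_le (u := u) (v := v) (N := N) h2 (a := p.a) (by omega)
  have h3 := tiltQ_le (u := u) (v := v) (N := N) h2 (a := p.b) (by omega)
  have h4 := tiltQ_le (u := u) (v := v) (N := N) h2 (a := p.c) (by omega)
  have e1 : 3 * u * p.a + 3 * u * p.b + 3 * u * p.c = 3 * u * N := by rw [← hp]; ring
  have e2 : 3 * ((u + v) * N) = 3 * u * N + 3 * v * N := by ring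
  show (u + v) * N - 3 * u * p.a + ((u + v) * N - 3 * u * p.b) + ((u + v) * N - 3 * u * p.c) = 3 * v * N
  omega

lemma tiltQ_good (hv : 0 < v) (h2 : 2 * u ≤ v) {pts : List Pt} {ws : List ℕ} (h : Good N D pts ws) :
    Good (3 * v * N) D (pts.map (tiltPtQ u v N)) ws := by
  obtain ⟨h1, h3, h4, h5, h6⟩ := h
  refine ⟨by positivity, h3, fun p hp => ?_, by simpa using h5, h6⟩
  obtain ⟨q, hq, rfl⟩ := List.mem_map.1 hp
  exact tiltQ_sum h2 (h4 q hq)

lemma Tl_toR_Q (hv : 0 < v) (h2 : 2 * u ≤ v) (hN : 0 < N) {p : Pt} (hp : p.a + p.b + p.c = N) :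
    Tl 3 (-((u : ℝ) / v)) (toR N p) = toR (3 * v * N) (tiltPtQ u v N p) := by
  have hN' : (N : ℝ) ≠ 0 := by positivity
  have hv' : (v : ℝ) ≠ 0 := by positivity
  have key : ∀ a : ℕ, a ≤ N → -((u : ℝ) / v) * ((a : ℝ) / N) + (1 - -((u : ℝ) / v)) / (3 : ℕ)
      = (((u + v) * N - 3 * u * a : ℕ) : ℝ) / ((3 * v * N : ℕ) : ℝ) := fun a ha => by
    rw [Nat.cast_sub (tiltQ_le h2 ha)]
    push_cast
    field_simp
    ring
  funext i
  revert i
  refine forall3 ?_ ?_ ?_
  · exact key p.a (by omega)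
  · exact key p.b (by omega)
  · exact key p.c (by omega)

lemma tiltQ_dom (hv : 0 < v) (h2 : 2 * u ≤ v) {pts : List Pt} {ws : List ℕ} (h : Good N D pts ws)
    (hch : ∀ i j : Fin 3, 0 ≤ channel 3 (-((u : ℝ) / v)) i j) :
    Dominated ((gridLaw N D pts ws).tilt (-((u : ℝ) / v)) hch)
      (gridLaw (3 * v * N) D (pts.map (tiltPtQ u v N)) ws) := by
  intro f hf
  have h3 : (0 : ℕ) < 3 := by norm_num
  have hT : ∀ x ∈ Simp 3, Tl 3 (-((u : ℝ) / v)) x ∈ Simp 3 := fun x hx => SLaw.Tl_mem h3 _ hch hx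
  rw [SLaw.Φ_tilt _ h3 _ hch hf.bdd hT]
  have hc := hf.comp_Tl hT
  have e1 := gridLaw_Φ h (g := f ∘ Tl 3 (-((u : ℝ) / v))) hc.sym
  have e2 := gridLaw_Φ (tiltQ_good hv h2 h) (g := f) hf.sym
  have hDr : (0 : ℝ) < D := by have := h.2.1; positivity
  refine le_of_eq (mul_right_cancel₀ hDr.ne' ?_)
  rw [e1, e2]
  have hz : ∀ (ps : List Pt) (vs : List ℕ), (∀ p ∈ ps, p.a + p.b + p.c = N) →
      zsum (fun p => f (Tl 3 (-((u : ℝ) / v)) (toR N p))) ps vs
        = zsum (fun p => f (toR (3 * v * N) p)) (ps.map (tiltPtQ u v N)) vs := by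
    intro ps
    induction ps with
    | nil => intro vs _; simp [zsum]
    | cons p ps ih =>
      intro vs hps
      cases vs with
      | nil => simp [zsum]
      | cons w vs =>
        simp only [zsum, List.map_cons]
        rw [Tl_toR_Q hv h2 h.1 (hps p List.mem_cons_self), ih vs fun q hq => hps q (List.mem_cons_of_mem _ hq)]
  exact hz pts ws h.2.2.1

end Tilt

/-! ## Powers -/

lemma pow_five_dom (K : SLaw 3) : Dominated (K.pow 5) (((K.prod K).prod (K.prod K)).prod K) :=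
  Dominated.prod (by norm_num) (pow_four_dom K) (Dominated.refl K)

lemma pow_six_dom (K : SLaw 3) :
    Dominated (K.pow 6) (((K.prod K).prod (K.prod K)).prod (K.prod K)) := by
  have h3 : (0 : ℕ) < 3 := by norm_num
  have h4 : Dominated (K.pow 6) ((K.pow 4).prod (K.prod K)) := fun f _ =>
    le_of_eq (Φ_prod_assoc (K.pow 4) K K f)
  exact h4.trans (Dominated.prod h3 (pow_four_dom K) (Dominated.refl _))

/-! ## One level on grid laws -/

section Level
variable {N W L n D u v : ℕ} {ks : List ℕ}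

/-- one level of the `b = 5` recursion on weights -/
def level5T (L T1 T2 T3 D : ℕ) (tabK tabR tabM : List (List ℕ)) (ks ws : List ℕ) : List ℕ :=
  starW L T3 D tabM ks (starW L T2 D tabR ks (starW L T1 D tabK ks ws ws) (starW L T1 D tabK ks ws ws)) ws

/-- one level of the `b = 6` recursion on weights -/
def level6T (L T1 T2 D : ℕ) (tabK tabR : List (List ℕ)) (ks ws : List ℕ) : List ℕ :=
  starW L T2 D tabR ks (starW L T2 D tabR ks (starW L T1 D tabK ks ws ws) (starW L T1 D tabK ks ws ws))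
    (starW L T1 D tabK ks ws ws)

theorem level5_step (hN : 0 < N) (hW : N < 3 * W) (hn : (N / 2 + 1) * W ≤ n) (hv : 0 < v) (h2 : 2 * u ≤ v)
    (hL : 2 * (3 * v * N) * (3 * v * N) * D * D < 2 ^ L) (hks : ks.Nodup)
    (hk : ∀ k ∈ ks, k < n ∧ Valid N W k)
    (hch : ∀ i j : Fin 3, 0 ≤ channel 3 (-((u : ℝ) / v)) i j) {ws : List ℕ}
    (hG : Good N D (ptsOf N W ks) ws) :
    Good N D (ptsOf N W ks) (level5T L (2 * (3 * v * N) * (3 * v * N) * D * D) (2 * N * N * D * D)
        (2 * N * (3 * v * N) * D * D) D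
        (mkTab N W L ((ptsOf N W ks).map (tiltPtQ u v N)) ((ptsOf N W ks).map (tiltPtQ u v N)))
        (mkTab N W L (ptsOf N W ks) (ptsOf N W ks))
        (mkTab N W L (ptsOf N W ks) ((ptsOf N W ks).map (tiltPtQ u v N))) ks ws) ∧
      Dominated (((gridLaw N D (ptsOf N W ks) ws).tilt (-((u : ℝ) / v)) hch).pow 5)
        (gridLaw N D (ptsOf N W ks) (level5T L (2 * (3 * v * N) * (3 * v * N) * D * D) (2 * N * N * D * D)
        (2 * N * (3 * v * N) * D * D) D
        (mkTab N W L ((ptsOf N W ks).map (tiltPtQ u v N)) ((ptsOf N W ks).map (tiltPtQ u v N)))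
        (mkTab N W L (ptsOf N W ks) (ptsOf N W ks))
        (mkTab N W L (ptsOf N W ks) ((ptsOf N W ks).map (tiltPtQ u v N))) ks ws)) := by
  have h3 : (0 : ℕ) < 3 := by norm_num
  have hK := tiltQ_good hv h2 hG
  have hKd := tiltQ_dom hv h2 hG hch
  have hvN : 1 ≤ 3 * v := by omega
  have hM : N ≤ 3 * v * N := Nat.le_mul_of_pos_left N (by omega)
  obtain ⟨g2, d2⟩ := star_step (L := L) hN hW hn hK hK hL hks hk
  have hDD : 2 * N * N * D * D ≤ 2 * (3 * v * N) * (3 * v * N) * D * D := by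
    have : 2 * N * N ≤ 2 * (3 * v * N) * (3 * v * N) :=
      Nat.mul_le_mul (Nat.mul_le_mul_left _ hM) hM
    exact Nat.mul_le_mul_right _ (Nat.mul_le_mul_right _ this)
  have hDD' : 2 * N * (3 * v * N) * D * D ≤ 2 * (3 * v * N) * (3 * v * N) * D * D := by
    have : 2 * N * (3 * v * N) ≤ 2 * (3 * v * N) * (3 * v * N) :=
      Nat.mul_le_mul_right _ (Nat.mul_le_mul_left _ hM)
    exact Nat.mul_le_mul_right _ (Nat.mul_le_mul_right _ this)
  obtain ⟨g4, d4⟩ := star_step (L := L) hN hW hn g2 g2 (lt_of_le_of_lt hDD hL) hks hk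
  obtain ⟨g5, d5⟩ := star_step (L := L) hN hW hn g4 hK (lt_of_le_of_lt hDD' hL) hks hk
  refine ⟨g5, ?_⟩
  have a1 := hKd.pow h3 5
  have a2 := pow_five_dom (gridLaw (3 * v * N) D ((ptsOf N W ks).map (tiltPtQ u v N)) ws)
  have a3 := Dominated.prod h3 (Dominated.prod h3 d2 d2) (Dominated.refl
    (gridLaw (3 * v * N) D ((ptsOf N W ks).map (tiltPtQ u v N)) ws))
  have a4 := Dominated.prod h3 d4 (Dominated.refl
    (gridLaw (3 * v * N) D ((ptsOf N W ks).map (tiltPtQ u v N)) ws))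
  exact (a1.trans a2).trans (a3.trans (a4.trans d5))

theorem level6_step (hN : 0 < N) (hW : N < 3 * W) (hn : (N / 2 + 1) * W ≤ n) (hv : 0 < v) (h2 : 2 * u ≤ v)
    (hL : 2 * (3 * v * N) * (3 * v * N) * D * D < 2 ^ L) (hks : ks.Nodup)
    (hk : ∀ k ∈ ks, k < n ∧ Valid N W k)
    (hch : ∀ i j : Fin 3, 0 ≤ channel 3 (-((u : ℝ) / v)) i j) {ws : List ℕ}
    (hG : Good N D (ptsOf N W ks) ws) :
    Good N D (ptsOf N W ks) (level6T L (2 * (3 * v * N) * (3 * v * N) * D * D) (2 * N * N * D * D) D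
        (mkTab N W L ((ptsOf N W ks).map (tiltPtQ u v N)) ((ptsOf N W ks).map (tiltPtQ u v N)))
        (mkTab N W L (ptsOf N W ks) (ptsOf N W ks)) ks ws) ∧
      Dominated (((gridLaw N D (ptsOf N W ks) ws).tilt (-((u : ℝ) / v)) hch).pow 6)
        (gridLaw N D (ptsOf N W ks) (level6T L (2 * (3 * v * N) * (3 * v * N) * D * D) (2 * N * N * D * D) D
        (mkTab N W L ((ptsOf N W ks).map (tiltPtQ u v N)) ((ptsOf N W ks).map (tiltPtQ u v N)))
        (mkTab N W L (ptsOf N W ks) (ptsOf N W ks)) ks ws)) := by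
  have h3 : (0 : ℕ) < 3 := by norm_num
  have hK := tiltQ_good hv h2 hG
  have hKd := tiltQ_dom hv h2 hG hch
  have hM : N ≤ 3 * v * N := Nat.le_mul_of_pos_left N (by omega)
  obtain ⟨g2, d2⟩ := star_step (L := L) hN hW hn hK hK hL hks hk
  have hDD : 2 * N * N * D * D ≤ 2 * (3 * v * N) * (3 * v * N) * D * D := by
    have : 2 * N * N ≤ 2 * (3 * v * N) * (3 * v * N) :=
      Nat.mul_le_mul (Nat.mul_le_mul_left _ hM) hM
    exact Nat.mul_le_mul_right _ (Nat.mul_le_mul_right _ this)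
  obtain ⟨g4, d4⟩ := star_step (L := L) hN hW hn g2 g2 (lt_of_le_of_lt hDD hL) hks hk
  obtain ⟨g6, d6⟩ := star_step (L := L) hN hW hn g4 g2 (lt_of_le_of_lt hDD hL) hks hk
  refine ⟨g6, ?_⟩
  have a1 := hKd.pow h3 6
  have a2 := pow_six_dom (gridLaw (3 * v * N) D ((ptsOf N W ks).map (tiltPtQ u v N)) ws)
  have a3 := Dominated.prod h3 (Dominated.prod h3 d2 d2) d2
  exact (a1.trans a2).trans (a3.trans ((Dominated.prod h3 d4 (Dominated.refl _)).trans d6))

end Level

/-! ## Kernel-efficient forms -/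

noncomputable def level5F (L B T1 T2 T3 D : ℕ) (tabK tabR tabM : List (List ℕ)) (ks ws : List ℕ) : List ℕ :=
  (fun w2 => starF L B T3 D tabM ks (starF L B T2 D tabR ks w2 w2) ws) (starF L B T1 D tabK ks ws ws)

noncomputable def level6F (L B T1 T2 D : ℕ) (tabK tabR : List (List ℕ)) (ks ws : List ℕ) : List ℕ :=
  (fun w2 => starF L B T2 D tabR ks (starF L B T2 D tabR ks w2 w2) w2) (starF L B T1 D tabK ks ws ws)

lemma level5F_eq (L T1 T2 T3 D : ℕ) (tabK tabR tabM : List (List ℕ)) (ks ws : List ℕ) :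
    level5F L (2 ^ L) T1 T2 T3 D tabK tabR tabM ks ws = level5T L T1 T2 T3 D tabK tabR tabM ks ws := by
  show starF L (2 ^ L) T3 D tabM ks (starF L (2 ^ L) T2 D tabR ks (starF L (2 ^ L) T1 D tabK ks ws ws)
    (starF L (2 ^ L) T1 D tabK ks ws ws)) ws = _
  simp only [starF_eq]
  rfl

lemma level6F_eq (L T1 T2 D : ℕ) (tabK tabR : List (List ℕ)) (ks ws : List ℕ) :
    level6F L (2 ^ L) T1 T2 D tabK tabR ks ws = level6T L T1 T2 D tabK tabR ks ws := by
  show starF L (2 ^ L) T2 D tabR ks (starF L (2 ^ L) T2 D tabR ks (starF L (2 ^ L) T1 D tabK ks ws ws)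
    (starF L (2 ^ L) T1 D tabK ks ws ws)) (starF L (2 ^ L) T1 D tabK ks ws ws) = _
  simp only [starF_eq]
  rfl

/-! ## The start of the chain and the exit number -/

lemma zsum_replicate_zero (g : Pt → ℝ) : ∀ (ps : List Pt) (m : ℕ), zsum g ps (List.replicate m 0) = 0 := by
  intro ps
  induction ps with
  | nil => intro m; simp [zsum]
  | cons p ps ih =>
    intro m
    cases m with
    | zero => simp [zsum]
    | succ m =>
      simp only [List.replicate_succ, zsum]
      rw [ih m]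
      simp

section Start
variable {N W D : ℕ} {ks : List ℕ}

lemma good_start (hN : 0 < N) (hD : 0 < D) (hk : ∀ k ∈ ks, Valid N W k) :
    Good N D (ptsOf N W ks) (D :: List.replicate ks.length 0) := by
  refine ⟨hN, hD, ptsOf_sum hk, by simp [ptsOf], by simp⟩

/-- the level zero of the tree model is dominated by the start -/
lemma start_dom (b : ℕ) (lam : ℝ) (hq : 0 < 3) (hch : ∀ i j : Fin 3, 0 ≤ channel 3 lam i j)
    (hN : 0 < N) (hD : 0 < D) (hk : ∀ k ∈ ks, Valid N W k) :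
    Dominated (leafSL 3 b lam 0 hq hch) (gridLaw N D (ptsOf N W ks) (D :: List.replicate ks.length 0)) := by
  intro f hf
  have hg := good_start (ks := ks) hN hD hk
  have e := gridLaw_Φ hg (g := f) hf.sym
  have hDr : (0 : ℝ) < D := by positivity
  rw [leaf_zero_Φ b lam hq hch hf (0 : Fin 3)]
  have e2 : zsum (fun p => f (toR N p)) (ptsOf N W ks) (D :: List.replicate ks.length 0)
      = (D : ℝ) * f (fun j => if j = 0 then 1 else 0) := by
    simp only [ptsOf, zsum]
    rw [zsum_replicate_zero, toR_ptS_zero hN, add_zero]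
  rw [e2] at e
  refine le_of_eq (mul_right_cancel₀ hDr.ne' ?_)
  rw [e]
  ring

end Start

/-- natural-number form of the moment `a`: `∑ w (3 (a² + b² + c²))` -/
def aSumN : List Pt → List ℕ → ℕ
  | p :: ps, w :: ws => w * (3 * (p.a * p.a + p.b * p.b + p.c * p.c)) + aSumN ps ws
  | _, _ => 0

noncomputable def aSumF : List Pt → List ℕ → ℕ :=
  fun ps => List.rec (motive := fun _ => List ℕ → ℕ) (fun _ => nat_lit 0)
    (fun p _ ih ws => List.rec (motive := fun _ => ℕ) (nat_lit 0)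
      (fun w ws' _ => Nat.add (Nat.mul w (Nat.mul (nat_lit 3)
        (Nat.add (Nat.add (Nat.mul p.a p.a) (Nat.mul p.b p.b)) (Nat.mul p.c p.c)))) (ih ws')) ws) ps

lemma aSumF_eq : ∀ (ps : List Pt) (ws : List ℕ), aSumF ps ws = aSumN ps ws := by
  intro ps
  induction ps with
  | nil => intro ws; rfl
  | cons p ps ih =>
    intro ws
    cases ws with
    | nil => rfl
    | cons w ws =>
      show w * (3 * (p.a * p.a + p.b * p.b + p.c * p.c)) + aSumF ps ws = _
      rw [ih]; rfl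

lemma aFn_toR_b56 {N : ℕ} (hN : 0 < N) (p : Pt) :
    aFn 3 (toR N p) = ((3 * (p.a * p.a + p.b * p.b + p.c * p.c) : ℕ) : ℝ) / (2 * (N : ℝ) ^ 2) - 1 / 2 := by
  have hN' : (N : ℝ) ≠ 0 := by positivity
  unfold aFn
  simp only [toR, Fin.sum_univ_three, Matrix.cons_val_zero, Matrix.cons_val_one, Matrix.cons_val_two,
    Matrix.head_cons, Matrix.tail_cons]
  push_cast
  field_simp
  ring

lemma zsum_aFn {N : ℕ} (hN : 0 < N) : ∀ (ps : List Pt) (ws : List ℕ), ws.length = ps.length →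
    zsum (fun p => aFn 3 (toR N p)) ps ws = (aSumN ps ws : ℝ) / (2 * (N : ℝ) ^ 2) - (ws.sum : ℝ) / 2 := by
  intro ps
  induction ps with
  | nil =>
    intro ws h
    have : ws = [] := List.length_eq_zero_iff.1 (by simpa using h)
    subst this
    simp [zsum, aSumN]
  | cons p ps ih =>
    intro ws h
    cases ws with
    | nil => simp at h
    | cons w ws =>
      have := ih ws (by simpa using h)
      simp only [zsum, aSumN, List.sum_cons]
      rw [this, aFn_toR_b56 hN]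
      push_cast
      ring

/-- the exit number of a grid law, with rational bound `P / Q`: an inequality of natural numbers -/
theorem momS_lt_of_grid {N D : ℕ} {pts : List Pt} {ws : List ℕ} (h : Good N D pts ws) {P Q : ℕ} (hQ : 0 < Q)
    (hlt : Q * aSumF pts ws < (2 * P + Q) * D * (N * N)) :
    momS (gridLaw N D pts ws) < (P : ℝ) / Q := by
  have hD : (0 : ℝ) < D := by have := h.2.1; positivity
  have hN : (0 : ℝ) < N := by have := h.1; positivity
  have hQ' : (0 : ℝ) < Q := by positivity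
  have e := gridLaw_Φ h (g := aFn 3) (aFn_convexSym' (by norm_num)).sym
  rw [zsum_aFn h.1 pts ws h.2.2.2.1, h.2.2.2.2] at e
  rw [aSumF_eq] at hlt
  have hlt' : (Q : ℝ) * aSumN pts ws < (2 * P + Q) * D * (N * N) := by exact_mod_cast hlt
  show (gridLaw N D pts ws).Φ (aFn 3) < _
  rw [lt_div_iff₀ hQ']
  set x := (gridLaw N D pts ws).Φ (aFn 3) with hx
  have e' : x * D = (aSumN pts ws : ℝ) / (2 * (N : ℝ) ^ 2) - (D : ℝ) / 2 := e
  have hNN : (0 : ℝ) < 2 * (N : ℝ) ^ 2 := by positivity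
  have e3 : x * D * (2 * (N : ℝ) ^ 2) = (aSumN pts ws : ℝ) - (D : ℝ) * (N : ℝ) ^ 2 := by
    rw [e']; field_simp
  have h5 : (x * Q) * (D * (2 * (N : ℝ) ^ 2)) < (P : ℝ) * (D * (2 * (N : ℝ) ^ 2)) := by
    have : (x * Q) * (D * (2 * (N : ℝ) ^ 2)) = Q * (x * D * (2 * (N : ℝ) ^ 2)) := by ring
    rw [this, e3]
    nlinarith
  exact lt_of_mul_lt_mul_right h5 (by positivity)

/-! ## The chain -/

/-- the invariant: the level `m` of the `b`-ary tree model is dominated by the grid law -/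
def InvB (b : ℕ) (lam : ℝ) (hch : ∀ i j : Fin 3, 0 ≤ channel 3 lam i j) (N W D : ℕ) (ks : List ℕ) (m : ℕ)
    (ws : List ℕ) : Prop :=
  Good N D (ptsOf N W ks) ws ∧
    Dominated (leafSL 3 b lam m (by norm_num) hch) (gridLaw N D (ptsOf N W ks) ws)

/-- the data of an orbit with rational tilt -/
structure SetupQ (N W L n D u v : ℕ) (ks : List ℕ) : Prop where
  hN : 0 < N
  hW : N < 3 * W
  hn : (N / 2 + 1) * W ≤ n
  hv : 0 < v
  h2 : 2 * u ≤ v
  hL : 2 * (3 * v * N) * (3 * v * N) * D * D < 2 ^ L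
  hD : 0 < D
  hks : ks.Nodup
  hk : ∀ k ∈ ks, k < n ∧ Valid N W k

section Chain
variable {N W L n D u v : ℕ} {ks : List ℕ} {b : ℕ} {hch : ∀ i j : Fin 3, 0 ≤ channel 3 (-((u : ℝ) / v)) i j}

theorem InvB.zero (S : SetupQ N W L n D u v ks) :
    InvB b (-((u : ℝ) / v)) hch N W D ks 0 (D :: List.replicate ks.length 0) :=
  ⟨good_start S.hN S.hD fun k hk => (S.hk k hk).2, start_dom b _ _ hch S.hN S.hD fun k hk => (S.hk k hk).2⟩

/-- the tables of `b = 5`, spec form -/
def lev5 (N W L D u v : ℕ) (ks ws : List ℕ) : List ℕ :=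
  level5T L (2 * (3 * v * N) * (3 * v * N) * D * D) (2 * N * N * D * D)
        (2 * N * (3 * v * N) * D * D) D
        (mkTab N W L ((ptsOf N W ks).map (tiltPtQ u v N)) ((ptsOf N W ks).map (tiltPtQ u v N)))
        (mkTab N W L (ptsOf N W ks) (ptsOf N W ks))
        (mkTab N W L (ptsOf N W ks) ((ptsOf N W ks).map (tiltPtQ u v N))) ks ws

/-- the tables of `b = 6`, spec form -/
def lev6 (N W L D u v : ℕ) (ks ws : List ℕ) : List ℕ :=
  level6T L (2 * (3 * v * N) * (3 * v * N) * D * D) (2 * N * N * D * D) D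
        (mkTab N W L ((ptsOf N W ks).map (tiltPtQ u v N)) ((ptsOf N W ks).map (tiltPtQ u v N)))
        (mkTab N W L (ptsOf N W ks) (ptsOf N W ks)) ks ws

theorem InvB.step5 (S : SetupQ N W L n D u v ks) {m : ℕ} {ws : List ℕ}
    (h : InvB 5 (-((u : ℝ) / v)) hch N W D ks m ws) :
    InvB 5 (-((u : ℝ) / v)) hch N W D ks (m + 1) (lev5 N W L D u v ks ws) := by
  have h3 : (0 : ℕ) < 3 := by norm_num
  obtain ⟨hG, hdom⟩ := h
  obtain ⟨g, d⟩ := level5_step (L := L) S.hN S.hW S.hn S.hv S.h2 S.hL S.hks S.hk hch hG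
  refine ⟨g, fun f hf => ?_⟩
  rw [leafSL_succ 5 _ m h3 hch hf.bdd]
  exact (((hdom.tilt h3 _ hch).pow h3 5).trans d) f hf

theorem InvB.step6 (S : SetupQ N W L n D u v ks) {m : ℕ} {ws : List ℕ}
    (h : InvB 6 (-((u : ℝ) / v)) hch N W D ks m ws) :
    InvB 6 (-((u : ℝ) / v)) hch N W D ks (m + 1) (lev6 N W L D u v ks ws) := by
  have h3 : (0 : ℕ) < 3 := by norm_num
  obtain ⟨hG, hdom⟩ := h
  obtain ⟨g, d⟩ := level6_step (L := L) S.hN S.hW S.hn S.hv S.h2 S.hL S.hks S.hk hch hG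
  refine ⟨g, fun f hf => ?_⟩
  rw [leafSL_succ 6 _ m h3 hch hf.bdd]
  exact (((hdom.tilt h3 _ hch).pow h3 6).trans d) f hf

/-- `k` levels, fast form, tables given -/
noncomputable def levels5F (L B T1 T2 T3 D : ℕ) (tabK tabR tabM : List (List ℕ)) (ks : List ℕ) (k : ℕ) :
    List ℕ → List ℕ :=
  Nat.rec (motive := fun _ => List ℕ → List ℕ) (fun ws => ws)
    (fun _ ih ws => ih (level5F L B T1 T2 T3 D tabK tabR tabM ks ws)) k

noncomputable def levels6F (L B T1 T2 D : ℕ) (tabK tabR : List (List ℕ)) (ks : List ℕ) (k : ℕ) :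
    List ℕ → List ℕ :=
  Nat.rec (motive := fun _ => List ℕ → List ℕ) (fun ws => ws)
    (fun _ ih ws => ih (level6F L B T1 T2 D tabK tabR ks ws)) k

theorem InvB.check5 (S : SetupQ N W L n D u v ks) {P K : List Pt} (hP : P = ptsOf N W ks)
    (hK : K = P.map (tiltPtQ u v N)) {B T1 T2 T3 : ℕ} (hB : B = 2 ^ L)
    (hT1 : T1 = 2 * (3 * v * N) * (3 * v * N) * D * D) (hT2 : T2 = 2 * N * N * D * D)
    (hT3 : T3 = 2 * N * (3 * v * N) * D * D) {m : ℕ} {k : ℕ} {ws ws' : List ℕ}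
    (h : InvB 5 (-((u : ℝ) / v)) hch N W D ks m ws)
    (hc : eqF (levels5F L B T1 T2 T3 D (mkTabF N W L K K) (mkTabF N W L P P) (mkTabF N W L P K) ks k ws) ws' = true) :
    InvB 5 (-((u : ℝ) / v)) hch N W D ks (m + k) ws' := by
  subst hP hK hB hT1 hT2 hT3
  have e := eqF_eq _ _ hc
  subst e
  clear hc
  simp only [mkTabF_eq]
  induction k generalizing m ws with
  | zero => exact h
  | succ k ih =>
    have := ih (m := m + 1) (ws := lev5 N W L D u v ks ws) (InvB.step5 S h)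
    rw [show m + (k + 1) = m + 1 + k by omega]
    have e : level5F L (2 ^ L) _ _ _ D _ _ _ ks ws = lev5 N W L D u v ks ws := level5F_eq _ _ _ _ _ _ _ _ _ _
    show InvB _ _ _ _ _ _ _ _ (levels5F L (2 ^ L) _ _ _ D _ _ _ ks k (level5F L (2 ^ L) _ _ _ D _ _ _ ks ws))
    rw [e]
    exact this

theorem InvB.check6 (S : SetupQ N W L n D u v ks) {P K : List Pt} (hP : P = ptsOf N W ks)
    (hK : K = P.map (tiltPtQ u v N)) {B T1 T2 : ℕ} (hB : B = 2 ^ L)
    (hT1 : T1 = 2 * (3 * v * N) * (3 * v * N) * D * D) (hT2 : T2 = 2 * N * N * D * D) {m : ℕ} {k : ℕ} {ws ws' : List ℕ}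
    (h : InvB 6 (-((u : ℝ) / v)) hch N W D ks m ws)
    (hc : eqF (levels6F L B T1 T2 D (mkTabF N W L K K) (mkTabF N W L P P) ks k ws) ws' = true) :
    InvB 6 (-((u : ℝ) / v)) hch N W D ks (m + k) ws' := by
  subst hP hK hB hT1 hT2
  have e := eqF_eq _ _ hc
  subst e
  clear hc
  simp only [mkTabF_eq]
  induction k generalizing m ws with
  | zero => exact h
  | succ k ih =>
    have := ih (m := m + 1) (ws := lev6 N W L D u v ks ws) (InvB.step6 S h)
    rw [show m + (k + 1) = m + 1 + k by omega]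
    have e : level6F L (2 ^ L) _ _ D _ _ ks ws = lev6 N W L D u v ks ws := level6F_eq _ _ _ _ _ _ _ _
    show InvB _ _ _ _ _ _ _ _ (levels6F L (2 ^ L) _ _ D _ _ ks k (level6F L (2 ^ L) _ _ D _ _ ks ws))
    rw [e]
    exact this

end Chain

/-- from the rational upper tilt to the critical `lam` -/
lemma momS_leaf_le_of_ratio {b : ℕ} {mu lam : ℝ} (hmu : mu < 0) (hlam : lam < 0) (hle : mu ≤ lam)
    (hch' : ∀ i j : Fin 3, 0 ≤ channel 3 mu i j) (hch : ∀ i j : Fin 3, 0 ≤ channel 3 lam i j) (m : ℕ) :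
    momS (leafSL 3 b lam m (by norm_num) hch) ≤ momS (leafSL 3 b mu m (by norm_num) hch') := by
  have hr0 : 0 ≤ lam / mu := (div_pos_of_neg_of_neg hlam hmu).le
  have hr1 : lam / mu ≤ 1 := by
    rw [div_le_one_of_neg hmu]
    exact hle
  have e : lam = (lam / mu) * mu := (div_mul_cancel₀ lam hmu.ne).symm
  have hch2 : ∀ i j : Fin 3, 0 ≤ channel 3 ((lam / mu) * mu) i j := by rw [← e]; exact hch
  have := leaf_dominated (q := 3) (b := b) (b' := b) (by norm_num) le_rfl (r := lam / mu) (mu := mu)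
    (by positivity) hr1 hch' hch2 m (aFn 3) (aFn_convexSym' (by norm_num))
  have e' : (leafSL 3 b ((lam / mu) * mu) m (by norm_num) hch2).Φ (aFn 3)
      = (leafSL 3 b lam m (by norm_num) hch).Φ (aFn 3) := by
    congr 1
    simp only [← e]
  rw [e'] at this
  exact this

end Crest.Agent.Lib.Bc.GridO
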