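import Crest.Agent.Lib.Bc.Garble
/-!
# Row 163: kernel grid engine for the convex order on finite symmetric laws (q = 3)

Laws on a uniform grid of the simplex, with integer weights.  `pairC` is the table entry of a pair of
points: all six relabellings, each atom split (mean preserving) onto the vertices of its grid triangle,
in one big natural number with limbs of `L` bits (`Cov`).  The soundness does not use any check on
the data: only the bound on the total mass, which excludes an overflow of the limbs.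
-/
open scoped BigOperators
namespace Crest.Agent.Lib.Bc.GridO

/-! ## The computation -/

/-- a grid point (integer coordinates) -/
structure Pt where
  a : ℕ
  b : ℕ
  c : ℕ

def nmin (a b : ℕ) : ℕ := cond (Nat.ble a b) a b
def nmax (a b : ℕ) : ℕ := cond (Nat.ble a b) b a

/-- slot of the sorted triple: `mid * W + lo` -/
def slotOf (M W v1 v2 v3 : ℕ) : ℕ :=
  (M - nmax v1 (nmax v2 v3) - nmin v1 (nmin v2 v3)) * W + nmin v1 (nmin v2 v3)

/-- force a number to be evaluated -/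
def force {α : Type} (n : ℕ) (k : α) : α := cond (Nat.ble n 0) k k

def sg (M W L m v1 v2 v3 : ℕ) : ℕ := Nat.shiftLeft m (L * slotOf M W v1 v2 v3)

def spl1 (M W L r1 r2 r3 f1 f2 f3 : ℕ) : ℕ :=
  sg M W L r1 (f1 + 1) f2 f3 + sg M W L r2 f1 (f2 + 1) f3 + sg M W L r3 f1 f2 (f3 + 1)

def spl2 (M W L S r1 r2 r3 f1 f2 f3 : ℕ) : ℕ :=
  sg M W L (S - r1) f1 (f2 + 1) (f3 + 1) + sg M W L (S - r2) (f1 + 1) f2 (f3 + 1)
    + sg M W L (S - r3) (f1 + 1) (f2 + 1) f3

def splC (M W L S u1 u2 u3 f1 f2 f3 : ℕ) : ℕ :=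
  cond (Nat.beq (M - f1 - f2 - f3) 0) (sg M W L S f1 f2 f3)
    (cond (Nat.beq (M - f1 - f2 - f3) 1)
      (spl1 M W L (u1 % S) (u2 % S) (u3 % S) f1 f2 f3)
      (spl2 M W L S (u1 % S) (u2 % S) (u3 % S) f1 f2 f3))

def split (M W L h1 h2 h3 : ℕ) : ℕ :=
  cond (Nat.beq (h1 + h2 + h3) 0) 0
    (splC M W L (h1 + h2 + h3) (M * h1) (M * h2) (M * h3)
      (M * h1 / (h1 + h2 + h3)) (M * h2 / (h1 + h2 + h3)) (M * h3 / (h1 + h2 + h3)))

/-- table entry of a pair of points -/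
def pairC (M W L : ℕ) (x l : Pt) : ℕ :=
  split M W L (x.a * l.a) (x.b * l.b) (x.c * l.c) + split M W L (x.a * l.a) (x.b * l.c) (x.c * l.b)
    + split M W L (x.a * l.b) (x.b * l.a) (x.c * l.c) + split M W L (x.a * l.b) (x.b * l.c) (x.c * l.a)
    + split M W L (x.a * l.c) (x.b * l.a) (x.c * l.b) + split M W L (x.a * l.c) (x.b * l.b) (x.c * l.a)

/-- the table -/
def mkTab (M W L : ℕ) (A B : List Pt) : List (List ℕ) :=
  A.map fun x => B.map fun l => pairC M W L x l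

def rowSum : List ℕ → List ℕ → ℕ → ℕ
  | C :: cs, w :: ws, acc => force (acc + w * C) (rowSum cs ws (acc + w * C))
  | _, _, acc => acc

def tabSum : List (List ℕ) → List ℕ → List ℕ → ℕ → ℕ
  | r :: rs, w :: ws, wB, acc =>
      force (acc + w * rowSum r wB 0) (tabSum rs ws wB (acc + w * rowSum r wB 0))
  | _, _, _, acc => acc

/-- read the digits and rescale: weights for the slots `ks`; the vertex takes what is left -/
def roundL (L T D acc : ℕ) (ks : List ℕ) : List ℕ :=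
  let r := ks.map fun k => (Nat.shiftRight acc (L * k) % 2 ^ L) * D / T
  (D - r.sum) :: r

/-- the grid point of a slot -/
def ptS (M W k : ℕ) : Pt := ⟨M - k / W - k % W, k / W, k % W⟩

/-- one convolution: weights on the two point lists to the weights on the slots `0 :: ks` -/
def starW (L T D : ℕ) (tab : List (List ℕ)) (ks wA wB : List ℕ) : List ℕ :=
  roundL L T D (tabSum tab wA wB 0) ks

def eqL : List ℕ → List ℕ → Bool
  | [], [] => true
  | a :: as, b :: bs => Nat.beq a b && eqL as bs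
  | _, _ => false

/-! ## Real coordinates -/

/-- the point of the simplex with coordinates `p / n` -/
noncomputable def toR (n : ℕ) (p : Pt) : Fin 3 → ℝ := ![(p.a : ℝ) / n, (p.b : ℝ) / n, (p.c : ℝ) / n]

lemma toR_mem {n : ℕ} (hn : 0 < n) {p : Pt} (h : p.a + p.b + p.c = n) : toR n p ∈ Simp 3 := by
  have hn' : (n : ℝ) ≠ 0 := by positivity
  refine ⟨fun i => ?_, ?_⟩
  · fin_cases i <;> simp [toR] <;> positivity
  · have h' : (p.a : ℝ) + p.b + p.c = n := by exact_mod_cast h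
    simp only [toR, Fin.sum_univ_three, Matrix.cons_val_zero, Matrix.cons_val_one, Matrix.cons_val_two,
      Matrix.head_cons, Matrix.tail_cons]
    field_simp
    linarith

lemma nmin_eq (a b : ℕ) : nmin a b = min a b := by
  unfold nmin
  by_cases h : a ≤ b
  · simp [h, Nat.ble_eq_true_of_le h]
  · have h' : Nat.ble a b = false := by
      rw [← Bool.not_eq_true, Nat.ble_eq]; exact h
    simp [h', min_eq_right (le_of_not_ge h)]

lemma nmax_eq (a b : ℕ) : nmax a b = max a b := by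
  unfold nmax
  by_cases h : a ≤ b
  · simp [h, Nat.ble_eq_true_of_le h]
  · have h' : Nat.ble a b = false := by
      rw [← Bool.not_eq_true, Nat.ble_eq]; exact h
    simp [h', max_eq_left (le_of_not_ge h)]

section Sym
variable {f : (Fin 3 → ℝ) → ℝ} (hf : ConvexSym f)
include hf

lemma sym_swap12 {n : ℕ} (hn : 0 < n) (a b c : ℕ) (h : a + b + c = n) :
    f (toR n ⟨b, a, c⟩) = f (toR n ⟨a, b, c⟩) := by
  have := hf.sym (Equiv.swap 0 1) (toR n ⟨a, b, c⟩) (toR_mem hn h)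
  rw [← this]
  congr 1
  funext i
  fin_cases i <;> simp [toR, Equiv.swap_apply_def]

lemma sym_swap23 {n : ℕ} (hn : 0 < n) (a b c : ℕ) (h : a + b + c = n) :
    f (toR n ⟨a, c, b⟩) = f (toR n ⟨a, b, c⟩) := by
  have := hf.sym (Equiv.swap 1 2) (toR n ⟨a, b, c⟩) (toR_mem hn h)
  rw [← this]
  congr 1
  funext i
  fin_cases i <;> simp [toR, Equiv.swap_apply_def]

/-- the sorted triple is a permutation -/
lemma sym_sorted {M : ℕ} (hM : 0 < M) (v1 v2 v3 : ℕ) (h : v1 + v2 + v3 = M) :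
    f (toR M ⟨max v1 (max v2 v3), M - max v1 (max v2 v3) - min v1 (min v2 v3), min v1 (min v2 v3)⟩)
      = f (toR M ⟨v1, v2, v3⟩) := by
  have s12 := fun a b c (h : a + b + c = M) => sym_swap12 hf hM a b c h
  have s23 := fun a b c (h : a + b + c = M) => sym_swap23 hf hM a b c h
  have p213 : f (toR M ⟨v2, v1, v3⟩) = f (toR M ⟨v1, v2, v3⟩) := s12 v1 v2 v3 h
  have p132 : f (toR M ⟨v1, v3, v2⟩) = f (toR M ⟨v1, v2, v3⟩) := s23 v1 v2 v3 h
  have p231 : f (toR M ⟨v2, v3, v1⟩) = f (toR M ⟨v1, v2, v3⟩) :=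
    (s23 v2 v1 v3 (by omega)).trans p213
  have p312 : f (toR M ⟨v3, v1, v2⟩) = f (toR M ⟨v1, v2, v3⟩) :=
    (s12 v1 v3 v2 (by omega)).trans p132
  have p321 : f (toR M ⟨v3, v2, v1⟩) = f (toR M ⟨v1, v2, v3⟩) :=
    (s12 v2 v3 v1 (by omega)).trans p231
  rcases le_total v1 v2 with h12 | h12 <;> rcases le_total v2 v3 with h23 | h23 <;>
    rcases le_total v1 v3 with h13 | h13 <;> first
    | (have h1 : max v1 (max v2 v3) = v3 := by omega
       have h2 : min v1 (min v2 v3) = v1 := by omega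
       have h3 : M - v3 - v1 = v2 := by omega
       rw [h1, h2, h3]; exact p321)
    | (have h1 : max v1 (max v2 v3) = v2 := by omega
       have h2 : min v1 (min v2 v3) = v1 := by omega
       have h3 : M - v2 - v1 = v3 := by omega
       rw [h1, h2, h3]; exact p231)
    | (have h1 : max v1 (max v2 v3) = v3 := by omega
       have h2 : min v1 (min v2 v3) = v2 := by omega
       have h3 : M - v3 - v2 = v1 := by omega
       rw [h1, h2, h3]; exact p312)
    | (have h1 : max v1 (max v2 v3) = v1 := by omega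
       have h2 : min v1 (min v2 v3) = v2 := by omega
       have h3 : M - v1 - v2 = v3 := by omega
       rw [h1, h2, h3]; exact p132)
    | (have h1 : max v1 (max v2 v3) = v2 := by omega
       have h2 : min v1 (min v2 v3) = v3 := by omega
       have h3 : M - v2 - v3 = v1 := by omega
       rw [h1, h2, h3]; exact p213)
    | (have h1 : max v1 (max v2 v3) = v1 := by omega
       have h2 : min v1 (min v2 v3) = v3 := by omega
       have h3 : M - v1 - v3 = v2 := by omega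
       rw [h1, h2, h3])

end Sym

/-! ## Covering: a big number represents a finite measure on the slots -/

section Cover
variable (M W L n : ℕ)

/-- a slot is a point of the simplex -/
def Valid (k : ℕ) : Prop := k / W + k % W ≤ M

/-- `C` encodes a measure `A` on the slots, of total mass `T`, whose integral of any test function
is at least `E f`. -/
def Cov (C T : ℕ) (E : ((Fin 3 → ℝ) → ℝ) → ℝ) : Prop :=
  ∃ A : ℕ → ℕ, C = ∑ k ∈ Finset.range n, A k * 2 ^ (L * k) ∧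
    (∀ k ∈ Finset.range n, A k ≠ 0 → Valid M W k) ∧ ∑ k ∈ Finset.range n, A k = T ∧
    ∀ f, ConvexSym f → E f ≤ ∑ k ∈ Finset.range n, (A k : ℝ) * f (toR M (ptS M W k))

variable {M W L n}

lemma Cov.zero : Cov M W L n 0 0 (fun _ => 0) := by
  refine ⟨fun _ => 0, by simp, by simp, by simp, fun f _ => by simp⟩

lemma Cov.add {C C' T T' : ℕ} {E E' : ((Fin 3 → ℝ) → ℝ) → ℝ} (h : Cov M W L n C T E)
    (h' : Cov M W L n C' T' E') : Cov M W L n (C + C') (T + T') (fun f => E f + E' f) := by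
  obtain ⟨A, h1, h2, h3, h4⟩ := h
  obtain ⟨A', h1', h2', h3', h4'⟩ := h'
  refine ⟨fun k => A k + A' k, ?_, ?_, ?_, ?_⟩
  · rw [h1, h1', ← Finset.sum_add_distrib]
    exact Finset.sum_congr rfl fun k _ => by ring
  · intro k hk hA
    have hA' : A k + A' k ≠ 0 := hA
    by_cases h0 : A k = 0
    · exact h2' k hk (by omega)
    · exact h2 k hk h0
  · rw [Finset.sum_add_distrib, h3, h3']
  · intro f hf
    have e : ∑ k ∈ Finset.range n, ((A k + A' k : ℕ) : ℝ) * f (toR M (ptS M W k))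
        = ∑ k ∈ Finset.range n, (A k : ℝ) * f (toR M (ptS M W k))
          + ∑ k ∈ Finset.range n, (A' k : ℝ) * f (toR M (ptS M W k)) := by
      rw [← Finset.sum_add_distrib]
      exact Finset.sum_congr rfl fun k _ => by push_cast; ring
    simp only [e]
    exact add_le_add (h4 f hf) (h4' f hf)

lemma Cov.mul {C T : ℕ} {E : ((Fin 3 → ℝ) → ℝ) → ℝ} (m : ℕ) (h : Cov M W L n C T E) :
    Cov M W L n (m * C) (m * T) (fun f => m * E f) := by
  obtain ⟨A, h1, h2, h3, h4⟩ := h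
  refine ⟨fun k => m * A k, ?_, ?_, ?_, ?_⟩
  · rw [h1, Finset.mul_sum]
    exact Finset.sum_congr rfl fun k _ => by ring
  · intro k hk hA
    exact h2 k hk (fun h0 => hA (by simp [h0]))
  · rw [← Finset.mul_sum, h3]
  · intro f hf
    have e : ∑ k ∈ Finset.range n, ((m * A k : ℕ) : ℝ) * f (toR M (ptS M W k))
        = m * ∑ k ∈ Finset.range n, (A k : ℝ) * f (toR M (ptS M W k)) := by
      rw [Finset.mul_sum]
      exact Finset.sum_congr rfl fun k _ => by push_cast; ring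
    simp only [e]
    exact mul_le_mul_of_nonneg_left (h4 f hf) (Nat.cast_nonneg _)

lemma Cov.mono {C T : ℕ} {E E' : ((Fin 3 → ℝ) → ℝ) → ℝ} (h : Cov M W L n C T E)
    (hE : ∀ f, ConvexSym f → E' f ≤ E f) : Cov M W L n C T E' := by
  obtain ⟨A, h1, h2, h3, h4⟩ := h
  exact ⟨A, h1, h2, h3, fun f hf => (hE f hf).trans (h4 f hf)⟩

lemma Cov.congrT {C T T' : ℕ} {E : ((Fin 3 → ℝ) → ℝ) → ℝ} (h : Cov M W L n C T E) (hT : T = T') :
    Cov M W L n C T' E := hT ▸ h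

/-- the slot of a point -/
lemma slot_facts (hM : 0 < M) (hW : M < 3 * W) (hn : (M / 2 + 1) * W ≤ n) {v1 v2 v3 : ℕ}
    (h : v1 + v2 + v3 = M) :
    slotOf M W v1 v2 v3 < n ∧ Valid M W (slotOf M W v1 v2 v3) ∧
      ptS M W (slotOf M W v1 v2 v3)
        = ⟨max v1 (max v2 v3), M - max v1 (max v2 v3) - min v1 (min v2 v3), min v1 (min v2 v3)⟩ := by
  unfold slotOf
  simp only [nmax_eq, nmin_eq]
  set hi := max v1 (max v2 v3) with hhi
  set lo := min v1 (min v2 v3) with hlo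
  have hlo3 : 3 * lo ≤ M := by omega
  have hmid : 2 * (M - hi - lo) ≤ M := by omega
  have hhl : hi + lo ≤ M := by omega
  have hW0 : 0 < W := by omega
  have hloW : lo < W := by omega
  have hdiv : ((M - hi - lo) * W + lo) / W = M - hi - lo := by
    rw [add_comm, Nat.add_mul_div_right _ _ hW0, Nat.div_eq_of_lt hloW, zero_add]
  have hmod : ((M - hi - lo) * W + lo) % W = lo := by
    rw [add_comm, Nat.add_mul_mod_self_right, Nat.mod_eq_of_lt hloW]
  refine ⟨?_, ?_, ?_⟩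
  · have h1 : M - hi - lo ≤ M / 2 := by omega
    have h2 : (M - hi - lo + 1) * W ≤ (M / 2 + 1) * W := Nat.mul_le_mul_right _ (by omega)
    have h3 : (M - hi - lo + 1) * W = (M - hi - lo) * W + W := by ring
    omega
  · unfold Valid
    rw [hdiv, hmod]
    omega
  · unfold ptS
    rw [hdiv, hmod]
    congr 1
    omega

/-- one atom on a grid point -/
lemma Cov.single (hM : 0 < M) (hW : M < 3 * W) (hn : (M / 2 + 1) * W ≤ n) {v1 v2 v3 : ℕ}
    (h : v1 + v2 + v3 = M) (α : ℕ) :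
    Cov M W L n (sg M W L α v1 v2 v3) α (fun f => α * f (toR M ⟨v1, v2, v3⟩)) := by
  obtain ⟨h1, h2, h3⟩ := slot_facts (W := W) hM hW hn h
  set k₀ := slotOf M W v1 v2 v3 with hk₀
  refine ⟨fun k => if k = k₀ then α else 0, ?_, ?_, ?_, ?_⟩
  · unfold sg
    rw [show Nat.shiftLeft α (L * slotOf M W v1 v2 v3) = α * 2 ^ (L * slotOf M W v1 v2 v3) from
      Nat.shiftLeft_eq _ _, Finset.sum_eq_single k₀]
    · simp [hk₀]
    · intro b _ hb
      simp [hb]
    · intro hk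
      exact absurd (Finset.mem_range.2 h1) hk
  · intro k _ hA
    by_cases hk : k = k₀
    · rw [hk]; exact h2
    · simp [hk] at hA
  · rw [Finset.sum_ite_eq' (Finset.range n) k₀]
    simp [Finset.mem_range.2 h1]
  · intro f hf
    rw [Finset.sum_eq_single k₀]
    · simp only [if_true]
      rw [h3, sym_sorted hf hM v1 v2 v3 h]
    · intro b _ hb
      simp [hb]
    · intro hk
      exact absurd (Finset.mem_range.2 h1) hk

/-- Jensen with three points, in homogeneous form -/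
lemma jensen3 {f : (Fin 3 → ℝ) → ℝ} (hf : ConvexOn ℝ (Simp 3) f) {p1 p2 p3 y : Fin 3 → ℝ}
    (h1 : p1 ∈ Simp 3) (h2 : p2 ∈ Simp 3) (h3 : p3 ∈ Simp 3) {a1 a2 a3 S : ℝ} (ha1 : 0 ≤ a1)
    (ha2 : 0 ≤ a2) (ha3 : 0 ≤ a3) (hS : a1 + a2 + a3 = S) (hS0 : 0 < S)
    (hy : ∀ i, S * y i = a1 * p1 i + a2 * p2 i + a3 * p3 i) :
    S * f y ≤ a1 * f p1 + a2 * f p2 + a3 * f p3 := by
  have hS' : S ≠ 0 := hS0.ne'
  have := hf.map_sum_le (t := Finset.univ) (w := ![a1 / S, a2 / S, a3 / S]) (p := ![p1, p2, p3])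
    (fun i _ => by
      fin_cases i <;> simp <;> positivity)
    (by
      simp only [Fin.sum_univ_three, Matrix.cons_val_zero, Matrix.cons_val_one, Matrix.cons_val_two,
        Matrix.head_cons, Matrix.tail_cons]
      field_simp
      linarith)
    (fun i _ => by
      fin_cases i <;> simp [h1, h2, h3])
  simp only [Fin.sum_univ_three, Matrix.cons_val_zero, Matrix.cons_val_one, Matrix.cons_val_two,
    Matrix.head_cons, Matrix.tail_cons, smul_eq_mul] at this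
  have e : (a1 / S) • p1 + (a2 / S) • p2 + (a3 / S) • p3 = y := by
    funext i
    simp only [Pi.add_apply, Pi.smul_apply, smul_eq_mul]
    have := hy i
    field_simp
    linarith
  rw [e] at this
  have h4 := mul_le_mul_of_nonneg_left this hS0.le
  refine h4.trans_eq ?_
  field_simp

/-- the normalised vector of a nonzero integer vector -/
noncomputable def homV (h1 h2 h3 : ℕ) : Fin 3 → ℝ :=
  ![(h1 : ℝ) / (h1 + h2 + h3 : ℕ), (h2 : ℝ) / (h1 + h2 + h3 : ℕ), (h3 : ℝ) / (h1 + h2 + h3 : ℕ)]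

lemma forall3 {P : Fin 3 → Prop} (h0 : P 0) (h1 : P 1) (h2 : P 2) : ∀ i, P i := by
  intro i
  fin_cases i
  · exact h0
  · exact h1
  · exact h2

lemma c_low {S M h f r r' r'' : ℝ} (hS : S ≠ 0) (hM : M ≠ 0) (d : S * f + r = M * h)
    (s : r + r' + r'' = S) : S * (h / S) = r * ((f + 1) / M) + r' * (f / M) + r'' * (f / M) := by
  have e : h = (S * f + r) / M := by rw [d]; field_simp
  rw [mul_div_cancel₀ _ hS, e, ← s]
  ring

lemma c_up {S M h f r r' r'' : ℝ} (hS : S ≠ 0) (hM : M ≠ 0) (d : S * f + r = M * h)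
    (s : r + r' + r'' = 2 * S) :
    S * (h / S) = (S - r) * (f / M) + (S - r') * ((f + 1) / M) + (S - r'') * ((f + 1) / M) := by
  have e : h = (S * f + r) / M := by rw [d]; field_simp
  have e2 : r = 2 * S - r' - r'' := by linarith
  rw [mul_div_cancel₀ _ hS, e, e2]
  ring

/-- lower triangle -/
lemma split_low {f : (Fin 3 → ℝ) → ℝ} (hf : ConvexOn ℝ (Simp 3) f) {M S h1 h2 h3 f1 f2 f3 r1 r2 r3 : ℕ}
    (hM : 0 < M) (hS0 : 0 < S) (hS : h1 + h2 + h3 = S)
    (d1 : S * f1 + r1 = M * h1) (d2 : S * f2 + r2 = M * h2) (d3 : S * f3 + r3 = M * h3)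
    (hs : r1 + r2 + r3 = S) (hv1 : (f1 + 1) + f2 + f3 = M) (hv2 : f1 + (f2 + 1) + f3 = M)
    (hv3 : f1 + f2 + (f3 + 1) = M) :
    (S : ℝ) * f (homV h1 h2 h3) ≤ r1 * f (toR M ⟨f1 + 1, f2, f3⟩) + r2 * f (toR M ⟨f1, f2 + 1, f3⟩)
      + r3 * f (toR M ⟨f1, f2, f3 + 1⟩) := by
  subst hS
  have hSr : ((h1 + h2 + h3 : ℕ) : ℝ) ≠ 0 := by positivity
  have hMr : (M : ℝ) ≠ 0 := by positivity
  have d1r : ((h1 + h2 + h3 : ℕ) : ℝ) * f1 + r1 = M * h1 := by exact_mod_cast d1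
  have d2r : ((h1 + h2 + h3 : ℕ) : ℝ) * f2 + r2 = M * h2 := by exact_mod_cast d2
  have d3r : ((h1 + h2 + h3 : ℕ) : ℝ) * f3 + r3 = M * h3 := by exact_mod_cast d3
  have hsr : (r1 : ℝ) + r2 + r3 = ((h1 + h2 + h3 : ℕ) : ℝ) := by exact_mod_cast hs
  refine jensen3 hf (toR_mem hM hv1) (toR_mem hM hv2) (toR_mem hM hv3)
    (Nat.cast_nonneg _) (Nat.cast_nonneg _) (Nat.cast_nonneg _) hsr (by positivity) ?_
  refine forall3 ?_ ?_ ?_
  · show ((h1 + h2 + h3 : ℕ) : ℝ) * ((h1 : ℝ) / (h1 + h2 + h3 : ℕ))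
      = r1 * (((f1 + 1 : ℕ) : ℝ) / M) + r2 * ((f1 : ℝ) / M) + r3 * ((f1 : ℝ) / M)
    rw [Nat.cast_succ]
    exact c_low hSr hMr d1r hsr
  · show ((h1 + h2 + h3 : ℕ) : ℝ) * ((h2 : ℝ) / (h1 + h2 + h3 : ℕ))
      = r1 * ((f2 : ℝ) / M) + r2 * (((f2 + 1 : ℕ) : ℝ) / M) + r3 * ((f2 : ℝ) / M)
    rw [Nat.cast_succ]
    have := c_low (r' := r1) (r'' := r3) hSr hMr d2r (by linarith)
    rw [this]; ring
  · show ((h1 + h2 + h3 : ℕ) : ℝ) * ((h3 : ℝ) / (h1 + h2 + h3 : ℕ))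
      = r1 * ((f3 : ℝ) / M) + r2 * ((f3 : ℝ) / M) + r3 * (((f3 + 1 : ℕ) : ℝ) / M)
    rw [Nat.cast_succ]
    have := c_low (r' := r1) (r'' := r2) hSr hMr d3r (by linarith)
    rw [this]; ring

/-- upper triangle -/
lemma split_up {f : (Fin 3 → ℝ) → ℝ} (hf : ConvexOn ℝ (Simp 3) f) {M S h1 h2 h3 f1 f2 f3 r1 r2 r3 : ℕ}
    (hM : 0 < M) (hS0 : 0 < S) (hS : h1 + h2 + h3 = S)
    (d1 : S * f1 + r1 = M * h1) (d2 : S * f2 + r2 = M * h2) (d3 : S * f3 + r3 = M * h3)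
    (l1 : r1 < S) (l2 : r2 < S) (l3 : r3 < S)
    (hs : r1 + r2 + r3 = 2 * S) (hv1 : f1 + (f2 + 1) + (f3 + 1) = M) (hv2 : (f1 + 1) + f2 + (f3 + 1) = M)
    (hv3 : (f1 + 1) + (f2 + 1) + f3 = M) :
    (S : ℝ) * f (homV h1 h2 h3) ≤ ((S - r1 : ℕ) : ℝ) * f (toR M ⟨f1, f2 + 1, f3 + 1⟩)
      + ((S - r2 : ℕ) : ℝ) * f (toR M ⟨f1 + 1, f2, f3 + 1⟩)
      + ((S - r3 : ℕ) : ℝ) * f (toR M ⟨f1 + 1, f2 + 1, f3⟩) := by
  subst hS
  have hSr : ((h1 + h2 + h3 : ℕ) : ℝ) ≠ 0 := by positivity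
  have hMr : (M : ℝ) ≠ 0 := by positivity
  have d1r : ((h1 + h2 + h3 : ℕ) : ℝ) * f1 + r1 = M * h1 := by exact_mod_cast d1
  have d2r : ((h1 + h2 + h3 : ℕ) : ℝ) * f2 + r2 = M * h2 := by exact_mod_cast d2
  have d3r : ((h1 + h2 + h3 : ℕ) : ℝ) * f3 + r3 = M * h3 := by exact_mod_cast d3
  have hsr : (r1 : ℝ) + r2 + r3 = 2 * ((h1 + h2 + h3 : ℕ) : ℝ) := by exact_mod_cast hs
  have ca1 : ((h1 + h2 + h3 - r1 : ℕ) : ℝ) = ((h1 + h2 + h3 : ℕ) : ℝ) - r1 := Nat.cast_sub l1.le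
  have ca2 : ((h1 + h2 + h3 - r2 : ℕ) : ℝ) = ((h1 + h2 + h3 : ℕ) : ℝ) - r2 := Nat.cast_sub l2.le
  have ca3 : ((h1 + h2 + h3 - r3 : ℕ) : ℝ) = ((h1 + h2 + h3 : ℕ) : ℝ) - r3 := Nat.cast_sub l3.le
  refine jensen3 hf (toR_mem hM hv1) (toR_mem hM hv2) (toR_mem hM hv3)
    (Nat.cast_nonneg _) (Nat.cast_nonneg _) (Nat.cast_nonneg _) (by rw [ca1, ca2, ca3]; linarith)
    (by positivity) ?_
  rw [ca1, ca2, ca3]
  refine forall3 ?_ ?_ ?_
  · show ((h1 + h2 + h3 : ℕ) : ℝ) * ((h1 : ℝ) / (h1 + h2 + h3 : ℕ))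
      = (((h1 + h2 + h3 : ℕ) : ℝ) - r1) * ((f1 : ℝ) / M) + (((h1 + h2 + h3 : ℕ) : ℝ) - r2) * (((f1 + 1 : ℕ) : ℝ) / M)
        + (((h1 + h2 + h3 : ℕ) : ℝ) - r3) * (((f1 + 1 : ℕ) : ℝ) / M)
    rw [Nat.cast_succ]
    exact c_up hSr hMr d1r hsr
  · show ((h1 + h2 + h3 : ℕ) : ℝ) * ((h2 : ℝ) / (h1 + h2 + h3 : ℕ))
      = (((h1 + h2 + h3 : ℕ) : ℝ) - r1) * (((f2 + 1 : ℕ) : ℝ) / M) + (((h1 + h2 + h3 : ℕ) : ℝ) - r2) * ((f2 : ℝ) / M)
        + (((h1 + h2 + h3 : ℕ) : ℝ) - r3) * (((f2 + 1 : ℕ) : ℝ) / M)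
    rw [Nat.cast_succ]
    have := c_up (r' := r1) (r'' := r3) hSr hMr d2r (by linarith)
    rw [this]; ring
  · show ((h1 + h2 + h3 : ℕ) : ℝ) * ((h3 : ℝ) / (h1 + h2 + h3 : ℕ))
      = (((h1 + h2 + h3 : ℕ) : ℝ) - r1) * (((f3 + 1 : ℕ) : ℝ) / M) + (((h1 + h2 + h3 : ℕ) : ℝ) - r2) * (((f3 + 1 : ℕ) : ℝ) / M)
        + (((h1 + h2 + h3 : ℕ) : ℝ) - r3) * ((f3 : ℝ) / M)
    rw [Nat.cast_succ]
    have := c_up (r' := r1) (r'' := r2) hSr hMr d3r (by linarith)
    rw [this]; ring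

/-- on the grid -/
lemma split_on {f : (Fin 3 → ℝ) → ℝ} {M S h1 h2 h3 f1 f2 f3 : ℕ}
    (hM : 0 < M) (hS0 : 0 < S) (hS : h1 + h2 + h3 = S)
    (d1 : S * f1 = M * h1) (d2 : S * f2 = M * h2) (d3 : S * f3 = M * h3) :
    (S : ℝ) * f (homV h1 h2 h3) = S * f (toR M ⟨f1, f2, f3⟩) := by
  subst hS
  have hSr : ((h1 + h2 + h3 : ℕ) : ℝ) ≠ 0 := by positivity
  have hMr : (M : ℝ) ≠ 0 := by positivity
  have d1r : ((h1 + h2 + h3 : ℕ) : ℝ) * f1 = M * h1 := by exact_mod_cast d1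
  have d2r : ((h1 + h2 + h3 : ℕ) : ℝ) * f2 = M * h2 := by exact_mod_cast d2
  have d3r : ((h1 + h2 + h3 : ℕ) : ℝ) * f3 = M * h3 := by exact_mod_cast d3
  congr 2
  funext i
  revert i
  refine forall3 ?_ ?_ ?_
  · show (h1 : ℝ) / (h1 + h2 + h3 : ℕ) = (f1 : ℝ) / M
    rw [div_eq_div_iff hSr hMr]; linarith
  · show (h2 : ℝ) / (h1 + h2 + h3 : ℕ) = (f2 : ℝ) / M
    rw [div_eq_div_iff hSr hMr]; linarith
  · show (h3 : ℝ) / (h1 + h2 + h3 : ℕ) = (f3 : ℝ) / M
    rw [div_eq_div_iff hSr hMr]; linarith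

/-- the split of one atom -/
lemma Cov.split (hM : 0 < M) (hW : M < 3 * W) (hn : (M / 2 + 1) * W ≤ n) (h1 h2 h3 : ℕ) :
    Cov M W L n (GridO.split M W L h1 h2 h3) (h1 + h2 + h3)
      (fun f => ((h1 + h2 + h3 : ℕ) : ℝ) * f (homV h1 h2 h3)) := by
  unfold GridO.split
  by_cases hS : h1 + h2 + h3 = 0
  · have : Nat.beq (h1 + h2 + h3) 0 = true := by rw [hS]; rfl
    rw [this]
    simp only [cond_true]
    have h0 : (fun f : (Fin 3 → ℝ) → ℝ => ((h1 + h2 + h3 : ℕ) : ℝ) * f (homV h1 h2 h3)) = fun _ => 0 := by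
      funext f; rw [hS]; simp
    rw [h0, hS]
    exact Cov.zero
  · have hne : Nat.beq (h1 + h2 + h3) 0 = false :=
      Bool.eq_false_iff.2 (fun h => hS (Nat.eq_of_beq_eq_true h))
    rw [hne]
    simp only [cond_false]
    obtain ⟨S, hSdef⟩ : ∃ S, h1 + h2 + h3 = S := ⟨_, rfl⟩
    rw [hSdef]
    have hS0 : 0 < S := by omega
    obtain ⟨f1, hf1⟩ : ∃ f1, M * h1 / S = f1 := ⟨_, rfl⟩
    obtain ⟨f2, hf2⟩ : ∃ f2, M * h2 / S = f2 := ⟨_, rfl⟩
    obtain ⟨f3, hf3⟩ : ∃ f3, M * h3 / S = f3 := ⟨_, rfl⟩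
    obtain ⟨r1, hr1⟩ : ∃ r1, M * h1 % S = r1 := ⟨_, rfl⟩
    obtain ⟨r2, hr2⟩ : ∃ r2, M * h2 % S = r2 := ⟨_, rfl⟩
    obtain ⟨r3, hr3⟩ : ∃ r3, M * h3 % S = r3 := ⟨_, rfl⟩
    have d1 : S * f1 + r1 = M * h1 := by rw [← hf1, ← hr1]; exact Nat.div_add_mod _ _
    have d2 : S * f2 + r2 = M * h2 := by rw [← hf2, ← hr2]; exact Nat.div_add_mod _ _
    have d3 : S * f3 + r3 = M * h3 := by rw [← hf3, ← hr3]; exact Nat.div_add_mod _ _
    have l1 : r1 < S := by rw [← hr1]; exact Nat.mod_lt _ hS0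
    have l2 : r2 < S := by rw [← hr2]; exact Nat.mod_lt _ hS0
    have l3 : r3 < S := by rw [← hr3]; exact Nat.mod_lt _ hS0
    have tot : S * (f1 + f2 + f3) + (r1 + r2 + r3) = M * S := by
      have : M * S = M * h1 + M * h2 + M * h3 := by rw [← hSdef]; ring
      rw [this, ← d1, ← d2, ← d3]; ring
    have hf_le : f1 + f2 + f3 ≤ M := by
      by_contra hcon
      have h4 : M + 1 ≤ f1 + f2 + f3 := by omega
      have h5 : S * (M + 1) ≤ S * (f1 + f2 + f3) := Nat.mul_le_mul_left _ h4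
      have h6 : S * (M + 1) = M * S + S := by ring
      omega
    obtain ⟨R, hR⟩ : ∃ R, M = f1 + f2 + f3 + R := ⟨M - (f1 + f2 + f3), by omega⟩
    have hRS : S * R = r1 + r2 + r3 := by
      have h4 : M * S = S * (f1 + f2 + f3) + S * R := by rw [hR]; ring
      omega
    have hR3 : R < 3 := by
      by_contra hcon
      have h4 : 3 ≤ R := by omega
      have h5 : S * 3 ≤ S * R := Nat.mul_le_mul_left _ h4
      omega
    have hM3 : M - f1 - f2 - f3 = R := by omega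
    unfold splC
    rw [hf1, hf2, hf3, hr1, hr2, hr3, hM3]
    interval_cases R
    · have hb : Nat.beq 0 0 = true := rfl
      rw [hb]
      simp only [cond_true]
      have hsum : r1 + r2 + r3 = 0 := by simpa using hRS.symm
      have e1 : r1 = 0 := by omega
      have e2 : r2 = 0 := by omega
      have e3 : r3 = 0 := by omega
      have hv : f1 + f2 + f3 = M := by omega
      refine (Cov.single (L := L) hM hW hn hv S).mono fun f _ => le_of_eq ?_
      exact split_on hM hS0 hSdef (by omega) (by omega) (by omega)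
    · have hb : Nat.beq 1 0 = false := rfl
      have hb' : Nat.beq 1 1 = true := rfl
      rw [hb, hb']
      simp only [cond_true, cond_false]
      have hs : r1 + r2 + r3 = S := by omega
      have hv1 : (f1 + 1) + f2 + f3 = M := by omega
      have hv2 : f1 + (f2 + 1) + f3 = M := by omega
      have hv3 : f1 + f2 + (f3 + 1) = M := by omega
      have c := ((Cov.single (L := L) hM hW hn hv1 r1).add (Cov.single (L := L) hM hW hn hv2 r2)).add
        (Cov.single (L := L) hM hW hn hv3 r3)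
      unfold spl1
      rw [hs] at c
      exact c.mono fun f hf => split_low hf.convex hM hS0 hSdef d1 d2 d3 hs hv1 hv2 hv3
    · have hb : Nat.beq 2 0 = false := rfl
      have hb' : Nat.beq 2 1 = false := rfl
      rw [hb, hb']
      simp only [cond_false]
      have hs : r1 + r2 + r3 = 2 * S := by omega
      have hv1 : f1 + (f2 + 1) + (f3 + 1) = M := by omega
      have hv2 : (f1 + 1) + f2 + (f3 + 1) = M := by omega
      have hv3 : (f1 + 1) + (f2 + 1) + f3 = M := by omega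
      have c := ((Cov.single (L := L) hM hW hn hv1 (S - r1)).add (Cov.single (L := L) hM hW hn hv2 (S - r2))).add
        (Cov.single (L := L) hM hW hn hv3 (S - r3))
      unfold spl2
      have hs' : S - r1 + (S - r2) + (S - r3) = S := by omega
      rw [hs'] at c
      exact c.mono fun f hf => split_up hf.convex hM hS0 hSdef d1 d2 d3 l1 l2 l3 hs hv1 hv2 hv3

/-! ### The table entry of a pair -/

lemma sum_perm3 (g : Equiv.Perm (Fin 3) → ℝ) :
    ∑ σ, g σ = g 1 + g (Equiv.swap 1 2) + g (Equiv.swap 0 1)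
      + g (Equiv.swap 0 1 * Equiv.swap 1 2) + g (Equiv.swap 1 2 * Equiv.swap 0 1) + g (Equiv.swap 0 2) := by
  have h : (Finset.univ : Finset (Equiv.Perm (Fin 3)))
      = {1, Equiv.swap 1 2, Equiv.swap 0 1, Equiv.swap 0 1 * Equiv.swap 1 2,
          Equiv.swap 1 2 * Equiv.swap 0 1, Equiv.swap 0 2} := by decide
  rw [h]
  rw [Finset.sum_insert (by decide), Finset.sum_insert (by decide), Finset.sum_insert (by decide),
    Finset.sum_insert (by decide), Finset.sum_insert (by decide), Finset.sum_singleton]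
  ring

/-- `Z f(star)` on integer points -/
lemma Z_star (f : (Fin 3 → ℝ) → ℝ) {n₁ n₂ : ℕ} (h₁ : 0 < n₁) (h₂ : 0 < n₂) (x l : Pt) :
    dotZ 3 (toR n₁ x) (toR n₂ l) * f (star 3 (toR n₁ x) (toR n₂ l))
      = 3 / ((n₁ : ℝ) * n₂) * (((x.a * l.a + x.b * l.b + x.c * l.c : ℕ) : ℝ)
          * f (homV (x.a * l.a) (x.b * l.b) (x.c * l.c))) := by
  have hn₁ : (n₁ : ℝ) ≠ 0 := by positivity
  have hn₂ : (n₂ : ℝ) ≠ 0 := by positivity
  set S : ℕ := x.a * l.a + x.b * l.b + x.c * l.c with hS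
  have hsum : ∑ j, toR n₁ x j * toR n₂ l j = (S : ℝ) / ((n₁ : ℝ) * n₂) := by
    simp only [Fin.sum_univ_three]
    show (x.a : ℝ) / n₁ * ((l.a : ℝ) / n₂) + (x.b : ℝ) / n₁ * ((l.b : ℝ) / n₂)
      + (x.c : ℝ) / n₁ * ((l.c : ℝ) / n₂) = _
    rw [hS]; push_cast; field_simp
  have hZ : dotZ 3 (toR n₁ x) (toR n₂ l) = 3 * ((S : ℝ) / ((n₁ : ℝ) * n₂)) := by
    unfold dotZ
    rw [hsum]; norm_num
  rw [hZ]
  by_cases hS0 : S = 0
  · simp [hS0]
  · have hSr : (S : ℝ) ≠ 0 := by exact_mod_cast hS0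
    have hst : star 3 (toR n₁ x) (toR n₂ l) = homV (x.a * l.a) (x.b * l.b) (x.c * l.c) := by
      funext i
      have hne : ∑ j, toR n₁ x j * toR n₂ l j ≠ 0 := by
        rw [hsum]; positivity
      have hS' : ((x.a * l.a + x.b * l.b + x.c * l.c : ℕ) : ℝ) = (S : ℝ) := rfl
      show (if ∑ j, toR n₁ x j * toR n₂ l j = 0 then (1 : ℝ) / (3 : ℕ) else
        toR n₁ x i * toR n₂ l i / ∑ j, toR n₁ x j * toR n₂ l j) = _
      rw [if_neg hne, hsum]
      revert i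
      refine forall3 ?_ ?_ ?_
      · show (x.a : ℝ) / n₁ * ((l.a : ℝ) / n₂) / ((S : ℝ) / ((n₁ : ℝ) * n₂))
          = ((x.a * l.a : ℕ) : ℝ) / (x.a * l.a + x.b * l.b + x.c * l.c : ℕ)
        rw [hS']; push_cast; field_simp
      · show (x.b : ℝ) / n₁ * ((l.b : ℝ) / n₂) / ((S : ℝ) / ((n₁ : ℝ) * n₂))
          = ((x.b * l.b : ℕ) : ℝ) / (x.a * l.a + x.b * l.b + x.c * l.c : ℕ)
        rw [hS']; push_cast; field_simp
      · show (x.c : ℝ) / n₁ * ((l.c : ℝ) / n₂) / ((S : ℝ) / ((n₁ : ℝ) * n₂))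
          = ((x.c * l.c : ℕ) : ℝ) / (x.a * l.a + x.b * l.b + x.c * l.c : ℕ)
        rw [hS']; push_cast; field_simp
    rw [hst]
    ring

lemma toR_comp_1 (n : ℕ) (l : Pt) : toR n l ∘ (1 : Equiv.Perm (Fin 3)) = toR n ⟨l.a, l.b, l.c⟩ := rfl

lemma toR_comp_a (n : ℕ) (l : Pt) : toR n l ∘ (Equiv.swap 1 2 : Equiv.Perm (Fin 3)) = toR n ⟨l.a, l.c, l.b⟩ := by
  funext i; revert i
  refine forall3 ?_ ?_ ?_ <;> rfl

lemma toR_comp_b (n : ℕ) (l : Pt) : toR n l ∘ (Equiv.swap 0 1 : Equiv.Perm (Fin 3)) = toR n ⟨l.b, l.a, l.c⟩ := by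
  funext i; revert i
  refine forall3 ?_ ?_ ?_ <;> rfl

lemma toR_comp_c (n : ℕ) (l : Pt) :
    toR n l ∘ (Equiv.swap 0 1 * Equiv.swap 1 2 : Equiv.Perm (Fin 3)) = toR n ⟨l.b, l.c, l.a⟩ := by
  funext i; revert i
  refine forall3 ?_ ?_ ?_ <;> rfl

lemma toR_comp_d (n : ℕ) (l : Pt) :
    toR n l ∘ (Equiv.swap 1 2 * Equiv.swap 0 1 : Equiv.Perm (Fin 3)) = toR n ⟨l.c, l.a, l.b⟩ := by
  funext i; revert i
  refine forall3 ?_ ?_ ?_ <;> rfl

lemma toR_comp_e (n : ℕ) (l : Pt) : toR n l ∘ (Equiv.swap 0 2 : Equiv.Perm (Fin 3)) = toR n ⟨l.c, l.b, l.a⟩ := by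
  funext i; revert i
  refine forall3 ?_ ?_ ?_ <;> rfl

/-- the table entry covers the pair -/
lemma Cov.pair (hM : 0 < M) (hW : M < 3 * W) (hn : (M / 2 + 1) * W ≤ n) {n₁ n₂ : ℕ} (h₁ : 0 < n₁)
    (h₂ : 0 < n₂) {x l : Pt} (hx : x.a + x.b + x.c = n₁) (hl : l.a + l.b + l.c = n₂) :
    Cov M W L n (pairC M W L x l) (2 * n₁ * n₂)
      (fun f => ((2 * n₁ * n₂ : ℕ) : ℝ) * Esig 3 f (toR n₁ x) (toR n₂ l)) := by
  have hn₁ : (n₁ : ℝ) ≠ 0 := by positivity
  have hn₂ : (n₂ : ℝ) ≠ 0 := by positivity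
  have c := (((((Cov.split (L := L) hM hW hn (x.a * l.a) (x.b * l.b) (x.c * l.c)).add
    (Cov.split (L := L) hM hW hn (x.a * l.a) (x.b * l.c) (x.c * l.b))).add
    (Cov.split (L := L) hM hW hn (x.a * l.b) (x.b * l.a) (x.c * l.c))).add
    (Cov.split (L := L) hM hW hn (x.a * l.b) (x.b * l.c) (x.c * l.a))).add
    (Cov.split (L := L) hM hW hn (x.a * l.c) (x.b * l.a) (x.c * l.b))).add
    (Cov.split (L := L) hM hW hn (x.a * l.c) (x.b * l.b) (x.c * l.a))
  have hT : x.a * l.a + x.b * l.b + x.c * l.c + (x.a * l.a + x.b * l.c + x.c * l.b)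
      + (x.a * l.b + x.b * l.a + x.c * l.c) + (x.a * l.b + x.b * l.c + x.c * l.a)
      + (x.a * l.c + x.b * l.a + x.c * l.b) + (x.a * l.c + x.b * l.b + x.c * l.a) = 2 * n₁ * n₂ := by
    rw [← hx, ← hl]; ring
  rw [hT] at c
  unfold pairC
  refine c.mono fun f _ => le_of_eq ?_
  unfold Esig
  rw [sum_perm3]
  have e1 := Z_star f h₁ h₂ x ⟨l.a, l.b, l.c⟩
  have e2 := Z_star f h₁ h₂ x ⟨l.a, l.c, l.b⟩
  have e3 := Z_star f h₁ h₂ x ⟨l.b, l.a, l.c⟩
  have e4 := Z_star f h₁ h₂ x ⟨l.b, l.c, l.a⟩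
  have e5 := Z_star f h₁ h₂ x ⟨l.c, l.a, l.b⟩
  have e6 := Z_star f h₁ h₂ x ⟨l.c, l.b, l.a⟩
  rw [toR_comp_1, toR_comp_a, toR_comp_b, toR_comp_c, toR_comp_d, toR_comp_e, e1, e2, e3, e4, e5, e6]
  have hf3 : ((Nat.factorial 3 : ℕ) : ℝ) = 6 := by norm_num [Nat.factorial]
  rw [hf3]
  push_cast
  field_simp
  ring

/-! ### Sums over the table -/

/-- integral of `g` against a list of points with integer weights -/
noncomputable def zsum (g : Pt → ℝ) : List Pt → List ℕ → ℝ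
  | p :: ps, w :: ws => (w : ℝ) * g p + zsum g ps ws
  | _, _ => 0

lemma force_eq {α : Type} (n : ℕ) (k : α) : force n k = k := by
  unfold force
  cases Nat.ble n 0 <;> rfl

lemma Cov.rowSum (hM : 0 < M) (hW : M < 3 * W) (hn : (M / 2 + 1) * W ≤ n) {n₁ n₂ : ℕ} (h₁ : 0 < n₁)
    (h₂ : 0 < n₂) {x : Pt} (hx : x.a + x.b + x.c = n₁) :
    ∀ (B : List Pt) (wB : List ℕ), (∀ l ∈ B, l.a + l.b + l.c = n₂) → wB.length = B.length →
    ∀ {acc T : ℕ} {E : ((Fin 3 → ℝ) → ℝ) → ℝ}, Cov M W L n acc T E →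
    Cov M W L n (GridO.rowSum (B.map fun l => pairC M W L x l) wB acc)
      (T + 2 * n₁ * n₂ * wB.sum)
      (fun f => E f + ((2 * n₁ * n₂ : ℕ) : ℝ) * zsum (fun l => Esig 3 f (toR n₁ x) (toR n₂ l)) B wB) := by
  intro B
  induction B with
  | nil =>
    intro wB _ hlen acc T E h
    have : wB = [] := List.length_eq_zero_iff.1 (by simpa using hlen)
    subst this
    simpa [GridO.rowSum, zsum] using h
  | cons l B ih =>
    intro wB hB hlen acc T E h
    cases wB with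
    | nil => simp at hlen
    | cons w wB =>
      simp only [List.map_cons, GridO.rowSum, force_eq, zsum, List.sum_cons]
      have hl := hB l (List.mem_cons_self)
      have c := h.add ((Cov.pair (L := L) hM hW hn h₁ h₂ hx hl).mul w)
      have := ih wB (fun l' hl' => hB l' (List.mem_cons_of_mem _ hl')) (by simpa using hlen) c
      refine (this.congrT (by ring)).mono fun f _ => le_of_eq ?_
      ring

lemma Cov.tabSum (hM : 0 < M) (hW : M < 3 * W) (hn : (M / 2 + 1) * W ≤ n) {n₁ n₂ : ℕ} (h₁ : 0 < n₁)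
    (h₂ : 0 < n₂) (B : List Pt) (wB : List ℕ) (hB : ∀ l ∈ B, l.a + l.b + l.c = n₂)
    (hlB : wB.length = B.length) :
    ∀ (A : List Pt) (wA : List ℕ), (∀ x ∈ A, x.a + x.b + x.c = n₁) → wA.length = A.length →
    ∀ {acc T : ℕ} {E : ((Fin 3 → ℝ) → ℝ) → ℝ}, Cov M W L n acc T E →
    Cov M W L n (GridO.tabSum (mkTab M W L A B) wA wB acc)
      (T + 2 * n₁ * n₂ * wA.sum * wB.sum)
      (fun f => E f + ((2 * n₁ * n₂ : ℕ) : ℝ) * zsum (fun x => zsum (fun l => Esig 3 f (toR n₁ x) (toR n₂ l)) B wB) A wA) := by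
  intro A
  induction A with
  | nil =>
    intro wA _ hlen acc T E h
    have : wA = [] := List.length_eq_zero_iff.1 (by simpa using hlen)
    subst this
    simpa [GridO.tabSum, mkTab, zsum] using h
  | cons x A ih =>
    intro wA hA hlen acc T E h
    cases wA with
    | nil => simp at hlen
    | cons w wA =>
      have hx := hA x (List.mem_cons_self)
      have hr := Cov.rowSum (L := L) hM hW hn h₁ h₂ hx B wB hB hlB (Cov.zero (M := M) (W := W) (L := L) (n := n))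
      have c := h.add (hr.mul w)
      have := ih wA (fun l' hl' => hA l' (List.mem_cons_of_mem _ hl')) (by simpa using hlen) c
      have e : GridO.tabSum (mkTab M W L (x :: A) B) (w :: wA) wB acc
          = GridO.tabSum (mkTab M W L A B) wA wB (acc + w * GridO.rowSum (B.map fun l => pairC M W L x l) wB 0) := by
        simp only [mkTab, List.map_cons, GridO.tabSum, force_eq]
      rw [e]
      simp only [zsum, List.sum_cons]
      refine (this.congrT (by ring)).mono fun f _ => le_of_eq ?_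
      ring

/-! ### Reading the digits -/

lemma digit_eq (L : ℕ) : ∀ (k n : ℕ) (A : ℕ → ℕ), k < n → (∀ j < n, A j < 2 ^ L) →
    (∑ j ∈ Finset.range n, A j * 2 ^ (L * j)) / 2 ^ (L * k) % 2 ^ L = A k := by
  have hB : 0 < 2 ^ L := by positivity
  intro k
  induction k with
  | zero =>
    intro n A hk hA
    obtain ⟨m, rfl⟩ : ∃ m, n = m + 1 := ⟨n - 1, by omega⟩
    rw [Finset.sum_range_succ']
    have e : ∑ j ∈ Finset.range m, A (j + 1) * 2 ^ (L * (j + 1))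
        = 2 ^ L * ∑ j ∈ Finset.range m, A (j + 1) * 2 ^ (L * j) := by
      rw [Finset.mul_sum]
      exact Finset.sum_congr rfl fun j _ => by rw [mul_add, pow_add]; ring
    rw [e]
    simp only [mul_zero, pow_zero, mul_one, Nat.div_one]
    rw [Nat.mul_add_mod]
    exact Nat.mod_eq_of_lt (hA 0 (by omega))
  | succ k ih =>
    intro n A hk hA
    obtain ⟨m, rfl⟩ : ∃ m, n = m + 1 := ⟨n - 1, by omega⟩
    rw [Finset.sum_range_succ']
    have e : ∑ j ∈ Finset.range m, A (j + 1) * 2 ^ (L * (j + 1))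
        = 2 ^ L * ∑ j ∈ Finset.range m, A (j + 1) * 2 ^ (L * j) := by
      rw [Finset.mul_sum]
      exact Finset.sum_congr rfl fun j _ => by rw [mul_add, pow_add]; ring
    rw [e]
    have h0 : A 0 * 2 ^ (L * 0) < 2 ^ L := by
      simpa using hA 0 (by omega)
    have e2 : 2 ^ (L * (k + 1)) = 2 ^ L * 2 ^ (L * k) := by rw [mul_add, pow_add]; ring
    rw [e2, ← Nat.div_div_eq_div_mul]
    have e3 : (2 ^ L * ∑ j ∈ Finset.range m, A (j + 1) * 2 ^ (L * j) + A 0 * 2 ^ (L * 0)) / 2 ^ L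
        = ∑ j ∈ Finset.range m, A (j + 1) * 2 ^ (L * j) := by
      rw [Nat.mul_add_div hB, Nat.div_eq_of_lt h0, add_zero]
    rw [e3]
    exact ih m (fun j => A (j + 1)) (by omega) (fun j hj => hA (j + 1) (by omega))

end Cover

end Crest.Agent.Lib.Bc.GridO
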