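import Crest.Agent.Lib.Bc.GridSym
import Crest.Agent.Lib.Bc.TvBounds
/-!
# Row 163: what the orbit gives at a level: bounds for the moments of `a`
-/
open scoped BigOperators
namespace Crest.Agent.Lib.Bc.GridO

lemma aFn3_convexSym : ConvexSym (aFn 3) := by
  refine ⟨⟨convex_Simp, fun x _ y _ a b ha hb hab => ?_⟩, ?_, fun σ x _ => ?_⟩
  · simp only [aFn, smul_eq_mul, Pi.add_apply, Pi.smul_apply]
    have key : ∑ i, (a * x i + b * y i) ^ 2 ≤ a * ∑ i, x i ^ 2 + b * ∑ i, y i ^ 2 := by
      rw [Finset.mul_sum, Finset.mul_sum, ← Finset.sum_add_distrib]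
      refine Finset.sum_le_sum fun i _ => ?_
      obtain rfl : b = 1 - a := by linarith
      nlinarith [mul_nonneg (mul_nonneg ha hb) (sq_nonneg (x i - y i))]
    push_cast
    obtain rfl : b = 1 - a := by linarith
    nlinarith
  · have : Continuous (aFn 3) := by
      unfold aFn
      fun_prop
    exact this.continuousOn
  · unfold aFn
    congr 2
    congr 1
    exact Equiv.sum_comp σ (fun i => x i ^ 2)

lemma aFn3_sq_convexSym : ConvexSym (fun x => aFn 3 x ^ 2) := by
  have h := aFn3_convexSym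
  refine ⟨?_, ?_, ?_⟩
  · have := h.convex.pow (fun x hx => aFn_nonneg (by norm_num) hx) 2
    exact this
  · exact h.cont.pow 2
  · intro σ x hx
    simp only [h.sym σ x hx]

/-- twice the square of the grid size times `a` at a grid point -/
def numA (N : ℕ) (p : Pt) : ℕ := 3 * (p.a * p.a + p.b * p.b + p.c * p.c) - N * N

/-- the sum of `f` against the weights -/
def sumW (f : Pt → ℕ) : List Pt → List ℕ → ℕ
  | p :: ps, w :: ws => w * f p + sumW f ps ws
  | _, _ => 0

lemma zsum_eq_sumW (f : Pt → ℕ) : ∀ (ps : List Pt) (ws : List ℕ),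
    zsum (fun p => (f p : ℝ)) ps ws = (sumW f ps ws : ℝ) := by
  intro ps
  induction ps with
  | nil => intro ws; simp [zsum, sumW]
  | cons p ps ih =>
    intro ws
    cases ws with
    | nil => simp [zsum, sumW]
    | cons w ws =>
      simp only [zsum, sumW]
      rw [ih ws]
      push_cast
      ring

lemma aFn_toR {N : ℕ} (hN : 0 < N) {p : Pt} (hp : p.a + p.b + p.c = N) :
    aFn 3 (toR N p) * (2 * (N : ℝ) * N) = (numA N p : ℝ) := by
  have hN' : (N : ℝ) ≠ 0 := by positivity
  have hle : N * N ≤ 3 * (p.a * p.a + p.b * p.b + p.c * p.c) := by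
    rw [← hp]
    nlinarith [sq_nonneg ((p.a : ℤ) - p.b), sq_nonneg ((p.a : ℤ) - p.c), sq_nonneg ((p.b : ℤ) - p.c),
      Nat.zero_le p.a]
  unfold numA aFn
  rw [Nat.cast_sub hle]
  simp only [Fin.sum_univ_three, toR, Matrix.cons_val_zero, Matrix.cons_val_one, Matrix.cons_val_two,
    Matrix.head_cons, Matrix.tail_cons]
  push_cast
  field_simp
  norm_num

section Exit
variable {N W D : ℕ} {ks : List ℕ} {m : ℕ} {ws : List ℕ}

/-- the mean of `a` at level `m` is bounded by the mean on the grid -/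
theorem Inv.a_le (h : Inv N W D ks m ws) :
    (leafSL 3 4 (-(1 / 2)) m (by norm_num) hch3).Φ (aFn 3) * (D * (2 * (N : ℝ) * N))
      ≤ (sumW (numA N) (ptsOf N W ks) ws : ℝ) := by
  obtain ⟨hG, hdom⟩ := h
  have hN := hG.1
  have hD : (0 : ℝ) < D := by have := hG.2.1; positivity
  have hNr : (0 : ℝ) < 2 * (N : ℝ) * N := by positivity
  have h1 := hdom _ aFn3_convexSym
  have h2 := gridLaw_Φ hG (g := aFn 3) aFn3_convexSym.sym
  have h3 : zsum (fun p => aFn 3 (toR N p)) (ptsOf N W ks) ws * (2 * (N : ℝ) * N)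
      = (sumW (numA N) (ptsOf N W ks) ws : ℝ) := by
    rw [← zsum_eq_sumW, zsum_mul]
    exact zsum_congr _ _ fun p hp => aFn_toR hN (hG.2.2.1 p hp)
  rw [← h3, ← h2]
  have := mul_le_mul_of_nonneg_right h1 (mul_pos hD hNr).le
  refine this.trans (le_of_eq ?_)
  ring

/-- the mean of `a²` at level `m` is bounded by the mean on the grid -/
theorem Inv.a2_le (h : Inv N W D ks m ws) :
    (leafSL 3 4 (-(1 / 2)) m (by norm_num) hch3).Φ (fun x => aFn 3 x ^ 2) * (D * ((2 * (N : ℝ) * N) * (2 * (N : ℝ) * N)))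
      ≤ (sumW (fun p => numA N p * numA N p) (ptsOf N W ks) ws : ℝ) := by
  obtain ⟨hG, hdom⟩ := h
  have hN := hG.1
  have hD : (0 : ℝ) < D := by have := hG.2.1; positivity
  have hNr : (0 : ℝ) < 2 * (N : ℝ) * N := by positivity
  have h1 := hdom _ aFn3_sq_convexSym
  have h2 := gridLaw_Φ hG (g := fun x => aFn 3 x ^ 2) aFn3_sq_convexSym.sym
  have h3 : zsum (fun p => aFn 3 (toR N p) ^ 2) (ptsOf N W ks) ws * ((2 * (N : ℝ) * N) * (2 * (N : ℝ) * N))
      = (sumW (fun p => numA N p * numA N p) (ptsOf N W ks) ws : ℝ) := by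
    rw [← zsum_eq_sumW, zsum_mul]
    refine zsum_congr _ _ fun p hp => ?_
    have := aFn_toR hN (hG.2.2.1 p hp)
    push_cast
    rw [← this]
    ring
  rw [← h3, ← h2]
  have := mul_le_mul_of_nonneg_right h1 (mul_pos hD (mul_pos hNr hNr)).le
  refine this.trans (le_of_eq ?_)
  ring

end Exit

end Crest.Agent.Lib.Bc.GridO
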