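import Crest.Agent.Lib.Bc.GridLaw
/-!
# Row 163: the kernel-efficient form of the grid engine

Every intermediate value is passed as a literal (`app`), arithmetic is written with the primitive
`Nat` functions, recursion with the recursors.  Everything here is definitionally (or by a short
induction) equal to the specification in `GridEngine.lean`.
-/
namespace Crest.Agent.Lib.Bc.GridO

/-- strict application: the kernel evaluates `e` to a literal before it enters `k` -/
noncomputable def app {α : Type} (e : ℕ) (k : ℕ → α) : α :=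
  Nat.rec (motive := fun _ => α) (k e) (fun m _ => k m) (Nat.succ e)

lemma app_eq {α : Type} (e : ℕ) (k : ℕ → α) : app e k = k e := rfl

noncomputable def nminF (a b : ℕ) : ℕ := Bool.rec b a (Nat.ble a b)
noncomputable def nmaxF (a b : ℕ) : ℕ := Bool.rec a b (Nat.ble a b)

noncomputable def slotF (M W v1 v2 v3 : ℕ) : ℕ :=
  app (nminF v1 (nminF v2 v3)) fun lo => app (nmaxF v1 (nmaxF v2 v3)) fun hi =>
    Nat.add (Nat.mul (Nat.sub (Nat.sub M hi) lo) W) lo

noncomputable def sgF (M W L m v1 v2 v3 : ℕ) : ℕ := Nat.shiftLeft m (Nat.mul L (slotF M W v1 v2 v3))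

noncomputable def spl1F (M W L r1 r2 r3 f1 f2 f3 : ℕ) : ℕ :=
  Nat.add (Nat.add (sgF M W L r1 (Nat.succ f1) f2 f3) (sgF M W L r2 f1 (Nat.succ f2) f3))
    (sgF M W L r3 f1 f2 (Nat.succ f3))

noncomputable def spl2F (M W L S r1 r2 r3 f1 f2 f3 : ℕ) : ℕ :=
  Nat.add (Nat.add (sgF M W L (Nat.sub S r1) f1 (Nat.succ f2) (Nat.succ f3))
      (sgF M W L (Nat.sub S r2) (Nat.succ f1) f2 (Nat.succ f3)))
    (sgF M W L (Nat.sub S r3) (Nat.succ f1) (Nat.succ f2) f3)

noncomputable def splCF (M W L S u1 u2 u3 f1 f2 f3 R : ℕ) : ℕ :=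
  Bool.rec
    (Bool.rec (spl2F M W L S (Nat.mod u1 S) (Nat.mod u2 S) (Nat.mod u3 S) f1 f2 f3)
      (spl1F M W L (Nat.mod u1 S) (Nat.mod u2 S) (Nat.mod u3 S) f1 f2 f3) (Nat.beq R (nat_lit 1)))
    (sgF M W L S f1 f2 f3) (Nat.beq R (nat_lit 0))

noncomputable def splitF (M W L h1 h2 h3 : ℕ) : ℕ :=
  app (Nat.add (Nat.add h1 h2) h3) fun S =>
    Bool.rec
      (app (Nat.mul M h1) fun u1 => app (Nat.mul M h2) fun u2 => app (Nat.mul M h3) fun u3 =>
        app (Nat.div u1 S) fun f1 => app (Nat.div u2 S) fun f2 => app (Nat.div u3 S) fun f3 =>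
          splCF M W L S u1 u2 u3 f1 f2 f3 (Nat.sub (Nat.sub (Nat.sub M f1) f2) f3))
      (nat_lit 0) (Nat.beq S (nat_lit 0))

noncomputable def pair9F (M W L p11 p12 p13 p21 p22 p23 p31 p32 p33 : ℕ) : ℕ :=
  Nat.add (Nat.add (Nat.add (Nat.add (Nat.add (splitF M W L p11 p22 p33) (splitF M W L p11 p23 p32))
    (splitF M W L p12 p21 p33)) (splitF M W L p12 p23 p31)) (splitF M W L p13 p21 p32))
    (splitF M W L p13 p22 p31)

noncomputable def pairF (M W L : ℕ) (x l : Pt) : ℕ :=
  app (Nat.mul x.a l.a) fun p11 => app (Nat.mul x.a l.b) fun p12 => app (Nat.mul x.a l.c) fun p13 =>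
  app (Nat.mul x.b l.a) fun p21 => app (Nat.mul x.b l.b) fun p22 => app (Nat.mul x.b l.c) fun p23 =>
  app (Nat.mul x.c l.a) fun p31 => app (Nat.mul x.c l.b) fun p32 => app (Nat.mul x.c l.c) fun p33 =>
    pair9F M W L p11 p12 p13 p21 p22 p23 p31 p32 p33

/-- strict map to numbers -/
noncomputable def mapN {β : Type} (f : β → ℕ) (l : List β) : List ℕ :=
  List.rec (motive := fun _ => List ℕ) [] (fun x _ ih => app (f x) fun v => v :: ih) l

noncomputable def mapT {β : Type} (f : β → List ℕ) (l : List β) : List (List ℕ) :=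
  List.rec (motive := fun _ => List (List ℕ)) [] (fun x _ ih => f x :: ih) l

noncomputable def mkTabF (M W L : ℕ) (A B : List Pt) : List (List ℕ) :=
  mapT (fun x => mapN (fun l => pairF M W L x l) B) A

noncomputable def rowF (row : List ℕ) : List ℕ → ℕ → ℕ :=
  List.rec (motive := fun _ => List ℕ → ℕ → ℕ) (fun _ acc => acc)
    (fun C _ ih ws acc =>
      List.rec (motive := fun _ => ℕ) acc
        (fun w ws' _ => app (Nat.add acc (Nat.mul w C)) fun a => ih ws' a) ws) row

noncomputable def tabF (tab : List (List ℕ)) : List ℕ → List ℕ → ℕ → ℕ :=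
  List.rec (motive := fun _ => List ℕ → List ℕ → ℕ → ℕ) (fun _ _ acc => acc)
    (fun r _ ih ws wB acc =>
      List.rec (motive := fun _ => ℕ) acc
        (fun w ws' _ => app (Nat.add acc (Nat.mul w (rowF r wB (nat_lit 0)))) fun a => ih ws' wB a) ws) tab

noncomputable def sumF (l : List ℕ) : ℕ :=
  List.rec (motive := fun _ => ℕ) (nat_lit 0) (fun x _ ih => Nat.add x ih) l

noncomputable def roundF (L B T D acc : ℕ) (ks : List ℕ) : List ℕ :=
  (fun r => (Nat.sub D (sumF r)) :: r)
    (mapN (fun k => Nat.div (Nat.mul (Nat.mod (Nat.shiftRight acc (Nat.mul L k)) B) D) T) ks)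

noncomputable def starF (L B T D : ℕ) (tab : List (List ℕ)) (ks wA wB : List ℕ) : List ℕ :=
  app (tabF tab wA wB (nat_lit 0)) fun acc => roundF L B T D acc ks

noncomputable def levelF (L B T1 T2 D : ℕ) (tabK tabR : List (List ℕ)) (ks ws : List ℕ) : List ℕ :=
  (fun w2 => starF L B T2 D tabR ks w2 w2) (starF L B T1 D tabK ks ws ws)

noncomputable def levelsF (L B T1 T2 D : ℕ) (tabK tabR : List (List ℕ)) (ks : List ℕ) (k : ℕ) : List ℕ → List ℕ :=
  Nat.rec (motive := fun _ => List ℕ → List ℕ) (fun ws => ws)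
    (fun _ ih ws => ih (levelF L B T1 T2 D tabK tabR ks ws)) k

noncomputable def eqF (a : List ℕ) : List ℕ → Bool :=
  List.rec (motive := fun _ => List ℕ → Bool)
    (fun b => List.rec (motive := fun _ => Bool) true (fun _ _ _ => false) b)
    (fun x _ ih b => List.rec (motive := fun _ => Bool) false
      (fun y ys _ => Bool.rec false (ih ys) (Nat.beq x y)) b) a

/-! ## Equality with the specification -/

lemma brec_eq {α : Type} (b : Bool) (x y : α) : (Bool.rec y x b : α) = cond b x y := by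
  cases b <;> rfl

lemma nminF_eq (a b : ℕ) : nminF a b = nmin a b := brec_eq _ _ _

lemma nmaxF_eq (a b : ℕ) : nmaxF a b = nmax a b := brec_eq _ _ _

lemma slotF_eq (M W v1 v2 v3 : ℕ) : slotF M W v1 v2 v3 = slotOf M W v1 v2 v3 := by
  unfold slotF slotOf
  simp only [app_eq, nminF_eq, nmaxF_eq]
  rfl

lemma sgF_eq (M W L m v1 v2 v3 : ℕ) : sgF M W L m v1 v2 v3 = sg M W L m v1 v2 v3 := by
  unfold sgF sg
  rw [slotF_eq]
  rfl

lemma spl1F_eq (M W L r1 r2 r3 f1 f2 f3 : ℕ) :
    spl1F M W L r1 r2 r3 f1 f2 f3 = spl1 M W L r1 r2 r3 f1 f2 f3 := by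
  unfold spl1F spl1
  simp only [sgF_eq]
  rfl

lemma spl2F_eq (M W L S r1 r2 r3 f1 f2 f3 : ℕ) :
    spl2F M W L S r1 r2 r3 f1 f2 f3 = spl2 M W L S r1 r2 r3 f1 f2 f3 := by
  unfold spl2F spl2
  simp only [sgF_eq]
  rfl

lemma splCF_eq (M W L S u1 u2 u3 f1 f2 f3 : ℕ) :
    splCF M W L S u1 u2 u3 f1 f2 f3 (M - f1 - f2 - f3) = splC M W L S u1 u2 u3 f1 f2 f3 := by
  unfold splCF splC
  rw [brec_eq, brec_eq, spl1F_eq, spl2F_eq, sgF_eq]
  rfl

lemma splitF_eq (M W L h1 h2 h3 : ℕ) : splitF M W L h1 h2 h3 = split M W L h1 h2 h3 := by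
  unfold splitF split
  simp only [app_eq]
  rw [brec_eq]
  show cond _ _ (splCF M W L _ _ _ _ _ _ _ (M - _ - _ - _)) = _
  rw [splCF_eq]
  rfl

lemma pairF_eq (M W L : ℕ) (x l : Pt) : pairF M W L x l = pairC M W L x l := by
  unfold pairF pair9F pairC
  simp only [app_eq, splitF_eq]
  rfl

lemma mapN_eq {β : Type} (f : β → ℕ) (l : List β) : mapN f l = l.map f := by
  induction l with
  | nil => rfl
  | cons x l ih =>
    show f x :: mapN f l = _
    rw [ih]; rfl

lemma mapT_eq {β : Type} (f : β → List ℕ) (l : List β) : mapT f l = l.map f := by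
  induction l with
  | nil => rfl
  | cons x l ih =>
    show f x :: mapT f l = _
    rw [ih]; rfl

lemma mkTabF_eq (M W L : ℕ) (A B : List Pt) : mkTabF M W L A B = mkTab M W L A B := by
  unfold mkTabF mkTab
  rw [mapT_eq]
  refine List.map_congr_left fun x _ => ?_
  rw [mapN_eq]
  simp only [pairF_eq]

lemma rowF_eq : ∀ (row ws : List ℕ) (acc : ℕ), rowF row ws acc = rowSum row ws acc := by
  intro row
  induction row with
  | nil =>
    intro ws acc
    cases ws <;> rfl
  | cons C cs ih =>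
    intro ws acc
    cases ws with
    | nil => rfl
    | cons w ws =>
      show rowF cs ws (acc + w * C) = _
      rw [ih]
      simp only [rowSum, force_eq]

lemma tabF_eq : ∀ (tab : List (List ℕ)) (ws wB : List ℕ) (acc : ℕ),
    tabF tab ws wB acc = tabSum tab ws wB acc := by
  intro tab
  induction tab with
  | nil =>
    intro ws wB acc
    cases ws <;> rfl
  | cons r rs ih =>
    intro ws wB acc
    cases ws with
    | nil => rfl
    | cons w ws =>
      show tabF rs ws wB (acc + w * rowF r wB 0) = _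
      rw [ih, rowF_eq]
      simp only [tabSum, force_eq]

lemma sumF_eq (l : List ℕ) : sumF l = l.sum := by
  induction l with
  | nil => rfl
  | cons x l ih =>
    show x + sumF l = _
    rw [ih, List.sum_cons]

lemma starF_eq (L T D : ℕ) (tab : List (List ℕ)) (ks wA wB : List ℕ) :
    starF L (2 ^ L) T D tab ks wA wB = starW L T D tab ks wA wB := by
  show roundF L (2 ^ L) T D (tabF tab wA wB 0) ks = roundL L T D (tabSum tab wA wB 0) ks
  rw [tabF_eq]
  unfold roundF roundL
  simp only [mapN_eq]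
  show (D - sumF _) :: _ = _
  rw [sumF_eq]
  rfl

lemma levelF_eq (L T1 T2 D : ℕ) (tabK tabR : List (List ℕ)) (ks ws : List ℕ) :
    levelF L (2 ^ L) T1 T2 D tabK tabR ks ws = levelT L T1 T2 D tabK tabR ks ws := by
  show starF L (2 ^ L) T2 D tabR ks (starF L (2 ^ L) T1 D tabK ks ws ws) (starF L (2 ^ L) T1 D tabK ks ws ws) = _
  rw [starF_eq, starF_eq]
  rfl

lemma levelsF_eq (L T1 T2 D : ℕ) (tabK tabR : List (List ℕ)) (ks : List ℕ) :
    ∀ (k : ℕ) (ws : List ℕ), levelsF L (2 ^ L) T1 T2 D tabK tabR ks k ws = levelsT L T1 T2 D tabK tabR ks k ws := by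
  intro k
  induction k with
  | zero => intro ws; rfl
  | succ k ih =>
    intro ws
    show levelsF L (2 ^ L) T1 T2 D tabK tabR ks k (levelF L (2 ^ L) T1 T2 D tabK tabR ks ws) = _
    rw [ih, levelF_eq]
    rfl

lemma eqF_eq : ∀ a b : List ℕ, eqF a b = true → a = b := by
  intro a
  induction a with
  | nil =>
    intro b h
    cases b with
    | nil => rfl
    | cons _ _ => exact absurd h (by simp [eqF])
  | cons x a ih =>
    intro b h
    cases b with
    | nil => exact absurd h (by simp [eqF])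
    | cons y b =>
      have h' : (Bool.rec false (eqF a b) (Nat.beq x y) : Bool) = true := h
      cases hxy : Nat.beq x y with
      | false => rw [hxy] at h'; exact absurd h' (by simp)
      | true =>
        rw [hxy] at h'
        rw [Nat.eq_of_beq_eq_true hxy, ih b h']

end Crest.Agent.Lib.Bc.GridO
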