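import Crest.Agent.Lib.Bc.GridEngine
import Crest.Agent.Lib.Bc.Abstract
import Crest.Agent.Lib.Bc.Leaf
/-!
# Row 163: finite symmetric laws on a grid, and one level of the recursion on them
-/
open scoped BigOperators
namespace Crest.Agent.Lib.Bc.GridO

/-! ## Orbit laws -/

section Orbit
variable {ι : Type} [Fintype ι]

/-- the finite symmetric law with atoms `x i` of mass `W i` (and their relabellings) -/
noncomputable def orbitLaw (x : ι → Fin 3 → ℝ) (W : ι → ℝ) (hx : ∀ i, x i ∈ Simp 3) (hW : ∀ i, 0 ≤ W i)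
    (hsum : ∑ i, W i = 1) : SLaw 3 where
  O := ι × Equiv.Perm (Fin 3)
  w := fun o j => 3 * (W o.1 / 6) * x o.1 (o.2 j)
  nonneg := fun o j => mul_nonneg (by have := hW o.1; positivity) ((hx o.1).1 _)
  sum_one := fun j => by
    have h2 : ∀ y ∈ Simp 3, ∑ σ : Equiv.Perm (Fin 3), y (σ j) = 2 := by
      intro y hy
      rw [sum_perm3]
      have hs := hy.2
      rw [Fin.sum_univ_three] at hs
      revert j
      refine forall3 ?_ ?_ ?_
      · simp [Equiv.swap_apply_def]; linarith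
      · simp [Equiv.swap_apply_def]; linarith
      · simp [Equiv.swap_apply_def]; linarith
    have := hasSum_fintype (fun o : ι × Equiv.Perm (Fin 3) => 3 * (W o.1 / 6) * x o.1 (o.2 j))
    convert this using 1
    rw [Fintype.sum_prod_type]
    simp only [← Finset.mul_sum]
    have : ∀ i, 3 * (W i / 6) * ∑ σ : Equiv.Perm (Fin 3), x i (σ j) = W i := fun i => by
      rw [h2 _ (hx i)]; ring
    simp only [this]
    exact hsum.symm
  sym := fun τ => by
    refine ⟨Equiv.prodCongr (Equiv.refl _) (Equiv.mulRight τ⁻¹), fun o j => ?_⟩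
    simp

lemma orbit_Φ (x : ι → Fin 3 → ℝ) (W : ι → ℝ) (hx : ∀ i, x i ∈ Simp 3) (hW : ∀ i, 0 ≤ W i)
    (hsum : ∑ i, W i = 1) {g : (Fin 3 → ℝ) → ℝ} (hg : ∀ σ : Equiv.Perm (Fin 3), ∀ y ∈ Simp 3, g (y ∘ σ) = g y) :
    (orbitLaw x W hx hW hsum).Φ g = ∑ i, W i * g (x i) := by
  have e0 : (orbitLaw x W hx hW hsum).Φ g = ∑ o : ι × Equiv.Perm (Fin 3),
      (orbitLaw x W hx hW hsum).mass o * g ((orbitLaw x W hx hW hsum).post o) :=
    by
      show ∑' o : ι × Equiv.Perm (Fin 3), (orbitLaw x W hx hW hsum).mass o * g ((orbitLaw x W hx hW hsum).post o) = _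
      exact tsum_fintype (L := SummationFilter.unconditional _) _
  rw [e0, Fintype.sum_prod_type]
  refine Finset.sum_congr rfl fun i _ => ?_
  have hterm : ∀ σ : Equiv.Perm (Fin 3), (orbitLaw x W hx hW hsum).mass (i, σ)
      * g ((orbitLaw x W hx hW hsum).post (i, σ)) = W i / 6 * g (x i) := by
    intro σ
    have hs1 : ∑ j, x i (σ j) = 1 := by
      rw [Equiv.sum_comp σ (x i)]; exact (hx i).2
    have hsumw : ∑ j, (orbitLaw x W hx hW hsum).w (i, σ) j = 3 * (W i / 6) := by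
      show ∑ j, 3 * (W i / 6) * x i (σ j) = _
      rw [← Finset.mul_sum, hs1, mul_one]
    have hmass : (orbitLaw x W hx hW hsum).mass (i, σ) = W i / 6 := by
      unfold SLaw.mass
      rw [hsumw]; push_cast; ring
    rw [hmass]
    by_cases h0 : W i = 0
    · simp [h0]
    · have hne : ∑ j, (orbitLaw x W hx hW hsum).w (i, σ) j ≠ 0 := by
        rw [hsumw]; intro h; apply h0; linarith
      have hpost : (orbitLaw x W hx hW hsum).post (i, σ) = x i ∘ σ := by
        funext j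
        unfold SLaw.post
        rw [if_neg hne, hsumw]
        show 3 * (W i / 6) * x i (σ j) / (3 * (W i / 6)) = _
        have : 3 * (W i / 6) ≠ 0 := by
          intro h; apply h0; linarith
        field_simp
        rfl
      rw [hpost, hg σ _ (hx i)]
  simp only [hterm, Finset.sum_const, Finset.card_univ, Fintype.card_perm, Fintype.card_fin,
    nsmul_eq_mul]
  norm_num [Nat.factorial]
  ring

end Orbit

/-! ## Grid laws -/

/-- well formed data -/
def Good (n D : ℕ) (pts : List Pt) (ws : List ℕ) : Prop :=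
  0 < n ∧ 0 < D ∧ (∀ p ∈ pts, p.a + p.b + p.c = n) ∧ ws.length = pts.length ∧ ws.sum = D

lemma zsum_eq_fin (g : Pt → ℝ) : ∀ (ps : List Pt) (ws : List ℕ), ws.length = ps.length →
    ∑ i : Fin ps.length, ((ws.getD i 0 : ℕ) : ℝ) * g (ps.get i) = zsum g ps ws := by
  intro ps
  induction ps with
  | nil => intro ws _; simp [zsum]
  | cons p ps ih =>
    intro ws hlen
    cases ws with
    | nil => simp at hlen
    | cons w ws =>
      have := ih ws (by simpa using hlen)
      show ∑ i : Fin (ps.length + 1), _ = _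
      rw [Fin.sum_univ_succ]
      simp only [zsum]
      congr 1

lemma zsum_one : ∀ (ps : List Pt) (ws : List ℕ), ws.length = ps.length →
    zsum (fun _ => 1) ps ws = (ws.sum : ℝ) := by
  intro ps
  induction ps with
  | nil =>
    intro ws h
    have : ws = [] := List.length_eq_zero_iff.1 (by simpa using h)
    subst this; simp [zsum]
  | cons p ps ih =>
    intro ws hlen
    cases ws with
    | nil => simp at hlen
    | cons w ws =>
      simp only [zsum, List.sum_cons]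
      rw [ih ws (by simpa using hlen)]
      push_cast; ring

open Classical in
/-- the grid law; the junk value is never used -/
noncomputable def gridLaw (n D : ℕ) (pts : List Pt) (ws : List ℕ) : SLaw 3 :=
  if h : Good n D pts ws then
    orbitLaw (ι := Fin pts.length) (fun i => toR n (pts.get i)) (fun i => ((ws.getD i 0 : ℕ) : ℝ) / D)
      (fun i => toR_mem h.1 (h.2.2.1 _ (List.get_mem _ _)))
      (fun i => by positivity)
      (by
        have hD : (D : ℝ) ≠ 0 := by have := h.2.1; positivity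
        have e := zsum_eq_fin (fun _ => 1) pts ws h.2.2.2.1
        rw [zsum_one pts ws h.2.2.2.1, h.2.2.2.2] at e
        simp only [mul_one] at e
        rw [← Finset.sum_div, e, div_self hD])
  else SLaw.triv 3

lemma gridLaw_Φ {n D : ℕ} {pts : List Pt} {ws : List ℕ} (h : Good n D pts ws) {g : (Fin 3 → ℝ) → ℝ}
    (hg : ∀ σ : Equiv.Perm (Fin 3), ∀ y ∈ Simp 3, g (y ∘ σ) = g y) :
    (gridLaw n D pts ws).Φ g * D = zsum (fun p => g (toR n p)) pts ws := by
  have hD : (D : ℝ) ≠ 0 := by have := h.2.1; positivity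
  unfold gridLaw
  rw [dif_pos h, orbit_Φ _ _ _ _ _ hg, ← zsum_eq_fin _ pts ws h.2.2.2.1, Finset.sum_mul]
  refine Finset.sum_congr rfl fun i _ => ?_
  field_simp

/-! ## One convolution -/

/-- `Esig` is symmetric in the first argument too -/
lemma Esig_sym_left {f : (Fin 3 → ℝ) → ℝ} (hf : ConvexSym f) (τ : Equiv.Perm (Fin 3)) {x x' : Fin 3 → ℝ}
    (hx : x ∈ Simp 3) (hx' : x' ∈ Simp 3) : Esig 3 f (x ∘ τ) x' = Esig 3 f x x' := by
  unfold Esig
  congr 1
  rw [← Equiv.sum_comp (Equiv.mulRight τ⁻¹) (fun σ : Equiv.Perm (Fin 3) => dotZ 3 x (x' ∘ σ) * f (star 3 x (x' ∘ σ)))]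
  refine Finset.sum_congr rfl fun σ _ => ?_
  simp only [Equiv.coe_mulRight]
  set u : Fin 3 → ℝ := x' ∘ (σ * τ⁻¹ : Equiv.Perm (Fin 3)) with hu
  have hσ : x' ∘ σ = u ∘ τ := by
    funext i
    simp [hu]
  have hum : u ∈ Simp 3 := comp_mem_Simp _ hx'
  rw [hσ]
  have hs : ∑ i, (x ∘ τ) i * (u ∘ τ) i = ∑ i, x i * u i :=
    Equiv.sum_comp τ (fun i => x i * u i)
  have hd : dotZ 3 (x ∘ τ) (u ∘ τ) = dotZ 3 x u := by
    unfold dotZ; rw [hs]
  have hst : star 3 (x ∘ τ) (u ∘ τ) = star 3 x u ∘ τ := by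
    funext i
    have hs' : ∑ j, x (τ j) * u (τ j) = ∑ j, x j * u j := hs
    simp only [star, hs', Function.comp]
  rw [hd, hst, hf.sym τ _ (star_mem (by norm_num) hx hum)]

section Round
variable {M W L n : ℕ}

lemma zsum_map (g : Pt → ℝ) (p : ℕ → Pt) (ρ : ℕ → ℕ) (ks : List ℕ) :
    zsum g (ks.map p) (ks.map ρ) = (ks.map fun k => (ρ k : ℝ) * g (p k)).sum := by
  induction ks with
  | nil => simp [zsum]
  | cons k ks ih => simp [zsum, ih]

lemma toR_ptS_mem (hM : 0 < M) {k : ℕ} (hk : Valid M W k) : toR M (ptS M W k) ∈ Simp 3 := by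
  refine toR_mem hM ?_
  unfold ptS Valid at *
  show M - k / W - k % W + k / W + k % W = M
  omega

lemma toR_ptS_zero (hM : 0 < M) : toR M (ptS M W 0) = fun j => if j = 0 then 1 else 0 := by
  have hM' : (M : ℝ) ≠ 0 := by positivity
  funext j
  revert j
  refine forall3 ?_ ?_ ?_
  · show ((M - 0 / W - 0 % W : ℕ) : ℝ) / M = _
    simp [hM']
  · show ((0 / W : ℕ) : ℝ) / M = _
    simp
  · show ((0 % W : ℕ) : ℝ) / M = _
    simp

/-- reading the digits, rounding down, the rest to the vertex -/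
theorem round_le (hM : 0 < M) {acc T D : ℕ} {E : ((Fin 3 → ℝ) → ℝ) → ℝ} (hT : 0 < T) (hTL : T < 2 ^ L)
    (hcov : Cov M W L n acc T E) {ks : List ℕ} (hks : ks.Nodup)
    (hk : ∀ k ∈ ks, k < n ∧ Valid M W k) :
    (roundL L T D acc ks).length = ks.length + 1 ∧ (roundL L T D acc ks).sum = D ∧
      ∀ f, ConvexSym f → E f * D ≤ T * zsum (fun p => f (toR M p)) (ptS M W 0 :: ks.map (ptS M W))
        (roundL L T D acc ks) := by
  obtain ⟨A, h1, h2, h3, h4⟩ := hcov
  have hAle : ∀ j ∈ Finset.range n, A j ≤ T := fun j hj => by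
    rw [← h3]
    exact Finset.single_le_sum (f := A) (fun _ _ => Nat.zero_le _) hj
  have hAlt : ∀ j < n, A j < 2 ^ L := fun j hj => (hAle j (Finset.mem_range.2 hj)).trans_lt hTL
  set ρ : ℕ → ℕ := fun k => A k * D / T with hρ
  have hread : ∀ k ∈ ks, (Nat.shiftRight acc (L * k) % 2 ^ L) * D / T = ρ k := by
    intro k hkk
    have hs : Nat.shiftRight acc (L * k) = acc / 2 ^ (L * k) := Nat.shiftRight_eq_div_pow _ _
    rw [hs, h1, digit_eq L k n A (hk k hkk).1 hAlt]
  have hmap : (ks.map fun k => (Nat.shiftRight acc (L * k) % 2 ^ L) * D / T) = ks.map ρ :=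
    List.map_congr_left hread
  have hround : roundL L T D acc ks = (D - (ks.map ρ).sum) :: ks.map ρ := by
    unfold roundL
    simp only [hmap]
  have hsub : ks.toFinset ⊆ Finset.range n := fun k hkk =>
    Finset.mem_range.2 (hk k (List.mem_toFinset.1 hkk)).1
  have hρle : ∀ k, ρ k * T ≤ A k * D := fun k => Nat.div_mul_le_self _ _
  have hsumρ : (ks.map ρ).sum = ∑ k ∈ ks.toFinset, ρ k := (List.sum_toFinset ρ hks).symm
  have hρD : (ks.map ρ).sum ≤ D := by
    rw [hsumρ]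
    have : (∑ k ∈ ks.toFinset, ρ k) * T ≤ D * T := by
      rw [Finset.sum_mul]
      calc ∑ k ∈ ks.toFinset, ρ k * T ≤ ∑ k ∈ ks.toFinset, A k * D := Finset.sum_le_sum fun k _ => hρle k
        _ ≤ ∑ k ∈ Finset.range n, A k * D := Finset.sum_le_sum_of_subset hsub
        _ = T * D := by rw [← Finset.sum_mul, h3]
        _ = D * T := mul_comm _ _
    exact Nat.le_of_mul_le_mul_right this hT
  refine ⟨by rw [hround]; simp, by rw [hround, List.sum_cons]; omega, ?_⟩
  intro f hf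
  rw [hround]
  simp only [zsum]
  rw [zsum_map]
  set F : ℕ → ℝ := fun k => f (toR M (ptS M W k)) with hF
  have hV : ∀ k, Valid M W k → F k ≤ F 0 := fun k hkv => by
    simp only [hF]
    rw [toR_ptS_zero hM]
    exact hf.le_vertex 0 (toR_ptS_mem hM hkv)
  have hsumF : (ks.map fun k => (ρ k : ℝ) * (fun p => f (toR M p)) (ptS M W k)).sum
      = ∑ k ∈ ks.toFinset, (ρ k : ℝ) * F k := (List.sum_toFinset _ hks).symm
  rw [hsumF]
  have hcast : ((D - (ks.map ρ).sum : ℕ) : ℝ) = (D : ℝ) - ∑ k ∈ ks.toFinset, (ρ k : ℝ) := by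
    rw [Nat.cast_sub hρD, hsumρ]; push_cast; rfl
  rw [hcast]
  -- the excess measure
  let e : ℕ → ℝ := fun k => (A k : ℝ) * D - if k ∈ ks.toFinset then (ρ k : ℝ) * T else 0
  have he0 : ∀ k, 0 ≤ e k := fun k => by
    simp only [e]
    have : ((ρ k * T : ℕ) : ℝ) ≤ ((A k * D : ℕ) : ℝ) := by exact_mod_cast hρle k
    push_cast at this
    have h7 : (0 : ℝ) ≤ (A k : ℝ) * D := by positivity
    split_ifs <;> linarith
  have heF : ∀ k ∈ Finset.range n, e k * F k ≤ e k * F 0 := fun k hkn => by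
    by_cases hA : A k = 0
    · have hρ0 : ρ k = 0 := by simp [hρ, hA]
      have : e k = 0 := by simp [e, hA, hρ0]
      simp [this]
    · exact mul_le_mul_of_nonneg_left (hV k (h2 k hkn hA)) (he0 k)
  have hdecomp : ∑ k ∈ Finset.range n, (A k : ℝ) * D * F k
      = T * ∑ k ∈ ks.toFinset, (ρ k : ℝ) * F k + ∑ k ∈ Finset.range n, e k * F k := by
    have h5 : ∑ k ∈ Finset.range n, (if k ∈ ks.toFinset then (ρ k : ℝ) * T * F k else 0)
        = ∑ k ∈ ks.toFinset, (ρ k : ℝ) * T * F k := by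
      rw [Finset.sum_ite_mem, Finset.inter_eq_right.2 hsub]
    rw [Finset.mul_sum, ← Finset.sum_congr rfl (fun k _ => (by ring : (ρ k : ℝ) * T * F k = T * ((ρ k : ℝ) * F k))), ← h5,
      ← Finset.sum_add_distrib]
    refine Finset.sum_congr rfl fun k _ => ?_
    simp only [e]
    split_ifs <;> ring
  have hesum : ∑ k ∈ Finset.range n, e k = T * ((D : ℝ) - ∑ k ∈ ks.toFinset, (ρ k : ℝ)) := by
    simp only [e]
    rw [Finset.sum_sub_distrib, Finset.sum_ite_mem, Finset.inter_eq_right.2 hsub, ← Finset.sum_mul]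
    have h6 : (∑ k ∈ Finset.range n, (A k : ℝ)) = T := by exact_mod_cast h3
    rw [h6, ← Finset.sum_mul]
    ring
  have hE := h4 f hf
  have hDpos : (0 : ℝ) ≤ D := Nat.cast_nonneg _
  calc E f * D ≤ (∑ k ∈ Finset.range n, (A k : ℝ) * F k) * D := mul_le_mul_of_nonneg_right hE hDpos
    _ = ∑ k ∈ Finset.range n, (A k : ℝ) * D * F k := by
        rw [Finset.sum_mul]; exact Finset.sum_congr rfl fun k _ => by ring
    _ = T * ∑ k ∈ ks.toFinset, (ρ k : ℝ) * F k + ∑ k ∈ Finset.range n, e k * F k := hdecomp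
    _ ≤ T * ∑ k ∈ ks.toFinset, (ρ k : ℝ) * F k + ∑ k ∈ Finset.range n, e k * F 0 := by
        exact add_le_add_right (Finset.sum_le_sum heF) _
    _ = T * (((D : ℝ) - ∑ k ∈ ks.toFinset, (ρ k : ℝ)) * F 0 + ∑ k ∈ ks.toFinset, (ρ k : ℝ) * F k) := by
        rw [← Finset.sum_mul, hesum]; ring

end Round

section Star
variable {M W L n : ℕ}

lemma Φ_congr_on (K : SLaw 3) {g g' : (Fin 3 → ℝ) → ℝ} (h : ∀ x ∈ Simp 3, g x = g' x) :
    K.Φ g = K.Φ g' := by
  unfold SLaw.Φ
  refine tsum_congr fun o => ?_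
  rw [h _ (K.post_mem (by norm_num) o)]

lemma zsum_mul (g : Pt → ℝ) (c : ℝ) : ∀ (ps : List Pt) (ws : List ℕ),
    zsum g ps ws * c = zsum (fun p => g p * c) ps ws := by
  intro ps
  induction ps with
  | nil => intro ws; simp [zsum]
  | cons p ps ih =>
    intro ws
    cases ws with
    | nil => simp [zsum]
    | cons w ws =>
      simp only [zsum]
      rw [← ih ws]
      ring

lemma zsum_congr {g g' : Pt → ℝ} : ∀ (ps : List Pt) (ws : List ℕ), (∀ p ∈ ps, g p = g' p) →
    zsum g ps ws = zsum g' ps ws := by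
  intro ps
  induction ps with
  | nil => intro ws _; simp [zsum]
  | cons p ps ih =>
    intro ws h
    cases ws with
    | nil => simp [zsum]
    | cons w ws =>
      simp only [zsum]
      rw [h p List.mem_cons_self, ih ws fun q hq => h q (List.mem_cons_of_mem _ hq)]

/-- the product of two grid laws as a double sum -/
lemma prod_Φ {n₁ n₂ D : ℕ} {A B : List Pt} {wA wB : List ℕ} (hA : Good n₁ D A wA) (hB : Good n₂ D B wB)
    {f : (Fin 3 → ℝ) → ℝ} (hf : ConvexSym f) :
    ((gridLaw n₁ D A wA).prod (gridLaw n₂ D B wB)).Φ f * D * D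
      = zsum (fun x => zsum (fun l => Esig 3 f (toR n₁ x) (toR n₂ l)) B wB) A wA := by
  have h3 : (0 : ℕ) < 3 := by norm_num
  rw [SLaw.Φ_prod _ _ h3 hf.bdd]
  set g : (Fin 3 → ℝ) → ℝ := fun x => (gridLaw n₂ D B wB).Φ (fun x' => Esig 3 f x x') with hg
  have hsymg : ∀ σ : Equiv.Perm (Fin 3), ∀ y ∈ Simp 3, g (y ∘ σ) = g y := by
    intro σ y hy
    exact Φ_congr_on _ fun x' hx' => Esig_sym_left hf σ hy hx'
  have h1 : (gridLaw n₁ D A wA).Φ g * D = zsum (fun p => g (toR n₁ p)) A wA := gridLaw_Φ hA hsymg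
  have e0 : ∑' o, (gridLaw n₁ D A wA).mass o * (gridLaw n₂ D B wB).Φ (fun x' => Esig 3 f ((gridLaw n₁ D A wA).post o) x')
      = (gridLaw n₁ D A wA).Φ g := rfl
  rw [e0, h1, zsum_mul]
  refine zsum_congr A wA fun p hp => ?_
  have hx := toR_mem hA.1 (hA.2.2.1 p hp)
  exact gridLaw_Φ hB (hf.Esig h3 hx).sym

/-- the points of the slots -/
def ptsOf (M W : ℕ) (ks : List ℕ) : List Pt := ptS M W 0 :: ks.map (ptS M W)

lemma ptsOf_sum {ks' : List ℕ} (hk : ∀ k ∈ ks', Valid M W k) : ∀ p ∈ ptsOf M W ks', p.a + p.b + p.c = M := by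
  intro p hp
  have key : ∀ k, Valid M W k → (ptS M W k).a + (ptS M W k).b + (ptS M W k).c = M := fun k hkv => by
    unfold Valid at hkv
    show M - k / W - k % W + k / W + k % W = M
    omega
  simp only [ptsOf, List.mem_cons, List.mem_map] at hp
  rcases hp with rfl | ⟨k, hk', rfl⟩
  · exact key 0 (by simp [Valid])
  · exact key k (hk k hk')

/-- one convolution is dominated by the computed grid law -/
theorem star_step (hM : 0 < M) (hW : M < 3 * W) (hn : (M / 2 + 1) * W ≤ n) {n₁ n₂ D : ℕ} {A B : List Pt}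
    {wA wB : List ℕ} (hA : Good n₁ D A wA) (hB : Good n₂ D B wB) (hL : 2 * n₁ * n₂ * D * D < 2 ^ L)
    {ks : List ℕ} (hks : ks.Nodup) (hk : ∀ k ∈ ks, k < n ∧ Valid M W k) :
    Good M D (ptsOf M W ks) (starW L (2 * n₁ * n₂ * D * D) D (mkTab M W L A B) ks wA wB) ∧
      Dominated ((gridLaw n₁ D A wA).prod (gridLaw n₂ D B wB))
        (gridLaw M D (ptsOf M W ks) (starW L (2 * n₁ * n₂ * D * D) D (mkTab M W L A B) ks wA wB)) := by
  have hn₁ := hA.1
  have hn₂ := hB.1
  have hD := hA.2.1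
  have hT : 0 < 2 * n₁ * n₂ * D * D := by positivity
  have cov := Cov.tabSum (L := L) hM hW hn hn₁ hn₂ B wB hB.2.2.1 hB.2.2.2.1 A wA hA.2.2.1 hA.2.2.2.1
    (Cov.zero (M := M) (W := W) (L := L) (n := n))
  have hTe : 0 + 2 * n₁ * n₂ * wA.sum * wB.sum = 2 * n₁ * n₂ * D * D := by
    rw [hA.2.2.2.2, hB.2.2.2.2, zero_add]
  rw [hTe] at cov
  obtain ⟨h1, h2, h3⟩ := round_le (D := D) hM hT hL cov hks hk
  have hgood : Good M D (ptsOf M W ks) (starW L (2 * n₁ * n₂ * D * D) D (mkTab M W L A B) ks wA wB) := by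
    refine ⟨hM, hD, ptsOf_sum fun k hkk => (hk k hkk).2, ?_, h2⟩
    show (roundL _ _ _ _ _).length = _
    rw [h1]; simp [ptsOf]
  refine ⟨hgood, fun f hf => ?_⟩
  have h4 := h3 f hf
  have h5 := prod_Φ hA hB hf
  have h6 := gridLaw_Φ hgood (g := f) hf.sym
  have hDr : (0 : ℝ) < D := by positivity
  have hTr : (0 : ℝ) < ((2 * n₁ * n₂ * D * D : ℕ) : ℝ) := by exact_mod_cast hT
  rw [← h5] at h4
  have e : zsum (fun p => f (toR M p)) (ptS M W 0 :: ks.map (ptS M W)) (roundL L (2 * n₁ * n₂ * D * D) D (GridO.tabSum (mkTab M W L A B) wA wB 0) ks)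
      = (gridLaw M D (ptsOf M W ks) (starW L (2 * n₁ * n₂ * D * D) D (mkTab M W L A B) ks wA wB)).Φ f * D := h6.symm
  rw [e] at h4
  push_cast at h4 hTr
  have h7 : (2 * (n₁ : ℝ) * n₂ * D * D) * (((gridLaw n₁ D A wA).prod (gridLaw n₂ D B wB)).Φ f * D)
      ≤ (2 * (n₁ : ℝ) * n₂ * D * D) * ((gridLaw M D (ptsOf M W ks) (starW L (2 * n₁ * n₂ * D * D) D (mkTab M W L A B) ks wA wB)).Φ f * D) := by
    refine le_trans (le_of_eq ?_) h4
    ring
  have h8 := le_of_mul_le_mul_left h7 hTr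
  exact le_of_mul_le_mul_right h8 hDr

end Star

/-! ## One level -/

/-- the point `T_{-1/2} p` of the grid `2 N` -/
def tiltPt (N : ℕ) (p : Pt) : Pt := ⟨N - p.a, N - p.b, N - p.c⟩

/-- one level on weights -/
def levelT (L T1 T2 D : ℕ) (tabK tabR : List (List ℕ)) (ks ws : List ℕ) : List ℕ :=
  starW L T2 D tabR ks (starW L T1 D tabK ks ws ws) (starW L T1 D tabK ks ws ws)

/-- `k` levels -/
def levelsT (L T1 T2 D : ℕ) (tabK tabR : List (List ℕ)) (ks : List ℕ) : ℕ → List ℕ → List ℕ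
  | 0, ws => ws
  | k + 1, ws => levelsT L T1 T2 D tabK tabR ks k (levelT L T1 T2 D tabK tabR ks ws)

lemma eqL_eq : ∀ a b : List ℕ, eqL a b = true → a = b := by
  intro a
  induction a with
  | nil =>
    intro b h
    cases b with
    | nil => rfl
    | cons _ _ => simp [eqL] at h
  | cons x a ih =>
    intro b h
    cases b with
    | nil => simp [eqL] at h
    | cons y b =>
      simp only [eqL, Bool.and_eq_true] at h
      rw [Nat.eq_of_beq_eq_true h.1, ih b h.2]

section Level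
variable {N W L n D : ℕ} {ks : List ℕ}

lemma tilt_good {pts : List Pt} {ws : List ℕ} (h : Good N D pts ws) : Good (2 * N) D (pts.map (tiltPt N)) ws := by
  obtain ⟨h1, h2, h3, h4, h5⟩ := h
  refine ⟨by omega, h2, fun p hp => ?_, by simpa using h4, h5⟩
  obtain ⟨q, hq, rfl⟩ := List.mem_map.1 hp
  have := h3 q hq
  show N - q.a + (N - q.b) + (N - q.c) = 2 * N
  omega

lemma Tl_toR (hN : 0 < N) {p : Pt} (hp : p.a + p.b + p.c = N) :
    Tl 3 (-(1 / 2)) (toR N p) = toR (2 * N) (tiltPt N p) := by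
  have hN' : (N : ℝ) ≠ 0 := by positivity
  have key : ∀ a : ℕ, a ≤ N → -(1 / 2 : ℝ) * ((a : ℝ) / N) + (1 - -(1 / 2)) / (3 : ℕ)
      = ((N - a : ℕ) : ℝ) / ((2 * N : ℕ) : ℝ) := fun a ha => by
    rw [Nat.cast_sub ha]
    push_cast
    field_simp
    ring
  funext i
  revert i
  refine forall3 ?_ ?_ ?_
  · exact key p.a (by omega)
  · exact key p.b (by omega)
  · exact key p.c (by omega)

lemma tilt_dom {pts : List Pt} {ws : List ℕ} (h : Good N D pts ws)
    (hch : ∀ i j : Fin 3, 0 ≤ Crest.ProbabilityR.Broadcast.channel 3 (-(1 / 2)) i j) :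
    Dominated ((gridLaw N D pts ws).tilt (-(1 / 2)) hch) (gridLaw (2 * N) D (pts.map (tiltPt N)) ws) := by
  intro f hf
  have h3 : (0 : ℕ) < 3 := by norm_num
  have hT : ∀ x ∈ Simp 3, Tl 3 (-(1 / 2)) x ∈ Simp 3 := fun x hx => SLaw.Tl_mem h3 _ hch hx
  rw [SLaw.Φ_tilt _ h3 _ hch hf.bdd hT]
  have hc := hf.comp_Tl hT
  have e1 := gridLaw_Φ h (g := f ∘ Tl 3 (-(1 / 2))) hc.sym
  have e2 := gridLaw_Φ (tilt_good h) (g := f) hf.sym
  have hDr : (0 : ℝ) < D := by have := h.2.1; positivity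
  refine le_of_eq (mul_right_cancel₀ hDr.ne' ?_)
  rw [e1, e2]
  have hz : ∀ (ps : List Pt) (vs : List ℕ), (∀ p ∈ ps, p.a + p.b + p.c = N) →
      zsum (fun p => f (Tl 3 (-(1 / 2)) (toR N p))) ps vs
        = zsum (fun p => f (toR (2 * N) p)) (ps.map (tiltPt N)) vs := by
    intro ps
    induction ps with
    | nil => intro vs _; simp [zsum]
    | cons p ps ih =>
      intro vs hps
      cases vs with
      | nil => simp [zsum]
      | cons v vs =>
        simp only [zsum, List.map_cons, Function.comp]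
        rw [Tl_toR h.1 (hps p List.mem_cons_self), ih vs fun q hq => hps q (List.mem_cons_of_mem _ hq)]
  exact hz pts ws h.2.2.1

lemma Φ_prod_assoc (A B C : SLaw 3) (f : (Fin 3 → ℝ) → ℝ) :
    ((A.prod B).prod C).Φ f = (A.prod (B.prod C)).Φ f :=
  SLaw.Φ_congr_equiv (A.prod (B.prod C)) ((A.prod B).prod C)
    (Equiv.prodAssoc A.O B.O C.O).symm (fun o i => by
      obtain ⟨a, b, c⟩ := o
      show A.w a i * B.w b i * C.w c i = A.w a i * (B.w b i * C.w c i)
      ring) f

lemma pow_four_dom (K : SLaw 3) : Dominated (K.pow 4) ((K.prod K).prod (K.prod K)) := by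
  have h3 : (0 : ℕ) < 3 := by norm_num
  have h1 : Dominated (K.pow 1) K := fun f _ => le_of_eq (SLaw.Φ_pow_one K f)
  have h2 : Dominated (K.pow 2) (K.prod K) := Dominated.prod h3 h1 (Dominated.refl K)
  have h4 : Dominated (K.pow 4) ((K.pow 2).prod (K.prod K)) := fun f _ =>
    le_of_eq (Φ_prod_assoc (K.pow 2) K K f)
  exact h4.trans (Dominated.prod h3 h2 (Dominated.refl _))

/-- one level of the recursion at `b = 4`, `λ = -1/2` on grid laws -/
theorem level_step (hN : 0 < N) (hW : N < 3 * W) (hn : (N / 2 + 1) * W ≤ n)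
    (hL : 2 * (2 * N) * (2 * N) * D * D < 2 ^ L) (hks : ks.Nodup)
    (hk : ∀ k ∈ ks, k < n ∧ Valid N W k)
    (hch : ∀ i j : Fin 3, 0 ≤ Crest.ProbabilityR.Broadcast.channel 3 (-(1 / 2)) i j) {ws : List ℕ}
    (hG : Good N D (ptsOf N W ks) ws) :
    Good N D (ptsOf N W ks) (levelT L (2 * (2 * N) * (2 * N) * D * D) (2 * N * N * D * D) D
        (mkTab N W L ((ptsOf N W ks).map (tiltPt N)) ((ptsOf N W ks).map (tiltPt N)))
        (mkTab N W L (ptsOf N W ks) (ptsOf N W ks)) ks ws) ∧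
      Dominated ((((gridLaw N D (ptsOf N W ks) ws).tilt (-(1 / 2)) hch)).pow 4)
        (gridLaw N D (ptsOf N W ks) (levelT L (2 * (2 * N) * (2 * N) * D * D) (2 * N * N * D * D) D
        (mkTab N W L ((ptsOf N W ks).map (tiltPt N)) ((ptsOf N W ks).map (tiltPt N)))
        (mkTab N W L (ptsOf N W ks) (ptsOf N W ks)) ks ws)) := by
  have h3 : (0 : ℕ) < 3 := by norm_num
  have hK := tilt_good hG
  have hKd := tilt_dom hG hch
  obtain ⟨g2, d2⟩ := star_step (L := L) hN hW hn hK hK hL hks hk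
  have hL2 : 2 * N * N * D * D < 2 ^ L := by
    refine lt_of_le_of_lt ?_ hL
    have : 2 * N * N * D * D ≤ 2 * (2 * N) * (2 * N) * D * D := by
      have : 2 * (2 * N) * (2 * N) * D * D = 4 * (2 * N * N * D * D) := by ring
      omega
    exact this
  obtain ⟨g4, d4⟩ := star_step (L := L) hN hW hn g2 g2 hL2 hks hk
  refine ⟨g4, ?_⟩
  have a1 : Dominated (((gridLaw N D (ptsOf N W ks) ws).tilt (-(1 / 2)) hch).pow 4)
      ((gridLaw (2 * N) D ((ptsOf N W ks).map (tiltPt N)) ws).pow 4) := hKd.pow h3 4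
  have a2 := pow_four_dom (gridLaw (2 * N) D ((ptsOf N W ks).map (tiltPt N)) ws)
  have a3 := Dominated.prod h3 d2 d2
  exact (a1.trans a2).trans (a3.trans d4)

end Level

end Crest.Agent.Lib.Bc.GridO
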