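import Crest.Agent.Lib.Bc.GridB56
import Crest.Agent.Lib.Bc.GwThin
/-!
# Row 163, `q = 3`, `lam < 0`: the Poisson tree on the grid

One level of the Poisson recursion on grid laws, with a fast kernel form: all the convolutions
of one level use the same table and the same weights, so the row vector `R_x = ∑_l v_l C(x, l)` is
computed once, and each convolution is one scalar product.

`InvP`: the level `m` of the Poisson model is dominated by the grid law.
-/
open scoped BigOperators
open Crest.ProbabilityR.Broadcast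
namespace Crest.Agent.Lib.Bc.GridO

/-! ## A mixture in digits -/

/-- the weights in digits -/
def packW (L : ℕ) : List ℕ → List ℕ → ℕ
  | k :: ks, w :: ws => w * 2 ^ (L * k) + packW L ks ws
  | _, _ => 0

section CovP
variable {M W L n : ℕ}

lemma Cov.slot {k : ℕ} (hk : k < n) (hv : Valid M W k) (m : ℕ) :
    Cov M W L n (m * 2 ^ (L * k)) m (fun f => m * f (toR M (ptS M W k))) := by
  refine ⟨fun j => if j = k then m else 0, ?_, ?_, ?_, ?_⟩
  · rw [Finset.sum_eq_single k]
    · simp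
    · intro b _ hb; simp [hb]
    · intro h; exact absurd (Finset.mem_range.2 hk) h
  · intro j _ hA
    by_cases h : j = k
    · rw [h]; exact hv
    · simp [h] at hA
  · rw [Finset.sum_ite_eq' (Finset.range n) k]; simp [Finset.mem_range.2 hk]
  · intro f _
    rw [Finset.sum_eq_single k]
    · simp
    · intro b _ hb; simp [hb]
    · intro h; exact absurd (Finset.mem_range.2 hk) h

lemma Cov.packW : ∀ (ks ws : List ℕ), (∀ k ∈ ks, k < n ∧ Valid M W k) → ws.length = ks.length →
    Cov M W L n (packW L ks ws) ws.sum (fun f => zsum (fun p => f (toR M p)) (ks.map (ptS M W)) ws) := by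
  intro ks
  induction ks with
  | nil =>
    intro ws _ h
    have : ws = [] := List.length_eq_zero_iff.1 (by simpa using h)
    subst this
    simpa [GridO.packW, zsum] using Cov.zero
  | cons k ks ih =>
    intro ws hk h
    cases ws with
    | nil => simp at h
    | cons w ws =>
      have h1 := Cov.slot (M := M) (W := W) (L := L) (hk k List.mem_cons_self).1 (hk k List.mem_cons_self).2 w
      have h2 := ih ws (fun j hj => hk j (List.mem_cons_of_mem _ hj)) (by simpa using h)
      have h3 := h1.add h2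
      simpa [GridO.packW, zsum, List.sum_cons] using h3

end CovP

/-! ## One level, specification -/

/-- the accumulator of the mixture of the convolution powers -/
def accS (L T D : ℕ) (tab : List (List ℕ)) (ks ws : List ℕ) : List ℕ → List ℕ → ℕ → ℕ
  | [], _, acc => acc
  | m :: ms, G, acc => accS L T D tab ks ws ms (starW L T D tab ks G ws) (acc + m * packW L (0 :: ks) G)

/-- one level of the Poisson recursion on weights -/
def levelPT (L T D E : ℕ) (tab : List (List ℕ)) (ks g0 ms ws : List ℕ) : List ℕ :=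
  roundL L (E * D) D (accS L T D tab ks ws ms g0 ((E - ms.sum) * D)) ks

lemma pois_tail {p x : ℕ → ℝ} (hp : ∀ c, 0 ≤ p c) (hp1 : HasSum p 1) {V B : ℝ} (hx : ∀ c, x c ≤ V)
    (hB : ∀ c, |x c| ≤ B) (C : ℕ) :
    ∑' c, p c * x c ≤ V + ∑ i ∈ Finset.range C, p i * (x i - V) := by
  have hs1 : Summable fun c => p c * x c := by
    refine Summable.of_norm_bounded (g := fun c => p c * B) (hp1.summable.mul_right B) fun c => ?_
    rw [Real.norm_eq_abs, abs_mul, abs_of_nonneg (hp c)]
    exact mul_le_mul_of_nonneg_left (hB c) (hp c)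
  have hs2 : Summable fun c => p c * V := hp1.summable.mul_right V
  have hs3 : Summable fun c => -(p c * (x c - V)) := by
    have : (fun c => -(p c * (x c - V))) = fun c => p c * V - p c * x c := by
      funext c; ring
    rw [this]
    exact hs2.sub hs1
  have e1 : ∑' c, p c * V = V := by
    rw [tsum_mul_right, hp1.tsum_eq, one_mul]
  have e2 : ∑' c, -(p c * (x c - V)) = V - ∑' c, p c * x c := by
    have : (fun c => -(p c * (x c - V))) = fun c => p c * V - p c * x c := by
      funext c; ring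
    rw [this, hs2.tsum_sub hs1, e1]
  have h3 := hs3.sum_le_tsum (Finset.range C) (fun c _ => by
    have := mul_nonneg (hp c) (sub_nonneg.2 (hx c))
    nlinarith)
  rw [e2, Finset.sum_neg_distrib] at h3
  linarith

section Level
variable {N W L n D u v E : ℕ} {ks : List ℕ}

/-- the contribution of the mixture -/
noncomputable def valL (N W L D u v : ℕ) (ks ws : List ℕ) (f : (Fin 3 → ℝ) → ℝ) : List ℕ → List ℕ → ℝ
  | [], _ => 0
  | m :: ms, G => m * ((gridLaw N D (ptsOf N W ks) G).Φ f * D)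
      + valL N W L D u v ks ws f ms
        (starW L (2 * N * (3 * v * N) * D * D) D
          (mkTab N W L (ptsOf N W ks) ((ptsOf N W ks).map (tiltPtQ u v N))) ks G ws)

lemma Cov_accS (hN : 0 < N) (hW : N < 3 * W) (hn : (N / 2 + 1) * W ≤ n)
    (hL : 2 * N * (3 * v * N) * D * D < 2 ^ L) (hks : ks.Nodup)
    (hk : ∀ k ∈ ks, k < n ∧ Valid N W k) {ws : List ℕ}
    (hK : Good (3 * v * N) D ((ptsOf N W ks).map (tiltPtQ u v N)) ws) :
    ∀ (ms G : List ℕ) (acc T0 : ℕ) (E0 : ((Fin 3 → ℝ) → ℝ) → ℝ), Good N D (ptsOf N W ks) G →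
      Cov N W L n acc T0 E0 →
      Cov N W L n
        (accS L (2 * N * (3 * v * N) * D * D) D
          (mkTab N W L (ptsOf N W ks) ((ptsOf N W ks).map (tiltPtQ u v N))) ks ws ms G acc)
        (T0 + ms.sum * D) (fun f => E0 f + valL N W L D u v ks ws f ms G) := by
  have hW0 : 0 < W := by omega
  have hn0 : 0 < n := lt_of_lt_of_le (Nat.mul_pos (Nat.succ_pos _) hW0) hn
  have hk0 : ∀ k ∈ (0 :: ks), k < n ∧ Valid N W k := by
    intro k hk'
    rcases List.mem_cons.1 hk' with rfl | h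
    · exact ⟨hn0, by simp [Valid]⟩
    · exact hk k h
  intro ms
  induction ms with
  | nil =>
    intro G acc T0 E0 _ h
    simpa [accS, valL] using h
  | cons m ms ih =>
    intro G acc T0 E0 hG h
    obtain ⟨g1, _⟩ := star_step (L := L) hN hW hn hG hK hL hks hk
    have hc : Cov N W L n (packW L (0 :: ks) G) D (fun f => (gridLaw N D (ptsOf N W ks) G).Φ f * D) := by
      have := Cov.packW (M := N) (W := W) (L := L) (n := n) (0 :: ks) G hk0 (by
        have := hG.2.2.2.1
        simpa [ptsOf] using this)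
      rw [hG.2.2.2.2] at this
      refine this.mono fun f hf => le_of_eq ?_
      exact gridLaw_Φ hG hf.sym
    have hc2 := h.add (hc.mul m)
    have := ih _ _ _ _ g1 hc2
    have e : T0 + m * D + ms.sum * D = T0 + (m :: ms).sum * D := by
      rw [List.sum_cons]; ring
    rw [e] at this
    refine this.mono fun f _ => le_of_eq ?_
    simp only [valL]
    ring

/-- the mass moving inequality, along the chain -/
lemma valL_ge (hN : 0 < N) (hW : N < 3 * W) (hn : (N / 2 + 1) * W ≤ n)
    (hL : 2 * N * (3 * v * N) * D * D < 2 ^ L) (hks : ks.Nodup)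
    (hk : ∀ k ∈ ks, k < n ∧ Valid N W k) {ws : List ℕ}
    (hK : Good (3 * v * N) D ((ptsOf N W ks).map (tiltPtQ u v N)) ws) (hD : 0 < D) (hE : 0 < E)
    {K0 : SLaw 3} (hK0 : Dominated K0 (gridLaw (3 * v * N) D ((ptsOf N W ks).map (tiltPtQ u v N)) ws))
    {p : ℕ → ℝ} (hp : ∀ c, 0 ≤ p c)
    {f : (Fin 3 → ℝ) → ℝ} (hf : ConvexSym f) :
    ∀ (ms G : List ℕ) (c : ℕ), Good N D (ptsOf N W ks) G → Dominated (K0.pow c) (gridLaw N D (ptsOf N W ks) G) →
      (∀ i, i < ms.length → ((ms.getD i 0 : ℕ) : ℝ) / E ≤ p (c + i)) →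
      ∑ i ∈ Finset.range ms.length, p (c + i) * ((K0.pow (c + i)).Φ f - f (fun j => if j = 0 then 1 else 0))
        ≤ (valL N W L D u v ks ws f ms G - (ms.sum : ℝ) * D * f (fun j => if j = 0 then 1 else 0)) / (E * D) := by
  have h3 : (0 : ℕ) < 3 := by norm_num
  have hDr : (0 : ℝ) < D := by exact_mod_cast hD
  have hEr : (0 : ℝ) < E := by exact_mod_cast hE
  intro ms
  induction ms with
  | nil =>
    intro G c _ _ _
    simp [valL]
  | cons m ms ih =>
    intro G c hG hdom hq
    obtain ⟨g1, d1⟩ := star_step (L := L) hN hW hn hG hK hL hks hk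
    have hdom' : Dominated (K0.pow (c + 1)) (gridLaw N D (ptsOf N W ks)
        (starW L (2 * N * (3 * v * N) * D * D) D
          (mkTab N W L (ptsOf N W ks) ((ptsOf N W ks).map (tiltPtQ u v N))) ks G ws)) :=
      (Dominated.prod h3 hdom hK0).trans d1
    have hq' : ∀ i, i < ms.length → ((ms.getD i 0 : ℕ) : ℝ) / E ≤ p (c + 1 + i) := by
      intro i hi
      have := hq (i + 1) (by simpa using hi)
      simpa [show c + 1 + i = c + (i + 1) by omega] using this
    have h1 := ih _ (c + 1) g1 hdom' hq'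
    have hm : (m : ℝ) / E ≤ p c := by
      have := hq 0 (by simp)
      simpa using this
    set V := f (fun j => if j = 0 then 1 else 0) with hV
    have hy : (gridLaw N D (ptsOf N W ks) G).Φ f ≤ V := SLaw.Φ_le_vertex _ h3 hf 0
    have hx : (K0.pow c).Φ f ≤ (gridLaw N D (ptsOf N W ks) G).Φ f := hdom f hf
    have step : p c * ((K0.pow c).Φ f - V)
        ≤ (m : ℝ) / E * ((gridLaw N D (ptsOf N W ks) G).Φ f - V) := by
      have a1 : p c * ((K0.pow c).Φ f - V) ≤ p c * ((gridLaw N D (ptsOf N W ks) G).Φ f - V) :=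
        mul_le_mul_of_nonneg_left (by linarith) (hp c)
      have a2 : p c * ((gridLaw N D (ptsOf N W ks) G).Φ f - V)
          ≤ (m : ℝ) / E * ((gridLaw N D (ptsOf N W ks) G).Φ f - V) :=
        mul_le_mul_of_nonpos_right hm (by linarith)
      exact a1.trans a2
    have hlen : (m :: ms).length = ms.length + 1 := rfl
    rw [hlen, Finset.sum_range_succ']
    have e1 : ∑ i ∈ Finset.range ms.length, p (c + (i + 1)) * ((K0.pow (c + (i + 1))).Φ f - V)
        = ∑ i ∈ Finset.range ms.length, p (c + 1 + i) * ((K0.pow (c + 1 + i)).Φ f - V) :=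
      Finset.sum_congr rfl fun i _ => by rw [show c + (i + 1) = c + 1 + i by omega]
    rw [e1]
    simp only [Nat.add_zero]
    have e2 : (valL N W L D u v ks ws f (m :: ms) G - (((m :: ms).sum : ℕ) : ℝ) * D * V) / (E * D)
        = (valL N W L D u v ks ws f ms
            (starW L (2 * N * (3 * v * N) * D * D) D
              (mkTab N W L (ptsOf N W ks) ((ptsOf N W ks).map (tiltPtQ u v N))) ks G ws)
            - (ms.sum : ℝ) * D * V) / (E * D)
          + (m : ℝ) / E * ((gridLaw N D (ptsOf N W ks) G).Φ f - V) := by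
      simp only [valL, List.sum_cons]
      push_cast
      field_simp
      ring
    rw [e2]
    exact add_le_add h1 step

/-- one level of the recursion -/
theorem pois_level (hN : 0 < N) (hW : N < 3 * W) (hn : (N / 2 + 1) * W ≤ n) (hv : 0 < v) (h2 : 2 * u ≤ v)
    (hL : 2 * N * (3 * v * N) * D * D < 2 ^ L) (hLE : E * D < 2 ^ L) (hks : ks.Nodup)
    (hk : ∀ k ∈ ks, k < n ∧ Valid N W k) (hE : 0 < E)
    (hch : ∀ i j : Fin 3, 0 ≤ channel 3 (-((u : ℝ) / v)) i j) {ws g0 ms : List ℕ}
    (hG : Good N D (ptsOf N W ks) ws) (hg0 : Good N D (ptsOf N W ks) g0) (hsum : ms.sum ≤ E)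
    {M0 : SLaw 3} (hM0 : Dominated M0 (gridLaw N D (ptsOf N W ks) ws)) {d : ℝ} (hd : 0 ≤ d)
    (hq : ∀ i, i < ms.length → ((ms.getD i 0 : ℕ) : ℝ) / E ≤ Real.exp (-d) * d ^ i / Nat.factorial i) :
    Good N D (ptsOf N W ks) (levelPT L (2 * N * (3 * v * N) * D * D) D E
        (mkTab N W L (ptsOf N W ks) ((ptsOf N W ks).map (tiltPtQ u v N))) ks g0 ms ws) ∧
      ∀ f, ConvexSym f →
        ∑' c : ℕ, (Real.exp (-d) * d ^ c / Nat.factorial c) * ((M0.tilt (-((u : ℝ) / v)) hch).pow c).Φ f
          ≤ (gridLaw N D (ptsOf N W ks) (levelPT L (2 * N * (3 * v * N) * D * D) D E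
              (mkTab N W L (ptsOf N W ks) ((ptsOf N W ks).map (tiltPtQ u v N))) ks g0 ms ws)).Φ f := by
  have h3 : (0 : ℕ) < 3 := by norm_num
  have hW0 : 0 < W := by omega
  have hn0 : 0 < n := lt_of_lt_of_le (Nat.mul_pos (Nat.succ_pos _) hW0) hn
  have hD : 0 < D := hG.2.1
  have hDr : (0 : ℝ) < D := by exact_mod_cast hD
  have hEr : (0 : ℝ) < E := by exact_mod_cast hE
  have hK := tiltQ_good hv h2 hG
  have hKd := tiltQ_dom hv h2 hG hch
  set T := 2 * N * (3 * v * N) * D * D with hT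
  set tab := mkTab N W L (ptsOf N W ks) ((ptsOf N W ks).map (tiltPtQ u v N)) with htab
  -- the start of the accumulator: the deficit goes to the vertex
  have hc0 : Cov N W L n ((E - ms.sum) * D) ((E - ms.sum) * D)
      (fun f => (((E - ms.sum) * D : ℕ) : ℝ) * f (toR N (ptS N W 0))) := by
    have := Cov.slot (M := N) (W := W) (L := L) hn0 (by simp [Valid] : Valid N W 0) ((E - ms.sum) * D)
    simpa using this
  have hcov := Cov_accS (L := L) (u := u) (v := v) hN hW hn hL hks hk hK ms g0 _ _ _ hg0 hc0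
  have hTT : (E - ms.sum) * D + ms.sum * D = E * D := by
    rw [← Nat.add_mul, Nat.sub_add_cancel hsum]
  rw [hTT] at hcov
  have hT0 : 0 < E * D := Nat.mul_pos hE hD
  obtain ⟨r1, r2, r3⟩ := round_le (D := D) hN hT0 hLE hcov hks hk
  have hgood : Good N D (ptsOf N W ks) (levelPT L T D E tab ks g0 ms ws) := by
    refine ⟨hN, hD, ptsOf_sum fun k hkk => (hk k hkk).2, ?_, r2⟩
    show (roundL _ _ _ _ _).length = _
    rw [r1]; simp [ptsOf]
  refine ⟨hgood, fun f hf => ?_⟩
  set K0 := M0.tilt (-((u : ℝ) / v)) hch with hK0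
  have hKK : Dominated K0 (gridLaw (3 * v * N) D ((ptsOf N W ks).map (tiltPtQ u v N)) ws) :=
    (hM0.tilt h3 _ hch).trans hKd
  set V := f (fun j => if j = 0 then 1 else 0) with hV
  set p : ℕ → ℝ := fun c => Real.exp (-d) * d ^ c / Nat.factorial c with hp
  obtain ⟨C, hC⟩ := hf.bdd
  have hx : ∀ c, (K0.pow c).Φ f ≤ V := fun c => SLaw.Φ_le_vertex _ h3 hf 0
  have hb : ∀ c, |(K0.pow c).Φ f| ≤ C := fun c => (K0.pow c).abs_Φ_le h3 hC
  have a1 := pois_tail (p := p) (x := fun c => (K0.pow c).Φ f) (pois_nonneg hd) (pois_hasSum d) hx hb ms.length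
  -- the start of the chain
  have hstart : Dominated (K0.pow 0) (gridLaw N D (ptsOf N W ks) g0) := by
    intro f' hf'
    rw [SLaw.Φ_pow_zero _ h3]
    have := (Dominated.pow_mono h3 (gridLaw N D (ptsOf N W ks) g0) (Nat.zero_le 1)) f' hf'
    rw [SLaw.Φ_pow_zero _ h3, SLaw.Φ_pow_one] at this
    exact this
  have a2 := valL_ge (L := L) (E := E) hN hW hn hL hks hk hK hD hE hKK (pois_nonneg hd) hf ms g0 0 hg0 hstart
    (fun i hi => by simpa using hq i hi)
  simp only [Nat.zero_add] at a2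
  have e3 := gridLaw_Φ hgood (g := f) hf.sym
  have r4 := r3 f hf
  have e4 : zsum (fun p => f (toR N p)) (ptS N W 0 :: ks.map (ptS N W))
      (roundL L (E * D) D (accS L T D tab ks ws ms g0 ((E - ms.sum) * D)) ks)
      = (gridLaw N D (ptsOf N W ks) (levelPT L T D E tab ks g0 ms ws)).Φ f * D := e3.symm
  rw [e4] at r4
  have e5 : toR N (ptS N W 0) = fun j => if j = 0 then 1 else 0 := toR_ptS_zero hN
  rw [e5] at r4
  set Φn := (gridLaw N D (ptsOf N W ks) (levelPT L T D E tab ks g0 ms ws)).Φ f with hΦn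
  set vl := valL N W L D u v ks ws f ms g0 with hvl
  have hcast : (((E - ms.sum) * D : ℕ) : ℝ) = ((E : ℝ) - (ms.sum : ℝ)) * D := by
    rw [Nat.cast_mul, Nat.cast_sub hsum]
  rw [hcast, Nat.cast_mul E D] at r4
  -- assemble
  have r5 : ((E : ℝ) - ms.sum) * D * V + vl ≤ E * D * Φn := by
    have : (((E : ℝ) - ms.sum) * D * V + vl) * D ≤ (E * D * Φn) * D := by
      refine r4.trans (le_of_eq ?_)
      ring
    exact le_of_mul_le_mul_right this hDr
  have hED : (0 : ℝ) < E * D := by positivity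
  have r6 : V + (vl - (ms.sum : ℝ) * D * V) / (E * D) ≤ Φn := by
    have : V + (vl - (ms.sum : ℝ) * D * V) / (E * D) = (((E : ℝ) - ms.sum) * D * V + vl) / (E * D) := by
      field_simp
      ring
    rw [this, div_le_iff₀ hED]
    linarith
  calc _ ≤ V + ∑ i ∈ Finset.range ms.length, p i * ((K0.pow i).Φ f - V) := a1
    _ ≤ V + (vl - (ms.sum : ℝ) * D * V) / (E * D) := by linarith
    _ ≤ Φn := r6

end Level

/-! ## The chain -/

/-- the invariant: the level `m` of the Poisson model is dominated by the grid law -/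
def InvP (lam d : ℝ) (hd : 0 ≤ d) (hch : ∀ i j : Fin 3, 0 ≤ channel 3 lam i j) (N W D : ℕ) (ks : List ℕ) (m : ℕ)
    (ws : List ℕ) : Prop :=
  Good N D (ptsOf N W ks) ws ∧
    Dominated (gwSL 3 lam d m hd (by norm_num) hch) (gridLaw N D (ptsOf N W ks) ws)

/-- the data of a Poisson orbit -/
structure SetupP (N W L n D u v E : ℕ) (ks g0 ms : List ℕ) (d : ℝ) : Prop where
  hN : 0 < N
  hW : N < 3 * W
  hn : (N / 2 + 1) * W ≤ n
  hv : 0 < v
  h2 : 2 * u ≤ v
  hL : 2 * N * (3 * v * N) * D * D < 2 ^ L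
  hLE : E * D < 2 ^ L
  hD : 0 < D
  hE : 0 < E
  hks : ks.Nodup
  hk : ∀ k ∈ ks, k < n ∧ Valid N W k
  hg0 : Good N D (ptsOf N W ks) g0
  hsum : ms.sum ≤ E
  hd : 0 ≤ d
  hq : ∀ i, i < ms.length → ((ms.getD i 0 : ℕ) : ℝ) / E ≤ Real.exp (-d) * d ^ i / Nat.factorial i

section Chain
variable {N W L n D u v E : ℕ} {ks g0 ms : List ℕ} {d : ℝ} {hd : 0 ≤ d}
  {hch : ∀ i j : Fin 3, 0 ≤ channel 3 (-((u : ℝ) / v)) i j}

theorem InvP.zero (S : SetupP N W L n D u v E ks g0 ms d) :
    InvP (-((u : ℝ) / v)) d hd hch N W D ks 0 (D :: List.replicate ks.length 0) := by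
  have hk' : ∀ k ∈ ks, Valid N W k := fun k hk => (S.hk k hk).2
  refine ⟨good_start S.hN S.hD hk', ?_⟩
  intro f hf
  have hg := good_start (ks := ks) S.hN S.hD hk'
  have e := gridLaw_Φ hg (g := f) hf.sym
  have hDr : (0 : ℝ) < D := by exact_mod_cast S.hD
  rw [gw_zero_Φ _ d hd (by norm_num) hch hf (0 : Fin 3)]
  have e2 : zsum (fun p => f (toR N p)) (ptsOf N W ks) (D :: List.replicate ks.length 0)
      = (D : ℝ) * f (fun j => if j = 0 then 1 else 0) := by
    simp only [ptsOf, zsum]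
    rw [zsum_replicate_zero, toR_ptS_zero S.hN, add_zero]
  rw [e2] at e
  refine le_of_eq (mul_right_cancel₀ hDr.ne' ?_)
  rw [e]
  ring

/-- one level, specification -/
def levP (N W L D u v E : ℕ) (ks g0 ms ws : List ℕ) : List ℕ :=
  levelPT L (2 * N * (3 * v * N) * D * D) D E
    (mkTab N W L (ptsOf N W ks) ((ptsOf N W ks).map (tiltPtQ u v N))) ks g0 ms ws

theorem InvP.step (S : SetupP N W L n D u v E ks g0 ms d) {m : ℕ} {ws : List ℕ}
    (h : InvP (-((u : ℝ) / v)) d hd hch N W D ks m ws) :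
    InvP (-((u : ℝ) / v)) d hd hch N W D ks (m + 1) (levP N W L D u v E ks g0 ms ws) := by
  obtain ⟨hG, hdom⟩ := h
  obtain ⟨g, e⟩ := pois_level (L := L) (E := E) S.hN S.hW S.hn S.hv S.h2 S.hL S.hLE S.hks S.hk S.hE hch hG S.hg0
    S.hsum hdom S.hd S.hq
  refine ⟨g, fun f hf => ?_⟩
  rw [gwSL_succ _ d m hd (by norm_num) hch hf.bdd]
  exact e f hf

end Chain

/-! ## The fast form -/

/-- `rowF`, skipping the zero weights (the terms `acc + 0 * C` would all have the same hash in the kernel) -/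
noncomputable def rowZ (row : List ℕ) : List ℕ → ℕ → ℕ :=
  List.rec (motive := fun _ => List ℕ → ℕ → ℕ) (fun _ acc => acc)
    (fun C _ ih ws acc =>
      List.rec (motive := fun _ => ℕ) acc
        (fun w ws' _ => Bool.rec (app (Nat.add acc (Nat.mul w C)) fun a => ih ws' a) (ih ws' acc)
          (Nat.beq w (nat_lit 0))) ws) row

lemma rowZ_eq : ∀ (row ws : List ℕ) (acc : ℕ), rowZ row ws acc = rowF row ws acc := by
  intro row
  induction row with
  | nil =>
    intro ws acc
    cases ws <;> rfl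
  | cons C cs ih =>
    intro ws acc
    cases ws with
    | nil => rfl
    | cons w ws =>
      by_cases h : w = 0
      · subst h
        show rowZ cs ws acc = rowF cs ws (acc + 0 * C)
        rw [ih, Nat.zero_mul, Nat.add_zero]
      · have hb : Nat.beq w 0 = false := by
          cases w with
          | zero => exact absurd rfl h
          | succ w => rfl
        show (Bool.rec (rowZ cs ws (acc + w * C)) (rowZ cs ws acc) (Nat.beq w 0) : ℕ) = rowF cs ws (acc + w * C)
        rw [hb]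
        exact ih _ _

noncomputable def packF (L : ℕ) : List ℕ → List ℕ → ℕ :=
  fun ks => List.rec (motive := fun _ => List ℕ → ℕ) (fun _ => nat_lit 0)
    (fun k _ ih ws => List.rec (motive := fun _ => ℕ) (nat_lit 0)
      (fun w ws' _ => Nat.add (Nat.shiftLeft w (Nat.mul L k)) (ih ws')) ws) ks

noncomputable def accF (L B T D : ℕ) (R ks slots : List ℕ) : List ℕ → List ℕ → ℕ → ℕ :=
  fun ms => List.rec (motive := fun _ => List ℕ → ℕ → ℕ) (fun _ acc => acc)
    (fun m _ ih G acc => app (Nat.add acc (Nat.mul m (packF L slots G))) fun a =>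
      ih (app (rowZ R G (nat_lit 0)) fun b => roundF L B T D b ks) a) ms

noncomputable def levelPF (L B T TE D : ℕ) (tab : List (List ℕ)) (ks slots g0 ms : List ℕ) (dfc : ℕ) (ws : List ℕ) :
    List ℕ :=
  (fun R => app (accF L B T D R ks slots ms g0 dfc) fun acc => roundF L B TE D acc ks)
    (mapN (fun r => rowZ r ws (nat_lit 0)) tab)

noncomputable def levelsPF (L B T TE D : ℕ) (tab : List (List ℕ)) (ks slots g0 ms : List ℕ) (dfc : ℕ) (k : ℕ) :
    List ℕ → List ℕ :=
  Nat.rec (motive := fun _ => List ℕ → List ℕ) (fun ws => ws)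
    (fun _ ih ws => ih (levelPF L B T TE D tab ks slots g0 ms dfc ws)) k

lemma packF_eq (L : ℕ) : ∀ ks ws : List ℕ, packF L ks ws = packW L ks ws := by
  intro ks
  induction ks with
  | nil => intro ws; rfl
  | cons k ks ih =>
    intro ws
    cases ws with
    | nil => rfl
    | cons w ws =>
      show Nat.shiftLeft w (L * k) + packF L ks ws = _
      rw [ih, show Nat.shiftLeft w (L * k) = w * 2 ^ (L * k) from Nat.shiftLeft_eq _ _]
      rfl

/-- the row vector: the double sum is a scalar product -/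
lemma rowF_rowVec : ∀ (tab : List (List ℕ)) (G wB : List ℕ) (acc : ℕ),
    rowF (mapN (fun r => rowF r wB (nat_lit 0)) tab) G acc = tabF tab G wB acc := by
  intro tab
  induction tab with
  | nil =>
    intro G wB acc
    cases G <;> rfl
  | cons r rs ih =>
    intro G wB acc
    cases G with
    | nil => rfl
    | cons w G =>
      show rowF (mapN (fun r => rowF r wB (nat_lit 0)) rs) G (acc + w * rowF r wB (nat_lit 0)) =
        tabF rs G wB (acc + w * rowF r wB (nat_lit 0))
      exact ih _ _ _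

lemma mapN_rowZ (tab : List (List ℕ)) (ws : List ℕ) :
    mapN (fun r => rowZ r ws (nat_lit 0)) tab = mapN (fun r => rowF r ws (nat_lit 0)) tab := by
  rw [mapN_eq, mapN_eq]
  exact List.map_congr_left fun r _ => rowZ_eq r ws _

lemma roundF_eq (L T D acc : ℕ) (ks : List ℕ) : roundF L (2 ^ L) T D acc ks = roundL L T D acc ks := by
  unfold roundF roundL
  simp only [mapN_eq]
  show (D - sumF _) :: _ = _
  rw [sumF_eq]
  rfl

lemma accF_eq (L T D : ℕ) (tab : List (List ℕ)) (ks ws : List ℕ) :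
    ∀ (ms G : List ℕ) (acc : ℕ),
      accF L (2 ^ L) T D (mapN (fun r => rowZ r ws (nat_lit 0)) tab) ks (0 :: ks) ms G acc
        = accS L T D tab ks ws ms G acc := by
  intro ms
  induction ms with
  | nil => intro G acc; rfl
  | cons m ms ih =>
    intro G acc
    show accF L (2 ^ L) T D (mapN (fun r => rowZ r ws (nat_lit 0)) tab) ks (0 :: ks) ms
      (roundF L (2 ^ L) T D (rowZ (mapN (fun r => rowZ r ws (nat_lit 0)) tab) G 0) ks)
      (acc + m * packF L (0 :: ks) G) = _
    rw [ih, rowZ_eq, mapN_rowZ, rowF_rowVec, packF_eq, tabF_eq, roundF_eq]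
    rfl

lemma levelPF_eq (L T D E : ℕ) (tab : List (List ℕ)) (ks g0 ms ws : List ℕ) :
    levelPF L (2 ^ L) T (E * D) D tab ks (0 :: ks) g0 ms ((E - ms.sum) * D) ws
      = levelPT L T D E tab ks g0 ms ws := by
  show roundF L (2 ^ L) (E * D) D
      (accF L (2 ^ L) T D (mapN (fun r => rowZ r ws (nat_lit 0)) tab) ks (0 :: ks) ms g0 ((E - ms.sum) * D)) ks = _
  rw [accF_eq, roundF_eq]
  rfl

section Check
variable {N W L n D u v E : ℕ} {ks g0 ms : List ℕ} {d : ℝ} {hd : 0 ≤ d}
  {hch : ∀ i j : Fin 3, 0 ≤ channel 3 (-((u : ℝ) / v)) i j}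

theorem InvP.check (S : SetupP N W L n D u v E ks g0 ms d) {P K : List Pt} (hP : P = ptsOf N W ks)
    (hK : K = P.map (tiltPtQ u v N)) {B T TE dfc : ℕ} (hB : B = 2 ^ L)
    (hT : T = 2 * N * (3 * v * N) * D * D) (hTE : TE = E * D) (hdfc : dfc = (E - ms.sum) * D)
    {m k : ℕ} {ws ws' : List ℕ}
    (h : InvP (-((u : ℝ) / v)) d hd hch N W D ks m ws)
    (hc : eqF (levelsPF L B T TE D (mkTabF N W L P K) ks (0 :: ks) g0 ms dfc k ws) ws' = true) :
    InvP (-((u : ℝ) / v)) d hd hch N W D ks (m + k) ws' := by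
  subst hP hK hB hT hTE hdfc
  have e := eqF_eq _ _ hc
  subst e
  clear hc
  rw [mkTabF_eq]
  induction k generalizing m ws with
  | zero => exact h
  | succ k ih =>
    have := ih (m := m + 1) (ws := levP N W L D u v E ks g0 ms ws) (InvP.step S h)
    rw [show m + (k + 1) = m + 1 + k by omega]
    have e : levelPF L (2 ^ L) _ (E * D) D _ ks (0 :: ks) g0 ms ((E - ms.sum) * D) ws = levP N W L D u v E ks g0 ms ws :=
      levelPF_eq _ _ _ _ _ _ _ _ _
    show InvP _ _ _ _ _ _ _ _ _ (levelsPF L (2 ^ L) _ (E * D) D _ ks (0 :: ks) g0 ms ((E - ms.sum) * D) k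
      (levelPF L (2 ^ L) _ (E * D) D _ ks (0 :: ks) g0 ms ((E - ms.sum) * D) ws))
    rw [e]
    exact this

end Check

/-! ## The Poisson weights -/

/-- `en / ed ≤ exp (-(a / b))`: a comparison of natural numbers, from `exp 1 < 2.7182818286` -/
lemma exp_neg_ge {a b en ed : ℕ} (hb : 0 < b) (hed : 0 < ed)
    (hchk : en ^ b * 27182818286 ^ a ≤ ed ^ b * 10000000000 ^ a) :
    (en : ℝ) / ed ≤ Real.exp (-((a : ℝ) / b)) := by
  have hbr : (b : ℝ) ≠ 0 := by positivity
  have hedr : (0 : ℝ) < ed := by exact_mod_cast hed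
  set x := Real.exp ((a : ℝ) / b) with hx
  have hx0 : 0 < x := Real.exp_pos _
  have hxb : x ^ b = Real.exp 1 ^ a := by
    rw [hx, ← Real.exp_nat_mul, ← Real.exp_nat_mul]
    congr 1
    field_simp
  have hU : Real.exp 1 ^ a ≤ ((27182818286 : ℝ) / 10000000000) ^ a :=
    pow_le_pow_left₀ (Real.exp_pos 1).le (by have := Real.exp_one_lt_d9; norm_num at this ⊢; linarith) a
  have hchkR : ((en : ℝ)) ^ b * 27182818286 ^ a ≤ (ed : ℝ) ^ b * 10000000000 ^ a := by exact_mod_cast hchk
  have hy : ((en : ℝ) / ed * x) ^ b ≤ 1 := by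
    rw [mul_pow, div_pow, hxb]
    have h1 : ((en : ℝ) ^ b / (ed : ℝ) ^ b) * Real.exp 1 ^ a
        ≤ ((en : ℝ) ^ b / (ed : ℝ) ^ b) * ((27182818286 : ℝ) / 10000000000) ^ a :=
      mul_le_mul_of_nonneg_left hU (by positivity)
    refine h1.trans ?_
    rw [div_pow, div_mul_div_comm, div_le_one (by positivity)]
    exact hchkR
  have hy0 : 0 ≤ (en : ℝ) / ed * x := by positivity
  have hy1 : (en : ℝ) / ed * x ≤ 1 := (pow_le_one_iff_of_nonneg hy0 hb.ne').1 hy
  rw [Real.exp_neg, ← hx, ← one_div, le_div_iff₀ hx0]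
  exact hy1

/-- the check of the weights of the mixture -/
def poisChk (a b en ed E : ℕ) : List ℕ → ℕ → ℕ → ℕ → ℕ → Bool
  | [], _, _, _, _ => true
  | m :: ms, i, fc, A, Bp =>
      Nat.ble (m * fc * Bp * ed) (E * en * A) && poisChk a b en ed E ms (i + 1) (fc * (i + 1)) (A * a) (Bp * b)

lemma poisChk_sound {a b en ed E : ℕ} (hb : 0 < b) (hed : 0 < ed) (hE : 0 < E) :
    ∀ (ms : List ℕ) (i0 : ℕ), poisChk a b en ed E ms i0 (Nat.factorial i0) (a ^ i0) (b ^ i0) = true →
      ∀ i, i < ms.length → ((ms.getD i 0 : ℕ) : ℝ) / E ≤ (en : ℝ) / ed * ((a : ℝ) / b) ^ (i0 + i) / Nat.factorial (i0 + i) := by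
  have hbr : (0 : ℝ) < b := by exact_mod_cast hb
  have hedr : (0 : ℝ) < ed := by exact_mod_cast hed
  have hEr : (0 : ℝ) < E := by exact_mod_cast hE
  intro ms
  induction ms with
  | nil => intro i0 _ i hi; simp at hi
  | cons m ms ih =>
    intro i0 h i hi
    simp only [poisChk, Bool.and_eq_true] at h
    obtain ⟨h1, h2⟩ := h
    cases i with
    | zero =>
      have h1' := Nat.le_of_ble_eq_true h1
      have hc : (m : ℝ) * Nat.factorial i0 * (b : ℝ) ^ i0 * ed ≤ E * en * (a : ℝ) ^ i0 := by exact_mod_cast h1'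
      have hf : (0 : ℝ) < Nat.factorial i0 := by exact_mod_cast Nat.factorial_pos i0
      simp only [List.getD_cons_zero, Nat.add_zero]
      rw [div_pow, div_le_iff₀ hEr]
      have e : (en : ℝ) / ed * ((a : ℝ) ^ i0 / (b : ℝ) ^ i0) / Nat.factorial i0 * E
          = (E * en * (a : ℝ) ^ i0) / (Nat.factorial i0 * (b : ℝ) ^ i0 * ed) := by
        field_simp
      rw [e, le_div_iff₀ (by positivity)]
      calc _ = (m : ℝ) * Nat.factorial i0 * (b : ℝ) ^ i0 * ed := by ring
        _ ≤ _ := hc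
    | succ i =>
      have e1 : Nat.factorial i0 * (i0 + 1) = Nat.factorial (i0 + 1) := by
        rw [Nat.factorial_succ]; ring
      have e2 : a ^ i0 * a = a ^ (i0 + 1) := (pow_succ a i0).symm
      have e3 : b ^ i0 * b = b ^ (i0 + 1) := (pow_succ b i0).symm
      rw [e1, e2, e3] at h2
      have := ih (i0 + 1) h2 i (by simpa using hi)
      simpa [show i0 + 1 + i = i0 + (i + 1) by omega] using this

/-- the hypothesis `hq` of the orbit from two natural number checks -/
theorem hq_of_chk {a b en ed E : ℕ} {ms : List ℕ} (hb : 0 < b) (hed : 0 < ed) (hE : 0 < E)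
    (h1 : en ^ b * 27182818286 ^ a ≤ ed ^ b * 10000000000 ^ a)
    (h2 : poisChk a b en ed E ms 0 1 1 1 = true) :
    ∀ i, i < ms.length → ((ms.getD i 0 : ℕ) : ℝ) / E
      ≤ Real.exp (-((a : ℝ) / b)) * ((a : ℝ) / b) ^ i / Nat.factorial i := by
  intro i hi
  have h3 := poisChk_sound (a := a) (b := b) (en := en) (ed := ed) hb hed hE ms 0
    (by simpa using h2) i hi
  rw [Nat.zero_add] at h3
  refine h3.trans ?_
  have h4 := exp_neg_ge hb hed h1
  have h5 : (0 : ℝ) ≤ ((a : ℝ) / b) ^ i := by positivity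
  have h6 : (0 : ℝ) < Nat.factorial i := by exact_mod_cast Nat.factorial_pos i
  exact div_le_div_of_nonneg_right (mul_le_mul_of_nonneg_right h4 h5) h6.le

/-! ## The exit -/

theorem momS_gw_lt {N W D : ℕ} {ks ws : List ℕ} {lam d : ℝ} {hd : 0 ≤ d}
    {hch : ∀ i j : Fin 3, 0 ≤ channel 3 lam i j} {m : ℕ} {P Q : ℕ} (hQ : 0 < Q)
    (h : InvP lam d hd hch N W D ks m ws)
    {pts : List Pt} (hpts : pts = ptsOf N W ks)
    (hlt : Q * aSumF pts ws < (2 * P + Q) * D * (N * N)) :
    momS (gwSL 3 lam d m hd (by norm_num) hch) < (P : ℝ) / Q := by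
  subst hpts
  have h1 := momS_lt_of_grid h.1 hQ hlt
  have h2 := h.2 (aFn 3) (aFn_convexSym' (by norm_num))
  exact lt_of_le_of_lt h2 h1

/-- The window: all critical points `(d, -1/√d)` with `(v/u)² ≤ d` and `√d ≤ (u/v) d'`. -/
theorem momS_window_lt {u v : ℕ} {d' : ℝ} (hd' : 0 ≤ d') {hch' : ∀ i j : Fin 3, 0 ≤ channel 3 (-((u : ℝ) / v)) i j}
    {m : ℕ} {s : ℝ} (h : momS (gwSL 3 (-((u : ℝ) / v)) d' m hd' (by norm_num) hch') < s)
    {d : ℝ} (hd : 0 < d) (hmu : 1 / Real.sqrt d ≤ (u : ℝ) / v) (hdd : Real.sqrt d ≤ (u : ℝ) / v * d')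
    (hch : ∀ i j : Fin 3, 0 ≤ channel 3 (-(1 / Real.sqrt d)) i j) :
    momS (gwSL 3 (-(1 / Real.sqrt d)) d m hd.le (by norm_num) hch) < s := by
  have h1 := gw_window_dominated hd hmu hdd hd' (by norm_num) hch hch' m (aFn 3) (aFn_convexSym' (by norm_num))
  exact lt_of_le_of_lt h1 h

/-- the conditions of the window in rational form -/
theorem window_conds {u v a b : ℕ} (hu : 0 < u) (hv : 0 < v) (hb : 0 < b) {d : ℝ} (hd : 0 < d)
    (h1 : (v : ℝ) ^ 2 ≤ (u : ℝ) ^ 2 * d) (h2 : d * ((v : ℝ) * b) ^ 2 ≤ ((u : ℝ) * a) ^ 2) :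
    1 / Real.sqrt d ≤ (u : ℝ) / v ∧ Real.sqrt d ≤ (u : ℝ) / v * ((a : ℝ) / b) := by
  have hs : 0 < Real.sqrt d := Real.sqrt_pos.2 hd
  have hs2 : Real.sqrt d ^ 2 = d := Real.sq_sqrt hd.le
  have hur : (0 : ℝ) < u := by exact_mod_cast hu
  have hvr : (0 : ℝ) < v := by exact_mod_cast hv
  have hbr : (0 : ℝ) < b := by exact_mod_cast hb
  constructor
  · rw [div_le_div_iff₀ hs hvr]
    have : (v : ℝ) ^ 2 ≤ ((u : ℝ) * Real.sqrt d) ^ 2 := by
      rw [mul_pow, hs2]; exact h1
    have h3 := (pow_le_pow_iff_left₀ hvr.le (by positivity) (two_ne_zero)).1 this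
    linarith
  · have h4 : (Real.sqrt d * ((v : ℝ) * b)) ^ 2 ≤ ((u : ℝ) * a) ^ 2 := by
      rw [mul_pow, hs2]; exact h2
    have h3 := (pow_le_pow_iff_left₀ (by positivity) (by positivity) (two_ne_zero)).1 h4
    have e : (u : ℝ) / v * ((a : ℝ) / b) = ((u : ℝ) * a) / ((v : ℝ) * b) := by
      field_simp
    rw [e, le_div_iff₀ (by positivity)]
    exact h3

/-- equality of point lists, in the kernel -/
def eqPtP (x y : Pt) : Bool := Nat.beq x.a y.a && Nat.beq x.b y.b && Nat.beq x.c y.c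

def eqPtsP : List Pt → List Pt → Bool
  | [], [] => true
  | x :: xs, y :: ys => eqPtP x y && eqPtsP xs ys
  | _, _ => false

theorem eqPtsP_eq : ∀ a b : List Pt, eqPtsP a b = true → a = b := by
  intro a
  induction a with
  | nil =>
    intro b h
    cases b with
    | nil => rfl
    | cons _ _ => simp [eqPtsP] at h
  | cons x a ih =>
    intro b h
    cases b with
    | nil => simp [eqPtsP] at h
    | cons y b =>
      simp only [eqPtsP, eqPtP, Bool.and_eq_true] at h
      obtain ⟨⟨⟨h1, h2⟩, h3⟩, h4⟩ := h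
      have e : x = y := by
        have e1 := Nat.eq_of_beq_eq_true h1
        have e2 := Nat.eq_of_beq_eq_true h2
        have e3 := Nat.eq_of_beq_eq_true h3
        cases x; cases y
        dsimp only at e1 e2 e3
        subst e1 e2 e3
        rfl
      rw [e, ih b h4]

end Crest.Agent.Lib.Bc.GridO
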