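import Crest.Agent.Lib.Bc.GridPF
import Crest.Agent.Lib.Bc.GridExit
/-!
# Row 163: the exit of a Poisson grid chain for the moment `r = Φ (a²)`

`momR_gw_le`: from `InvP` and an inequality of natural numbers, a bound of `Φ (a²)` at that level.
`momR_window_le`: the same on a window of critical points (thinning domination of `GwThin`).
-/
open scoped BigOperators
open Crest.ProbabilityR.Broadcast
namespace Crest.Agent.Lib.Bc.GridO

/-- the sum of `(2 N² a)²` against the weights, kernel friendly -/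
noncomputable def rSumF (N : ℕ) : List Pt → List ℕ → ℕ :=
  fun ps => List.rec (motive := fun _ => List ℕ → ℕ) (fun _ => nat_lit 0)
    (fun p _ ih ws => List.rec (motive := fun _ => ℕ) (nat_lit 0)
      (fun w ws' _ => Nat.add (Nat.mul w (Nat.mul (numA N p) (numA N p))) (ih ws')) ws) ps

lemma rSumF_eq (N : ℕ) : ∀ (ps : List Pt) (ws : List ℕ),
    rSumF N ps ws = sumW (fun p => numA N p * numA N p) ps ws := by
  intro ps
  induction ps with
  | nil => intro ws; rfl
  | cons p ps ih =>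
    intro ws
    cases ws with
    | nil => rfl
    | cons w ws =>
      show w * (numA N p * numA N p) + rSumF N ps ws = _
      rw [ih]; rfl

/-- the bound of `Φ (a²)` from the grid law -/
theorem momR_gw_le {N W D : ℕ} {ks ws : List ℕ} {lam d : ℝ} {hd : 0 ≤ d}
    {hch : ∀ i j : Fin 3, 0 ≤ channel 3 lam i j} {m : ℕ} {P Q : ℕ} (hQ : 0 < Q)
    (h : InvP lam d hd hch N W D ks m ws)
    {pts : List Pt} (hpts : pts = ptsOf N W ks)
    (hlt : Q * rSumF N pts ws ≤ P * (D * ((2 * N * N) * (2 * N * N)))) :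
    (gwSL 3 lam d m hd (by norm_num) hch).Φ (fun x => aFn 3 x ^ 2) ≤ (P : ℝ) / Q := by
  subst hpts
  obtain ⟨hG, hdom⟩ := h
  have hN := hG.1
  have hD : (0 : ℝ) < D := by have := hG.2.1; positivity
  have hNr : (0 : ℝ) < 2 * (N : ℝ) * N := by positivity
  have hQ' : (0 : ℝ) < Q := by exact_mod_cast hQ
  have h1 := hdom _ aFn3_sq_convexSym
  have h2 := gridLaw_Φ hG (g := fun x => aFn 3 x ^ 2) aFn3_sq_convexSym.sym
  have h3 : zsum (fun p => aFn 3 (toR N p) ^ 2) (ptsOf N W ks) ws * ((2 * (N : ℝ) * N) * (2 * (N : ℝ) * N))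
      = (sumW (fun p => numA N p * numA N p) (ptsOf N W ks) ws : ℝ) := by
    rw [← zsum_eq_sumW, zsum_mul]
    refine zsum_congr _ _ fun p hp => ?_
    have := aFn_toR hN (hG.2.2.1 p hp)
    push_cast
    rw [← this]
    ring
  rw [rSumF_eq] at hlt
  have hlt' : (Q : ℝ) * (sumW (fun p => numA N p * numA N p) (ptsOf N W ks) ws : ℝ)
      ≤ P * (D * ((2 * (N : ℝ) * N) * (2 * (N : ℝ) * N))) := by exact_mod_cast hlt
  rw [le_div_iff₀ hQ']
  have hpos : (0 : ℝ) < D * ((2 * (N : ℝ) * N) * (2 * (N : ℝ) * N)) := by positivity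
  refine le_of_mul_le_mul_right ?_ hpos
  set y := (gridLaw N D (ptsOf N W ks) ws).Φ (fun x => aFn 3 x ^ 2) with hy
  have e4 : y * D * ((2 * (N : ℝ) * N) * (2 * (N : ℝ) * N)) = (sumW (fun p => numA N p * numA N p) (ptsOf N W ks) ws : ℝ) := by
    rw [← h3, ← h2]
  have h5 := mul_le_mul_of_nonneg_right h1 hpos.le
  have h6 := mul_le_mul_of_nonneg_left h5 hQ'.le
  nlinarith

/-- the window version of `momR_gw_le` -/
theorem momR_window_le {u v : ℕ} {d' : ℝ} (hd' : 0 ≤ d') {hch' : ∀ i j : Fin 3, 0 ≤ channel 3 (-((u : ℝ) / v)) i j}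
    {m : ℕ} {s : ℝ}
    (h : (gwSL 3 (-((u : ℝ) / v)) d' m hd' (by norm_num) hch').Φ (fun x => aFn 3 x ^ 2) ≤ s)
    {d : ℝ} (hd : 0 < d) (hmu : 1 / Real.sqrt d ≤ (u : ℝ) / v) (hdd : Real.sqrt d ≤ (u : ℝ) / v * d')
    (hch : ∀ i j : Fin 3, 0 ≤ channel 3 (-(1 / Real.sqrt d)) i j) :
    (gwSL 3 (-(1 / Real.sqrt d)) d m hd.le (by norm_num) hch).Φ (fun x => aFn 3 x ^ 2) ≤ s := by
  have h1 := gw_window_dominated hd hmu hdd hd' (by norm_num) hch hch' m _ aFn3_sq_convexSym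
  exact le_trans h1 h

end Crest.Agent.Lib.Bc.GridO
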