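import Crest.Agent.Lib.Bc.GridFast
/-!
# Row 163: triangular tables (half the pairs) and the chain from the leaves

`Esig` is symmetric, so only the pairs `i ≤ j` of a self convolution are needed.  `Inv` is the invariant
of the recursion at `b = 4`, `λ = -1/2`: the law of the level is dominated by a grid law.
-/
open scoped BigOperators
namespace Crest.Agent.Lib.Bc.GridO

lemma Esig_comm_on {f : (Fin 3 → ℝ) → ℝ} (hf : ConvexSym f) {x x' : Fin 3 → ℝ} (hx : x ∈ Simp 3)
    (hx' : x' ∈ Simp 3) : Esig 3 f x x' = Esig 3 f x' x := by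
  unfold Esig
  congr 1
  rw [← Equiv.sum_comp (Equiv.inv (Equiv.Perm (Fin 3)))
    (fun σ : Equiv.Perm (Fin 3) => dotZ 3 x (x' ∘ σ) * f (star 3 x (x' ∘ σ)))]
  refine Finset.sum_congr rfl fun σ _ => ?_
  have hS : ∑ j, x j * x' (σ⁻¹ j) = ∑ j, x' j * x (σ j) := by
    rw [← Equiv.sum_comp σ (fun j => x j * x' (σ⁻¹ j))]
    refine Finset.sum_congr rfl fun j _ => ?_
    simp [mul_comm]
  have hd : dotZ 3 x (x' ∘ ((Equiv.inv (Equiv.Perm (Fin 3))) σ)) = dotZ 3 x' (x ∘ σ) := by
    simp only [dotZ, Function.comp, Equiv.inv_apply]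
    rw [hS]
  have hst : star 3 x (x' ∘ ((Equiv.inv (Equiv.Perm (Fin 3))) σ))
      = (star 3 x' (x ∘ σ)) ∘ (σ⁻¹ : Equiv.Perm (Fin 3)) := by
    funext i
    simp only [star, Function.comp, Equiv.inv_apply]
    rw [hS]
    simp [mul_comm]
  rw [hd, hst, hf.sym _ _ (star_mem (by norm_num) hx' (comp_mem_Simp _ hx))]

/-! ## The triangular table -/

/-- the table of the pairs `i ≤ j` -/
def mkTabS (M W L : ℕ) : List Pt → List (List ℕ)
  | [] => []
  | x :: xs => (pairC M W L x x :: xs.map fun l => pairC M W L x l) :: mkTabS M W L xs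

def tabSumS : List (List ℕ) → List ℕ → ℕ → ℕ
  | (C :: cs) :: rs, w :: ws, acc => tabSumS rs ws (acc + w * (w * C + 2 * rowSum cs ws 0))
  | _, _, acc => acc

section Cover
variable {M W L n : ℕ}

lemma zsum_add (g g' : Pt → ℝ) : ∀ (ps : List Pt) (ws : List ℕ),
    zsum (fun p => g p + g' p) ps ws = zsum g ps ws + zsum g' ps ws := by
  intro ps
  induction ps with
  | nil => intro ws; simp [zsum]
  | cons p ps ih =>
    intro ws
    cases ws with
    | nil => simp [zsum]
    | cons w ws =>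
      simp only [zsum]
      rw [ih ws]
      ring

lemma zsum_cmul (g : Pt → ℝ) (c : ℝ) : ∀ (ps : List Pt) (ws : List ℕ),
    zsum (fun p => c * g p) ps ws = c * zsum g ps ws := by
  intro ps
  induction ps with
  | nil => intro ws; simp [zsum]
  | cons p ps ih =>
    intro ws
    cases ws with
    | nil => simp [zsum]
    | cons w ws =>
      simp only [zsum]
      rw [ih ws]
      ring

lemma Cov.tabSumS (hM : 0 < M) (hW : M < 3 * W) (hn : (M / 2 + 1) * W ≤ n) {n₁ : ℕ} (h₁ : 0 < n₁) :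
    ∀ (A : List Pt) (wA : List ℕ), (∀ x ∈ A, x.a + x.b + x.c = n₁) → wA.length = A.length →
    ∀ {acc T : ℕ} {E : ((Fin 3 → ℝ) → ℝ) → ℝ}, Cov M W L n acc T E →
    Cov M W L n (GridO.tabSumS (mkTabS M W L A) wA acc)
      (T + 2 * n₁ * n₁ * wA.sum * wA.sum)
      (fun f => E f + ((2 * n₁ * n₁ : ℕ) : ℝ) *
        zsum (fun x => zsum (fun l => Esig 3 f (toR n₁ x) (toR n₁ l)) A wA) A wA) := by
  intro A
  induction A with
  | nil =>
    intro wA _ hlen acc T E h
    have : wA = [] := List.length_eq_zero_iff.1 (by simpa using hlen)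
    subst this
    simpa [GridO.tabSumS, mkTabS, zsum] using h
  | cons x A ih =>
    intro wA hA hlen acc T E h
    cases wA with
    | nil => simp at hlen
    | cons w wA =>
      have hx := hA x (List.mem_cons_self)
      have hA' : ∀ l ∈ A, l.a + l.b + l.c = n₁ := fun l hl => hA l (List.mem_cons_of_mem _ hl)
      have hlen' : wA.length = A.length := by simpa using hlen
      have hr := Cov.rowSum (L := L) hM hW hn h₁ h₁ hx A wA hA' hlen'
        (Cov.zero (M := M) (W := W) (L := L) (n := n))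
      have hp := Cov.pair (L := L) hM hW hn h₁ h₁ hx hx
      have c := h.add ((((hp.mul w).add (hr.mul 2))).mul w)
      have := ih wA hA' hlen' c
      have e : GridO.tabSumS (mkTabS M W L (x :: A)) (w :: wA) acc
          = GridO.tabSumS (mkTabS M W L A) wA (acc + w * (w * pairC M W L x x
              + 2 * GridO.rowSum (A.map fun l => pairC M W L x l) wA 0)) := by
        simp only [mkTabS, GridO.tabSumS]
      rw [e]
      simp only [List.sum_cons]
      refine (this.congrT (by ring)).mono fun f hf => le_of_eq ?_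
      have hxm := toR_mem h₁ hx
      have hsw : zsum (fun p => Esig 3 f (toR n₁ p) (toR n₁ x)) A wA
          = zsum (fun l => Esig 3 f (toR n₁ x) (toR n₁ l)) A wA :=
        zsum_congr A wA fun p hp' => Esig_comm_on hf (toR_mem h₁ (hA' p hp')) hxm
      have hexp : zsum (fun p => zsum (fun l => Esig 3 f (toR n₁ p) (toR n₁ l)) (x :: A) (w :: wA))
            (x :: A) (w :: wA)
          = (w : ℝ) * ((w : ℝ) * Esig 3 f (toR n₁ x) (toR n₁ x)
              + zsum (fun l => Esig 3 f (toR n₁ x) (toR n₁ l)) A wA)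
            + ((w : ℝ) * zsum (fun p => Esig 3 f (toR n₁ p) (toR n₁ x)) A wA
              + zsum (fun p => zsum (fun l => Esig 3 f (toR n₁ p) (toR n₁ l)) A wA) A wA) := by
        simp only [zsum]
        rw [zsum_add, zsum_cmul]
      rw [hexp, hsw]
      push_cast
      ring

end Cover

/-! ## One convolution and one level with the triangular tables -/

/-- one self convolution -/
def starS (L T D : ℕ) (tab : List (List ℕ)) (ks wA : List ℕ) : List ℕ :=
  roundL L T D (tabSumS tab wA 0) ks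

section Star
variable {M W L n : ℕ}

theorem star_stepS (hM : 0 < M) (hW : M < 3 * W) (hn : (M / 2 + 1) * W ≤ n) {n₁ D : ℕ} {A : List Pt}
    {wA : List ℕ} (hA : Good n₁ D A wA) (hL : 2 * n₁ * n₁ * D * D < 2 ^ L)
    {ks : List ℕ} (hks : ks.Nodup) (hk : ∀ k ∈ ks, k < n ∧ Valid M W k) :
    Good M D (ptsOf M W ks) (starS L (2 * n₁ * n₁ * D * D) D (mkTabS M W L A) ks wA) ∧
      Dominated ((gridLaw n₁ D A wA).prod (gridLaw n₁ D A wA))
        (gridLaw M D (ptsOf M W ks) (starS L (2 * n₁ * n₁ * D * D) D (mkTabS M W L A) ks wA)) := by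
  have hn₁ := hA.1
  have hD := hA.2.1
  have hT : 0 < 2 * n₁ * n₁ * D * D := by positivity
  have cov := Cov.tabSumS (L := L) hM hW hn hn₁ A wA hA.2.2.1 hA.2.2.2.1
    (Cov.zero (M := M) (W := W) (L := L) (n := n))
  have hTe : 0 + 2 * n₁ * n₁ * wA.sum * wA.sum = 2 * n₁ * n₁ * D * D := by
    rw [hA.2.2.2.2, zero_add]
  rw [hTe] at cov
  obtain ⟨h1, h2, h3⟩ := round_le (D := D) hM hT hL cov hks hk
  have hgood : Good M D (ptsOf M W ks) (starS L (2 * n₁ * n₁ * D * D) D (mkTabS M W L A) ks wA) := by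
    refine ⟨hM, hD, ptsOf_sum fun k hkk => (hk k hkk).2, ?_, h2⟩
    show (roundL _ _ _ _ _).length = _
    rw [h1]; simp [ptsOf]
  refine ⟨hgood, fun f hf => ?_⟩
  have h4 := h3 f hf
  have h5 := prod_Φ hA hA hf
  have h6 := gridLaw_Φ hgood (g := f) hf.sym
  have hDr : (0 : ℝ) < D := by positivity
  have hTr : (0 : ℝ) < ((2 * n₁ * n₁ * D * D : ℕ) : ℝ) := by exact_mod_cast hT
  rw [zero_add, ← h5] at h4
  have e : zsum (fun p => f (toR M p)) (ptS M W 0 :: ks.map (ptS M W))
        (roundL L (2 * n₁ * n₁ * D * D) D (GridO.tabSumS (mkTabS M W L A) wA 0) ks)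
      = (gridLaw M D (ptsOf M W ks) (starS L (2 * n₁ * n₁ * D * D) D (mkTabS M W L A) ks wA)).Φ f * D :=
    h6.symm
  rw [e] at h4
  push_cast at h4 hTr
  have h7 : (2 * (n₁ : ℝ) * n₁ * D * D) * (((gridLaw n₁ D A wA).prod (gridLaw n₁ D A wA)).Φ f * D)
      ≤ (2 * (n₁ : ℝ) * n₁ * D * D) *
        ((gridLaw M D (ptsOf M W ks) (starS L (2 * n₁ * n₁ * D * D) D (mkTabS M W L A) ks wA)).Φ f * D) := by
    refine le_trans (le_of_eq ?_) h4
    ring
  have h8 := le_of_mul_le_mul_left h7 hTr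
  exact le_of_mul_le_mul_right h8 hDr

end Star

/-- one level on weights, triangular tables -/
def levelS (L T1 T2 D : ℕ) (tabK tabR : List (List ℕ)) (ks ws : List ℕ) : List ℕ :=
  starS L T2 D tabR ks (starS L T1 D tabK ks ws)

/-- `k` levels -/
def levelsS (L T1 T2 D : ℕ) (tabK tabR : List (List ℕ)) (ks : List ℕ) : ℕ → List ℕ → List ℕ
  | 0, ws => ws
  | k + 1, ws => levelsS L T1 T2 D tabK tabR ks k (levelS L T1 T2 D tabK tabR ks ws)

/-- the data of an orbit -/
structure Setup (N W L n D : ℕ) (ks : List ℕ) : Prop where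
  hN : 0 < N
  hW : N < 3 * W
  hn : (N / 2 + 1) * W ≤ n
  hL : 2 * (2 * N) * (2 * N) * D * D < 2 ^ L
  hD : 0 < D
  hks : ks.Nodup
  hk : ∀ k ∈ ks, k < n ∧ Valid N W k

lemma hch3 (i j : Fin 3) : 0 ≤ Crest.ProbabilityR.Broadcast.channel 3 (-(1 / 2)) i j := by
  unfold Crest.ProbabilityR.Broadcast.channel
  split_ifs <;> norm_num

/-- the invariant of the recursion -/
def Inv (N W D : ℕ) (ks : List ℕ) (m : ℕ) (ws : List ℕ) : Prop :=
  Good N D (ptsOf N W ks) ws ∧
    Dominated (leafSL 3 4 (-(1 / 2)) m (by norm_num) hch3) (gridLaw N D (ptsOf N W ks) ws)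

section Chain
variable {N W L n D : ℕ} {ks : List ℕ}

/-- one level of the recursion at `b = 4`, `λ = -1/2` -/
theorem Inv.step (S : Setup N W L n D ks) {m : ℕ} {ws : List ℕ} (h : Inv N W D ks m ws) :
    Inv N W D ks (m + 1) (levelS L (2 * (2 * N) * (2 * N) * D * D) (2 * N * N * D * D) D
      (mkTabS N W L ((ptsOf N W ks).map (tiltPt N))) (mkTabS N W L (ptsOf N W ks)) ks ws) := by
  have h3 : (0 : ℕ) < 3 := by norm_num
  obtain ⟨hG, hdom⟩ := h
  have hK := tilt_good hG
  have hKd := tilt_dom hG hch3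
  obtain ⟨g2, d2⟩ := star_stepS (L := L) S.hN S.hW S.hn hK S.hL S.hks S.hk
  have hL2 : 2 * N * N * D * D < 2 ^ L := by
    refine lt_of_le_of_lt ?_ S.hL
    have : 2 * (2 * N) * (2 * N) * D * D = 4 * (2 * N * N * D * D) := by ring
    omega
  obtain ⟨g4, d4⟩ := star_stepS (L := L) S.hN S.hW S.hn g2 hL2 S.hks S.hk
  refine ⟨g4, fun f hf => ?_⟩
  rw [leafSL_succ 4 (-(1 / 2)) m h3 hch3 hf.bdd]
  have a0 : Dominated (((leafSL 3 4 (-(1 / 2)) m h3 hch3).tilt (-(1 / 2)) hch3).pow 4)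
      (((gridLaw N D (ptsOf N W ks) ws).tilt (-(1 / 2)) hch3).pow 4) :=
    (hdom.tilt h3 _ hch3).pow h3 4
  have a1 : Dominated (((gridLaw N D (ptsOf N W ks) ws).tilt (-(1 / 2)) hch3).pow 4)
      ((gridLaw (2 * N) D ((ptsOf N W ks).map (tiltPt N)) ws).pow 4) := hKd.pow h3 4
  have a2 := pow_four_dom (gridLaw (2 * N) D ((ptsOf N W ks).map (tiltPt N)) ws)
  have a3 := Dominated.prod h3 d2 d2
  have e2 : 2 * (2 * N) * (2 * N) * D * D = 2 * (2 * N) * (2 * N) * D * D := rfl
  exact (a0.trans (a1.trans (a2.trans (a3.trans d4)))) f hf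

theorem Inv.steps (S : Setup N W L n D ks) : ∀ (k : ℕ) {m : ℕ} {ws : List ℕ}, Inv N W D ks m ws →
    Inv N W D ks (m + k) (levelsS L (2 * (2 * N) * (2 * N) * D * D) (2 * N * N * D * D) D
      (mkTabS N W L ((ptsOf N W ks).map (tiltPt N))) (mkTabS N W L (ptsOf N W ks)) ks k ws) := by
  intro k
  induction k with
  | zero => intro m ws h; exact h
  | succ k ih =>
    intro m ws h
    have := ih (Inv.step S h)
    rw [show m + (k + 1) = m + 1 + k by omega]
    exact this

/-- the start: the law at the leaves -/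
theorem Inv.zero (S : Setup N W L n D ks) : Inv N W D ks 0 (D :: ks.map fun _ => 0) := by
  have h3 : (0 : ℕ) < 3 := by norm_num
  have hG : Good N D (ptsOf N W ks) (D :: ks.map fun _ => 0) := by
    refine ⟨S.hN, S.hD, ptsOf_sum fun k hkk => (S.hk k hkk).2, by simp [ptsOf], ?_⟩
    simp
  refine ⟨hG, fun f hf => ?_⟩
  have h1 := gridLaw_Φ hG (g := f) hf.sym
  have hzero : ∀ (l : List ℕ), zsum (fun p => f (toR N p)) (l.map (ptS N W)) (l.map fun _ => 0) = 0 := by
    intro l
    induction l with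
    | nil => simp [zsum]
    | cons k l ih =>
      simp only [List.map_cons, zsum]
      rw [ih]
      simp
  have h2 : zsum (fun p => f (toR N p)) (ptsOf N W ks) (D :: ks.map fun _ => 0)
      = (D : ℝ) * f (toR N (ptS N W 0)) := by
    simp only [ptsOf, zsum]
    rw [hzero]
    ring
  rw [h2, toR_ptS_zero S.hN] at h1
  have hDr : (D : ℝ) ≠ 0 := by have := S.hD; positivity
  have h4 : (gridLaw N D (ptsOf N W ks) (D :: ks.map fun _ => 0)).Φ f = f (fun j => if j = 0 then 1 else 0) := by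
    apply mul_right_cancel₀ hDr
    rw [h1]; ring
  rw [h4]
  exact SLaw.Φ_le_vertex _ h3 hf 0

end Chain

/-! ## The fast form -/

/-- evaluate `e` first (its value stays in the cache of the kernel) -/
noncomputable def frc {α : Type} (e : ℕ) (k : ℕ → α) : α :=
  Bool.rec (k e) (k e) (Nat.ble e (nat_lit 0))

lemma frc_eq {α : Type} (e : ℕ) (k : ℕ → α) : frc e k = k e := by
  unfold frc
  cases Nat.ble e 0 <;> rfl

noncomputable def slot2 (M W lo hi : ℕ) : ℕ := Nat.add (Nat.mul (Nat.sub (Nat.sub M hi) lo) W) lo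

noncomputable def sgH (M W L m v1 v2 v3 : ℕ) : ℕ := Nat.shiftLeft m (Nat.mul L (slot2 M W
  (Nat.sub v1 (Nat.sub v1 (Nat.sub v2 (Nat.sub v2 v3))))
  (Nat.add v1 (Nat.sub (Nat.add v2 (Nat.sub v3 v2)) v1))))

noncomputable def spl1H (M W L r1 r2 r3 f1 f2 f3 : ℕ) : ℕ :=
  Nat.add (Nat.add (sgH M W L r1 (Nat.succ f1) f2 f3) (sgH M W L r2 f1 (Nat.succ f2) f3))
    (sgH M W L r3 f1 f2 (Nat.succ f3))

noncomputable def spl2H (M W L S r1 r2 r3 f1 f2 f3 : ℕ) : ℕ :=
  Nat.add (Nat.add (sgH M W L (Nat.sub S r1) f1 (Nat.succ f2) (Nat.succ f3))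
      (sgH M W L (Nat.sub S r2) (Nat.succ f1) f2 (Nat.succ f3)))
    (sgH M W L (Nat.sub S r3) (Nat.succ f1) (Nat.succ f2) f3)

noncomputable def sp0 (M W L S _u1 _u2 _u3 f1 f2 f3 : ℕ) : ℕ := sgH M W L S f1 f2 f3

noncomputable def sp1 (M W L S u1 u2 u3 f1 f2 f3 : ℕ) : ℕ :=
  spl1H M W L (Nat.mod u1 S) (Nat.mod u2 S) (Nat.mod u3 S) f1 f2 f3

noncomputable def sp2 (M W L S u1 u2 u3 f1 f2 f3 : ℕ) : ℕ :=
  spl2H M W L S (Nat.mod u1 S) (Nat.mod u2 S) (Nat.mod u3 S) f1 f2 f3

noncomputable def spSel (R : ℕ) : (M W L S u1 u2 u3 f1 f2 f3 : ℕ) → ℕ :=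
  Bool.rec (Bool.rec sp2 sp1 (Nat.beq R (nat_lit 1))) sp0 (Nat.beq R (nat_lit 0))

noncomputable def split3H (M W L S u1 u2 u3 f1 f2 f3 : ℕ) : ℕ :=
  spSel (Nat.sub (Nat.sub (Nat.sub M f1) f2) f3) M W L S u1 u2 u3 f1 f2 f3

noncomputable def split2H (M W L S u1 u2 u3 : ℕ) : ℕ :=
  split3H M W L S u1 u2 u3 (Nat.div u1 S) (Nat.div u2 S) (Nat.div u3 S)

noncomputable def splitH (M W L h1 h2 h3 : ℕ) : ℕ :=
  split2H M W L (Nat.add (Nat.add h1 h2) h3) (Nat.mul M h1) (Nat.mul M h2) (Nat.mul M h3)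

noncomputable def pair9H (M W L p11 p12 p13 p21 p22 p23 p31 p32 p33 : ℕ) : ℕ :=
  Nat.add (Nat.add (Nat.add (Nat.add (Nat.add (splitH M W L p11 p22 p33) (splitH M W L p11 p23 p32))
    (splitH M W L p12 p21 p33)) (splitH M W L p12 p23 p31)) (splitH M W L p13 p21 p32))
    (splitH M W L p13 p22 p31)

noncomputable def pair3H (M W L a b c d e f : ℕ) : ℕ :=
  pair9H M W L (Nat.mul a d) (Nat.mul a e) (Nat.mul a f) (Nat.mul b d) (Nat.mul b e) (Nat.mul b f)
     (Nat.mul c d) (Nat.mul c e) (Nat.mul c f)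

noncomputable def pairH (M W L : ℕ) (x l : Pt) : ℕ := pair3H M W L x.a x.b x.c l.a l.b l.c

lemma sgH_eq (M W L m v1 v2 v3 : ℕ) : sgH M W L m v1 v2 v3 = sg M W L m v1 v2 v3 := by
  unfold sgH sg slot2 slotOf
  rw [nmin_eq, nmin_eq, nmax_eq, nmax_eq]
  have h1 : v1 - (v1 - (v2 - (v2 - v3))) = min v1 (min v2 v3) := by omega
  have h2 : v1 + ((v2 + (v3 - v2)) - v1) = max v1 (max v2 v3) := by omega
  show Nat.shiftLeft m (L * ((M - (v1 + ((v2 + (v3 - v2)) - v1)) - (v1 - (v1 - (v2 - (v2 - v3))))) * W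
    + (v1 - (v1 - (v2 - (v2 - v3)))))) = _
  rw [h1, h2]

lemma splitH_eq (M W L h1 h2 h3 : ℕ) : splitH M W L h1 h2 h3 = split M W L h1 h2 h3 := by
  show spSel (M - M * h1 / (h1 + h2 + h3) - M * h2 / (h1 + h2 + h3) - M * h3 / (h1 + h2 + h3))
    M W L (h1 + h2 + h3) (M * h1) (M * h2) (M * h3)
      (M * h1 / (h1 + h2 + h3)) (M * h2 / (h1 + h2 + h3)) (M * h3 / (h1 + h2 + h3)) = _
  unfold spSel split splC
  by_cases hS : h1 + h2 + h3 = 0
  · have e1 : h1 = 0 := by omega
    have e2 : h2 = 0 := by omega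
    have e3 : h3 = 0 := by omega
    subst e1 e2 e3
    have hz : ∀ k, Nat.shiftLeft 0 k = 0 := fun k => Nat.zero_shiftLeft k
    simp only [Nat.mul_zero, Nat.zero_add, Nat.zero_div, Nat.sub_zero]
    rw [brec_eq, brec_eq]
    cases Nat.beq M 0 <;> cases Nat.beq M 1 <;>
      simp [sp0, sp1, sp2, spl1H, spl2H, sgH_eq, sg, hz, Nat.zero_mod, Nat.add_eq, Nat.mod_eq]
  · have hb : Nat.beq (h1 + h2 + h3) 0 = false := by
      rw [← Bool.not_eq_true, Nat.beq_eq]; exact hS
    rw [hb, brec_eq, brec_eq]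
    simp only [cond_false]
    cases Nat.beq (M - M * h1 / (h1 + h2 + h3) - M * h2 / (h1 + h2 + h3) - M * h3 / (h1 + h2 + h3)) 0 <;>
      cases Nat.beq (M - M * h1 / (h1 + h2 + h3) - M * h2 / (h1 + h2 + h3) - M * h3 / (h1 + h2 + h3)) 1
    all_goals
      simp only [cond_false, cond_true]
      first
        | (show sgH _ _ _ _ _ _ _ = _; rw [sgH_eq])
        | (show spl1H _ _ _ _ _ _ _ _ _ = _
           unfold spl1H spl1
           simp only [sgH_eq]
           rfl)
        | (show spl2H _ _ _ _ _ _ _ _ _ _ = _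
           unfold spl2H spl2
           simp only [sgH_eq]
           rfl)

lemma pairH_eq (M W L : ℕ) (x l : Pt) : pairH M W L x l = pairC M W L x l := by
  unfold pairH pair3H pair9H pairC
  simp only [splitH_eq]
  rfl

/-- strict map to numbers -/
noncomputable def mapS {β : Type} (f : β → ℕ) (l : List β) : List ℕ :=
  List.rec (motive := fun _ => List ℕ) [] (fun x _ ih => frc (f x) fun v => v :: ih) l

lemma mapS_eq {β : Type} (f : β → ℕ) (l : List β) : mapS f l = l.map f := by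
  induction l with
  | nil => rfl
  | cons x l ih =>
    show frc (f x) (fun v => v :: mapS f l) = _
    rw [frc_eq, ih]; rfl

noncomputable def mkTabSF (M W L : ℕ) (A : List Pt) : List (List ℕ) :=
  List.rec (motive := fun _ => List (List ℕ)) []
    (fun x xs ih => mapS (fun l => pairH M W L x l) (x :: xs) :: ih) A

noncomputable def rowSF (row : List ℕ) : List ℕ → ℕ → ℕ :=
  List.rec (motive := fun _ => List ℕ → ℕ → ℕ) (fun _ acc => acc)
    (fun C _ ih ws acc =>
      List.rec (motive := fun _ => ℕ) acc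
        (fun w ws' _ => frc (Nat.add acc (Nat.mul w C)) fun a => ih ws' a) ws) row

noncomputable def tabSF (tab : List (List ℕ)) : List ℕ → ℕ → ℕ :=
  List.rec (motive := fun _ => List ℕ → ℕ → ℕ) (fun _ acc => acc)
    (fun r _ ih ws acc =>
      List.rec (motive := fun _ => ℕ) acc
        (fun w ws' _ =>
          frc (List.rec (motive := fun _ => ℕ) acc
            (fun C cs _ => Nat.add acc (Nat.mul w (Nat.add (Nat.mul w C)
              (Nat.mul (nat_lit 2) (rowSF cs ws' (nat_lit 0)))))) r) fun a => ih ws' a) ws) tab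

noncomputable def starSF (L B T D : ℕ) (tab : List (List ℕ)) (ks wA : List ℕ) : List ℕ :=
  frc (tabSF tab wA (nat_lit 0)) fun acc => roundF L B T D acc ks

noncomputable def levelSF (L B T1 T2 D : ℕ) (tabK tabR : List (List ℕ)) (ks ws : List ℕ) : List ℕ :=
  starSF L B T2 D tabR ks (starSF L B T1 D tabK ks ws)

noncomputable def levelsSF (L B T1 T2 D : ℕ) (tabK tabR : List (List ℕ)) (ks : List ℕ) (k : ℕ) : List ℕ → List ℕ :=
  Nat.rec (motive := fun _ => List ℕ → List ℕ) (fun ws => ws)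
    (fun _ ih ws => ih (levelSF L B T1 T2 D tabK tabR ks ws)) k

lemma mkTabSF_eq (M W L : ℕ) (A : List Pt) : mkTabSF M W L A = mkTabS M W L A := by
  induction A with
  | nil => rfl
  | cons x A ih =>
    show mapS (fun l => pairH M W L x l) (x :: A) :: mkTabSF M W L A = _
    rw [ih, mapS_eq]
    simp only [pairH_eq, mkTabS, List.map_cons]

lemma rowSF_eq : ∀ (row ws : List ℕ) (acc : ℕ), rowSF row ws acc = rowSum row ws acc := by
  intro row
  induction row with
  | nil =>
    intro ws acc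
    cases ws <;> rfl
  | cons C cs ih =>
    intro ws acc
    cases ws with
    | nil => rfl
    | cons w ws =>
      show frc (acc + w * C) (fun a => rowSF cs ws a) = _
      rw [frc_eq, ih]
      simp only [rowSum, force_eq]

/-- rows are never empty in a triangular table: the fast form agrees on it -/
lemma tabSF_eq (M W L : ℕ) : ∀ (A : List Pt) (ws : List ℕ) (acc : ℕ),
    tabSF (mkTabS M W L A) ws acc = tabSumS (mkTabS M W L A) ws acc := by
  intro A
  induction A with
  | nil =>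
    intro ws acc
    cases ws <;> rfl
  | cons x A ih =>
    intro ws acc
    cases ws with
    | nil => rfl
    | cons w ws =>
      show frc (acc + w * (w * pairC M W L x x
        + 2 * rowSF (A.map fun l => pairC M W L x l) ws 0)) (fun a => tabSF (mkTabS M W L A) ws a) = _
      rw [frc_eq, ih, rowSF_eq]
      simp only [mkTabS, tabSumS]

lemma starSF_eq (M W L T D : ℕ) (A : List Pt) (ks wA : List ℕ) :
    starSF L (2 ^ L) T D (mkTabS M W L A) ks wA = starS L T D (mkTabS M W L A) ks wA := by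
  show frc (tabSF (mkTabS M W L A) wA 0) (fun acc => roundF L (2 ^ L) T D acc ks)
    = roundL L T D (tabSumS (mkTabS M W L A) wA 0) ks
  rw [frc_eq, tabSF_eq]
  unfold roundF roundL
  simp only [mapN_eq]
  show (D - sumF _) :: _ = _
  rw [sumF_eq]
  rfl

lemma levelSF_eq (M W L T1 T2 D : ℕ) (A B : List Pt) (ks ws : List ℕ) :
    levelSF L (2 ^ L) T1 T2 D (mkTabS M W L A) (mkTabS M W L B) ks ws
      = levelS L T1 T2 D (mkTabS M W L A) (mkTabS M W L B) ks ws := by
  show starSF L (2 ^ L) T2 D (mkTabS M W L B) ks (starSF L (2 ^ L) T1 D (mkTabS M W L A) ks ws) = _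
  rw [starSF_eq, starSF_eq]
  rfl

lemma levelsSF_eq (M W L T1 T2 D : ℕ) (A B : List Pt) (ks : List ℕ) :
    ∀ (k : ℕ) (ws : List ℕ), levelsSF L (2 ^ L) T1 T2 D (mkTabS M W L A) (mkTabS M W L B) ks k ws
      = levelsS L T1 T2 D (mkTabS M W L A) (mkTabS M W L B) ks k ws := by
  intro k
  induction k with
  | zero => intro ws; rfl
  | succ k ih =>
    intro ws
    show levelsSF L (2 ^ L) T1 T2 D (mkTabS M W L A) (mkTabS M W L B) ks k
      (levelSF L (2 ^ L) T1 T2 D (mkTabS M W L A) (mkTabS M W L B) ks ws) = _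
    rw [ih, levelSF_eq]
    rfl

/-- a checkpoint of the orbit from a kernel computation -/
theorem Inv.check {N W L n D : ℕ} {ks : List ℕ} (S : Setup N W L n D ks) {K P : List Pt}
    (hP : P = ptsOf N W ks) (hK : K = P.map (tiltPt N)) {B T1 T2 : ℕ} (hB : B = 2 ^ L)
    (hT1 : T1 = 2 * (2 * N) * (2 * N) * D * D) (hT2 : T2 = 2 * N * N * D * D)
    {k m : ℕ} {ws ws' : List ℕ} (h : Inv N W D ks m ws)
    (hc : eqF (levelsSF L B T1 T2 D (mkTabSF N W L K) (mkTabSF N W L P) ks k ws) ws' = true) :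
    Inv N W D ks (m + k) ws' := by
  subst hP hK hB hT1 hT2
  have e := eqF_eq _ _ hc
  rw [mkTabSF_eq, mkTabSF_eq, levelsSF_eq] at e
  rw [← e]
  exact Inv.steps S k h

end Crest.Agent.Lib.Bc.GridO
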