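import Crest.Agent.Lib.Bc.Api
/-!
# Row 163: closed forms for `pow H c` (helper37's "hats").

For a law `H` and `c` i.i.d. children: `hm c o` = product of the masses of the children (the law of the
i.i.d. hats), `gp g c o` = product over the children of `g (post child)`, `ell c o i` =
product over the children of `q * x_i`. Then

* `hasSum_hm_gp`: `E_hats[∏_c g(x^c)] = (H.Φ g)^c`;
* `pow_w_hats`: `(pow H c).w o i = hm c o * ell c o i`;
* `Φ_pow_eq`: `(pow H c).Φ f = ∑' o, hm c o * Kz q f (ell c o)`, with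
  `Kz q f ℓ = Z * f (ℓ / ∑ℓ)`, `Z = (∑ ℓ) / q`;
* `Φ_pow_le_monomials` / `le_Φ_pow_monomials`: a pointwise bound of `Kz q f ℓ` by a polynomial in `ℓ`
  integrates to a closed form in `c`-th powers of single-child moments `H.Φ (monoFn q e)`.

No partial products, no pair inequalities. -/
open scoped BigOperators
namespace Crest.Agent.Lib.Bc
variable {q : ℕ}

/-- `Z * f (ℓ / ∑ ℓ)`, with `Z = (∑ ℓ) / q`: the integrand of `Φ` of a power in hat coordinates -/
noncomputable def Kz (q : ℕ) (f : (Fin q → ℝ) → ℝ) (ℓ : Fin q → ℝ) : ℝ :=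
  ((∑ i, ℓ i) / q) * f (fun i => ℓ i / ∑ j, ℓ j)

/-- the single-child monomial `∏ (q x_i)^(e i)` -/
noncomputable def monoFn (q : ℕ) (e : Fin q → ℕ) (x : Fin q → ℝ) : ℝ := ∏ i, ((q : ℝ) * x i) ^ e i

namespace SLaw
variable (H : SLaw q)

/-- product of the masses of the children -/
noncomputable def hm : (c : ℕ) → (pow H c).O → ℝ
  | 0, _ => 1
  | c + 1, o => let o' : (pow H c).O × H.O := o; hm c o'.1 * H.mass o'.2

/-- product over the children of `g (post child)` -/
noncomputable def gp (g : (Fin q → ℝ) → ℝ) : (c : ℕ) → (pow H c).O → ℝ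
  | 0, _ => 1
  | c + 1, o => let o' : (pow H c).O × H.O := o; gp g c o'.1 * g (H.post o'.2)

/-- product over the children of `q * x_i` -/
noncomputable def ell (c : ℕ) (o : (pow H c).O) (i : Fin q) : ℝ :=
  gp H (fun x => (q : ℝ) * x i) c o

lemma hm_nonneg (hq : 0 < q) : ∀ (c : ℕ) (o : (pow H c).O), 0 ≤ hm H c o
  | 0, _ => by simp [hm]
  | c + 1, o => mul_nonneg (hm_nonneg hq c _) (H.mass_nonneg hq _)

lemma gp_one : ∀ (c : ℕ) (o : (pow H c).O), gp H (fun _ => (1 : ℝ)) c o = 1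
  | 0, _ => rfl
  | c + 1, o => by
    show gp H (fun _ => (1 : ℝ)) c _ * 1 = 1
    rw [gp_one c, one_mul]

lemma gp_mul (g g' : (Fin q → ℝ) → ℝ) : ∀ (c : ℕ) (o : (pow H c).O),
    gp H (fun x => g x * g' x) c o = gp H g c o * gp H g' c o
  | 0, _ => by simp [gp]
  | c + 1, o => by
    show gp H (fun x => g x * g' x) c _ * (g _ * g' _) = (gp H g c _ * g _) * (gp H g' c _ * g' _)
    rw [gp_mul g g' c]
    ring

lemma gp_pow (g : (Fin q → ℝ) → ℝ) (n : ℕ) (c : ℕ) (o : (pow H c).O) :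
    gp H (fun x => g x ^ n) c o = gp H g c o ^ n := by
  induction n with
  | zero => simpa using gp_one H c o
  | succ n ih =>
    simp only [pow_succ]
    rw [gp_mul H (fun x => g x ^ n) g c o, ih]

lemma gp_prod {ι : Type*} (s : Finset ι) (g : ι → (Fin q → ℝ) → ℝ) (c : ℕ) (o : (pow H c).O) :
    gp H (fun x => ∏ k ∈ s, g k x) c o = ∏ k ∈ s, gp H (g k) c o := by
  classical
  induction s using Finset.induction_on with
  | empty => simpa using gp_one H c o
  | insert a s ha ih =>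
    simp only [Finset.prod_insert ha]
    rw [gp_mul H (g a) (fun x => ∏ k ∈ s, g k x) c o, ih]

lemma gp_monoFn (e : Fin q → ℕ) (c : ℕ) (o : (pow H c).O) :
    gp H (monoFn q e) c o = ∏ i, ell H c o i ^ e i := by
  unfold monoFn ell
  rw [show (fun x : Fin q → ℝ => ∏ i, ((q : ℝ) * x i) ^ e i)
      = fun x => ∏ i ∈ Finset.univ, (fun (i : Fin q) (x : Fin q → ℝ) => ((q : ℝ) * x i) ^ e i) i x from rfl]
  rw [gp_prod]
  exact Finset.prod_congr rfl fun i _ => gp_pow H _ _ c o

lemma ell_nonneg (hq : 0 < q) (i : Fin q) : ∀ (c : ℕ) (o : (pow H c).O), 0 ≤ ell H c o i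
  | 0, _ => by simp [ell, gp]
  | c + 1, o => by
    show 0 ≤ gp H (fun x => (q : ℝ) * x i) c _ * ((q : ℝ) * H.post _ i)
    exact mul_nonneg (ell_nonneg hq i c _)
      (mul_nonneg (Nat.cast_nonneg _) ((H.post_mem hq _).1 i))

lemma abs_gp_le (hq : 0 < q) {g : (Fin q → ℝ) → ℝ} {C : ℝ} (hC : ∀ x ∈ Simp q, |g x| ≤ C) :
    ∀ (c : ℕ) (o : (pow H c).O), |gp H g c o| ≤ C ^ c
  | 0, _ => by simp [gp]
  | c + 1, o => by
    have hC0 : 0 ≤ C := (abs_nonneg _).trans (hC _ (unif_mem_Simp hq))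
    show |gp H g c _ * g _| ≤ C ^ (c + 1)
    rw [abs_mul, pow_succ]
    exact mul_le_mul (abs_gp_le hq hC c _) (hC _ (H.post_mem hq _)) (abs_nonneg _) (pow_nonneg hC0 _)

/-- The hat law is a probability law. -/
lemma hasSum_hm (hq : 0 < q) : ∀ c : ℕ, HasSum (hm H c) 1
  | 0 => hasSum_unique (fun _ : Unit => (1 : ℝ))
  | c + 1 => by
    have h1 := hasSum_hm hq c
    have h2 := H.hasSum_mass hq
    have hs : Summable fun x : (pow H c).O × H.O => hm H c x.1 * H.mass x.2 :=
      h1.summable.mul_of_nonneg h2.summable (hm_nonneg H hq c) (H.mass_nonneg hq)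
    have h3 := h1.mul h2 hs
    rw [one_mul] at h3
    exact h3

/-- `E_hats[∏_c g(x^c)] = (H.Φ g)^c`, the basic closed form. -/
theorem hasSum_hm_gp (hq : 0 < q) {g : (Fin q → ℝ) → ℝ} (hg : BddS g) :
    ∀ c : ℕ, HasSum (fun o => hm H c o * gp H g c o) ((H.Φ g) ^ c)
  | 0 => by
    letI : Unique (pow H 0).O := inferInstanceAs (Unique Unit)
    have h := hasSum_unique (fun o : (pow H 0).O => hm H 0 o * gp H g 0 o)
    have e : hm H 0 default * gp H g 0 default = (H.Φ g) ^ 0 := by simp [hm, gp]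
    rwa [e] at h
  | c + 1 => by
    obtain ⟨C, hC⟩ := hg
    have hg' : BddS g := ⟨C, hC⟩
    have h1 := hasSum_hm_gp hq hg' c
    have h2 : HasSum (fun o => H.mass o * g (H.post o)) (H.Φ g) := (H.summable_Φ hq hg').hasSum
    have n1 : Summable fun o => ‖hm H c o * gp H g c o‖ := by
      refine Summable.of_nonneg_of_le (fun _ => norm_nonneg _) (fun o => ?_)
        ((hasSum_hm H hq c).summable.mul_right (C ^ c))
      rw [Real.norm_eq_abs, abs_mul, abs_of_nonneg (hm_nonneg H hq c o)]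
      exact mul_le_mul_of_nonneg_left (abs_gp_le H hq hC c o) (hm_nonneg H hq c o)
    have n2 : Summable fun o => ‖H.mass o * g (H.post o)‖ := by
      refine Summable.of_nonneg_of_le (fun _ => norm_nonneg _) (fun o => ?_)
        ((H.summable_mass hq).mul_right C)
      rw [Real.norm_eq_abs, abs_mul, abs_of_nonneg (H.mass_nonneg hq o)]
      exact mul_le_mul_of_nonneg_left (hC _ (H.post_mem hq o)) (H.mass_nonneg hq o)
    have hs : Summable fun x : (pow H c).O × H.O =>
        (hm H c x.1 * gp H g c x.1) * (H.mass x.2 * g (H.post x.2)) :=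
      summable_mul_of_summable_norm n1 n2
    have h3 := h1.mul h2 hs
    rw [pow_succ]
    have e : (fun x : (pow H c).O × H.O => hm H (c + 1) x * gp H g (c + 1) x)
        = fun x => (hm H c x.1 * gp H g c x.1) * (H.mass x.2 * g (H.post x.2)) := by
      funext x
      show (hm H c x.1 * H.mass x.2) * (gp H g c x.1 * g (H.post x.2)) = _
      ring
    show HasSum (fun x : (pow H c).O × H.O => hm H (c + 1) x * gp H g (c + 1) x) _
    rw [e]
    exact h3

lemma summable_hm_gp (hq : 0 < q) {g : (Fin q → ℝ) → ℝ} (hg : BddS g) (c : ℕ) :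
    Summable (fun o => hm H c o * gp H g c o) := (hasSum_hm_gp H hq hg c).summable

/-- the likelihoods of a power in hat coordinates -/
theorem pow_w_hats (hq : 0 < q) : ∀ (c : ℕ) (o : (pow H c).O) (i : Fin q),
    (pow H c).w o i = hm H c o * ell H c o i
  | 0, _, _ => by
    show (1 : ℝ) = 1 * 1
    norm_num
  | c + 1, o, i => by
    show (pow H c).w _ i * H.w _ i = (hm H c _ * H.mass _) * (gp H (fun x => (q : ℝ) * x i) c _ * ((q : ℝ) * H.post _ i))
    rw [pow_w_hats hq c, H.w_eq hq]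
    unfold ell
    ring

/-- `∑ w` of a power in hat coordinates -/
lemma pow_sum_w (hq : 0 < q) (c : ℕ) (o : (pow H c).O) :
    ∑ i, (pow H c).w o i = hm H c o * ∑ i, ell H c o i := by
  rw [Finset.mul_sum]
  exact Finset.sum_congr rfl fun i _ => pow_w_hats H hq c o i

lemma pow_mass (hq : 0 < q) (c : ℕ) (o : (pow H c).O) :
    (pow H c).mass o = hm H c o * ((∑ i, ell H c o i) / q) := by
  unfold mass
  rw [pow_sum_w H hq]
  ring

/-- one term of `Φ` of a power in hat coordinates -/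
lemma pow_term (hq : 0 < q) (f : (Fin q → ℝ) → ℝ) (c : ℕ) (o : (pow H c).O) :
    (pow H c).mass o * f ((pow H c).post o) = hm H c o * Kz q f (ell H c o) := by
  rw [pow_mass H hq]
  unfold Kz
  by_cases hm0 : hm H c o = 0
  · simp [hm0]
  by_cases hs0 : ∑ i, ell H c o i = 0
  · simp [hs0]
  have hW : ∑ j, (pow H c).w o j ≠ 0 := by
    rw [pow_sum_w H hq]
    exact mul_ne_zero hm0 hs0
  have hp : (pow H c).post o = fun i => ell H c o i / ∑ j, ell H c o j := by
    funext i
    show (if ∑ j, (pow H c).w o j = 0 then (1 : ℝ) / q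
      else (pow H c).w o i / ∑ j, (pow H c).w o j) = _
    rw [if_neg hW, pow_sum_w H hq, pow_w_hats H hq, mul_div_mul_left _ _ hm0]
  rw [hp]
  ring

/-- **Closed form**: `Φ` of a power as an expectation under the i.i.d. hats. -/
theorem Φ_pow_eq (hq : 0 < q) (f : (Fin q → ℝ) → ℝ) (c : ℕ) :
    (pow H c).Φ f = ∑' o, hm H c o * Kz q f (ell H c o) := by
  unfold Φ
  exact tsum_congr fun o => pow_term H hq f c o

lemma monoFn_bdd (_hq : 0 < q) (e : Fin q → ℕ) : BddS (monoFn q e) := by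
  refine ⟨∏ i, ((q : ℝ)) ^ e i, fun x hx => ?_⟩
  unfold monoFn
  rw [Finset.abs_prod]
  refine Finset.prod_le_prod (fun _ _ => abs_nonneg _) fun i _ => ?_
  rw [abs_pow]
  refine pow_le_pow_left₀ (abs_nonneg _) ?_ _
  rw [abs_of_nonneg (mul_nonneg (Nat.cast_nonneg _) (hx.1 i))]
  have h := Simp.le_one hx i
  have hq' : (0 : ℝ) ≤ q := Nat.cast_nonneg _
  nlinarith

/-- The expectation of a polynomial in the hat likelihoods, in closed form. -/
theorem hasSum_hm_poly (hq : 0 < q) {ι : Type*} (s : Finset ι) (a : ι → ℝ) (e : ι → Fin q → ℕ) (c : ℕ) :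
    HasSum (fun o => hm H c o * ∑ k ∈ s, a k * ∏ i, ell H c o i ^ e k i)
      (∑ k ∈ s, a k * (H.Φ (monoFn q (e k))) ^ c) := by
  have h : ∀ k ∈ s, HasSum (fun o => a k * (hm H c o * ∏ i, ell H c o i ^ e k i))
      (a k * (H.Φ (monoFn q (e k))) ^ c) := fun k _ => by
    refine HasSum.mul_left _ ?_
    have := hasSum_hm_gp H hq (monoFn_bdd (q := q) hq (e k)) c
    simpa only [gp_monoFn] using this
  have h2 := hasSum_sum h
  convert h2 using 1
  funext o
  rw [Finset.mul_sum]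
  exact Finset.sum_congr rfl fun k _ => by ring

/-- Upper bound by a polynomial in the hats. `f` must be bounded on the simplex. -/
theorem Φ_pow_le_poly (hq : 0 < q) {f : (Fin q → ℝ) → ℝ} (hf : BddS f) {ι : Type*} (s : Finset ι)
    (a : ι → ℝ) (e : ι → Fin q → ℕ) (c : ℕ)
    (hle : ∀ ℓ : Fin q → ℝ, (∀ i, 0 ≤ ℓ i) → Kz q f ℓ ≤ ∑ k ∈ s, a k * ∏ i, ℓ i ^ e k i) :
    (pow H c).Φ f ≤ ∑ k ∈ s, a k * (H.Φ (monoFn q (e k))) ^ c := by
  have h1 := ((pow H c).summable_Φ hq hf).hasSum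
  have h2 := hasSum_hm_poly H hq s a e c
  refine hasSum_le (fun o => ?_) h1 h2
  rw [pow_term H hq f c o]
  exact mul_le_mul_of_nonneg_left (hle _ fun i => ell_nonneg H hq i c o) (hm_nonneg H hq c o)

/-- Lower bound by a polynomial in the hats. -/
theorem le_Φ_pow_poly (hq : 0 < q) {f : (Fin q → ℝ) → ℝ} (hf : BddS f) {ι : Type*} (s : Finset ι)
    (a : ι → ℝ) (e : ι → Fin q → ℕ) (c : ℕ)
    (hle : ∀ ℓ : Fin q → ℝ, (∀ i, 0 ≤ ℓ i) → ∑ k ∈ s, a k * ∏ i, ℓ i ^ e k i ≤ Kz q f ℓ) :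
    ∑ k ∈ s, a k * (H.Φ (monoFn q (e k))) ^ c ≤ (pow H c).Φ f := by
  have h1 := ((pow H c).summable_Φ hq hf).hasSum
  have h2 := hasSum_hm_poly H hq s a e c
  refine hasSum_le (fun o => ?_) h2 h1
  rw [pow_term H hq f c o]
  exact mul_le_mul_of_nonneg_left (hle _ fun i => ell_nonneg H hq i c o) (hm_nonneg H hq c o)

/-- Single-child moments of a tilted law are moments of the untilted law (no symmetrisation). -/
theorem Φ_tilt_monoFn (hq : 0 < q) (M : SLaw q) (lam : ℝ)
    (h : ∀ i j : Fin q, 0 ≤ Crest.ProbabilityR.Broadcast.channel q lam i j) (e : Fin q → ℕ) :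
    (M.tilt lam h).Φ (monoFn q e) = M.Φ (fun x => monoFn q e (Tl q lam x)) :=
  M.Φ_tilt hq lam h (monoFn_bdd (q := q) hq e) (fun _ hx => Tl_mem hq lam h hx)

end SLaw
end Crest.Agent.Lib.Bc
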