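/-
Row 163 (S0244): final assembly.  Everything about `lam ≥ 0` (`Cert3.Hreg`, `Cert3.Hgw`), the large-degree
range (`LargeD`: `|lam| ≤ 3/16`, i.e. `b ≥ 29`, `d ≥ 28.45`) and the tail (`tail_leaf`, `tail_gw`) is wired here: what is left
are the exit statements `s_n < 1/25` at every critical `(b, lam)`, `5 ≤ b ≤ 28`, and `(d, lam)`, `4 ≤ d ≤ 2845/100`.
-/
import Crest.Agent.Lib.Bc.NegReduce
import Crest.Agent.Lib.Bc.LargeD.Law
import Crest.Agent.Lib.Bc.TailShort.Final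
import Crest.Agent.Lib.Bc.Cert3.Final

set_option autoImplicit false
open Filter Topology Crest Crest.ProbabilityR Crest.ProbabilityR.Broadcast

namespace Crest.Agent.Lib.Bc.Neg3Assembly

open Crest.Agent.Lib.Bc

theorem lam_bound {x lam : ℝ} (hx : (2845 / 100 : ℝ) ≤ x) (hl : lam < 0) (h : x * lam ^ 2 = 1) :
    -(3 / 16 : ℝ) ≤ lam := by
  have h2 : lam ^ 2 ≤ (3 / 16) ^ 2 := by
    have h3 : (2845 / 100 : ℝ) * lam ^ 2 ≤ x * lam ^ 2 := by
      exact mul_le_mul_of_nonneg_right hx (sq_nonneg _)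
    nlinarith
  nlinarith

/-- the critical regular case from the exits -/
theorem HB_of_exit
    (hx : ∀ b : ℕ, 5 ≤ b → b ≤ 28 → ∀ lam : ℝ, lam < 0 → (b : ℝ) * lam ^ 2 = 1 →
      ∀ hch : ∀ i j : Fin 3, 0 ≤ channel 3 lam i j,
      ∃ n, momS (leafSL 3 b lam n (by norm_num) hch) < 1 / 25)
    (b : ℕ) (hb : 5 ≤ b) (lam : ℝ) (hl : lam < 0) (hbl : (b : ℝ) * lam ^ 2 = 1) :
    Tendsto (advantage 3 b lam) atTop (𝓝 0) := by
  by_cases h : b ≤ 28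
  · have hb5 : (5 : ℝ) ≤ b := by exact_mod_cast hb
    have h1 : -(1 / 2 : ℝ) ≤ lam := by nlinarith [sq_nonneg (lam + 1 / 2)]
    have hch : ∀ i j : Fin 3, 0 ≤ channel 3 lam i j := fun i j =>
      channel_nonneg (q := 3) (by norm_num) (Or.inl (by norm_num; linarith)) (by linarith) i j
    exact Tail.Loose.tail_leaf TailShort.tailPairs (by omega) hl hbl hch (hx b hb h lam hl hbl hch)
  · have hb29 : (29 : ℝ) ≤ b := by exact_mod_cast (by omega : 29 ≤ b)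
    exact LargeD.advantage_tendsto (by omega) (lam_bound (by linarith) hl hbl) hl hbl.le

/-- the critical Poisson case from the exits -/
theorem HP_of_exit
    (hx : ∀ d : ℝ, ∀ hd4 : 4 ≤ d, d ≤ 2845 / 100 → ∀ lam : ℝ, lam < 0 → d * lam ^ 2 = 1 →
      ∀ hch : ∀ i j : Fin 3, 0 ≤ channel 3 lam i j,
      ∃ n, momS (gwSL 3 lam d n (by linarith) (by norm_num) hch) < 1 / 25)
    (d : ℝ) (hd : 4 ≤ d) (lam : ℝ) (hl : lam < 0) (hdl : d * lam ^ 2 = 1) :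
    Tendsto (gwAdvantage 3 lam d) atTop (𝓝 0) := by
  by_cases h : d ≤ 2845 / 100
  · have h1 : -(1 / 2 : ℝ) ≤ lam := by nlinarith [sq_nonneg (lam + 1 / 2)]
    have hch : ∀ i j : Fin 3, 0 ≤ channel 3 lam i j := fun i j =>
      channel_nonneg (q := 3) (by norm_num) (Or.inl (by norm_num; linarith)) (by linarith) i j
    exact Tail.Loose.tail_gw TailShort.tailPairs hd hl hdl hch (hx d hd h lam hl hdl hch)
  · exact LargeD.gwAdvantage_tendsto (by linarith) (lam_bound (by linarith) hl hdl) hl hdl.le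

/-- S0244 from: the `b = 4` case and the exits below `1/25`. -/
theorem S0244_of_exits
    (H4 : Tendsto (advantage 3 4 (-(1 / 2 : ℝ))) atTop (𝓝 0))
    (hxb : ∀ b : ℕ, 5 ≤ b → b ≤ 28 → ∀ lam : ℝ, lam < 0 → (b : ℝ) * lam ^ 2 = 1 →
      ∀ hch : ∀ i j : Fin 3, 0 ≤ channel 3 lam i j,
      ∃ n, momS (leafSL 3 b lam n (by norm_num) hch) < 1 / 25)
    (hxd : ∀ d : ℝ, ∀ hd4 : 4 ≤ d, d ≤ 2845 / 100 → ∀ lam : ℝ, lam < 0 → d * lam ^ 2 = 1 →
      ∀ hch : ∀ i j : Fin 3, 0 ≤ channel 3 lam i j,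
      ∃ n, momS (gwSL 3 lam d n (by linarith) (by norm_num) hch) < 1 / 25) :
    (∀ b : ℕ, 2 ≤ b → ∀ lam : ℝ, -(1 / 2 : ℝ) ≤ lam → lam ≤ 1 → (b : ℝ) * lam ^ 2 ≤ 1 →
      Filter.Tendsto (advantage 3 b lam) Filter.atTop (nhds 0)) ∧
    (∀ d : ℝ, 1 < d → ∀ lam : ℝ, -(1 / 2 : ℝ) ≤ lam → lam ≤ 1 → d * lam ^ 2 ≤ 1 →
      Filter.Tendsto (gwAdvantage 3 lam d) Filter.atTop (nhds 0)) :=
  S0244_of_parts Cert3.Hreg Cert3.Hgw H4 (HB_of_exit hxb) (HP_of_exit hxd)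

end Crest.Agent.Lib.Bc.Neg3Assembly
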