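import Crest.Agent.Lib.Bc.TvBounds
/-!
# Row 163: the pair bounds Q4III for `q = 4` (helper98)

For `x` in the simplex and `x'` with `Z_σ ≥ z0 > 0` for all relabellings:
`Esig f ≥ f + f' - 4 (π f' + π' f) - C (f² f' + f f'²)`, `|Esig π - π - π'| ≤ C f f'`, `|Esig f² - f² - f'²| ≤ C f f'`,
with `f = aFn 4`, `π = piFn`.  Exact expansion: `ξ = 4x - 1`, `ζ = 4 x'∘σ - 1`, `w = (1/4) ∑ ξ ζ`, `Z = 1 + w`,
`n_i = ξ_i + ζ_i + ξ_i ζ_i - w`, `4 y_i - 1 = n_i / Z`.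
-/
open scoped BigOperators
namespace Crest.Agent.Lib.Bc
namespace PIII

/-! ## Abstract remainders -/

section abstract
variable {P P' p p' w w12 w21 w22 w31 w13 w32 w23 w33 c3 c3' z0 : ℝ}

/-- constant of the first expansion -/
noncomputable def K1 (z0 : ℝ) : ℝ := 20 + 53 / z0

lemma rem1_bound (hp : 0 ≤ p) (hp' : 0 ≤ p') (hP : P = p ^ 2) (hP' : P' = p' ^ 2) (hp2 : p ≤ 2) (hp2' : p' ≤ 2)
    (hP3 : P ≤ 3) (hP3' : P' ≤ 3) (hw : |w| ≤ p * p') (h12 : |w12| ≤ 2 * (p * p') * p')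
    (h21 : |w21| ≤ 2 * (p * p') * p) (h22 : |w22| ≤ 4 * (p * p') ^ 2) (hz0 : 0 < z0) (hZ : z0 ≤ 1 + w) :
    |(P + P' + 2 * w + 2 * w12 + 2 * w21 + w22 - w ^ 2) / (1 + w)
      - (P + P' + 2 * w + 2 * w12 + 2 * w21 - (P + P') * w + w22 - 3 * w ^ 2 - 2 * w12 * w - 2 * w21 * w)|
      ≤ K1 z0 * ((p * p') ^ 2 * (P + P')) := by
  set t := p * p' with ht
  set B := P + P' with hB
  have ht0 : 0 ≤ t := mul_nonneg hp hp'
  have htB : 2 * t ≤ B := by rw [hB, hP, hP', ht]; nlinarith [sq_nonneg (p - p')]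
  have ht2 : t ^ 2 ≤ 9 := by
    have : t ^ 2 = P * P' := by rw [ht, hP, hP']; ring
    rw [this]
    have h0 : 0 ≤ P := by rw [hP]; positivity
    have h0' : 0 ≤ P' := by rw [hP']; positivity
    nlinarith
  have ht3 : t ≤ 3 := by nlinarith
  have hB0 : 0 ≤ B := by linarith
  have hZ0 : 0 < 1 + w := by linarith
  have hw2 : w ^ 2 ≤ t ^ 2 := by
    rw [← sq_abs w]; exact pow_le_pow_left₀ (abs_nonneg _) hw 2
  set E := 2 * w12 + 2 * w21 + w22 - w ^ 2 with hE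
  have h12' : |w12| ≤ 4 * t := by
    refine h12.trans ?_
    nlinarith
  have h21' : |w21| ≤ 4 * t := by
    refine h21.trans ?_
    nlinarith
  have h22' : |w22| ≤ 12 * t := by
    refine h22.trans ?_
    nlinarith
  have hw3 : w ^ 2 ≤ 3 * t := by nlinarith
  have hEb : |E| ≤ 31 * t := by
    have := abs_le.1 h12'
    have := abs_le.1 h21'
    have := abs_le.1 h22'
    have : 0 ≤ w ^ 2 := sq_nonneg w
    rw [hE, abs_le]
    constructor <;> linarith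
  have key : (P + P' + 2 * w + 2 * w12 + 2 * w21 + w22 - w ^ 2) / (1 + w)
      - (P + P' + 2 * w + 2 * w12 + 2 * w21 - (P + P') * w + w22 - 3 * w ^ 2 - 2 * w12 * w - 2 * w21 * w)
      = B * w ^ 2 + 3 * w ^ 3 - w22 * w + E * w ^ 2 - (B + 2 * w + E) * (w ^ 3 / (1 + w)) := by
    have : (1 + w) ≠ 0 := hZ0.ne'
    rw [hB, hE]
    field_simp
    ring
  rw [key]
  have hw' : |w| ≤ t := hw
  have a1 : |B * w ^ 2| ≤ B * t ^ 2 := by
    rw [abs_mul, abs_of_nonneg hB0, abs_of_nonneg (sq_nonneg w)]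
    exact mul_le_mul_of_nonneg_left hw2 hB0
  have hw3a : |w ^ 3| ≤ t ^ 3 := by
    rw [abs_pow]; exact pow_le_pow_left₀ (abs_nonneg _) hw' 3
  have ht3B : t ^ 3 ≤ B / 2 * t ^ 2 := by
    have : t ^ 3 = t * t ^ 2 := by ring
    rw [this]
    exact mul_le_mul_of_nonneg_right (by linarith) (sq_nonneg t)
  have a2 : |3 * w ^ 3| ≤ 3 / 2 * (B * t ^ 2) := by
    rw [abs_mul, abs_of_nonneg (by norm_num : (0 : ℝ) ≤ 3)]
    nlinarith
  have a3 : |w22 * w| ≤ 2 * (B * t ^ 2) := by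
    rw [abs_mul]
    have : |w22| * |w| ≤ 4 * t ^ 2 * t :=
      mul_le_mul h22 hw' (abs_nonneg _) (by positivity)
    nlinarith
  have a4 : |E * w ^ 2| ≤ 31 / 2 * (B * t ^ 2) := by
    rw [abs_mul, abs_of_nonneg (sq_nonneg w)]
    have : |E| * w ^ 2 ≤ 31 * t * t ^ 2 :=
      mul_le_mul hEb hw2 (sq_nonneg w) (by positivity)
    nlinarith
  have hM : |B + 2 * w + E| ≤ 35 / 2 * B := by
    have h1 := abs_le.1 hEb
    have h2 := abs_le.1 hw'
    rw [abs_le]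
    constructor <;> linarith
  have hz0' : 0 < 1 + w := hZ0
  have a5 : |(B + 2 * w + E) * (w ^ 3 / (1 + w))| ≤ 53 / z0 * (B * t ^ 2) := by
    rw [abs_mul, abs_div, abs_of_pos hz0']
    have h3 : |w ^ 3| ≤ 3 * t ^ 2 := by
      refine hw3a.trans ?_
      have : t ^ 3 = t * t ^ 2 := by ring
      rw [this]
      exact mul_le_mul_of_nonneg_right ht3 (sq_nonneg t)
    have h4 : |w ^ 3| / (1 + w) ≤ 3 * t ^ 2 / z0 :=
      div_le_div₀ (by positivity) h3 hz0 hZ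
    have h5 : |B + 2 * w + E| * (|w ^ 3| / (1 + w)) ≤ 35 / 2 * B * (3 * t ^ 2 / z0) :=
      mul_le_mul hM h4 (by positivity) (by positivity)
    refine h5.trans ?_
    have : 35 / 2 * B * (3 * t ^ 2 / z0) = (105 / 2) / z0 * (B * t ^ 2) := by ring
    rw [this]
    apply mul_le_mul_of_nonneg_right _ (by positivity)
    apply div_le_div_of_nonneg_right _ hz0.le
    norm_num
  have hK : K1 z0 * (t ^ 2 * B) = (1 + 3 / 2 + 2 + 31 / 2) * (B * t ^ 2) + 53 / z0 * (B * t ^ 2) := by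
    unfold K1; ring
  rw [hK]
  have := abs_le.1 a1
  have := abs_le.1 a2
  have := abs_le.1 a3
  have := abs_le.1 a4
  have := abs_le.1 a5
  rw [abs_le]
  constructor <;> linarith

/-- constant of the second expansion -/
noncomputable def K2 (z0 : ℝ) : ℝ := 2118 + 25200 / z0 ^ 2

lemma rem2_bound (hp : 0 ≤ p) (hp' : 0 ≤ p') (hP : P = p ^ 2) (hP' : P' = p' ^ 2) (hp2 : p ≤ 2) (hp2' : p' ≤ 2)
    (hP3 : P ≤ 3) (hP3' : P' ≤ 3) (hw : |w| ≤ p * p') (h12 : |w12| ≤ 2 * (p * p') * p')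
    (h21 : |w21| ≤ 2 * (p * p') * p) (h22 : |w22| ≤ 4 * (p * p') ^ 2)
    (h31 : |w31| ≤ 4 * p ^ 2 * (p * p')) (h13 : |w13| ≤ 4 * p' ^ 2 * (p * p'))
    (h32 : |w32| ≤ 8 * p * (p * p') ^ 2) (h23 : |w23| ≤ 8 * p' * (p * p') ^ 2)
    (h33 : |w33| ≤ 16 * (p * p') ^ 3)
    (hc : |c3| ≤ 12) (hc' : |c3'| ≤ 12) (hz0 : 0 < z0) (hZ : z0 ≤ 1 + w) :
    |(c3 + c3' + 3 * w21 + 3 * w12 + 3 * w31 + 6 * w22 + 3 * w13 + 3 * w32 + 3 * w23 + w33
        - 3 * w * (P + P' + 2 * w + 2 * w12 + 2 * w21 + w22) + 2 * w ^ 3) / (1 + w) ^ 2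
      - (c3 + c3' + 3 * w21 + 3 * w12 + 3 * w31 + 3 * w13 - 3 * w * (P + P') - 2 * w * (c3 + c3'))|
      ≤ K2 z0 * (p * p') ^ 2 := by
  set t := p * p' with ht
  set B := P + P' with hB
  have ht0 : 0 ≤ t := mul_nonneg hp hp'
  have h0 : 0 ≤ P := by rw [hP]; positivity
  have h0' : 0 ≤ P' := by rw [hP']; positivity
  have ht2 : t ^ 2 ≤ 9 := by
    have : t ^ 2 = P * P' := by rw [ht, hP, hP']; ring
    rw [this]
    nlinarith
  have ht3 : t ≤ 3 := by nlinarith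
  have hB6 : B ≤ 6 := by rw [hB]; linarith
  have hB0 : 0 ≤ B := by rw [hB]; linarith
  have hZ0 : 0 < 1 + w := by linarith
  have hw' : |w| ≤ t := hw
  have hw2 : w ^ 2 ≤ t ^ 2 := by
    rw [← sq_abs w]; exact pow_le_pow_left₀ (abs_nonneg _) hw 2
  have h12' : |w12| ≤ 4 * t := by refine h12.trans ?_; nlinarith
  have h21' : |w21| ≤ 4 * t := by refine h21.trans ?_; nlinarith
  have h22' : |w22| ≤ 4 * t ^ 2 := h22
  have h31' : |w31| ≤ 12 * t := by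
    refine h31.trans ?_
    have : p ^ 2 = P := hP.symm
    rw [this]; nlinarith
  have h13' : |w13| ≤ 12 * t := by
    refine h13.trans ?_
    have : p' ^ 2 = P' := hP'.symm
    rw [this]; nlinarith
  have h32' : |w32| ≤ 16 * t ^ 2 := by
    refine h32.trans ?_
    have := mul_le_mul_of_nonneg_right hp2 (sq_nonneg t)
    nlinarith
  have h23' : |w23| ≤ 16 * t ^ 2 := by
    refine h23.trans ?_
    have := mul_le_mul_of_nonneg_right hp2' (sq_nonneg t)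
    nlinarith
  have h33' : |w33| ≤ 48 * t ^ 2 := by
    refine h33.trans ?_
    have : t ^ 3 = t * t ^ 2 := by ring
    rw [this]
    have := mul_le_mul_of_nonneg_right ht3 (sq_nonneg t)
    nlinarith
  set E := 2 * w12 + 2 * w21 + w22 - w ^ 2 with hE
  have hEb : |E| ≤ 31 * t := by
    have := abs_le.1 h12'
    have := abs_le.1 h21'
    have := abs_le.1 h22'
    have h9 : 0 ≤ w ^ 2 := sq_nonneg w
    have h10 : w ^ 2 ≤ 3 * t := by nlinarith
    have h11 : t ^ 2 ≤ 3 * t := by nlinarith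
    rw [hE, abs_le]
    constructor <;> linarith
  set H := 6 * w22 + 3 * w32 + 3 * w23 + w33 - 6 * w ^ 2 - 3 * (w * E) - w ^ 3 with hH
  have hwE : |w * E| ≤ 31 * t ^ 2 := by
    rw [abs_mul]
    have := mul_le_mul hw' hEb (abs_nonneg _) ht0
    nlinarith
  have hw3 : |w ^ 3| ≤ 3 * t ^ 2 := by
    have h : |w ^ 3| ≤ t ^ 3 := by
      rw [abs_pow]; exact pow_le_pow_left₀ (abs_nonneg _) hw' 3
    refine h.trans ?_
    have e : t ^ 3 = t * t ^ 2 := by ring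
    rw [e]
    exact mul_le_mul_of_nonneg_right ht3 (sq_nonneg t)
  have hHb : |H| ≤ 270 * t ^ 2 := by
    have := abs_le.1 h22'
    have := abs_le.1 h32'
    have := abs_le.1 h23'
    have := abs_le.1 h33'
    have := abs_le.1 hwE
    have := abs_le.1 hw3
    have h9 : 0 ≤ w ^ 2 := sq_nonneg w
    have h10 : 0 ≤ t ^ 2 := sq_nonneg t
    rw [hH, abs_le]
    constructor <;> linarith
  set G := 3 * w21 + 3 * w12 + 3 * w31 + 3 * w13 - 3 * (w * B) with hG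
  have hwB : |w * B| ≤ 6 * t := by
    rw [abs_mul, abs_of_nonneg hB0]
    have := mul_le_mul hw' hB6 hB0 ht0
    linarith
  have hGb : |G| ≤ 114 * t := by
    have := abs_le.1 h12'
    have := abs_le.1 h21'
    have := abs_le.1 h31'
    have := abs_le.1 h13'
    have := abs_le.1 hwB
    rw [hG, abs_le]
    constructor <;> linarith
  have hwG : |w * G| ≤ 114 * t ^ 2 := by
    rw [abs_mul]
    have := mul_le_mul hw' hGb (abs_nonneg _) ht0
    nlinarith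
  have hwH : |w * H| ≤ 810 * t ^ 2 := by
    rw [abs_mul]
    have := mul_le_mul (hw'.trans ht3) hHb (abs_nonneg _) (by norm_num : (0 : ℝ) ≤ 3)
    nlinarith
  have key : (c3 + c3' + 3 * w21 + 3 * w12 + 3 * w31 + 6 * w22 + 3 * w13 + 3 * w32 + 3 * w23 + w33
        - 3 * w * (P + P' + 2 * w + 2 * w12 + 2 * w21 + w22) + 2 * w ^ 3) / (1 + w) ^ 2
      - (c3 + c3' + 3 * w21 + 3 * w12 + 3 * w31 + 3 * w13 - 3 * w * (P + P') - 2 * w * (c3 + c3'))
      = H - 2 * (w * G) - 2 * (w * H) + (c3 + c3' + G + H) * ((3 * w ^ 2 + 2 * w ^ 3) / (1 + w) ^ 2) := by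
    have : (1 + w) ≠ 0 := hZ0.ne'
    rw [hH, hG, hE, hB]
    field_simp
    ring
  rw [key]
  have hM : |c3 + c3' + G + H| ≤ 2800 := by
    have := abs_le.1 hc
    have := abs_le.1 hc'
    have := abs_le.1 hGb
    have := abs_le.1 hHb
    have h9 : t ^ 2 ≤ 9 := ht2
    rw [abs_le]
    constructor <;> nlinarith
  have hfrac : |(3 * w ^ 2 + 2 * w ^ 3) / (1 + w) ^ 2| ≤ 9 * t ^ 2 / z0 ^ 2 := by
    rw [abs_div, abs_of_pos (by positivity : 0 < (1 + w) ^ 2)]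
    have h1 : |3 * w ^ 2 + 2 * w ^ 3| ≤ 9 * t ^ 2 := by
      have := abs_le.1 hw3
      have h9 : 0 ≤ w ^ 2 := sq_nonneg w
      rw [abs_le]
      constructor <;> linarith
    exact div_le_div₀ (by positivity) h1 (by positivity) (pow_le_pow_left₀ hz0.le hZ 2)
  have hlast : |(c3 + c3' + G + H) * ((3 * w ^ 2 + 2 * w ^ 3) / (1 + w) ^ 2)| ≤ 25200 / z0 ^ 2 * t ^ 2 := by
    rw [abs_mul]
    have := mul_le_mul hM hfrac (abs_nonneg _) (by norm_num : (0 : ℝ) ≤ 2800)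
    refine this.trans (le_of_eq ?_)
    ring
  have hK : K2 z0 * t ^ 2 = 2118 * t ^ 2 + 25200 / z0 ^ 2 * t ^ 2 := by
    unfold K2; ring
  rw [hK]
  have := abs_le.1 hHb
  have := abs_le.1 hwG
  have := abs_le.1 hwH
  have := abs_le.1 hlast
  rw [abs_le]
  constructor <;> linarith

/-- constant of the third expansion -/
noncomputable def K3 (z0 : ℝ) : ℝ := 12140 + 630000 / z0 ^ 3

lemma rem3_bound (hp : 0 ≤ p) (hp' : 0 ≤ p') (hP : P = p ^ 2) (hP' : P' = p' ^ 2) (hp2 : p ≤ 2) (hp2' : p' ≤ 2)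
    (hP3 : P ≤ 3) (hP3' : P' ≤ 3) (hw : |w| ≤ p * p') (h12 : |w12| ≤ 2 * (p * p') * p')
    (h21 : |w21| ≤ 2 * (p * p') * p) (h22 : |w22| ≤ 4 * (p * p') ^ 2) (hz0 : 0 < z0) (hZ : z0 ≤ 1 + w) :
    |(P + P' + 2 * w + 2 * w12 + 2 * w21 + w22 - w ^ 2) ^ 2 / (1 + w) ^ 3
      - (P ^ 2 + P' ^ 2 + 4 * (P + P') * w + 4 * (P + P') * (w12 + w21) - 3 * w * (P + P') ^ 2)|
      ≤ K3 z0 * (p * p') ^ 2 := by
  set t := p * p' with ht
  set B := P + P' with hB
  have ht0 : 0 ≤ t := mul_nonneg hp hp'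
  have h0 : 0 ≤ P := by rw [hP]; positivity
  have h0' : 0 ≤ P' := by rw [hP']; positivity
  have htt : P * P' = t ^ 2 := by rw [ht, hP, hP']; ring
  have ht2 : t ^ 2 ≤ 9 := by
    rw [← htt]; nlinarith
  have ht3 : t ≤ 3 := by nlinarith
  have hB6 : B ≤ 6 := by rw [hB]; linarith
  have hB0 : 0 ≤ B := by rw [hB]; linarith
  have hZ0 : 0 < 1 + w := by linarith
  have hw' : |w| ≤ t := hw
  have hw2 : w ^ 2 ≤ t ^ 2 := by
    rw [← sq_abs w]; exact pow_le_pow_left₀ (abs_nonneg _) hw 2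
  have h12' : |w12| ≤ 4 * t := by refine h12.trans ?_; nlinarith
  have h21' : |w21| ≤ 4 * t := by refine h21.trans ?_; nlinarith
  have h22' : |w22| ≤ 4 * t ^ 2 := h22
  set E := 2 * w12 + 2 * w21 + w22 - w ^ 2 with hE
  have hEb : |E| ≤ 31 * t := by
    have := abs_le.1 h12'
    have := abs_le.1 h21'
    have := abs_le.1 h22'
    have h9 : 0 ≤ w ^ 2 := sq_nonneg w
    have h10 : w ^ 2 ≤ 3 * t := by nlinarith
    have h11 : t ^ 2 ≤ 3 * t := by nlinarith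
    rw [hE, abs_le]
    constructor <;> linarith
  set Y := 2 * w + E with hY
  have hYb : |Y| ≤ 33 * t := by
    have := abs_le.1 hEb
    have := abs_le.1 hw'
    rw [hY, abs_le]
    constructor <;> linarith
  have hY2 : Y ^ 2 ≤ 1089 * t ^ 2 := by
    rw [← sq_abs Y]
    have := pow_le_pow_left₀ (abs_nonneg Y) hYb 2
    nlinarith
  have hwBY : |w * (B * Y)| ≤ 198 * t ^ 2 := by
    rw [abs_mul, abs_mul, abs_of_nonneg hB0]
    have h1 : B * |Y| ≤ 6 * (33 * t) := mul_le_mul hB6 hYb (abs_nonneg _) (by norm_num)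
    have := mul_le_mul hw' h1 (by positivity) ht0
    nlinarith
  have hwY2 : |w * Y ^ 2| ≤ 3267 * t ^ 2 := by
    rw [abs_mul, abs_of_nonneg (sq_nonneg Y)]
    have := mul_le_mul (hw'.trans ht3) hY2 (sq_nonneg Y) (by norm_num : (0 : ℝ) ≤ 3)
    nlinarith
  have h2B : |B * (w22 - w ^ 2)| ≤ 30 * t ^ 2 := by
    rw [abs_mul, abs_of_nonneg hB0]
    have h1 : |w22 - w ^ 2| ≤ 5 * t ^ 2 := by
      have := abs_le.1 h22'
      have h9 : 0 ≤ w ^ 2 := sq_nonneg w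
      rw [abs_le]
      constructor <;> nlinarith
    have := mul_le_mul hB6 h1 (abs_nonneg _) (by norm_num : (0 : ℝ) ≤ 6)
    nlinarith
  have key : (P + P' + 2 * w + 2 * w12 + 2 * w21 + w22 - w ^ 2) ^ 2 / (1 + w) ^ 3
      - (P ^ 2 + P' ^ 2 + 4 * (P + P') * w + 4 * (P + P') * (w12 + w21) - 3 * w * (P + P') ^ 2)
      = 2 * (P * P') + 2 * (B * (w22 - w ^ 2)) + Y ^ 2 - 6 * (w * (B * Y)) - 3 * (w * Y ^ 2)
        + (B + Y) ^ 2 * ((6 * w ^ 2 + 8 * w ^ 3 + 3 * w ^ 4) / (1 + w) ^ 3) := by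
    have : (1 + w) ≠ 0 := hZ0.ne'
    rw [hY, hE, hB]
    field_simp
    ring
  rw [key, htt]
  have hM : (B + Y) ^ 2 ≤ 11025 := by
    have h1 : |B + Y| ≤ 105 := by
      have := abs_le.1 hYb
      rw [abs_le]
      constructor <;> linarith
    have := pow_le_pow_left₀ (abs_nonneg _) h1 2
    rw [sq_abs] at this
    linarith
  have hfrac : |(6 * w ^ 2 + 8 * w ^ 3 + 3 * w ^ 4) / (1 + w) ^ 3| ≤ 57 * t ^ 2 / z0 ^ 3 := by
    rw [abs_div, abs_of_pos (by positivity : 0 < (1 + w) ^ 3)]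
    have h1 : |6 * w ^ 2 + 8 * w ^ 3 + 3 * w ^ 4| ≤ 57 * t ^ 2 := by
      have h3 : |w ^ 3| ≤ 3 * t ^ 2 := by
        have h : |w ^ 3| ≤ t ^ 3 := by
          rw [abs_pow]; exact pow_le_pow_left₀ (abs_nonneg _) hw' 3
        refine h.trans ?_
        have e : t ^ 3 = t * t ^ 2 := by ring
        rw [e]
        exact mul_le_mul_of_nonneg_right ht3 (sq_nonneg t)
      have h4 : w ^ 4 ≤ 9 * t ^ 2 := by
        have e : w ^ 4 = w ^ 2 * w ^ 2 := by ring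
        have h9 : 0 ≤ w ^ 2 := sq_nonneg w
        have h10 : w ^ 2 ≤ 9 := hw2.trans ht2
        rw [e]
        exact mul_le_mul h10 hw2 h9 (by norm_num)
      have := abs_le.1 h3
      have h9 : 0 ≤ w ^ 2 := sq_nonneg w
      have h10 : 0 ≤ w ^ 4 := by positivity
      rw [abs_le]
      constructor <;> linarith
    exact div_le_div₀ (by positivity) h1 (by positivity) (pow_le_pow_left₀ hz0.le hZ 3)
  have hlast : |(B + Y) ^ 2 * ((6 * w ^ 2 + 8 * w ^ 3 + 3 * w ^ 4) / (1 + w) ^ 3)| ≤ 630000 / z0 ^ 3 * t ^ 2 := by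
    rw [abs_mul, abs_of_nonneg (sq_nonneg _)]
    have := mul_le_mul hM hfrac (abs_nonneg _) (by norm_num : (0 : ℝ) ≤ 11025)
    refine this.trans ?_
    have e : 11025 * (57 * t ^ 2 / z0 ^ 3) = (628425 / z0 ^ 3) * t ^ 2 := by ring
    rw [e]
    apply mul_le_mul_of_nonneg_right _ (sq_nonneg t)
    apply div_le_div_of_nonneg_right _ (by positivity)
    norm_num
  have hK : K3 z0 * t ^ 2 = 12140 * t ^ 2 + 630000 / z0 ^ 3 * t ^ 2 := by
    unfold K3; ring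
  rw [hK]
  have := abs_le.1 hwBY
  have := abs_le.1 hwY2
  have := abs_le.1 h2B
  have := abs_le.1 hlast
  have h9 : 0 ≤ Y ^ 2 := sq_nonneg Y
  have h10 : 0 ≤ t ^ 2 := sq_nonneg t
  rw [abs_le]
  constructor <;> linarith

end abstract

end PIII
end Crest.Agent.Lib.Bc
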