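import Crest.Agent.Lib.Bc.PolyFast
import Mathlib.Data.Real.Basic
import Mathlib.Tactic
/-!
# A polynomial in three variables is nonnegative on a box: Bernstein coefficients by `PolyFast` (helper62, row 163)

`T : Tab` is a table of terms `c Z^i u^j t^k`.  On a cell `a₁/n₁ ≤ Z ≤ b₁/n₁`, ... substitute `n₁ Z = a₁ l₁ + b₁ m₁`, `1 = l₁ + m₁`, ...:
the result is a polynomial in `l₁, m₁, l₂, m₂, l₃, m₃` (its coefficients are the Bernstein coefficients);
if all of them are nonnegative then `T` is nonnegative on the cell.  The kernel expands it with `PolyFast`.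
`tree_sound`: a subdivision tree with pruning by any hypothesis `K` on the points.
-/
set_option autoImplicit false
namespace Crest.Agent.Lib.Bc.PolyBox

open Crest.Agent.Lib.Bc.PolyFast

/-- a nonnegative coefficient -/
noncomputable def coefOK (c : Int) : Bool := Int.rec (fun _ => true) (fun _ => false) c

/-- all coefficients are nonnegative -/
noncomputable def allNN (p : P) : Bool :=
  P.rec (motive := fun _ => Bool) true (fun _ c _ r => Bool.rec false r (coefOK c)) p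

lemma coefOK_spec {c : Int} (h : coefOK c = true) : 0 ≤ c := by
  cases c with
  | ofNat n => exact Int.natCast_nonneg n
  | negSucc n => simp [coefOK] at h

lemma evalMon_nonneg (vs : List ℝ) (hvs : ∀ v ∈ vs, 0 ≤ v) (m : Nat) : 0 ≤ evalMon vs m := by
  induction vs generalizing m with
  | nil => simp [evalMon]
  | cons v vs ih =>
    simp only [evalMon]
    exact mul_nonneg (pow_nonneg (hvs v (by simp)) _) (ih (fun w hw => hvs w (by simp [hw])) _)

lemma sem_nonneg (vs : List ℝ) (hvs : ∀ v ∈ vs, 0 ≤ v) (p : P) (h : allNN p = true) : 0 ≤ sem vs p := by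
  induction p with
  | nil => simp [sem]
  | cons m c t ih =>
    have h' : (Bool.rec false (allNN t) (coefOK c) : Bool) = true := h
    cases hc : coefOK c with
    | false =>
      rw [hc] at h'
      simp at h'
    | true =>
      rw [hc] at h'
      simp only [sem]
      have hc0 : (0 : ℝ) ≤ (c : ℝ) := by exact_mod_cast coefOK_spec hc
      exact add_nonneg (mul_nonneg hc0 (evalMon_nonneg vs hvs m)) (ih h')

/-- `den vs e` is nonnegative if all the coefficients of `e` are nonnegative, all values being nonnegative -/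
theorem den_nonneg (n : Nat) (vs : List ℝ) (hn : vs.length = n) (hvs : ∀ v ∈ vs, 0 ≤ v) (e : E)
    (h : (varsLt n e && degOK e && allNN (toP e)) = true) : 0 ≤ den vs e := by
  subst hn
  simp only [Bool.and_eq_true] at h
  obtain ⟨⟨h1, h2⟩, h3⟩ := h
  rw [← (sem_toP vs e h1 h2).1]
  exact sem_nonneg vs hvs _ h3

/-- a table: terms `c Z^i u^j t^k` -/
abbrev Tab := List (Int × Nat × Nat × Nat)

/-- the value of a table -/
noncomputable def evalT : Tab → ℝ → ℝ → ℝ → ℝ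
  | [], _, _, _ => 0
  | t :: T, Z, u, s => (t.1 : ℝ) * (Z ^ t.2.1 * u ^ t.2.2.1 * s ^ t.2.2.2) + evalT T Z u s

/-- denominators and degrees -/
structure Dn where
  n1 : Nat
  n2 : Nat
  n3 : Nat
  d1 : Nat
  d2 : Nat
  d3 : Nat

/-- the cell `[a₁, b₁]/n₁ × [a₂, b₂]/n₂ × [a₃, b₃]/n₃` -/
structure Cell where
  a1 : Nat
  b1 : Nat
  a2 : Nat
  b2 : Nat
  a3 : Nat
  b3 : Nat

/-- one factor of a homogeneous monomial -/
noncomputable def fac (v : Nat) (n a b d i : Nat) : E :=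
  (E.num a * E.var v + E.num b * E.var (v + 1)) ^ i * (E.num n * (E.var v + E.var (v + 1))) ^ (d - i)

/-- the homogeneous form of a table on a cell -/
noncomputable def homE (g : Dn) (C : Cell) : Tab → E
  | [] => .num 0
  | t :: T => .num t.1 * (fac 0 g.n1 C.a1 C.b1 g.d1 t.2.1 * fac 2 g.n2 C.a2 C.b2 g.d2 t.2.2.1
      * fac 4 g.n3 C.a3 C.b3 g.d3 t.2.2.2) + homE g C T

/-- the degrees of a table are bounded -/
def degsOK (g : Dn) (T : Tab) : Bool :=
  T.all fun t => Nat.ble t.2.1 g.d1 && Nat.ble t.2.2.1 g.d2 && Nat.ble t.2.2.2 g.d3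

lemma den_fac (vs : List ℝ) (v : Nat) (n a b d i : Nat) (l m x : ℝ) (hl : vs.getD v 0 = l) (hm : vs.getD (v + 1) 0 = m)
    (h1 : l + m = 1) (h2 : (a : ℝ) * l + b * m = n * x) (hi : i ≤ d) :
    den vs (fac v n a b d i) = (n : ℝ) ^ d * x ^ i := by
  simp only [fac, den_mul', den_pow', den_add', den_var', den_num', hl, hm, Int.cast_natCast, h2, h1, mul_one]
  rw [mul_pow]
  have : (n : ℝ) ^ d = (n : ℝ) ^ i * (n : ℝ) ^ (d - i) := by
    rw [← pow_add, Nat.add_sub_cancel' hi]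
  rw [this]
  ring

/-- the barycentric coordinates of a point of a segment -/
lemma bary {a b n : Nat} {x : ℝ} (hab : a < b) (h1 : (a : ℝ) ≤ n * x) (h2 : (n : ℝ) * x ≤ b) :
    ∃ l m : ℝ, 0 ≤ l ∧ 0 ≤ m ∧ l + m = 1 ∧ (a : ℝ) * l + b * m = n * x := by
  have hab' : (0 : ℝ) < (b : ℝ) - a := by
    have : (a : ℝ) < b := by exact_mod_cast hab
    linarith
  refine ⟨((b : ℝ) - n * x) / ((b : ℝ) - a), ((n : ℝ) * x - a) / ((b : ℝ) - a), div_nonneg (by linarith) hab'.le,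
    div_nonneg (by linarith) hab'.le, ?_, ?_⟩
  · field_simp
    ring
  · field_simp
    ring

/-- the point is in the cell -/
def InCell (g : Dn) (C : Cell) (Z u s : ℝ) : Prop :=
  (C.a1 : ℝ) ≤ g.n1 * Z ∧ (g.n1 : ℝ) * Z ≤ C.b1 ∧ (C.a2 : ℝ) ≤ g.n2 * u ∧ (g.n2 : ℝ) * u ≤ C.b2 ∧
    (C.a3 : ℝ) ≤ g.n3 * s ∧ (g.n3 : ℝ) * s ≤ C.b3

/-- the check of a leaf -/
noncomputable def leafOK (g : Dn) (T : Tab) (C : Cell) : Bool :=
  Nat.blt C.a1 C.b1 && Nat.blt C.a2 C.b2 && Nat.blt C.a3 C.b3 &&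
    (varsLt 6 (homE g C T) && degOK (homE g C T) && allNN (toP (homE g C T)))

theorem leaf_sound (g : Dn) (T : Tab) (hT : degsOK g T = true) (hn1 : 0 < g.n1) (hn2 : 0 < g.n2) (hn3 : 0 < g.n3)
    (C : Cell) (h : leafOK g T C = true) (Z u s : ℝ) (hc : InCell g C Z u s) : 0 ≤ evalT T Z u s := by
  simp only [leafOK, Bool.and_eq_true, Nat.blt_eq] at h
  obtain ⟨⟨⟨h1, h2⟩, h3⟩, h4⟩ := h
  obtain ⟨c1, c2, c3, c4, c5, c6⟩ := hc
  obtain ⟨l1, m1, hl1, hm1, hs1, he1⟩ := bary h1 c1 c2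
  obtain ⟨l2, m2, hl2, hm2, hs2, he2⟩ := bary h2 c3 c4
  obtain ⟨l3, m3, hl3, hm3, hs3, he3⟩ := bary h3 c5 c6
  have hnn := den_nonneg 6 [l1, m1, l2, m2, l3, m3] rfl
    (by
      intro v hv
      simp only [List.mem_cons, List.not_mem_nil, or_false] at hv
      rcases hv with rfl | rfl | rfl | rfl | rfl | rfl <;> assumption)
    (homE g C T) (by simpa only [Bool.and_eq_true] using h4)
  have key : ∀ T' : Tab, degsOK g T' = true →
      den [l1, m1, l2, m2, l3, m3] (homE g C T') = (g.n1 : ℝ) ^ g.d1 * (g.n2 : ℝ) ^ g.d2 * (g.n3 : ℝ) ^ g.d3 * evalT T' Z u s := by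
    intro T' hT'
    induction T' with
    | nil => simp [homE, evalT, den_num']
    | cons t T' ih =>
      simp only [degsOK, List.all_cons, Bool.and_eq_true, Nat.ble_eq] at hT'
      obtain ⟨⟨⟨d1, d2⟩, d3⟩, hrest⟩ := hT'
      have f1 := den_fac [l1, m1, l2, m2, l3, m3] 0 g.n1 C.a1 C.b1 g.d1 t.2.1 l1 m1 Z rfl rfl hs1 he1 d1
      have f2 := den_fac [l1, m1, l2, m2, l3, m3] 2 g.n2 C.a2 C.b2 g.d2 t.2.2.1 l2 m2 u rfl rfl hs2 he2 d2
      have f3 := den_fac [l1, m1, l2, m2, l3, m3] 4 g.n3 C.a3 C.b3 g.d3 t.2.2.2 l3 m3 s rfl rfl hs3 he3 d3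
      simp only [homE, den_add', den_mul', den_num', f1, f2, f3, evalT, ih (by simpa [degsOK] using hrest)]
      ring
  rw [key T hT] at hnn
  have hpos : (0 : ℝ) < (g.n1 : ℝ) ^ g.d1 * (g.n2 : ℝ) ^ g.d2 * (g.n3 : ℝ) ^ g.d3 := by
    have : (0 : ℝ) < g.n1 := by exact_mod_cast hn1
    have : (0 : ℝ) < g.n2 := by exact_mod_cast hn2
    have : (0 : ℝ) < g.n3 := by exact_mod_cast hn3
    positivity
  exact nonneg_of_mul_nonneg_right hnn hpos

/-- subdivision trees -/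
inductive Tr : Type
  | leaf : Tr
  | prune : Tr
  | s1 (m : Nat) (l r : Tr) : Tr
  | s2 (m : Nat) (l r : Tr) : Tr
  | s3 (m : Nat) (l r : Tr) : Tr

/-- the check of a tree -/
noncomputable def trOK (g : Dn) (T : Tab) (pr : Cell → Bool) : Tr → Cell → Bool
  | .leaf, C => leafOK g T C
  | .prune, C => pr C
  | .s1 m l r, C => trOK g T pr l ⟨C.a1, m, C.a2, C.b2, C.a3, C.b3⟩ && trOK g T pr r ⟨m, C.b1, C.a2, C.b2, C.a3, C.b3⟩
  | .s2 m l r, C => trOK g T pr l ⟨C.a1, C.b1, C.a2, m, C.a3, C.b3⟩ && trOK g T pr r ⟨C.a1, C.b1, m, C.b2, C.a3, C.b3⟩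
  | .s3 m l r, C => trOK g T pr l ⟨C.a1, C.b1, C.a2, C.b2, C.a3, m⟩ && trOK g T pr r ⟨C.a1, C.b1, C.a2, C.b2, m, C.b3⟩

/-- **Soundness of a tree.** `K` is a constraint on the points; `pr` recognises cells without points satisfying it. -/
theorem tree_sound (g : Dn) (T : Tab) (hT : degsOK g T = true) (hn1 : 0 < g.n1) (hn2 : 0 < g.n2) (hn3 : 0 < g.n3)
    (K : ℝ → ℝ → ℝ → Prop) (pr : Cell → Bool)
    (hpr : ∀ C, pr C = true → ∀ Z u s, InCell g C Z u s → K Z u s → False) (tr : Tr) :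
    ∀ C : Cell, trOK g T pr tr C = true → ∀ Z u s, InCell g C Z u s → K Z u s → 0 ≤ evalT T Z u s := by
  induction tr with
  | leaf =>
    intro C h Z u s hc _
    exact leaf_sound g T hT hn1 hn2 hn3 C h Z u s hc
  | prune =>
    intro C h Z u s hc hK
    exact (hpr C h Z u s hc hK).elim
  | s1 m l r ihl ihr =>
    intro C h Z u s hc hK
    simp only [trOK, Bool.and_eq_true] at h
    obtain ⟨c1, c2, c3, c4, c5, c6⟩ := hc
    rcases le_total ((g.n1 : ℝ) * Z) (m : ℝ) with hm | hm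
    · exact ihl _ h.1 Z u s ⟨c1, hm, c3, c4, c5, c6⟩ hK
    · exact ihr _ h.2 Z u s ⟨hm, c2, c3, c4, c5, c6⟩ hK
  | s2 m l r ihl ihr =>
    intro C h Z u s hc hK
    simp only [trOK, Bool.and_eq_true] at h
    obtain ⟨c1, c2, c3, c4, c5, c6⟩ := hc
    rcases le_total ((g.n2 : ℝ) * u) (m : ℝ) with hm | hm
    · exact ihl _ h.1 Z u s ⟨c1, c2, c3, hm, c5, c6⟩ hK
    · exact ihr _ h.2 Z u s ⟨c1, c2, hm, c4, c5, c6⟩ hK
  | s3 m l r ihl ihr =>
    intro C h Z u s hc hK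
    simp only [trOK, Bool.and_eq_true] at h
    obtain ⟨c1, c2, c3, c4, c5, c6⟩ := hc
    rcases le_total ((g.n3 : ℝ) * s) (m : ℝ) with hm | hm
    · exact ihl _ h.1 Z u s ⟨c1, c2, c3, c4, c5, hm⟩ hK
    · exact ihr _ h.2 Z u s ⟨c1, c2, c3, c4, hm, c6⟩ hK

/-- example: `Z² - 2 Z u + u² + 1/10 ≥ 0` type check on one cell -/
example : ∀ Z u : ℝ, 0 ≤ Z → Z ≤ 1 → 0 ≤ u → u ≤ 1 → 0 ≤ evalT [(1, 2, 0, 0), (-1, 1, 1, 0), (1, 0, 2, 0), (1, 0, 0, 0)] Z u 0 := by
  intro Z u h1 h2 h3 h4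
  refine tree_sound ⟨1, 1, 1, 2, 2, 0⟩ _ (by decide) (by decide) (by decide) (by decide) (fun _ _ _ => True) (fun _ => false)
    (by simp) .leaf ⟨0, 1, 0, 1, 0, 1⟩ (by decide +kernel) Z u 0 ?_ trivial
  simp only [InCell]
  norm_num
  exact ⟨h1, h2, h3, h4⟩

end Crest.Agent.Lib.Bc.PolyBox
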