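import Mathlib.Algebra.Ring.Basic
import Mathlib.Data.Int.Cast.Lemmas
import Mathlib.Algebra.BigOperators.Group.List.Basic
import Mathlib.Tactic.Ring
import Mathlib.Tactic.Linarith
import Mathlib.Tactic.LinearCombination
/-!
# A verified reflective polynomial normalizer for the kernel (helper98)

`ring` needs about 110 s for a product with 1000 monomials in the result.  Here a polynomial is a sorted list of terms
whose monomial is ONE natural number (base `B` digits are the exponents), so multiplying monomials is one `Nat.add` and
comparing them is one `Nat.blt`, both GMP accelerated in the kernel.  About 40000 merge steps per second.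

Usage: see the example at the end of the file.
`lhsE, rhsE : E` are written with the same text as the real expressions, with `E.var i` for the variables and `E.num k`
for integer constants (instances `Add, Sub, Mul, Neg, Pow` are provided).  The result holds in every commutative ring.
Rational coefficients: clear denominators first.
-/

set_option autoImplicit false

namespace Crest.Agent.Lib.Bc.PolyFast

/-- sparse polynomial: terms sorted by decreasing monomial code -/
inductive P : Type
  | nil : P
  | cons (m : Nat) (c : Int) (t : P) : P

/-- base of the exponent digits -/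
abbrev B : Nat := 4096

/-- inner merge: insert the head `(m,c)` with tail-merge `ih` into the second list -/
noncomputable def mergeIn (m : Nat) (c : Int) (t : P) (ih : P → P) (q : P) : P :=
  P.rec (motive := fun _ => P) (P.cons m c t)
    (fun m' c' t' r =>
      Bool.rec
        (Bool.rec
          (let s := Int.add c c'
           Bool.rec (P.cons m s (ih t')) (ih t') (Int.beq' s 0))
          (P.cons m c (ih (P.cons m' c' t')))
          (Nat.blt m' m))
        (P.cons m' c' r)
        (Nat.blt m m'))
    q

/-- merge of two sorted polynomials -/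
noncomputable def add (p q : P) : P :=
  P.rec (motive := fun _ => P → P) (fun q => q) (fun m c t ih q => mergeIn m c t ih q) p q

/-- multiply by a term (keeps the order) -/
noncomputable def mulT (m : Nat) (c : Int) (p : P) : P :=
  P.rec (motive := fun _ => P) P.nil (fun m' c' _ r => P.cons (Nat.add m m') (Int.mul c c') r) p

/-- the polynomials `t * q`, for the terms `t` of `p` -/
noncomputable def parts (p q : P) : List P :=
  P.rec (motive := fun _ => List P) [] (fun m c _ r => mulT m c q :: r) p

/-- one round of pairwise merges -/
noncomputable def round (l : List P) : List P :=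
  (List.rec (motive := fun _ => Option P → List P)
    (fun o => Option.rec [] (fun x => [x]) o)
    (fun a _ ih o => Option.rec (ih (some a)) (fun x => add x a :: ih none) o)
    l) none

/-- merge all the polynomials in a list: `fuel` rounds, then a plain fold -/
noncomputable def mergeAll (fuel : Nat) (l : List P) : P :=
  (Nat.rec (motive := fun _ => List P → List P) (fun l => l) (fun _ ih l => ih (round l)) fuel l).foldr add P.nil

/-- product, with balanced merges -/
noncomputable def mul (p q : P) : P := mergeAll 32 (parts p q)

/-- power -/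
noncomputable def pow (p : P) (k : Nat) : P :=
  Nat.rec (P.cons 0 1 P.nil) (fun _ r => mul p r) k

/-- expressions -/
inductive E : Type
  | num (k : Int) : E
  | var (i : Nat) : E
  | add (a b : E) : E
  | sub (a b : E) : E
  | neg (a : E) : E
  | mul (a b : E) : E
  | pow (a : E) (k : Nat) : E

instance : Add E := ⟨E.add⟩
instance : Sub E := ⟨E.sub⟩
instance : Mul E := ⟨E.mul⟩
instance : Neg E := ⟨E.neg⟩
instance : Pow E Nat := ⟨E.pow⟩

/-- the polynomial of an expression -/
noncomputable def toP (e : E) : P :=
  E.rec (motive := fun _ => P)
    (fun k => Bool.rec (P.cons 0 k P.nil) P.nil (Int.beq' k 0))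
    (fun i => P.cons (Nat.pow B i) 1 P.nil)
    (fun _ _ a b => add a b)
    (fun _ _ a b => add a (mulT 0 (-1) b))
    (fun _ a => mulT 0 (-1) a)
    (fun _ _ a b => mul a b)
    (fun _ k a => pow a k)
    e

/-- equality test -/
noncomputable def beqP (p q : P) : Bool :=
  P.rec (motive := fun _ => P → Bool)
    (fun q => P.rec (motive := fun _ => Bool) true (fun _ _ _ _ => false) q)
    (fun m c _ ih q => P.rec (motive := fun _ => Bool) false
      (fun m' c' t' _ => Bool.rec false (Bool.rec false (ih t') (Int.beq' c c')) (Nat.beq m m')) q)
    p q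

/-- a bound for the total degree -/
def degE : E → Nat
  | .num _ => 0
  | .var _ => 1
  | .add a b => Nat.max (degE a) (degE b)
  | .sub a b => Nat.max (degE a) (degE b)
  | .neg a => degE a
  | .mul a b => degE a + degE b
  | .pow a k => k * degE a

/-- all variables are below `n` -/
def varsLt (n : Nat) : E → Bool
  | .num _ => true
  | .var i => Nat.blt i n
  | .add a b => varsLt n a && varsLt n b
  | .sub a b => varsLt n a && varsLt n b
  | .neg a => varsLt n a
  | .mul a b => varsLt n a && varsLt n b
  | .pow a _ => varsLt n a

/-- no exponent overflow in the subexpressions -/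
def degOK : E → Bool
  | .num _ => true
  | .var _ => true
  | .add a b => degOK a && degOK b
  | .sub a b => degOK a && degOK b
  | .neg a => degOK a
  | .mul a b => degOK a && degOK b && Nat.blt (degE a + degE b) B
  | .pow a k => degOK a && Nat.blt (k * degE a) B

/-- the full check -/
noncomputable def check (n : Nat) (a b : E) : Bool :=
  varsLt n a && varsLt n b && degOK a && degOK b && beqP (toP a) (toP b)

/-! ## Semantics -/

section sem
variable {R : Type*} [CommRing R]

/-- the value of a monomial -/
def evalMon : List R → Nat → R
  | [], _ => 1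
  | v :: vs, m => v ^ (m % B) * evalMon vs (m / B)

/-- digit sum -/
def dsum : List R → Nat → Nat
  | [], _ => 0
  | _ :: vs, m => m % B + dsum vs (m / B)

/-- the value of a polynomial -/
def sem (vs : List R) : P → R
  | .nil => 0
  | .cons m c t => (c : R) * evalMon vs m + sem vs t

/-- the value of an expression -/
def den (vs : List R) : E → R
  | .num k => (k : R)
  | .var i => vs.getD i 0
  | .add a b => den vs a + den vs b
  | .sub a b => den vs a - den vs b
  | .neg a => - den vs a
  | .mul a b => den vs a * den vs b
  | .pow a k => den vs a ^ k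

/-- degree bound on a polynomial -/
def Dg (vs : List R) (d : Nat) : P → Prop
  | .nil => True
  | .cons m _ t => dsum vs m ≤ d ∧ Dg vs d t

lemma evalMon_add (vs : List R) (m₁ m₂ : Nat) (h : dsum vs m₁ + dsum vs m₂ < B) :
    evalMon vs (m₁ + m₂) = evalMon vs m₁ * evalMon vs m₂ ∧ dsum vs (m₁ + m₂) = dsum vs m₁ + dsum vs m₂ := by
  induction vs generalizing m₁ m₂ with
  | nil => simp [evalMon, dsum]
  | cons v vs ih =>
    simp only [dsum] at h
    have h' : m₁ % 4096 + dsum vs (m₁ / 4096) + (m₂ % 4096 + dsum vs (m₂ / 4096)) < 4096 := h
    have h1 : (m₁ + m₂) % B = m₁ % B + m₂ % B := by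
      show (m₁ + m₂) % 4096 = m₁ % 4096 + m₂ % 4096
      omega
    have h2 : (m₁ + m₂) / B = m₁ / B + m₂ / B := by
      show (m₁ + m₂) / 4096 = m₁ / 4096 + m₂ / 4096
      omega
    obtain ⟨ih1, ih2⟩ := ih (m₁ / B) (m₂ / B) (by
      show dsum vs (m₁ / 4096) + dsum vs (m₂ / 4096) < 4096
      omega)
    constructor
    · simp only [evalMon]
      rw [h1, h2, ih1, pow_add]
      ring
    · simp only [dsum]
      rw [h1, h2, ih2]
      omega

lemma dsum_zero (vs : List R) : dsum vs 0 = 0 := by
  induction vs with
  | nil => rfl
  | cons v vs ih => simp [dsum, ih]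

lemma evalMon_zero (vs : List R) : evalMon vs 0 = 1 := by
  induction vs with
  | nil => rfl
  | cons v vs ih => simp [evalMon, ih]

lemma var_facts (vs : List R) (i : Nat) (hi : i < vs.length) :
    evalMon vs (B ^ i) = vs.getD i 0 ∧ dsum vs (B ^ i) ≤ 1 := by
  induction vs generalizing i with
  | nil => simp at hi
  | cons v vs ih =>
    cases i with
    | zero =>
      have h1 : B ^ 0 % B = 1 := by norm_num [B]
      have h2 : B ^ 0 / B = 0 := by norm_num [B]
      simp only [evalMon, dsum, h1, h2, pow_one, dsum_zero, evalMon_zero, mul_one, List.getD_cons_zero]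
      exact ⟨trivial, le_refl _⟩
    | succ i =>
      have h1 : B ^ (i + 1) % B = 0 := by
        rw [pow_succ]; exact Nat.mul_mod_left _ _
      have h2 : B ^ (i + 1) / B = B ^ i := by
        rw [pow_succ]; exact Nat.mul_div_cancel _ (by norm_num)
      obtain ⟨a, b⟩ := ih i (by simpa using hi)
      simp only [evalMon, dsum, h1, h2, a, pow_zero, one_mul, zero_add, List.getD_cons_succ]
      exact ⟨trivial, b⟩

lemma Dg_mono {vs : List R} {d d' : Nat} (h : d ≤ d') {p : P} (hp : Dg vs d p) : Dg vs d' p := by
  induction p with
  | nil => trivial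
  | cons m c t ih => exact ⟨hp.1.trans h, ih hp.2⟩

lemma mergeIn_nil (m : Nat) (c : Int) (t : P) (ih : P → P) : mergeIn m c t ih .nil = .cons m c t := rfl

lemma mergeIn_cons (m : Nat) (c : Int) (t : P) (ih : P → P) (m' : Nat) (c' : Int) (t' : P) :
    mergeIn m c t ih (.cons m' c' t') =
      Bool.rec
        (Bool.rec
          (let s := Int.add c c'
           Bool.rec (P.cons m s (ih t')) (ih t') (Int.beq' s 0))
          (P.cons m c (ih (P.cons m' c' t')))
          (Nat.blt m' m))
        (P.cons m' c' (mergeIn m c t ih t'))
        (Nat.blt m m') := rfl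

lemma mergeIn_gt {m m' : Nat} (c c' : Int) (t t' : P) (ih : P → P) (h : Nat.blt m m' = true) :
    mergeIn m c t ih (.cons m' c' t') = .cons m' c' (mergeIn m c t ih t') := by
  rw [mergeIn_cons, h]

lemma mergeIn_lt {m m' : Nat} (c c' : Int) (t t' : P) (ih : P → P) (h : Nat.blt m m' = false) (h2 : Nat.blt m' m = true) :
    mergeIn m c t ih (.cons m' c' t') = .cons m c (ih (.cons m' c' t')) := by
  rw [mergeIn_cons, h, h2]

lemma mergeIn_eq1 {m m' : Nat} (c c' : Int) (t t' : P) (ih : P → P) (h : Nat.blt m m' = false) (h2 : Nat.blt m' m = false)
    (h3 : Int.beq' (Int.add c c') 0 = false) :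
    mergeIn m c t ih (.cons m' c' t') = .cons m (Int.add c c') (ih t') := by
  rw [mergeIn_cons, h, h2]
  show Bool.rec (motive := fun _ => P) (P.cons m (Int.add c c') (ih t')) (ih t') (Int.beq' (Int.add c c') 0) = _
  rw [h3]

lemma mergeIn_eq2 {m m' : Nat} (c c' : Int) (t t' : P) (ih : P → P) (h : Nat.blt m m' = false) (h2 : Nat.blt m' m = false)
    (h3 : Int.beq' (Int.add c c') 0 = true) :
    mergeIn m c t ih (.cons m' c' t') = ih t' := by
  rw [mergeIn_cons, h, h2]
  show Bool.rec (motive := fun _ => P) (P.cons m (Int.add c c') (ih t')) (ih t') (Int.beq' (Int.add c c') 0) = _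
  rw [h3]

lemma add_nil (q : P) : add .nil q = q := rfl

lemma add_cons (m : Nat) (c : Int) (t q : P) : add (.cons m c t) q = mergeIn m c t (add t) q := rfl

lemma nat_blt_true {a b : Nat} (h : Nat.blt a b = true) : a < b := by
  have : Nat.ble (a + 1) b = true := h
  exact Nat.le_of_ble_eq_true this

lemma eq_of_blt {a b : Nat} (h1 : Nat.blt a b = false) (h2 : Nat.blt b a = false) : a = b := by
  have h3 : ¬ a < b := fun h => by
    have : Nat.ble (a + 1) b = true := Nat.ble_eq_true_of_le h
    have h4 : Nat.blt a b = true := this
    rw [h1] at h4; cases h4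
  have h4 : ¬ b < a := fun h => by
    have : Nat.ble (b + 1) a = true := Nat.ble_eq_true_of_le h
    have h5 : Nat.blt b a = true := this
    rw [h2] at h5; cases h5
  omega

lemma int_beq_true {a b : Int} (h : Int.beq' a b = true) : a = b := by
  rw [Int.beq'_eq_beq] at h
  simpa using h

/-- merging keeps the sum -/
theorem sem_add (vs : List R) (p q : P) : sem vs (add p q) = sem vs p + sem vs q := by
  induction p generalizing q with
  | nil => simp [add_nil, sem]
  | cons m c t ih =>
    rw [add_cons]
    induction q with
    | nil => simp [mergeIn_nil, sem]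
    | cons m' c' t' ih' =>
      cases h1 : Nat.blt m m' with
      | true =>
        rw [mergeIn_gt c c' t t' _ h1]
        simp only [sem]
        rw [ih']
        simp only [sem]
        ring
      | false =>
        cases h2 : Nat.blt m' m with
        | true =>
          rw [mergeIn_lt c c' t t' _ h1 h2]
          simp only [sem]
          rw [ih]
          simp only [sem]
          ring
        | false =>
          have hm := eq_of_blt h1 h2
          subst hm
          cases h3 : Int.beq' (Int.add c c') 0 with
          | false =>
            rw [mergeIn_eq1 c c' t t' _ h1 h2 h3]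
            simp only [sem]
            rw [ih]
            have e : ((Int.add c c' : Int) : R) = (c : R) + (c' : R) := by
              show ((c + c' : Int) : R) = _
              push_cast; rfl
            rw [e]
            ring
          | true =>
            rw [mergeIn_eq2 c c' t t' _ h1 h2 h3]
            have h4 := int_beq_true h3
            have h5 : (c : R) + (c' : R) = 0 := by
              have h6 : c + c' = 0 := h4
              have : ((c + c' : Int) : R) = 0 := by rw [h6]; simp
              simpa using this
            rw [ih]
            simp only [sem]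
            linear_combination (-(evalMon vs m)) * h5

theorem Dg_add {vs : List R} {d : Nat} {p q : P} (hp : Dg vs d p) (hq : Dg vs d q) : Dg vs d (add p q) := by
  induction p generalizing q with
  | nil => exact hq
  | cons m c t ih =>
    rw [add_cons]
    induction q with
    | nil => exact hp
    | cons m' c' t' ih' =>
      cases h1 : Nat.blt m m' with
      | true =>
        rw [mergeIn_gt c c' t t' _ h1]
        exact ⟨hq.1, ih' hq.2⟩
      | false =>
        cases h2 : Nat.blt m' m with
        | true =>
          rw [mergeIn_lt c c' t t' _ h1 h2]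
          exact ⟨hp.1, ih hp.2 hq⟩
        | false =>
          cases h3 : Int.beq' (Int.add c c') 0 with
          | false =>
            rw [mergeIn_eq1 c c' t t' _ h1 h2 h3]
            exact ⟨hp.1, ih hp.2 hq.2⟩
          | true =>
            rw [mergeIn_eq2 c c' t t' _ h1 h2 h3]
            exact ih hp.2 hq.2

theorem sem_mulT (vs : List R) {m : Nat} {d d' : Nat} (c : Int) {q : P} (hm : dsum vs m ≤ d) (hq : Dg vs d' q) (hd : d + d' < B) :
    sem vs (mulT m c q) = (c : R) * evalMon vs m * sem vs q ∧ Dg vs (d + d') (mulT m c q) := by
  induction q with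
  | nil =>
    constructor
    · show (0 : R) = _ * sem vs P.nil
      simp [sem]
    · trivial
  | cons m' c' t ih =>
    obtain ⟨i1, i2⟩ := ih hq.2
    have h := evalMon_add vs m m' (by have := hq.1; omega)
    constructor
    · show ((Int.mul c c' : Int) : R) * evalMon vs (Nat.add m m') + sem vs (mulT m c t) = _
      rw [i1]
      have e1 : ((Int.mul c c' : Int) : R) = (c : R) * (c' : R) := by
        show ((c * c' : Int) : R) = _
        push_cast; rfl
      have e2 : evalMon vs (Nat.add m m') = evalMon vs m * evalMon vs m' := h.1
      rw [e1, e2]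
      simp only [sem]
      ring
    · refine ⟨?_, i2⟩
      have e3 : dsum vs (Nat.add m m') = dsum vs m + dsum vs m' := h.2
      show dsum vs (Nat.add m m') ≤ _
      have := hq.1
      omega

theorem sem_parts (vs : List R) {p q : P} {d d' : Nat} (hp : Dg vs d p) (hq : Dg vs d' q) (hd : d + d' < B) :
    ((parts p q).map (sem vs)).sum = sem vs p * sem vs q ∧ ∀ x ∈ parts p q, Dg vs (d + d') x := by
  induction p with
  | nil =>
    constructor
    · show (([] : List P).map (sem vs)).sum = sem vs P.nil * _
      simp [sem]
    · intro x hx
      exact absurd hx (by show x ∉ ([] : List P); simp)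
  | cons m c t ih =>
    obtain ⟨i1, i2⟩ := ih hp.2
    obtain ⟨a1, a2⟩ := sem_mulT vs c hp.1 hq hd
    have e : parts (.cons m c t) q = mulT m c q :: parts t q := rfl
    rw [e]
    constructor
    · rw [List.map_cons, List.sum_cons, i1, a1]
      simp only [sem]
      ring
    · intro x hx
      rcases List.mem_cons.1 hx with rfl | hx
      · exact a2
      · exact i2 x hx

lemma round_aux (vs : List R) {d : Nat} (l : List P) (o : Option P) (hl : ∀ x ∈ l, Dg vs d x)
    (ho : ∀ x, o = some x → Dg vs d x) :
    (((List.rec (motive := fun _ => Option P → List P)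
      (fun o => Option.rec [] (fun x => [x]) o)
      (fun a _ ih o => Option.rec (ih (some a)) (fun x => add x a :: ih none) o) l) o).map (sem vs)).sum
      = (l.map (sem vs)).sum + (Option.rec 0 (fun x => sem vs x) o : R)
    ∧ ∀ y ∈ (List.rec (motive := fun _ => Option P → List P)
      (fun o => Option.rec [] (fun x => [x]) o)
      (fun a _ ih o => Option.rec (ih (some a)) (fun x => add x a :: ih none) o) l) o, Dg vs d y := by
  induction l generalizing o with
  | nil =>
    cases o with
    | none => simp
    | some x =>
      constructor
      · simp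
      · intro y hy
        have : y = x := by simpa using hy
        subst this
        exact ho _ rfl
  | cons a l ih =>
    have ha := hl a List.mem_cons_self
    have hl' : ∀ x ∈ l, Dg vs d x := fun x hx => hl x (List.mem_cons_of_mem _ hx)
    cases o with
    | none =>
      obtain ⟨i1, i2⟩ := ih (some a) hl' (by intro x hx; cases hx; exact ha)
      constructor
      · show ((_ : List P).map (sem vs)).sum = _
        rw [show (List.rec (motive := fun _ => Option P → List P)
            (fun o => Option.rec [] (fun x => [x]) o)
            (fun a _ ih o => Option.rec (ih (some a)) (fun x => add x a :: ih none) o) (a :: l)) none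
            = (List.rec (motive := fun _ => Option P → List P)
            (fun o => Option.rec [] (fun x => [x]) o)
            (fun a _ ih o => Option.rec (ih (some a)) (fun x => add x a :: ih none) o) l) (some a) from rfl]
        rw [i1]
        simp only [List.map_cons, List.sum_cons]
        ring
      · exact i2
    | some x =>
      have hx := ho x rfl
      obtain ⟨i1, i2⟩ := ih none hl' (by intro y hy; cases hy)
      have e : (List.rec (motive := fun _ => Option P → List P)
            (fun o => Option.rec [] (fun x => [x]) o)
            (fun a _ ih o => Option.rec (ih (some a)) (fun x => add x a :: ih none) o) (a :: l)) (some x)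
            = add x a :: (List.rec (motive := fun _ => Option P → List P)
            (fun o => Option.rec [] (fun x => [x]) o)
            (fun a _ ih o => Option.rec (ih (some a)) (fun x => add x a :: ih none) o) l) none := rfl
      rw [e]
      constructor
      · rw [List.map_cons, List.sum_cons, i1, sem_add]
        simp only [List.map_cons, List.sum_cons]
        ring
      · intro y hy
        rcases List.mem_cons.1 hy with rfl | hy
        · exact Dg_add hx ha
        · exact i2 y hy

theorem sem_round (vs : List R) {d : Nat} (l : List P) (hl : ∀ x ∈ l, Dg vs d x) :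
    ((round l).map (sem vs)).sum = (l.map (sem vs)).sum ∧ ∀ y ∈ round l, Dg vs d y := by
  obtain ⟨a, b⟩ := round_aux vs l none hl (by intro x hx; cases hx)
  constructor
  · have : (Option.rec 0 (fun x => sem vs x) (none : Option P) : R) = 0 := rfl
    unfold round
    rw [a, this, add_zero]
  · exact b

theorem sem_mergeAll (vs : List R) {d : Nat} (fuel : Nat) (l : List P) (hl : ∀ x ∈ l, Dg vs d x) :
    sem vs (mergeAll fuel l) = (l.map (sem vs)).sum ∧ Dg vs d (mergeAll fuel l) := by
  have main : ∀ (fuel : Nat) (l : List P), (∀ x ∈ l, Dg vs d x) →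
      (((Nat.rec (motive := fun _ => List P → List P) (fun l => l) (fun _ ih l => ih (round l)) fuel l).map (sem vs)).sum
        = (l.map (sem vs)).sum)
      ∧ ∀ y ∈ Nat.rec (motive := fun _ => List P → List P) (fun l => l) (fun _ ih l => ih (round l)) fuel l, Dg vs d y := by
    intro fuel
    induction fuel with
    | zero => intro l hl; exact ⟨rfl, hl⟩
    | succ n ih =>
      intro l hl
      obtain ⟨a, b⟩ := sem_round vs l hl
      obtain ⟨c, e⟩ := ih (round l) b
      exact ⟨c.trans a, e⟩
  obtain ⟨a, b⟩ := main fuel l hl
  unfold mergeAll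
  generalize (Nat.rec (motive := fun _ => List P → List P) (fun l => l) (fun _ ih l => ih (round l)) fuel l) = L at a b
  rw [← a]
  clear a
  induction L with
  | nil => exact ⟨by simp [sem], trivial⟩
  | cons x L ih =>
    obtain ⟨i1, i2⟩ := ih (fun y hy => b y (List.mem_cons_of_mem _ hy))
    have hx := b x List.mem_cons_self
    constructor
    · simp only [List.foldr_cons, List.map_cons, List.sum_cons]
      rw [sem_add, i1]
    · simp only [List.foldr_cons]
      exact Dg_add hx i2

theorem sem_mul (vs : List R) {p q : P} {d d' : Nat} (hp : Dg vs d p) (hq : Dg vs d' q) (hd : d + d' < B) :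
    sem vs (mul p q) = sem vs p * sem vs q ∧ Dg vs (d + d') (mul p q) := by
  obtain ⟨a, b⟩ := sem_parts vs hp hq hd
  obtain ⟨c, e⟩ := sem_mergeAll vs 32 (parts p q) b
  exact ⟨c.trans a, e⟩

theorem sem_pow (vs : List R) {p : P} {d : Nat} (hp : Dg vs d p) (k : Nat) (hk : k * d < B) :
    sem vs (pow p k) = sem vs p ^ k ∧ Dg vs (k * d) (pow p k) := by
  induction k with
  | zero =>
    constructor
    · show (((1 : Int) : R)) * evalMon vs 0 + 0 = _
      simp [evalMon_zero]
    · show dsum vs 0 ≤ 0 * d ∧ True
      simp [dsum_zero]
  | succ k ih =>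
    have hk' : k * d < B := by
      have : k * d ≤ (k + 1) * d := Nat.mul_le_mul_right _ (by omega)
      omega
    obtain ⟨i1, i2⟩ := ih hk'
    have e : (k + 1) * d = d + k * d := by ring
    rw [e] at hk ⊢
    obtain ⟨a, b⟩ := sem_mul vs hp i2 hk
    have e2 : pow p (k + 1) = mul p (pow p k) := rfl
    rw [e2]
    refine ⟨?_, b⟩
    rw [a, i1, pow_succ]
    ring

theorem sem_toP (vs : List R) (e : E) (hv : varsLt vs.length e = true) (hd : degOK e = true) :
    sem vs (toP e) = den vs e ∧ Dg vs (degE e) (toP e) := by
  induction e with
  | num k =>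
    cases h : Int.beq' k 0 with
    | false =>
      have e : toP (.num k) = P.cons 0 k P.nil := by
        show Bool.rec (motive := fun _ => P) (P.cons 0 k P.nil) P.nil (Int.beq' k 0) = _
        rw [h]
      rw [e]
      exact ⟨by simp [sem, den, evalMon_zero], by simp [Dg, dsum_zero, degE]⟩
    | true =>
      have e : toP (.num k) = P.nil := by
        show Bool.rec (motive := fun _ => P) (P.cons 0 k P.nil) P.nil (Int.beq' k 0) = _
        rw [h]
      rw [e]
      have := int_beq_true h
      subst this
      exact ⟨by simp [sem, den], trivial⟩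
  | var i =>
    have hi : i < vs.length := nat_blt_true hv
    obtain ⟨a, b⟩ := var_facts vs i hi
    have e : toP (.var i) = P.cons (Nat.pow B i) 1 P.nil := rfl
    rw [e]
    constructor
    · show ((1 : Int) : R) * evalMon vs (B ^ i) + 0 = vs.getD i 0
      rw [a]; simp
    · exact ⟨b, trivial⟩
  | add a b iha ihb =>
    simp only [varsLt, degOK, Bool.and_eq_true] at hv hd
    obtain ⟨a1, a2⟩ := iha hv.1 hd.1
    obtain ⟨b1, b2⟩ := ihb hv.2 hd.2
    have e : toP (.add a b) = add (toP a) (toP b) := rfl
    rw [e]
    refine ⟨by rw [sem_add, a1, b1]; rfl, Dg_add (Dg_mono ?_ a2) (Dg_mono ?_ b2)⟩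
    · exact Nat.le_max_left _ _
    · exact Nat.le_max_right _ _
  | sub a b iha ihb =>
    simp only [varsLt, degOK, Bool.and_eq_true] at hv hd
    obtain ⟨a1, a2⟩ := iha hv.1 hd.1
    obtain ⟨b1, b2⟩ := ihb hv.2 hd.2
    have e : toP (.sub a b) = add (toP a) (mulT 0 (-1) (toP b)) := rfl
    rw [e]
    -- a scalar multiple by `-1` does not see the degree: use a direct induction
    have neg : ∀ q : P, ∀ D : Nat, Dg vs D q → sem vs (mulT 0 (-1) q) = - sem vs q ∧ Dg vs D (mulT 0 (-1) q) := by
      intro q D hq
      induction q with
      | nil => exact ⟨by show (0 : R) = - 0; simp, trivial⟩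
      | cons m c t ih =>
        obtain ⟨i1, i2⟩ := ih hq.2
        have e1 : mulT 0 (-1) (.cons m c t) = .cons (Nat.add 0 m) (Int.mul (-1) c) (mulT 0 (-1) t) := rfl
        rw [e1]
        have e2 : Nat.add 0 m = m := Nat.zero_add m
        rw [e2]
        refine ⟨?_, hq.1, i2⟩
        simp only [sem]
        rw [i1]
        have e3 : ((Int.mul (-1) c : Int) : R) = - (c : R) := by
          show (((-1) * c : Int) : R) = _
          push_cast; ring
        rw [e3]; ring
    obtain ⟨n1, n2⟩ := neg _ _ b2
    refine ⟨by rw [sem_add, a1, n1, b1]; show _ = den vs a - den vs b; ring, Dg_add (Dg_mono ?_ a2) (Dg_mono ?_ n2)⟩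
    · exact Nat.le_max_left _ _
    · exact Nat.le_max_right _ _
  | neg a iha =>
    simp only [varsLt, degOK] at hv hd
    obtain ⟨a1, a2⟩ := iha hv hd
    have e : toP (.neg a) = mulT 0 (-1) (toP a) := rfl
    rw [e]
    have neg : ∀ q : P, ∀ D : Nat, Dg vs D q → sem vs (mulT 0 (-1) q) = - sem vs q ∧ Dg vs D (mulT 0 (-1) q) := by
      intro q D hq
      induction q with
      | nil => exact ⟨by show (0 : R) = - 0; simp, trivial⟩
      | cons m c t ih =>
        obtain ⟨i1, i2⟩ := ih hq.2
        have e1 : mulT 0 (-1) (.cons m c t) = .cons (Nat.add 0 m) (Int.mul (-1) c) (mulT 0 (-1) t) := rfl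
        rw [e1]
        have e2 : Nat.add 0 m = m := Nat.zero_add m
        rw [e2]
        refine ⟨?_, hq.1, i2⟩
        simp only [sem]
        rw [i1]
        have e3 : ((Int.mul (-1) c : Int) : R) = - (c : R) := by
          show (((-1) * c : Int) : R) = _
          push_cast; ring
        rw [e3]; ring
    obtain ⟨n1, n2⟩ := neg _ _ a2
    exact ⟨by rw [n1, a1]; rfl, n2⟩
  | mul a b iha ihb =>
    simp only [varsLt, degOK, Bool.and_eq_true] at hv hd
    obtain ⟨a1, a2⟩ := iha hv.1 hd.1.1
    obtain ⟨b1, b2⟩ := ihb hv.2 hd.1.2
    have hb : degE a + degE b < B := nat_blt_true hd.2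
    have e : toP (.mul a b) = mul (toP a) (toP b) := rfl
    rw [e]
    obtain ⟨m1, m2⟩ := sem_mul vs a2 b2 hb
    exact ⟨by rw [m1, a1, b1]; rfl, m2⟩
  | pow a k iha =>
    simp only [varsLt, degOK, Bool.and_eq_true] at hv hd
    obtain ⟨a1, a2⟩ := iha hv hd.1
    have hb : k * degE a < B := nat_blt_true hd.2
    have e : toP (.pow a k) = pow (toP a) k := rfl
    rw [e]
    obtain ⟨m1, m2⟩ := sem_pow vs a2 k hb
    exact ⟨by rw [m1, a1]; rfl, m2⟩

theorem eq_of_beqP (vs : List R) {p q : P} (h : beqP p q = true) : sem vs p = sem vs q := by
  induction p generalizing q with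
  | nil =>
    cases q with
    | nil => rfl
    | cons m c t => exact (Bool.false_ne_true h).elim
  | cons m c t ih =>
    cases q with
    | nil => exact (Bool.false_ne_true h).elim
    | cons m' c' t' =>
      have e : beqP (.cons m c t) (.cons m' c' t') =
          Bool.rec false (Bool.rec false (beqP t t') (Int.beq' c c')) (Nat.beq m m') := rfl
      rw [e] at h
      cases h1 : Nat.beq m m' with
      | false => rw [h1] at h; exact (Bool.false_ne_true h).elim
      | true =>
        rw [h1] at h
        cases h2 : Int.beq' c c' with
        | false => rw [h2] at h; exact (Bool.false_ne_true h).elim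
        | true =>
          rw [h2] at h
          have e1 : m = m' := Nat.eq_of_beq_eq_true h1
          have e2 : c = c' := int_beq_true h2
          subst e1 e2
          simp only [sem]
          rw [ih h]

/-- **The main theorem.** -/
theorem eq_of_check (vs : List R) (a b : E) (h : check vs.length a b = true) : den vs a = den vs b := by
  simp only [check, Bool.and_eq_true] at h
  obtain ⟨⟨⟨⟨h1, h2⟩, h3⟩, h4⟩, h5⟩ := h
  rw [← (sem_toP vs a h1 h3).1, ← (sem_toP vs b h2 h4).1]
  exact eq_of_beqP vs h5

/-! ## Simp lemmas for `den` -/

lemma den_add' (vs : List R) (a b : E) : den vs (a + b) = den vs a + den vs b := rfl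
lemma den_sub' (vs : List R) (a b : E) : den vs (a - b) = den vs a - den vs b := rfl
lemma den_mul' (vs : List R) (a b : E) : den vs (a * b) = den vs a * den vs b := rfl
lemma den_neg' (vs : List R) (a : E) : den vs (-a) = - den vs a := rfl
lemma den_pow' (vs : List R) (a : E) (k : Nat) : den vs (a ^ k) = den vs a ^ k := rfl
lemma den_var' (vs : List R) (i : Nat) : den vs (.var i) = vs.getD i 0 := rfl
lemma den_num' (vs : List R) (k : Int) : den vs (.num k) = (k : R) := rfl

end sem

/-- the main theorem with the number of variables as a closed term -/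
theorem eq_of_check' {R : Type*} [CommRing R] {n : Nat} (vs : List R) (hn : vs.length = n) (a b : E)
    (h : check n a b = true) : den vs a = den vs b := by
  subst hn
  exact eq_of_check vs a b h

example (a b : ℤ) : (a + b) ^ 2 = a ^ 2 + 2 * a * b + b ^ 2 := by
  have h := eq_of_check' (n := 2) [a, b] rfl ((E.var 0 + E.var 1) ^ 2)
    (E.var 0 ^ 2 + .num 2 * E.var 0 * E.var 1 + E.var 1 ^ 2) (by decide +kernel)
  simpa only [den_add', den_sub', den_mul', den_neg', den_pow', den_var', den_num', List.getD_cons_zero,
    List.getD_cons_succ, Int.cast_ofNat] using h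

end Crest.Agent.Lib.Bc.PolyFast
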