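import Crest.Agent.Lib.Bc.Q4I.Main
import Crest.Agent.Lib.Bc.Q4I.PointH27
import Crest.Agent.Lib.Bc.Q4II.Glue
import Crest.Agent.Lib.Bc.Cert4Bridge
/-!
# Row 163: the certificate `Cert 4` (helper27)

`Q4I` (helper21, helper88), the pointwise inequality (`Q4I.PointH27`), `Q4II` (helper88), assembled by `Cert4Bridge`.
-/
set_option autoImplicit false
namespace Crest.Agent.Lib.Bc.Q4Final
open Crest.Agent.Lib.Bc
open Crest.Agent.Lib.Bc.Q4Glue

/-- the certificate for four states -/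
noncomputable def cert4 : Cert 4 :=
  mkCert4F Q4I.alphaF Q4II.betaF (1 / 100) Q4I.bdd_alphaF Q4II.bdd_betaF (fun _ h => Q4I.alphaF_nonneg h)
    (fun _ h => Q4II.betaF_nonneg h) (by norm_num)
    (fun _ hx _ hx' => Q4I.I_of_hP Q4I.PH27.hP hx hx') (fun _ hx _ hx' => Q4II.II hx hx')

theorem cert4_g : cert4.g = G4 := rfl

theorem cert4_κ : 0 < cert4.κ₃ := by
  show (0 : ℝ) < 1 / 100
  norm_num

end Crest.Agent.Lib.Bc.Q4Final
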