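import Crest.Agent.Lib.Bc.Q4Inv
/-!
# Row 163, `q = 4`: the pointwise step of `Q4I` (helper62)

For `x, x'` in the simplex and a relabelling `σ`, put `p_i = x_i x'_{σ i}`, `Z = 4 e₁(p)`, `ν = (128/3) e₂(p)`, `ξ = 1024 e₃(p)`
and `u = ν / Z²`, `η = ξ / Z³`.  Then `Z gF(p / e₁(p)) = Z (7 + 26 η - 27 u² - 6 u η)` and
`0 < Z ≤ 4`, `0 ≤ u ≤ 1`, `u Z ≤ (2/3) (4 - Z)`, `0 ≤ η ≤ u²`.

So a polynomial (or any) minorant `Pf Z ν ξ` of `Z gF` on this region of `(Z, u, η)` gives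
`(∑_σ Pf) / 24 ≤ Esig 4 gF x x'`: `le_Esig_of_region`.
-/
set_option autoImplicit false
open scoped BigOperators
namespace Crest.Agent.Lib.Bc.Q4Point
open Crest.Agent.Lib.Bc.SymAvg Crest.Agent.Lib.Bc.Q4Inv

lemma e14_eq_sum (p : Fin 4 → ℝ) : ∑ j, p j = e14 p := by
  rw [sum_fin4]; rfl

lemma e24_nonneg {p : Fin 4 → ℝ} (h : ∀ i, 0 ≤ p i) : 0 ≤ e24 p := by
  unfold e24
  have := h 0; have := h 1; have := h 2; have := h 3
  positivity

lemma e34_nonneg {p : Fin 4 → ℝ} (h : ∀ i, 0 ≤ p i) : 0 ≤ e34 p := by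
  unfold e34
  have := h 0; have := h 1; have := h 2; have := h 3
  positivity

lemma e14_nonneg {p : Fin 4 → ℝ} (h : ∀ i, 0 ≤ p i) : 0 ≤ e14 p := by
  unfold e14
  have := h 0; have := h 1; have := h 2; have := h 3
  positivity

/-- `u ≤ 1` -/
lemma eight_e2_le (p : Fin 4 → ℝ) : 8 * e24 p ≤ 3 * e14 p ^ 2 := by
  unfold e24 e14
  nlinarith [sq_nonneg (p 0 - p 1), sq_nonneg (p 0 - p 2), sq_nonneg (p 0 - p 3), sq_nonneg (p 1 - p 2),
    sq_nonneg (p 1 - p 3), sq_nonneg (p 2 - p 3)]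

/-- **Newton's inequality**: `η ≤ u²` -/
lemma newton (p : Fin 4 → ℝ) : 9 * e14 p * e34 p ≤ 4 * e24 p ^ 2 := by
  have h : 4 * e24 p ^ 2 - 9 * e14 p * e34 p =
      (1 / 2) * ((p 0 * p 1 - p 0 * p 2) ^ 2 + (p 0 * p 1 - p 0 * p 3) ^ 2 + (p 0 * p 2 - p 0 * p 3) ^ 2
        + (p 1 * p 0 - p 1 * p 2) ^ 2 + (p 1 * p 0 - p 1 * p 3) ^ 2 + (p 1 * p 2 - p 1 * p 3) ^ 2
        + (p 2 * p 0 - p 2 * p 1) ^ 2 + (p 2 * p 0 - p 2 * p 3) ^ 2 + (p 2 * p 1 - p 2 * p 3) ^ 2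
        + (p 3 * p 0 - p 3 * p 1) ^ 2 + (p 3 * p 0 - p 3 * p 2) ^ 2 + (p 3 * p 1 - p 3 * p 2) ^ 2)
      + 2 * ((p 0 * p 1 - p 2 * p 3) ^ 2 + (p 0 * p 2 - p 1 * p 3) ^ 2 + (p 0 * p 3 - p 1 * p 2) ^ 2) := by
    unfold e14 e24 e34
    ring
  have h2 : 0 ≤ 4 * e24 p ^ 2 - 9 * e14 p * e34 p := by
    rw [h]
    positivity
  linarith


lemma four_e2_aux (a b c d a' b' c' d' : ℝ) (ha : 0 ≤ a) (hb : 0 ≤ b) (hc : 0 ≤ c) (hd : 0 ≤ d)
    (ha' : 0 ≤ a') (hb' : 0 ≤ b') (hc' : 0 ≤ c') (hd' : 0 ≤ d')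
    (hS : (a + b + c + d) * (a' + b' + c' + d') = 1) :
    4 * (a * a' * (b * b') + a * a' * (c * c') + a * a' * (d * d') + b * b' * (c * c') + b * b' * (d * d') + c * c' * (d * d')) ≤ (a * a' + b * b' + c * c' + d * d') * (1 - (a * a' + b * b' + c * c' + d * d')) := by
  have key : (a * a' + b * b' + c * c' + d * d') * ((a + b + c + d) * (a' + b' + c' + d') - (a * a' + b * b' + c * c' + d * d')) - 4 * (a * a' * (b * b') + a * a' * (c * c') + a * a' * (d * d') + b * b' * (c * c') + b * b' * (d * d') + c * c' * (d * d')) =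
      a' * b' * (a - b) ^ 2 +
        a * b * (a' - b') ^ 2 +
        c * c' * (a * b' + b * a') +
        d * d' * (a * b' + b * a') +
        a' * c' * (a - c) ^ 2 +
        a * c * (a' - c') ^ 2 +
        b * b' * (a * c' + c * a') +
        d * d' * (a * c' + c * a') +
        a' * d' * (a - d) ^ 2 +
        a * d * (a' - d') ^ 2 +
        b * b' * (a * d' + d * a') +
        c * c' * (a * d' + d * a') +
        b' * c' * (b - c) ^ 2 +
        b * c * (b' - c') ^ 2 +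
        a * a' * (b * c' + c * b') +
        d * d' * (b * c' + c * b') +
        b' * d' * (b - d) ^ 2 +
        b * d * (b' - d') ^ 2 +
        a * a' * (b * d' + d * b') +
        c * c' * (b * d' + d * b') +
        c' * d' * (c - d) ^ 2 +
        c * d * (c' - d') ^ 2 +
        a * a' * (c * d' + d * c') +
        b * b' * (c * d' + d * c') := by
    ring
  have hpos : 0 ≤ a' * b' * (a - b) ^ 2 +
        a * b * (a' - b') ^ 2 +
        c * c' * (a * b' + b * a') +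
        d * d' * (a * b' + b * a') +
        a' * c' * (a - c) ^ 2 +
        a * c * (a' - c') ^ 2 +
        b * b' * (a * c' + c * a') +
        d * d' * (a * c' + c * a') +
        a' * d' * (a - d) ^ 2 +
        a * d * (a' - d') ^ 2 +
        b * b' * (a * d' + d * a') +
        c * c' * (a * d' + d * a') +
        b' * c' * (b - c) ^ 2 +
        b * c * (b' - c') ^ 2 +
        a * a' * (b * c' + c * b') +
        d * d' * (b * c' + c * b') +
        b' * d' * (b - d) ^ 2 +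
        b * d * (b' - d') ^ 2 +
        a * a' * (b * d' + d * b') +
        c * c' * (b * d' + d * b') +
        c' * d' * (c - d) ^ 2 +
        c * d * (c' - d') ^ 2 +
        a * a' * (c * d' + d * c') +
        b * b' * (c * d' + d * c') := by
    positivity
  rw [hS] at key
  linarith

/-- the bound that uses both simplices: `u Z ≤ (2/3) (4 - Z)` -/
lemma four_e2_le {x y : Fin 4 → ℝ} (hx : x ∈ Simp 4) (hy : y ∈ Simp 4) :
    4 * e24 (fun i => x i * y i) ≤ e14 (fun i => x i * y i) * (1 - e14 (fun i => x i * y i)) := by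
  have h1 : x 0 + x 1 + x 2 + x 3 = 1 := by
    have := hx.2
    rwa [sum_fin4] at this
  have h2 : y 0 + y 1 + y 2 + y 3 = 1 := by
    have := hy.2
    rwa [sum_fin4] at this
  have hprod : (x 0 + x 1 + x 2 + x 3) * (y 0 + y 1 + y 2 + y 3) = 1 := by
    rw [h1, h2]; norm_num
  exact four_e2_aux _ _ _ _ _ _ _ _ (hx.1 0) (hx.1 1) (hx.1 2) (hx.1 3) (hy.1 0) (hy.1 1) (hy.1 2) (hy.1 3) hprod

lemma four_e2_sq_aux (a b c d a' b' c' d' : ℝ) (ha : 0 ≤ a) (hb : 0 ≤ b) (hc : 0 ≤ c) (hd : 0 ≤ d)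
    (ha' : 0 ≤ a') (hb' : 0 ≤ b') (hc' : 0 ≤ c') (hd' : 0 ≤ d')
    (hS : (a + b + c + d) * (a' + b' + c' + d') = 1) :
    4 * (a * a' * (b * b') + a * a' * (c * c') + a * a' * (d * d') + b * b' * (c * c') + b * b' * (d * d') + c * c' * (d * d')) ≤ (1 - (a * a' + b * b' + c * c' + d * d')) ^ 2 := by
  have key : ((a + b + c + d) * (a' + b' + c' + d') - (a * a' + b * b' + c * c' + d * d')) ^ 2 - 4 * (a * a' * (b * b') + a * a' * (c * c') + a * a' * (d * d') + b * b' * (c * c') + b * b' * (d * d') + c * c' * (d * d')) =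
      (a * b' - b * a') ^ 2 + (a * c' - c * a') ^ 2 + (a * d' - d * a') ^ 2 + (b * c' - c * b') ^ 2 + (b * d' - d * b') ^ 2 + (c * d' - d * c') ^ 2 + 2 * ((a * b' + b * a') * (a * c' + c * a')) + 2 * ((a * b' + b * a') * (a * d' + d * a')) + 2 * ((a * b' + b * a') * (b * c' + c * b')) + 2 * ((a * b' + b * a') * (b * d' + d * b')) + 2 * ((a * b' + b * a') * (c * d' + d * c')) + 2 * ((a * c' + c * a') * (a * d' + d * a')) + 2 * ((a * c' + c * a') * (b * c' + c * b')) + 2 * ((a * c' + c * a') * (b * d' + d * b')) + 2 * ((a * c' + c * a') * (c * d' + d * c')) + 2 * ((a * d' + d * a') * (b * c' + c * b')) + 2 * ((a * d' + d * a') * (b * d' + d * b')) + 2 * ((a * d' + d * a') * (c * d' + d * c')) + 2 * ((b * c' + c * b') * (b * d' + d * b')) + 2 * ((b * c' + c * b') * (c * d' + d * c')) + 2 * ((b * d' + d * b') * (c * d' + d * c')) := by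
    ring
  have hpos : 0 ≤ (a * b' - b * a') ^ 2 + (a * c' - c * a') ^ 2 + (a * d' - d * a') ^ 2 + (b * c' - c * b') ^ 2 + (b * d' - d * b') ^ 2 + (c * d' - d * c') ^ 2 + 2 * ((a * b' + b * a') * (a * c' + c * a')) + 2 * ((a * b' + b * a') * (a * d' + d * a')) + 2 * ((a * b' + b * a') * (b * c' + c * b')) + 2 * ((a * b' + b * a') * (b * d' + d * b')) + 2 * ((a * b' + b * a') * (c * d' + d * c')) + 2 * ((a * c' + c * a') * (a * d' + d * a')) + 2 * ((a * c' + c * a') * (b * c' + c * b')) + 2 * ((a * c' + c * a') * (b * d' + d * b')) + 2 * ((a * c' + c * a') * (c * d' + d * c')) + 2 * ((a * d' + d * a') * (b * c' + c * b')) + 2 * ((a * d' + d * a') * (b * d' + d * b')) + 2 * ((a * d' + d * a') * (c * d' + d * c')) + 2 * ((b * c' + c * b') * (b * d' + d * b')) + 2 * ((b * c' + c * b') * (c * d' + d * c')) + 2 * ((b * d' + d * b') * (c * d' + d * c')) := by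
    positivity
  rw [hS] at key
  linarith

/-- the bound `ν ≤ (2/3) (4 - Z)²` -/
lemma four_e2_le_sq {x y : Fin 4 → ℝ} (hx : x ∈ Simp 4) (hy : y ∈ Simp 4) :
    4 * e24 (fun i => x i * y i) ≤ (1 - e14 (fun i => x i * y i)) ^ 2 := by
  have h1 : x 0 + x 1 + x 2 + x 3 = 1 := by
    have := hx.2
    rwa [sum_fin4] at this
  have h2 : y 0 + y 1 + y 2 + y 3 = 1 := by
    have := hy.2
    rwa [sum_fin4] at this
  have hprod : (x 0 + x 1 + x 2 + x 3) * (y 0 + y 1 + y 2 + y 3) = 1 := by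
    rw [h1, h2]; norm_num
  exact four_e2_sq_aux _ _ _ _ _ _ _ _ (hx.1 0) (hx.1 1) (hx.1 2) (hx.1 3) (hy.1 0) (hy.1 1) (hy.1 2) (hy.1 3) hprod

lemma e1_le_one {x y : Fin 4 → ℝ} (hx : x ∈ Simp 4) (hy : y ∈ Simp 4) : e14 (fun i => x i * y i) ≤ 1 := by
  have h1 : x 0 + x 1 + x 2 + x 3 = 1 := by
    have := hx.2
    rwa [sum_fin4] at this
  have h2 : y 0 + y 1 + y 2 + y 3 = 1 := by
    have := hy.2
    rwa [sum_fin4] at this
  have a0 := hx.1 0; have a1 := hx.1 1; have a2 := hx.1 2; have a3 := hx.1 3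
  have b0 := hy.1 0; have b1 := hy.1 1; have b2 := hy.1 2; have b3 := hy.1 3
  have hprod : (x 0 + x 1 + x 2 + x 3) * (y 0 + y 1 + y 2 + y 3) = 1 := by
    rw [h1, h2]; norm_num
  have hnn : 0 ≤ (x 0 + x 1 + x 2 + x 3) * (y 0 + y 1 + y 2 + y 3) - (x 0 * y 0 + x 1 * y 1 + x 2 * y 2 + x 3 * y 3) := by
    have : (x 0 + x 1 + x 2 + x 3) * (y 0 + y 1 + y 2 + y 3) - (x 0 * y 0 + x 1 * y 1 + x 2 * y 2 + x 3 * y 3)
        = x 0 * y 1 + x 0 * y 2 + x 0 * y 3 + x 1 * y 0 + x 1 * y 2 + x 1 * y 3 + x 2 * y 0 + x 2 * y 1 + x 2 * y 3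
          + x 3 * y 0 + x 3 * y 1 + x 3 * y 2 := by ring
    rw [this]
    positivity
  simp only [e14]
  linarith

/-- `Z gF(y)` for `y = p / e₁(p)` -/
lemma kernP_gF {p : Fin 4 → ℝ} (h : e14 p ≠ 0) :
    kernP 4 gF p = (4 * e14 p) * (7 + 26 * (16 * e34 p / e14 p ^ 3) - 27 * ((8 / 3) * e24 p / e14 p ^ 2) ^ 2
      - 6 * ((8 / 3) * e24 p / e14 p ^ 2) * (16 * e34 p / e14 p ^ 3)) := by
  have hs : ∑ j, p j = e14 p := e14_eq_sum p
  rw [kernP_of_pos (by rw [hs]; exact h), hs]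
  have h2 : e24 (fun i => p i / e14 p) = e24 p / e14 p ^ 2 := by
    simp only [e24]
    field_simp
  have h3 : e34 (fun i => p i / e14 p) = e34 p / e14 p ^ 3 := by
    simp only [e34]
    field_simp
  simp only [gF, fF, piF, h2, h3]
  push_cast
  field_simp
  ring

lemma kernP_gF_zero {p : Fin 4 → ℝ} (h : e14 p = 0) : kernP 4 gF p = 0 :=
  kernP_of_zero (by rw [e14_eq_sum]; exact h)

/-- **The pointwise step.** A minorant of `Z (7 + 26 η - 27 u² - 6 u η)` on the region, in the variables `(Z, ν, ξ)`, is a minorant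
of `kernP 4 gF` at the products of two points of the simplex. -/
theorem le_kernP_of_region2 (Pf : ℝ → ℝ → ℝ → ℝ)
    (hP : ∀ Z u η : ℝ, 0 < Z → Z ≤ 4 → 0 ≤ u → u ≤ 1 → u * Z ≤ (2 / 3) * (4 - Z) → 0 ≤ η → η ≤ u ^ 2 →
      u * Z ^ 2 ≤ (2 / 3) * (4 - Z) ^ 2 → Pf Z (u * Z ^ 2) (η * Z ^ 3) ≤ Z * (7 + 26 * η - 27 * u ^ 2 - 6 * u * η))
    (h0 : Pf 0 0 0 ≤ 0) {x y : Fin 4 → ℝ} (hx : x ∈ Simp 4) (hy : y ∈ Simp 4) :
    Pf (4 * e14 (fun i => x i * y i)) ((128 / 3) * e24 (fun i => x i * y i)) (1024 * e34 (fun i => x i * y i))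
      ≤ kernP 4 gF (fun i => x i * y i) := by
  set p : Fin 4 → ℝ := fun i => x i * y i with hp
  have hnn : ∀ i, 0 ≤ p i := fun i => mul_nonneg (hx.1 i) (hy.1 i)
  have hs0 := e14_nonneg hnn
  have h2nn := e24_nonneg hnn
  have h3nn := e34_nonneg hnn
  rcases eq_or_lt_of_le hs0 with hz | hpos
  · -- `p = 0`
    have h0' : e14 p = 0 := hz.symm
    have hzero : ∀ i, p i = 0 := by
      intro i
      have h01 := hnn 0; have h11 := hnn 1; have h21 := hnn 2; have h31 := hnn 3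
      simp only [e14] at h0'
      have e0 : p 0 = 0 := by linarith
      have e1 : p 1 = 0 := by linarith
      have e2 : p 2 = 0 := by linarith
      have e3 : p 3 = 0 := by linarith
      fin_cases i <;> simp_all
    have e2z : e24 p = 0 := by simp [e24, hzero]
    have e3z : e34 p = 0 := by simp [e34, hzero]
    rw [h0', e2z, e3z, kernP_gF_zero h0']
    simpa using h0
  · have hne : e14 p ≠ 0 := ne_of_gt hpos
    rw [kernP_gF hne]
    have hle1 : e14 p ≤ 1 := e1_le_one hx hy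
    have h4 : 4 * e24 p ≤ e14 p * (1 - e14 p) := four_e2_le hx hy
    have hu1 : (8 / 3) * e24 p / e14 p ^ 2 ≤ 1 := by
      rw [div_le_one (by positivity)]
      linarith [eight_e2_le p]
    have hu0 : 0 ≤ (8 / 3) * e24 p / e14 p ^ 2 := by positivity
    have hη0 : 0 ≤ 16 * e34 p / e14 p ^ 3 := by positivity
    have hη : 16 * e34 p / e14 p ^ 3 ≤ ((8 / 3) * e24 p / e14 p ^ 2) ^ 2 := by
      have hn := newton p
      rw [div_pow, div_le_div_iff₀ (by positivity) (by positivity)]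
      have hpow : 0 < e14 p ^ 3 := by positivity
      have : 16 * e34 p * (e14 p ^ 2) ^ 2 = (16 * (e14 p * e34 p)) * e14 p ^ 3 := by ring
      rw [this]
      have : ((8 / 3) * e24 p) ^ 2 * e14 p ^ 3 = ((64 / 9) * e24 p ^ 2) * e14 p ^ 3 := by ring
      rw [this]
      apply mul_le_mul_of_nonneg_right _ hpow.le
      nlinarith [hn]
    have hZu : (8 / 3) * e24 p / e14 p ^ 2 * (4 * e14 p) ≤ (2 / 3) * (4 - 4 * e14 p) := by
      have : (8 / 3) * e24 p / e14 p ^ 2 * (4 * e14 p) = (32 / 3) * (e24 p / e14 p) := by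
        field_simp
        ring
      rw [this]
      have h5 : e24 p / e14 p ≤ (1 - e14 p) / 4 := by
        rw [div_le_div_iff₀ hpos (by norm_num)]
        nlinarith [h4]
      nlinarith [h5]
    have e1 : (8 / 3) * e24 p / e14 p ^ 2 * (4 * e14 p) ^ 2 = (128 / 3) * e24 p := by
      field_simp
      ring
    have hsq : 4 * e24 p ≤ (1 - e14 p) ^ 2 := four_e2_le_sq hx hy
    have := hP (4 * e14 p) ((8 / 3) * e24 p / e14 p ^ 2) (16 * e34 p / e14 p ^ 3) (by positivity) (by linarith) hu0 hu1 hZu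
      hη0 hη (by rw [e1]; nlinarith [hsq])
    have e2 : 16 * e34 p / e14 p ^ 3 * (4 * e14 p) ^ 3 = 1024 * e34 p := by
      field_simp
      ring
    rwa [e1, e2] at this

/-- **The pointwise step.** A minorant of `Z (7 + 26 η - 27 u² - 6 u η)` on the region, in the variables `(Z, ν, ξ)`, is a minorant
of `kernP 4 gF` at the products of two points of the simplex. -/
theorem le_kernP_of_region (Pf : ℝ → ℝ → ℝ → ℝ)
    (hP : ∀ Z u η : ℝ, 0 < Z → Z ≤ 4 → 0 ≤ u → u ≤ 1 → u * Z ≤ (2 / 3) * (4 - Z) → 0 ≤ η → η ≤ u ^ 2 →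
      Pf Z (u * Z ^ 2) (η * Z ^ 3) ≤ Z * (7 + 26 * η - 27 * u ^ 2 - 6 * u * η))
    (h0 : Pf 0 0 0 ≤ 0) {x y : Fin 4 → ℝ} (hx : x ∈ Simp 4) (hy : y ∈ Simp 4) :
    Pf (4 * e14 (fun i => x i * y i)) ((128 / 3) * e24 (fun i => x i * y i)) (1024 * e34 (fun i => x i * y i))
      ≤ kernP 4 gF (fun i => x i * y i) :=
  le_kernP_of_region2 Pf (fun Z u η h1 h2 h3 h4 h5 h6 h7 _ => hP Z u η h1 h2 h3 h4 h5 h6 h7) h0 hx hy

/-- **The minorant integrates over relabellings.** -/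
theorem le_Esig_of_region (Pf : ℝ → ℝ → ℝ → ℝ)
    (hP : ∀ Z u η : ℝ, 0 < Z → Z ≤ 4 → 0 ≤ u → u ≤ 1 → u * Z ≤ (2 / 3) * (4 - Z) → 0 ≤ η → η ≤ u ^ 2 →
      Pf Z (u * Z ^ 2) (η * Z ^ 3) ≤ Z * (7 + 26 * η - 27 * u ^ 2 - 6 * u * η))
    (h0 : Pf 0 0 0 ≤ 0) {x x' : Fin 4 → ℝ} (hx : x ∈ Simp 4) (hx' : x' ∈ Simp 4) :
    (∑ σ : Equiv.Perm (Fin 4), Pf (4 * e14 (pSig x x' σ)) ((128 / 3) * e24 (pSig x x' σ)) (1024 * e34 (pSig x x' σ))) / 24
      ≤ Esig 4 gF x x' := by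
  rw [Esig_eq_kernP]
  have h24 : ((Nat.factorial 4 : ℕ) : ℝ) = 24 := by norm_num [Nat.factorial]
  rw [h24]
  apply div_le_div_of_nonneg_right _ (by norm_num)
  apply Finset.sum_le_sum
  intro σ _
  have hy : x' ∘ σ ∈ Simp 4 := by
    refine ⟨fun i => hx'.1 _, ?_⟩
    have := hx'.2
    rw [← this]
    exact Equiv.sum_comp σ x'
  exact le_kernP_of_region Pf hP h0 hx hy

/-- the same with the additional constraint `ν ≤ (2/3) (4 - Z)²` on the region -/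
theorem le_Esig_of_region2 (Pf : ℝ → ℝ → ℝ → ℝ)
    (hP : ∀ Z u η : ℝ, 0 < Z → Z ≤ 4 → 0 ≤ u → u ≤ 1 → u * Z ≤ (2 / 3) * (4 - Z) → 0 ≤ η → η ≤ u ^ 2 →
      u * Z ^ 2 ≤ (2 / 3) * (4 - Z) ^ 2 → Pf Z (u * Z ^ 2) (η * Z ^ 3) ≤ Z * (7 + 26 * η - 27 * u ^ 2 - 6 * u * η))
    (h0 : Pf 0 0 0 ≤ 0) {x x' : Fin 4 → ℝ} (hx : x ∈ Simp 4) (hx' : x' ∈ Simp 4) :
    (∑ σ : Equiv.Perm (Fin 4), Pf (4 * e14 (pSig x x' σ)) ((128 / 3) * e24 (pSig x x' σ)) (1024 * e34 (pSig x x' σ))) / 24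
      ≤ Esig 4 gF x x' := by
  rw [Esig_eq_kernP]
  have h24 : ((Nat.factorial 4 : ℕ) : ℝ) = 24 := by norm_num [Nat.factorial]
  rw [h24]
  apply div_le_div_of_nonneg_right _ (by norm_num)
  apply Finset.sum_le_sum
  intro σ _
  have hy : x' ∘ σ ∈ Simp 4 := by
    refine ⟨fun i => hx'.1 _, ?_⟩
    have := hx'.2
    rw [← this]
    exact Equiv.sum_comp σ x'
  exact le_kernP_of_region2 Pf hP h0 hx hy

end Crest.Agent.Lib.Bc.Q4Point
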