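import Crest.Agent.Lib.Bc.PolyFast
import Crest.Agent.Lib.Bc.Core
/-!
# Row 163: the relabelling average is DIAGONAL in monomial symmetric functions (helper62; item (A) of finding 2158)

For `x, x' : Fin q → ℝ` and `σ` a relabelling put `p σ i = x i * x' (σ i)`. With `mono e x = ∏ x_i ^ e_i` and
`symM e x = ∑_τ mono e (x ∘ τ)` (= |stabiliser of e| * m_λ(x)):

* `sum_symM_pSig : ∑_σ symM e (pSig x x' σ) = symM e x * symM e x'`  (no expansion in 2q variables at all);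
* `Esig_eq_kernP`, `le_Esig_of_le`, `Esig_le_of_le`: pointwise (in `p`) bounds of `Z f(y)` integrate over relabellings;
* `symE3`, `symE4`: the same symmetrised monomials as `PolyFast.E` expressions, with `den_symE3`, `den_symE4`;
* `diag3`, `diag4`: one `PolyFast.check` in `q` variables ONLY (polynomial in `p` = integer combination of symmetrised monomials) gives
  `N * ∑_σ F (p σ) = ∑_λ c_λ symM λ x * symM λ x'`.
Then `symM λ x` is rewritten in the invariants by another small check (`e1E..e4E`). See the usage example at the end of the file.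
-/
set_option autoImplicit false
open scoped BigOperators
namespace Crest.Agent.Lib.Bc.SymAvg
open PolyFast (E den den_add' den_sub' den_mul' den_neg' den_pow' den_var' den_num' eq_of_check')

variable {q : ℕ}

/-- the monomial `∏ x_i ^ e_i` -/
noncomputable def mono (e : Fin q → ℕ) (x : Fin q → ℝ) : ℝ := ∏ i, x i ^ e i

/-- the symmetrised monomial `∑_τ ∏ x_{τ i} ^ e_i` -/
noncomputable def symM (e : Fin q → ℕ) (x : Fin q → ℝ) : ℝ := ∑ τ : Equiv.Perm (Fin q), mono e (x ∘ τ)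

/-- the products `p_i = x_i x'_{σ i}` -/
def pSig (x x' : Fin q → ℝ) (σ : Equiv.Perm (Fin q)) : Fin q → ℝ := fun i => x i * x' (σ i)

lemma mono_mul (e : Fin q → ℕ) (x y : Fin q → ℝ) : mono e (fun i => x i * y i) = mono e x * mono e y := by
  unfold mono
  rw [← Finset.prod_mul_distrib]
  exact Finset.prod_congr rfl fun i _ => mul_pow _ _ _

/-- `symM` is invariant -/
lemma symM_comp (e : Fin q → ℕ) (x : Fin q → ℝ) (ρ : Equiv.Perm (Fin q)) : symM e (x ∘ ρ) = symM e x := by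
  unfold symM
  exact Equiv.sum_comp (Equiv.mulLeft ρ) (fun τ : Equiv.Perm (Fin q) => mono e (x ∘ τ))

/-- **The relabelling average is diagonal.** -/
theorem sum_symM_pSig (e : Fin q → ℕ) (x x' : Fin q → ℝ) :
    ∑ σ : Equiv.Perm (Fin q), symM e (pSig x x' σ) = symM e x * symM e x' := by
  unfold symM
  rw [Finset.sum_mul]
  have h1 : ∀ σ τ : Equiv.Perm (Fin q), mono e (pSig x x' σ ∘ τ)
      = mono e (x ∘ τ) * (fun ρ : Equiv.Perm (Fin q) => mono e (x' ∘ ρ)) (Equiv.mulRight τ σ) := fun σ τ => by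
    have : pSig x x' σ ∘ τ = fun i => (x ∘ τ) i * (x' ∘ (Equiv.mulRight τ σ : Equiv.Perm (Fin q))) i := by
      funext i
      rfl
    rw [this, mono_mul]
  rw [Finset.sum_congr rfl fun σ _ => Finset.sum_congr rfl fun τ _ => h1 σ τ]
  rw [Finset.sum_comm]
  refine Finset.sum_congr rfl fun τ _ => ?_
  rw [← Finset.mul_sum]
  congr 1
  exact Equiv.sum_comp (Equiv.mulRight τ) (fun ρ : Equiv.Perm (Fin q) => mono e (x' ∘ ρ))

/-- the value of a table at `p` -/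
noncomputable def linM (L : List (ℝ × (Fin q → ℕ))) (p : Fin q → ℝ) : ℝ := (L.map fun t => t.1 * symM t.2 p).sum

/-- the bilinear form of a table -/
noncomputable def bilM (L : List (ℝ × (Fin q → ℕ))) (x x' : Fin q → ℝ) : ℝ :=
  (L.map fun t => t.1 * (symM t.2 x * symM t.2 x')).sum

theorem sum_linM_pSig (L : List (ℝ × (Fin q → ℕ))) (x x' : Fin q → ℝ) :
    ∑ σ : Equiv.Perm (Fin q), linM L (pSig x x' σ) = bilM L x x' := by
  induction L with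
  | nil => simp [linM, bilM]
  | cons t L ih =>
    simp only [linM, bilM, List.map_cons, List.sum_cons] at ih ⊢
    rw [Finset.sum_add_distrib, ih, ← Finset.mul_sum, sum_symM_pSig]

/-! ## Link with `Esig` -/

/-- `Z f(y)` as a function of the products `p` -/
noncomputable def kernP (q : ℕ) (f : (Fin q → ℝ) → ℝ) (p : Fin q → ℝ) : ℝ :=
  ((q : ℝ) * ∑ i, p i) * f (fun i => if ∑ j, p j = 0 then (1 : ℝ) / q else p i / ∑ j, p j)

lemma Esig_eq_kernP (f : (Fin q → ℝ) → ℝ) (x x' : Fin q → ℝ) :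
    Esig q f x x' = (∑ σ : Equiv.Perm (Fin q), kernP q f (pSig x x' σ)) / (Nat.factorial q) := rfl

lemma pSig_nonneg {x x' : Fin q → ℝ} (hx : ∀ i, 0 ≤ x i) (hx' : ∀ i, 0 ≤ x' i) (σ : Equiv.Perm (Fin q)) (i : Fin q) :
    0 ≤ pSig x x' σ i := mul_nonneg (hx i) (hx' _)

/-- a pointwise minorant in `p` integrates over relabellings -/
theorem le_Esig_of_le {f : (Fin q → ℝ) → ℝ} {F : (Fin q → ℝ) → ℝ} (h : ∀ p, (∀ i, 0 ≤ p i) → F p ≤ kernP q f p)
    {x x' : Fin q → ℝ} (hx : ∀ i, 0 ≤ x i) (hx' : ∀ i, 0 ≤ x' i) :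
    (∑ σ : Equiv.Perm (Fin q), F (pSig x x' σ)) / (Nat.factorial q) ≤ Esig q f x x' := by
  rw [Esig_eq_kernP]
  exact div_le_div_of_nonneg_right (Finset.sum_le_sum fun σ _ => h _ (pSig_nonneg hx hx' σ))
    (Nat.cast_nonneg _)

/-- a pointwise majorant in `p` integrates over relabellings -/
theorem Esig_le_of_le {f : (Fin q → ℝ) → ℝ} {F : (Fin q → ℝ) → ℝ} (h : ∀ p, (∀ i, 0 ≤ p i) → kernP q f p ≤ F p)
    {x x' : Fin q → ℝ} (hx : ∀ i, 0 ≤ x i) (hx' : ∀ i, 0 ≤ x' i) :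
    Esig q f x x' ≤ (∑ σ : Equiv.Perm (Fin q), F (pSig x x' σ)) / (Nat.factorial q) := by
  rw [Esig_eq_kernP]
  exact div_le_div_of_nonneg_right (Finset.sum_le_sum fun σ _ => h _ (pSig_nonneg hx hx' σ))
    (Nat.cast_nonneg _)

/-- on positive `p`: `kernP` is `Z f (p / ∑ p)` -/
lemma kernP_of_pos {f : (Fin q → ℝ) → ℝ} {p : Fin q → ℝ} (h : ∑ j, p j ≠ 0) :
    kernP q f p = ((q : ℝ) * ∑ i, p i) * f (fun i => p i / ∑ j, p j) := by
  unfold kernP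
  simp [h]

/-- at `p = 0`: `kernP` is `0` -/
lemma kernP_of_zero {f : (Fin q → ℝ) → ℝ} {p : Fin q → ℝ} (h : ∑ j, p j = 0) : kernP q f p = 0 := by
  unfold kernP
  simp [h]


/-! ## `q = 3`: explicit relabellings -/

/-- all relabellings of `Fin 3` by their values -/
def permList3 : List (Fin 3 × Fin 3 × Fin 3) :=
  [(0, 1, 2),
      (0, 2, 1),
      (1, 0, 2),
      (1, 2, 0),
      (2, 0, 1),
      (2, 1, 0)]

set_option maxRecDepth 100000 in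
lemma image_perm3 : (Finset.univ : Finset (Equiv.Perm (Fin 3))).image
    (fun τ => (Prod.mk (τ 0) (τ 1, τ 2) : Fin 3 × Fin 3 × Fin 3)) = permList3.toFinset := by decide +kernel

lemma sum_perm3 (G : Fin 3 → Fin 3 → Fin 3 → ℝ) :
    ∑ τ : Equiv.Perm (Fin 3), G (τ 0) (τ 1) (τ 2) = G 0 1 2 + G 0 2 1 + G 1 0 2 + G 1 2 0 + G 2 0 1 + G 2 1 0 := by
  have hinj : Function.Injective (fun τ : Equiv.Perm (Fin 3) => (Prod.mk (τ 0) (τ 1, τ 2) : Fin 3 × Fin 3 × Fin 3)) := by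
    intro τ ρ h
    simp only [Prod.mk.injEq] at h
    ext i
    fin_cases i <;> simp_all
  let G' : Fin 3 × Fin 3 × Fin 3 → ℝ := fun u => G u.1 u.2.1 u.2.2
  have h1 : ∑ τ : Equiv.Perm (Fin 3), G (τ 0) (τ 1) (τ 2)
      = ∑ u ∈ (Finset.univ : Finset (Equiv.Perm (Fin 3))).image
          (fun τ => (Prod.mk (τ 0) (τ 1, τ 2) : Fin 3 × Fin 3 × Fin 3)), G' u := by
    rw [Finset.sum_image (fun a _ b _ h => hinj h)]
  rw [h1, image_perm3, List.sum_toFinset _ (by decide +kernel)]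
  simp only [permList3, List.map_cons, List.map_nil, List.sum_cons, List.sum_nil, G', add_zero, add_assoc]


/-- the symmetrised monomial as an expression in `3` variables -/
noncomputable def symE3 (a b c : ℕ) : E :=
    E.var 0 ^ a*E.var 1 ^ b*E.var 2 ^ c +
    E.var 0 ^ a*E.var 2 ^ b*E.var 1 ^ c +
    E.var 1 ^ a*E.var 0 ^ b*E.var 2 ^ c +
    E.var 1 ^ a*E.var 2 ^ b*E.var 0 ^ c +
    E.var 2 ^ a*E.var 0 ^ b*E.var 1 ^ c +
    E.var 2 ^ a*E.var 1 ^ b*E.var 0 ^ c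

/-- the list of values of `p : Fin 3 → ℝ` -/
def vec3 (p : Fin 3 → ℝ) : List ℝ := [p 0, p 1, p 2]

theorem den_symE3 (a b c : ℕ) (p : Fin 3 → ℝ) : den (vec3 p) (symE3 a b c) = symM ![a, b, c] p := by
  unfold symM mono
  have e : ∀ τ : Equiv.Perm (Fin 3), ∏ i, (p ∘ τ) i ^ (![a, b, c] : Fin 3 → ℕ) i
      = (fun i j k : Fin 3 => p i ^ a * p j ^ b * p k ^ c) (τ 0) (τ 1) (τ 2) := fun τ => by
    simp [Fin.prod_univ_succ, mul_assoc]
  rw [Finset.sum_congr rfl fun τ _ => e τ, sum_perm3 (fun i j k : Fin 3 => p i ^ a * p j ^ b * p k ^ c)]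
  simp [symE3, vec3, den_add', den_mul', den_pow', den_var', add_assoc]

/-- a table: integer coefficient and exponents -/
noncomputable def linE3 : List (ℤ × ℕ × ℕ × ℕ) → E
  | [] => .num 0
  | t :: L => .num t.1 * symE3 t.2.1 t.2.2.1 t.2.2.2 + linE3 L

/-- the bilinear form of a table -/
noncomputable def bil3 : List (ℤ × ℕ × ℕ × ℕ) → (Fin 3 → ℝ) → (Fin 3 → ℝ) → ℝ
  | [], _, _ => 0
  | t :: L, x, x' => (t.1 : ℝ) * (symM ![t.2.1, t.2.2.1, t.2.2.2] x * symM ![t.2.1, t.2.2.1, t.2.2.2] x') + bil3 L x x'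

lemma sum_den_linE3 (L : List (ℤ × ℕ × ℕ × ℕ)) (x x' : Fin 3 → ℝ) :
    ∑ σ : Equiv.Perm (Fin 3), den (vec3 (pSig x x' σ)) (linE3 L) = bil3 L x x' := by
  induction L with
  | nil => simp [linE3, bil3, den_num']
  | cons t L ih =>
    simp only [linE3, bil3, den_add', den_mul', den_num', den_symE3]
    rw [Finset.sum_add_distrib, ih, ← Finset.mul_sum, sum_symM_pSig]

/-- **One check in `3` variables**: if `N * eP = ∑_λ c_λ symE λ` as polynomials in `3` variables then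
`N * ∑_σ eP(p_σ) = ∑_λ c_λ symM λ x * symM λ x'` for all `x, x'`. -/
theorem diag3 (eP : E) (N : ℤ) (L : List (ℤ × ℕ × ℕ × ℕ)) (h : PolyFast.check 3 (.num N * eP) (linE3 L) = true)
    (x x' : Fin 3 → ℝ) :
    (N : ℝ) * ∑ σ : Equiv.Perm (Fin 3), den (vec3 (pSig x x' σ)) eP = bil3 L x x' := by
  rw [← sum_den_linE3, Finset.mul_sum]
  refine Finset.sum_congr rfl fun σ _ => ?_
  have := eq_of_check' (n := 3) (vec3 (pSig x x' σ)) rfl (.num N * eP) (linE3 L) h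
  simpa only [den_mul', den_num'] using this


/-! ## `q = 4`: explicit relabellings -/

/-- all relabellings of `Fin 4` by their values -/
def permList4 : List (Fin 4 × Fin 4 × Fin 4 × Fin 4) :=
  [(0, 1, 2, 3),
      (0, 1, 3, 2),
      (0, 2, 1, 3),
      (0, 2, 3, 1),
      (0, 3, 1, 2),
      (0, 3, 2, 1),
      (1, 0, 2, 3),
      (1, 0, 3, 2),
      (1, 2, 0, 3),
      (1, 2, 3, 0),
      (1, 3, 0, 2),
      (1, 3, 2, 0),
      (2, 0, 1, 3),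
      (2, 0, 3, 1),
      (2, 1, 0, 3),
      (2, 1, 3, 0),
      (2, 3, 0, 1),
      (2, 3, 1, 0),
      (3, 0, 1, 2),
      (3, 0, 2, 1),
      (3, 1, 0, 2),
      (3, 1, 2, 0),
      (3, 2, 0, 1),
      (3, 2, 1, 0)]

set_option maxRecDepth 100000 in
lemma image_perm4 : (Finset.univ : Finset (Equiv.Perm (Fin 4))).image
    (fun τ => (Prod.mk (τ 0) (τ 1, τ 2, τ 3) : Fin 4 × Fin 4 × Fin 4 × Fin 4)) = permList4.toFinset := by decide +kernel

lemma sum_perm4 (G : Fin 4 → Fin 4 → Fin 4 → Fin 4 → ℝ) :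
    ∑ τ : Equiv.Perm (Fin 4), G (τ 0) (τ 1) (τ 2) (τ 3) = G 0 1 2 3 + G 0 1 3 2 + G 0 2 1 3 + G 0 2 3 1 + G 0 3 1 2 + G 0 3 2 1 + G 1 0 2 3 + G 1 0 3 2 + G 1 2 0 3 + G 1 2 3 0 + G 1 3 0 2 + G 1 3 2 0 + G 2 0 1 3 + G 2 0 3 1 + G 2 1 0 3 + G 2 1 3 0 + G 2 3 0 1 + G 2 3 1 0 + G 3 0 1 2 + G 3 0 2 1 + G 3 1 0 2 + G 3 1 2 0 + G 3 2 0 1 + G 3 2 1 0 := by
  have hinj : Function.Injective (fun τ : Equiv.Perm (Fin 4) => (Prod.mk (τ 0) (τ 1, τ 2, τ 3) : Fin 4 × Fin 4 × Fin 4 × Fin 4)) := by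
    intro τ ρ h
    simp only [Prod.mk.injEq] at h
    ext i
    fin_cases i <;> simp_all
  let G' : Fin 4 × Fin 4 × Fin 4 × Fin 4 → ℝ := fun u => G u.1 u.2.1 u.2.2.1 u.2.2.2
  have h1 : ∑ τ : Equiv.Perm (Fin 4), G (τ 0) (τ 1) (τ 2) (τ 3)
      = ∑ u ∈ (Finset.univ : Finset (Equiv.Perm (Fin 4))).image
          (fun τ => (Prod.mk (τ 0) (τ 1, τ 2, τ 3) : Fin 4 × Fin 4 × Fin 4 × Fin 4)), G' u := by
    rw [Finset.sum_image (fun a _ b _ h => hinj h)]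
  rw [h1, image_perm4, List.sum_toFinset _ (by decide +kernel)]
  simp only [permList4, List.map_cons, List.map_nil, List.sum_cons, List.sum_nil, G', add_zero, add_assoc]


/-- the symmetrised monomial as an expression in `4` variables -/
noncomputable def symE4 (a b c d : ℕ) : E :=
    E.var 0 ^ a*E.var 1 ^ b*E.var 2 ^ c*E.var 3 ^ d +
    E.var 0 ^ a*E.var 1 ^ b*E.var 3 ^ c*E.var 2 ^ d +
    E.var 0 ^ a*E.var 2 ^ b*E.var 1 ^ c*E.var 3 ^ d +
    E.var 0 ^ a*E.var 2 ^ b*E.var 3 ^ c*E.var 1 ^ d +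
    E.var 0 ^ a*E.var 3 ^ b*E.var 1 ^ c*E.var 2 ^ d +
    E.var 0 ^ a*E.var 3 ^ b*E.var 2 ^ c*E.var 1 ^ d +
    E.var 1 ^ a*E.var 0 ^ b*E.var 2 ^ c*E.var 3 ^ d +
    E.var 1 ^ a*E.var 0 ^ b*E.var 3 ^ c*E.var 2 ^ d +
    E.var 1 ^ a*E.var 2 ^ b*E.var 0 ^ c*E.var 3 ^ d +
    E.var 1 ^ a*E.var 2 ^ b*E.var 3 ^ c*E.var 0 ^ d +
    E.var 1 ^ a*E.var 3 ^ b*E.var 0 ^ c*E.var 2 ^ d +
    E.var 1 ^ a*E.var 3 ^ b*E.var 2 ^ c*E.var 0 ^ d +
    E.var 2 ^ a*E.var 0 ^ b*E.var 1 ^ c*E.var 3 ^ d +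
    E.var 2 ^ a*E.var 0 ^ b*E.var 3 ^ c*E.var 1 ^ d +
    E.var 2 ^ a*E.var 1 ^ b*E.var 0 ^ c*E.var 3 ^ d +
    E.var 2 ^ a*E.var 1 ^ b*E.var 3 ^ c*E.var 0 ^ d +
    E.var 2 ^ a*E.var 3 ^ b*E.var 0 ^ c*E.var 1 ^ d +
    E.var 2 ^ a*E.var 3 ^ b*E.var 1 ^ c*E.var 0 ^ d +
    E.var 3 ^ a*E.var 0 ^ b*E.var 1 ^ c*E.var 2 ^ d +
    E.var 3 ^ a*E.var 0 ^ b*E.var 2 ^ c*E.var 1 ^ d +
    E.var 3 ^ a*E.var 1 ^ b*E.var 0 ^ c*E.var 2 ^ d +
    E.var 3 ^ a*E.var 1 ^ b*E.var 2 ^ c*E.var 0 ^ d +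
    E.var 3 ^ a*E.var 2 ^ b*E.var 0 ^ c*E.var 1 ^ d +
    E.var 3 ^ a*E.var 2 ^ b*E.var 1 ^ c*E.var 0 ^ d

/-- the list of values of `p : Fin 4 → ℝ` -/
def vec4 (p : Fin 4 → ℝ) : List ℝ := [p 0, p 1, p 2, p 3]

theorem den_symE4 (a b c d : ℕ) (p : Fin 4 → ℝ) : den (vec4 p) (symE4 a b c d) = symM ![a, b, c, d] p := by
  unfold symM mono
  have e : ∀ τ : Equiv.Perm (Fin 4), ∏ i, (p ∘ τ) i ^ (![a, b, c, d] : Fin 4 → ℕ) i
      = (fun i j k l : Fin 4 => p i ^ a * p j ^ b * p k ^ c * p l ^ d) (τ 0) (τ 1) (τ 2) (τ 3) := fun τ => by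
    simp [Fin.prod_univ_succ, mul_assoc]
  rw [Finset.sum_congr rfl fun τ _ => e τ, sum_perm4 (fun i j k l : Fin 4 => p i ^ a * p j ^ b * p k ^ c * p l ^ d)]
  simp [symE4, vec4, den_add', den_mul', den_pow', den_var', add_assoc]

/-- a table: integer coefficient and exponents -/
noncomputable def linE4 : List (ℤ × ℕ × ℕ × ℕ × ℕ) → E
  | [] => .num 0
  | t :: L => .num t.1 * symE4 t.2.1 t.2.2.1 t.2.2.2.1 t.2.2.2.2 + linE4 L

/-- the bilinear form of a table -/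
noncomputable def bil4 : List (ℤ × ℕ × ℕ × ℕ × ℕ) → (Fin 4 → ℝ) → (Fin 4 → ℝ) → ℝ
  | [], _, _ => 0
  | t :: L, x, x' => (t.1 : ℝ) * (symM ![t.2.1, t.2.2.1, t.2.2.2.1, t.2.2.2.2] x * symM ![t.2.1, t.2.2.1, t.2.2.2.1, t.2.2.2.2] x') + bil4 L x x'

lemma sum_den_linE4 (L : List (ℤ × ℕ × ℕ × ℕ × ℕ)) (x x' : Fin 4 → ℝ) :
    ∑ σ : Equiv.Perm (Fin 4), den (vec4 (pSig x x' σ)) (linE4 L) = bil4 L x x' := by
  induction L with
  | nil => simp [linE4, bil4, den_num']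
  | cons t L ih =>
    simp only [linE4, bil4, den_add', den_mul', den_num', den_symE4]
    rw [Finset.sum_add_distrib, ih, ← Finset.mul_sum, sum_symM_pSig]

/-- **One check in `4` variables**: if `N * eP = ∑_λ c_λ symE λ` as polynomials in `4` variables then
`N * ∑_σ eP(p_σ) = ∑_λ c_λ symM λ x * symM λ x'` for all `x, x'`. -/
theorem diag4 (eP : E) (N : ℤ) (L : List (ℤ × ℕ × ℕ × ℕ × ℕ)) (h : PolyFast.check 4 (.num N * eP) (linE4 L) = true)
    (x x' : Fin 4 → ℝ) :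
    (N : ℝ) * ∑ σ : Equiv.Perm (Fin 4), den (vec4 (pSig x x' σ)) eP = bil4 L x x' := by
  rw [← sum_den_linE4, Finset.mul_sum]
  refine Finset.sum_congr rfl fun σ _ => ?_
  have := eq_of_check' (n := 4) (vec4 (pSig x x' σ)) rfl (.num N * eP) (linE4 L) h
  simpa only [den_mul', den_num'] using this


end Crest.Agent.Lib.Bc.SymAvg
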