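import Crest.Agent.Lib.Bc.TailInv
import Crest.Agent.Lib.Bc.Hats3
import Crest.Agent.Lib.Bc.CloAbstract
/-!
# Row 163, `q = 3`, `lam < 0`: the tail, class free

Hypotheses: five short pair bounds (`TailPairs`), on `x ∈ Δ`, `x' ∈ Δ` with all coordinates `≤ 1/2`.

Conclusion (`tail_leaf`, `tail_gw`): at a critical parameter with `|lam| ≤ 1/2` the sequence
`s_n = Φ_{M_n}(a)` cannot converge to a limit in `(0, s₀]`.

Method.  Thin the children: `bE p N m = E[m(Bin(N,p))]`, so that the regular tree is `p = 1`, `N = b`,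
and the Poisson tree is the limit `N p = d`, `N → ∞`.  Each thinned step changes the moments of the partial
product by the same linear recursion (small step, `TailInv`), so every estimate is uniform in `N`.
-/
open scoped BigOperators
open Filter Topology
open Crest.ProbabilityR.Broadcast
namespace Crest.Agent.Lib.Bc.Tail
open Crest.Agent.Lib.Bc

/-- the children's posteriors live here -/
def InD (x : Fin 3 → ℝ) : Prop := ∀ i, x i ≤ 1 / 2

/-- the five pair bounds -/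
structure TailPairs (A₁ A₂ B₁ B₂ D₁ D₂ E₁ E₂ Ec : ℝ) : Prop where
  Sp : ∀ x ∈ Simp 3, ∀ x' ∈ Simp 3, InD x' → Esig 3 (aFn 3) x x' ≤
    aFn 3 x + aFn 3 x' - aFn 3 x * aFn 3 x' - 2 * cFn x * aFn 3 x' - 2 * aFn 3 x * cFn x'
      + 2 * cFn x * cFn x' + A₁ * aFn 3 x ^ 2 * aFn 3 x' + A₂ * aFn 3 x * aFn 3 x' ^ 2
  Sm : ∀ x ∈ Simp 3, ∀ x' ∈ Simp 3, InD x' →
    aFn 3 x + aFn 3 x' - aFn 3 x * aFn 3 x' - 2 * cFn x * aFn 3 x' - 2 * aFn 3 x * cFn x'
      + 2 * cFn x * cFn x' ≤ Esig 3 (aFn 3) x x'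
  Pp : ∀ x ∈ Simp 3, ∀ x' ∈ Simp 3, InD x' → Esig 3 cFn x x' ≤
    cFn x + cFn x' + 6 * aFn 3 x * aFn 3 x' - 6 * cFn x * aFn 3 x' - 6 * aFn 3 x * cFn x'
      + cFn x * cFn x' + B₁ * aFn 3 x ^ 2 * aFn 3 x' + B₂ * aFn 3 x * aFn 3 x' ^ 2
  Pm : ∀ x ∈ Simp 3, ∀ x' ∈ Simp 3, InD x' →
    cFn x + cFn x' + 6 * aFn 3 x * aFn 3 x' - 6 * cFn x * aFn 3 x' - 6 * aFn 3 x * cFn x'
      + cFn x * cFn x' - D₁ * aFn 3 x ^ 2 * aFn 3 x' - D₂ * aFn 3 x * aFn 3 x' ^ 2 ≤ Esig 3 cFn x x'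
  Rp : ∀ x ∈ Simp 3, ∀ x' ∈ Simp 3, InD x' → Esig 3 (fun y => aFn 3 y ^ 2) x x' ≤
    aFn 3 x ^ 2 + aFn 3 x' ^ 2 + 4 * aFn 3 x * aFn 3 x' + 4 * cFn x * aFn 3 x' + 4 * aFn 3 x * cFn x'
      - 2 * cFn x * cFn x' - Ec * aFn 3 x ^ 2 * cFn x' + E₁ * aFn 3 x ^ 2 * aFn 3 x'
      + E₂ * aFn 3 x * aFn 3 x' ^ 2

/-! ### Integrating a pointwise bound -/

section integrate
variable {q : ℕ} (hq : 0 < q) (K H : SLaw q)
include hq

lemma summable_inner {f : (Fin q → ℝ) → ℝ} (hf : SLaw.BddS f) :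
    Summable (fun o => K.mass o * H.Φ (fun x' => Esig q f (K.post o) x')) := by
  obtain ⟨C, hC⟩ := hf
  have hB : ∀ o, |H.Φ (fun x' => Esig q f (K.post o) x')| ≤ q * C := by
    intro o
    have hb0 := SLaw.BddS_Esig hq (⟨C, hC⟩ : SLaw.BddS f) (K.post_mem hq o)
    have h1 : H.Φ (fun x' => Esig q f (K.post o) x') ≤ H.Φ (fun _ => q * C) :=
      H.Φ_mono hq hb0 (SLaw.BddS.const _)
        (fun x' hx' => (le_abs_self _).trans (SLaw.abs_Esig_le hq hC (K.post_mem hq o) hx'))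
    have h2 : H.Φ (fun _ => -(q * C)) ≤ H.Φ (fun x' => Esig q f (K.post o) x') :=
      H.Φ_mono hq (SLaw.BddS.const _) hb0
        (fun x' hx' => neg_le_of_abs_le (SLaw.abs_Esig_le hq hC (K.post_mem hq o) hx'))
    rw [H.Φ_const hq] at h1 h2
    exact abs_le.2 ⟨h2, h1⟩
  refine Summable.of_norm_bounded (g := fun o => K.mass o * (q * C))
    ((K.summable_mass hq).mul_right _) ?_
  intro o
  rw [Real.norm_eq_abs, abs_mul, abs_of_nonneg (K.mass_nonneg hq o)]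
  exact mul_le_mul_of_nonneg_left (hB o) (K.mass_nonneg hq o)

theorem prod_le {f G : (Fin q → ℝ) → ℝ} (hf : SLaw.BddS f) (hG : SLaw.BddS G)
    (h : ∀ x ∈ Simp q, H.Φ (fun x' => Esig q f x x') ≤ G x) : (K.prod H).Φ f ≤ K.Φ G := by
  rw [K.Φ_prod H hq hf]
  exact (summable_inner hq K H hf).tsum_le_tsum
    (fun o => mul_le_mul_of_nonneg_left (h _ (K.post_mem hq o)) (K.mass_nonneg hq o))
    (K.summable_Φ hq hG)

theorem le_prod {f G : (Fin q → ℝ) → ℝ} (hf : SLaw.BddS f) (hG : SLaw.BddS G)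
    (h : ∀ x ∈ Simp q, G x ≤ H.Φ (fun x' => Esig q f x x')) : K.Φ G ≤ (K.prod H).Φ f := by
  rw [K.Φ_prod H hq hf]
  exact (K.summable_Φ hq hG).tsum_le_tsum
    (fun o => mul_le_mul_of_nonneg_left (h _ (K.post_mem hq o)) (K.mass_nonneg hq o))
    (summable_inner hq K H hf)

lemma Φ_mono_post {f g : (Fin q → ℝ) → ℝ} (hf : SLaw.BddS f) (hg : SLaw.BddS g)
    (h : ∀ o, f (H.post o) ≤ g (H.post o)) : H.Φ f ≤ H.Φ g :=
  (H.summable_Φ hq hf).tsum_le_tsum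
    (fun o => mul_le_mul_of_nonneg_left (h o) (H.mass_nonneg hq o)) (H.summable_Φ hq hg)

end integrate

/-- the four moment linear form -/
theorem Φ_lin4 (H : SLaw 3) (k0 k1 k2 k3 : ℝ) :
    H.Φ (fun x => k0 + k1 * aFn 3 x + k2 * cFn x + k3 * aFn 3 x ^ 2)
      = k0 + k1 * momS H + k2 * momC H + k3 * momR H := by
  simpa using Φ_lin H k0 k1 k2 k3 0 0 0 0

lemma bdd_lin4 (k0 k1 k2 k3 : ℝ) :
    SLaw.BddS (fun x : Fin 3 → ℝ => k0 + k1 * aFn 3 x + k2 * cFn x + k3 * aFn 3 x ^ 2) :=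
  SLaw.BddS.add (SLaw.BddS.add (SLaw.BddS.add (SLaw.BddS.const k0)
    (SLaw.BddS.const_mul k1 BddS_aFn3)) (SLaw.BddS.const_mul k2 BddS_cFn))
    (SLaw.BddS.const_mul k3 (SLaw.BddS.pow BddS_aFn3 2))

section steps
variable (K H : SLaw 3) (hD : ∀ o, InD (H.post o))
include hD

/-- inner integration, upper -/
lemma inner_le {x : Fin 3 → ℝ} (hx : x ∈ Simp 3) {f : (Fin 3 → ℝ) → ℝ} (hf : SLaw.BddS f) {k0 k1 k2 k3 : ℝ}
    (h : ∀ x' ∈ Simp 3, InD x' → Esig 3 f x x' ≤ k0 + k1 * aFn 3 x' + k2 * cFn x' + k3 * aFn 3 x' ^ 2) :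
    H.Φ (fun x' => Esig 3 f x x') ≤ k0 + k1 * momS H + k2 * momC H + k3 * momR H := by
  rw [← Φ_lin4]
  exact Φ_mono_post (by norm_num) H (SLaw.BddS_Esig (by norm_num) hf hx) (bdd_lin4 _ _ _ _)
    (fun o => h _ (H.post_mem (by norm_num) o) (hD o))

/-- inner integration, lower -/
lemma inner_ge {x : Fin 3 → ℝ} (hx : x ∈ Simp 3) {f : (Fin 3 → ℝ) → ℝ} (hf : SLaw.BddS f) {k0 k1 k2 k3 : ℝ}
    (h : ∀ x' ∈ Simp 3, InD x' → k0 + k1 * aFn 3 x' + k2 * cFn x' + k3 * aFn 3 x' ^ 2 ≤ Esig 3 f x x') :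
    k0 + k1 * momS H + k2 * momC H + k3 * momR H ≤ H.Φ (fun x' => Esig 3 f x x') := by
  rw [← Φ_lin4]
  exact Φ_mono_post (by norm_num) H (bdd_lin4 _ _ _ _) (SLaw.BddS_Esig (by norm_num) hf hx)
    (fun o => h _ (H.post_mem (by norm_num) o) (hD o))

variable {A₁ A₂ B₁ B₂ D₁ D₂ E₁ E₂ Ec : ℝ} (hP : TailPairs A₁ A₂ B₁ B₂ D₁ D₂ E₁ E₂ Ec)
include hP

/-- one step of the product, `a`, upper bound -/
theorem momS_prod_le : momS (K.prod H) ≤ momS H + (1 - momS H - 2 * momC H + A₂ * momR H) * momS K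
    + (-(2 * momS H) + 2 * momC H) * momC K + (A₁ * momS H) * momR K := by
  have := prod_le (q := 3) (by norm_num) K H (f := aFn 3) BddS_aFn3
    (bdd_lin4 (momS H) (1 - momS H - 2 * momC H + A₂ * momR H) (-(2 * momS H) + 2 * momC H) (A₁ * momS H))
    (fun x hx => by
      have h1 := inner_le H hD hx (f := aFn 3) BddS_aFn3
        (k0 := aFn 3 x) (k1 := 1 - aFn 3 x - 2 * cFn x + A₁ * aFn 3 x ^ 2) (k2 := -(2 * aFn 3 x) + 2 * cFn x)
        (k3 := A₂ * aFn 3 x) (fun x' hx' hd => by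
          have := hP.Sp x hx x' hx' hd
          nlinarith)
      nlinarith)
  rw [Φ_lin4] at this
  exact this

/-- one step of the product, `a`, lower bound -/
theorem momS_prod_ge : momS H + (1 - momS H - 2 * momC H) * momS K
    + (-(2 * momS H) + 2 * momC H) * momC K ≤ momS (K.prod H) := by
  have := le_prod (q := 3) (by norm_num) K H (f := aFn 3) BddS_aFn3
    (bdd_lin4 (momS H) (1 - momS H - 2 * momC H) (-(2 * momS H) + 2 * momC H) 0)
    (fun x hx => by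
      have h1 := inner_ge H hD hx (f := aFn 3) BddS_aFn3
        (k0 := aFn 3 x) (k1 := 1 - aFn 3 x - 2 * cFn x) (k2 := -(2 * aFn 3 x) + 2 * cFn x)
        (k3 := 0) (fun x' hx' hd => by
          have := hP.Sm x hx x' hx' hd
          nlinarith)
      nlinarith)
  rw [Φ_lin4] at this
  have e : momS (K.prod H) = (K.prod H).Φ (aFn 3) := rfl
  rw [e]
  linarith

/-- one step of the product, `c`, upper bound -/
theorem momC_prod_le : momC (K.prod H) ≤ momC H + (6 * momS H - 6 * momC H + B₂ * momR H) * momS K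
    + (1 - 6 * momS H + momC H) * momC K + (B₁ * momS H) * momR K := by
  have := prod_le (q := 3) (by norm_num) K H (f := cFn) BddS_cFn
    (bdd_lin4 (momC H) (6 * momS H - 6 * momC H + B₂ * momR H) (1 - 6 * momS H + momC H) (B₁ * momS H))
    (fun x hx => by
      have h1 := inner_le H hD hx (f := cFn) BddS_cFn
        (k0 := cFn x) (k1 := 6 * aFn 3 x - 6 * cFn x + B₁ * aFn 3 x ^ 2) (k2 := 1 - 6 * aFn 3 x + cFn x)
        (k3 := B₂ * aFn 3 x) (fun x' hx' hd => by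
          have := hP.Pp x hx x' hx' hd
          nlinarith)
      nlinarith)
  rw [Φ_lin4] at this
  exact this

/-- one step of the product, `c`, lower bound -/
theorem momC_prod_ge : momC H + (6 * momS H - 6 * momC H - D₂ * momR H) * momS K
    + (1 - 6 * momS H + momC H) * momC K + (-(D₁ * momS H)) * momR K ≤ momC (K.prod H) := by
  have := le_prod (q := 3) (by norm_num) K H (f := cFn) BddS_cFn
    (bdd_lin4 (momC H) (6 * momS H - 6 * momC H - D₂ * momR H) (1 - 6 * momS H + momC H) (-(D₁ * momS H)))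
    (fun x hx => by
      have h1 := inner_ge H hD hx (f := cFn) BddS_cFn
        (k0 := cFn x) (k1 := 6 * aFn 3 x - 6 * cFn x - D₁ * aFn 3 x ^ 2) (k2 := 1 - 6 * aFn 3 x + cFn x)
        (k3 := -(D₂ * aFn 3 x)) (fun x' hx' hd => by
          have := hP.Pm x hx x' hx' hd
          nlinarith)
      nlinarith)
  rw [Φ_lin4] at this
  exact this

/-- one step of the product, `a²`, upper bound -/
theorem momR_prod_le : momR (K.prod H) ≤ momR H + (4 * momS H + 4 * momC H + E₂ * momR H) * momS K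
    + (4 * momS H - 2 * momC H) * momC K + (1 + E₁ * momS H - Ec * momC H) * momR K := by
  have := prod_le (q := 3) (by norm_num) K H (f := fun y => aFn 3 y ^ 2) (SLaw.BddS.pow BddS_aFn3 2)
    (bdd_lin4 (momR H) (4 * momS H + 4 * momC H + E₂ * momR H) (4 * momS H - 2 * momC H)
      (1 + E₁ * momS H - Ec * momC H))
    (fun x hx => by
      have h1 := inner_le H hD hx (f := fun y => aFn 3 y ^ 2) (SLaw.BddS.pow BddS_aFn3 2)
        (k0 := aFn 3 x ^ 2) (k1 := 4 * aFn 3 x + 4 * cFn x + E₁ * aFn 3 x ^ 2)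
        (k2 := 4 * aFn 3 x - 2 * cFn x - Ec * aFn 3 x ^ 2)
        (k3 := 1 + E₂ * aFn 3 x) (fun x' hx' hd => by
          have := hP.Rp x hx x' hx' hd
          nlinarith)
      nlinarith)
  rw [Φ_lin4] at this
  exact this

end steps

/-! ### Thinning -/

/-- `bE p N m = E[m(Bin(N,p))]`, by the Pascal recursion -/
noncomputable def bE (p : ℝ) : ℕ → (ℕ → ℝ) → ℝ
  | 0, m => m 0
  | N + 1, m => (1 - p) * bE p N m + p * bE p N (fun c => m (c + 1))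

lemma bE_succ (p : ℝ) (N : ℕ) (m : ℕ → ℝ) :
    bE p (N + 1) m = (1 - p) * bE p N m + p * bE p N (fun c => m (c + 1)) := rfl

lemma bE_lin (p : ℝ) (N : ℕ) (k0 k1 k2 k3 : ℝ) (m q r : ℕ → ℝ) :
    bE p N (fun c => k0 + k1 * m c + k2 * q c + k3 * r c)
      = k0 + k1 * bE p N m + k2 * bE p N q + k3 * bE p N r := by
  induction N generalizing m q r with
  | zero => rfl
  | succ N ih =>
    simp only [bE]
    rw [ih m q r, ih (fun c => m (c + 1)) (fun c => q (c + 1)) (fun c => r (c + 1))]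
    ring

lemma bE_mono {p : ℝ} (hp0 : 0 ≤ p) (hp1 : p ≤ 1) (N : ℕ) {m m' : ℕ → ℝ} (h : ∀ c, m c ≤ m' c) :
    bE p N m ≤ bE p N m' := by
  induction N generalizing m m' with
  | zero => exact h 0
  | succ N ih =>
    simp only [bE]
    have h1 := ih h
    have h2 := ih (m := fun c => m (c + 1)) (m' := fun c => m' (c + 1)) (fun c => h (c + 1))
    have h3 := mul_le_mul_of_nonneg_left h1 (by linarith : 0 ≤ 1 - p)
    have h4 := mul_le_mul_of_nonneg_left h2 hp0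
    linarith

lemma bE_const (p : ℝ) (N : ℕ) (k : ℝ) : bE p N (fun _ => k) = k := by
  have := bE_lin p N k 0 0 0 (fun _ => 0) (fun _ => 0) (fun _ => 0)
  simpa using this

/-- `p = 1`: no thinning -/
lemma bE_one (N : ℕ) (m : ℕ → ℝ) : bE 1 N m = m N := by
  induction N generalizing m with
  | zero => rfl
  | succ N ih =>
    simp only [bE]
    rw [ih (fun c => m (c + 1))]
    ring

/-- the binomial weights -/
noncomputable def bW (p : ℝ) (N c : ℕ) : ℝ := (N.choose c : ℝ) * p ^ c * (1 - p) ^ (N - c)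

lemma bW_succ_zero (p : ℝ) (N : ℕ) : bW p (N + 1) 0 = (1 - p) * bW p N 0 := by
  simp [bW, pow_succ]
  ring

lemma bW_succ_succ (p : ℝ) (N c : ℕ) :
    bW p (N + 1) (c + 1) = (1 - p) * bW p N (c + 1) + p * bW p N c := by
  unfold bW
  rw [Nat.choose_succ_succ']
  push_cast
  rcases Nat.lt_or_ge c N with h | h
  · have e2 : N - c = (N - (c + 1)) + 1 := by omega
    rw [e2, pow_succ]
    ring
  · rcases Nat.eq_or_lt_of_le h with h | h
    · subst h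
      simp
      ring
    · have h1 : N.choose (c + 1) = 0 := Nat.choose_eq_zero_of_lt (by omega)
      have h2 : N.choose c = 0 := Nat.choose_eq_zero_of_lt h
      simp [h1, h2]

lemma bE_eq_sum (p : ℝ) (N : ℕ) (m : ℕ → ℝ) :
    bE p N m = ∑ c ∈ Finset.range (N + 1), bW p N c * m c := by
  induction N generalizing m with
  | zero => simp [bE, bW]
  | succ N ih =>
    have hlast : bW p N (N + 1) = 0 := by simp [bW, Nat.choose_succ_self]
    have e1 : ∑ c ∈ Finset.range (N + 1 + 1), bW p N c * m c = ∑ c ∈ Finset.range (N + 1), bW p N c * m c := by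
      rw [Finset.sum_range_succ, hlast]; ring
    simp only [bE]
    rw [ih m, ih (fun c => m (c + 1)), ← e1, Finset.sum_range_succ', Finset.sum_range_succ' (fun c => bW p (N + 1) c * m c),
      bW_succ_zero]
    have : ∀ c, bW p (N + 1) (c + 1) * m (c + 1)
        = (1 - p) * (bW p N (c + 1) * m (c + 1)) + p * (bW p N c * m (c + 1)) := fun c => by
      rw [bW_succ_succ]; ring
    simp only [this, Finset.sum_add_distrib, ← Finset.mul_sum]
    ring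

/-- The Poisson limit of the thinned functional -/
theorem bE_tendsto {d : ℝ} (hd : 0 ≤ d) {m : ℕ → ℝ} {C : ℝ} (hC : ∀ c, |m c| ≤ C) :
    Tendsto (fun N : ℕ => bE (d / N) N m) atTop
      (𝓝 (∑' c : ℕ, (Real.exp (-d) * d ^ c / Nat.factorial c) * m c)) := by
  have hform : ∀ N : ℕ, bE (d / N) N m = ∑' c : ℕ, bW (d / N) N c * m c := fun N => by
    rw [bE_eq_sum, tsum_eq_sum (s := Finset.range (N + 1))]
    intro c hc
    have : N < c := by simpa [Nat.lt_succ_iff] using hc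
    simp [bW, Nat.choose_eq_zero_of_lt this]
  simp only [hform]
  have hC0 : 0 ≤ C := (abs_nonneg _).trans (hC 0)
  refine tendsto_tsum_of_dominated_convergence
    (bound := fun c : ℕ => d ^ c / (Nat.factorial c : ℝ) * C) ?_ ?_ ?_
  · exact (Real.summable_pow_div_factorial d).mul_right C
  · intro c
    refine Tendsto.mul_const _ ?_
    have hr : Tendsto (fun n : ℕ => (n : ℝ) * (d / n)) atTop (𝓝 d) := by
      refine tendsto_const_nhds.congr' ?_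
      filter_upwards [eventually_gt_atTop 0] with n hn
      have : (n : ℝ) ≠ 0 := by positivity
      field_simp
    exact ProbabilityTheory.tendsto_choose_mul_pow_of_tendsto_mul_atTop c hr
  · obtain ⟨N₀, hN₀⟩ := exists_nat_ge d
    filter_upwards [eventually_ge_atTop (N₀ + 1)] with N hN c
    have hNpos : (0 : ℝ) < N := by
      have : 0 < N := by omega
      exact_mod_cast this
    have hdN : d ≤ N := hN₀.trans (by exact_mod_cast (by omega : N₀ ≤ N))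
    have hp0 : 0 ≤ d / N := by positivity
    have hp1 : d / N ≤ 1 := by rw [div_le_one hNpos]; exact hdN
    have h1 : bW (d / N) N c ≤ d ^ c / (Nat.factorial c : ℝ) := by
      unfold bW
      have hch : (N.choose c : ℝ) ≤ (N : ℝ) ^ c / (Nat.factorial c : ℝ) := Nat.choose_le_pow_div c N
      have hpow : (1 - d / N) ^ (N - c) ≤ 1 := pow_le_one₀ (by linarith) (by linarith [hp0])
      have hpc : 0 ≤ (d / N) ^ c := pow_nonneg hp0 c
      calc (N.choose c : ℝ) * (d / N) ^ c * (1 - d / N) ^ (N - c)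
          ≤ (N.choose c : ℝ) * (d / N) ^ c * 1 :=
            mul_le_mul_of_nonneg_left hpow (mul_nonneg (Nat.cast_nonneg _) hpc)
        _ ≤ ((N : ℝ) ^ c / (Nat.factorial c : ℝ)) * (d / N) ^ c * 1 := by
            rw [mul_one, mul_one]
            exact mul_le_mul_of_nonneg_right hch hpc
        _ = d ^ c / (Nat.factorial c : ℝ) := by
            rw [div_pow]
            have : (N : ℝ) ^ c ≠ 0 := by positivity
            field_simp
    have h0 : 0 ≤ bW (d / N) N c := by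
      unfold bW
      exact mul_nonneg (mul_nonneg (Nat.cast_nonneg _) (pow_nonneg hp0 _)) (pow_nonneg (by linarith) _)
    rw [Real.norm_eq_abs, abs_mul, abs_of_nonneg h0]
    exact mul_le_mul h1 (hC c) (abs_nonneg _) (by positivity)

/-! ### One tree level -/

section level
variable {A₁ A₂ B₁ B₂ D₁ D₂ E₁ E₂ Ec : ℝ} (hP : TailPairs A₁ A₂ B₁ B₂ D₁ D₂ E₁ E₂ Ec)
variable {α β s₀ k₁ k₂ g₁ g₂ g₃ h₁ h₂ h₃ κ₁ κ₂ G : ℝ}
variable (hN : Nums A₁ A₂ B₁ B₂ D₁ D₂ E₁ E₂ Ec α β s₀ k₁ k₂ g₁ g₂ g₃ h₁ h₂ h₃ κ₁ κ₂ G)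
include hP hN

lemma pow_succ_eq (H : SLaw 3) (c : ℕ) : SLaw.pow H (c + 1) = (SLaw.pow H c).prod H := rfl

omit hP hN in
lemma mom_pow_zero (H : SLaw 3) :
    momS (SLaw.pow H 0) = 0 ∧ momC (SLaw.pow H 0) = 0 ∧ momR (SLaw.pow H 0) = 0 := by
  have h3 : 0 < 3 := by norm_num
  refine ⟨?_, ?_, ?_⟩
  · show (SLaw.pow H 0).Φ (aFn 3) = 0
    rw [SLaw.Φ_pow_zero H h3, aFn3]
    norm_num
  · show (SLaw.pow H 0).Φ cFn = 0
    rw [SLaw.Φ_pow_zero H h3]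
    unfold cFn
    norm_num
  · show (SLaw.pow H 0).Φ (fun x => aFn 3 x ^ 2) = 0
    rw [SLaw.Φ_pow_zero H h3, aFn3]
    norm_num

omit hP hN in
lemma momR_nonneg (H : SLaw 3) : 0 ≤ momR H :=
  (sq_nonneg _).trans (sq_momS_le_momR H)

/-- **The thinned partial products at step `N`.** -/
theorem level_bE (H : SLaw 3) (hD : ∀ o, InD (H.post o)) {p : ℝ} (hp0 : 0 ≤ p) (hp1 : p ≤ 1) {N : ℕ}
    (hs : (N : ℝ) * (p * momS H) ≤ s₀) (hρ1 : p * momC H ≤ α * (p * momS H))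
    (hρ2 : -(α * (p * momS H)) ≤ p * momC H) (hb1 : p * momR H ≤ β * (p * momS H)) :
    let y : ℝ := (N : ℝ) * ((N : ℝ) - 1) * (p * momS H) ^ 2
    bE p N (fun c => momS (SLaw.pow H c)) ≤ (N : ℝ) * (p * momS H) - (κ₁ - κ₂ * s₀) * y ∧
    (N : ℝ) * (p * momC H) + (g₂ - h₂ * s₀) * y ≤ bE p N (fun c => momC (SLaw.pow H c)) ∧
    bE p N (fun c => momC (SLaw.pow H c)) ≤ (N : ℝ) * (p * momC H) + (g₁ + h₁ * s₀) * y ∧
    bE p N (fun c => momR (SLaw.pow H c)) ≤ (N : ℝ) * (p * momR H) + (g₃ + h₃ * s₀) * y := by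
  have hτ : 0 ≤ p * momS H := mul_nonneg hp0 (momS_nonneg H)
  have hb0 : 0 ≤ p * momR H := mul_nonneg hp0 (momR_nonneg H)
  have hz := mom_pow_zero H
  refine invariants hN hτ hρ1 hρ2 hb0 hb1 hs (S := fun j => bE p j (fun c => momS (SLaw.pow H c)))
    (P := fun j => bE p j (fun c => momC (SLaw.pow H c)))
    (R := fun j => bE p j (fun c => momR (SLaw.pow H c))) hz.1 hz.2.1 hz.2.2 ?_ ?_ ?_ ?_ ?_ ?_ ?_ ?_
  · intro j
    have := bE_mono hp0 hp1 j (m := fun _ => 0) (m' := fun c => momS (SLaw.pow H c))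
      (fun c => momS_nonneg _)
    rwa [bE_const] at this
  · intro j
    have := bE_mono hp0 hp1 j (m := fun _ => 0) (m' := fun c => momR (SLaw.pow H c))
      (fun c => momR_nonneg _)
    rwa [bE_const] at this
  · intro j
    have h1 := bE_mono hp0 hp1 j
      (m := fun c => 0 + (-(1 / 2)) * momS (SLaw.pow H c) + 0 * momC (SLaw.pow H c) + 0 * momR (SLaw.pow H c))
      (m' := fun c => 0 + 0 * momS (SLaw.pow H c) + 1 * momC (SLaw.pow H c) + 0 * momR (SLaw.pow H c))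
      (fun c => by have := neg_half_momS_le_momC (SLaw.pow H c); linarith)
    rw [bE_lin, bE_lin] at h1
    beta_reduce
    linarith
  · intro j _
    have h1 := bE_mono hp0 hp1 j (m := fun c => momS (SLaw.pow H (c + 1)))
      (fun c => momS_prod_le (SLaw.pow H c) H hD hP)
    rw [bE_lin] at h1
    have h2 := mul_le_mul_of_nonneg_left h1 hp0
    beta_reduce
    rw [bE_succ]
    nlinarith
  · intro j _
    have h1 := bE_mono hp0 hp1 j (m := fun c => momS H + (1 - momS H - 2 * momC H) * momS (SLaw.pow H c)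
        + (-(2 * momS H) + 2 * momC H) * momC (SLaw.pow H c) + 0 * momR (SLaw.pow H c))
      (m' := fun c => momS (SLaw.pow H (c + 1)))
      (fun c => by
        have := momS_prod_ge (SLaw.pow H c) H hD hP
        show _ ≤ momS ((SLaw.pow H c).prod H)
        linarith)
    rw [bE_lin] at h1
    have h2 := mul_le_mul_of_nonneg_left h1 hp0
    beta_reduce
    rw [bE_succ]
    nlinarith
  · intro j _
    have h1 := bE_mono hp0 hp1 j (m := fun c => momC (SLaw.pow H (c + 1)))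
      (fun c => momC_prod_le (SLaw.pow H c) H hD hP)
    rw [bE_lin] at h1
    have h2 := mul_le_mul_of_nonneg_left h1 hp0
    beta_reduce
    rw [bE_succ]
    nlinarith
  · intro j _
    have h1 := bE_mono hp0 hp1 j (m' := fun c => momC (SLaw.pow H (c + 1)))
      (fun c => momC_prod_ge (SLaw.pow H c) H hD hP)
    rw [bE_lin] at h1
    have h2 := mul_le_mul_of_nonneg_left h1 hp0
    beta_reduce
    rw [bE_succ]
    nlinarith
  · intro j _
    have h1 := bE_mono hp0 hp1 j (m := fun c => momR (SLaw.pow H (c + 1)))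
      (fun c => momR_prod_le (SLaw.pow H c) H hD hP)
    rw [bE_lin] at h1
    have h2 := mul_le_mul_of_nonneg_left h1 hp0
    beta_reduce
    rw [bE_succ]
    nlinarith

omit hP hN in
/-- children's posteriors -/
lemma tilt_InD (M : SLaw 3) {lam : ℝ} (h1 : -(1 / 2 : ℝ) ≤ lam) (h0 : lam ≤ 0)
    (hch : ∀ i j : Fin 3, 0 ≤ channel 3 lam i j) (o : (M.tilt lam hch).O) : InD ((M.tilt lam hch).post o) := by
  have h3 : 0 < 3 := by norm_num
  intro i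
  by_cases ho : ∑ j, M.w o j = 0
  · have hs : ∑ j, (M.tilt lam hch).w o j = 0 := by rw [M.tilt_sum lam hch o]; exact ho
    show (if ∑ j, (M.tilt lam hch).w o j = 0 then (1 : ℝ) / (3 : ℕ)
      else (M.tilt lam hch).w o i / ∑ j, (M.tilt lam hch).w o j) ≤ 1 / 2
    rw [if_pos hs]
    norm_num
  · rw [M.tilt_post h3 lam hch o ho]
    have hx := (M.post_mem h3 o).1 i
    show lam * M.post o i + (1 - lam) / (3 : ℕ) ≤ 1 / 2
    have : lam * M.post o i ≤ 0 := mul_nonpos_of_nonpos_of_nonneg h0 hx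
    push_cast
    linarith

/-- **One level at a critical thinning**, `N p μ² = 1`. -/
theorem level_tilt (M : SLaw 3) {μ : ℝ} (hμ0 : 0 ≤ μ) (hμ1 : μ ≤ 1 / 2)
    (hch : ∀ i j : Fin 3, 0 ≤ channel 3 (-μ) i j) {N : ℕ} (hN1 : 1 ≤ N) {p : ℝ} (hp0 : 0 ≤ p) (hp1 : p ≤ 1)
    (hcrit : (N : ℝ) * p * μ ^ 2 = 1) (hs : momS M ≤ s₀) (ha : μ * |momC M| ≤ α * momS M)
    (hb : μ ^ 2 * momR M ≤ β * momS M) :
    let θ : ℝ := 1 - 1 / (N : ℝ)
    let H := M.tilt (-μ) hch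
    bE p N (fun c => momS (SLaw.pow H c)) ≤ momS M - (κ₁ - κ₂ * s₀) * θ * momS M ^ 2 ∧
    -μ * momC M + (g₂ - h₂ * s₀) * θ * momS M ^ 2 ≤ bE p N (fun c => momC (SLaw.pow H c)) ∧
    bE p N (fun c => momC (SLaw.pow H c)) ≤ -μ * momC M + (g₁ + h₁ * s₀) * θ * momS M ^ 2 ∧
    bE p N (fun c => momR (SLaw.pow H c)) ≤ μ ^ 2 * momR M + (g₃ + h₃ * s₀) * θ * momS M ^ 2 := by
  intro θ H
  have hNpos : (0 : ℝ) < N := by exact_mod_cast hN1
  have eS : momS H = μ ^ 2 * momS M := by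
    have := momS_tilt M (-μ) hch
    simpa using this
  have eC : momC H = -(μ ^ 3 * momC M) := by
    have := momC_tilt M (-μ) hch
    rw [show (-μ) ^ 3 = -(μ ^ 3) by ring] at this
    linarith
  have eR : momR H = μ ^ 4 * momR M := by
    have := momR_tilt M (-μ) hch
    rwa [show (-μ) ^ 4 = μ ^ 4 by ring] at this
  have hD := tilt_InD M (lam := -μ) (by linarith) (by linarith) hch
  have hpμ : 0 ≤ p * μ ^ 2 := by positivity
  have hρ := abs_le.1 (le_refl |momC M|)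
  have ha1 : μ * momC M ≤ α * momS M := (mul_le_mul_of_nonneg_left hρ.2 hμ0).trans ha
  have ha2 : -(μ * momC M) ≤ α * momS M := by
    have := mul_le_mul_of_nonneg_left (neg_le_abs (momC M)) hμ0
    linarith
  have r1 := mul_le_mul_of_nonneg_left ha1 hpμ
  have r2 := mul_le_mul_of_nonneg_left ha2 hpμ
  have r3 := mul_le_mul_of_nonneg_left hb hpμ
  have hN_ : (N : ℝ) * (p * momS H) = momS M := by
    rw [eS]
    calc (N : ℝ) * (p * (μ ^ 2 * momS M)) = ((N : ℝ) * p * μ ^ 2) * momS M := by ring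
      _ = momS M := by rw [hcrit, one_mul]
  have hNC : (N : ℝ) * (p * momC H) = -μ * momC M := by
    rw [eC]
    calc (N : ℝ) * (p * (-(μ ^ 3 * momC M))) = ((N : ℝ) * p * μ ^ 2) * (-μ * momC M) := by ring
      _ = -μ * momC M := by rw [hcrit, one_mul]
  have hNR : (N : ℝ) * (p * momR H) = μ ^ 2 * momR M := by
    rw [eR]
    calc (N : ℝ) * (p * (μ ^ 4 * momR M)) = ((N : ℝ) * p * μ ^ 2) * (μ ^ 2 * momR M) := by ring
      _ = μ ^ 2 * momR M := by rw [hcrit, one_mul]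
  have hy : (N : ℝ) * ((N : ℝ) - 1) * (p * momS H) ^ 2 = θ * momS M ^ 2 := by
    have e : (N : ℝ) * ((N : ℝ) - 1) * (p * momS H) ^ 2
        = (1 - 1 / (N : ℝ)) * ((N : ℝ) * (p * momS H)) ^ 2 := by
      field_simp
    rw [e, hN_]
  have main := level_bE hP hN H hD hp0 hp1 (N := N) (by rw [hN_]; exact hs)
    (by rw [eC, eS]; nlinarith) (by rw [eC, eS]; nlinarith) (by rw [eR, eS]; nlinarith)
  simp only at main
  rw [hN_, hNC, hNR, hy] at main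
  obtain ⟨m1, m2, m3, m4⟩ := main
  refine ⟨?_, ?_, ?_, ?_⟩
  · linarith
  · linarith
  · linarith
  · linarith

end level

/-! ### The two tree models -/

/-- the output of one level -/
def LevelStep (A₁ A₂ B₁ B₂ D₁ D₂ E₁ E₂ Ec μ θ : ℝ) (s ρ r : ℕ → ℝ) : Prop :=
  ∀ α β s₀ k₁ k₂ g₁ g₂ g₃ h₁ h₂ h₃ κ₁ κ₂ G : ℝ,
    Nums A₁ A₂ B₁ B₂ D₁ D₂ E₁ E₂ Ec α β s₀ k₁ k₂ g₁ g₂ g₃ h₁ h₂ h₃ κ₁ κ₂ G →
    ∀ n, s n ≤ s₀ → μ * |ρ n| ≤ α * s n → μ ^ 2 * r n ≤ β * s n →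
      s (n + 1) ≤ s n - (κ₁ - κ₂ * s₀) * θ * s n ^ 2 ∧
      -μ * ρ n + (g₂ - h₂ * s₀) * θ * s n ^ 2 ≤ ρ (n + 1) ∧
      ρ (n + 1) ≤ -μ * ρ n + (g₁ + h₁ * s₀) * θ * s n ^ 2 ∧
      r (n + 1) ≤ μ ^ 2 * r n + (g₃ + h₃ * s₀) * θ * s n ^ 2

section models
variable {A₁ A₂ B₁ B₂ D₁ D₂ E₁ E₂ Ec : ℝ} (hP : TailPairs A₁ A₂ B₁ B₂ D₁ D₂ E₁ E₂ Ec)
include hP

/-- the regular tree -/
theorem levelStep_leaf {b : ℕ} (hb : 1 ≤ b) {μ : ℝ} (hμ0 : 0 ≤ μ) (hμ1 : μ ≤ 1 / 2)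
    (hch : ∀ i j : Fin 3, 0 ≤ channel 3 (-μ) i j) (hcrit : (b : ℝ) * μ ^ 2 = 1) :
    LevelStep A₁ A₂ B₁ B₂ D₁ D₂ E₁ E₂ Ec μ (1 - 1 / (b : ℝ))
      (fun n => momS (leafSL 3 b (-μ) n (by norm_num) hch))
      (fun n => momC (leafSL 3 b (-μ) n (by norm_num) hch))
      (fun n => momR (leafSL 3 b (-μ) n (by norm_num) hch)) := by
  intro α β s₀ k₁ k₂ g₁ g₂ g₃ h₁ h₂ h₃ κ₁ κ₂ G hN n hs ha hb'
  have h3 : 0 < 3 := by norm_num
  have main := level_tilt hP hN (leafSL 3 b (-μ) n h3 hch) hμ0 hμ1 hch hb (p := 1) (by norm_num) le_rfl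
    (by rw [mul_one]; exact hcrit) hs ha hb'
  simp only [bE_one] at main
  have e1 : momS (leafSL 3 b (-μ) (n + 1) h3 hch)
      = momS (SLaw.pow ((leafSL 3 b (-μ) n h3 hch).tilt (-μ) hch) b) :=
    leafSL_succ b (-μ) n h3 hch BddS_aFn3
  have e2 : momC (leafSL 3 b (-μ) (n + 1) h3 hch)
      = momC (SLaw.pow ((leafSL 3 b (-μ) n h3 hch).tilt (-μ) hch) b) :=
    leafSL_succ b (-μ) n h3 hch BddS_cFn
  have e3 : momR (leafSL 3 b (-μ) (n + 1) h3 hch)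
      = momR (SLaw.pow ((leafSL 3 b (-μ) n h3 hch).tilt (-μ) hch) b) :=
    leafSL_succ b (-μ) n h3 hch (SLaw.BddS.pow BddS_aFn3 2)
  beta_reduce
  rw [e1, e2, e3]
  exact main

/-- the Poisson tree -/
theorem levelStep_gw {d : ℝ} (hd : 0 < d) {μ : ℝ} (hμ0 : 0 ≤ μ) (hμ1 : μ ≤ 1 / 2)
    (hch : ∀ i j : Fin 3, 0 ≤ channel 3 (-μ) i j) (hcrit : d * μ ^ 2 = 1) :
    LevelStep A₁ A₂ B₁ B₂ D₁ D₂ E₁ E₂ Ec μ 1
      (fun n => momS (gwSL 3 (-μ) d n hd.le (by norm_num) hch))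
      (fun n => momC (gwSL 3 (-μ) d n hd.le (by norm_num) hch))
      (fun n => momR (gwSL 3 (-μ) d n hd.le (by norm_num) hch)) := by
  intro α β s₀ k₁ k₂ g₁ g₂ g₃ h₁ h₂ h₃ κ₁ κ₂ G hN n hs ha hb'
  have h3 : 0 < 3 := by norm_num
  set M := gwSL 3 (-μ) d n hd.le h3 hch with hM
  set H := M.tilt (-μ) hch with hH
  have e1 : momS (gwSL 3 (-μ) d (n + 1) hd.le h3 hch)
      = ∑' c : ℕ, (Real.exp (-d) * d ^ c / Nat.factorial c) * momS (SLaw.pow H c) :=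
    gwSL_succ (-μ) d n hd.le h3 hch BddS_aFn3
  have e2 : momC (gwSL 3 (-μ) d (n + 1) hd.le h3 hch)
      = ∑' c : ℕ, (Real.exp (-d) * d ^ c / Nat.factorial c) * momC (SLaw.pow H c) :=
    gwSL_succ (-μ) d n hd.le h3 hch BddS_cFn
  have e3 : momR (gwSL 3 (-μ) d (n + 1) hd.le h3 hch)
      = ∑' c : ℕ, (Real.exp (-d) * d ^ c / Nat.factorial c) * momR (SLaw.pow H c) :=
    gwSL_succ (-μ) d n hd.le h3 hch (SLaw.BddS.pow BddS_aFn3 2)
  have tS := bE_tendsto hd.le (m := fun c => momS (SLaw.pow H c)) (C := 1) (fun c => by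
    rw [abs_le]; exact ⟨by linarith [momS_nonneg (SLaw.pow H c)], momS_le_one _⟩)
  have tC := bE_tendsto hd.le (m := fun c => momC (SLaw.pow H c)) (C := 1) (fun c => by
    have h1 := momC_le_momS (SLaw.pow H c)
    have h2 := neg_half_momS_le_momC (SLaw.pow H c)
    have h4 := momS_le_one (SLaw.pow H c)
    have h5 := momS_nonneg (SLaw.pow H c)
    rw [abs_le]; constructor <;> linarith)
  have tR := bE_tendsto hd.le (m := fun c => momR (SLaw.pow H c)) (C := 1) (fun c => by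
    have h1 := momR_le_momS (SLaw.pow H c)
    have h2 := momR_nonneg (SLaw.pow H c)
    have h4 := momS_le_one (SLaw.pow H c)
    rw [abs_le]; constructor <;> linarith)
  rw [← e1] at tS
  rw [← e2] at tC
  rw [← e3] at tR
  -- the bounds for large `N`
  obtain ⟨N₀, hN₀⟩ := exists_nat_ge d
  have hev : ∀ N : ℕ, N₀ + 1 ≤ N →
      bE (d / N) N (fun c => momS (SLaw.pow H c)) ≤ momS M - (κ₁ - κ₂ * s₀) * (1 - 1 / (N : ℝ)) * momS M ^ 2 ∧
      -μ * momC M + (g₂ - h₂ * s₀) * (1 - 1 / (N : ℝ)) * momS M ^ 2 ≤ bE (d / N) N (fun c => momC (SLaw.pow H c)) ∧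
      bE (d / N) N (fun c => momC (SLaw.pow H c)) ≤ -μ * momC M + (g₁ + h₁ * s₀) * (1 - 1 / (N : ℝ)) * momS M ^ 2 ∧
      bE (d / N) N (fun c => momR (SLaw.pow H c)) ≤ μ ^ 2 * momR M + (g₃ + h₃ * s₀) * (1 - 1 / (N : ℝ)) * momS M ^ 2 := by
    intro N hN'
    have hN1 : 1 ≤ N := by omega
    have hNpos : (0 : ℝ) < N := by exact_mod_cast hN1
    have hdN : d ≤ N := hN₀.trans (by exact_mod_cast (by omega : N₀ ≤ N))
    have hp0 : 0 ≤ d / N := by positivity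
    have hp1 : d / N ≤ 1 := by rw [div_le_one hNpos]; exact hdN
    have hc : (N : ℝ) * (d / N) * μ ^ 2 = 1 := by
      rw [mul_div_cancel₀ _ hNpos.ne']; exact hcrit
    exact level_tilt hP hN M hμ0 hμ1 hch hN1 hp0 hp1 hc hs ha hb'
  have hθ : Tendsto (fun N : ℕ => (1 : ℝ) - 1 / (N : ℝ)) atTop (𝓝 1) := by
    have h0 : Tendsto (fun N : ℕ => (1 : ℝ) - 1 / (N : ℝ)) atTop (𝓝 (1 - 0)) :=
      tendsto_const_nhds.sub tendsto_one_div_atTop_nhds_zero_nat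
    simpa using h0
  have lim {c0 c1 : ℝ} : Tendsto (fun N : ℕ => c0 + c1 * (1 - 1 / (N : ℝ)) * momS M ^ 2) atTop
      (𝓝 (c0 + c1 * 1 * momS M ^ 2)) :=
    tendsto_const_nhds.add ((hθ.const_mul c1).mul_const _)
  have evN : ∀ᶠ N : ℕ in atTop, N₀ + 1 ≤ N := eventually_ge_atTop _
  have f1 : momS (gwSL 3 (-μ) d (n + 1) hd.le h3 hch) ≤ momS M - (κ₁ - κ₂ * s₀) * 1 * momS M ^ 2 := by
    have l : Tendsto (fun N : ℕ => momS M - (κ₁ - κ₂ * s₀) * (1 - 1 / (N : ℝ)) * momS M ^ 2) atTop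
        (𝓝 (momS M - (κ₁ - κ₂ * s₀) * 1 * momS M ^ 2)) :=
      tendsto_const_nhds.sub ((hθ.const_mul _).mul_const _)
    refine le_of_tendsto_of_tendsto tS l ?_
    filter_upwards [evN] with N hN'
    exact (hev N hN').1
  have f2 : -μ * momC M + (g₂ - h₂ * s₀) * 1 * momS M ^ 2 ≤ momC (gwSL 3 (-μ) d (n + 1) hd.le h3 hch) := by
    refine le_of_tendsto_of_tendsto lim tC ?_
    filter_upwards [evN] with N hN'
    exact (hev N hN').2.1
  have f3 : momC (gwSL 3 (-μ) d (n + 1) hd.le h3 hch) ≤ -μ * momC M + (g₁ + h₁ * s₀) * 1 * momS M ^ 2 := by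
    refine le_of_tendsto_of_tendsto tC lim ?_
    filter_upwards [evN] with N hN'
    exact (hev N hN').2.2.1
  have f4 : momR (gwSL 3 (-μ) d (n + 1) hd.le h3 hch) ≤ μ ^ 2 * momR M + (g₃ + h₃ * s₀) * 1 * momS M ^ 2 := by
    refine le_of_tendsto_of_tendsto tR lim ?_
    filter_upwards [evN] with N hN'
    exact (hev N hN').2.2.2
  exact ⟨f1, f2, f3, f4⟩

end models

/-! ### The limit -/

/-- geometric contraction -/
lemma contr_seq {e : ℕ → ℝ} {c d : ℝ} (hc0 : 0 ≤ c) (hc1 : c < 1) {n₀ : ℕ}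
    (h : ∀ n, n₀ ≤ n → e (n + 1) ≤ c * e n + d) {ε : ℝ} (hε : 0 < ε) :
    ∀ᶠ n in atTop, e n ≤ d / (1 - c) + ε := by
  have h1c : 0 < 1 - c := by linarith
  set f : ℕ → ℝ := fun n => e n - d / (1 - c) with hf
  have hfs : ∀ n, n₀ ≤ n → f (n + 1) ≤ c * f n := fun n hn => by
    have := h n hn
    simp only [hf]
    have e1 : d / (1 - c) * (1 - c) = d := by field_simp
    nlinarith
  have hk : ∀ k, f (n₀ + k) ≤ c ^ k * |f n₀| := fun k => by
    induction k with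
    | zero => simpa using le_abs_self (f n₀)
    | succ k ih =>
      have h2 := hfs (n₀ + k) (by omega)
      have h3 := mul_le_mul_of_nonneg_left ih hc0
      rw [show n₀ + (k + 1) = n₀ + k + 1 by ring]
      calc f (n₀ + k + 1) ≤ c * f (n₀ + k) := h2
        _ ≤ c * (c ^ k * |f n₀|) := h3
        _ = c ^ (k + 1) * |f n₀| := by ring
  have hlim : Tendsto (fun k : ℕ => c ^ k * |f n₀|) atTop (𝓝 (0 * |f n₀|)) :=
    (tendsto_pow_atTop_nhds_zero_of_lt_one hc0 hc1).mul_const _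
  rw [zero_mul] at hlim
  obtain ⟨k₀, hk₀⟩ := eventually_atTop.1 (hlim.eventually (gt_mem_nhds hε))
  filter_upwards [eventually_ge_atTop (n₀ + k₀)] with n hn
  obtain ⟨k, rfl⟩ := Nat.exists_eq_add_of_le (show n₀ ≤ n by omega)
  have := hk k
  have h4 := hk₀ k (by omega)
  simp only [hf] at this
  linarith

/-- a convenience: `θ * A ≤ B` -/
lemma theta_mul_le {θ A B : ℝ} (h0 : 0 ≤ θ) (h1 : θ ≤ 1) (hAB : A ≤ B) (hB : 0 ≤ B) : θ * A ≤ B := by
  rcases le_total 0 A with hA | hA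
  · nlinarith
  · have : θ * A ≤ 0 := mul_nonpos_of_nonneg_of_nonpos h0 hA
    linarith

/-- eventual two-sided bound for `ρ` and upper bound for `r`, from the eventual recursion -/
lemma limit_bounds {μ θ G₁ G₂ G₃ l : ℝ} {s ρ r : ℕ → ℝ} (hμ0 : 0 ≤ μ) (hμ1 : μ ≤ 1 / 2) (hθ0 : 0 ≤ θ) (hθ1 : θ ≤ 1)
    (hl0 : 0 ≤ l) (hsl : ∀ n, l ≤ s n) (hlim : Tendsto s atTop (𝓝 l))
    (hrec : ∀ᶠ n in atTop, -μ * ρ n + G₂ * θ * s n ^ 2 ≤ ρ (n + 1) ∧
      ρ (n + 1) ≤ -μ * ρ n + G₁ * θ * s n ^ 2 ∧ r (n + 1) ≤ μ ^ 2 * r n + G₃ * θ * s n ^ 2)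
    {η : ℝ} (hη : 0 < η) :
    ∀ᶠ n in atTop, ρ n ≤ (G₁ - μ * G₂) * θ * l ^ 2 / (1 - μ ^ 2) + η ∧
      (G₂ - μ * G₁) * θ * l ^ 2 / (1 - μ ^ 2) - η ≤ ρ n ∧
      r n ≤ G₃ * θ * l ^ 2 / (1 - μ ^ 2) + η := by
  have hμ2 : μ ^ 2 ≤ 1 / 4 := by nlinarith
  have h1 : 0 < 1 - μ ^ 2 := by linarith
  set Q := l ^ 2 with hQ
  set U := (G₁ - μ * G₂) * θ * Q / (1 - μ ^ 2) with hU
  set L := (G₂ - μ * G₁) * θ * Q / (1 - μ ^ 2) with hL
  set K := G₃ * θ * Q / (1 - μ ^ 2) with hK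
  have eU : U = -μ * L + G₁ * θ * Q := by
    rw [hU, hL]; field_simp; ring
  have eL : L = -μ * U + G₂ * θ * Q := by
    rw [hU, hL]; field_simp; ring
  have eK : K = μ ^ 2 * K + G₃ * θ * Q := by
    rw [hK]; field_simp; ring
  set C := |G₁| + |G₂| + |G₃| + 1 with hC
  have hC1 : 1 ≤ C := by
    have := abs_nonneg G₁; have := abs_nonneg G₂; have := abs_nonneg G₃
    simp only [hC]; linarith
  set δ := η / (8 * C) with hδ
  have hδ0 : 0 < δ := by positivity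
  have hCδ : C * δ = η / 8 := by
    rw [hδ]; field_simp
  -- `s_n²` is eventually close to `Q`
  have hs2 : Tendsto (fun n => s n ^ 2) atTop (𝓝 Q) := hlim.pow 2
  have hev2 : ∀ᶠ n in atTop, s n ^ 2 < Q + δ := hs2.eventually (gt_mem_nhds (by linarith))
  obtain ⟨n₀, hn₀⟩ := eventually_atTop.1 (hrec.and hev2)
  have hsQ : ∀ n, Q ≤ s n ^ 2 := fun n => by
    have := hsl n
    rw [hQ]; nlinarith
  -- a small lemma: `G θ x` for `x` in `[Q, Q + δ]`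
  have small : ∀ (g x : ℝ), Q ≤ x → x ≤ Q + δ → |g * θ * x - g * θ * Q| ≤ |g| * δ := fun g x h2 h3 => by
    have e : g * θ * x - g * θ * Q = g * θ * (x - Q) := by ring
    rw [e, abs_mul, abs_mul, abs_of_nonneg hθ0, abs_of_nonneg (by linarith : 0 ≤ x - Q)]
    have h4 : θ * (x - Q) ≤ 1 * δ := mul_le_mul hθ1 (by linarith) (by linarith) (by norm_num)
    have := mul_le_mul_of_nonneg_left h4 (abs_nonneg g)
    nlinarith
  -- contraction for `ρ`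
  set e : ℕ → ℝ := fun n => max (ρ n - U) (L - ρ n) with he
  have hes : ∀ n, n₀ ≤ n → e (n + 1) ≤ μ * e n + C * δ := fun n hn => by
    obtain ⟨⟨r1, r2, -⟩, r4⟩ := hn₀ n hn
    have s1 := abs_le.1 (small G₁ (s n ^ 2) (hsQ n) r4.le)
    have s2 := abs_le.1 (small G₂ (s n ^ 2) (hsQ n) r4.le)
    have hA1 : |G₁| * δ ≤ C * δ := by
      have : |G₁| ≤ C := by simp only [hC]; have := abs_nonneg G₂; have := abs_nonneg G₃; linarith
      exact mul_le_mul_of_nonneg_right this hδ0.le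
    have hA2 : |G₂| * δ ≤ C * δ := by
      have : |G₂| ≤ C := by simp only [hC]; have := abs_nonneg G₁; have := abs_nonneg G₃; linarith
      exact mul_le_mul_of_nonneg_right this hδ0.le
    have m1 : μ * (L - ρ n) ≤ μ * e n := mul_le_mul_of_nonneg_left (le_max_right _ _) hμ0
    have m2 : μ * (ρ n - U) ≤ μ * e n := mul_le_mul_of_nonneg_left (le_max_left _ _) hμ0
    refine max_le ?_ ?_
    · nlinarith
    · nlinarith
  -- contraction for `r`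
  have hfs : ∀ n, n₀ ≤ n → (r (n + 1) - K) ≤ μ ^ 2 * (r n - K) + C * δ := fun n hn => by
    obtain ⟨⟨-, -, r3⟩, r4⟩ := hn₀ n hn
    have s3 := abs_le.1 (small G₃ (s n ^ 2) (hsQ n) r4.le)
    have hA3 : |G₃| * δ ≤ C * δ := by
      have : |G₃| ≤ C := by simp only [hC]; have := abs_nonneg G₁; have := abs_nonneg G₂; linarith
      exact mul_le_mul_of_nonneg_right this hδ0.le
    nlinarith
  have c1 := contr_seq hμ0 (by linarith : μ < 1) hes (ε := η / 2) (by positivity)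
  have c2 := contr_seq (e := fun n => r n - K) (by positivity) (by linarith : μ ^ 2 < 1) hfs (ε := η / 2) (by positivity)
  have b1 : C * δ / (1 - μ) ≤ η / 4 := by
    rw [hCδ, div_le_iff₀ (by linarith)]
    nlinarith
  have b2 : C * δ / (1 - μ ^ 2) ≤ η / 4 := by
    rw [hCδ, div_le_iff₀ h1]
    nlinarith
  filter_upwards [c1, c2] with n hc1 hc2
  have hmax1 : ρ n - U ≤ e n := le_max_left _ _
  have hmax2 : L - ρ n ≤ e n := le_max_right _ _
  refine ⟨by linarith, by linarith, ?_⟩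
  have hc2' : r n - K ≤ C * δ / (1 - μ ^ 2) + η / 2 := hc2
  linarith

/-- the trivial box -/
lemma trivial_box {μ s ρ r : ℝ} (hμ0 : 0 ≤ μ) (hμ1 : μ ≤ 1 / 2) (hs0 : 0 ≤ s) (hρ1 : ρ ≤ s)
    (hρ2 : -s / 2 ≤ ρ) (hr0 : 0 ≤ r) (hr1 : r ≤ s) :
    μ * |ρ| ≤ (1 / 2) * s ∧ μ ^ 2 * r ≤ (1 / 4) * s := by
  have hρ : |ρ| ≤ s := by rw [abs_le]; constructor <;> linarith
  constructor
  · calc μ * |ρ| ≤ (1 / 2) * |ρ| := mul_le_mul_of_nonneg_right hμ1 (abs_nonneg _)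
      _ ≤ (1 / 2) * s := by linarith
  · have h2 : μ ^ 2 ≤ 1 / 4 := by nlinarith
    calc μ ^ 2 * r ≤ (1 / 4) * r := mul_le_mul_of_nonneg_right h2 hr0
      _ ≤ (1 / 4) * s := by linarith

section rounds
variable {A₁ A₂ B₁ B₂ D₁ D₂ E₁ E₂ Ec α β s₀ k₁ k₂ g₁ g₂ g₃ h₁ h₂ h₃ κ₁ κ₂ G : ℝ}
variable {μ θ : ℝ} {s ρ r : ℕ → ℝ} {l : ℝ}

/-- the level recursion holds eventually once the box holds eventually -/
lemma ev_step (hN : Nums A₁ A₂ B₁ B₂ D₁ D₂ E₁ E₂ Ec α β s₀ k₁ k₂ g₁ g₂ g₃ h₁ h₂ h₃ κ₁ κ₂ G)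
    (hstep : LevelStep A₁ A₂ B₁ B₂ D₁ D₂ E₁ E₂ Ec μ θ s ρ r)
    (hlim : Tendsto s atTop (𝓝 l)) (hl1 : l < s₀)
    (hbox : ∀ᶠ n in atTop, μ * |ρ n| ≤ α * s n ∧ μ ^ 2 * r n ≤ β * s n) :
    ∀ᶠ n in atTop, s (n + 1) ≤ s n - (κ₁ - κ₂ * s₀) * θ * s n ^ 2 ∧
      -μ * ρ n + (g₂ - h₂ * s₀) * θ * s n ^ 2 ≤ ρ (n + 1) ∧
      ρ (n + 1) ≤ -μ * ρ n + (g₁ + h₁ * s₀) * θ * s n ^ 2 ∧
      r (n + 1) ≤ μ ^ 2 * r n + (g₃ + h₃ * s₀) * θ * s n ^ 2 := by
  have h1 : ∀ᶠ n in atTop, s n < s₀ := hlim.eventually_lt_const hl1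
  filter_upwards [h1, hbox] with n hn hb
  exact hstep α β s₀ k₁ k₂ g₁ g₂ g₃ h₁ h₂ h₃ κ₁ κ₂ G hN n hn.le hb.1 hb.2

/-- **one round**: the box shrinks -/
theorem box_step (hN : Nums A₁ A₂ B₁ B₂ D₁ D₂ E₁ E₂ Ec α β s₀ k₁ k₂ g₁ g₂ g₃ h₁ h₂ h₃ κ₁ κ₂ G)
    (hμ0 : 0 ≤ μ) (hμ1 : μ ≤ 1 / 2) (hθ0 : 0 ≤ θ) (hθ1 : θ ≤ 1)
    (hstep : LevelStep A₁ A₂ B₁ B₂ D₁ D₂ E₁ E₂ Ec μ θ s ρ r)
    (hl0 : 0 < l) (hsl : ∀ n, l ≤ s n) (hlim : Tendsto s atTop (𝓝 l)) (hl1 : l < s₀)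
    {E F α' β' : ℝ} (hE0 : 0 ≤ E) (hE1 : g₂ - h₂ * s₀ ≤ E)
    (hE2 : (g₁ + h₁ * s₀) / 2 - (g₂ - h₂ * s₀) / 4 ≤ 3 / 4 * E)
    (hE3 : (g₁ + h₁ * s₀) / 4 - (g₂ - h₂ * s₀) / 2 ≤ 3 / 4 * E)
    (hEG : 0 ≤ E + (g₁ + h₁ * s₀))
    (hF0 : 0 ≤ F) (hF1 : g₃ + h₃ * s₀ ≤ 3 * F) (hα' : E * s₀ < α') (hβ' : F * s₀ < β') (hG3 : 0 ≤ g₃ + h₃ * s₀)
    (hbox : ∀ᶠ n in atTop, μ * |ρ n| ≤ α * s n ∧ μ ^ 2 * r n ≤ β * s n) :
    ∀ᶠ n in atTop, μ * |ρ n| ≤ α' * s n ∧ μ ^ 2 * r n ≤ β' * s n := by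
  set G₁ := g₁ + h₁ * s₀ with hG₁
  set G₂ := g₂ - h₂ * s₀ with hG₂
  set G₃ := g₃ + h₃ * s₀ with hG₃
  have hμ2 : μ ^ 2 ≤ 1 / 4 := by nlinarith
  have h1μ : 0 < 1 - μ ^ 2 := by linarith
  have hs₀ := hN.hs₀
  have hE00 : 0 ≤ E * s₀ := mul_nonneg hE0 hs₀
  have hF00 : 0 ≤ F * s₀ := mul_nonneg hF0 hs₀
  set η := min (α' - E * s₀) (β' - F * s₀) * l with hη
  have hη0 : 0 < η := mul_pos (lt_min (by linarith) (by linarith)) hl0
  have hη1 : η ≤ (α' - E * s₀) * l := mul_le_mul_of_nonneg_right (min_le_left _ _) hl0.le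
  have hη2 : η ≤ (β' - F * s₀) * l := mul_le_mul_of_nonneg_right (min_le_right _ _) hl0.le
  have hrec := ev_step hN hstep hlim hl1 hbox
  have hb := limit_bounds (μ := μ) (θ := θ) (G₁ := G₁) (G₂ := G₂) (G₃ := G₃) hμ0 hμ1 hθ0 hθ1 hl0.le hsl hlim
    (hrec.mono fun n h => h.2) hη0
  -- numeric facts on `μ`
  have φ : μ * (G₁ - μ * G₂) ≤ E * (1 - μ ^ 2) := by
    have h0 : 0 ≤ (E - G₂) * (μ * (1 / 2 - μ)) := mul_nonneg (by linarith) (mul_nonneg hμ0 (by linarith))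
    have h2 : 0 ≤ 2 * μ * (3 / 4 * E - (G₁ / 2 - G₂ / 4)) :=
      mul_nonneg (by linarith) (by linarith)
    have h3 : 0 ≤ (1 - 2 * μ) * E := mul_nonneg (by linarith) hE0
    nlinarith
  have ψ : μ * (μ * G₁ - G₂) ≤ E * (1 - μ ^ 2) := by
    have h0 : 0 ≤ (E + G₁) * (μ * (1 / 2 - μ)) := mul_nonneg hEG (mul_nonneg hμ0 (by linarith))
    have h2 : 0 ≤ 2 * μ * (3 / 4 * E - (G₁ / 4 - G₂ / 2)) :=
      mul_nonneg (by linarith) (by linarith)
    have h3 : 0 ≤ (1 - 2 * μ) * E := mul_nonneg (by linarith) hE0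
    nlinarith
  have χ : μ ^ 2 * G₃ ≤ F * (1 - μ ^ 2) := by
    have h1 : μ ^ 2 * G₃ ≤ 1 / 4 * G₃ := mul_le_mul_of_nonneg_right hμ2 hG3
    have h2 : F * (3 / 4) ≤ F * (1 - μ ^ 2) := mul_le_mul_of_nonneg_left (by linarith) hF0
    linarith
  have hB : 0 ≤ E * (1 - μ ^ 2) := mul_nonneg hE0 h1μ.le
  have hC : 0 ≤ F * (1 - μ ^ 2) := mul_nonneg hF0 h1μ.le
  have φ' := theta_mul_le hθ0 hθ1 φ hB
  have ψ' := theta_mul_le hθ0 hθ1 ψ hB
  have χ' := theta_mul_le hθ0 hθ1 χ hC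
  have hl2 : 0 ≤ l ^ 2 := sq_nonneg l
  have eU : μ * ((G₁ - μ * G₂) * θ * l ^ 2 / (1 - μ ^ 2)) ≤ E * l ^ 2 := by
    rw [show μ * ((G₁ - μ * G₂) * θ * l ^ 2 / (1 - μ ^ 2))
      = (θ * (μ * (G₁ - μ * G₂))) * l ^ 2 / (1 - μ ^ 2) by ring, div_le_iff₀ h1μ]
    have := mul_le_mul_of_nonneg_right φ' hl2
    linarith
  have eL : -(μ * ((G₂ - μ * G₁) * θ * l ^ 2 / (1 - μ ^ 2))) ≤ E * l ^ 2 := by
    rw [show -(μ * ((G₂ - μ * G₁) * θ * l ^ 2 / (1 - μ ^ 2)))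
      = (θ * (μ * (μ * G₁ - G₂))) * l ^ 2 / (1 - μ ^ 2) by ring, div_le_iff₀ h1μ]
    have := mul_le_mul_of_nonneg_right ψ' hl2
    linarith
  have eK : μ ^ 2 * (G₃ * θ * l ^ 2 / (1 - μ ^ 2)) ≤ F * l ^ 2 := by
    rw [show μ ^ 2 * (G₃ * θ * l ^ 2 / (1 - μ ^ 2))
      = (θ * (μ ^ 2 * G₃)) * l ^ 2 / (1 - μ ^ 2) by ring, div_le_iff₀ h1μ]
    have := mul_le_mul_of_nonneg_right χ' hl2
    linarith
  have el1 : E * l ^ 2 ≤ E * s₀ * l := by
    have : l ^ 2 ≤ s₀ * l := by nlinarith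
    have := mul_le_mul_of_nonneg_left this hE0
    nlinarith
  have el2 : F * l ^ 2 ≤ F * s₀ * l := by
    have : l ^ 2 ≤ s₀ * l := by nlinarith
    have := mul_le_mul_of_nonneg_left this hF0
    nlinarith
  have hμη : μ * η ≤ η := by nlinarith
  have hμ2η : μ ^ 2 * η ≤ η := by nlinarith
  filter_upwards [hb] with n hn
  obtain ⟨u1, u2, u3⟩ := hn
  have hsn := hsl n
  have hα0 : 0 ≤ α' := by linarith
  have hβ0 : 0 ≤ β' := by linarith
  have ha : α' * l ≤ α' * s n := mul_le_mul_of_nonneg_left hsn hα0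
  have hb' : β' * l ≤ β' * s n := mul_le_mul_of_nonneg_left hsn hβ0
  constructor
  · rcases abs_cases (ρ n) with ⟨e, _⟩ | ⟨e, _⟩
    · rw [e]
      have := mul_le_mul_of_nonneg_left u1 hμ0
      nlinarith
    · rw [e]
      have := mul_le_mul_of_nonneg_left (by linarith : -ρ n ≤ -((G₂ - μ * G₁) * θ * l ^ 2 / (1 - μ ^ 2)) + η) hμ0
      nlinarith
  · have := mul_le_mul_of_nonneg_left u3 (sq_nonneg μ)
    nlinarith

/-- **the last round**: the drift is negative -/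
theorem final_step (hN : Nums A₁ A₂ B₁ B₂ D₁ D₂ E₁ E₂ Ec α β s₀ k₁ k₂ g₁ g₂ g₃ h₁ h₂ h₃ κ₁ κ₂ G)
    (hθ0 : 1 / 2 ≤ θ) (_hθ1 : θ ≤ 1)
    (hstep : LevelStep A₁ A₂ B₁ B₂ D₁ D₂ E₁ E₂ Ec μ θ s ρ r)
    (hl0 : 0 < l) (hsl : ∀ n, l ≤ s n) (hlim : Tendsto s atTop (𝓝 l)) (hl1 : l < s₀)
    (hκ : 0 < κ₁ - κ₂ * s₀)
    (hbox : ∀ᶠ n in atTop, μ * |ρ n| ≤ α * s n ∧ μ ^ 2 * r n ≤ β * s n) : False := by
  have hrec := ev_step hN hstep hlim hl1 hbox
  set κ := κ₁ - κ₂ * s₀ with hκd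
  have hd : 0 < κ * (1 / 2) * l ^ 2 := by positivity
  have ev1 : ∀ᶠ n in atTop, s n < l + κ * (1 / 2) * l ^ 2 :=
    hlim.eventually_lt_const (by linarith)
  obtain ⟨n, hn1, hn2⟩ := (hrec.and ev1).exists
  have h1 := hn1.1
  have h2 := hsl (n + 1)
  have h3 : l ^ 2 ≤ s n ^ 2 := by
    have := hsl n
    nlinarith
  have h4 : κ * (1 / 2) * l ^ 2 ≤ κ * θ * s n ^ 2 := by
    have : (1 / 2) * l ^ 2 ≤ θ * s n ^ 2 := by nlinarith [sq_nonneg l]
    have := mul_le_mul_of_nonneg_left this hκ.le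
    nlinarith
  linarith

lemma nums0 : Nums 3 3 2 0 10 10 5 11 24 (1/2) (1/4) (1/25) (2419/1000) (463/200) (1277/200) (-527/200) (194/25) (3277/125) (62389/1000) (20653/250) (-1501/1000) (9621/500) (7489/1000) := by
  constructor <;> norm_num

lemma nums1 : Nums 3 3 2 0 10 10 5 11 24 (2667/10000) (369/2500) (1/25) (1243/1000) (711/500) (2397/500) (-61/500) (2401/500) (1356/125) (17911/500) (6867/200) (-549/1000) (4529/500) (5267/1000) := by
  constructor <;> norm_num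

lemma nums2 : Nums 3 3 2 0 10 10 5 11 24 (801/5000) (103/1250) (1/25) (367/500) (537/500) (4067/1000) (1191/1000) (699/200) (4553/1000) (12897/500) (20279/1000) (-19/200) (5163/1000) (4277/1000) := by
  constructor <;> norm_num

lemma nums3 : Nums 3 3 2 0 10 10 5 11 24 (1113/10000) (23/400) (1/25) (541/1000) (116/125) (1871/500) (1741/1000) (601/200) (527/250) (22089/1000) (3917/250) (91/1000) (466/125) (3851/1000) := by
  constructor <;> norm_num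

lemma nums4 : Nums 3 3 2 0 10 10 5 11 24 (907/10000) (97/2000) (1/25) (469/1000) (869/1000) (3607/1000) (489/250) (1411/500) (591/500) (20697/1000) (14023/1000) (163/1000) (1601/500) (1839/500) := by
  constructor <;> norm_num

theorem no_limit {μ θ : ℝ} (hμ0 : 0 ≤ μ) (hμ1 : μ ≤ 1 / 2) (hθ0 : 1 / 2 ≤ θ) (hθ1 : θ ≤ 1) {s ρ r : ℕ → ℝ}
    (hstep : LevelStep 3 3 2 0 10 10 5 11 24 μ θ s ρ r) (hs0 : ∀ n, 0 ≤ s n) (hρ1 : ∀ n, ρ n ≤ s n)
    (hρ2 : ∀ n, -s n / 2 ≤ ρ n) (hr0 : ∀ n, 0 ≤ r n) (hr1 : ∀ n, r n ≤ s n) {l : ℝ} (hsl : ∀ n, l ≤ s n)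
    (hlim : Tendsto s atTop (𝓝 l)) (hl0 : 0 < l) (hl1 : l < (1/25)) : False := by
  have hθ0' : 0 ≤ θ := by linarith
  have b0 : ∀ᶠ n in atTop, μ * |ρ n| ≤ (1/2) * s n ∧ μ ^ 2 * r n ≤ (1/4) * s n := by
    refine Eventually.of_forall fun n => ?_
    exact trivial_box hμ0 hμ1 (hs0 n) (hρ1 n) (hρ2 n) (hr0 n) (hr1 n)
  have b1 := box_step nums0 hμ0 hμ1 hθ0' hθ1 hstep hl0 hsl hlim hl1 (E := (3333/500)) (F := (3689/1000)) (α' := (2667/10000)) (β' := (369/2500))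
    (by norm_num) (by norm_num) (by norm_num) (by norm_num) (by norm_num) (by norm_num) (by norm_num) (by norm_num) (by norm_num) (by norm_num) b0
  have b2 := box_step nums1 hμ0 hμ1 hθ0' hθ1 hstep hl0 hsl hlim hl1 (E := (1001/250)) (F := (2059/1000)) (α' := (801/5000)) (β' := (103/1250))
    (by norm_num) (by norm_num) (by norm_num) (by norm_num) (by norm_num) (by norm_num) (by norm_num) (by norm_num) (by norm_num) (by norm_num) b1
  have b3 := box_step nums2 hμ0 hμ1 hθ0' hθ1 hstep hl0 hsl hlim hl1 (E := (139/50)) (F := (359/250)) (α' := (1113/10000)) (β' := (23/400))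
    (by norm_num) (by norm_num) (by norm_num) (by norm_num) (by norm_num) (by norm_num) (by norm_num) (by norm_num) (by norm_num) (by norm_num) b2
  have b4 := box_step nums3 hμ0 hμ1 hθ0' hθ1 hstep hl0 hsl hlim hl1 (E := (1133/500)) (F := (1211/1000)) (α' := (907/10000)) (β' := (97/2000))
    (by norm_num) (by norm_num) (by norm_num) (by norm_num) (by norm_num) (by norm_num) (by norm_num) (by norm_num) (by norm_num) (by norm_num) b3
  exact final_step nums4 hθ0 hθ1 hstep hl0 hsl hlim hl1 (by norm_num) b4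


end rounds

/-! ### The final statements -/

/-- If the moments converge along an antitone sequence to `l < 1/25` then `l = 0`. -/
theorem tendsto_zero_of_exit {μ θ : ℝ} (hμ0 : 0 ≤ μ) (hμ1 : μ ≤ 1 / 2) (hθ0 : 1 / 2 ≤ θ) (hθ1 : θ ≤ 1) {s ρ r : ℕ → ℝ}
    (hstep : LevelStep 3 3 2 0 10 10 5 11 24 μ θ s ρ r) (hanti : Antitone s) (hs0 : ∀ n, 0 ≤ s n)
    (hρ1 : ∀ n, ρ n ≤ s n) (hρ2 : ∀ n, -s n / 2 ≤ ρ n) (hr0 : ∀ n, 0 ≤ r n) (hr1 : ∀ n, r n ≤ s n)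
    (hexit : ∃ n, s n < 1 / 25) : Tendsto s atTop (𝓝 0) := by
  have hbdd : BddBelow (Set.range s) := ⟨0, by rintro _ ⟨n, rfl⟩; exact hs0 n⟩
  have hlim : Tendsto s atTop (𝓝 (⨅ n, s n)) := tendsto_atTop_ciInf hanti hbdd
  set l := ⨅ n, s n with hl
  have hsl : ∀ n, l ≤ s n := fun n => ciInf_le hbdd n
  have hl00 : 0 ≤ l := le_ciInf hs0
  obtain ⟨n, hn⟩ := hexit
  have hl1 : l < 1 / 25 := (hsl n).trans_lt hn
  rcases hl00.lt_or_eq with h | h
  · exact (no_limit hμ0 hμ1 hθ0 hθ1 hstep hs0 hρ1 hρ2 hr0 hr1 hsl hlim h hl1).elim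
  · rw [← h] at hlim
    exact hlim

/-- **Tail, regular tree.** -/
theorem tail_leaf (hP : TailPairs 3 3 2 0 10 10 5 11 24) {b : ℕ} (hb : 4 ≤ b) {lam : ℝ} (hl : lam < 0)
    (hbl : (b : ℝ) * lam ^ 2 = 1) (hch : ∀ i j : Fin 3, 0 ≤ channel 3 lam i j)
    (hexit : ∃ n, momS (leafSL 3 b lam n (by norm_num) hch) < 1 / 25) :
    Tendsto (advantage 3 b lam) atTop (𝓝 0) := by
  have hb4 : (4 : ℝ) ≤ b := by exact_mod_cast hb
  have hμ2 : lam ^ 2 ≤ 1 / 4 := by nlinarith [sq_nonneg lam]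
  have hμ1 : -lam ≤ 1 / 2 := by nlinarith
  obtain ⟨μ, rfl⟩ : ∃ μ, lam = -μ := ⟨-lam, by ring⟩
  have hμ0 : 0 ≤ μ := by linarith
  have hcrit : (b : ℝ) * μ ^ 2 = 1 := by simpa using hbl
  have hθ0 : (1 : ℝ) / 2 ≤ 1 - 1 / (b : ℝ) := by
    have : 1 / (b : ℝ) ≤ 1 / 4 := one_div_le_one_div_of_le (by norm_num) hb4
    linarith
  have hθ1 : 1 - 1 / (b : ℝ) ≤ 1 := by
    have : 0 ≤ 1 / (b : ℝ) := by positivity
    linarith
  have h3 : 0 < 3 := by norm_num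
  refine advantage_tendsto_of_momS b (-μ) hch ?_
  exact tendsto_zero_of_exit hμ0 (by linarith) hθ0 hθ1 (levelStep_leaf hP (by omega) hμ0 (by linarith) hch hcrit)
    (momS_leaf_antitone b (-μ) h3 hch) (fun n => momS_nonneg _) (fun n => momC_le_momS _)
    (fun n => neg_half_momS_le_momC _) (fun n => momR_nonneg _) (fun n => momR_le_momS _) hexit

/-- **Tail, Poisson tree.** -/
theorem tail_gw (hP : TailPairs 3 3 2 0 10 10 5 11 24) {d : ℝ} (hd : 4 ≤ d) {lam : ℝ} (hl : lam < 0)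
    (hdl : d * lam ^ 2 = 1) (hch : ∀ i j : Fin 3, 0 ≤ channel 3 lam i j)
    (hexit : ∃ n, momS (gwSL 3 lam d n (by linarith) (by norm_num) hch) < 1 / 25) :
    Tendsto (gwAdvantage 3 lam d) atTop (𝓝 0) := by
  have hμ2 : lam ^ 2 ≤ 1 / 4 := by nlinarith [sq_nonneg lam]
  have hμ1 : -lam ≤ 1 / 2 := by nlinarith
  obtain ⟨μ, rfl⟩ : ∃ μ, lam = -μ := ⟨-lam, by ring⟩
  have hμ0 : 0 ≤ μ := by linarith
  have hcrit : d * μ ^ 2 = 1 := by simpa using hdl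
  have h3 : 0 < 3 := by norm_num
  have hd0 : 0 < d := by linarith
  refine gwAdvantage_tendsto_of_momS (-μ) d hd0.le hch ?_
  exact tendsto_zero_of_exit hμ0 (by linarith) (by norm_num) le_rfl (levelStep_gw hP hd0 hμ0 (by linarith) hch hcrit)
    (momS_gw_antitone (-μ) d hd0.le h3 hch) (fun n => momS_nonneg _) (fun n => momC_le_momS _)
    (fun n => neg_half_momS_le_momC _) (fun n => momR_nonneg _) (fun n => momR_le_momS _) hexit

end Crest.Agent.Lib.Bc.Tail
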