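import Mathlib
/-!
# Row 163, tail: invariants of a linear recursion with small steps

Pure real arithmetic.  `S P R : ℕ → ℝ` are the three moments of the partial products
`K_j` of a thinned child law with one-step moments `τ, ρ, b`.  The inputs are the five recursive
inequalities that come from the pair bounds; the outputs are explicit bounds at step `N`.

`X = jτ`, `Y = j(j-1)τ²`, `Z = j(j-1)(j-2)τ³`.
-/
namespace Crest.Agent.Lib.Bc.Tail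

/-- the numeric closure conditions; the first nine numbers are the pair constants. -/
structure Nums (A₁ A₂ B₁ B₂ D₁ D₂ E₁ E₂ Ec : ℝ)
    (α β s₀ k₁ k₂ g₁ g₂ g₃ h₁ h₂ h₃ κ₁ κ₂ G : ℝ) : Prop where
  hA₁ : 0 ≤ A₁
  hA₂ : 0 ≤ A₂
  hB₁ : 0 ≤ B₁
  hB₂ : 0 ≤ B₂
  hD₁ : 0 ≤ D₁
  hD₂ : 0 ≤ D₂
  hE₁ : 0 ≤ E₁
  hE₂ : 0 ≤ E₂
  hEc : 0 ≤ Ec
  hα : 0 ≤ α
  hβ : 0 ≤ β
  hs₀ : 0 ≤ s₀
  hk₁ : 0 ≤ k₁
  hk₂ : 0 ≤ k₂
  hg₁ : 0 ≤ g₁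
  hg₃ : 0 ≤ g₃
  hh₁ : 0 ≤ h₁
  hh₂ : 0 ≤ h₂
  hh₃ : 0 ≤ h₃
  hκ₂ : 0 ≤ κ₂
  hG : 0 ≤ G
  hG1 : g₁ + h₁ * s₀ ≤ G
  hG2 : -(g₂ - h₂ * s₀) ≤ G
  I1 : (2 * α + A₂ * β) * (1 + k₁ * s₀) + A₁ * β + A₁ * (g₃ + h₃ * s₀) * s₀ + 2 * α * (α + G * s₀) ≤ 2 * k₁
  I2 : 1 + 4 * α + s₀ * (k₁ + 2 * g₁ + 2 * h₁ * s₀ + 2 * α * k₁) + 2 * α * (α + G * s₀) ≤ 2 * k₂
  I3x : 6 + 12 * α + α * α + B₁ * β + B₂ * β ≤ 2 * g₁
  I3y : 6 * k₁ - 6 * g₂ + 6 * h₂ * s₀ + 6 * α * k₁ + B₁ * g₃ + B₁ * h₃ * s₀ + B₂ * β * k₁ + α * G ≤ 3 * h₁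
  I4x : 2 * g₂ ≤ 6 - 12 * α - α * α - D₁ * β - D₂ * β
  I4y : 6 * k₂ + 6 * g₁ + 6 * h₁ * s₀ + 6 * α * k₁ + D₁ * g₃ + D₁ * h₃ * s₀ + D₂ * β * k₁ + α * G ≤ 3 * h₂
  I5x : 4 + 8 * α + 2 * (α * α) + (Ec * α + E₁) * β + E₂ * β ≤ 2 * g₃
  I5y : 4 * k₁ + 4 * g₁ + 4 * h₁ * s₀ + 4 * α * k₁ + (Ec * α + E₁) * (g₃ + h₃ * s₀) + E₂ * β * k₁
      + 2 * (α * G) ≤ 3 * h₃
  I6x : -1 + 4 * α + 2 * (α * α) + A₂ * β + A₁ * β ≤ -(2 * κ₁)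
  I6y : k₂ - 2 * g₂ + 2 * h₂ * s₀ + (2 * α + A₂ * β) * k₁ + A₁ * g₃ + A₁ * h₃ * s₀ + 2 * (α * G) ≤ 3 * κ₂

/-- the state at step `j` -/
structure St (α β s₀ k₁ k₂ g₁ g₂ g₃ h₁ h₂ h₃ τ ρ b S P R X Y Z W V : ℝ) : Prop where
  hτ : 0 ≤ τ
  hρ1 : ρ ≤ α * τ
  hρ2 : -(α * τ) ≤ ρ
  hb0 : 0 ≤ b
  hb1 : b ≤ β * τ
  hX : 0 ≤ X
  hY : 0 ≤ Y
  hZ : 0 ≤ Z
  hYX : Y ≤ s₀ * X
  hZY : Z ≤ s₀ * Y
  hW1 : W ≤ α * X
  hW2 : -(α * X) ≤ W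
  hV0 : 0 ≤ V
  hV1 : V ≤ β * X
  hS0 : 0 ≤ S
  hR0 : 0 ≤ R
  hPS : -S / 2 ≤ P
  iS1 : S ≤ X + k₁ * Y
  iS2 : X - k₂ * Y ≤ S
  iP1 : P ≤ W + g₁ * Y + h₁ * Z
  iP2 : W + g₂ * Y - h₂ * Z ≤ P
  iR : R ≤ V + g₃ * Y + h₃ * Z

namespace St
variable {A₁ A₂ B₁ B₂ D₁ D₂ E₁ E₂ Ec α β s₀ k₁ k₂ g₁ g₂ g₃ h₁ h₂ h₃ κ₁ κ₂ G : ℝ}
variable {τ ρ b S P R X Y Z W V S' P' R' : ℝ}
variable (hN : Nums A₁ A₂ B₁ B₂ D₁ D₂ E₁ E₂ Ec α β s₀ k₁ k₂ g₁ g₂ g₃ h₁ h₂ h₃ κ₁ κ₂ G)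
variable (h : St α β s₀ k₁ k₂ g₁ g₂ g₃ h₁ h₂ h₃ τ ρ b S P R X Y Z W V)
include hN h

lemma bR : R ≤ β * X + (g₃ + h₃ * s₀) * Y := by
  have h1 := mul_le_mul_of_nonneg_left h.hZY hN.hh₃
  linarith [h.iR, h.hV1]

lemma bP1 : P ≤ α * X + (g₁ + h₁ * s₀) * Y := by
  have h1 := mul_le_mul_of_nonneg_left h.hZY hN.hh₁
  linarith [h.iP1, h.hW1]

lemma bP2 : -(α * X) + (g₂ - h₂ * s₀) * Y ≤ P := by
  have h1 := mul_le_mul_of_nonneg_left h.hZY hN.hh₂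
  linarith [h.iP2, h.hW2]

lemma term_bS {c : ℝ} (hc : 0 ≤ c) : c * b * S ≤ c * β * τ * S := by
  have h1 : 0 ≤ c * (β * τ - b) * S := mul_nonneg (mul_nonneg hc (by linarith [h.hb1])) h.hS0
  linarith

lemma term_ρS {c : ℝ} (hc : 0 ≤ c) : -(c * ρ * S) ≤ c * α * τ * S := by
  have h1 : 0 ≤ c * (α * τ + ρ) * S := mul_nonneg (mul_nonneg hc (by linarith [h.hρ2])) h.hS0
  linarith

lemma term_ρS' {c : ℝ} (hc : 0 ≤ c) : c * ρ * S ≤ c * α * τ * S := by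
  have h1 : 0 ≤ c * (α * τ - ρ) * S := mul_nonneg (mul_nonneg hc (by linarith [h.hρ1])) h.hS0
  linarith

lemma term_ρR {c : ℝ} (hc : 0 ≤ c) : -(c * ρ * R) ≤ c * α * τ * R := by
  have h1 : 0 ≤ c * (α * τ + ρ) * R := mul_nonneg (mul_nonneg hc (by linarith [h.hρ2])) h.hR0
  linarith

lemma bPabs1 : P ≤ α * X + G * Y := by
  have h1 := bP1 hN h
  have h2 := mul_le_mul_of_nonneg_right hN.hG1 h.hY
  linarith

lemma bPabs2 : -P ≤ α * X + G * Y := by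
  have h1 := bP2 hN h
  have h2 := mul_le_mul_of_nonneg_right hN.hG2 h.hY
  nlinarith

lemma hατ1 : 0 ≤ α * τ - ρ := by linarith [h.hρ1]
lemma hατ2 : 0 ≤ α * τ + ρ := by linarith [h.hρ2]

lemma term_ρP : ρ * P ≤ α * τ * (α * X + G * Y) := by
  have h1 := mul_nonneg (hατ1 hN h) (by linarith [bPabs2 hN h] : 0 ≤ (α * X + G * Y) + P)
  have h2 := mul_nonneg (hατ2 hN h) (by linarith [bPabs1 hN h] : 0 ≤ (α * X + G * Y) - P)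
  nlinarith

lemma term_ρP' : -(ρ * P) ≤ α * τ * (α * X + G * Y) := by
  have h1 := mul_nonneg (hατ2 hN h) (by linarith [bPabs2 hN h] : 0 ≤ (α * X + G * Y) + P)
  have h2 := mul_nonneg (hατ1 hN h) (by linarith [bPabs1 hN h] : 0 ≤ (α * X + G * Y) - P)
  nlinarith

/-- crude upper bound on `S` -/
lemma step1 (hrec : S' ≤ S + τ * (1 - S - 2 * P) - 2 * ρ * S + 2 * (ρ * P) + A₁ * τ * R + A₂ * b * S) :
    S' ≤ (X + τ) + k₁ * (Y + 2 * X * τ) := by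
  have hA := hN.hA₁
  have hc : 0 ≤ 2 * α + A₂ * β := by
    have := mul_nonneg hN.hA₂ hN.hβ
    linarith [hN.hα]
  have hg : 0 ≤ g₃ + h₃ * s₀ := by
    have := mul_nonneg hN.hh₃ hN.hs₀
    linarith [hN.hg₃]
  have r1 := mul_le_mul_of_nonneg_left h.iS1 hc
  have r2 := mul_le_mul_of_nonneg_left (bR hN h) hA
  have r3 := mul_le_mul_of_nonneg_left h.hYX (mul_nonneg hc hN.hk₁)
  have r4 := mul_le_mul_of_nonneg_left h.hYX (mul_nonneg hA hg)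
  have r5 := mul_le_mul_of_nonneg_right hN.I1 h.hX
  have rG := mul_le_mul_of_nonneg_left h.hYX (mul_nonneg hN.hα hN.hG)
  have rate : (2 * α + A₂ * β) * S + A₁ * R + 2 * (α * (α * X + G * Y)) ≤ 2 * k₁ * X := by nlinarith
  have t1 := mul_le_mul_of_nonneg_left rate h.hτ
  have t2 : 0 ≤ τ * (S + 2 * P) := mul_nonneg h.hτ (by linarith [h.hPS])
  have t3 := term_ρS hN h (c := 2) (by norm_num)
  have t4 := term_bS hN h hN.hA₂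
  have t5 := term_ρP hN h
  nlinarith [h.iS1]

/-- lower bound on `S` -/
lemma step2 (hrec : S + τ * (1 - S - 2 * P) - 2 * ρ * S + 2 * (ρ * P) ≤ S') :
    (X + τ) - k₂ * (Y + 2 * X * τ) ≤ S' := by
  have hα := hN.hα
  have hc : 0 ≤ 1 + 2 * α := by linarith
  have hg : 0 ≤ k₁ + 2 * g₁ + 2 * h₁ * s₀ + 2 * α * k₁ := by
    have := mul_nonneg hN.hh₁ hN.hs₀
    have := mul_nonneg hα hN.hk₁
    linarith [hN.hk₁, hN.hg₁]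
  have r1 := mul_le_mul_of_nonneg_left h.iS1 hc
  have r2 := bP1 hN h
  have r3 := mul_le_mul_of_nonneg_left h.hYX hg
  have r5 := mul_le_mul_of_nonneg_right hN.I2 h.hX
  have rG := mul_le_mul_of_nonneg_left h.hYX (mul_nonneg hN.hα hN.hG)
  have rate : S + 2 * P + 2 * α * S + 2 * (α * (α * X + G * Y)) ≤ 2 * k₂ * X := by nlinarith
  have t1 := mul_le_mul_of_nonneg_left rate h.hτ
  have t3 := term_ρS' hN h (c := 2) (by norm_num)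
  have t5 := term_ρP' hN h
  nlinarith [h.iS2]

/-- upper bound on `P` -/
lemma step3 (hrec : P' ≤ P + ρ + 6 * τ * (S - P) - 6 * ρ * S + ρ * P + B₁ * τ * R + B₂ * b * S) :
    P' ≤ (W + ρ) + g₁ * (Y + 2 * X * τ) + h₁ * (Z + 3 * Y * τ) := by
  have hB₁ := hN.hB₁
  have hB₂ := hN.hB₂
  have hα := hN.hα
  have hc : 0 ≤ 6 + 6 * α + B₂ * β := by
    have := mul_nonneg hB₂ hN.hβ
    linarith
  have r1 := mul_le_mul_of_nonneg_left h.iS1 hc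
  have r2 := mul_le_mul_of_nonneg_left (bR hN h) hB₁
  have r3 := bP2 hN h
  have r5 := mul_le_mul_of_nonneg_right hN.I3x h.hX
  have r6 := mul_le_mul_of_nonneg_right hN.I3y h.hY
  have rate : 6 * (S - P) + 6 * α * S + α * (α * X + G * Y) + B₁ * R + B₂ * β * S ≤ 2 * g₁ * X + 3 * h₁ * Y := by
    nlinarith
  have t1 := mul_le_mul_of_nonneg_left rate h.hτ
  have t3 := term_ρS hN h (c := 6) (by norm_num)
  have t4 := term_bS hN h hB₂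
  have t5 := term_ρP hN h
  nlinarith [h.iP1]

/-- lower bound on `P` -/
lemma step4 (hrec : P + ρ + 6 * τ * (S - P) - 6 * ρ * S + ρ * P - D₁ * τ * R - D₂ * b * S ≤ P') :
    (W + ρ) + g₂ * (Y + 2 * X * τ) - h₂ * (Z + 3 * Y * τ) ≤ P' := by
  have hD₁ := hN.hD₁
  have hD₂ := hN.hD₂
  have hα := hN.hα
  have hc : 0 ≤ 6 * α + D₂ * β := by
    have := mul_nonneg hD₂ hN.hβ
    linarith
  have r1 := mul_le_mul_of_nonneg_left h.iS1 hc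
  have r2 := mul_le_mul_of_nonneg_left (bR hN h) hD₁
  have r3 := bP1 hN h
  have r5 := mul_le_mul_of_nonneg_right hN.I4x h.hX
  have r6 := mul_le_mul_of_nonneg_right hN.I4y h.hY
  have r7 := h.iS2
  have rate : 2 * g₂ * X - 3 * h₂ * Y ≤ 6 * (S - P) - 6 * α * S - α * (α * X + G * Y) - D₁ * R - D₂ * β * S := by
    nlinarith
  have t1 := mul_le_mul_of_nonneg_left rate h.hτ
  have t3 := term_ρS' hN h (c := 6) (by norm_num)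
  have t4 := term_bS hN h hD₂
  have t5 := term_ρP' hN h
  nlinarith [h.iP2]

/-- upper bound on `R` -/
lemma step5 (hrec : R' ≤ R + b + τ * (4 * S + 4 * P) + 4 * ρ * S - 2 * (ρ * P) - Ec * ρ * R + E₁ * τ * R + E₂ * b * S) :
    R' ≤ (V + b) + g₃ * (Y + 2 * X * τ) + h₃ * (Z + 3 * Y * τ) := by
  have hE₁ := hN.hE₁
  have hE₂ := hN.hE₂
  have hα := hN.hα
  have hc : 0 ≤ 4 + 4 * α + E₂ * β := by
    have := mul_nonneg hE₂ hN.hβ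
    linarith
  have hc2 : 0 ≤ Ec * α + E₁ := by
    have := mul_nonneg hN.hEc hα
    linarith
  have r1 := mul_le_mul_of_nonneg_left h.iS1 hc
  have r2 := mul_le_mul_of_nonneg_left (bR hN h) hc2
  have r3 := bP1 hN h
  have r5 := mul_le_mul_of_nonneg_right hN.I5x h.hX
  have r6 := mul_le_mul_of_nonneg_right hN.I5y h.hY
  have rate : 4 * S + 4 * P + 4 * α * S + 2 * (α * (α * X + G * Y)) + (Ec * α + E₁) * R + E₂ * β * S ≤ 2 * g₃ * X + 3 * h₃ * Y := by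
    nlinarith
  have t1 := mul_le_mul_of_nonneg_left rate h.hτ
  have t3 := term_ρS' hN h (c := 4) (by norm_num)
  have t4 := term_bS hN h hE₂
  have t5 := term_ρR hN h hN.hEc
  have t6 := term_ρP' hN h
  nlinarith [h.iR]

/-- the descent -/
lemma step6 (iS3 : S ≤ X - κ₁ * Y + κ₂ * Z)
    (hrec : S' ≤ S + τ * (1 - S - 2 * P) - 2 * ρ * S + 2 * (ρ * P) + A₁ * τ * R + A₂ * b * S) :
    S' ≤ (X + τ) - κ₁ * (Y + 2 * X * τ) + κ₂ * (Z + 3 * Y * τ) := by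
  have hA := hN.hA₁
  have hc : 0 ≤ 2 * α + A₂ * β := by
    have := mul_nonneg hN.hA₂ hN.hβ
    linarith [hN.hα]
  have r1 := mul_le_mul_of_nonneg_left h.iS1 hc
  have r2 := mul_le_mul_of_nonneg_left (bR hN h) hA
  have r3 := bP2 hN h
  have r5 := mul_le_mul_of_nonneg_right hN.I6x h.hX
  have r6 := mul_le_mul_of_nonneg_right hN.I6y h.hY
  have r7 := h.iS2
  have rate : -S - 2 * P + (2 * α + A₂ * β) * S + 2 * (α * (α * X + G * Y)) + A₁ * R ≤ -(2 * κ₁ * X) + 3 * κ₂ * Y := by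
    nlinarith
  have t1 := mul_le_mul_of_nonneg_left rate h.hτ
  have t3 := term_ρS hN h (c := 2) (by norm_num)
  have t4 := term_bS hN h hN.hA₂
  have t5 := term_ρP hN h
  nlinarith [h.iS1]

end St

/-- **The invariants.** -/
theorem invariants {A₁ A₂ B₁ B₂ D₁ D₂ E₁ E₂ Ec α β s₀ k₁ k₂ g₁ g₂ g₃ h₁ h₂ h₃ κ₁ κ₂ G : ℝ}
    (hN : Nums A₁ A₂ B₁ B₂ D₁ D₂ E₁ E₂ Ec α β s₀ k₁ k₂ g₁ g₂ g₃ h₁ h₂ h₃ κ₁ κ₂ G)
    {τ ρ b : ℝ} (hτ : 0 ≤ τ) (hρ1 : ρ ≤ α * τ) (hρ2 : -(α * τ) ≤ ρ) (hb0 : 0 ≤ b) (hb1 : b ≤ β * τ)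
    {N : ℕ} (hNs : (N : ℝ) * τ ≤ s₀) {S P R : ℕ → ℝ}
    (hS00 : S 0 = 0) (hP00 : P 0 = 0) (hR00 : R 0 = 0)
    (hS0 : ∀ j, 0 ≤ S j) (hR0 : ∀ j, 0 ≤ R j) (hPS : ∀ j, -S j / 2 ≤ P j)
    (rS1 : ∀ j < N, S (j + 1) ≤ S j + τ * (1 - S j - 2 * P j) - 2 * ρ * S j + 2 * (ρ * P j) + A₁ * τ * R j + A₂ * b * S j)
    (rS2 : ∀ j < N, S j + τ * (1 - S j - 2 * P j) - 2 * ρ * S j + 2 * (ρ * P j) ≤ S (j + 1))
    (rP1 : ∀ j < N, P (j + 1) ≤ P j + ρ + 6 * τ * (S j - P j) - 6 * ρ * S j + ρ * P j + B₁ * τ * R j + B₂ * b * S j)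
    (rP2 : ∀ j < N, P j + ρ + 6 * τ * (S j - P j) - 6 * ρ * S j + ρ * P j - D₁ * τ * R j - D₂ * b * S j ≤ P (j + 1))
    (rR : ∀ j < N, R (j + 1) ≤ R j + b + τ * (4 * S j + 4 * P j) + 4 * ρ * S j - 2 * (ρ * P j) - Ec * ρ * R j
      + E₁ * τ * R j + E₂ * b * S j) :
    let y : ℝ := (N : ℝ) * ((N : ℝ) - 1) * τ ^ 2
    S N ≤ (N : ℝ) * τ - (κ₁ - κ₂ * s₀) * y ∧
    (N : ℝ) * ρ + (g₂ - h₂ * s₀) * y ≤ P N ∧
    P N ≤ (N : ℝ) * ρ + (g₁ + h₁ * s₀) * y ∧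
    R N ≤ (N : ℝ) * b + (g₃ + h₃ * s₀) * y := by
  intro y
  -- the invariant for all `j ≤ N`
  let Xf : ℕ → ℝ := fun j => (j : ℝ) * τ
  let Yf : ℕ → ℝ := fun j => (j : ℝ) * ((j : ℝ) - 1) * τ ^ 2
  let Zf : ℕ → ℝ := fun j => (j : ℝ) * ((j : ℝ) - 1) * ((j : ℝ) - 2) * τ ^ 3
  have hXs : ∀ j ≤ N, Xf j ≤ s₀ := fun j hj => by
    have : (j : ℝ) ≤ N := by exact_mod_cast hj
    have h1 : (j : ℝ) * τ ≤ N * τ := mul_le_mul_of_nonneg_right this hτ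
    exact h1.trans hNs
  have hX0 : ∀ j, 0 ≤ Xf j := fun j => mul_nonneg (Nat.cast_nonneg _) hτ
  have hY0 : ∀ j, 0 ≤ Yf j := fun j => by
    rcases Nat.eq_zero_or_pos j with rfl | hj
    · simp [Yf]
    · have : (1 : ℝ) ≤ j := by exact_mod_cast hj
      exact mul_nonneg (mul_nonneg (Nat.cast_nonneg _) (by linarith)) (pow_nonneg hτ 2)
  have hZ0 : ∀ j, 0 ≤ Zf j := fun j => by
    rcases j with _ | _ | j
    · simp [Zf]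
    · simp [Zf]
    · have : (0 : ℝ) ≤ j := Nat.cast_nonneg j
      have e : Zf (j + 2) = ((j : ℝ) + 2) * ((j : ℝ) + 1) * (j : ℝ) * τ ^ 3 := by
        simp only [Zf]; push_cast; ring
      rw [e]
      positivity
  have hYX : ∀ j ≤ N, Yf j ≤ s₀ * Xf j := fun j hj => by
    have e : Yf j = (((j : ℝ) - 1) * τ) * Xf j := by simp only [Yf, Xf]; ring
    rw [e]
    refine mul_le_mul_of_nonneg_right ?_ (hX0 j)
    have := hXs j hj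
    simp only [Xf] at this
    nlinarith
  have hZY : ∀ j ≤ N, Zf j ≤ s₀ * Yf j := fun j hj => by
    have e : Zf j = (((j : ℝ) - 2) * τ) * Yf j := by simp only [Yf, Zf]; ring
    rw [e]
    refine mul_le_mul_of_nonneg_right ?_ (hY0 j)
    have := hXs j hj
    simp only [Xf] at this
    nlinarith
  have hXs' : ∀ j, Xf (j + 1) = Xf j + τ := fun j => by simp only [Xf]; push_cast; ring
  have hYs : ∀ j, Yf (j + 1) = Yf j + 2 * Xf j * τ := fun j => by simp only [Xf, Yf]; push_cast; ring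
  have hZs : ∀ j, Zf (j + 1) = Zf j + 3 * Yf j * τ := fun j => by simp only [Zf, Yf]; push_cast; ring
  have hα := hN.hα
  have hβ := hN.hβ
  -- the state lemma
  have hW1 : ∀ j : ℕ, (j : ℝ) * ρ ≤ α * Xf j := fun j => by
    have := mul_le_mul_of_nonneg_left hρ1 (Nat.cast_nonneg (α := ℝ) j)
    simp only [Xf]; linarith
  have hW2 : ∀ j : ℕ, -(α * Xf j) ≤ (j : ℝ) * ρ := fun j => by
    have := mul_le_mul_of_nonneg_left hρ2 (Nat.cast_nonneg (α := ℝ) j)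
    simp only [Xf]; linarith
  have hV0 : ∀ j : ℕ, 0 ≤ (j : ℝ) * b := fun j => mul_nonneg (Nat.cast_nonneg _) hb0
  have hV1 : ∀ j : ℕ, (j : ℝ) * b ≤ β * Xf j := fun j => by
    have := mul_le_mul_of_nonneg_left hb1 (Nat.cast_nonneg (α := ℝ) j)
    simp only [Xf]; linarith
  have key : ∀ j, j ≤ N →
      S j ≤ Xf j + k₁ * Yf j ∧ Xf j - k₂ * Yf j ≤ S j ∧
      P j ≤ (j : ℝ) * ρ + g₁ * Yf j + h₁ * Zf j ∧
      (j : ℝ) * ρ + g₂ * Yf j - h₂ * Zf j ≤ P j ∧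
      R j ≤ (j : ℝ) * b + g₃ * Yf j + h₃ * Zf j ∧
      S j ≤ Xf j - κ₁ * Yf j + κ₂ * Zf j := by
    intro j
    induction j with
    | zero =>
      intro _
      simp [Xf, Yf, Zf, hS00, hP00, hR00]
    | succ j ih =>
      intro hj
      have hjN : j < N := hj
      obtain ⟨i1, i2, i3, i4, i5, i6⟩ := ih hjN.le
      have st : St α β s₀ k₁ k₂ g₁ g₂ g₃ h₁ h₂ h₃ τ ρ b (S j) (P j) (R j) (Xf j) (Yf j) (Zf j)
          ((j : ℝ) * ρ) ((j : ℝ) * b) :=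
        { hτ := hτ, hρ1 := hρ1, hρ2 := hρ2, hb0 := hb0, hb1 := hb1, hX := hX0 j, hY := hY0 j,
          hZ := hZ0 j, hYX := hYX j hjN.le, hZY := hZY j hjN.le, hW1 := hW1 j, hW2 := hW2 j,
          hV0 := hV0 j, hV1 := hV1 j, hS0 := hS0 j, hR0 := hR0 j, hPS := hPS j, iS1 := i1,
          iS2 := i2, iP1 := i3, iP2 := i4, iR := i5 }
      have eW : ((j + 1 : ℕ) : ℝ) * ρ = (j : ℝ) * ρ + ρ := by push_cast; ring
      have eV : ((j + 1 : ℕ) : ℝ) * b = (j : ℝ) * b + b := by push_cast; ring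
      rw [hXs', hYs, hZs, eW, eV]
      exact ⟨st.step1 hN (rS1 j hjN), st.step2 hN (rS2 j hjN), st.step3 hN (rP1 j hjN),
        st.step4 hN (rP2 j hjN), st.step5 hN (rR j hjN), st.step6 hN i6 (rS1 j hjN)⟩
  obtain ⟨-, -, i3, i4, i5, i6⟩ := key N le_rfl
  have hy : Yf N = y := rfl
  have hzy := hZY N le_rfl
  have hy0 := hY0 N
  rw [hy] at i3 i4 i5 i6 hzy hy0
  have hz0 := hZ0 N
  have c1 := mul_le_mul_of_nonneg_left hzy hN.hκ₂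
  have c2 := mul_le_mul_of_nonneg_left hzy hN.hh₁
  have c3 := mul_le_mul_of_nonneg_left hzy hN.hh₂
  have c4 := mul_le_mul_of_nonneg_left hzy hN.hh₃
  refine ⟨?_, ?_, ?_, ?_⟩
  · have : Xf N = (N : ℝ) * τ := rfl
    rw [this] at i6
    nlinarith
  · nlinarith
  · nlinarith
  · nlinarith

end Crest.Agent.Lib.Bc.Tail
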