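import Crest.Agent.Lib.Bc.Hats3
import Crest.Agent.Lib.Bc.PolyFast
/-!
# Row 163, q = 3: exact polynomial pair bounds (helper43)

For `x, x'` in the simplex, with `a = aFn 3`, `c = cFn` and `a', c'` the same at `x'`, bounds of
`Esig 3 a`, `Esig 3 c`, `Esig 3 a²` by polynomials in `(a, c, a', c')`, valid on ALL of `Simp 3 × Simp 3`:

* `Esig_a_le   : Esig 3 (aFn 3) x x' ≤ U1 a c a' c'`,
* `Esig_a_ge   : L1 a c a' c' ≤ Esig 3 (aFn 3) x x'`,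
* `Esig_c_le   : Esig 3 cFn x x' ≤ U3 a c a' c'`,
* `Esig_c_ge   : L3 a c a' c' ≤ Esig 3 cFn x x'`,
* `Esig_a2_le  : Esig 3 (fun y => aFn 3 y ^ 2) x x' ≤ U2 a c a' c'`.

`U1 = 1 - G1`, `L1 = 1 - G1 - G2`, `U2 = 1 - G1 - G5`,
`U3 = 1 - (3/2) G1 + (1/2) (V V' G4 + G3)`, `L3 = 1 - (3/2) (G1 + G2) + (1/2) V V' G4`, with `V = 1 - 3a + 2c`;
`G1 ... G5` are explicit polynomials.

Pointwise per relabelling (`Hats3`): `Z a(y) = Z - ν/Z`, `Z c(y) = Z - (3/2) ν/Z + (1/2) W/Z²`,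
`Z a(y)² = Z - ν/Z - (Z²-ν) ν/Z³`, with `0 ≤ ν ≤ Z²`, `0 ≤ W = V V' ≤ Z³`, and Taylor sign facts for `1/Z`, `1/Z²`, `1/Z³`
at `w = Z - 1` (`T3f`, `T2pf`, `T3pf`). The averages over relabellings are checked by `PolyFast`.
-/
open scoped BigOperators
namespace Crest.Agent.Lib.Bc.Tail
open PolyFast (E den den_add' den_sub' den_mul' den_neg' den_pow' den_var' den_num' eq_of_check')

/-! ## Taylor sign facts -/

noncomputable def T3f (w : ℝ) : ℝ := 1 - w + w ^ 2 - w ^ 3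
noncomputable def T2pf (w : ℝ) : ℝ := 1 - 2 * w + 3 * w ^ 2 - 4 * w ^ 3
noncomputable def T3pf (w : ℝ) : ℝ := 1 - 3 * w + 6 * w ^ 2 - 10 * w ^ 3

lemma T1_le {Z : ℝ} (hZ : 0 < Z) : T3f (Z - 1) ≤ 1 / Z := by
  rw [le_div_iff₀ hZ]
  unfold T3f
  have : (1 - (Z - 1) + (Z - 1) ^ 2 - (Z - 1) ^ 3) * Z = 1 - (Z - 1) ^ 4 := by ring
  rw [this]
  have := pow_nonneg (sq_nonneg (Z - 1)) 2
  nlinarith

lemma T2_le {Z : ℝ} (hZ : 0 < Z) : T2pf (Z - 1) ≤ 1 / Z ^ 2 := by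
  rw [le_div_iff₀ (by positivity)]
  unfold T2pf
  have : (1 - 2 * (Z - 1) + 3 * (Z - 1) ^ 2 - 4 * (Z - 1) ^ 3) * Z ^ 2
      = 1 - (Z - 1) ^ 4 * (1 + 4 * Z) := by ring
  rw [this]
  have h4 : 0 ≤ (Z - 1) ^ 4 := by positivity
  have : 0 ≤ (Z - 1) ^ 4 * (1 + 4 * Z) := mul_nonneg h4 (by linarith)
  linarith

lemma T3_le {Z : ℝ} (hZ : 0 < Z) : T3pf (Z - 1) ≤ 1 / Z ^ 3 := by
  rw [le_div_iff₀ (by positivity)]
  unfold T3pf
  have : (1 - 3 * (Z - 1) + 6 * (Z - 1) ^ 2 - 10 * (Z - 1) ^ 3) * Z ^ 3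
      = 1 - (Z - 1) ^ 4 * (15 + 24 * (Z - 1) + 10 * (Z - 1) ^ 2) := by ring
  rw [this]
  have h4 : 0 ≤ (Z - 1) ^ 4 := by positivity
  have h5 : 0 ≤ 15 + 24 * (Z - 1) + 10 * (Z - 1) ^ 2 := by nlinarith [sq_nonneg (10 * (Z - 1) + 12)]
  have := mul_nonneg h4 h5
  linarith

/-! ## Pointwise forms in `ℓ` -/

section pointwise
variable {ℓ : Fin 3 → ℝ}

private lemma X_zero (h : ∀ i, 0 ≤ ℓ i) (hZ : Zl ℓ = 0) : Xt ℓ = 0 := by
  unfold Xt; rw [zero_of_Zl h hZ 0, zero_of_Zl h hZ 1]; simp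

private lemma W_zero (h : ∀ i, 0 ≤ ℓ i) (hZ : Zl ℓ = 0) : Wl ℓ = 0 := by
  unfold Wl; rw [zero_of_Zl h hZ 0]; simp

private lemma Z_pos (h : ∀ i, 0 ≤ ℓ i) (hZ : Zl ℓ ≠ 0) : 0 < Zl ℓ :=
  lt_of_le_of_ne (Zl_nonneg h) (Ne.symm hZ)

private lemma X_div_le {X Z : ℝ} (hZ : 0 < Z) (hX : 0 ≤ X) : X * T3f (Z - 1) ≤ X / Z := by
  have := mul_le_mul_of_nonneg_left (T1_le hZ) hX
  have e : X * (1 / Z) = X / Z := by ring
  linarith

private lemma X_div_ge {X Z : ℝ} (hZ : 0 < Z) (hX2 : X ≤ Z ^ 2) :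
    X / Z ≤ X * T3f (Z - 1) + Z * (Z - 1) ^ 4 := by
  have h : X / Z = X * T3f (Z - 1) + X * (Z - 1) ^ 4 / Z := by
    unfold T3f
    field_simp
    ring
  rw [h]
  have h4 : 0 ≤ (Z - 1) ^ 4 := by positivity
  have : X * (Z - 1) ^ 4 / Z ≤ Z * (Z - 1) ^ 4 := by
    rw [div_le_iff₀ hZ]
    nlinarith
  linarith

private lemma W_div_ge {W Z : ℝ} (hZ : 0 < Z) (hW : 0 ≤ W) : W * T2pf (Z - 1) ≤ W / Z ^ 2 := by
  have := mul_le_mul_of_nonneg_left (T2_le hZ) hW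
  have e : W * (1 / Z ^ 2) = W / Z ^ 2 := by ring
  linarith

private lemma W_div_le {W Z : ℝ} (hZ : 0 < Z) (hW2 : W ≤ Z ^ 3) :
    W / Z ^ 2 ≤ W * T2pf (Z - 1) + Z * (1 + 4 * Z) * (Z - 1) ^ 4 := by
  have h : W / Z ^ 2 = W * T2pf (Z - 1) + W * ((Z - 1) ^ 4 * (1 + 4 * Z)) / Z ^ 2 := by
    unfold T2pf
    field_simp
    ring
  rw [h]
  have h4 : 0 ≤ (Z - 1) ^ 4 * (1 + 4 * Z) := mul_nonneg (by positivity) (by linarith)
  have : W * ((Z - 1) ^ 4 * (1 + 4 * Z)) / Z ^ 2 ≤ Z * (1 + 4 * Z) * (Z - 1) ^ 4 := by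
    rw [div_le_iff₀ (by positivity)]
    have := mul_le_mul_of_nonneg_right hW2 h4
    nlinarith
  linarith

private lemma W_le (h : ∀ i, 0 ≤ ℓ i) : Wl ℓ ≤ Zl ℓ ^ 3 := by
  have h1 := Wl_le_Xt_Z h
  have h2 : Xt ℓ ≤ Zl ℓ ^ 2 := Xt_le_Zsq
  have h3 := Zl_nonneg h
  have := mul_le_mul_of_nonneg_right h2 h3
  nlinarith

theorem Kz_a_up (h : ∀ i, 0 ≤ ℓ i) : Kz 3 (aFn 3) ℓ ≤ Zl ℓ - Xt ℓ * T3f (Zl ℓ - 1) := by
  rw [Kz_aFn h]
  by_cases hZ : Zl ℓ = 0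
  · simp [hZ, X_zero h hZ]
  · have := X_div_le (X := Xt ℓ) (Z_pos h hZ) (Xt_nonneg h)
    linarith

theorem Kz_a_low (h : ∀ i, 0 ≤ ℓ i) :
    Zl ℓ - Xt ℓ * T3f (Zl ℓ - 1) - Zl ℓ * (Zl ℓ - 1) ^ 4 ≤ Kz 3 (aFn 3) ℓ := by
  rw [Kz_aFn h]
  by_cases hZ : Zl ℓ = 0
  · simp [hZ, X_zero h hZ]
  · have := X_div_ge (X := Xt ℓ) (Z_pos h hZ) Xt_le_Zsq
    linarith

theorem Kz_c_up (h : ∀ i, 0 ≤ ℓ i) :
    Kz 3 cFn ℓ ≤ Zl ℓ - (3 / 2) * (Xt ℓ * T3f (Zl ℓ - 1))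
      + (1 / 2) * (Wl ℓ * T2pf (Zl ℓ - 1) + Zl ℓ * (1 + 4 * Zl ℓ) * (Zl ℓ - 1) ^ 4) := by
  rw [Kz_cFn h]
  by_cases hZ : Zl ℓ = 0
  · simp [hZ, X_zero h hZ, W_zero h hZ]
  · have := X_div_le (X := Xt ℓ) (Z_pos h hZ) (Xt_nonneg h)
    have := W_div_le (W := Wl ℓ) (Z_pos h hZ) (W_le h)
    linarith

theorem Kz_c_low (h : ∀ i, 0 ≤ ℓ i) :
    Zl ℓ - (3 / 2) * (Xt ℓ * T3f (Zl ℓ - 1) + Zl ℓ * (Zl ℓ - 1) ^ 4)
      + (1 / 2) * (Wl ℓ * T2pf (Zl ℓ - 1)) ≤ Kz 3 cFn ℓ := by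
  rw [Kz_cFn h]
  by_cases hZ : Zl ℓ = 0
  · simp [hZ, X_zero h hZ, W_zero h hZ]
  · have := X_div_ge (X := Xt ℓ) (Z_pos h hZ) Xt_le_Zsq
    have := W_div_ge (W := Wl ℓ) (Z_pos h hZ) (Wl_nonneg h)
    linarith

theorem Kz_a2_up (h : ∀ i, 0 ≤ ℓ i) :
    Kz 3 (fun x => aFn 3 x ^ 2) ℓ ≤ Zl ℓ - Xt ℓ * T3f (Zl ℓ - 1)
      - (Zl ℓ ^ 2 - Xt ℓ) * Xt ℓ * T3pf (Zl ℓ - 1) := by
  rw [Kz_a2 h]
  by_cases hZ : Zl ℓ = 0
  · simp [hZ, X_zero h hZ]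
  · have hpos := Z_pos h hZ
    have h1 := X_div_le (X := Xt ℓ) hpos (Xt_nonneg h)
    have h0 : 0 ≤ (Zl ℓ ^ 2 - Xt ℓ) * Xt ℓ :=
      mul_nonneg (by linarith [Xt_le_Zsq (ℓ := ℓ)]) (Xt_nonneg h)
    have h3 := mul_le_mul_of_nonneg_left (T3_le hpos) h0
    have e : (Zl ℓ ^ 2 - Xt ℓ) * Xt ℓ * (1 / Zl ℓ ^ 3) = Xt ℓ / Zl ℓ - Xt ℓ ^ 2 / Zl ℓ ^ 3 := by
      field_simp
    rw [e] at h3
    linarith

end pointwise

/-! ## Pair coordinates -/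

/-- the hat coordinates of a pair -/
noncomputable def ellP (x y : Fin 3 → ℝ) : Fin 3 → ℝ := fun i => 9 * (x i * y i)

noncomputable def zP (x0 x1 x2 y0 y1 y2 : ℝ) : ℝ := 3 * (x0 * y0 + x1 * y1 + x2 * y2)
noncomputable def nP (x0 x1 x2 y0 y1 y2 : ℝ) : ℝ :=
  27 * (x0 * y0 * (x1 * y1) + x0 * y0 * (x2 * y2) + x1 * y1 * (x2 * y2))
noncomputable def vP (x0 x1 x2 y0 y1 y2 : ℝ) : ℝ := 729 * (x0 * x1 * x2 * (y0 * y1 * y2))

lemma Zl_ellP (x y : Fin 3 → ℝ) : Zl (ellP x y) = zP (x 0) (x 1) (x 2) (y 0) (y 1) (y 2) := by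
  unfold Zl ellP zP; ring

lemma Xt_ellP (x y : Fin 3 → ℝ) : Xt (ellP x y) = nP (x 0) (x 1) (x 2) (y 0) (y 1) (y 2) := by
  unfold Xt ellP nP; ring

lemma Wl_ellP (x y : Fin 3 → ℝ) : Wl (ellP x y) = vP (x 0) (x 1) (x 2) (y 0) (y 1) (y 2) := by
  unfold Wl ellP vP; ring

lemma ellP_nonneg {x y : Fin 3 → ℝ} (hx : x ∈ Simp 3) (hy : y ∈ Simp 3) (i : Fin 3) : 0 ≤ ellP x y i :=
  mul_nonneg (by norm_num) (mul_nonneg (hx.1 i) (hy.1 i))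

lemma dotZ_star (f : (Fin 3 → ℝ) → ℝ) (x y : Fin 3 → ℝ) :
    dotZ 3 x y * f (star 3 x y) = Kz 3 f (ellP x y) := by
  unfold Kz dotZ star ellP
  have e : ∑ i, 9 * (x i * y i) = 9 * ∑ i, x i * y i := by rw [Finset.mul_sum]
  rw [e]
  by_cases h0 : ∑ j, x j * y j = 0
  · simp [h0]
  · have : (fun i => (9 * (x i * y i)) / (9 * ∑ j, x j * y j))
        = fun i => if ∑ j, x j * y j = 0 then (1 : ℝ) / (3 : ℕ) else x i * y i / ∑ j, x j * y j := by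
      funext i
      rw [if_neg h0]
      field_simp
    rw [this]
    push_cast
    ring

lemma sum_perm3' (g : Equiv.Perm (Fin 3) → ℝ) :
    ∑ σ, g σ = g 1 + g (Equiv.swap 1 2) + g (Equiv.swap 0 1)
      + g (Equiv.swap 0 1 * Equiv.swap 1 2) + g (Equiv.swap 1 2 * Equiv.swap 0 1) + g (Equiv.swap 0 2) := by
  have h : (Finset.univ : Finset (Equiv.Perm (Fin 3)))
      = {1, Equiv.swap 1 2, Equiv.swap 0 1, Equiv.swap 0 1 * Equiv.swap 1 2,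
          Equiv.swap 1 2 * Equiv.swap 0 1, Equiv.swap 0 2} := by decide
  rw [h]
  rw [Finset.sum_insert (by decide), Finset.sum_insert (by decide), Finset.sum_insert (by decide),
    Finset.sum_insert (by decide), Finset.sum_insert (by decide), Finset.sum_singleton]
  ring

/-- the six relabellings -/
def sum6 {R : Type*} [Add R] (F : R → R → R → R → R → R → R) (x0 x1 x2 y0 y1 y2 : R) : R :=
  F x0 x1 x2 y0 y1 y2 + F x0 x1 x2 y0 y2 y1 + F x0 x1 x2 y1 y0 y2 + F x0 x1 x2 y1 y2 y0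
    + F x0 x1 x2 y2 y0 y1 + F x0 x1 x2 y2 y1 y0

lemma sum_sig (F : ℝ → ℝ → ℝ → ℝ → ℝ → ℝ → ℝ) (x x' : Fin 3 → ℝ) :
    ∑ σ : Equiv.Perm (Fin 3), F (x 0) (x 1) (x 2) ((x' ∘ σ) 0) ((x' ∘ σ) 1) ((x' ∘ σ) 2)
      = sum6 F (x 0) (x 1) (x 2) (x' 0) (x' 1) (x' 2) := by
  rw [sum_perm3']
  unfold sum6
  have s0 : (Equiv.swap (0 : Fin 3) 1) 0 = 1 := by decide
  have s1 : (Equiv.swap (0 : Fin 3) 1) 1 = 0 := by decide
  have s2 : (Equiv.swap (0 : Fin 3) 1) 2 = 2 := by decide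
  have t0 : (Equiv.swap (1 : Fin 3) 2) 0 = 0 := by decide
  have t1 : (Equiv.swap (1 : Fin 3) 2) 1 = 2 := by decide
  have t2 : (Equiv.swap (1 : Fin 3) 2) 2 = 1 := by decide
  have u0 : (Equiv.swap (0 : Fin 3) 2) 0 = 2 := by decide
  have u1 : (Equiv.swap (0 : Fin 3) 2) 1 = 1 := by decide
  have u2 : (Equiv.swap (0 : Fin 3) 2) 2 = 0 := by decide
  simp only [Function.comp_apply, Equiv.Perm.coe_one, id_eq, Equiv.Perm.coe_mul, s0, s1, s2, t0, t1, t2,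
    u0, u1, u2]

lemma Esig_eq (f : (Fin 3 → ℝ) → ℝ) (x x' : Fin 3 → ℝ) :
    Esig 3 f x x' = (∑ σ : Equiv.Perm (Fin 3), Kz 3 f (ellP x (x' ∘ σ))) / 6 := by
  unfold Esig
  simp only [dotZ_star]
  norm_num [Nat.factorial]

lemma comp_mem {x' : Fin 3 → ℝ} (hx' : x' ∈ Simp 3) (σ : Equiv.Perm (Fin 3)) : x' ∘ σ ∈ Simp 3 :=
  ⟨fun i => hx'.1 _, by rw [← hx'.2]; exact Equiv.sum_comp σ x'⟩

lemma Esig_le_sum6 {f : (Fin 3 → ℝ) → ℝ} {F : ℝ → ℝ → ℝ → ℝ → ℝ → ℝ → ℝ} {x x' : Fin 3 → ℝ}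
    (hx' : x' ∈ Simp 3)
    (h : ∀ y ∈ Simp 3, Kz 3 f (ellP x y) ≤ F (x 0) (x 1) (x 2) (y 0) (y 1) (y 2)) :
    Esig 3 f x x' ≤ sum6 F (x 0) (x 1) (x 2) (x' 0) (x' 1) (x' 2) / 6 := by
  rw [Esig_eq, ← sum_sig]
  apply div_le_div_of_nonneg_right _ (by norm_num)
  exact Finset.sum_le_sum fun σ _ => h _ (comp_mem hx' σ)

lemma le_Esig_sum6 {f : (Fin 3 → ℝ) → ℝ} {F : ℝ → ℝ → ℝ → ℝ → ℝ → ℝ → ℝ} {x x' : Fin 3 → ℝ}
    (hx' : x' ∈ Simp 3)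
    (h : ∀ y ∈ Simp 3, F (x 0) (x 1) (x 2) (y 0) (y 1) (y 2) ≤ Kz 3 f (ellP x y)) :
    sum6 F (x 0) (x 1) (x 2) (x' 0) (x' 1) (x' 2) / 6 ≤ Esig 3 f x x' := by
  rw [Esig_eq, ← sum_sig]
  apply div_le_div_of_nonneg_right _ (by norm_num)
  exact Finset.sum_le_sum fun σ _ => h _ (comp_mem hx' σ)

/-- `a` and `c` in elementary symmetric form -/
noncomputable def aR (x0 x1 x2 : ℝ) : ℝ := 1 - 3 * (x0 * x1 + x0 * x2 + x1 * x2)
noncomputable def cR (x0 x1 x2 : ℝ) : ℝ :=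
  1 - (9 / 2) * (x0 * x1 + x0 * x2 + x1 * x2) + (27 / 2) * (x0 * x1 * x2)

lemma aFn_eq_aR {x : Fin 3 → ℝ} (hx : x ∈ Simp 3) : aFn 3 x = aR (x 0) (x 1) (x 2) := by
  have h := hx.2
  rw [Fin.sum_univ_three] at h
  have h2 : x 2 = 1 - x 0 - x 1 := by linarith
  rw [aFn3, aR, h2]
  ring

lemma cFn_eq_cR {x : Fin 3 → ℝ} (hx : x ∈ Simp 3) : cFn x = cR (x 0) (x 1) (x 2) := by
  have h := hx.2
  rw [Fin.sum_univ_three] at h
  have h2 : x 2 = 1 - x 0 - x 1 := by linarith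
  unfold cFn cR
  rw [h2]
  ring

/-! ## The summands -/

noncomputable def g0 (x0 x1 x2 y0 y1 y2 : ℝ) : ℝ := zP x0 x1 x2 y0 y1 y2
noncomputable def g1 (x0 x1 x2 y0 y1 y2 : ℝ) : ℝ :=
  nP x0 x1 x2 y0 y1 y2 * T3f (zP x0 x1 x2 y0 y1 y2 - 1)
noncomputable def g2 (x0 x1 x2 y0 y1 y2 : ℝ) : ℝ :=
  zP x0 x1 x2 y0 y1 y2 * (zP x0 x1 x2 y0 y1 y2 - 1) ^ 4
noncomputable def g3 (x0 x1 x2 y0 y1 y2 : ℝ) : ℝ :=
  zP x0 x1 x2 y0 y1 y2 * (1 + 4 * zP x0 x1 x2 y0 y1 y2) * (zP x0 x1 x2 y0 y1 y2 - 1) ^ 4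
noncomputable def g4 (x0 x1 x2 y0 y1 y2 : ℝ) : ℝ :=
  vP x0 x1 x2 y0 y1 y2 * T2pf (zP x0 x1 x2 y0 y1 y2 - 1)
noncomputable def g5 (x0 x1 x2 y0 y1 y2 : ℝ) : ℝ :=
  (zP x0 x1 x2 y0 y1 y2 ^ 2 - nP x0 x1 x2 y0 y1 y2) * nP x0 x1 x2 y0 y1 y2
    * T3pf (zP x0 x1 x2 y0 y1 y2 - 1)

/-! ## The polynomials -/

noncomputable def G1 (a c a' c' : ℝ) : ℝ :=
  1 - 1 * a' - 1 * a + 1 * a * a' + 2 * c * a' + 2 * a * c' - 2 * c * c' - 2 * a * a'^2 - 2 * a^2 * a' - 2 * c * a'^2 - 2 * a^2 * c' + 2 * c * a' * c' + 2 * a * c * c' - 2 * a^2 * a'^2 + 6 * a * c * a'^2 + 6 * a^2 * a' * c' - 8 * a * c * a' * c'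

noncomputable def G2 (a c a' c' : ℝ) : ℝ :=
  6 * a^2 * a'^2 + 10 * a * c * a' * c'

noncomputable def G3 (a c a' c' : ℝ) : ℝ :=
  30 * a^2 * a'^2 + 90 * a * c * a' * c' + 32 * c^2 * c'^2 - 16 * c^2 * a'^3 - 16 * a^3 * c'^2 + 88 * a^3 * a'^3

noncomputable def G4 (a c a' c' : ℝ) : ℝ :=
  1 + 6 * a * a' - 8 * c * c'

noncomputable def G5 (a c a' c' : ℝ) : ℝ :=
  1 * a' + 1 * a - 1 * a'^2 - 5 * a * a' - 1 * a^2 - 6 * c * a' - 6 * a * c' + 4 * c * c' + 10 * a * a'^2 + 10 * a^2 * a' + 26 * c * a'^2 + 12 * a * a' * c' + 12 * a * c * a' + 26 * a^2 * c' - 20 * c * a' * c' - 12 * a * a'^3 - 20 * a * c * c' - 41 * a^2 * a'^2 - 12 * a^3 * a' - 24 * c * a'^3 - 90 * a * c * a'^2 - 90 * a^2 * a' * c' - 24 * a^3 * c' + 20 * c * a'^2 * c' - 24 * c^2 * a'^2 - 98 * a * c * a' * c' - 24 * a^2 * c'^2 + 20 * a^2 * c * c' + 24 * c^2 * a' * c' + 24 * a * c * c'^2 + 132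 * a * c * a'^3 + 120 * a^2 * a'^2 * c' + 120 * a^2 * c * a'^2 + 132 * a^3 * a' * c' - 80 * c^2 * c'^2 + 120 * c^2 * a'^3 + 40 * a * c * a'^2 * c' + 40 * a^2 * c * a' * c' + 120 * a^3 * c'^2 - 156 * a^3 * a'^3 - 40 * c^2 * a'^2 * c' - 40 * a^2 * c * c'^2 - 60 * a^2 * c * a'^3 - 60 * a^3 * a'^2 * c' - 80 * a^2 * c * a'^2 * c'

/-- `V V'` with `V = 1 - 3a + 2c = 27 x₀x₁x₂` -/
noncomputable def VV (a c a' c' : ℝ) : ℝ := (1 - 3 * a + 2 * c) * (1 - 3 * a' + 2 * c')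

noncomputable def U1 (a c a' c' : ℝ) : ℝ := 1 - G1 a c a' c'
noncomputable def L1 (a c a' c' : ℝ) : ℝ := 1 - G1 a c a' c' - G2 a c a' c'
noncomputable def U2 (a c a' c' : ℝ) : ℝ := 1 - G1 a c a' c' - G5 a c a' c'
noncomputable def U3 (a c a' c' : ℝ) : ℝ :=
  1 - (3 / 2) * G1 a c a' c' + (1 / 2) * (VV a c a' c' * G4 a c a' c' + G3 a c a' c')
noncomputable def L3 (a c a' c' : ℝ) : ℝ :=
  1 - (3 / 2) * (G1 a c a' c' + G2 a c a' c') + (1 / 2) * (VV a c a' c' * G4 a c a' c')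

/-! ## Reflective checks of the averages -/

section checks

def zE (x0 x1 x2 y0 y1 y2 : E) : E := E.num 3 * (x0 * y0 + x1 * y1 + x2 * y2)
def nE (x0 x1 x2 y0 y1 y2 : E) : E :=
  E.num 27 * (x0 * y0 * (x1 * y1) + x0 * y0 * (x2 * y2) + x1 * y1 * (x2 * y2))
def vE (x0 x1 x2 y0 y1 y2 : E) : E := E.num 729 * (x0 * x1 * x2 * (y0 * y1 * y2))
def T3E (w : E) : E := E.num 1 - w + w ^ 2 - w ^ 3
def T2pE (w : E) : E := E.num 1 - E.num 2 * w + E.num 3 * w ^ 2 - E.num 4 * w ^ 3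
def T3pE (w : E) : E := E.num 1 - E.num 3 * w + E.num 6 * w ^ 2 - E.num 10 * w ^ 3
def g0E (x0 x1 x2 y0 y1 y2 : E) : E := zE x0 x1 x2 y0 y1 y2
def g1E (x0 x1 x2 y0 y1 y2 : E) : E := nE x0 x1 x2 y0 y1 y2 * T3E (zE x0 x1 x2 y0 y1 y2 - E.num 1)
def g2E (x0 x1 x2 y0 y1 y2 : E) : E := zE x0 x1 x2 y0 y1 y2 * (zE x0 x1 x2 y0 y1 y2 - E.num 1) ^ 4
def g3E (x0 x1 x2 y0 y1 y2 : E) : E :=
  zE x0 x1 x2 y0 y1 y2 * (E.num 1 + E.num 4 * zE x0 x1 x2 y0 y1 y2) * (zE x0 x1 x2 y0 y1 y2 - E.num 1) ^ 4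
def g4E (x0 x1 x2 y0 y1 y2 : E) : E := vE x0 x1 x2 y0 y1 y2 * T2pE (zE x0 x1 x2 y0 y1 y2 - E.num 1)
def g5E (x0 x1 x2 y0 y1 y2 : E) : E :=
  (zE x0 x1 x2 y0 y1 y2 ^ 2 - nE x0 x1 x2 y0 y1 y2) * nE x0 x1 x2 y0 y1 y2
    * T3pE (zE x0 x1 x2 y0 y1 y2 - E.num 1)
def aEE (x0 x1 x2 : E) : E := E.num 1 - E.num 3 * (x0 * x1 + x0 * x2 + x1 * x2)
/-- `2 c` -/
def cEE (x0 x1 x2 : E) : E := E.num 2 - E.num 9 * (x0 * x1 + x0 * x2 + x1 * x2) + E.num 27 * (x0 * x1 * x2)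

def G1E (A C A' C' : E) : E :=
  E.num 2 - E.num 2 * A' - E.num 2 * A + E.num 2 * A * A' + E.num 2 * C * A' + E.num 2 * A * C' - E.num 1 * C * C' - E.num 4 * A * A'^2 - E.num 4 * A^2 * A' - E.num 2 * C * A'^2 - E.num 2 * A^2 * C' + E.num 1 * C * A' * C' + E.num 1 * A * C * C' - E.num 4 * A^2 * A'^2 + E.num 6 * A * C * A'^2 + E.num 6 * A^2 * A' * C' - E.num 4 * A * C * A' * C'

noncomputable def G1I (A C A' C' : ℝ) : ℝ :=
  2 - 2 * A' - 2 * A + 2 * A * A' + 2 * C * A' + 2 * A * C' - 1 * C * C' - 4 * A * A'^2 - 4 * A^2 * A' - 2 * C * A'^2 - 2 * A^2 * C' + 1 * C * A' * C' + 1 * A * C * C' - 4 * A^2 * A'^2 + 6 * A * C * A'^2 + 6 * A^2 * A' * C' - 4 * A * C * A' * C'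

lemma G1I_eq (a c a' c' : ℝ) : G1I a (2 * c) a' (2 * c') = 2 * G1 a c a' c' := by
  unfold G1I G1
  ring

set_option linter.unusedSimpArgs false in
lemma den_G1E (vs : List ℝ) (A C A' C' : E) :
    den vs (G1E A C A' C') = G1I (den vs A) (den vs C) (den vs A') (den vs C') := by
  simp only [G1E, G1I, den_add', den_sub', den_mul', den_pow', den_num', Int.cast_ofNat, Int.cast_one]

def G2E (A C A' C' : E) : E :=
  E.num 12 * A^2 * A'^2 + E.num 5 * A * C * A' * C'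

noncomputable def G2I (A C A' C' : ℝ) : ℝ :=
  12 * A^2 * A'^2 + 5 * A * C * A' * C'

lemma G2I_eq (a c a' c' : ℝ) : G2I a (2 * c) a' (2 * c') = 2 * G2 a c a' c' := by
  unfold G2I G2
  ring

set_option linter.unusedSimpArgs false in
lemma den_G2E (vs : List ℝ) (A C A' C' : E) :
    den vs (G2E A C A' C') = G2I (den vs A) (den vs C) (den vs A') (den vs C') := by
  simp only [G2E, G2I, den_add', den_sub', den_mul', den_pow', den_num', Int.cast_ofNat, Int.cast_one]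

def G3E (A C A' C' : E) : E :=
  E.num 60 * A^2 * A'^2 + E.num 45 * A * C * A' * C' + E.num 4 * C^2 * C'^2 - E.num 8 * C^2 * A'^3 - E.num 8 * A^3 * C'^2 + E.num 176 * A^3 * A'^3

noncomputable def G3I (A C A' C' : ℝ) : ℝ :=
  60 * A^2 * A'^2 + 45 * A * C * A' * C' + 4 * C^2 * C'^2 - 8 * C^2 * A'^3 - 8 * A^3 * C'^2 + 176 * A^3 * A'^3

lemma G3I_eq (a c a' c' : ℝ) : G3I a (2 * c) a' (2 * c') = 2 * G3 a c a' c' := by
  unfold G3I G3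
  ring

set_option linter.unusedSimpArgs false in
lemma den_G3E (vs : List ℝ) (A C A' C' : E) :
    den vs (G3E A C A' C') = G3I (den vs A) (den vs C) (den vs A') (den vs C') := by
  simp only [G3E, G3I, den_add', den_sub', den_mul', den_pow', den_num', Int.cast_ofNat, Int.cast_one]

def G4E (A C A' C' : E) : E :=
  E.num 1 + E.num 6 * A * A' - E.num 2 * C * C'

noncomputable def G4I (A C A' C' : ℝ) : ℝ :=
  1 + 6 * A * A' - 2 * C * C'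

lemma G4I_eq (a c a' c' : ℝ) : G4I a (2 * c) a' (2 * c') = 1 * G4 a c a' c' := by
  unfold G4I G4
  ring

set_option linter.unusedSimpArgs false in
lemma den_G4E (vs : List ℝ) (A C A' C' : E) :
    den vs (G4E A C A' C') = G4I (den vs A) (den vs C) (den vs A') (den vs C') := by
  simp only [G4E, G4I, den_add', den_sub', den_mul', den_pow', den_num', Int.cast_ofNat, Int.cast_one]

def G5E (A C A' C' : E) : E :=
  E.num 2 * A' + E.num 2 * A - E.num 2 * A'^2 - E.num 10 * A * A' - E.num 2 * A^2 - E.num 6 * C * A' - E.num 6 * A * C' + E.num 2 * C * C' + E.num 20 * A * A'^2 + E.num 20 * A^2 * A' + E.num 26 * C * A'^2 + E.num 12 * A * A' * C' + E.num 12 * A * C * A' + E.num 26 * A^2 * C' - E.num 10 * C * A' * C' - E.num 24 * A * A'^3 - E.num 10 * A * C * C' - E.num 82 * A^2 * A'^2 - E.num 24 * A^3 * A' - E.num 24 * C * A'^3 - E.num 90 * A * C * A'^2 - E.num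 90 * A^2 * A' * C' - E.num 24 * A^3 * C' + E.num 10 * C * A'^2 * C' - E.num 12 * C^2 * A'^2 - E.num 49 * A * C * A' * C' - E.num 12 * A^2 * C'^2 + E.num 10 * A^2 * C * C' + E.num 6 * C^2 * A' * C' + E.num 6 * A * C * C'^2 + E.num 132 * A * C * A'^3 + E.num 120 * A^2 * A'^2 * C' + E.num 120 * A^2 * C * A'^2 + E.num 132 * A^3 * A' * C' - E.num 10 * C^2 * C'^2 + E.num 60 * C^2 * A'^3 + E.num 20 * A * C * A'^2 * C' + E.num 20 * A^2 * C * A' * C' + E.num 60 * A^3 * C'^2 - E.num 312 * A^3 * A'^3 - E.num 10 * C^2 * A'^2 * C' - E.num 10 * A^2 * C * C'^2 - E.num 60 * A^2 * C * A'^3 - E.num 60 * A^3 * A'^2 * C' - E.num 40 * A^2 * C * A'^2 * C'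

noncomputable def G5I (A C A' C' : ℝ) : ℝ :=
  2 * A' + 2 * A - 2 * A'^2 - 10 * A * A' - 2 * A^2 - 6 * C * A' - 6 * A * C' + 2 * C * C' + 20 * A * A'^2 + 20 * A^2 * A' + 26 * C * A'^2 + 12 * A * A' * C' + 12 * A * C * A' + 26 * A^2 * C' - 10 * C * A' * C' - 24 * A * A'^3 - 10 * A * C * C' - 82 * A^2 * A'^2 - 24 * A^3 * A' - 24 * C * A'^3 - 90 * A * C * A'^2 - 90 * A^2 * A' * C' - 24 * A^3 * C' + 10 * C * A'^2 * C' - 12 * C^2 * A'^2 - 49 * A * C * A' * C' - 12 * A^2 * C'^2 + 10 * A^2 * C * C' + 6 * C^2 * A' * C' + 6 * A * C * C'^2 + 132 * A * C * A'^3 + 120 * A^2 * A'^2 * C' + 120 * A^2 * C * A'^2 + 132 * A^3 * A' * C' - 10 * C^2 * C'^2 + 60 * C^2 * A'^3 + 20 * A * C * A'^2 * C' + 20 * A^2 * C * A' * C' + 60 * A^3 * C'^2 - 312 * A^3 * A'^3 - 10 * C^2 * A'^2 * C' - 10 * A^2 * C * C'^2 - 60 * A^2 * C * A'^3 - 60 * A^3 * A'^2 * C' - 40 * A^2 * C * A'^2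 * C'

lemma G5I_eq (a c a' c' : ℝ) : G5I a (2 * c) a' (2 * c') = 2 * G5 a c a' c' := by
  unfold G5I G5
  ring

set_option linter.unusedSimpArgs false in
lemma den_G5E (vs : List ℝ) (A C A' C' : E) :
    den vs (G5E A C A' C') = G5I (den vs A) (den vs C) (den vs A') (den vs C') := by
  simp only [G5E, G5I, den_add', den_sub', den_mul', den_pow', den_num', Int.cast_ofNat, Int.cast_one]

def VVE (A C A' C' : E) : E := (E.num 1 - E.num 3 * A + C) * (E.num 1 - E.num 3 * A' + C')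

variable (vs : List ℝ) (a b c d e f : E)

lemma den_zE : den vs (zE a b c d e f)
    = zP (den vs a) (den vs b) (den vs c) (den vs d) (den vs e) (den vs f) := by
  simp only [zE, zP, den_add', den_mul', den_num', Int.cast_ofNat]
lemma den_nE : den vs (nE a b c d e f)
    = nP (den vs a) (den vs b) (den vs c) (den vs d) (den vs e) (den vs f) := by
  simp only [nE, nP, den_add', den_mul', den_num', Int.cast_ofNat]
set_option linter.unusedSimpArgs false in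
lemma den_vE : den vs (vE a b c d e f)
    = vP (den vs a) (den vs b) (den vs c) (den vs d) (den vs e) (den vs f) := by
  simp only [vE, vP, den_add', den_mul', den_num', Int.cast_ofNat]
lemma den_T3E (w : E) : den vs (T3E w) = T3f (den vs w) := by
  simp only [T3E, T3f, den_add', den_sub', den_pow', den_num', Int.cast_one]
lemma den_T2pE (w : E) : den vs (T2pE w) = T2pf (den vs w) := by
  simp only [T2pE, T2pf, den_add', den_sub', den_mul', den_pow', den_num', Int.cast_one, Int.cast_ofNat]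
lemma den_T3pE (w : E) : den vs (T3pE w) = T3pf (den vs w) := by
  simp only [T3pE, T3pf, den_add', den_sub', den_mul', den_pow', den_num', Int.cast_one, Int.cast_ofNat]

private lemma den_one : den vs (E.num 1) = 1 := by simp only [den_num', Int.cast_one]

set_option linter.unusedSimpArgs false in
lemma den_g0E : den vs (g0E a b c d e f)
    = g0 (den vs a) (den vs b) (den vs c) (den vs d) (den vs e) (den vs f) := by
  simp only [g0E, g0, den_add', den_sub', den_mul', den_pow', den_zE, den_nE, den_vE, den_T3E, den_T2pE, den_T3pE,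
    den_num', Int.cast_one, Int.cast_ofNat]

set_option linter.unusedSimpArgs false in
lemma den_g1E : den vs (g1E a b c d e f)
    = g1 (den vs a) (den vs b) (den vs c) (den vs d) (den vs e) (den vs f) := by
  simp only [g1E, g1, den_add', den_sub', den_mul', den_pow', den_zE, den_nE, den_vE, den_T3E, den_T2pE, den_T3pE,
    den_num', Int.cast_one, Int.cast_ofNat]

set_option linter.unusedSimpArgs false in
lemma den_g2E : den vs (g2E a b c d e f)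
    = g2 (den vs a) (den vs b) (den vs c) (den vs d) (den vs e) (den vs f) := by
  simp only [g2E, g2, den_add', den_sub', den_mul', den_pow', den_zE, den_nE, den_vE, den_T3E, den_T2pE, den_T3pE,
    den_num', Int.cast_one, Int.cast_ofNat]

set_option linter.unusedSimpArgs false in
lemma den_g3E : den vs (g3E a b c d e f)
    = g3 (den vs a) (den vs b) (den vs c) (den vs d) (den vs e) (den vs f) := by
  simp only [g3E, g3, den_add', den_sub', den_mul', den_pow', den_zE, den_nE, den_vE, den_T3E, den_T2pE, den_T3pE,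
    den_num', Int.cast_one, Int.cast_ofNat]

set_option linter.unusedSimpArgs false in
lemma den_g4E : den vs (g4E a b c d e f)
    = g4 (den vs a) (den vs b) (den vs c) (den vs d) (den vs e) (den vs f) := by
  simp only [g4E, g4, den_add', den_sub', den_mul', den_pow', den_zE, den_nE, den_vE, den_T3E, den_T2pE, den_T3pE,
    den_num', Int.cast_one, Int.cast_ofNat]

set_option linter.unusedSimpArgs false in
lemma den_g5E : den vs (g5E a b c d e f)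
    = g5 (den vs a) (den vs b) (den vs c) (den vs d) (den vs e) (den vs f) := by
  simp only [g5E, g5, den_add', den_sub', den_mul', den_pow', den_zE, den_nE, den_vE, den_T3E, den_T2pE, den_T3pE,
    den_num', Int.cast_one, Int.cast_ofNat]

lemma den_aEE : den vs (aEE a b c) = aR (den vs a) (den vs b) (den vs c) := by
  simp only [aEE, aR, den_add', den_sub', den_mul', den_num', Int.cast_one, Int.cast_ofNat]

lemma den_cEE : den vs (cEE a b c) = 2 * cR (den vs a) (den vs b) (den vs c) := by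
  simp only [cEE, cR, den_add', den_sub', den_mul', den_num', Int.cast_ofNat]
  ring

lemma den_VVE (A C A' C' : E) : den vs (VVE A C A' C') =
    (1 - 3 * den vs A + den vs C) * (1 - 3 * den vs A' + den vs C') := by
  simp only [VVE, den_add', den_sub', den_mul', den_num', Int.cast_one, Int.cast_ofNat]

lemma den_sum6 {F : E → E → E → E → E → E → E} {F' : ℝ → ℝ → ℝ → ℝ → ℝ → ℝ → ℝ}
    (h : ∀ a b c d e f, den vs (F a b c d e f) = F' (den vs a) (den vs b) (den vs c) (den vs d) (den vs e) (den vs f)) :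
    den vs (sum6 F a b c d e f) = sum6 F' (den vs a) (den vs b) (den vs c) (den vs d) (den vs e) (den vs f) := by
  simp only [sum6, den_add', h]

end checks

/-- the test points: `x = (v₀, v₁, 1-v₀-v₁)`, `y = (v₂, v₃, 1-v₂-v₃)` -/
abbrev X0 : E := E.var 0
abbrev X1 : E := E.var 1
abbrev X2 : E := E.num 1 - E.var 0 - E.var 1
abbrev Y0 : E := E.var 2
abbrev Y1 : E := E.var 3
abbrev Y2 : E := E.num 1 - E.var 2 - E.var 3

section ids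
variable (x0 x1 y0 y1 : ℝ)

private lemma dX0 : den [x0, x1, y0, y1] X0 = x0 := rfl
private lemma dX1 : den [x0, x1, y0, y1] X1 = x1 := rfl
private lemma dY0 : den [x0, x1, y0, y1] Y0 = y0 := rfl
private lemma dY1 : den [x0, x1, y0, y1] Y1 = y1 := rfl
private lemma dX2 : den [x0, x1, y0, y1] X2 = 1 - x0 - x1 := by
  simp only [X2, den_sub', den_num', Int.cast_one]; rfl
private lemma dY2 : den [x0, x1, y0, y1] Y2 = 1 - y0 - y1 := by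
  simp only [Y2, den_sub', den_num', Int.cast_one]; rfl

/-- shorthand for the right-hand arguments -/
local notation "𝐚" => aR x0 x1 (1 - x0 - x1)
local notation "𝐜" => cR x0 x1 (1 - x0 - x1)
local notation "𝐚'" => aR y0 y1 (1 - y0 - y1)
local notation "𝐜'" => cR y0 y1 (1 - y0 - y1)

lemma id_g0 : sum6 g0 x0 x1 (1 - x0 - x1) y0 y1 (1 - y0 - y1) = 6 := by
  unfold sum6 g0 zP
  ring

set_option maxRecDepth 100000 in
lemma id_g1 : sum6 g1 x0 x1 (1 - x0 - x1) y0 y1 (1 - y0 - y1) = 6 * G1 𝐚 𝐜 𝐚' 𝐜' := by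
  have h := eq_of_check' (n := 4) [x0, x1, y0, y1] rfl
    (E.num 2 * sum6 g1E X0 X1 X2 Y0 Y1 Y2)
    (E.num 6 * G1E (aEE X0 X1 X2) (cEE X0 X1 X2) (aEE Y0 Y1 Y2) (cEE Y0 Y1 Y2)) (by decide +kernel)
  rw [den_mul', den_mul', den_num', den_num', den_sum6 _ _ _ _ _ _ _ (den_g1E _), den_G1E, den_aEE, den_aEE, den_cEE, den_cEE,
    G1I_eq] at h
  simp only [dX0, dX1, dX2, dY0, dY1, dY2] at h
  push_cast at h
  linarith

set_option maxRecDepth 100000 in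
lemma id_g2 : sum6 g2 x0 x1 (1 - x0 - x1) y0 y1 (1 - y0 - y1) = 6 * G2 𝐚 𝐜 𝐚' 𝐜' := by
  have h := eq_of_check' (n := 4) [x0, x1, y0, y1] rfl
    (E.num 2 * sum6 g2E X0 X1 X2 Y0 Y1 Y2)
    (E.num 6 * G2E (aEE X0 X1 X2) (cEE X0 X1 X2) (aEE Y0 Y1 Y2) (cEE Y0 Y1 Y2)) (by decide +kernel)
  rw [den_mul', den_mul', den_num', den_num', den_sum6 _ _ _ _ _ _ _ (den_g2E _), den_G2E, den_aEE, den_aEE, den_cEE, den_cEE,
    G2I_eq] at h
  simp only [dX0, dX1, dX2, dY0, dY1, dY2] at h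
  push_cast at h
  linarith

set_option maxRecDepth 100000 in
lemma id_g3 : sum6 g3 x0 x1 (1 - x0 - x1) y0 y1 (1 - y0 - y1) = 6 * G3 𝐚 𝐜 𝐚' 𝐜' := by
  have h := eq_of_check' (n := 4) [x0, x1, y0, y1] rfl
    (E.num 2 * sum6 g3E X0 X1 X2 Y0 Y1 Y2)
    (E.num 6 * G3E (aEE X0 X1 X2) (cEE X0 X1 X2) (aEE Y0 Y1 Y2) (cEE Y0 Y1 Y2)) (by decide +kernel)
  rw [den_mul', den_mul', den_num', den_num', den_sum6 _ _ _ _ _ _ _ (den_g3E _), den_G3E, den_aEE, den_aEE, den_cEE, den_cEE,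
    G3I_eq] at h
  simp only [dX0, dX1, dX2, dY0, dY1, dY2] at h
  push_cast at h
  linarith

set_option maxRecDepth 100000 in
lemma id_g5 : sum6 g5 x0 x1 (1 - x0 - x1) y0 y1 (1 - y0 - y1) = 6 * G5 𝐚 𝐜 𝐚' 𝐜' := by
  have h := eq_of_check' (n := 4) [x0, x1, y0, y1] rfl
    (E.num 2 * sum6 g5E X0 X1 X2 Y0 Y1 Y2)
    (E.num 6 * G5E (aEE X0 X1 X2) (cEE X0 X1 X2) (aEE Y0 Y1 Y2) (cEE Y0 Y1 Y2)) (by decide +kernel)
  rw [den_mul', den_mul', den_num', den_num', den_sum6 _ _ _ _ _ _ _ (den_g5E _), den_G5E, den_aEE, den_aEE, den_cEE, den_cEE,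
    G5I_eq] at h
  simp only [dX0, dX1, dX2, dY0, dY1, dY2] at h
  push_cast at h
  linarith

set_option maxRecDepth 100000 in
lemma id_g4 : sum6 g4 x0 x1 (1 - x0 - x1) y0 y1 (1 - y0 - y1) = 6 * (VV 𝐚 𝐜 𝐚' 𝐜' * G4 𝐚 𝐜 𝐚' 𝐜') := by
  have h := eq_of_check' (n := 4) [x0, x1, y0, y1] rfl
    (sum6 g4E X0 X1 X2 Y0 Y1 Y2)
    (E.num 6 * (VVE (aEE X0 X1 X2) (cEE X0 X1 X2) (aEE Y0 Y1 Y2) (cEE Y0 Y1 Y2)
      * G4E (aEE X0 X1 X2) (cEE X0 X1 X2) (aEE Y0 Y1 Y2) (cEE Y0 Y1 Y2))) (by decide +kernel)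
  rw [den_mul', den_mul', den_num', den_sum6 _ _ _ _ _ _ _ (den_g4E _), den_G4E, den_VVE, den_aEE, den_aEE, den_cEE, den_cEE,
    G4I_eq] at h
  simp only [dX0, dX1, dX2, dY0, dY1, dY2] at h
  unfold VV
  push_cast at h
  linarith

end ids

/-! ## The final bounds -/

section final
variable {x x' : Fin 3 → ℝ}

private lemma rew (hx : x ∈ Simp 3) : x 2 = 1 - x 0 - x 1 := by
  have h := hx.2
  rw [Fin.sum_univ_three] at h
  linarith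

/-- `Esig a ≤ U1` -/
theorem Esig_a_le (hx : x ∈ Simp 3) (hx' : x' ∈ Simp 3) :
    Esig 3 (aFn 3) x x' ≤ U1 (aFn 3 x) (cFn x) (aFn 3 x') (cFn x') := by
  have h := Esig_le_sum6 (f := aFn 3)
    (F := fun x0 x1 x2 y0 y1 y2 => g0 x0 x1 x2 y0 y1 y2 - g1 x0 x1 x2 y0 y1 y2) (x := x) hx' (fun y hy => by
      have := Kz_a_up (ellP_nonneg hx hy)
      rwa [Zl_ellP, Xt_ellP] at this)
  refine h.trans (le_of_eq ?_)
  rw [aFn_eq_aR hx, aFn_eq_aR hx', cFn_eq_cR hx, cFn_eq_cR hx', rew hx, rew hx', U1]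
  have i0 := id_g0 (x 0) (x 1) (x' 0) (x' 1)
  have i1 := id_g1 (x 0) (x 1) (x' 0) (x' 1)
  simp only [sum6] at i0 i1 ⊢
  linarith

/-- `L1 ≤ Esig a` -/
theorem Esig_a_ge (hx : x ∈ Simp 3) (hx' : x' ∈ Simp 3) :
    L1 (aFn 3 x) (cFn x) (aFn 3 x') (cFn x') ≤ Esig 3 (aFn 3) x x' := by
  have h := le_Esig_sum6 (f := aFn 3)
    (F := fun x0 x1 x2 y0 y1 y2 => g0 x0 x1 x2 y0 y1 y2 - g1 x0 x1 x2 y0 y1 y2 - g2 x0 x1 x2 y0 y1 y2) (x := x) hx'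
    (fun y hy => by
      have := Kz_a_low (ellP_nonneg hx hy)
      rwa [Zl_ellP, Xt_ellP] at this)
  refine le_trans (le_of_eq ?_) h
  rw [aFn_eq_aR hx, aFn_eq_aR hx', cFn_eq_cR hx, cFn_eq_cR hx', rew hx, rew hx', L1]
  have i0 := id_g0 (x 0) (x 1) (x' 0) (x' 1)
  have i1 := id_g1 (x 0) (x 1) (x' 0) (x' 1)
  have i2 := id_g2 (x 0) (x 1) (x' 0) (x' 1)
  simp only [sum6] at i0 i1 i2 ⊢
  linarith

/-- `Esig c ≤ U3` -/
theorem Esig_c_le (hx : x ∈ Simp 3) (hx' : x' ∈ Simp 3) :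
    Esig 3 cFn x x' ≤ U3 (aFn 3 x) (cFn x) (aFn 3 x') (cFn x') := by
  have h := Esig_le_sum6 (f := cFn)
    (F := fun x0 x1 x2 y0 y1 y2 => g0 x0 x1 x2 y0 y1 y2 - (3 / 2) * g1 x0 x1 x2 y0 y1 y2
      + (1 / 2) * (g4 x0 x1 x2 y0 y1 y2 + g3 x0 x1 x2 y0 y1 y2)) (x := x) hx'
    (fun y hy => by
      have := Kz_c_up (ellP_nonneg hx hy)
      rwa [Zl_ellP, Xt_ellP, Wl_ellP] at this)
  refine h.trans (le_of_eq ?_)
  rw [aFn_eq_aR hx, aFn_eq_aR hx', cFn_eq_cR hx, cFn_eq_cR hx', rew hx, rew hx', U3]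
  have i0 := id_g0 (x 0) (x 1) (x' 0) (x' 1)
  have i1 := id_g1 (x 0) (x 1) (x' 0) (x' 1)
  have i3 := id_g3 (x 0) (x 1) (x' 0) (x' 1)
  have i4 := id_g4 (x 0) (x 1) (x' 0) (x' 1)
  simp only [sum6] at i0 i1 i3 i4 ⊢
  linarith

/-- `L3 ≤ Esig c` -/
theorem Esig_c_ge (hx : x ∈ Simp 3) (hx' : x' ∈ Simp 3) :
    L3 (aFn 3 x) (cFn x) (aFn 3 x') (cFn x') ≤ Esig 3 cFn x x' := by
  have h := le_Esig_sum6 (f := cFn)
    (F := fun x0 x1 x2 y0 y1 y2 => g0 x0 x1 x2 y0 y1 y2 - (3 / 2) * (g1 x0 x1 x2 y0 y1 y2 + g2 x0 x1 x2 y0 y1 y2)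
      + (1 / 2) * g4 x0 x1 x2 y0 y1 y2) (x := x) hx'
    (fun y hy => by
      have := Kz_c_low (ellP_nonneg hx hy)
      rwa [Zl_ellP, Xt_ellP, Wl_ellP] at this)
  refine le_trans (le_of_eq ?_) h
  rw [aFn_eq_aR hx, aFn_eq_aR hx', cFn_eq_cR hx, cFn_eq_cR hx', rew hx, rew hx', L3]
  have i0 := id_g0 (x 0) (x 1) (x' 0) (x' 1)
  have i1 := id_g1 (x 0) (x 1) (x' 0) (x' 1)
  have i2 := id_g2 (x 0) (x 1) (x' 0) (x' 1)
  have i4 := id_g4 (x 0) (x 1) (x' 0) (x' 1)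
  simp only [sum6] at i0 i1 i2 i4 ⊢
  linarith

/-- `Esig a² ≤ U2` -/
theorem Esig_a2_le (hx : x ∈ Simp 3) (hx' : x' ∈ Simp 3) :
    Esig 3 (fun y => aFn 3 y ^ 2) x x' ≤ U2 (aFn 3 x) (cFn x) (aFn 3 x') (cFn x') := by
  have h := Esig_le_sum6 (f := fun y => aFn 3 y ^ 2)
    (F := fun x0 x1 x2 y0 y1 y2 => g0 x0 x1 x2 y0 y1 y2 - g1 x0 x1 x2 y0 y1 y2 - g5 x0 x1 x2 y0 y1 y2) (x := x) hx'
    (fun y hy => by
      have := Kz_a2_up (ellP_nonneg hx hy)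
      rw [Zl_ellP, Xt_ellP] at this
      unfold g0 g1 g5
      exact this)
  refine h.trans (le_of_eq ?_)
  rw [aFn_eq_aR hx, aFn_eq_aR hx', cFn_eq_cR hx, cFn_eq_cR hx', rew hx, rew hx', U2]
  have i0 := id_g0 (x 0) (x 1) (x' 0) (x' 1)
  have i1 := id_g1 (x 0) (x 1) (x' 0) (x' 1)
  have i5 := id_g5 (x 0) (x 1) (x' 0) (x' 1)
  simp only [sum6] at i0 i1 i5 ⊢
  linarith

end final

end Crest.Agent.Lib.Bc.Tail
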